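import Vale.Agent.P046.NL.Defs4

/-! P046: concentration functional of the early phase; bad local configurations -/

namespace Vale.Agent.P046.NL

open Finset Vale.Agent.P046

noncomputable section

variable {α : Type} [DecidableEq α]

/-- the part of `PsiE` that detects bad states -/
def BadE (n : ℕ) (u : ℝ) (A : Finset (Sym2 (Fin n))) : ℝ :=
  u0 n ^ (5001 : ℝ) * u ^ (-5001 : ℝ) *
    ((n : ℝ) ^ 2 / t0 e0 ^ 6 * S 6 u (toSt (BK n) A)
      + 2 * 10 ^ 12 * (n : ℝ) ^ 2 * u0 n ^ 2 * XX u A)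

/-- concentration functional of the early phase -/
def PsiDE (n : ℕ) (c kap : ℝ) (C6 C8 : Finset (Finset (Finset (Sym2 (Fin n))))) (u : ℝ)
    (A : Finset (Sym2 (Fin n))) : ℝ :=
  Real.sqrt (1 + (u ^ (1 / 2 : ℝ) * (A.card : ℝ) - c) ^ 2) + kap * PsiE n C6 C8 u A
    + (n : ℝ) ^ (1 / 100 : ℝ) * BadE n u A

/-- weighted number of alive configurations; `CB l` = family of sets of blocks with at least `l`
points, `l ≤ L` -/
def PsiN (t : ℝ) (L : ℕ) (CB : ℕ → Finset (Finset (Finset α))) (u : ℝ) (s : St α) : ℝ :=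
  ∑ l ∈ range (L + 1), u ^ ((l : ℝ) / 2 * (1 - 3 * t)) * Nc (CB l) s

end

end Vale.Agent.P046.NL
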