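import Vale.Agent.P046.NL.NCOREa
import Vale.Agent.P046.NL.NGM

/-!
P046 no-log, row NCORE: the core inequality for the functional `PsiN`, from the drift estimate
`ng_gen`.
-/

namespace Vale.Agent.P046.NL

open Finset Vale.Agent.P046

noncomputable section

theorem n_core (t : ℝ) (ht0 : 0 < t) (ht : t ≤ 1 / 100) (m L : ℕ) : ∃ u1 : ℝ, 0 < u1 ∧
    u1 ≤ 1 / 100 ∧ ∀ (α : Type) [DecidableEq α] (Bl : Finset (Finset α)), Lin3 Bl →
    ∀ CB : ℕ → Finset (Finset (Finset α)),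
    (∀ l ∈ range (L + 1), ∀ c ∈ CB l, c.card ≤ m ∧ l ≤ (c.biUnion id).card ∧ 1 ≤ l) →
    ∀ umin : ℝ, 0 < umin → ∃ E h1 : ℝ, 0 ≤ E ∧ 0 < h1 ∧
    ∀ h u : ℝ, 0 < h → h ≤ h1 → umin ≤ u → u + 2 * h ≤ u1 → ∀ s : St α,
      Inv Bl (2 * t) (u + 2 * h) s →
      PsiN t L CB (u + 2 * h) s
        + h * gen Bl (1 / (u + 2 * h)) (fun s' => PsiN t L CB (u + 2 * h) s') s
        ≤ PsiN t L CB u s + E * h ^ 2 :=
  n_core_of t ht0 ht m L (ng_gen m)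

end

end Vale.Agent.P046.NL
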