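import Vale.Agent.P046.NL.DOM

/-!
P046, removal of the logarithm: rows ITER and ITERE (domination of the real process by a
supersolution).
-/

namespace Vale.Agent.P046.NL

open Finset Vale.Agent.P046

noncomputable section

variable {α : Type} [DecidableEq α]

theorem run_card_le {Bl : Finset (Finset α)} (hL : Lin3 Bl) (A : Finset α) :
    run Bl (fun A => (A.card : ℝ)) A.card A ≤ (A.card : ℝ) := by
  refine run_le Bl hL (fun A => (A.card : ℝ)) ?_ _ A le_rfl
  intro A T _
  exact_mod_cast card_le_card sdiff_subset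

/-- [ITER] domination of the real process by a supersolution -/
theorem iter_bound {Bl : Finset (Finset α)} (hL : Lin3 Bl) (th0 h uend E : ℝ) (hh : 0 < h)
    (hE : 0 ≤ E) (P : ℝ → St α → Prop) (Psi : ℝ → St α → ℝ)
    (hsub : ∀ u s, P u s → s.W ⊆ Bl)
    (hrate : ∀ u s, P u s → u + 2 * h ≤ uend → ∀ T ∈ s.W, ∀ f ∈ T \ s.B,
      0 ≤ 1 / (u + 2 * h) * (1 + s.a f) - 1)
    (htot : ∀ u s, P u s → u + 2 * h ≤ uend →
      h * ((s.W.card : ℝ) + ∑ T ∈ s.W, ∑ f ∈ T \ s.B, (1 / (u + 2 * h) * (1 + s.a f) - 1)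
        + ((bl Bl s.A \ s.W).card : ℝ)) ≤ 1)
    (hp0 : ∀ u s, P u s → u + 2 * h ≤ uend → P (u + 2 * h) (fixs th0 (u + 2 * h) s))
    (hp1 : ∀ u s, P u s → u + 2 * h ≤ uend → ∀ T ∈ s.W,
      P (u + 2 * h) (fixs th0 (u + 2 * h) (ring s T)))
    (hp2 : ∀ u s, P u s → u + 2 * h ≤ uend → ∀ T ∈ s.W, (T \ s.B).Nonempty →
      P (u + 2 * h) (fixs th0 (u + 2 * h) (virt s T)))
    (hp3 : ∀ u s, P u s → u + 2 * h ≤ uend → ∀ T ∈ bl Bl s.A \ s.W,
      P (u + 2 * h) (fixs th0 (u + 2 * h) (nring s T)))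
    (hstep : ∀ u s, P u s → u + 2 * h ≤ uend →
      Psi (u + 2 * h) (fixs th0 (u + 2 * h) s) + h * gen Bl (1 / (u + 2 * h))
        (fun s' => Psi (u + 2 * h) (fixs th0 (u + 2 * h) s')) s ≤ Psi u s + E)
    (hend : ∀ s, P uend s → (s.A.card : ℝ) ≤ Psi uend s) :
    ∀ (k : ℕ) u s, P u s → u + 2 * h * k = uend →
      run Bl (fun A => (A.card : ℝ)) s.A.card s.A ≤ Psi u s + k * E := by
  have _ := hE
  intro k
  induction k with
  | zero =>
    intro u s hP hu
    have h1 : u = uend := by simpa using hu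
    subst h1
    have h2 := run_card_le hL s.A
    have h3 := hend s hP
    simp only [Nat.cast_zero, zero_mul, add_zero]
    linarith
  | succ k ih =>
    intro u s hP hu
    push_cast at hu
    have h0 : 0 ≤ 2 * h * k := by positivity
    have hle : u + 2 * h ≤ uend := by nlinarith
    have hu' : u + 2 * h + 2 * h * k = uend := by linarith
    set H : Finset α → ℝ := fun A => run Bl (fun A => (A.card : ℝ)) A.card A with hH
    set D : St α → ℝ := fun s' =>
      (Psi (u + 2 * h) (fixs th0 (u + 2 * h) s') + k * E) - H s'.A with hD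
    have hDn : ∀ s', P (u + 2 * h) (fixs th0 (u + 2 * h) s') → 0 ≤ D s' := by
      intro s' hs'
      have h1 := ih (u + 2 * h) _ hs' hu'
      rw [fixs_A] at h1
      simp only [hD, hH]
      linarith
    have e1 := gen_ge (Bl := Bl) (r := 1 / (u + 2 * h)) (s := s) (D := D)
      (fun T hT f hf => hrate u s hP hle T hT f hf)
      (fun T hT => hDn _ (hp1 u s hP hle T hT))
      (fun T hT hT' => hDn _ (hp2 u s hP hle T hT hT'))
      (fun T hT => hDn _ (hp3 u s hP hle T hT))
    have e2 : gen Bl (1 / (u + 2 * h)) D s =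
        gen Bl (1 / (u + 2 * h)) (fun s' => Psi (u + 2 * h) (fixs th0 (u + 2 * h) s')) s := by
      have e3 : gen Bl (1 / (u + 2 * h)) D s =
          gen Bl (1 / (u + 2 * h))
            (fun s' => Psi (u + 2 * h) (fixs th0 (u + 2 * h) s') + k * E) s -
          gen Bl (1 / (u + 2 * h)) (fun s' => H s'.A) s :=
        gen_sub _ _ _ (fun s' => Psi (u + 2 * h) (fixs th0 (u + 2 * h) s') + k * E)
          (fun s' => H s'.A)
      have e4 : gen Bl (1 / (u + 2 * h)) (fun s' => H s'.A) s = 0 := by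
        rw [gen_A (1 / (u + 2 * h)) (hsub u s hP) H]
        exact run_harm hL (fun A => (A.card : ℝ)) s.A
      have e5 : gen Bl (1 / (u + 2 * h))
            (fun s' => Psi (u + 2 * h) (fixs th0 (u + 2 * h) s') + k * E) s =
          gen Bl (1 / (u + 2 * h)) (fun s' => Psi (u + 2 * h) (fixs th0 (u + 2 * h) s')) s := by
        unfold gen
        simp only [add_sub_add_right_eq_sub]
      rw [e3, e4, e5, sub_zero]
    have e3 : 0 ≤ D s := hDn s (hp0 u s hP hle)
    have e4 : h * rate Bl (1 / (u + 2 * h)) s ≤ 1 := htot u s hP hle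
    have e5 : h * (-(rate Bl (1 / (u + 2 * h)) s) * D s) ≤ h * gen Bl (1 / (u + 2 * h)) D s :=
      mul_le_mul_of_nonneg_left e1 hh.le
    have e6 : h * rate Bl (1 / (u + 2 * h)) s * D s ≤ 1 * D s :=
      mul_le_mul_of_nonneg_right e4 e3
    have e7 := hstep u s hP hle
    rw [e2] at e5
    have e8 : D s = Psi (u + 2 * h) (fixs th0 (u + 2 * h) s) + k * E - H s.A := rfl
    have e9 : 0 ≤ D s + h * gen Bl (1 / (u + 2 * h))
        (fun s' => Psi (u + 2 * h) (fixs th0 (u + 2 * h) s')) s := by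
      have e10 : h * (-(rate Bl (1 / (u + 2 * h)) s) * D s) =
          -(h * rate Bl (1 / (u + 2 * h)) s * D s) := by ring
      linarith
    have e10 : H s.A = run Bl (fun A => (A.card : ℝ)) s.A.card s.A := rfl
    rw [← e10]
    push_cast
    linarith

/-- [ITERE] early phase: real process, bad states absorbed by the trivial bound -/
theorem iter_early {Bl : Finset (Finset α)} (hL : Lin3 Bl) (h uend E : ℝ) (hh : 0 < h)
    (hE : 0 ≤ E) (htot : h * (Bl.card : ℝ) ≤ 1) (A₀ : Finset α) (Good : ℝ → Finset α → Prop)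
    (Psi : ℝ → Finset α → ℝ)
    (hbad : ∀ u A, A ⊆ A₀ → u ≤ uend → ¬ Good u A → (A.card : ℝ) ≤ Psi u A)
    (hstep : ∀ u A, A ⊆ A₀ → u + 2 * h ≤ uend → Good u A →
      Psi (u + 2 * h) A + h * ∑ T ∈ bl Bl A, (Psi (u + 2 * h) (A \ T) - Psi (u + 2 * h) A)
        ≤ Psi u A + E)
    (hend : ∀ A, A ⊆ A₀ → Good uend A →
      run Bl (fun A => (A.card : ℝ)) A.card A ≤ Psi uend A) :
    ∀ (k : ℕ) u A, A ⊆ A₀ → u + 2 * h * k = uend →
      run Bl (fun A => (A.card : ℝ)) A.card A ≤ Psi u A + k * E := by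
  intro k
  induction k with
  | zero =>
    intro u A hA hu
    have h1 : u = uend := by simpa using hu
    subst h1
    simp only [Nat.cast_zero, zero_mul, add_zero]
    by_cases hg : Good u A
    · exact hend A hA hg
    · exact (run_card_le hL A).trans (hbad u A hA le_rfl hg)
  | succ k ih =>
    intro u A hA hu
    push_cast at hu
    have h0 : 0 ≤ 2 * h * k := by positivity
    have hle : u + 2 * h ≤ uend := by nlinarith
    have hu' : u + 2 * h + 2 * h * k = uend := by linarith
    have hkE : 0 ≤ ((k + 1 : ℕ) : ℝ) * E := by positivity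
    by_cases hg : Good u A
    · have e0 := hstep u A hA hle hg
      have e1 := run_harm hL (fun A => (A.card : ℝ)) A
      have e2 := ih (u + 2 * h) A hA hu'
      have e3 : ∀ T ∈ bl Bl A, run Bl (fun A => (A.card : ℝ)) (A \ T).card (A \ T) ≤
          Psi (u + 2 * h) (A \ T) + k * E := fun T _ =>
        ih (u + 2 * h) (A \ T) (sdiff_subset.trans hA) hu'
      set X := run Bl (fun A => (A.card : ℝ)) A.card A with hX
      have e4 : ∑ T ∈ bl Bl A, (run Bl (fun A => (A.card : ℝ)) (A \ T).card (A \ T) - X) ≤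
          ∑ T ∈ bl Bl A, (Psi (u + 2 * h) (A \ T) + k * E - X) :=
        sum_le_sum fun T hT => by linarith [e3 T hT]
      have e5 : ∑ T ∈ bl Bl A, (Psi (u + 2 * h) (A \ T) + k * E - X) =
          ∑ T ∈ bl Bl A, (Psi (u + 2 * h) (A \ T) - Psi (u + 2 * h) A) +
            ((bl Bl A).card : ℝ) * (Psi (u + 2 * h) A + k * E - X) := by
        have e50 : ((bl Bl A).card : ℝ) * (Psi (u + 2 * h) A + k * E - X) =
            ∑ _T ∈ bl Bl A, (Psi (u + 2 * h) A + k * E - X) := by
          rw [sum_const, nsmul_eq_mul]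
        rw [e50, ← sum_add_distrib]
        exact sum_congr rfl fun T _ => by ring
      rw [e1, e5] at e4
      have e6 : h * ((bl Bl A).card : ℝ) ≤ 1 := by
        refine le_trans (mul_le_mul_of_nonneg_left ?_ hh.le) htot
        exact_mod_cast bl_card_le Bl A
      have e7 : 0 ≤ Psi (u + 2 * h) A + k * E - X := by linarith
      have e8 : h * ((bl Bl A).card : ℝ) * (Psi (u + 2 * h) A + k * E - X) ≤
          1 * (Psi (u + 2 * h) A + k * E - X) := mul_le_mul_of_nonneg_right e6 e7
      have e9 := mul_le_mul_of_nonneg_left e4 hh.le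
      rw [mul_zero, mul_add] at e9
      push_cast
      nlinarith
    · have h2 := (run_card_le hL A).trans
        (hbad u A hA (by linarith) hg)
      linarith

end

end Vale.Agent.P046.NL
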