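import Vale.Agent.P046.NL.Defs2

/-! P046 no-log, row KN0: the start (the complete graph). -/

namespace Vale.Agent.P046.NL

open Finset Vale.Agent.P046

noncomputable section

/-- codegrees in the complete graph -/
theorem cd_top {n : ℕ} {a b : Fin n} (hab : a ≠ b) :
    cd (tr (univ : Finset (Fin n))) a b = (n : ℝ) - 2 := by
  unfold cd
  have h1 : (univ.filter (fun w : Fin n => s(a, w) ∈ tr (univ : Finset (Fin n)) ∧
      s(b, w) ∈ tr (univ : Finset (Fin n)))) = univ \ {a, b} := by
    ext w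
    rw [mem_filter, mk_mem_tr, mk_mem_tr, mem_sdiff, mem_insert, mem_singleton, not_or]
    simp only [mem_univ, true_and]
    constructor
    · rintro ⟨h2, h3⟩
      exact ⟨fun h => h2 h.symm, fun h => h3 h.symm⟩
    · rintro ⟨h2, h3⟩
      exact ⟨fun h => h2 h.symm, fun h => h3 h.symm⟩
  rw [h1]
  have h2 := card_sdiff_add_card_eq_card (subset_univ ({a, b} : Finset (Fin n)))
  rw [card_pair hab, card_univ, Fintype.card_fin] at h2
  have h3 : ((univ \ {a, b} : Finset (Fin n)).card : ℝ) + 2 = n := by exact_mod_cast h2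
  linarith

/-- [KN0] start -/
theorem start_XX (n : ℕ) (hn : 3 ≤ n) :
    XX (1 / ((n : ℝ) - 2)) (tr (univ : Finset (Fin n))) = 0 := by
  have hn3 : (3 : ℝ) ≤ n := by exact_mod_cast hn
  have hne : (n : ℝ) - 2 ≠ 0 := by
    intro h
    linarith
  unfold XX
  refine sum_eq_zero fun a _ => sum_eq_zero fun b hb => ?_
  rw [cd_top (ne_of_mem_erase hb).symm, one_div, inv_mul_cancel₀ hne]
  norm_num

theorem start_xv (n : ℕ) (hn : 3 ≤ n) (e : Sym2 (Fin n)) (he : e ∈ tr (univ : Finset (Fin n))) :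
    xv (1 / ((n : ℝ) - 2)) (toSt (BK n) (tr (univ : Finset (Fin n)))) e = 0 := by
  have hn3 : (3 : ℝ) ≤ n := by exact_mod_cast hn
  have hne : (n : ℝ) - 2 ≠ 0 := by
    intro h
    linarith
  have h1 : dW (toSt (BK n) (tr (univ : Finset (Fin n)))).W e = (n : ℝ) - 2 := by
    have h2 := dg_top n e (by rw [EE_top]; exact he)
    rw [EE_top] at h2
    unfold dg at h2
    change (((bl (BK n) (tr (univ : Finset (Fin n)))).filter (fun T => e ∈ T)).card : ℝ) = _
    rw [h2, Nat.cast_sub (by omega)]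
    norm_num
  unfold xv
  rw [if_pos (show e ∈ (toSt (BK n) (tr (univ : Finset (Fin n)))).B from he), h1, one_div,
    inv_mul_cancel₀ hne]
  norm_num

end

end Vale.Agent.P046.NL
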