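import Vale.Agent.P046.NL.Defs3
import Vale.Agent.P046.NL.ITER
import Vale.Agent.P046.NL.KN0

/-! P046 no-log, row EARLYTHM: the early phase for `K_n`. -/

namespace Vale.Agent.P046.NL

open Finset Vale.Agent.P046

noncomputable section

namespace ET

theorem V_real {α : Type} [DecidableEq α] (Bl : Finset (Finset α)) (A : Finset α) :
    V (toSt Bl A) = 0 := by
  unfold V
  refine sum_eq_zero fun T hT => ?_
  have h1 : T ⊆ A := (mem_filter.mp hT).2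
  have h2 : T \ (toSt Bl A).B = ∅ := sdiff_eq_empty_iff_subset.mpr h1
  rw [h2]
  simp

theorem Ph_real {α : Type} [DecidableEq α] (Bl : Finset (Finset α)) (dl u : ℝ) (A : Finset α) :
    Ph Bl dl u (toSt Bl A) = 0 := by
  unfold Ph toSt
  simp

theorem S_nonneg {α : Type} [DecidableEq α] (k : ℕ) (hk : Even k) (u : ℝ) (s : St α) :
    0 ≤ S k u s := sum_nonneg fun _ _ => hk.pow_nonneg _

theorem Sb_nonneg {α : Type} [DecidableEq α] (u : ℝ) (s : St α) : 0 ≤ Sb u s :=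
  sum_nonneg fun _ _ => sq_nonneg _

theorem XX_nonneg {n : ℕ} (u : ℝ) (A : Finset (Sym2 (Fin n))) : 0 ≤ XX u A :=
  sum_nonneg fun _ _ => sum_nonneg fun _ _ => sq_nonneg _

theorem Nc_nonneg {α : Type} [DecidableEq α] (C : Finset (Finset (Finset α))) (s : St α) :
    0 ≤ Nc C s := Nat.cast_nonneg _

theorem Q_nonneg {α : Type} [DecidableEq α] (s : St α) : 0 ≤ Q s := Nat.cast_nonneg _

theorem e0_pos : 0 < e0 := by unfold e0; norm_num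

theorem t0_pos : 0 < t0 e0 := by unfold t0 e0; norm_num

theorem first_nonneg {u q : ℝ} (hu : 0 < u) (hu1 : u ≤ 1) (hq : 0 ≤ q) :
    0 ≤ u ^ (1 / 2 : ℝ) * q - u ^ (1 / 2 + e0 / 4 : ℝ) * q := by
  have h1 : u ^ (1 / 2 + e0 / 4 : ℝ) ≤ u ^ (1 / 2 : ℝ) :=
    Real.rpow_le_rpow_of_exponent_ge hu hu1 (by have := e0_pos; linarith)
  nlinarith [mul_le_mul_of_nonneg_right h1 hq]

/-- all the other terms of `PsiE` -/
theorem psiE_ge {n : ℕ} (hn : 1 ≤ n) (C6 C8 : Finset (Finset (Finset (Sym2 (Fin n))))) {u : ℝ}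
    (hu : 0 < u) (hu1 : u ≤ 1) (A : Finset (Sym2 (Fin n))) :
    u0 n ^ (5001 : ℝ) * u ^ (-5001 : ℝ) *
      ((n : ℝ) ^ 2 / t0 e0 ^ 6 * S 6 u (toSt (BK n) A)
        + 2 * 10 ^ 12 * (n : ℝ) ^ 2 * u0 n ^ 2 * XX u A) ≤ PsiE n C6 C8 u A := by
  have hn' : (0 : ℝ) < n := by exact_mod_cast hn
  have hU : 0 < u0 n := by unfold u0; exact Real.rpow_pos_of_pos hn' _
  have f0 := first_nonneg hu hu1 (Q_nonneg (toSt (BK n) A))
  have f1 : 0 ≤ u0 n ^ (5001 : ℝ) * u ^ (-5001 : ℝ) :=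
    mul_nonneg (Real.rpow_nonneg hU.le _) (Real.rpow_nonneg hu.le _)
  have f2 : 0 ≤ (n : ℝ) ^ (1 / 10 : ℝ) * S 2 u (toSt (BK n) A) :=
    mul_nonneg (Real.rpow_nonneg hn'.le _) (S_nonneg 2 (by decide) _ _)
  have f3 : 0 ≤ 1000 / e0 * u0 n ^ (-(1 / 2 + e0) : ℝ) * S 4 u (toSt (BK n) A) :=
    mul_nonneg (mul_nonneg (div_nonneg (by norm_num) e0_pos.le) (Real.rpow_nonneg hU.le _))
      (S_nonneg 4 (by decide) _ _)
  have f4 : 0 ≤ u0 n ^ (-(1 / 2 + e0) : ℝ) * Sb u (toSt (BK n) A) :=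
    mul_nonneg (Real.rpow_nonneg hU.le _) (Sb_nonneg _ _)
  have f5 : 0 ≤ u ^ (11 / 4 : ℝ) * Nc C6 (toSt (BK n) A) :=
    mul_nonneg (Real.rpow_nonneg hu.le _) (Nc_nonneg _ _)
  have f6 : 0 ≤ 10 ^ 6 * u0 n ^ (-(1 / 4 + e0) : ℝ) * u ^ (15 / 4 : ℝ) *
      Nc C8 (toSt (BK n) A) :=
    mul_nonneg (mul_nonneg (mul_nonneg (by norm_num) (Real.rpow_nonneg hU.le _))
      (Real.rpow_nonneg hu.le _)) (Nc_nonneg _ _)
  have f7 : 0 ≤ u0 n ^ (5001 : ℝ) * u ^ (-5001 : ℝ) *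
      ((n : ℝ) ^ (1 / 10 : ℝ) * S 2 u (toSt (BK n) A)
        + 1000 / e0 * u0 n ^ (-(1 / 2 + e0) : ℝ) * S 4 u (toSt (BK n) A)) :=
    mul_nonneg f1 (add_nonneg f2 f3)
  unfold PsiE
  nlinarith [f0, f4, f5, f6, f7]

theorem psiE_nonneg {n : ℕ} (hn : 1 ≤ n) (C6 C8 : Finset (Finset (Finset (Sym2 (Fin n)))))
    {u : ℝ} (hu : 0 < u) (hu1 : u ≤ 1) (A : Finset (Sym2 (Fin n))) :
    0 ≤ PsiE n C6 C8 u A := by
  refine le_trans ?_ (psiE_ge hn C6 C8 hu hu1 A)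
  have hn' : (0 : ℝ) < n := by exact_mod_cast hn
  have hU : 0 < u0 n := by unfold u0; exact Real.rpow_pos_of_pos hn' _
  refine mul_nonneg (mul_nonneg (Real.rpow_nonneg hU.le _) (Real.rpow_nonneg hu.le _)) ?_
  refine add_nonneg (mul_nonneg (div_nonneg (sq_nonneg _) (pow_nonneg t0_pos.le _))
    (S_nonneg 6 (by decide) _ _)) (mul_nonneg ?_ (XX_nonneg _ _))
  positivity

theorem card_tr (n : ℕ) : ((tr (univ : Finset (Fin n))).card : ℝ) ≤ (n : ℝ) ^ 2 := by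
  have h1 : (tr (univ : Finset (Fin n))).card ≤ n * n := by
    unfold tr
    refine card_image_le.trans ?_
    rw [offDiag_card, card_univ, Fintype.card_fin]
    exact Nat.sub_le _ _
  calc ((tr (univ : Finset (Fin n))).card : ℝ) ≤ ((n * n : ℕ) : ℝ) := by exact_mod_cast h1
    _ = (n : ℝ) ^ 2 := by push_cast; ring

/-- bad states: the functional is at least `n ^ 2` -/
theorem psiE_bad {n : ℕ} (hn : 1 ≤ n) (C6 C8 : Finset (Finset (Finset (Sym2 (Fin n))))) {u : ℝ}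
    (hu : 0 < u) (hu1 : u ≤ 1) (huU : u ≤ u0 n) (A : Finset (Sym2 (Fin n)))
    (hbad : ¬ GoodE n u A) : (n : ℝ) ^ 2 ≤ PsiE n C6 C8 u A := by
  refine le_trans ?_ (psiE_ge hn C6 C8 hu hu1 A)
  have hn' : (0 : ℝ) < n := by exact_mod_cast hn
  have hU : 0 < u0 n := by unfold u0; exact Real.rpow_pos_of_pos hn' _
  have g1 : 1 ≤ u0 n ^ (5001 : ℝ) * u ^ (-5001 : ℝ) := by
    rw [Real.rpow_neg hu.le, ← div_eq_mul_inv, one_le_div (Real.rpow_pos_of_pos hu _)]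
    exact Real.rpow_le_rpow hu.le huU (by norm_num)
  have g2 : 0 ≤ (n : ℝ) ^ 2 / t0 e0 ^ 6 * S 6 u (toSt (BK n) A) :=
    mul_nonneg (div_nonneg (sq_nonneg _) (pow_nonneg t0_pos.le _)) (S_nonneg 6 (by decide) _ _)
  have g3 : 0 ≤ 2 * 10 ^ 12 * (n : ℝ) ^ 2 * u0 n ^ 2 * XX u A :=
    mul_nonneg (by positivity) (XX_nonneg _ _)
  have g4 : (n : ℝ) ^ 2 ≤ (n : ℝ) ^ 2 / t0 e0 ^ 6 * S 6 u (toSt (BK n) A)
      + 2 * 10 ^ 12 * (n : ℝ) ^ 2 * u0 n ^ 2 * XX u A := by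
    unfold GoodE at hbad
    rw [not_and_or, not_le, not_le] at hbad
    rcases hbad with h | h
    · have h1 : (n : ℝ) ^ 2 ≤ (n : ℝ) ^ 2 / t0 e0 ^ 6 * S 6 u (toSt (BK n) A) := by
        rw [div_mul_eq_mul_div, le_div_iff₀ (pow_pos t0_pos _)]
        exact mul_le_mul_of_nonneg_left h.le (sq_nonneg _)
      linarith
    · have h1 : u ^ 2 ≤ u0 n ^ 2 := pow_le_pow_left₀ hu.le huU 2
      have h2 : 2 * 10 ^ 12 * XX u A * u ^ 2 ≤ 2 * 10 ^ 12 * XX u A * u0 n ^ 2 :=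
        mul_le_mul_of_nonneg_left h1 (mul_nonneg (by norm_num) (XX_nonneg _ _))
      have h3 : (n : ℝ) ^ 2 * 1 ≤ (n : ℝ) ^ 2 * (2 * 10 ^ 12 * XX u A * u0 n ^ 2) :=
        mul_le_mul_of_nonneg_left (by linarith) (sq_nonneg _)
      nlinarith
  calc (n : ℝ) ^ 2 ≤ 1 * ((n : ℝ) ^ 2 / t0 e0 ^ 6 * S 6 u (toSt (BK n) A)
      + 2 * 10 ^ 12 * (n : ℝ) ^ 2 * u0 n ^ 2 * XX u A) := by rw [one_mul]; exact g4
    _ ≤ _ := mul_le_mul_of_nonneg_right g1 (add_nonneg g2 g3)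

/-- the end of the early phase -/
theorem psiM_le_psiE {n : ℕ} (hn : 1 ≤ n) (C6 C8 : Finset (Finset (Finset (Sym2 (Fin n)))))
    (A : Finset (Sym2 (Fin n))) :
    PsiM e0 (BK n) C6 C8 (u0 n) (toSt (BK n) A) ≤ PsiE n C6 C8 (u0 n) A := by
  have hn' : (0 : ℝ) < n := by exact_mod_cast hn
  have hn1 : (1 : ℝ) ≤ n := by exact_mod_cast hn
  have hU : 0 < u0 n := by unfold u0; exact Real.rpow_pos_of_pos hn' _
  have h1 : u0 n ^ (5001 : ℝ) * u0 n ^ (-5001 : ℝ) = 1 := by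
    rw [← Real.rpow_add hU]
    norm_num
  have h2 : u0 n ^ (-(1 / 4 + e0) : ℝ) * u0 n ^ (15 / 4 : ℝ) = u0 n ^ (7 / 2 - e0 : ℝ) := by
    rw [← Real.rpow_add hU]
    congr 1
    ring
  have h3 : 1 ≤ (n : ℝ) ^ (1 / 10 : ℝ) := Real.one_le_rpow hn1 (by norm_num)
  have h4 : 1 * S 2 (u0 n) (toSt (BK n) A) ≤ (n : ℝ) ^ (1 / 10 : ℝ) *
      S 2 (u0 n) (toSt (BK n) A) :=
    mul_le_mul_of_nonneg_right h3 (S_nonneg 2 (by decide) _ _)
  have h5 : 0 ≤ (n : ℝ) ^ 2 / t0 e0 ^ 6 * S 6 (u0 n) (toSt (BK n) A) :=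
    mul_nonneg (div_nonneg (sq_nonneg _) (pow_nonneg t0_pos.le _)) (S_nonneg 6 (by decide) _ _)
  have h6 : 0 ≤ 2 * 10 ^ 12 * (n : ℝ) ^ 2 * u0 n ^ 2 * XX (u0 n) A :=
    mul_nonneg (by positivity) (XX_nonneg _ _)
  unfold PsiM PsiE
  rw [V_real, Ph_real, h1, mul_assoc ((10 : ℝ) ^ 6) (u0 n ^ (-(1 / 4 + e0) : ℝ)) _, h2]
  nlinarith

theorem good_xv {n : ℕ} {u : ℝ} {A : Finset (Sym2 (Fin n))} (h : GoodE n u A) :
    ∀ e ∈ A, |xv u (toSt (BK n) A) e| ≤ t0 e0 := by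
  intro e he
  have h1 : (xv u (toSt (BK n) A) e) ^ 6 ≤ S 6 u (toSt (BK n) A) :=
    single_le_sum (f := fun e => (xv u (toSt (BK n) A) e) ^ 6)
      (fun _ _ => (by decide : Even 6).pow_nonneg _) (show e ∈ (toSt (BK n) A).B from he)
  have h2 : |xv u (toSt (BK n) A) e| ^ 6 ≤ t0 e0 ^ 6 := by
    rw [(by decide : Even 6).pow_abs]
    exact h1.trans h.1
  exact le_of_pow_le_pow_left₀ (by norm_num) t0_pos.le h2

/-- the value at the start -/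
theorem start {n : ℕ} (hn : 4 ≤ n) (C6 C8 : Finset (Finset (Finset (Sym2 (Fin n)))))
    (hC6 : (C6.card : ℝ) ≤ 10 ^ 4 * (n : ℝ) ^ 4) (hC8 : (C8.card : ℝ) ≤ 10 ^ 5 * (n : ℝ) ^ 5) :
    PsiE n C6 C8 (1 / ((n : ℝ) - 2)) (tr univ) ≤ 2 * 10 ^ 12 * (n : ℝ) ^ (3 / 2 : ℝ) := by
  have hn4 : (4 : ℝ) ≤ n := by exact_mod_cast hn
  have hn' : (0 : ℝ) < n := by linarith
  set u : ℝ := 1 / ((n : ℝ) - 2) with hu
  have hupos : 0 < u := by
    rw [hu]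
    exact div_pos one_pos (by linarith)
  have hu2 : u ≤ 2 * (n : ℝ)⁻¹ := by
    rw [hu, div_le_iff₀ (by linarith)]
    have : 2 * (n : ℝ)⁻¹ * ((n : ℝ) - 2) = 2 - 4 * (n : ℝ)⁻¹ := by
      field_simp
      ring
    rw [this]
    have h4 : (n : ℝ)⁻¹ ≤ 4⁻¹ := inv_anti₀ (by norm_num) hn4
    linarith
  have hx : ∀ e ∈ tr (univ : Finset (Fin n)), xv u (toSt (BK n) (tr univ)) e = 0 :=
    fun e he => start_xv n (by omega) e he
  have hS : ∀ k : ℕ, k ≠ 0 → S k u (toSt (BK n) (tr univ)) = 0 := by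
    intro k hk
    refine sum_eq_zero fun e he => ?_
    rw [hx e he, zero_pow hk]
  have hSb : Sb u (toSt (BK n) (tr univ)) = 0 := by
    refine sum_eq_zero fun e he => ?_
    have hb : be u (toSt (BK n) (tr univ)) e = 0 := by
      unfold be
      rw [sum_eq_zero, mul_zero]
      intro T hT
      unfold sm
      refine sum_eq_zero fun f hf => ?_
      refine hx f ?_
      have h1 : T ∈ bl (BK n) (tr univ) := (mem_filter.mp hT).1
      exact (mem_filter.mp h1).2 (mem_of_mem_erase hf)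
    rw [hb]
    norm_num
  have hX : XX u (tr (univ : Finset (Fin n))) = 0 := start_XX n (by omega)
  have hQ : Q (toSt (BK n) (tr (univ : Finset (Fin n)))) ≤ (n : ℝ) ^ 2 := card_tr n
  have hQ0 := Q_nonneg (toSt (BK n) (tr (univ : Finset (Fin n))))
  have hN6 : Nc C6 (toSt (BK n) (tr univ)) ≤ 10 ^ 4 * (n : ℝ) ^ 4 := by
    refine le_trans ?_ hC6
    unfold Nc
    exact_mod_cast card_le_card (filter_subset _ _)
  have hN8 : Nc C8 (toSt (BK n) (tr univ)) ≤ 10 ^ 5 * (n : ℝ) ^ 5 := by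
    refine le_trans ?_ hC8
    unfold Nc
    exact_mod_cast card_le_card (filter_subset _ _)
  have pw : ∀ a : ℝ, 0 ≤ a → a ≤ 4 → u ^ a ≤ 16 * (n : ℝ) ^ (-a) := by
    intro a ha ha4
    calc u ^ a ≤ (2 * (n : ℝ)⁻¹) ^ a := Real.rpow_le_rpow hupos.le hu2 ha
      _ = 2 ^ a * (n : ℝ) ^ (-a) := by
        rw [Real.mul_rpow (by norm_num) (by positivity), Real.rpow_neg hn'.le,
          Real.inv_rpow hn'.le]
      _ ≤ 16 * (n : ℝ) ^ (-a) := by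
        refine mul_le_mul_of_nonneg_right ?_ (Real.rpow_nonneg hn'.le _)
        calc (2 : ℝ) ^ a ≤ 2 ^ (4 : ℝ) := Real.rpow_le_rpow_of_exponent_le (by norm_num) ha4
          _ = 16 := by norm_num
  have i1 : u ^ (1 / 2 : ℝ) * Q (toSt (BK n) (tr (univ : Finset (Fin n)))) ≤
      16 * (n : ℝ) ^ (3 / 2 : ℝ) := by
    calc u ^ (1 / 2 : ℝ) * Q (toSt (BK n) (tr (univ : Finset (Fin n))))
        ≤ (16 * (n : ℝ) ^ (-(1 / 2) : ℝ)) * (n : ℝ) ^ 2 :=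
          mul_le_mul (pw _ (by norm_num) (by norm_num)) hQ hQ0 (by positivity)
      _ = 16 * (n : ℝ) ^ (3 / 2 : ℝ) := by
        rw [mul_assoc, ← Real.rpow_natCast (n : ℝ) 2, ← Real.rpow_add hn']
        norm_num
  have i2 : u ^ (11 / 4 : ℝ) * Nc C6 (toSt (BK n) (tr univ)) ≤
      160000 * (n : ℝ) ^ (3 / 2 : ℝ) := by
    calc u ^ (11 / 4 : ℝ) * Nc C6 (toSt (BK n) (tr univ))
        ≤ (16 * (n : ℝ) ^ (-(11 / 4) : ℝ)) * (10 ^ 4 * (n : ℝ) ^ 4) :=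
          mul_le_mul (pw _ (by norm_num) (by norm_num)) hN6 (Nc_nonneg _ _) (by positivity)
      _ = 160000 * (n : ℝ) ^ (5 / 4 : ℝ) := by
        have : (n : ℝ) ^ (-(11 / 4) : ℝ) * (n : ℝ) ^ 4 = (n : ℝ) ^ (5 / 4 : ℝ) := by
          rw [← Real.rpow_natCast (n : ℝ) 4, ← Real.rpow_add hn']
          norm_num
        rw [← this]
        ring
      _ ≤ 160000 * (n : ℝ) ^ (3 / 2 : ℝ) := by
        refine mul_le_mul_of_nonneg_left ?_ (by norm_num)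
        exact Real.rpow_le_rpow_of_exponent_le (by linarith) (by norm_num)
  have i3 : u0 n ^ (-(1 / 4 + e0) : ℝ) ≤ (n : ℝ) ^ (1 / 4 : ℝ) := by
    unfold u0
    rw [← Real.rpow_mul hn'.le]
    refine Real.rpow_le_rpow_of_exponent_le (by linarith) ?_
    unfold c0 e0
    norm_num
  have i4 : 10 ^ 6 * u0 n ^ (-(1 / 4 + e0) : ℝ) * u ^ (15 / 4 : ℝ) *
      Nc C8 (toSt (BK n) (tr univ)) ≤ 16 * 10 ^ 11 * (n : ℝ) ^ (3 / 2 : ℝ) := by
    have hU : 0 < u0 n := by unfold u0; exact Real.rpow_pos_of_pos hn' _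
    calc 10 ^ 6 * u0 n ^ (-(1 / 4 + e0) : ℝ) * u ^ (15 / 4 : ℝ) *
        Nc C8 (toSt (BK n) (tr univ))
        ≤ (10 ^ 6 * (n : ℝ) ^ (1 / 4 : ℝ) * (16 * (n : ℝ) ^ (-(15 / 4) : ℝ))) *
          (10 ^ 5 * (n : ℝ) ^ 5) := by
          refine mul_le_mul (mul_le_mul (mul_le_mul_of_nonneg_left i3 (by norm_num))
            (pw _ (by norm_num) (by norm_num)) (Real.rpow_nonneg hupos.le _) (by positivity))
            hN8 (Nc_nonneg _ _) (by positivity)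
      _ = 16 * 10 ^ 11 * ((n : ℝ) ^ (1 / 4 : ℝ) * (n : ℝ) ^ (-(15 / 4) : ℝ) * (n : ℝ) ^ 5) := by
        ring
      _ = 16 * 10 ^ 11 * (n : ℝ) ^ (3 / 2 : ℝ) := by
        rw [← Real.rpow_natCast (n : ℝ) 5, ← Real.rpow_add hn', ← Real.rpow_add hn']
        norm_num
  have i5 : 0 ≤ u ^ (1 / 2 + e0 / 4 : ℝ) * Q (toSt (BK n) (tr (univ : Finset (Fin n)))) :=
    mul_nonneg (Real.rpow_nonneg hupos.le _) hQ0
  have i6 : 0 ≤ (n : ℝ) ^ (3 / 2 : ℝ) := Real.rpow_nonneg hn'.le _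
  unfold PsiE
  rw [hS 2 (by norm_num), hS 4 (by norm_num), hS 6 (by norm_num), hSb, hX]
  simp only [mul_zero, add_zero]
  linarith

/-- eventually the early phase is a non-empty interval below `u1` -/
theorem ev_u0 (u1 : ℝ) (hu1 : 0 < u1) : ∃ n2 : ℕ, ∀ n : ℕ, n2 ≤ n →
    4 ≤ n ∧ u0 n ≤ u1 ∧ u0 n ≤ 1 ∧ 1 / ((n : ℝ) - 2) < u0 n := by
  have t1 : Filter.Tendsto (fun n : ℕ => (n : ℝ) ^ (-(1 - 2 * c0) : ℝ)) Filter.atTop (nhds 0) :=
    (tendsto_rpow_neg_atTop (y := 1 - 2 * c0) (by unfold c0; norm_num)).comp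
      tendsto_natCast_atTop_atTop
  have t2 : Filter.Tendsto (fun n : ℕ => (n : ℝ) ^ (2 * c0 : ℝ)) Filter.atTop Filter.atTop :=
    (tendsto_rpow_atTop (y := 2 * c0) (by unfold c0; norm_num)).comp
      tendsto_natCast_atTop_atTop
  have e1 := t1.eventually (eventually_le_nhds (show (0 : ℝ) < min u1 1 from
    lt_min hu1 one_pos))
  have e2 := t2.eventually_gt_atTop 2
  obtain ⟨n2, hn2⟩ := Filter.eventually_atTop.mp (e1.and (e2.and (Filter.eventually_ge_atTop 4)))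
  refine ⟨n2, fun n hn => ?_⟩
  obtain ⟨h1, h2, h3⟩ := hn2 n hn
  have hn4 : (4 : ℝ) ≤ n := by exact_mod_cast h3
  have hn' : (0 : ℝ) < n := by linarith
  have hU : u0 n = (n : ℝ) ^ (-(1 - 2 * c0) : ℝ) := by
    unfold u0
    congr 1
    ring
  refine ⟨h3, ?_, ?_, ?_⟩
  · rw [hU]
    exact h1.trans (min_le_left _ _)
  · rw [hU]
    exact h1.trans (min_le_right _ _)
  · have h4 : u0 n = (n : ℝ)⁻¹ * (n : ℝ) ^ (2 * c0 : ℝ) := by
      unfold u0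
      rw [Real.rpow_add hn', Real.rpow_neg_one]
    rw [h4, div_lt_iff₀ (by linarith)]
    have h5 : (n : ℝ)⁻¹ * ((n : ℝ) - 2) = 1 - 2 * (n : ℝ)⁻¹ := by
      field_simp
    have h6 : (n : ℝ)⁻¹ ≤ 4⁻¹ := inv_anti₀ (by norm_num) hn4
    have h7 : (n : ℝ)⁻¹ * (n : ℝ) ^ (2 * c0 : ℝ) * ((n : ℝ) - 2) =
        ((n : ℝ)⁻¹ * ((n : ℝ) - 2)) * (n : ℝ) ^ (2 * c0 : ℝ) := by ring
    rw [h7, h5]
    nlinarith

end ET

/-- [EARLYTHM] from the statements of MIDTHM (for `e0`), EARLYCORE and SYSBK -/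
theorem early_thm_of
    (h_mid : ∃ u1 K : ℝ, 0 < u1 ∧ 0 < K ∧
      ∀ (α : Type) [DecidableEq α] (Bl : Finset (Finset α)) (C6 C8 : Finset (Finset (Finset α))),
      Sys Bl C6 C8 → ∀ u0, 0 < u0 → u0 ≤ u1 → ∀ A : Finset α,
        (∀ e ∈ A, |xv u0 (toSt Bl A) e| ≤ t0 e0) →
        run Bl (fun A => (A.card : ℝ)) A.card A ≤ K * PsiM e0 Bl C6 C8 u0 (toSt Bl A))
    (h_core : ∃ n0 : ℕ, ∀ n : ℕ, n0 ≤ n →
      ∀ (C6 C8 : Finset (Finset (Finset (Sym2 (Fin n))))), Sys (BK n) C6 C8 →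
      ∃ E h1 : ℝ, 0 ≤ E ∧ 0 < h1 ∧ ∀ h u : ℝ, 0 < h → h ≤ h1 → 1 / ((n : ℝ) - 2) ≤ u →
        u + 2 * h ≤ u0 n → ∀ A : Finset (Sym2 (Fin n)), A ⊆ tr univ → GoodE n u A →
        PsiE n C6 C8 (u + 2 * h) A
          + h * ∑ T ∈ bl (BK n) A, (PsiE n C6 C8 (u + 2 * h) (A \ T) - PsiE n C6 C8 (u + 2 * h) A)
          ≤ PsiE n C6 C8 u A + h * (n : ℝ) ^ (249 / 100 : ℝ) + E * h ^ 2)
    (h_sys : ∀ n : ℕ, ∃ C6 C8 : Finset (Finset (Finset (Sym2 (Fin n)))), Sys (BK n) C6 C8 ∧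
      (C6.card : ℝ) ≤ 10 ^ 4 * (n : ℝ) ^ 4 ∧ (C8.card : ℝ) ≤ 10 ^ 5 * (n : ℝ) ^ 5) :
    ∃ (n0 : ℕ) (C : ℝ), ∀ n : ℕ, n0 ≤ n →
      run (BK n) (fun A => (A.card : ℝ)) (tr (univ : Finset (Fin n))).card
        (tr (univ : Finset (Fin n))) ≤ C * (n : ℝ) ^ (3 / 2 : ℝ) := by
  obtain ⟨u1, K, hu1, hK, hmid⟩ := h_mid
  obtain ⟨n1, hcore⟩ := h_core
  obtain ⟨n2, hn2⟩ := ET.ev_u0 u1 hu1
  set K' : ℝ := max 1 K with hK'
  have hK1 : 1 ≤ K' := le_max_left _ _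
  have hK2 : K ≤ K' := le_max_right _ _
  have hK0 : 0 < K' := lt_of_lt_of_le one_pos hK1
  refine ⟨max n1 n2, K' * (2 * 10 ^ 12 + 2), fun n hn => ?_⟩
  obtain ⟨hn4, hU1, hU2, hU3⟩ := hn2 n ((le_max_right _ _).trans hn)
  obtain ⟨C6, C8, hSys, hC6, hC8⟩ := h_sys n
  obtain ⟨E, h1, hE, hh1, hstep⟩ := hcore n ((le_max_left _ _).trans hn) C6 C8 hSys
  have hnr4 : (4 : ℝ) ≤ n := by exact_mod_cast hn4
  have hn' : (0 : ℝ) < n := by linarith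
  have hn1 : 1 ≤ n := by omega
  have hus : 0 < 1 / ((n : ℝ) - 2) := div_pos one_pos (by linarith)
  set us : ℝ := 1 / ((n : ℝ) - 2) with hus_def
  have hU0 : 0 < u0 n := hus.trans hU3
  -- the number of steps
  set L : ℝ := (u0 n - us) / 2 with hL
  have hLpos : 0 < L := by rw [hL]; linarith
  have hL1 : L ≤ 1 := by rw [hL]; linarith
  have hLU : L ≤ u0 n := by rw [hL]; linarith
  obtain ⟨k, hk⟩ := exists_nat_ge (1 + L / h1 + L * ((BK n).card : ℝ) + L * E)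
  have hb0 : 0 ≤ L / h1 := (div_pos hLpos hh1).le
  have hb1 : 0 ≤ L * ((BK n).card : ℝ) := mul_nonneg hLpos.le (Nat.cast_nonneg _)
  have hb2 : 0 ≤ L * E := mul_nonneg hLpos.le hE
  have hk1 : (1 : ℝ) ≤ k := by linarith
  have hk0 : (0 : ℝ) < k := by linarith
  set h : ℝ := L / k with hh
  have hhpos : 0 < h := div_pos hLpos hk0
  have hkh : (k : ℝ) * h = L := by rw [hh]; field_simp
  have hhh1 : h ≤ h1 := by
    rw [hh, div_le_iff₀ hk0, mul_comm, ← div_le_iff₀ hh1]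
    linarith
  have hhBK : h * ((BK n).card : ℝ) ≤ 1 := by
    rw [hh, div_mul_eq_mul_div, div_le_one hk0]
    linarith
  have hhE : E * h ≤ 1 := by
    rw [hh, mul_div_assoc', div_le_one hk0, mul_comm]
    linarith
  -- the functional
  set Psi : ℝ → Finset (Sym2 (Fin n)) → ℝ := fun u A =>
    if us ≤ u then K' * PsiE n C6 C8 u A else (A.card : ℝ) with hPsi
  have hmain := iter_early hSys.lin h (u0 n)
    (K' * (h * (n : ℝ) ^ (249 / 100 : ℝ) + E * h ^ 2)) hhpos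
    (mul_nonneg hK0.le (add_nonneg (mul_nonneg hhpos.le (Real.rpow_nonneg hn'.le _))
      (mul_nonneg hE (sq_nonneg _)))) hhBK (tr univ)
    (fun u A => us ≤ u ∧ GoodE n u A) Psi
    (by
      intro u A hA hu hbad
      simp only [hPsi]
      split_ifs with hcase
      · have hbad' : ¬ GoodE n u A := fun hg => hbad ⟨hcase, hg⟩
        have hu0 : 0 < u := lt_of_lt_of_le hus hcase
        have j1 := ET.psiE_bad hn1 C6 C8 hu0 (hu.trans hU2) hu A hbad'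
        have j2 : (A.card : ℝ) ≤ (n : ℝ) ^ 2 := by
          refine le_trans ?_ (ET.card_tr n)
          exact_mod_cast card_le_card hA
        have j3 : 0 ≤ PsiE n C6 C8 u A := le_trans (sq_nonneg _) j1
        have j4 : 1 * PsiE n C6 C8 u A ≤ K' * PsiE n C6 C8 u A :=
          mul_le_mul_of_nonneg_right hK1 j3
        linarith
      · exact le_rfl)
    (by
      intro u A hA hu hg
      have hcase2 : us ≤ u + 2 * h := by linarith [hg.1]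
      have j1 := hstep h u hhpos hhh1 hg.1 hu A hA hg.2
      simp only [hPsi, if_pos hg.1, if_pos hcase2]
      have j2 : (∑ T ∈ bl (BK n) A, (K' * PsiE n C6 C8 (u + 2 * h) (A \ T)
          - K' * PsiE n C6 C8 (u + 2 * h) A)) = K' * ∑ T ∈ bl (BK n) A,
          (PsiE n C6 C8 (u + 2 * h) (A \ T) - PsiE n C6 C8 (u + 2 * h) A) := by
        rw [mul_sum]
        exact sum_congr rfl fun T _ => by ring
      rw [j2]
      have j3 := mul_le_mul_of_nonneg_left j1 hK0.le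
      linarith)
    (by
      intro A _ hg
      simp only [hPsi, if_pos hU3.le]
      have j1 := hmid (Sym2 (Fin n)) (BK n) C6 C8 hSys (u0 n) hU0 hU1 A (ET.good_xv hg.2)
      have j2 := ET.psiM_le_psiE hn1 C6 C8 A
      have j3 := ET.psiE_nonneg hn1 C6 C8 hU0 hU2 A
      calc run (BK n) (fun A => (A.card : ℝ)) A.card A
          ≤ K * PsiM e0 (BK n) C6 C8 (u0 n) (toSt (BK n) A) := j1
        _ ≤ K * PsiE n C6 C8 (u0 n) A := mul_le_mul_of_nonneg_left j2 hK.le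
        _ ≤ K' * PsiE n C6 C8 (u0 n) A := mul_le_mul_of_nonneg_right hK2 j3)
    k us (tr univ) subset_rfl
    (by
      have : us + 2 * h * k = us + 2 * ((k : ℝ) * h) := by ring
      rw [this, hkh, hL]
      ring)
  have hstart := ET.start hn4 C6 C8 hC6 hC8
  simp only [hPsi, if_pos (le_refl us)] at hmain
  have r1 : (k : ℝ) * (K' * (h * (n : ℝ) ^ (249 / 100 : ℝ) + E * h ^ 2))
      = K' * (L * (n : ℝ) ^ (249 / 100 : ℝ) + (E * h) * L) := by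
    rw [← hkh]
    ring
  have r2 : L * (n : ℝ) ^ (249 / 100 : ℝ) ≤ (n : ℝ) ^ (3 / 2 : ℝ) := by
    calc L * (n : ℝ) ^ (249 / 100 : ℝ) ≤ u0 n * (n : ℝ) ^ (249 / 100 : ℝ) :=
          mul_le_mul_of_nonneg_right hLU (Real.rpow_nonneg hn'.le _)
      _ = (n : ℝ) ^ ((-1 + 2 * c0) + 249 / 100 : ℝ) := by
          unfold u0
          rw [← Real.rpow_add hn']
      _ ≤ (n : ℝ) ^ (3 / 2 : ℝ) := by
          refine Real.rpow_le_rpow_of_exponent_le (by linarith) ?_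
          unfold c0
          norm_num
  have r3 : 1 ≤ (n : ℝ) ^ (3 / 2 : ℝ) := Real.one_le_rpow (by linarith) (by norm_num)
  have r4 : (E * h) * L ≤ 1 := mul_le_one₀ hhE hLpos.le hL1
  have r5 : K' * (L * (n : ℝ) ^ (249 / 100 : ℝ) + (E * h) * L) ≤
      K' * (2 * (n : ℝ) ^ (3 / 2 : ℝ)) := mul_le_mul_of_nonneg_left (by linarith) hK0.le
  have r6 : K' * PsiE n C6 C8 us (tr univ) ≤ K' * (2 * 10 ^ 12 * (n : ℝ) ^ (3 / 2 : ℝ)) :=
    mul_le_mul_of_nonneg_left hstart hK0.le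
  rw [r1] at hmain
  refine hmain.trans ?_
  calc K' * PsiE n C6 C8 us (tr univ) + K' * (L * (n : ℝ) ^ (249 / 100 : ℝ) + (E * h) * L)
      ≤ K' * (2 * 10 ^ 12 * (n : ℝ) ^ (3 / 2 : ℝ)) + K' * (2 * (n : ℝ) ^ (3 / 2 : ℝ)) :=
        add_le_add r6 r5
    _ = K' * (2 * 10 ^ 12 + 2) * (n : ℝ) ^ (3 / 2 : ℝ) := by ring

end

end Vale.Agent.P046.NL
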