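import Vale.Agent.P046.NL.Defs2

/-! P046 no-log: the Lyapunov functionals of the middle and of the early phase -/

namespace Vale.Agent.P046.NL

open Finset Vale.Agent.P046

noncomputable section

variable {α : Type} [DecidableEq α]

/-- constants of the middle phase -/
def t0 (ep : ℝ) : ℝ := ep ^ 2 / 10000

/-- the functional of the middle phase -/
def PsiM (ep : ℝ) (Bl : Finset (Finset α)) (C6 C8 : Finset (Finset (Finset α))) (u : ℝ)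
    (s : St α) : ℝ :=
  u ^ (1 / 2 : ℝ) * Q s - u ^ (1 / 2 + ep / 4 : ℝ) * Q s + S 2 u s
    + u ^ (-(1 / 2 + ep) : ℝ) * (Sb u s + 1000 / ep * S 4 u s
      + 400 * t0 ep ^ 4 / ep * (u * V s))
    + u ^ (-(1 / 2 + ep / 2) : ℝ) * Ph Bl (ep / 4) u s
    + u ^ (11 / 4 : ℝ) * Nc C6 s + 10 ^ 6 * u ^ (7 / 2 - ep : ℝ) * Nc C8 s

/-- the properties of the block system used in the middle phase -/
structure Sys (Bl : Finset (Finset α)) (C6 C8 : Finset (Finset (Finset α))) : Prop where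
  lin : Lin3 Bl
  h6 : ∀ c ∈ C6, c ⊆ Bl ∧ c.card ≤ 4 ∧ 6 ≤ (c.biUnion id).card
  h8 : ∀ c ∈ C8, c ⊆ Bl ∧ c.card ≤ 4 ∧ 8 ≤ (c.biUnion id).card
  cyc : ∀ (u r : ℝ) (s : St α), u * r = 1 → 0 < r → Inv Bl (1 / 10) u s →
    P2 s ≤ 5 * r ^ 2 * Q s + 20736 * (Nc C6 s + Nc C8 s)

def c0 : ℝ := 1 / 1000000

def e0 : ℝ := 1 / 4000000

/-- end of the early phase -/
def u0 (n : ℕ) : ℝ := (n : ℝ) ^ (-1 + 2 * c0 : ℝ)

/-- the functional of the early phase -/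
def PsiE (n : ℕ) (C6 C8 : Finset (Finset (Finset (Sym2 (Fin n))))) (u : ℝ)
    (A : Finset (Sym2 (Fin n))) : ℝ :=
  u ^ (1 / 2 : ℝ) * Q (toSt (BK n) A) - u ^ (1 / 2 + e0 / 4 : ℝ) * Q (toSt (BK n) A)
    + u0 n ^ (5001 : ℝ) * u ^ (-5001 : ℝ) *
      ((n : ℝ) ^ (1 / 10 : ℝ) * S 2 u (toSt (BK n) A)
        + 1000 / e0 * u0 n ^ (-(1 / 2 + e0) : ℝ) * S 4 u (toSt (BK n) A)
        + (n : ℝ) ^ 2 / t0 e0 ^ 6 * S 6 u (toSt (BK n) A)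
        + 2 * 10 ^ 12 * (n : ℝ) ^ 2 * u0 n ^ 2 * XX u A)
    + u0 n ^ (-(1 / 2 + e0) : ℝ) * Sb u (toSt (BK n) A)
    + u ^ (11 / 4 : ℝ) * Nc C6 (toSt (BK n) A)
    + 10 ^ 6 * u0 n ^ (-(1 / 4 + e0) : ℝ) * u ^ (15 / 4 : ℝ) * Nc C8 (toSt (BK n) A)

/-- good states of the early phase -/
def GoodE (n : ℕ) (u : ℝ) (A : Finset (Sym2 (Fin n))) : Prop :=
  S 6 u (toSt (BK n) A) ≤ t0 e0 ^ 6 ∧ 2 * 10 ^ 12 * XX u A * u ^ 2 ≤ 1

end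

end Vale.Agent.P046.NL
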