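import Vale.Agent.P046.NL.TERM
import Vale.Agent.P046.NL.Defs3

/-! P046 no-log, row GLIN: linearity of the generator, and the weighted term of a functional that
does not depend on the time. -/

namespace Vale.Agent.P046.NL

open Finset Vale.Agent.P046

noncomputable section

variable {α : Type} [DecidableEq α]

/-- [GLIN] -/
theorem gen_lin (Bl : Finset (Finset α)) (r a b : ℝ) (F G : St α → ℝ) (s : St α) :
    gen Bl r (fun s => a * F s + b * G s) s = a * gen Bl r F s + b * gen Bl r G s := by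
  unfold gen
  have e1 : ∑ T ∈ s.W, (a * F (ring s T) + b * G (ring s T) - (a * F s + b * G s)) =
      a * ∑ T ∈ s.W, (F (ring s T) - F s) + b * ∑ T ∈ s.W, (G (ring s T) - G s) := by
    rw [mul_sum, mul_sum, ← sum_add_distrib]
    exact sum_congr rfl fun T _ => by ring
  have e2 : ∑ T ∈ s.W, ∑ f ∈ T \ s.B, (r * (1 + s.a f) - 1) *
        (a * F (virt s T) + b * G (virt s T) - (a * F s + b * G s)) =
      a * ∑ T ∈ s.W, ∑ f ∈ T \ s.B, (r * (1 + s.a f) - 1) * (F (virt s T) - F s) +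
        b * ∑ T ∈ s.W, ∑ f ∈ T \ s.B, (r * (1 + s.a f) - 1) * (G (virt s T) - G s) := by
    rw [mul_sum, mul_sum, ← sum_add_distrib]
    refine sum_congr rfl fun T _ => ?_
    rw [mul_sum, mul_sum, ← sum_add_distrib]
    exact sum_congr rfl fun f _ => by ring
  have e3 : ∑ T ∈ bl Bl s.A \ s.W, (a * F (nring s T) + b * G (nring s T) -
        (a * F s + b * G s)) =
      a * ∑ T ∈ bl Bl s.A \ s.W, (F (nring s T) - F s) +
        b * ∑ T ∈ bl Bl s.A \ s.W, (G (nring s T) - G s) := by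
    rw [mul_sum, mul_sum, ← sum_add_distrib]
    exact sum_congr rfl fun T _ => by ring
  rw [e1, e2, e3]
  ring

/-- [TERMQ] for a functional that does not depend on `u` -/
theorem term_Q (a : ℝ) : ∃ C : ℝ, 0 ≤ C ∧ ∀ u h r F R : ℝ, 0 < u → 0 < h →
    (u + 2 * h) * r = 1 → h * r ≤ 1 / 8 → 0 ≤ F →
    |(u + 2 * h) ^ a * (F + h * (r * R)) - (u ^ a * F + h * r * (u + 2 * h) ^ a * (R + 2 * a * F))|
      ≤ C * (u + 2 * h) ^ a * (h * r) ^ 2 * F := by
  obtain ⟨C1, C2, C3, hC1, hC2, hC3, hw⟩ := TERM.weight a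
  refine ⟨C1, hC1, ?_⟩
  intro u h r F R hu hh hur hhr hF
  have hv : 0 < u + 2 * h := by linarith
  have hr : 0 < r := by
    by_contra hcon
    push Not at hcon
    nlinarith [mul_nonneg hv.le (neg_nonneg.mpr hcon)]
  have ht0 : 0 ≤ h * r := by positivity
  obtain ⟨h1, h2, h3, h4⟩ := hw (h * r) ht0 hhr
  set w : ℝ := (1 - 2 * (h * r)) ^ a with hwdef
  set v : ℝ := u + 2 * h with hvdef
  have huv : u = v * (1 - 2 * (h * r)) := by
    have : v * (1 - 2 * (h * r)) = v - 2 * h * (v * r) := by ring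
    rw [this, hur]; rw [hvdef]; ring
  have huw : u ^ a = v ^ a * w := by
    rw [hwdef, ← Real.mul_rpow hv.le (by linarith), ← huv]
  have hva : 0 < v ^ a := Real.rpow_pos_of_pos hv a
  rw [huw]
  have e1 : v ^ a * (F + h * (r * R)) - (v ^ a * w * F + h * r * v ^ a * (R + 2 * a * F))
      = v ^ a * F * (1 - w - 2 * a * (h * r)) := by ring
  rw [e1, abs_mul, abs_of_nonneg (mul_nonneg hva.le hF)]
  calc v ^ a * F * |1 - w - 2 * a * (h * r)| ≤ v ^ a * F * (C1 * (h * r) ^ 2) :=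
        mul_le_mul_of_nonneg_left h1 (mul_nonneg hva.le hF)
    _ = C1 * v ^ a * (h * r) ^ 2 * F := by ring

end

end Vale.Agent.P046.NL
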