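import Vale.Agent.P046.NL.Defs
import Vale.Agent.P046.Kn

/-!
P046, removal of the logarithm: row CYC (pairs of 2-paths with the same ends in `K_n`).
-/

namespace Vale.Agent.P046.NL

open Finset Vale.Agent.P046

noncomputable section

namespace CYC

section General

variable {α : Type} [DecidableEq α]

/-- the 2-paths from `e` to `h` -/
def PP (s : St α) (e h : α) : Finset (Finset α × α × Finset α) :=
  (s.W ×ˢ s.B ×ˢ s.W).filter (fun p => e ∈ p.1 ∧ (p.2.1 ∈ p.1 ∧ p.2.1 ≠ e ∧ p.2.1 ≠ h) ∧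
    (p.2.1 ∈ p.2.2 ∧ h ∈ p.2.2 ∧ p.2.2 ≠ p.1))

theorem pth_eq (s : St α) (e h : α) : pth s e h = ((PP s e h).card : ℝ) := by
  unfold pth PP
  rw [card_filter, sum_product, sum_filter]
  push_cast
  refine sum_congr rfl fun T hT => ?_
  by_cases he : e ∈ T
  · rw [if_pos he, sum_product]
    have h1 : ((T.erase e).erase h).filter (fun f => f ∈ s.B) =
        s.B.filter (fun f => f ∈ T ∧ f ≠ e ∧ f ≠ h) := by
      ext f
      simp only [mem_filter, mem_erase]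
      tauto
    rw [h1, sum_filter]
    refine sum_congr rfl fun f hf => ?_
    by_cases hf1 : f ∈ T ∧ f ≠ e ∧ f ≠ h
    · rw [if_pos hf1]
      have h2 : (s.W.filter (fun S => f ∈ S ∧ h ∈ S)).erase T =
          s.W.filter (fun S => f ∈ S ∧ h ∈ S ∧ S ≠ T) := by
        ext S
        simp only [mem_filter, mem_erase]
        tauto
      rw [h2, card_filter]
      push_cast
      refine sum_congr rfl fun S hS => ?_
      have h3 : (f ∈ S ∧ h ∈ S ∧ S ≠ T) ↔
          (e ∈ T ∧ (f ∈ T ∧ f ≠ e ∧ f ≠ h) ∧ (f ∈ S ∧ h ∈ S ∧ S ≠ T)) := by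
        tauto
      by_cases h4 : f ∈ S ∧ h ∈ S ∧ S ≠ T
      · rw [if_pos h4, if_pos (h3.1 h4)]
      · rw [if_neg h4, if_neg (fun h5 => h4 (h3.2 h5))]
    · rw [if_neg hf1]
      symm
      refine sum_eq_zero fun S hS => ?_
      rw [if_neg]
      exact fun h5 => hf1 h5.2.1
  · rw [if_neg he]
    symm
    refine sum_eq_zero fun p hp => ?_
    rw [if_neg]
    exact fun h5 => he h5.1

theorem sum_pth_le (s : St α) (K : ℝ) (hK0 : 0 ≤ K) (hK : ∀ f ∈ s.B, dW s.W f ≤ K)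
    (h3 : ∀ T ∈ s.W, T.card = 3) :
    ∑ e ∈ s.B, ∑ h ∈ s.B.erase e, pth s e h ≤ 4 * K ^ 2 * Q s := by
  -- the number of pairs `(S, h)` at `f`
  have h1 : ∀ f ∈ s.B, ∑ h ∈ s.B.filter (fun h => h ≠ f),
      ((s.W.filter (fun S => f ∈ S ∧ h ∈ S)).card : ℝ) ≤ 2 * K := by
    intro f hf
    have h2 : ∑ h ∈ s.B.filter (fun h => h ≠ f),
        ((s.W.filter (fun S => f ∈ S ∧ h ∈ S)).card : ℝ) =
        ∑ S ∈ s.W.filter (fun S => f ∈ S),
          (((s.B.filter (fun h => h ≠ f)).filter (fun h => h ∈ S)).card : ℝ) := by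
      have h5 : ∀ h, ((s.W.filter (fun S => f ∈ S ∧ h ∈ S)).card : ℝ) =
          ∑ S ∈ s.W.filter (fun S => f ∈ S), if h ∈ S then (1 : ℝ) else 0 := by
        intro h
        rw [← filter_filter, card_filter]
        push_cast
        rfl
      rw [sum_congr rfl fun h _ => h5 h, sum_comm]
      refine sum_congr rfl fun S _ => ?_
      rw [card_filter]
      push_cast
      rfl
    rw [h2]
    have h6 : ∀ S ∈ s.W.filter (fun S => f ∈ S),
        (((s.B.filter (fun h => h ≠ f)).filter (fun h => h ∈ S)).card : ℝ) ≤ 2 := by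
      intro S hS
      rw [mem_filter] at hS
      have h7 : (s.B.filter (fun h => h ≠ f)).filter (fun h => h ∈ S) ⊆ S.erase f := by
        intro h hh
        rw [mem_filter, mem_filter] at hh
        exact mem_erase.2 ⟨hh.1.2, hh.2⟩
      have h8 := card_le_card h7
      rw [card_erase_of_mem hS.2, h3 S hS.1] at h8
      exact_mod_cast h8
    calc ∑ S ∈ s.W.filter (fun S => f ∈ S),
        (((s.B.filter (fun h => h ≠ f)).filter (fun h => h ∈ S)).card : ℝ)
        ≤ ∑ _S ∈ s.W.filter (fun S => f ∈ S), (2 : ℝ) := sum_le_sum h6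
      _ = 2 * dW s.W f := by
        rw [sum_const, nsmul_eq_mul]
        unfold dW
        ring
      _ ≤ 2 * K := by linarith [hK f hf]
  have h4 : ∀ e ∈ s.B, ∑ h ∈ s.B.erase e, pth s e h ≤ 4 * K ^ 2 := by
    intro e he
    have h5 : ∀ h ∈ s.B.erase e, pth s e h ≤
        ∑ T ∈ s.W.filter (fun T => e ∈ T), ∑ f ∈ (T.erase e).filter (fun f => f ∈ s.B),
          (if h ≠ f then ((s.W.filter (fun S => f ∈ S ∧ h ∈ S)).card : ℝ) else 0) := by
      intro h hh
      unfold pth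
      refine sum_le_sum fun T hT => ?_
      rw [← sum_filter]
      have h6 : ((T.erase e).filter (fun f => f ∈ s.B)).filter (fun f => h ≠ f) =
          ((T.erase e).erase h).filter (fun f => f ∈ s.B) := by
        ext f
        simp only [mem_filter, mem_erase]
        constructor
        · rintro ⟨⟨⟨a, b⟩, c⟩, d⟩
          exact ⟨⟨Ne.symm d, a, b⟩, c⟩
        · rintro ⟨⟨d, a, b⟩, c⟩
          exact ⟨⟨⟨a, b⟩, c⟩, Ne.symm d⟩
      rw [h6]
      refine sum_le_sum fun f _ => ?_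
      exact_mod_cast card_le_card (erase_subset _ _)
    have h7 : ∑ h ∈ s.B.erase e, pth s e h ≤ ∑ h ∈ s.B,
        ∑ T ∈ s.W.filter (fun T => e ∈ T), ∑ f ∈ (T.erase e).filter (fun f => f ∈ s.B),
          (if h ≠ f then ((s.W.filter (fun S => f ∈ S ∧ h ∈ S)).card : ℝ) else 0) := by
      refine (sum_le_sum h5).trans ?_
      refine sum_le_sum_of_subset_of_nonneg (erase_subset _ _) fun h _ _ => ?_
      refine sum_nonneg fun T _ => sum_nonneg fun f _ => ?_
      split_ifs <;> positivity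
    refine h7.trans ?_
    rw [sum_comm]
    have h8 : ∀ T ∈ s.W.filter (fun T => e ∈ T), ∑ h ∈ s.B,
        ∑ f ∈ (T.erase e).filter (fun f => f ∈ s.B),
          (if h ≠ f then ((s.W.filter (fun S => f ∈ S ∧ h ∈ S)).card : ℝ) else 0) ≤
        4 * K := by
      intro T hT
      rw [mem_filter] at hT
      rw [sum_comm]
      have h9 : ∀ f ∈ (T.erase e).filter (fun f => f ∈ s.B), ∑ h ∈ s.B,
          (if h ≠ f then ((s.W.filter (fun S => f ∈ S ∧ h ∈ S)).card : ℝ) else 0) ≤ 2 * K := by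
        intro f hf
        rw [mem_filter] at hf
        have h10 := h1 f hf.2
        rw [sum_filter] at h10
        exact h10
      refine (sum_le_sum h9).trans ?_
      rw [sum_const, nsmul_eq_mul]
      have h11 : (((T.erase e).filter (fun f => f ∈ s.B)).card : ℝ) ≤ 2 := by
        have h12 := card_filter_le (T.erase e) (fun f => f ∈ s.B)
        rw [card_erase_of_mem hT.2, h3 T hT.1] at h12
        exact_mod_cast h12
      nlinarith
    refine (sum_le_sum h8).trans ?_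
    rw [sum_const, nsmul_eq_mul]
    have h13 := hK e he
    unfold dW at h13
    nlinarith
  refine (sum_le_sum h4).trans ?_
  rw [sum_const, nsmul_eq_mul]
  unfold Q
  nlinarith

/-- the four blocks of a pair of paths -/
def four (x : (Finset α × α × Finset α) × (Finset α × α × Finset α)) : Finset (Finset α) :=
  {x.1.1, x.1.2.2, x.2.1, x.2.2.2}

theorem card_four_le (x : (Finset α × α × Finset α) × (Finset α × α × Finset α)) :
    (four x).card ≤ 4 := card_le_four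

/-- pairs of different paths with the same ends -/
def Om (s : St α) : Finset (Σ _ : α, Σ _ : α,
    (Finset α × α × Finset α) × (Finset α × α × Finset α)) :=
  s.B.sigma (fun e => (s.B.erase e).sigma (fun h => (PP s e h).offDiag))

theorem P2_eq (s : St α) :
    P2 s = ∑ e ∈ s.B, ∑ h ∈ s.B.erase e, pth s e h + ((Om s).card : ℝ) := by
  unfold P2 Om
  rw [card_sigma]
  push_cast
  rw [← sum_add_distrib]
  refine sum_congr rfl fun e _ => ?_
  rw [card_sigma]
  push_cast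
  rw [← sum_add_distrib]
  refine sum_congr rfl fun h _ => ?_
  rw [pth_eq, offDiag_card, Nat.cast_sub (by nlinarith [Nat.zero_le (PP s e h).card])]
  push_cast
  ring

theorem card_Om_le (s : St α) (h3 : ∀ T ∈ s.W, T.card = 3)
    (C : Finset (Finset (Finset α)))
    (hC : ∀ e ∈ s.B, ∀ h ∈ s.B.erase e, ∀ x ∈ (PP s e h).offDiag, four x ∈ C) :
    (Om s).card ≤ 20736 * (C.filter (fun c => c ⊆ s.W)).card := by
  have h1 := card_le_mul_card_image (f := fun x : (Σ _ : α, Σ _ : α,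
    (Finset α × α × Finset α) × (Finset α × α × Finset α)) => four x.2.2) (Om s) 20736 (by
    intro c hc
    -- the fibre
    have hc4 : c.card ≤ 4 ∧ ∀ T ∈ c, T.card = 3 := by
      rw [mem_image] at hc
      obtain ⟨⟨e, h, x⟩, hx, rfl⟩ := hc
      refine ⟨card_four_le x, ?_⟩
      unfold Om PP at hx
      simp only [mem_sigma, mem_offDiag, mem_filter, mem_product] at hx
      intro T hT
      unfold four at hT
      simp only [mem_insert, mem_singleton] at hT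
      rcases hT with rfl | rfl | rfl | rfl
      · exact h3 _ hx.2.2.1.1.1
      · exact h3 _ hx.2.2.1.1.2.2
      · exact h3 _ hx.2.2.2.1.1.1
      · exact h3 _ hx.2.2.2.1.1.2.2
    let G : Finset (Σ _ : Finset α × Finset α × Finset α × Finset α, α × α × α × α) :=
      (c ×ˢ c ×ˢ c ×ˢ c).sigma (fun q => q.1 ×ˢ q.2.1 ×ˢ q.1 ×ˢ q.2.2.1)
    have hG : G.card ≤ 20736 := by
      have h5 : G.card = ∑ q ∈ c ×ˢ c ×ˢ c ×ˢ c, (q.1 ×ˢ q.2.1 ×ˢ q.1 ×ˢ q.2.2.1).card :=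
        card_sigma _ _
      rw [h5]
      have h6 : ∀ q ∈ c ×ˢ c ×ˢ c ×ˢ c, (q.1 ×ˢ q.2.1 ×ˢ q.1 ×ˢ q.2.2.1).card = 81 := by
        intro q hq
        simp only [mem_product] at hq
        rw [card_product, card_product, card_product, hc4.2 _ hq.1, hc4.2 _ hq.2.1,
          hc4.2 _ hq.2.2.1]
      rw [sum_congr rfl h6, sum_const, card_product, card_product, card_product, smul_eq_mul]
      have h7 := hc4.1
      have h8 : c.card * (c.card * (c.card * c.card)) ≤ 4 * (4 * (4 * 4)) := by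
        gcongr
      omega
    refine le_trans ?_ hG
    refine card_le_card_of_injOn (fun x => ⟨(x.2.2.1.1, x.2.2.1.2.2, x.2.2.2.1, x.2.2.2.2.2),
      (x.1, x.2.1, x.2.2.1.2.1, x.2.2.2.2.1)⟩) ?_ ?_
    · rintro ⟨e, h, ⟨T, f, S⟩, ⟨T', f', S'⟩⟩ hx
      rw [mem_coe, mem_filter] at hx
      obtain ⟨hx, rfl⟩ := hx
      unfold Om PP at hx
      simp only [mem_sigma, mem_offDiag, mem_filter, mem_product] at hx
      simp only [G, coe_sigma, Set.mem_sigma_iff, mem_coe, mem_product, four]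
      simp only [mem_insert, mem_singleton, true_or, or_true, and_true, true_and]
      tauto
    · rintro ⟨e, h, ⟨T, f, S⟩, ⟨T', f', S'⟩⟩ _ ⟨e₁, h₁, ⟨T₁, f₁, S₁⟩, ⟨T₁', f₁', S₁'⟩⟩ _ heq
      simp only [Sigma.mk.injEq, Prod.mk.injEq, heq_eq_eq] at heq
      obtain ⟨⟨rfl, rfl, rfl, rfl⟩, rfl, rfl, rfl, rfl⟩ := heq
      rfl)
  refine h1.trans (Nat.mul_le_mul_left _ (card_le_card ?_))
  intro c hc
  rw [mem_image] at hc
  obtain ⟨⟨e, h, x⟩, hx, rfl⟩ := hc
  have hx' := hx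
  unfold Om at hx'
  simp only [mem_sigma] at hx'
  rw [mem_filter]
  refine ⟨hC e hx'.1 h hx'.2.1 x hx'.2.2, ?_⟩
  have hx2 := hx'.2.2
  unfold PP at hx2
  simp only [mem_offDiag, mem_filter, mem_product] at hx2
  intro T hT
  unfold four at hT
  simp only [mem_insert, mem_singleton] at hT
  rcases hT with rfl | rfl | rfl | rfl
  · exact hx2.1.1.1
  · exact hx2.1.1.2.2
  · exact hx2.2.1.1.1
  · exact hx2.2.1.1.2.2

end General

section Kn

variable {n : ℕ}

theorem uniq {X Y : Finset (Sym2 (Fin n))} (hX : X ∈ BK n) (hY : Y ∈ BK n)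
    {a b : Sym2 (Fin n)} (ha : a ∈ X) (hb : b ∈ X) (ha' : a ∈ Y) (hb' : b ∈ Y) (hab : a ≠ b) :
    X = Y := by
  by_contra hne
  have h1 := (lin3_BK n).lin X hX Y hY hne
  have h2 : ({a, b} : Finset (Sym2 (Fin n))) ⊆ X ∩ Y := by
    intro z hz
    rw [mem_insert, mem_singleton] at hz
    rcases hz with rfl | rfl
    · exact mem_inter.2 ⟨ha, ha'⟩
    · exact mem_inter.2 ⟨hb, hb'⟩
  have h3 := card_le_card h2
  rw [card_pair hab] at h3
  omega

/-- the vertices of two different triangles with a common edge -/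
theorem card_v {t s : Finset (Fin n)} (ht : t.card = 3) (hs : s.card = 3)
    (hne : tr t ≠ tr s) {g : Sym2 (Fin n)} (h1 : g ∈ tr t) (h2 : g ∈ tr s) :
    (t ∩ s).card = 2 ∧ (t ∪ s).card = 4 := by
  have h3 : g ∈ tr (t ∩ s) := by
    rw [← tr_inter]
    exact mem_inter.2 ⟨h1, h2⟩
  have h4 : 0 < (tr (t ∩ s)).card := card_pos.2 ⟨g, h3⟩
  rw [card_tr] at h4
  have h5 : 2 ≤ (t ∩ s).card := by
    by_contra hcon
    rw [Nat.choose_eq_zero_of_lt (by omega)] at h4
    omega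
  have h6 : (t ∩ s).card ≤ 2 := by
    by_contra hcon
    have h7 : t ∩ s = t := eq_of_subset_of_card_le inter_subset_left (by omega)
    have h8 : t ∩ s = s := eq_of_subset_of_card_le inter_subset_right (by omega)
    rw [← h7] at hne
    conv at hne =>
      rhs
      rw [← h8]
    exact hne rfl
  have h9 := card_union_add_card_inter t s
  omega

/-- a triangle that shares two different edges with two triangles lies in their union -/
theorem sub_v {t s w : Finset (Fin n)} (hw : w.card = 3) (h1 : (w ∩ t).card = 2)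
    (h2 : (w ∩ s).card = 2) (h3 : ∀ g, g ∈ tr w → g ∈ tr t → g ∈ tr s → False) :
    w ⊆ t ∪ s := by
  have h4 : (w ∩ t ∩ (w ∩ s)).card ≤ 1 := by
    by_contra hcon
    have h5 : 0 < (tr (w ∩ t ∩ (w ∩ s))).card := by
      rw [card_tr]
      exact Nat.choose_pos (by omega)
    obtain ⟨g, hg⟩ := card_pos.1 h5
    rw [← tr_inter, ← tr_inter, ← tr_inter] at hg
    simp only [mem_inter] at hg
    exact h3 g hg.1.1 hg.1.2 hg.2.2
  have h6 := card_union_add_card_inter (w ∩ t) (w ∩ s)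
  rw [← inter_union_distrib_left] at h6
  have h7 : (w ∩ (t ∪ s)).card ≤ w.card := card_le_card inter_subset_left
  have h8 : w ∩ (t ∪ s) = w := eq_of_subset_of_card_le inter_subset_left (by omega)
  exact inter_eq_left.1 h8

theorem union_three {X Y Z : Finset (Sym2 (Fin n))} (hX : X.card = 3) (hY : Y.card = 3)
    (hZ : Z.card = 3) (h1 : (X ∩ Y).card ≤ 1) (h2 : (X ∩ Z).card ≤ 1)
    (h3 : (Y ∩ Z).card ≤ 1) : 6 ≤ (X ∪ Y ∪ Z).card := by
  have h4 := card_union_add_card_inter X Y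
  have h5 := card_union_add_card_inter (X ∪ Y) Z
  rw [union_inter_distrib_right] at h5
  have h6 := card_union_le (X ∩ Z) (Y ∩ Z)
  omega

theorem union_four {X Y Z U : Finset (Sym2 (Fin n))} (hX : X.card = 3) (hY : Y.card = 3)
    (hZ : Z.card = 3) (hU : U.card = 3) (h1 : (X ∩ Y).card ≤ 1) (h2 : (X ∩ Z).card ≤ 1)
    (h3 : (Y ∩ Z).card ≤ 0) (h4 : (X ∩ U).card ≤ 0) (h5 : (Y ∩ U).card ≤ 1)
    (h6 : (Z ∩ U).card ≤ 1) : 8 ≤ (X ∪ Y ∪ Z ∪ U).card := by
  have h7 := card_union_add_card_inter X Y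
  have h8 := card_union_add_card_inter (X ∪ Y) Z
  rw [union_inter_distrib_right] at h8
  have h9 := card_union_le (X ∩ Z) (Y ∩ Z)
  have h10 := card_union_add_card_inter (X ∪ Y ∪ Z) U
  rw [union_inter_distrib_right, union_inter_distrib_right] at h10
  have h11 := card_union_le (X ∩ U ∪ Y ∩ U) (Z ∩ U)
  have h12 := card_union_le (X ∩ U) (Y ∩ U)
  omega

/-- sets of at most four triangles on four vertices with at least six edges -/
def C6 (n : ℕ) : Finset (Finset (Finset (Sym2 (Fin n)))) :=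
  (((univ : Finset (Fin n)).powersetCard 4).biUnion
    (fun V => ((V.powersetCard 3).image tr).powerset)).filter
    (fun c => c.card ≤ 4 ∧ 6 ≤ (c.biUnion id).card)

/-- sets of at most four triangles on five vertices with at least eight edges -/
def C8 (n : ℕ) : Finset (Finset (Finset (Sym2 (Fin n)))) :=
  (((univ : Finset (Fin n)).powersetCard 5).biUnion
    (fun V => ((V.powersetCard 3).image tr).powerset)).filter
    (fun c => c.card ≤ 4 ∧ 8 ≤ (c.biUnion id).card)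

theorem mem_sub {c : Finset (Finset (Sym2 (Fin n)))} {m : ℕ}
    (hc : c ∈ ((univ : Finset (Fin n)).powersetCard m).biUnion
      (fun V => ((V.powersetCard 3).image tr).powerset)) : c ⊆ BK n := by
  rw [mem_biUnion] at hc
  obtain ⟨V, _, hV⟩ := hc
  rw [mem_powerset] at hV
  intro T hT
  have h1 := hV hT
  rw [mem_image] at h1
  obtain ⟨t, ht, rfl⟩ := h1
  rw [mem_powersetCard] at ht
  exact mem_BK.2 ⟨t, ht.2, rfl⟩

theorem card_fam (m : ℕ) : (((univ : Finset (Fin n)).powersetCard m).biUnion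
      (fun V => ((V.powersetCard 3).image tr).powerset)).card ≤
      n ^ m * 2 ^ (m.choose 3) := by
  have h1 : ∀ V ∈ (univ : Finset (Fin n)).powersetCard m,
      (((V.powersetCard 3).image tr).powerset).card ≤ 2 ^ (m.choose 3) := by
    intro V hV
    rw [mem_powersetCard] at hV
    rw [card_powerset]
    refine Nat.pow_le_pow_right (by norm_num) ?_
    refine card_image_le.trans ?_
    rw [card_powersetCard, hV.2]
  refine (card_biUnion_le_card_mul _ _ _ h1).trans ?_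
  rw [card_powersetCard, card_univ, Fintype.card_fin]
  exact Nat.mul_le_mul_right _ (Nat.choose_le_pow n m)

theorem C6_prop {c : Finset (Finset (Sym2 (Fin n)))} (hc : c ∈ C6 n) :
    c ⊆ BK n ∧ c.card ≤ 4 ∧ 6 ≤ (c.biUnion id).card := by
  unfold C6 at hc
  rw [mem_filter] at hc
  exact ⟨mem_sub hc.1, hc.2⟩

theorem C8_prop {c : Finset (Finset (Sym2 (Fin n)))} (hc : c ∈ C8 n) :
    c ⊆ BK n ∧ c.card ≤ 4 ∧ 8 ≤ (c.biUnion id).card := by
  unfold C8 at hc
  rw [mem_filter] at hc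
  exact ⟨mem_sub hc.1, hc.2⟩

theorem card_C6 (n : ℕ) : ((C6 n).card : ℝ) ≤ 10 ^ 4 * (n : ℝ) ^ 4 := by
  have h1 := (card_filter_le _ (fun c => c.card ≤ 4 ∧ 6 ≤ (c.biUnion id).card)).trans
    (card_fam (n := n) 4)
  have h2 : (C6 n).card ≤ n ^ 4 * 2 ^ (Nat.choose 4 3) := h1
  have h3 : Nat.choose 4 3 = 4 := rfl
  rw [h3] at h2
  have h4 : ((C6 n).card : ℝ) ≤ (n : ℝ) ^ 4 * 2 ^ 4 := by exact_mod_cast h2
  have h5 : 0 ≤ (n : ℝ) ^ 4 := by positivity
  linarith

theorem card_C8 (n : ℕ) : ((C8 n).card : ℝ) ≤ 10 ^ 5 * (n : ℝ) ^ 5 := by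
  have h1 := (card_filter_le _ (fun c => c.card ≤ 4 ∧ 8 ≤ (c.biUnion id).card)).trans
    (card_fam (n := n) 5)
  have h2 : (C8 n).card ≤ n ^ 5 * 2 ^ (Nat.choose 5 3) := h1
  have h3 : Nat.choose 5 3 = 10 := rfl
  rw [h3] at h2
  have h4 : ((C8 n).card : ℝ) ≤ (n : ℝ) ^ 5 * 2 ^ 10 := by exact_mod_cast h2
  have h5 : 0 ≤ (n : ℝ) ^ 5 := by positivity
  linarith

theorem mem_C6 {t s t' s' V : Finset (Fin n)} (ht : t.card = 3) (hs : s.card = 3)
    (ht' : t'.card = 3) (hs' : s'.card = 3) (hV : V.card = 4) (h1 : t ⊆ V) (h2 : s ⊆ V)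
    (h3 : t' ⊆ V) (h4 : s' ⊆ V)
    (h6 : 6 ≤ (tr t ∪ tr s ∪ tr t' ∪ tr s').card) :
    ({tr t, tr s, tr t', tr s'} : Finset (Finset (Sym2 (Fin n)))) ∈ C6 n := by
  unfold C6
  rw [mem_filter, mem_biUnion]
  refine ⟨⟨V, mem_powersetCard.2 ⟨subset_univ _, hV⟩, mem_powerset.2 ?_⟩, card_le_four, ?_⟩
  · intro X hX
    simp only [mem_insert, mem_singleton] at hX
    rw [mem_image]
    rcases hX with rfl | rfl | rfl | rfl
    · exact ⟨_, mem_powersetCard.2 ⟨h1, ht⟩, rfl⟩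
    · exact ⟨_, mem_powersetCard.2 ⟨h2, hs⟩, rfl⟩
    · exact ⟨_, mem_powersetCard.2 ⟨h3, ht'⟩, rfl⟩
    · exact ⟨_, mem_powersetCard.2 ⟨h4, hs'⟩, rfl⟩
  · refine h6.trans (card_le_card ?_)
    intro g hg
    simp only [mem_union] at hg
    simp only [mem_biUnion, mem_insert, mem_singleton, exists_eq_or_imp, exists_eq_left, id]
    tauto

theorem mem_C8 {t s t' s' V : Finset (Fin n)} (ht : t.card = 3) (hs : s.card = 3)
    (ht' : t'.card = 3) (hs' : s'.card = 3) (hV : V.card = 5) (h1 : t ⊆ V) (h2 : s ⊆ V)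
    (h3 : t' ⊆ V) (h4 : s' ⊆ V)
    (h6 : 8 ≤ (tr t ∪ tr s ∪ tr t' ∪ tr s').card) :
    ({tr t, tr s, tr t', tr s'} : Finset (Finset (Sym2 (Fin n)))) ∈ C8 n := by
  unfold C8
  rw [mem_filter, mem_biUnion]
  refine ⟨⟨V, mem_powersetCard.2 ⟨subset_univ _, hV⟩, mem_powerset.2 ?_⟩, card_le_four, ?_⟩
  · intro X hX
    simp only [mem_insert, mem_singleton] at hX
    rw [mem_image]
    rcases hX with rfl | rfl | rfl | rfl
    · exact ⟨_, mem_powersetCard.2 ⟨h1, ht⟩, rfl⟩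
    · exact ⟨_, mem_powersetCard.2 ⟨h2, hs⟩, rfl⟩
    · exact ⟨_, mem_powersetCard.2 ⟨h3, ht'⟩, rfl⟩
    · exact ⟨_, mem_powersetCard.2 ⟨h4, hs'⟩, rfl⟩
  · refine h6.trans (card_le_card ?_)
    intro g hg
    simp only [mem_union] at hg
    simp only [mem_biUnion, mem_insert, mem_singleton, exists_eq_or_imp, exists_eq_left, id]
    tauto

/-- the case `T = T'` -/
theorem case1 {t s t' s' : Finset (Fin n)} (ht : t.card = 3) (hs : s.card = 3)
    (ht' : t'.card = 3) (hs' : s'.card = 3) {e h f f' : Sym2 (Fin n)}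
    (h2 : f ∈ tr t) (h4 : f ≠ h) (h5 : f ∈ tr s) (h6 : h ∈ tr s)
    (h7 : tr s ≠ tr t) (h2' : f' ∈ tr t') (h5' : f' ∈ tr s')
    (h6' : h ∈ tr s') (h7' : tr s' ≠ tr t')
    (hne : ¬ (tr t = tr t' ∧ f = f' ∧ tr s = tr s')) (hTT : tr t = tr t') :
    ({tr t, tr s, tr t', tr s'} : Finset (Finset (Sym2 (Fin n)))) ∈ C6 n := by
  have hT : tr t ∈ BK n := mem_BK.2 ⟨t, ht, rfl⟩
  have hS : tr s ∈ BK n := mem_BK.2 ⟨s, hs, rfl⟩
  have hS' : tr s' ∈ BK n := mem_BK.2 ⟨s', hs', rfl⟩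
  have htt : t = t' := tr_inj (by omega) (by omega) hTT
  subst htt
  have hSS : tr s ≠ tr s' := by
    intro hh
    have hff : f ≠ f' := fun h8 => hne ⟨hTT, h8, hh⟩
    exact h7 (uniq hS hT h5 (hh ▸ h5') h2 h2' hff)
  have vts := card_v ht hs (Ne.symm h7) h2 h5
  have vs's := card_v hs' hs (Ne.symm hSS) h6' h6
  have vs't := card_v hs' ht h7' h5' h2'
  have hsub : s' ⊆ t ∪ s := by
    refine sub_v hs' vs't.1 vs's.1 fun g hg1 hg2 hg3 => ?_
    by_cases hgf : g = f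
    · rw [hgf] at hg1
      exact hSS (uniq hS hS' h5 h6 hg1 h6' h4)
    · exact h7 (uniq hS hT hg3 h5 hg2 h2 hgf)
  refine mem_C6 ht hs ht hs' vts.2 subset_union_left subset_union_right
    subset_union_left hsub ?_
  refine (union_three ((lin3_BK n).card3 _ hT) ((lin3_BK n).card3 _ hS)
    ((lin3_BK n).card3 _ hS') ((lin3_BK n).lin _ hT _ hS (Ne.symm h7))
    ((lin3_BK n).lin _ hT _ hS' (Ne.symm h7'))
    ((lin3_BK n).lin _ hS _ hS' hSS)).trans (card_le_card ?_)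
  intro g hg
  simp only [mem_union] at hg ⊢
  tauto

/-- the case `T ≠ T'` and `S = S'` -/
theorem case2 {t s t' s' : Finset (Fin n)} (ht : t.card = 3) (hs : s.card = 3)
    (ht' : t'.card = 3) (hs' : s'.card = 3) {e f f' : Sym2 (Fin n)}
    (h1 : e ∈ tr t) (h2 : f ∈ tr t) (h3 : f ≠ e) (h5 : f ∈ tr s)
    (h7 : tr s ≠ tr t) (h1' : e ∈ tr t') (h2' : f' ∈ tr t') (h5' : f' ∈ tr s')
    (h7' : tr s' ≠ tr t') (hTT : tr t ≠ tr t') (hSS : tr s = tr s') :
    ({tr t, tr s, tr t', tr s'} : Finset (Finset (Sym2 (Fin n)))) ∈ C6 n := by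
  have hT : tr t ∈ BK n := mem_BK.2 ⟨t, ht, rfl⟩
  have hS : tr s ∈ BK n := mem_BK.2 ⟨s, hs, rfl⟩
  have hT' : tr t' ∈ BK n := mem_BK.2 ⟨t', ht', rfl⟩
  have hss : s = s' := tr_inj (by omega) (by omega) hSS
  subst hss
  have vts := card_v ht hs (Ne.symm h7) h2 h5
  have vt't := card_v ht' ht (Ne.symm hTT) h1' h1
  have vt's := card_v ht' hs (Ne.symm h7') h2' h5'
  have hsub : t' ⊆ t ∪ s := by
    refine sub_v ht' vt't.1 vt's.1 fun g hg1 hg2 hg3 => ?_
    by_cases hgf : g = f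
    · rw [hgf] at hg1
      exact hTT (uniq hT hT' h1 h2 h1' hg1 (Ne.symm h3))
    · exact h7 (uniq hS hT hg3 h5 hg2 h2 hgf)
  refine mem_C6 ht hs ht' hs vts.2 subset_union_left subset_union_right
    hsub subset_union_right ?_
  refine (union_three ((lin3_BK n).card3 _ hT) ((lin3_BK n).card3 _ hS)
    ((lin3_BK n).card3 _ hT') ((lin3_BK n).lin _ hT _ hS (Ne.symm h7))
    ((lin3_BK n).lin _ hT _ hT' hTT)
    ((lin3_BK n).lin _ hS _ hT' h7')).trans (card_le_card ?_)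
  intro g hg
  simp only [mem_union] at hg ⊢
  tauto

/-- four different blocks on four vertices -/
theorem case3 {t s t' s' : Finset (Fin n)} (ht : t.card = 3) (hs : s.card = 3)
    (ht' : t'.card = 3) (hs' : s'.card = 3) {f : Sym2 (Fin n)}
    (h2 : f ∈ tr t) (h5 : f ∈ tr s) (h7 : tr s ≠ tr t) (hTT : tr t ≠ tr t')
    (hT'S : tr t' ≠ tr s) (hsub : s' ⊆ s ∪ t') (h45 : t' ⊆ t ∪ s) :
    ({tr t, tr s, tr t', tr s'} : Finset (Finset (Sym2 (Fin n)))) ∈ C6 n := by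
  have hT : tr t ∈ BK n := mem_BK.2 ⟨t, ht, rfl⟩
  have hS : tr s ∈ BK n := mem_BK.2 ⟨s, hs, rfl⟩
  have hT' : tr t' ∈ BK n := mem_BK.2 ⟨t', ht', rfl⟩
  have vts := card_v ht hs (Ne.symm h7) h2 h5
  refine mem_C6 ht hs ht' hs' vts.2 subset_union_left
    subset_union_right h45 (hsub.trans (union_subset subset_union_right h45)) ?_
  refine (union_three ((lin3_BK n).card3 _ hT) ((lin3_BK n).card3 _ hS)
    ((lin3_BK n).card3 _ hT') ((lin3_BK n).lin _ hT _ hS (Ne.symm h7))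
    ((lin3_BK n).lin _ hT _ hT' hTT)
    ((lin3_BK n).lin _ hS _ hT' (Ne.symm hT'S))).trans (card_le_card ?_)
  intro g hg
  simp only [mem_union] at hg ⊢
  tauto

/-- four different blocks, not on four vertices -/
theorem case4 {t s t' s' : Finset (Fin n)} (ht : t.card = 3) (hs : s.card = 3)
    (ht' : t'.card = 3) (hs' : s'.card = 3) {e h f f' : Sym2 (Fin n)}
    (h1 : e ∈ tr t) (h2 : f ∈ tr t) (h4 : f ≠ h) (h5 : f ∈ tr s) (h6 : h ∈ tr s)
    (h7 : tr s ≠ tr t) (h1' : e ∈ tr t') (h2' : f' ∈ tr t') (h5' : f' ∈ tr s')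
    (h6' : h ∈ tr s') (h7' : tr s' ≠ tr t') (heS : e ∉ tr s) (heS' : e ∉ tr s')
    (hTS' : tr t ≠ tr s') (hT'S : tr t' ≠ tr s) (hTT : tr t ≠ tr t') (hSS : tr s ≠ tr s')
    (hsub : s' ⊆ s ∪ t') (h45 : ¬ t' ⊆ t ∪ s) :
    ({tr t, tr s, tr t', tr s'} : Finset (Finset (Sym2 (Fin n)))) ∈ C8 n := by
  have hT : tr t ∈ BK n := mem_BK.2 ⟨t, ht, rfl⟩
  have hS : tr s ∈ BK n := mem_BK.2 ⟨s, hs, rfl⟩
  have hT' : tr t' ∈ BK n := mem_BK.2 ⟨t', ht', rfl⟩
  have hS' : tr s' ∈ BK n := mem_BK.2 ⟨s', hs', rfl⟩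
  have vts := card_v ht hs (Ne.symm h7) h2 h5
  have vt's' := card_v ht' hs' (Ne.symm h7') h2' h5'
  have vt't := card_v ht' ht (Ne.symm hTT) h1' h1
  have vs's := card_v hs' hs (Ne.symm hSS) h6' h6
  have hdis1 : (tr s ∩ tr t').card ≤ 0 := by
    rw [Nat.le_zero, card_eq_zero, eq_empty_iff_forall_notMem]
    intro g hg
    rw [mem_inter] at hg
    apply h45
    have vt's := card_v ht' hs hT'S hg.2 hg.1
    refine sub_v ht' vt't.1 vt's.1 fun g' hg1 hg2 hg3 => ?_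
    by_cases hge : g' = e
    · rw [hge] at hg3
      exact heS hg3
    · exact hTT (uniq hT hT' hg2 h1 hg1 h1' hge)
  have hdis2 : (tr t ∩ tr s').card ≤ 0 := by
    rw [Nat.le_zero, card_eq_zero, eq_empty_iff_forall_notMem]
    intro g hg
    rw [mem_inter] at hg
    apply h45
    have vs't := card_v hs' ht (Ne.symm hTS') hg.2 hg.1
    have hsub1 : s' ⊆ t ∪ s := by
      refine sub_v hs' vs't.1 vs's.1 fun g' hg1 hg2 hg3 => ?_
      by_cases hgf : g' = f
      · rw [hgf] at hg1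
        exact hSS (uniq hS hS' h5 h6 hg1 h6' h4)
      · exact h7 (uniq hS hT hg3 h5 hg2 h2 hgf)
    have hsub2 : t' ⊆ t ∪ s' := by
      refine sub_v ht' vt't.1 vt's'.1 fun g' hg1 hg2 hg3 => ?_
      by_cases hge : g' = e
      · rw [hge] at hg3
        exact heS' hg3
      · exact hTT (uniq hT hT' hg2 h1 hg1 h1' hge)
    exact hsub2.trans (union_subset subset_union_left hsub1)
  have hc5 : (t ∪ s ∪ t').card = 5 := by
    have h8 := card_union_add_card_inter (t ∪ s) t'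
    have h9 : (t' ∩ t).card ≤ ((t ∪ s) ∩ t').card := by
      refine card_le_card ?_
      intro z hz
      rw [mem_inter] at hz ⊢
      exact ⟨mem_union_left _ hz.2, hz.1⟩
    have h10 : ((t ∪ s) ∩ t').card < t'.card := by
      refine card_lt_card ⟨inter_subset_right, ?_⟩
      intro hh
      exact h45 (hh.trans inter_subset_left)
    have h11 := vt't.1
    have h12 := vts.2
    omega
  have hb1 : t ⊆ t ∪ s ∪ t' := fun z hz => by simp only [mem_union]; tauto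
  have hb2 : s ⊆ t ∪ s ∪ t' := fun z hz => by simp only [mem_union]; tauto
  have hb3 : t' ⊆ t ∪ s ∪ t' := fun z hz => by simp only [mem_union]; tauto
  have hb4 : s' ⊆ t ∪ s ∪ t' := hsub.trans (union_subset hb2 hb3)
  refine mem_C8 ht hs ht' hs' hc5 hb1 hb2 hb3 hb4 ?_
  have l1 := (lin3_BK n).lin _ hT _ hS (Ne.symm h7)
  have l2 := (lin3_BK n).lin _ hT _ hT' hTT
  have l3 := (lin3_BK n).lin _ hS _ hS' hSS
  have l4 := (lin3_BK n).lin _ hT' _ hS' (Ne.symm h7')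
  exact union_four ((lin3_BK n).card3 _ hT) ((lin3_BK n).card3 _ hS)
    ((lin3_BK n).card3 _ hT') ((lin3_BK n).card3 _ hS') l1 l2 hdis1 hdis2 l3 l4

/-- the classification of the pairs of 2-paths -/
theorem classify {T S T' S' : Finset (Sym2 (Fin n))} (hT : T ∈ BK n) (hS : S ∈ BK n)
    (hT' : T' ∈ BK n) (hS' : S' ∈ BK n) {e h f f' : Sym2 (Fin n)} (heh : h ≠ e)
    (h1 : e ∈ T) (h2 : f ∈ T) (h3 : f ≠ e) (h4 : f ≠ h) (h5 : f ∈ S) (h6 : h ∈ S)
    (h7 : S ≠ T) (h1' : e ∈ T') (h2' : f' ∈ T') (h3' : f' ≠ e) (h4' : f' ≠ h) (h5' : f' ∈ S')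
    (h6' : h ∈ S') (h7' : S' ≠ T') (hne : ¬ (T = T' ∧ f = f' ∧ S = S')) :
    ({T, S, T', S'} : Finset (Finset (Sym2 (Fin n)))) ∈ C6 n ∪ C8 n := by
  have heS : e ∉ S := fun h => h7 (uniq hS hT h h5 h1 h2 h3.symm)
  have heS' : e ∉ S' := fun h => h7' (uniq hS' hT' h h5' h1' h2' h3'.symm)
  have hhT' : h ∉ T' := fun hh => h7' (uniq hS' hT' h6' h5' hh h2' h4'.symm)
  have hTS' : T ≠ S' := fun hh => heS' (hh ▸ h1)
  have hT'S : T' ≠ S := fun hh => heS (hh ▸ h1')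
  obtain ⟨t, ht, rfl⟩ := mem_BK.mp hT
  obtain ⟨s, hs, rfl⟩ := mem_BK.mp hS
  obtain ⟨t', ht', rfl⟩ := mem_BK.mp hT'
  obtain ⟨s', hs', rfl⟩ := mem_BK.mp hS'
  by_cases hTT : tr t = tr t'
  · exact mem_union_left _ (case1 (e := e) ht hs ht' hs' h2 h4 h5 h6 h7 h2' h5' h6' h7' hne hTT)
  · by_cases hSS : tr s = tr s'
    · exact mem_union_left _ (case2 ht hs ht' hs' h1 h2 h3 h5 h7 h1' h2' h5' h7' hTT hSS)
    · have vs's := card_v hs' hs (Ne.symm hSS) h6' h6
      have vs't' := card_v hs' ht' h7' h5' h2'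
      have hsub : s' ⊆ s ∪ t' := by
        refine sub_v hs' vs's.1 vs't'.1 fun g hg1 hg2 hg3 => ?_
        by_cases hgh : g = h
        · rw [hgh] at hg3
          exact hhT' hg3
        · exact hSS (uniq hS hS' hg2 h6 hg1 h6' hgh)
      by_cases h45 : t' ⊆ t ∪ s
      · exact mem_union_left _ (case3 ht hs ht' hs' h2 h5 h7 hTT hT'S hsub h45)
      · exact mem_union_right _ (case4 ht hs ht' hs' h1 h2 h4 h5 h6 h7 h1' h2' h5' h6' h7'
          heS heS' hTS' hT'S hTT hSS hsub h45)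

end Kn

end CYC

/-- [CYC] -/
theorem cyc (n : ℕ) : ∃ C6 C8 : Finset (Finset (Finset (Sym2 (Fin n)))),
    (∀ c ∈ C6, c ⊆ BK n ∧ c.card ≤ 4 ∧ 6 ≤ (c.biUnion id).card) ∧
    (∀ c ∈ C8, c ⊆ BK n ∧ c.card ≤ 4 ∧ 8 ≤ (c.biUnion id).card) ∧
    (C6.card : ℝ) ≤ 10 ^ 4 * (n : ℝ) ^ 4 ∧ (C8.card : ℝ) ≤ 10 ^ 5 * (n : ℝ) ^ 5 ∧
    ∀ (u r : ℝ) (s : St (Sym2 (Fin n))), 0 < r → u * r = 1 → Inv (BK n) (1 / 10) u s →
      P2 s ≤ 5 * r ^ 2 * Q s + 20736 * (Nc C6 s + Nc C8 s) := by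
  refine ⟨CYC.C6 n, CYC.C8 n, fun c hc => CYC.C6_prop hc, fun c hc => CYC.C8_prop hc,
    CYC.card_C6 n, CYC.card_C8 n, fun u r s hr hur hI => ?_⟩
  have h3 : ∀ T ∈ s.W, T.card = 3 := fun T hT => (lin3_BK n).card3 T (hI.sub hT)
  have hdeg : ∀ f ∈ s.B, dW s.W f ≤ 11 / 10 * r := by
    intro f hf
    have h1 := hI.bd f
    unfold xv at h1
    rw [if_pos hf, abs_le] at h1
    have h2 : u * dW s.W f ≤ 11 / 10 := by linarith [h1.2]
    have h4 : r * (u * dW s.W f) = dW s.W f := by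
      rw [← mul_assoc, mul_comm r u, hur, one_mul]
    have h5 := mul_le_mul_of_nonneg_left h2 hr.le
    rw [h4] at h5
    linarith
  have hQ : 0 ≤ Q s := by unfold Q; positivity
  rw [CYC.P2_eq]
  have h1 := CYC.sum_pth_le s (11 / 10 * r) (by positivity) hdeg h3
  have h2 := CYC.card_Om_le s h3 (CYC.C6 n ∪ CYC.C8 n) (by
    intro e he h hh x hx
    obtain ⟨⟨T, f, S⟩, ⟨T', f', S'⟩⟩ := x
    rw [mem_erase] at hh
    rw [mem_offDiag] at hx
    unfold CYC.PP at hx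
    simp only [mem_filter, mem_product] at hx
    obtain ⟨⟨⟨a1, a2, a3⟩, a4, ⟨a5, a6, a7⟩, a8, a9, a10⟩,
      ⟨⟨b1, b2, b3⟩, b4, ⟨b5, b6, b7⟩, b8, b9, b10⟩, hne⟩ := hx
    refine CYC.classify (hI.sub a1) (hI.sub a3) (hI.sub b1) (hI.sub b3) (e := e) (h := h)
      (f := f) (f' := f') hh.1 a4 a5 a6 a7 a8 a9 a10 b4 b5 b6 b7 b8 b9 b10 ?_
    exact fun hh => hne (Prod.ext hh.1 (Prod.ext hh.2.1 hh.2.2)))
  have h4 : (((CYC.C6 n ∪ CYC.C8 n).filter (fun c => c ⊆ s.W)).card : ℝ) ≤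
      Nc (CYC.C6 n) s + Nc (CYC.C8 n) s := by
    unfold Nc
    rw [filter_union]
    exact_mod_cast card_union_le _ _
  have h5 : ((CYC.Om s).card : ℝ) ≤ 20736 *
      (((CYC.C6 n ∪ CYC.C8 n).filter (fun c => c ⊆ s.W)).card : ℝ) := by
    exact_mod_cast h2
  have h6 : 0 ≤ r ^ 2 * Q s := by positivity
  nlinarith

end

end Vale.Agent.P046.NL
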