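import Vale.Agent.P046.NL.Defs3
import Vale.Agent.P046.NL.CYC

/-! P046, no-log: row SYSBK (the block system of `K_n`) -/

namespace Vale.Agent.P046.NL

open Finset Vale.Agent.P046

noncomputable section

/-- [CYCK] the families for `K_n` (from row CYC) -/
theorem sys_BK (n : ℕ) : ∃ C6 C8 : Finset (Finset (Finset (Sym2 (Fin n)))), Sys (BK n) C6 C8 ∧
    (C6.card : ℝ) ≤ 10 ^ 4 * (n : ℝ) ^ 4 ∧ (C8.card : ℝ) ≤ 10 ^ 5 * (n : ℝ) ^ 5 := by
  obtain ⟨C6, C8, h6, h8, c6, c8, h⟩ := cyc n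
  exact ⟨C6, C8, ⟨lin3_BK n, h6, h8, fun u r s hur hr hI => h u r s hr hur hI⟩, c6, c8⟩

end

end Vale.Agent.P046.NL
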