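import Vale.Agent.P046.NL.Defs3

/-! P046: functionals for the second stage and for the concentration of the number of points -/

namespace Vale.Agent.P046.NL

open Finset Vale.Agent.P046

noncomputable section

variable {α : Type} [DecidableEq α]

/-- second stage functional (exponent `ep`, detachment threshold `t`, `uK = 1 / K`) -/
def PsiS (ep t dl uK : ℝ) (Bl : Finset (Finset α)) (C6 C8 : Finset (Finset (Finset α))) (u : ℝ)
    (s : St α) : ℝ :=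
  4 * 10 ^ 8 / ep * (uK ^ (1 - ep : ℝ) * u ^ (1 / 2 : ℝ) - uK ^ (1 - ep : ℝ) * u ^ (7 / 10 : ℝ)
      - 1 / 2 * uK ^ (1 / 10 - ep : ℝ) * u ^ (7 / 5 : ℝ)) * Q s
    + (4 * 10 ^ 6 / ep * uK ^ (1 / 10 - ep : ℝ) * u ^ (2 / 5 : ℝ)
      + 4 * 10 ^ 8 / ep * uK ^ (1 - ep : ℝ) * u ^ (1 / 10 : ℝ)) * S 2 u s
    + u ^ (-(1 / 2 + ep) : ℝ) * (Sb u s + 1000 / ep * S 4 u s + 400 * t ^ 4 / ep * (u * V s))
    + u ^ (-(1 / 2 + ep / 2) : ℝ) * Ph Bl dl u s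
    + u ^ (57 / 20 : ℝ) * Nc C6 s + 10 ^ 6 * u ^ (7 / 2 - ep : ℝ) * Nc C8 s

/-- concentration functional: `u ^ (1/2) * Q` stays near `c` -/
def PsiD (ep c uK : ℝ) (Bl : Finset (Finset α)) (C6 C8 : Finset (Finset (Finset α))) (u : ℝ)
    (s : St α) : ℝ :=
  Real.sqrt (1 + (u ^ (1 / 2 : ℝ) * Q s - c) ^ 2) + uK ^ (1 / 20 : ℝ) * PsiM ep Bl C6 C8 u s

end

end Vale.Agent.P046.NL
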