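import Vale.Agent.P046.NL.Defs2
import Vale.Agent.P046.Low.LMain
import Vale.Agent.P046.Low.LKn
import Vale.Agent.P046.Low.Real2

/-!
P046, no-log lower bound: definitions.
-/

namespace Vale.Agent.P046.NL

open Finset Vale.Agent.P046

noncomputable section

variable {α : Type} [DecidableEq α]

/-- sum of the `k`-th powers of the degrees in the real process -/
def mo (B : Finset (Finset α)) (k : ℕ) (A : Finset α) : ℝ := ∑ e ∈ A, (dg B A e : ℝ) ^ k

/-- expectation of `f` after `j` steps of length `h` of the real process -/
def RE (B : Finset (Finset α)) (h : ℝ) (f : Finset α → ℝ) : ℕ → Finset α → ℝ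
  | 0, A => f A
  | j + 1, A => RE B h f j A + h * gn B (RE B h f j) A

end

end Vale.Agent.P046.NL
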