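import Vale.Agent.P046.NL.MIDTHMa
import Vale.Agent.P046.NL.Defs4
import Vale.Agent.P046.NL.LDefs2

/-!
P046, no-log lower bound: supersolutions along `EV`, pointwise inequalities.
-/

namespace Vale.Agent.P046.NL

open Finset Vale.Agent.P046

noncomputable section

variable {α : Type} [DecidableEq α]

namespace LE

open MidThm

/-- a supersolution (with states inside `A₀`) along `EV` -/
theorem ev_sup {Bl : Finset (Finset α)} {t h v U E : ℝ} (hL : Lin3 Bl) (ht : 0 < t)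
    (ht1 : 2 * t ≤ 1 / 10) (hh : 0 < h) (PP : Prm Bl t (2 * t) h v U)
    (hh1 : h ≤ v * t / 100) (hU : 10 * U ≤ t) (A₀ : Finset α)
    (G : ℝ → St α → ℝ)
    (hcore : ∀ u, v ≤ u → u + 2 * h ≤ U → ∀ s : St α, s.B ⊆ A₀ → s.A ⊆ A₀ →
      Inv Bl (2 * t) (u + 2 * h) s →
      G (u + 2 * h) s + h * gen Bl (1 / (u + 2 * h)) (fun s' => G (u + 2 * h) s') s
        ≤ G u s + E)
    (hfix : ∀ u, 0 < u → u ≤ U → ∀ s, Inv Bl (2 * t) u s → G u (fixs t u s) ≤ G u s) :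
    ∀ (k : ℕ) (u : ℝ) (s : St α), v ≤ u → u + 2 * h * k ≤ U → GS Bl t (2 * t) u s →
      s.A ⊆ A₀ → s.B ⊆ A₀ → EV Bl t h G k u s ≤ G u s + k * E := by
  have hv := PP.upos
  intro k
  induction k with
  | zero =>
    intro u s _ _ _ _ _
    simp [EV_zero]
  | succ k ih =>
    intro u s hu hk hs hsA hsB
    push_cast at hk
    have hk0 : 0 ≤ 2 * h * k := by positivity
    have hu' : u + 2 * h ≤ U := by linarith
    have hk' : u + 2 * h + 2 * h * k ≤ U := by linarith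
    have hut : v * t ≤ u * t := mul_le_mul_of_nonneg_right hu ht.le
    obtain ⟨i0, i1, i2, i3⟩ := pre hL ht rfl ht1 (by linarith) hh (by linarith)
      (by linarith) hs
    have hF : ∀ s', Inv Bl (2 * t) (u + 2 * h) s' → s'.A ⊆ A₀ → s'.B ⊆ A₀ →
        EV Bl t h G k (u + 2 * h) (fixs t (u + 2 * h) s') ≤
        1 * G (u + 2 * h) s' + k * E := by
      intro s' hs' hA hB
      have h1 := ih (u + 2 * h) (fixs t (u + 2 * h) s') (by linarith) hk' (gs_fixs hs') hA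
        ((FixAux.fixs_B_sub _ _ _).trans hB)
      have h2 := hfix (u + 2 * h) (by linarith) hu' s' hs'
      linarith
    have hrA : ∀ T, (ring s T).A ⊆ A₀ := by
      intro T
      show (if T ⊆ s.A then s.A \ T else s.A) ⊆ A₀
      split_ifs
      · exact sdiff_subset.trans hsA
      · exact hsA
    have e1 := step_le (Bl := Bl) (r := 1 / (u + 2 * h)) (h := h) (s := s)
      (F := fun s' => EV Bl t h G k (u + 2 * h) (fixs t (u + 2 * h) s'))
      (G := fun s' => 1 * G (u + 2 * h) s' + k * E) hh.le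
      (fun T _ f _ => PP.rpos hu hu' hs f) (PP.hrate hu hs) (hF s i0 hsA hsB)
      (fun T hT => hF _ (i1 T hT) (hrA T) (sdiff_subset.trans hsB))
      (fun T hT hT' => hF _ (i2 T hT hT') hsA hsB)
      (fun T hT => hF _ (i3 T hT) (sdiff_subset.trans hsA) hsB)
    have e2 : gen Bl (1 / (u + 2 * h)) (fun s' => 1 * G (u + 2 * h) s' + k * E) s =
        gen Bl (1 / (u + 2 * h)) (fun s' => G (u + 2 * h) s') s := by
      unfold gen
      simp only [add_sub_add_right_eq_sub, one_mul]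
    rw [e2] at e1
    have e3 := hcore u hu hu' s hsB hsA i0
    rw [EV_succ]
    unfold st1
    push_cast
    linarith

/-- the parts of `PsiM` -/
theorem psiM_parts {ep : ℝ} (h0 : 0 < ep) (Bl : Finset (Finset α))
    (C6 C8 : Finset (Finset (Finset α))) {u : ℝ} (hu : 0 < u) (hu1 : u ≤ 1) (s : St α) :
    Ph Bl (ep / 4) u s ≤ PsiM ep Bl C6 C8 u s ∧
    400 * t0 ep ^ 4 / ep * (u * V s) ≤ PsiM ep Bl C6 C8 u s ∧
    0 ≤ PsiM ep Bl C6 C8 u s := by
  have hdl : 0 < ep / 4 := by linarith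
  have h2 := Ph_nonneg Bl hdl u s
  have h3 : 0 ≤ Q s := Nat.cast_nonneg _
  have h6 : u ^ (1 / 2 + ep / 4 : ℝ) ≤ u ^ (1 / 2 : ℝ) :=
    Real.rpow_le_rpow_of_exponent_ge hu hu1 (by linarith)
  have h6' : 0 ≤ u ^ (1 / 2 : ℝ) * Q s - u ^ (1 / 2 + ep / 4 : ℝ) * Q s := by
    rw [← sub_mul]
    exact mul_nonneg (by linarith) h3
  have h7 : 1 ≤ u ^ (-(1 / 2 + ep / 2) : ℝ) :=
    Real.one_le_rpow_of_pos_of_le_one_of_nonpos hu hu1 (by linarith)
  have h8 : 1 ≤ u ^ (-(1 / 2 + ep) : ℝ) :=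
    Real.one_le_rpow_of_pos_of_le_one_of_nonpos hu hu1 (by linarith)
  have a1 := Sb_nonneg u s
  have a2 := MidThm.S_nonneg (k := 4) (by decide) u s
  have a3 := V_nonneg s
  have a4 : 0 ≤ 1000 / ep * S 4 u s := by positivity
  have a5 : 0 ≤ 400 * t0 ep ^ 4 / ep * (u * V s) := by positivity
  have h9 : 0 ≤ u ^ (11 / 4 : ℝ) * Nc C6 s := by
    unfold Nc
    positivity
  have h10 : 0 ≤ 10 ^ 6 * u ^ (7 / 2 - ep : ℝ) * Nc C8 s := by
    unfold Nc
    positivity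
  have h11 := MidThm.S_nonneg (k := 2) (by decide) u s
  have b1 : 1 * Ph Bl (ep / 4) u s ≤ u ^ (-(1 / 2 + ep / 2) : ℝ) * Ph Bl (ep / 4) u s :=
    mul_le_mul_of_nonneg_right h7 h2
  have b2 : 1 * (Sb u s + 1000 / ep * S 4 u s + 400 * t0 ep ^ 4 / ep * (u * V s)) ≤
      u ^ (-(1 / 2 + ep) : ℝ) * (Sb u s + 1000 / ep * S 4 u s
      + 400 * t0 ep ^ 4 / ep * (u * V s)) :=
    mul_le_mul_of_nonneg_right h8 (by linarith)
  unfold PsiM
  refine ⟨by linarith, by linarith, by linarith⟩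

/-- pointwise lower bound of `Wf` -/
theorem Wf_low {ep : ℝ} (h0 : 0 < ep) {Bl : Finset (Finset α)}
    {C6 C8 : Finset (Finset (Finset α))} {u : ℝ} (hu : 0 < u) (hu1 : u ≤ 1) {s : St α}
    (hW : Q s - 4 * Ph Bl (ep / 4) u s - 3 * (u * V s) ≤ Wf Bl s.A) (c uK : ℝ) (huK : 0 ≤ uK) :
    1 / u ^ (1 / 2 : ℝ) * (c - PsiD ep c uK Bl C6 C8 u s)
      - (4 + 3 * (ep / (400 * t0 ep ^ 4))) * PsiM ep Bl C6 C8 u s ≤ Wf Bl s.A := by
  obtain ⟨p1, p2, p3⟩ := psiM_parts h0 Bl C6 C8 hu hu1 s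
  have ht : 0 < t0 ep := by unfold t0; positivity
  have hK : 0 < ep / (400 * t0 ep ^ 4) := by positivity
  have p4 : u * V s ≤ ep / (400 * t0 ep ^ 4) * PsiM ep Bl C6 C8 u s := by
    have h1 := mul_le_mul_of_nonneg_left p2 hK.le
    have h2 : ep / (400 * t0 ep ^ 4) * (400 * t0 ep ^ 4 / ep * (u * V s)) = u * V s := by
      field_simp
    linarith
  have hs : 0 < u ^ (1 / 2 : ℝ) := by positivity
  have p5 : c - PsiD ep c uK Bl C6 C8 u s ≤ u ^ (1 / 2 : ℝ) * Q s := by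
    have h1 : |u ^ (1 / 2 : ℝ) * Q s - c| ≤
        Real.sqrt (1 + (u ^ (1 / 2 : ℝ) * Q s - c) ^ 2) := by
      rw [← Real.sqrt_sq_eq_abs]
      exact Real.sqrt_le_sqrt (by linarith)
    have h2 := neg_abs_le (u ^ (1 / 2 : ℝ) * Q s - c)
    have h3 : 0 ≤ uK ^ (1 / 20 : ℝ) * PsiM ep Bl C6 C8 u s :=
      mul_nonneg (Real.rpow_nonneg huK _) p3
    unfold PsiD
    linarith
  have p6 : 1 / u ^ (1 / 2 : ℝ) * (c - PsiD ep c uK Bl C6 C8 u s) ≤ Q s := by
    rw [one_div, inv_mul_le_iff₀ hs]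
    exact p5
  have p7 : (4 + 3 * (ep / (400 * t0 ep ^ 4))) * PsiM ep Bl C6 C8 u s =
      4 * PsiM ep Bl C6 C8 u s + 3 * (ep / (400 * t0 ep ^ 4) * PsiM ep Bl C6 C8 u s) := by
    ring
  rw [p7]
  linarith

end LE

end

end Vale.Agent.P046.NL
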