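import Vale.Agent.P046.NL.ITERG
import Vale.Agent.P046.NL.EARLYTHM
import Vale.Agent.P046.NL.LEa

/-!
P046: transfer of statements about an arbitrary final functional from the end of the middle phase
to its beginning (`mid_transfer`), and from the end of the early phase to the start
(`early_transfer`).
-/

namespace Vale.Agent.P046.NL

open Finset Vale.Agent.P046

noncomputable section

namespace TR

open MidThm

/-- choice of the number of steps -/
theorem steps {v U t x E ε g1 : ℝ} (hvU : v < U) (hv : 0 < v) (ht : 0 < t) (hx : 0 ≤ x)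
    (hE : 0 ≤ E) (hε : 0 < ε) (hg1 : 0 < g1) :
    ∃ (k : ℕ) (h : ℝ), 0 < h ∧ v + 2 * h * k = U ∧ h ≤ g1 ∧ h ≤ v * t / 100 ∧
      h * x ≤ 1 ∧ k * (E * h ^ 2) ≤ ε := by
  obtain ⟨w, hw⟩ : ∃ w : ℝ, w = (U - v) / 2 := ⟨_, rfl⟩
  have hw0 : 0 < w := by rw [hw]; linarith
  obtain ⟨δ, hδ0, hδ1, hδ3, hδ4, hδ5⟩ : ∃ δ : ℝ, 0 < δ ∧ δ ≤ g1 ∧
      δ ≤ v * t / 100 ∧ δ * x ≤ 1 ∧ w * (E * δ) ≤ ε := by
    have p1 : 0 < v * t / 100 := by positivity
    obtain ⟨y, hy⟩ : ∃ y : ℝ, y = w * E := ⟨_, rfl⟩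
    have p3 : 0 ≤ y := by rw [hy]; positivity
    refine ⟨min (min g1 (v * t / 100)) (min (1 / (x + 1)) (ε / (y + 1))),
      ?_, ?_, ?_, ?_, ?_⟩
    · exact lt_min (lt_min hg1 p1) (lt_min (by positivity) (by positivity))
    · exact (min_le_left _ _).trans (min_le_left _ _)
    · exact (min_le_left _ _).trans (min_le_right _ _)
    · calc min (min g1 (v * t / 100)) (min (1 / (x + 1)) (ε / (y + 1))) * x
          ≤ 1 / (x + 1) * x :=
            mul_le_mul_of_nonneg_right ((min_le_right _ _).trans (min_le_left _ _)) hx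
        _ = x / (x + 1) := by ring
        _ ≤ 1 := by
            rw [div_le_one (by linarith)]
            linarith
    · calc w * (E * min (min g1 (v * t / 100)) (min (1 / (x + 1)) (ε / (y + 1))))
          = y * min (min g1 (v * t / 100)) (min (1 / (x + 1)) (ε / (y + 1))) := by
            rw [hy]; ring
        _ ≤ y * (ε / (y + 1)) :=
            mul_le_mul_of_nonneg_left ((min_le_right _ _).trans (min_le_right _ _)) p3
        _ = ε * (y / (y + 1)) := by ring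
        _ ≤ ε * 1 := by
            refine mul_le_mul_of_nonneg_left ?_ hε.le
            rw [div_le_one (by linarith)]
            linarith
        _ = ε := mul_one ε
  obtain ⟨k, hk⟩ := exists_nat_gt (w / δ)
  have hk0 : (0 : ℝ) < k := lt_of_le_of_lt (by positivity) hk
  have hh0 : 0 < w / k := by positivity
  have hhδ : w / k ≤ δ := by
    rw [div_le_iff₀ hk0]
    rw [div_lt_iff₀ hδ0] at hk
    linarith
  have hkh : (k : ℝ) * (w / k) = w := by field_simp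
  refine ⟨k, w / k, hh0, ?_, by linarith, by linarith, ?_, ?_⟩
  · have : v + 2 * (w / k) * k = v + 2 * (k * (w / k)) := by ring
    rw [this, hkh, hw]
    ring
  · exact (mul_le_mul_of_nonneg_right hhδ hx).trans hδ4
  · calc (k : ℝ) * (E * (w / k) ^ 2) = (k * (w / k)) * (E * (w / k)) := by ring
      _ = w * (E * (w / k)) := by rw [hkh]
      _ ≤ w * (E * δ) := mul_le_mul_of_nonneg_left (mul_le_mul_of_nonneg_left hhδ hE) hw0.le
      _ ≤ ε := hδ5

/-- the parameters -/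
theorem prm {α : Type} [DecidableEq α] {Bl : Finset (Finset α)} (hL : Lin3 Bl) {t h v U : ℝ}
    (ht : 0 < t) (ht1 : 2 * t ≤ 1 / 10) (hh : 0 < h) (hv : 0 < v) (hU : 10 * U ≤ t)
    (hht : h ≤ v * t / 100) (hhx : h * ((Bl.card : ℝ) * (1 + 3 * (1 + 2 * t) / v)) ≤ 1) :
    Prm Bl t (2 * t) h v U := by
  refine ⟨hL, ht.le, by linarith, hh.le, hv, ?_, by linarith, by linarith, ?_⟩
  · have q1 : 2 * h * (1 + t) ≤ 2 * h * 2 :=
      mul_le_mul_of_nonneg_left (by linarith) (by linarith)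
    have q2 : (2 * t - t) * v = v * t := by ring
    have q3 : 0 < v * t := by positivity
    rw [q2]
    linarith
  · calc h * (Bl.card : ℝ) * (1 + 3 * (1 + 2 * t) / v)
        = h * ((Bl.card : ℝ) * (1 + 3 * (1 + 2 * t) / v)) := by ring
      _ ≤ 1 := hhx

end TR

open TR MidThm in
/-- transfer through the middle phase, for a real start state (general state form) -/
theorem mid_transfer_st {α : Type} [DecidableEq α] {Bl : Finset (Finset α)} (hL : Lin3 Bl)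
    {t v U : ℝ} (ht : 0 < t) (ht1 : 2 * t ≤ 1 / 10) (hv : 0 < v) (hvU : v < U)
    (hU : 10 * U ≤ t) (A₀ : Finset α) (Phi : Finset α → ℝ) (G : ℝ → St α → ℝ)
    (hcore : ∃ E h1 : ℝ, 0 ≤ E ∧ 0 < h1 ∧ ∀ h u : ℝ, 0 < h → h ≤ h1 → v ≤ u → u + 2 * h ≤ U →
      ∀ s : St α, s.B ⊆ A₀ → s.A ⊆ A₀ → Inv Bl (2 * t) (u + 2 * h) s →
      G (u + 2 * h) s + h * gen Bl (1 / (u + 2 * h)) (fun s' => G (u + 2 * h) s') s
        ≤ G u s + E * h ^ 2)
    (hfix : ∀ u, 0 < u → u ≤ U → ∀ s, Inv Bl (2 * t) u s → G u (fixs t u s) ≤ G u s)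
    (hend : ∀ s, GS Bl t (2 * t) U s → s.A ⊆ A₀ → s.B ⊆ A₀ →
      run Bl Phi s.A.card s.A ≤ G U s)
    (s0 : St α) (hs0 : GS Bl t (2 * t) v s0) (hsA0 : s0.A ⊆ A₀) (hsB0 : s0.B ⊆ A₀) :
    run Bl Phi s0.A.card s0.A ≤ G v s0 := by
  obtain ⟨E, g1, hE, hg1, core⟩ := hcore
  apply le_of_forall_pos_le_add
  intro ε hε
  obtain ⟨k, h, hh0, hkU, hhg, hht, hhx, hke⟩ := steps (t := t)
    (x := (Bl.card : ℝ) * (1 + 3 * (1 + 2 * t) / v)) (E := E) hvU hv ht
    (by positivity) hE hε hg1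
  have PP := prm hL ht ht1 hh0 hv hU hht hhx
  have hpre : ∀ u s, v ≤ u → u + 2 * h ≤ U → GS Bl t (2 * t) u s →
      Inv Bl (2 * t) (u + 2 * h) s ∧
      (∀ T ∈ s.W, Inv Bl (2 * t) (u + 2 * h) (ring s T)) ∧
      (∀ T ∈ s.W, (T \ s.B).Nonempty → Inv Bl (2 * t) (u + 2 * h) (virt s T)) ∧
      (∀ T ∈ bl Bl s.A \ s.W, Inv Bl (2 * t) (u + 2 * h) (nring s T)) := by
    intro u s hu hu' hs
    refine pre hL ht rfl ht1 (by linarith) hh0 ?_ (by linarith) hs
    have : v * t ≤ u * t := mul_le_mul_of_nonneg_right hu ht.le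
    linarith
  have main := iter_gen hL Phi t h U (E * h ^ 2) hh0 (by positivity)
    (fun u s => GS Bl t (2 * t) u s ∧ s.A ⊆ A₀ ∧ s.B ⊆ A₀ ∧ v ≤ u)
    G
    (fun u s hP => hP.1.inv.sub)
    (fun u s hP hu T _ f _ => PP.rpos hP.2.2.2 hu hP.1 f)
    (fun u s hP hu => PP.hrate hP.2.2.2 hP.1)
    ?_ ?_ ?_ ?_ ?_ ?_ k v s0 ?_ hkU
  · linarith
  · rintro u s ⟨hs, hsA, hsB, hu⟩ hu'
    exact ⟨gs_fixs (hpre u s hu hu' hs).1, hsA, (FixAux.fixs_B_sub _ _ _).trans hsB, by linarith⟩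
  · rintro u s ⟨hs, hsA, hsB, hu⟩ hu' T hT
    refine ⟨gs_fixs ((hpre u s hu hu' hs).2.1 T hT), ?_, ?_, by linarith⟩
    · rw [fixs_A]
      show (if T ⊆ s.A then s.A \ T else s.A) ⊆ A₀
      split_ifs
      · exact sdiff_subset.trans hsA
      · exact hsA
    · exact (FixAux.fixs_B_sub _ _ _).trans (sdiff_subset.trans hsB)
  · rintro u s ⟨hs, hsA, hsB, hu⟩ hu' T hT hT'
    exact ⟨gs_fixs ((hpre u s hu hu' hs).2.2.1 T hT hT'), hsA,
      (FixAux.fixs_B_sub _ _ _).trans hsB, by linarith⟩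
  · rintro u s ⟨hs, hsA, hsB, hu⟩ hu' T hT
    exact ⟨gs_fixs ((hpre u s hu hu' hs).2.2.2 T hT), sdiff_subset.trans hsA,
      (FixAux.fixs_B_sub _ _ _).trans hsB, by linarith⟩
  · rintro u s ⟨hs, hsA, hsB, hu⟩ hu'
    obtain ⟨i0, i1, i2, i3⟩ := hpre u s hu hu' hs
    have hcmp : ∀ s', Inv Bl (2 * t) (u + 2 * h) s' →
        G (u + 2 * h) (fixs t (u + 2 * h) s') ≤ G (u + 2 * h) s' := fun s' hs' =>
      hfix (u + 2 * h) (by linarith) (by linarith) s' hs'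
    have e1 := step_le (Bl := Bl) (r := 1 / (u + 2 * h)) (h := h) (s := s)
      (F := fun s' => G (u + 2 * h) (fixs t (u + 2 * h) s'))
      (G := fun s' => G (u + 2 * h) s') hh0.le
      (fun T _ f _ => PP.rpos hu hu' hs f) (PP.hrate hu hs) (hcmp s i0)
      (fun T hT => hcmp _ (i1 T hT)) (fun T hT hT' => hcmp _ (i2 T hT hT'))
      (fun T hT => hcmp _ (i3 T hT))
    exact e1.trans (core h u hh0 hhg hu hu' s hsB hsA i0)
  · rintro s ⟨hs, hsA, hsB, -⟩
    exact hend s hs hsA hsB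
  · exact ⟨hs0, hsA0, hsB0, le_rfl⟩

open TR in
/-- transfer through the middle phase from a real start state -/
theorem mid_transfer {α : Type} [DecidableEq α] {Bl : Finset (Finset α)} (hL : Lin3 Bl)
    {t v U : ℝ} (ht : 0 < t) (ht1 : 2 * t ≤ 1 / 10) (hv : 0 < v) (hvU : v < U)
    (hU : 10 * U ≤ t) (A : Finset α) (hA : ∀ e ∈ A, |xv v (toSt Bl A) e| ≤ t)
    (Phi : Finset α → ℝ) (G : ℝ → St α → ℝ)
    (hcore : ∃ E h1 : ℝ, 0 ≤ E ∧ 0 < h1 ∧ ∀ h u : ℝ, 0 < h → h ≤ h1 → v ≤ u → u + 2 * h ≤ U →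
      ∀ s : St α, s.B ⊆ A → s.A ⊆ A → Inv Bl (2 * t) (u + 2 * h) s →
      G (u + 2 * h) s + h * gen Bl (1 / (u + 2 * h)) (fun s' => G (u + 2 * h) s') s
        ≤ G u s + E * h ^ 2)
    (hfix : ∀ u, 0 < u → u ≤ U → ∀ s, Inv Bl (2 * t) u s → G u (fixs t u s) ≤ G u s)
    (hend : ∀ s, GS Bl t (2 * t) U s → s.A ⊆ A → s.B ⊆ A →
      run Bl Phi s.A.card s.A ≤ G U s) :
    run Bl Phi A.card A ≤ G v (toSt Bl A) := by
  refine mid_transfer_st hL ht ht1 hv hvU hU A Phi G hcore hfix hend (toSt Bl A) ?_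
    subset_rfl subset_rfl
  refine gs_toSt ht.le (by linarith) A ?_
  intro e he
  have := hA e he
  unfold xv at this
  rwa [if_pos (show e ∈ (toSt Bl A).B from he)] at this

/-- transfer through the early phase -/
theorem early_transfer {n : ℕ} (hn4 : 4 ≤ n) (hL : Lin3 (BK n))
    (hU3 : 1 / ((n : ℝ) - 2) < u0 n) (Phi : Finset (Sym2 (Fin n)) → ℝ)
    (G : ℝ → Finset (Sym2 (Fin n)) → ℝ) (a : ℝ) (ha : 0 ≤ a)
    (hbad : ∀ u A, A ⊆ tr univ → 1 / ((n : ℝ) - 2) ≤ u → u ≤ u0 n → ¬ GoodE n u A →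
      run (BK n) Phi A.card A ≤ G u A)
    (hcore : ∃ E h1 : ℝ, 0 ≤ E ∧ 0 < h1 ∧ ∀ h u : ℝ, 0 < h → h ≤ h1 → 1 / ((n : ℝ) - 2) ≤ u →
      u + 2 * h ≤ u0 n → ∀ A : Finset (Sym2 (Fin n)), A ⊆ tr univ → GoodE n u A →
      G (u + 2 * h) A + h * ∑ T ∈ bl (BK n) A, (G (u + 2 * h) (A \ T) - G (u + 2 * h) A)
        ≤ G u A + h * a + E * h ^ 2)
    (hend : ∀ A, A ⊆ tr univ → GoodE n (u0 n) A → run (BK n) Phi A.card A ≤ G (u0 n) A) :
    run (BK n) Phi (tr (univ : Finset (Fin n))).card (tr (univ : Finset (Fin n))) ≤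
      G (1 / ((n : ℝ) - 2)) (tr univ) + a * (u0 n / 2) := by
  obtain ⟨E, h1, hE, hh1, hstep⟩ := hcore
  have hnr4 : (4 : ℝ) ≤ n := by exact_mod_cast hn4
  have hus : 0 < 1 / ((n : ℝ) - 2) := div_pos one_pos (by linarith)
  obtain ⟨us, hus_def⟩ : ∃ us : ℝ, us = 1 / ((n : ℝ) - 2) := ⟨_, rfl⟩
  rw [← hus_def] at hus hU3 ⊢
  apply le_of_forall_pos_le_add
  intro ε hε
  obtain ⟨k, h, hh0, hkU, hhg, -, hhx, hke⟩ := TR.steps (t := 1)
    (x := ((BK n).card : ℝ)) (E := E) hU3 hus one_pos (Nat.cast_nonneg _) hE hε hh1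
  -- dummy value below the start time: the harmonic function itself
  have hmain := iter_early_gen hL Phi h (u0 n) (h * a + E * h ^ 2) hh0 (by positivity) hhx
    (tr univ) (fun u A => us ≤ u ∧ GoodE n u A)
    (fun u A => if us ≤ u then G u A else run (BK n) Phi A.card A)
    (by
      intro u A hA hu hb
      split_ifs with hcase
      · exact hbad u A hA (by rw [← hus_def]; exact hcase) hu (fun hg => hb ⟨hcase, hg⟩)
      · exact le_rfl)
    (by
      intro u A hA hu hg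
      have hcase2 : us ≤ u + 2 * h := by linarith [hg.1]
      have j1 := hstep h u hh0 hhg (by rw [← hus_def]; exact hg.1) hu A hA hg.2
      simp only [if_pos hg.1, if_pos hcase2]
      linarith)
    (by
      intro A hA hg
      simp only [if_pos hU3.le]
      exact hend A hA hg.2)
    k us (tr univ) subset_rfl hkU
  simp only [if_pos (le_refl us)] at hmain
  have hkh : (k : ℝ) * h ≤ u0 n / 2 := by
    have : 2 * h * k = 2 * ((k : ℝ) * h) := by ring
    linarith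
  have r1 : (k : ℝ) * (h * a + E * h ^ 2) = a * (k * h) + k * (E * h ^ 2) := by ring
  have r2 : a * (k * h) ≤ a * (u0 n / 2) := mul_le_mul_of_nonneg_left hkh ha
  linarith

end

end Vale.Agent.P046.NL
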