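import Vale.Agent.P046.NL.LF
import Vale.Agent.P046.NL.Transfer
import Vale.Agent.P046.NL.Defs5
import Vale.Agent.P046.NL.SYSBK
import Vale.Agent.P046.NL.GLIN
import Vale.Agent.P046.Low.TZ
import Vale.Agent.P046.Low.LKn
import Vale.Agent.P046.NL.EARLYTHM

/-!
P046, no-log lower bound: assembly (from the rows EARLYCORE and DECORE).
-/

namespace Vale.Agent.P046.NL

open Finset Vale.Agent.P046

noncomputable section

namespace TH

/-- statement of `early_core` -/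
def EarlyCore : Prop := ∃ n0 : ℕ, ∀ n : ℕ, n0 ≤ n →
    ∀ (C6 C8 : Finset (Finset (Finset (Sym2 (Fin n))))), Sys (BK n) C6 C8 →
    ∃ E h1 : ℝ, 0 ≤ E ∧ 0 < h1 ∧ ∀ h u : ℝ, 0 < h → h ≤ h1 → 1 / ((n : ℝ) - 2) ≤ u →
      u + 2 * h ≤ u0 n → ∀ A : Finset (Sym2 (Fin n)), A ⊆ tr univ → GoodE n u A →
      PsiE n C6 C8 (u + 2 * h) A
        + h * ∑ T ∈ bl (BK n) A, (PsiE n C6 C8 (u + 2 * h) (A \ T) - PsiE n C6 C8 (u + 2 * h) A)
        ≤ PsiE n C6 C8 u A + h * (n : ℝ) ^ (249 / 100 : ℝ) + E * h ^ 2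

/-- statement of `de_core` for a given `kap` -/
def DeCore (kap : ℝ) : Prop := ∃ n0 : ℕ, ∀ n : ℕ, n0 ≤ n →
    ∀ (C6 C8 : Finset (Finset (Finset (Sym2 (Fin n))))), Sys (BK n) C6 C8 → ∀ c : ℝ,
    ∃ E h1 : ℝ, 0 ≤ E ∧ 0 < h1 ∧ ∀ h u : ℝ, 0 < h → h ≤ h1 → 1 / ((n : ℝ) - 2) ≤ u →
      u + 2 * h ≤ u0 n → ∀ A : Finset (Sym2 (Fin n)), A ⊆ tr univ → GoodE n u A →
      PsiDE n c kap C6 C8 (u + 2 * h) A
        + h * ∑ T ∈ bl (BK n) A,
          (PsiDE n c kap C6 C8 (u + 2 * h) (A \ T) - PsiDE n c kap C6 C8 (u + 2 * h) A)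
        ≤ PsiDE n c kap C6 C8 u A + 2 * h * (n : ℝ) ^ (249 / 100 : ℝ) + E * h ^ 2

/-- bad states: `BadE` is at least `n ^ 2` -/
theorem badE_ge {n : ℕ} (hn : 1 ≤ n) {u : ℝ} (hu : 0 < u) (huU : u ≤ u0 n)
    (A : Finset (Sym2 (Fin n))) (hbad : ¬ GoodE n u A) : (n : ℝ) ^ 2 ≤ BadE n u A := by
  have hn' : (0 : ℝ) < n := by exact_mod_cast hn
  have hU : 0 < u0 n := by unfold u0; exact Real.rpow_pos_of_pos hn' _
  have g1 : 1 ≤ u0 n ^ (5001 : ℝ) * u ^ (-5001 : ℝ) := by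
    rw [Real.rpow_neg hu.le, ← div_eq_mul_inv, one_le_div (Real.rpow_pos_of_pos hu _)]
    exact Real.rpow_le_rpow hu.le huU (by norm_num)
  have g2 : 0 ≤ (n : ℝ) ^ 2 / t0 e0 ^ 6 * S 6 u (toSt (BK n) A) :=
    mul_nonneg (div_nonneg (sq_nonneg _) (pow_nonneg ET.t0_pos.le _))
      (ET.S_nonneg 6 (by decide) _ _)
  have g3 : 0 ≤ 2 * 10 ^ 12 * (n : ℝ) ^ 2 * u0 n ^ 2 * XX u A :=
    mul_nonneg (by positivity) (ET.XX_nonneg _ _)
  have g4 : (n : ℝ) ^ 2 ≤ (n : ℝ) ^ 2 / t0 e0 ^ 6 * S 6 u (toSt (BK n) A)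
      + 2 * 10 ^ 12 * (n : ℝ) ^ 2 * u0 n ^ 2 * XX u A := by
    unfold GoodE at hbad
    rw [not_and_or, not_le, not_le] at hbad
    rcases hbad with h | h
    · have h1 : (n : ℝ) ^ 2 ≤ (n : ℝ) ^ 2 / t0 e0 ^ 6 * S 6 u (toSt (BK n) A) := by
        rw [div_mul_eq_mul_div, le_div_iff₀ (pow_pos ET.t0_pos _)]
        exact mul_le_mul_of_nonneg_left h.le (sq_nonneg _)
      linarith
    · have h1 : u ^ 2 ≤ u0 n ^ 2 := pow_le_pow_left₀ hu.le huU 2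
      have h2 : 2 * 10 ^ 12 * XX u A * u ^ 2 ≤ 2 * 10 ^ 12 * XX u A * u0 n ^ 2 :=
        mul_le_mul_of_nonneg_left h1 (mul_nonneg (by norm_num) (ET.XX_nonneg _ _))
      have h3 : (n : ℝ) ^ 2 * 1 ≤ (n : ℝ) ^ 2 * (2 * 10 ^ 12 * XX u A * u0 n ^ 2) :=
        mul_le_mul_of_nonneg_left (by linarith) (sq_nonneg _)
      nlinarith
  unfold BadE
  calc (n : ℝ) ^ 2 ≤ 1 * ((n : ℝ) ^ 2 / t0 e0 ^ 6 * S 6 u (toSt (BK n) A)
      + 2 * 10 ^ 12 * (n : ℝ) ^ 2 * u0 n ^ 2 * XX u A) := by rw [one_mul]; exact g4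
    _ ≤ _ := mul_le_mul_of_nonneg_right g1 (add_nonneg g2 g3)

theorem badE_nonneg {n : ℕ} {u : ℝ} (hu : 0 < u)
    (A : Finset (Sym2 (Fin n))) : 0 ≤ BadE n u A := by
  have hU : 0 ≤ u0 n := by unfold u0; exact Real.rpow_nonneg (Nat.cast_nonneg _) _
  unfold BadE
  refine mul_nonneg (mul_nonneg (Real.rpow_nonneg hU _) (Real.rpow_nonneg hu.le _)) ?_
  refine add_nonneg (mul_nonneg (div_nonneg (sq_nonneg _) (pow_nonneg ET.t0_pos.le _))
    (ET.S_nonneg 6 (by decide) _ _)) (mul_nonneg ?_ (ET.XX_nonneg _ _))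
  positivity

/-- start value of `BadE` -/
theorem badE_start {n : ℕ} (hn : 3 ≤ n) :
    BadE n (1 / ((n : ℝ) - 2)) (tr (univ : Finset (Fin n))) = 0 := by
  have hS : S 6 (1 / ((n : ℝ) - 2)) (toSt (BK n) (tr (univ : Finset (Fin n)))) = 0 := by
    refine sum_eq_zero fun e he => ?_
    rw [start_xv n hn e he]
    norm_num
  unfold BadE
  rw [hS, start_XX n hn]
  ring

theorem run_neg {α : Type} [DecidableEq α] (B : Finset (Finset α)) (k : ℕ) (A : Finset α) :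
    run B (fun A => -(A.card : ℝ)) k A = -run B (fun A => (A.card : ℝ)) k A := by
  have h := TZ.run_smul B (-1) (fun A => (A.card : ℝ)) k A
  have e1 : (fun A : Finset α => (-1 : ℝ) * (A.card : ℝ)) = fun A => -(A.card : ℝ) := by
    funext A; ring
  rw [e1] at h
  rw [h]
  ring

theorem run_nonneg {α : Type} [DecidableEq α] (B : Finset (Finset α)) :
    ∀ (k : ℕ) (A : Finset α), 0 ≤ run B (fun A => (A.card : ℝ)) k A := by
  intro k
  induction k with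
  | zero => intro A; rw [run]; exact Nat.cast_nonneg _
  | succ k ih =>
    intro A
    rw [run]
    split_ifs with h1
    · exact div_nonneg (sum_nonneg fun T _ => ih _) (Nat.cast_nonneg _)
    · exact Nat.cast_nonneg _

/-- the middle phase for the lower bound -/
theorem mid_low (η Umax : ℝ) (hη : 0 < η) (hη1 : η ≤ 1) (hUm : 0 < Umax) :
    ∃ U κ Mmin : ℝ, 0 < U ∧ U ≤ Umax ∧ 0 < κ ∧
    ∀ (α : Type) [DecidableEq α] (Bl : Finset (Finset α)) (C6 C8 : Finset (Finset (Finset α))),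
    Sys Bl C6 C8 → NP Bl → Mmin ≤ (Bl.card : ℝ) → ∀ (v c : ℝ), 0 < v → v < U → ∀ A : Finset α,
      (∀ e ∈ A, |xv v (toSt Bl A) e| ≤ t0 e0) →
      run Bl (fun A => -(A.card : ℝ)) A.card A ≤
        κ * (7 / 10 * PsiD e0 c U Bl C6 C8 v (toSt Bl A)
          + η * PsiM e0 Bl C6 C8 v (toSt Bl A) + (2 - 7 / 10 * c)) := by
  have he : 0 < e0 := ET.e0_pos
  have he1 : e0 ≤ 1 / 100 := by unfold e0; norm_num
  obtain ⟨ua, ha0, ha1, hmc⟩ := mid_core e0 he he1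
  obtain ⟨ub, hb0, hb1, hmf⟩ := fix_mid e0 he he1
  obtain ⟨uc, hc0', hc1, hdc⟩ := d_core_of e0 he he1 (mid_core_strong e0 he he1)
  obtain ⟨ud, hd0, hd1, hdf⟩ := d_fix e0 he he1
  have ht : 0 < t0 e0 := ET.t0_pos
  have ht1 : t0 e0 ≤ 1 / 10000 := FIXM.t0_le he he1
  obtain ⟨U, κ, Mmin, hU0, hUη, hUm', hκ, hlow⟩ := low_end e0 he he1 η
    (min (min (min ua ub) (min uc ud)) (min (t0 e0 / 10) Umax)) hη hη1 (by positivity)
  have hUa : U ≤ ua := hUm'.trans ((min_le_left _ _).trans ((min_le_left _ _).trans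
    (min_le_left _ _)))
  have hUb : U ≤ ub := hUm'.trans ((min_le_left _ _).trans ((min_le_left _ _).trans
    (min_le_right _ _)))
  have hUc : U ≤ uc := hUm'.trans ((min_le_left _ _).trans ((min_le_right _ _).trans
    (min_le_left _ _)))
  have hUd : U ≤ ud := hUm'.trans ((min_le_left _ _).trans ((min_le_right _ _).trans
    (min_le_right _ _)))
  have hUt : U ≤ t0 e0 / 10 := hUm'.trans ((min_le_right _ _).trans (min_le_left _ _))
  have hUM : U ≤ Umax := hUm'.trans ((min_le_right _ _).trans (min_le_right _ _))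
  refine ⟨U, κ, Mmin, hU0, hUM, hκ, ?_⟩
  intro α _ Bl C6 C8 hS hNP hMm v c hv hvU A hA
  obtain ⟨E1, g1, hE1, hg1, core1⟩ := hmc α Bl C6 C8 hS v A hv
  obtain ⟨E2, g2, hE2, hg2, core2⟩ := hdc α Bl C6 C8 hS v U c A hv hUc
  refine mid_transfer hS.lin ht (by linarith) hv hvU (by linarith) A hA
    (fun A => -(A.card : ℝ))
    (fun u s => κ * (7 / 10 * PsiD e0 c U Bl C6 C8 u s
          + η * PsiM e0 Bl C6 C8 u s + (2 - 7 / 10 * c))) ?_ ?_ ?_
  · refine ⟨κ * (7 / 10 * E2 + η * E1), min g1 g2, by positivity, lt_min hg1 hg2, ?_⟩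
    intro h u hh hhg hu hu' s hsB hsA hI
    have c1 := core1 h u hh (hhg.trans (min_le_left _ _)) hu (by linarith) s hsB hsA hI
    have c2 := core2 h u hh (hhg.trans (min_le_right _ _)) hu hu' s hsB hsA hI
    have e1 : gen Bl (1 / (u + 2 * h)) (fun s' => κ * (7 / 10 * PsiD e0 c U Bl C6 C8 (u + 2 * h) s'
          + η * PsiM e0 Bl C6 C8 (u + 2 * h) s' + (2 - 7 / 10 * c))) s =
        (κ * (7 / 10)) * gen Bl (1 / (u + 2 * h))
          (fun s' => PsiD e0 c U Bl C6 C8 (u + 2 * h) s') s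
        + (κ * η) * gen Bl (1 / (u + 2 * h))
          (fun s' => PsiM e0 Bl C6 C8 (u + 2 * h) s') s := by
      rw [← gen_lin]
      unfold gen
      congr 1
      · congr 1
        · exact Finset.sum_congr rfl fun T _ => by ring
        · exact Finset.sum_congr rfl fun T _ => Finset.sum_congr rfl fun f _ => by ring
      · exact Finset.sum_congr rfl fun T _ => by ring
    rw [e1]
    have c1' := mul_le_mul_of_nonneg_left c1 (show 0 ≤ κ * η by positivity)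
    have c2' := mul_le_mul_of_nonneg_left c2 (show 0 ≤ κ * (7 / 10) by positivity)
    linarith
  · intro u hu huU s hI
    have c1 := hmf α Bl C6 C8 hS u hu (by linarith) s hI
    have c2 := hdf α Bl C6 C8 hS U u c hu huU hUd s hI
    have c1' := mul_le_mul_of_nonneg_left c1 hη.le
    refine mul_le_mul_of_nonneg_left ?_ hκ.le
    linarith
  · intro s hs _ _
    rw [run_neg]
    have h1 := hlow α Bl C6 C8 hS hNP hMm s hs
    have h2 : c - PsiD e0 c U Bl C6 C8 U s ≤ U ^ (1 / 2 : ℝ) * Q s := by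
      have h1 : |U ^ (1 / 2 : ℝ) * Q s - c| ≤
          Real.sqrt (1 + (U ^ (1 / 2 : ℝ) * Q s - c) ^ 2) := by
        rw [← Real.sqrt_sq_eq_abs]
        exact Real.sqrt_le_sqrt (by linarith)
      have h2 := neg_abs_le (U ^ (1 / 2 : ℝ) * Q s - c)
      have h3 : 0 ≤ U ^ (1 / 20 : ℝ) * PsiM e0 Bl C6 C8 U s :=
        mul_nonneg (Real.rpow_nonneg hU0.le _)
          (LE.psiM_parts he Bl C6 C8 hU0 (by linarith) s).2.2
      unfold PsiD
      linarith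
    have h3 : κ * (7 / 10 * (c - PsiD e0 c U Bl C6 C8 U s) - 2
        - η * PsiM e0 Bl C6 C8 U s) ≤ κ * (7 / 10 * (U ^ (1 / 2 : ℝ) * Q s) - 2
        - η * PsiM e0 Bl C6 C8 U s) := by
      refine mul_le_mul_of_nonneg_left ?_ hκ.le
      linarith
    have h4 : κ * (7 / 10 * PsiD e0 c U Bl C6 C8 U s
        + η * PsiM e0 Bl C6 C8 U s + (2 - 7 / 10 * c)) =
        -(κ * (7 / 10 * (c - PsiD e0 c U Bl C6 C8 U s) - 2
        - η * PsiM e0 Bl C6 C8 U s)) := by ring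
    rw [h4]
    linarith

/-- the number of triangles -/
theorem card_BK_ge {n : ℕ} (hn : 3 ≤ n) : (n : ℝ) - 2 ≤ ((BK n).card : ℝ) := by
  have h1 : (BK n).card = n.choose 3 := by
    unfold BK
    rw [card_image_of_injOn, card_powersetCard, card_univ, Fintype.card_fin]
    intro T hT T' hT' h
    have a1 := (mem_powersetCard.mp hT).2
    have a2 := (mem_powersetCard.mp hT').2
    exact tr_inj (by omega) (by omega) h
  have h2 : ∀ m : ℕ, 3 ≤ m → m ≤ m.choose 3 + 2 := by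
    intro m hm
    induction m, hm using Nat.le_induction with
    | base => decide
    | succ m hm ih =>
      have h3 : (m + 1).choose 3 = m.choose 2 + m.choose 3 := Nat.choose_succ_succ m 2
      have h4 : 0 < m.choose 2 := Nat.choose_pos (by omega)
      omega
  have h3 := h2 n hn
  rw [← h1] at h3
  have h4 : (n : ℝ) ≤ ((BK n).card : ℝ) + 2 := by exact_mod_cast h3
  linarith

/-- the start value of the number of points -/
theorem start_Q {n : ℕ} (hn : 4 ≤ n) :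
    Real.sqrt (1 + ((1 / ((n : ℝ) - 2)) ^ (1 / 2 : ℝ) * ((tr (univ : Finset (Fin n))).card : ℝ)
      - (n : ℝ) ^ (3 / 2 : ℝ) / 2) ^ 2) ≤ 2 := by
  have hnr : (4 : ℝ) ≤ n := by exact_mod_cast hn
  have hc : ((tr (univ : Finset (Fin n))).card : ℝ) = (n : ℝ) * ((n : ℝ) - 1) / 2 := by
    rw [card_tr, card_univ, Fintype.card_fin, Nat.cast_choose_two]
  obtain ⟨r, hr⟩ : ∃ r : ℝ, r = Real.sqrt (n : ℝ) := ⟨_, rfl⟩
  obtain ⟨s, hs⟩ : ∃ s : ℝ, s = Real.sqrt ((n : ℝ) - 2) := ⟨_, rfl⟩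
  have hr2 : r ^ 2 = (n : ℝ) := by rw [hr]; exact Real.sq_sqrt (by linarith)
  have hs2 : s ^ 2 = (n : ℝ) - 2 := by rw [hs]; exact Real.sq_sqrt (by linarith)
  have hs1 : 1 ≤ s := by
    rw [hs]; exact Real.one_le_sqrt.mpr (by linarith)
  have hsr : s ≤ r := by
    rw [hs, hr]; exact Real.sqrt_le_sqrt (by linarith)
  have e1 : (1 / ((n : ℝ) - 2)) ^ (1 / 2 : ℝ) = 1 / s := by
    rw [← Real.sqrt_eq_rpow, Real.sqrt_div zero_le_one, Real.sqrt_one, hs]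
  have e2 : (n : ℝ) ^ (3 / 2 : ℝ) = (n : ℝ) * r := by
    rw [hr, Real.sqrt_eq_rpow]
    nth_rewrite 2 [← Real.rpow_one (n : ℝ)]
    rw [← Real.rpow_add (by linarith)]
    norm_num
  rw [e1, e2, hc]
  have hn2 : (n : ℝ) = r ^ 2 := hr2.symm
  have hd : r ^ 2 - s ^ 2 = 2 := by rw [hr2, hs2]; ring
  have hx : 1 / s * ((n : ℝ) * ((n : ℝ) - 1) / 2) - (n : ℝ) * r / 2 =
      r ^ 2 * (r - s) ^ 2 / (4 * s) := by
    rw [hn2]
    have h1 : r ^ 2 - 1 = (r ^ 2 + s ^ 2) / 2 := by linarith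
    rw [h1]
    field_simp
    ring
  rw [hx]
  have h2 : r * (r - s) ≤ 2 := by nlinarith
  have h3 : 0 ≤ r * (r - s) := mul_nonneg (by linarith) (by linarith)
  have h4 : r ^ 2 * (r - s) ^ 2 ≤ 4 := by nlinarith
  have h5 : 0 ≤ r ^ 2 * (r - s) ^ 2 / (4 * s) := by positivity
  have h6 : r ^ 2 * (r - s) ^ 2 / (4 * s) ≤ 1 := by
    rw [div_le_one (by linarith)]
    linarith
  rw [show (2 : ℝ) = Real.sqrt 4 by
    rw [show (4 : ℝ) = 2 ^ 2 by norm_num, Real.sqrt_sq (by norm_num)]]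
  refine Real.sqrt_le_sqrt ?_
  nlinarith

/-- numbers that are eventually small -/
theorem ev_num (Mmin : ℝ) : ∃ n3 : ℕ, ∀ n : ℕ, n3 ≤ n → Mmin ≤ (n : ℝ) - 2 ∧
    340 ≤ (n : ℝ) ^ (3 / 2 : ℝ) ∧
    (n : ℝ) ^ (249 / 100 : ℝ) * u0 n ≤ 1 / 100 * (n : ℝ) ^ (3 / 2 : ℝ) := by
  have t1 : Filter.Tendsto (fun n : ℕ => (n : ℝ) ^ (1 / 100 - 2 * c0 : ℝ)) Filter.atTop
      Filter.atTop :=
    (tendsto_rpow_atTop (y := 1 / 100 - 2 * c0) (by unfold c0; norm_num)).comp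
      tendsto_natCast_atTop_atTop
  have t2 : Filter.Tendsto (fun n : ℕ => (n : ℝ) ^ (3 / 2 : ℝ)) Filter.atTop Filter.atTop :=
    (tendsto_rpow_atTop (y := 3 / 2) (by norm_num)).comp tendsto_natCast_atTop_atTop
  have t3 : Filter.Tendsto (fun n : ℕ => (n : ℝ)) Filter.atTop Filter.atTop :=
    tendsto_natCast_atTop_atTop
  obtain ⟨n3, h3⟩ := Filter.eventually_atTop.mp ((t1.eventually_ge_atTop 100).and
    ((t2.eventually_ge_atTop 340).and ((t3.eventually_ge_atTop (Mmin + 2)).and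
      (Filter.eventually_ge_atTop 1))))
  refine ⟨n3, fun n hn => ?_⟩
  obtain ⟨h1, h2, h4, h5⟩ := h3 n hn
  have hn0 : (0 : ℝ) < n := by exact_mod_cast h5
  refine ⟨by linarith, h2, ?_⟩
  have e1 : (n : ℝ) ^ (249 / 100 : ℝ) * u0 n * (n : ℝ) ^ (1 / 100 - 2 * c0 : ℝ) =
      (n : ℝ) ^ (3 / 2 : ℝ) := by
    unfold u0
    rw [← Real.rpow_add hn0, ← Real.rpow_add hn0]
    congr 1
    ring
  have e2 : 0 ≤ (n : ℝ) ^ (249 / 100 : ℝ) * u0 n := by
    unfold u0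
    positivity
  nlinarith

/-- the lower bound from the early core and the core of the concentration functional -/
theorem theta_of (h_early : EarlyCore) (h_de : ∀ kap : ℝ, 0 < kap → kap ≤ 1 → DeCore kap) :
    ∃ c : ℝ, 0 < c ∧ ∃ n0 : ℕ, ∀ n : ℕ, n0 ≤ n →
      c * (n : ℝ) ^ (3 / 2 : ℝ) ≤
        run (BK n) (fun A => (A.card : ℝ)) (tr (univ : Finset (Fin n))).card
          (tr (univ : Finset (Fin n))) := by
  obtain ⟨kap, hkap⟩ : ∃ kap : ℝ, kap = 1 / (2 * 10 ^ 13) := ⟨_, rfl⟩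
  obtain ⟨η, hη⟩ : ∃ η : ℝ, η = 1 / (4 * 10 ^ 13) := ⟨_, rfl⟩
  have hkap0 : 0 < kap := by rw [hkap]; norm_num
  have hkap1 : kap ≤ 1 := by rw [hkap]; norm_num
  have hη0 : 0 < η := by rw [hη]; norm_num
  have hη1 : η ≤ 1 := by rw [hη]; norm_num
  obtain ⟨U, κ, Mmin, hU0, hUm, hκ, hlow⟩ := mid_low η (kap ^ 20) hη0 hη1 (by positivity)
  obtain ⟨n1, hcore1⟩ := h_early
  obtain ⟨n2, hcore2⟩ := h_de kap hkap0 hkap1
  obtain ⟨n3, hev⟩ := ET.ev_u0 (U / 2) (by positivity)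
  obtain ⟨n4, hnum⟩ := ev_num Mmin
  have hU20 : U ^ (1 / 20 : ℝ) ≤ kap := by
    calc U ^ (1 / 20 : ℝ) ≤ (kap ^ 20) ^ (1 / 20 : ℝ) :=
          Real.rpow_le_rpow hU0.le hUm (by norm_num)
      _ = kap := by
        rw [← Real.rpow_natCast kap 20, ← Real.rpow_mul hkap0.le]
        norm_num
  refine ⟨κ / 5, by positivity, max (max n1 n2) (max n3 n4), fun n hn => ?_⟩
  have hn1 : n1 ≤ n := (le_max_left _ _).trans ((le_max_left _ _).trans hn)
  have hn2 : n2 ≤ n := (le_max_right _ _).trans ((le_max_left _ _).trans hn)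
  have hn3 : n3 ≤ n := (le_max_left _ _).trans ((le_max_right _ _).trans hn)
  have hn4 : n4 ≤ n := (le_max_right _ _).trans ((le_max_right _ _).trans hn)
  obtain ⟨hn4', hU1, hU2, hU3⟩ := hev n hn3
  obtain ⟨hM, h340, hsm⟩ := hnum n hn4
  obtain ⟨C6, C8, hSys, hC6, hC8⟩ := sys_BK n
  obtain ⟨c, hc⟩ : ∃ c : ℝ, c = (n : ℝ) ^ (3 / 2 : ℝ) / 2 := ⟨_, rfl⟩
  obtain ⟨E1, g1, hE1, hg1, core1⟩ := hcore1 n hn1 C6 C8 hSys
  obtain ⟨E2, g2, hE2, hg2, core2⟩ := hcore2 n hn2 C6 C8 hSys c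
  have hnr4 : (4 : ℝ) ≤ n := by exact_mod_cast hn4'
  have hn' : (0 : ℝ) < n := by linarith
  have hn1' : 1 ≤ n := by omega
  have hus : 0 < 1 / ((n : ℝ) - 2) := div_pos one_pos (by linarith)
  have hU0' : 0 < u0 n := hus.trans hU3
  have hP : ∀ u : ℝ, 0 < u → u ≤ 1 → ∀ A, 0 ≤ PsiE n C6 C8 u A := fun u h1 h2 A =>
    ET.psiE_nonneg hn1' C6 C8 h1 h2 A
  have h100 : 1 ≤ (n : ℝ) ^ (1 / 100 : ℝ) := Real.one_le_rpow (by linarith) (by norm_num)
  have hcn : c ≤ (n : ℝ) ^ 2 := by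
    rw [hc]
    have h1 : (n : ℝ) ^ (3 / 2 : ℝ) ≤ (n : ℝ) ^ (2 : ℝ) :=
      Real.rpow_le_rpow_of_exponent_le (by linarith) (by norm_num)
    rw [Real.rpow_two] at h1
    have h3 : 0 ≤ (n : ℝ) ^ (3 / 2 : ℝ) := Real.rpow_nonneg hn'.le _
    linarith
  have key := early_transfer hn4' hSys.lin hU3 (fun A => -(A.card : ℝ))
    (fun u A => κ * (7 / 10 * PsiDE n c kap C6 C8 u A + η * PsiE n C6 C8 u A
      + (2 - 7 / 10 * c)))
    (κ * (7 / 5 + η) * (n : ℝ) ^ (249 / 100 : ℝ)) (by positivity) ?_ ?_ ?_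
  · rw [run_neg] at key
    have s1 := ET.start hn4' C6 C8 hC6 hC8
    have s2 := start_Q hn4'
    have s3 := badE_start (show 3 ≤ n by omega)
    have s4 : PsiDE n c kap C6 C8 (1 / ((n : ℝ) - 2)) (tr univ) ≤
        2 + kap * (2 * 10 ^ 12 * (n : ℝ) ^ (3 / 2 : ℝ)) := by
      unfold PsiDE
      rw [s3, hc, mul_zero, add_zero]
      have := mul_le_mul_of_nonneg_left s1 hkap0.le
      linarith
    have s5 := mul_le_mul_of_nonneg_left s1 hη0.le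
    have s6 : κ * (7 / 10 * PsiDE n c kap C6 C8 (1 / ((n : ℝ) - 2)) (tr univ)
        + η * PsiE n C6 C8 (1 / ((n : ℝ) - 2)) (tr univ) + (2 - 7 / 10 * c)) ≤
        κ * (7 / 10 * (2 + kap * (2 * 10 ^ 12 * (n : ℝ) ^ (3 / 2 : ℝ)))
        + η * (2 * 10 ^ 12 * (n : ℝ) ^ (3 / 2 : ℝ)) + (2 - 7 / 10 * c)) := by
      refine mul_le_mul_of_nonneg_left ?_ hκ.le
      linarith
    have s7 : κ * (7 / 5 + η) * (n : ℝ) ^ (249 / 100 : ℝ) * (u0 n / 2) ≤
        κ * (1 / 100 * (n : ℝ) ^ (3 / 2 : ℝ)) := by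
      have e0 : 0 ≤ (n : ℝ) ^ (249 / 100 : ℝ) * u0 n := by positivity
      have e1 : κ * (7 / 5 + η) * (n : ℝ) ^ (249 / 100 : ℝ) * (u0 n / 2) =
          κ * ((7 / 5 + η) / 2 * ((n : ℝ) ^ (249 / 100 : ℝ) * u0 n)) := by ring
      rw [e1]
      refine mul_le_mul_of_nonneg_left ?_ hκ.le
      have e2 : (7 / 5 + η) / 2 ≤ 1 := by rw [hη]; norm_num
      nlinarith
    have s8 : κ * (7 / 10 * (2 + kap * (2 * 10 ^ 12 * (n : ℝ) ^ (3 / 2 : ℝ)))
        + η * (2 * 10 ^ 12 * (n : ℝ) ^ (3 / 2 : ℝ)) + (2 - 7 / 10 * c))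
        + κ * (1 / 100 * (n : ℝ) ^ (3 / 2 : ℝ)) ≤ -(κ / 5 * (n : ℝ) ^ (3 / 2 : ℝ)) := by
      have e1 : κ * (7 / 10 * (2 + kap * (2 * 10 ^ 12 * (n : ℝ) ^ (3 / 2 : ℝ)))
        + η * (2 * 10 ^ 12 * (n : ℝ) ^ (3 / 2 : ℝ)) + (2 - 7 / 10 * c))
        + κ * (1 / 100 * (n : ℝ) ^ (3 / 2 : ℝ)) =
        κ * (34 / 10 - 22 / 100 * (n : ℝ) ^ (3 / 2 : ℝ)) := by
        rw [hc, hkap, hη]
        ring
      have e2 : -(κ / 5 * (n : ℝ) ^ (3 / 2 : ℝ)) = κ * (-(1 / 5) * (n : ℝ) ^ (3 / 2 : ℝ)) := by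
        ring
      rw [e1, e2]
      refine mul_le_mul_of_nonneg_left ?_ hκ.le
      linarith
    linarith
  · intro u A hA hu hu' hbad
    rw [run_neg]
    have hu0 : 0 < u := lt_of_lt_of_le hus hu
    have b1 := run_nonneg (BK n) A.card A
    have b2 := badE_ge hn1' hu0 hu' A hbad
    have b3 := hP u hu0 (hu'.trans hU2) A
    have b4 : 0 ≤ Real.sqrt (1 + (u ^ (1 / 2 : ℝ) * (A.card : ℝ) - c) ^ 2) := Real.sqrt_nonneg _
    have b5 : (n : ℝ) ^ 2 ≤ (n : ℝ) ^ (1 / 100 : ℝ) * BadE n u A := by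
      have b6 := badE_nonneg (n := n) hu0 A
      nlinarith
    have b7 : 0 ≤ 7 / 10 * PsiDE n c kap C6 C8 u A + η * PsiE n C6 C8 u A
      + (2 - 7 / 10 * c) := by
      have b8 : (n : ℝ) ^ 2 ≤ PsiDE n c kap C6 C8 u A := by
        unfold PsiDE
        have := mul_nonneg hkap0.le b3
        linarith
      have := mul_nonneg hη0.le b3
      linarith
    have b9 := mul_nonneg hκ.le b7
    linarith
  · refine ⟨κ * (7 / 10 * E2 + η * E1), min g1 g2, by positivity, lt_min hg1 hg2, ?_⟩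
    intro h u hh hhg hu hu' A hA hG
    have c1 := core1 h u hh (hhg.trans (min_le_left _ _)) hu hu' A hA hG
    have c2 := core2 h u hh (hhg.trans (min_le_right _ _)) hu hu' A hA hG
    have e1 : ∑ T ∈ bl (BK n) A, (κ * (7 / 10 * PsiDE n c kap C6 C8 (u + 2 * h) (A \ T)
        + η * PsiE n C6 C8 (u + 2 * h) (A \ T) + (2 - 7 / 10 * c))
        - κ * (7 / 10 * PsiDE n c kap C6 C8 (u + 2 * h) A
        + η * PsiE n C6 C8 (u + 2 * h) A + (2 - 7 / 10 * c))) =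
        κ * (7 / 10) * ∑ T ∈ bl (BK n) A,
          (PsiDE n c kap C6 C8 (u + 2 * h) (A \ T) - PsiDE n c kap C6 C8 (u + 2 * h) A)
        + κ * η * ∑ T ∈ bl (BK n) A,
          (PsiE n C6 C8 (u + 2 * h) (A \ T) - PsiE n C6 C8 (u + 2 * h) A) := by
      rw [mul_sum, mul_sum, ← sum_add_distrib]
      exact sum_congr rfl fun T _ => by ring
    rw [e1]
    have c1' := mul_le_mul_of_nonneg_left c1 (show 0 ≤ κ * η by positivity)
    have c2' := mul_le_mul_of_nonneg_left c2 (show 0 ≤ κ * (7 / 10) by positivity)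
    linarith
  · intro A hA hG
    have d1 := hlow (Sym2 (Fin n)) (BK n) C6 C8 hSys (np_BK n)
      (hM.trans (card_BK_ge (by omega))) (u0 n) c hU0' (by linarith) A (ET.good_xv hG)
    refine d1.trans ?_
    refine mul_le_mul_of_nonneg_left ?_ hκ.le
    have d2 := ET.psiM_le_psiE hn1' C6 C8 A
    have d3 := hP (u0 n) hU0' hU2 A
    have d4 : PsiD e0 c U (BK n) C6 C8 (u0 n) (toSt (BK n) A) ≤
        PsiDE n c kap C6 C8 (u0 n) A := by
      have d5 : U ^ (1 / 20 : ℝ) * PsiM e0 (BK n) C6 C8 (u0 n) (toSt (BK n) A) ≤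
          kap * PsiE n C6 C8 (u0 n) A := by
        calc U ^ (1 / 20 : ℝ) * PsiM e0 (BK n) C6 C8 (u0 n) (toSt (BK n) A)
            ≤ U ^ (1 / 20 : ℝ) * PsiE n C6 C8 (u0 n) A :=
              mul_le_mul_of_nonneg_left d2 (Real.rpow_nonneg hU0.le _)
          _ ≤ kap * PsiE n C6 C8 (u0 n) A := mul_le_mul_of_nonneg_right hU20 d3
      have d6 := badE_nonneg (n := n) hU0' A
      have d7 : 0 ≤ (n : ℝ) ^ (1 / 100 : ℝ) * BadE n (u0 n) A :=
        mul_nonneg (by linarith) d6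
      have d8 : Q (toSt (BK n) A) = (A.card : ℝ) := rfl
      unfold PsiD PsiDE
      rw [d8]
      linarith
    have d9 := mul_le_mul_of_nonneg_left d2 hη0.le
    linarith

end TH

end

end Vale.Agent.P046.NL
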