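import Vale.Agent.P046.NL.Defs3

/-! P046 no-log, MIDCORE: numeric packaging of the weighted terms, linearity of the generator,
crude bounds. -/

namespace Vale.Agent.P046.NL.MC

open Finset Vale.Agent.P046 Vale.Agent.P046.NL

noncomputable section

variable {α : Type} [DecidableEq α]

/-- the conclusion of `term_pow` -/
def TermPow (a C : ℝ) : Prop := ∀ u h r F F' dF g R e : ℝ, 0 < u → 0 < h →
    (u + 2 * h) * r = 1 → h * r ≤ 1 / 8 → 0 ≤ F → 0 ≤ F' → F' - 2 * h * dF - e ≤ F → 0 ≤ e →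
    g + 2 * dF ≤ r * R →
    (u + 2 * h) ^ a * (F' + h * g) ≤ u ^ a * F + h * r * (u + 2 * h) ^ a * (R + 2 * a * F')
      + C * (u + 2 * h) ^ a * ((h * r) ^ 2 * F' + h ^ 2 * r * |dF| + e)

/-- the conclusion of `term_Q` -/
def TermQ (a C : ℝ) : Prop := ∀ u h r F R : ℝ, 0 < u → 0 < h →
    (u + 2 * h) * r = 1 → h * r ≤ 1 / 8 → 0 ≤ F →
    |(u + 2 * h) ^ a * (F + h * (r * R)) - (u ^ a * F + h * r * (u + 2 * h) ^ a * (R + 2 * a * F))|
      ≤ C * (u + 2 * h) ^ a * (h * r) ^ 2 * F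

theorem pow_bound {a umin v : ℝ} (h0 : 0 < umin) (h1 : umin ≤ v) (h2 : v ≤ 1) :
    v ^ a ≤ 1 + umin ^ a := by
  have hv : 0 < v := by linarith
  rcases le_total 0 a with ha | ha
  · have := Real.rpow_le_one hv.le h2 ha
    have := Real.rpow_nonneg h0.le a
    linarith
  · have := Real.rpow_le_rpow_of_nonpos h0 h1 ha
    linarith

/-- packaged form of a term -/
theorem tp {a C : ℝ} (hC : 0 ≤ C) (hT : TermPow a C) {umin Fm dm em : ℝ} (h0 : 0 < umin)
    (hF : 0 ≤ Fm) (hd : 0 ≤ dm) (hem : 0 ≤ em) : ∃ E : ℝ, 0 ≤ E ∧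
    ∀ u h F F' dF g R e : ℝ, umin ≤ u → 0 < h → h ≤ umin / 8 → u + 2 * h ≤ 1 / 100 →
      0 ≤ F → 0 ≤ F' → F' ≤ Fm → |dF| ≤ dm → F' - 2 * h * dF - e ≤ F → 0 ≤ e → e ≤ em * h ^ 2 →
      g + 2 * dF ≤ 1 / (u + 2 * h) * R →
      (u + 2 * h) ^ a * (F' + h * g) ≤ u ^ a * F
        + h * (1 / (u + 2 * h)) * ((u + 2 * h) ^ a * (R + 2 * a * F')) + E * h ^ 2 := by
  refine ⟨C * (1 + umin ^ a) * (1 / umin ^ 2 * Fm + 1 / umin * dm + em), ?_, ?_⟩
  · have := Real.rpow_nonneg h0.le a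
    positivity
  intro u h F F' dF g R e hu hh hh1 hu1 hF0 hF'0 hF'm hdm hts he0 hem' hg
  have hv : 0 < u + 2 * h := by linarith
  have hr0 : 0 < 1 / (u + 2 * h) := by positivity
  have hrm : 1 / (u + 2 * h) ≤ 1 / umin := one_div_le_one_div_of_le h0 (by linarith)
  have hhr : h * (1 / (u + 2 * h)) ≤ 1 / 8 := by
    rw [mul_one_div, div_le_iff₀ hv]
    linarith
  have key := hT u h (1 / (u + 2 * h)) F F' dF g R e (by linarith) hh
    (mul_one_div_cancel hv.ne') hhr hF0 hF'0 hts he0 hg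
  have hpow := pow_bound (a := a) h0 (show umin ≤ u + 2 * h by linarith)
    (show u + 2 * h ≤ 1 by linarith)
  have hpow0 : 0 ≤ (u + 2 * h) ^ a := Real.rpow_nonneg hv.le a
  set r := 1 / (u + 2 * h) with hr
  have e1 : (h * r) ^ 2 * F' + h ^ 2 * r * |dF| + e ≤
      (1 / umin ^ 2 * Fm + 1 / umin * dm + em) * h ^ 2 := by
    have q1 : r ^ 2 ≤ 1 / umin ^ 2 := by
      calc r ^ 2 ≤ (1 / umin) ^ 2 := pow_le_pow_left₀ hr0.le hrm 2
        _ = _ := by rw [div_pow, one_pow]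
    have q2 : r ^ 2 * F' ≤ 1 / umin ^ 2 * Fm := mul_le_mul q1 hF'm hF'0 (by positivity)
    have q3 : r * |dF| ≤ 1 / umin * dm := mul_le_mul hrm hdm (abs_nonneg _) (by positivity)
    have q4 := mul_le_mul_of_nonneg_right (add_le_add q2 q3) (sq_nonneg h)
    have e5 : (h * r) ^ 2 * F' + h ^ 2 * r * |dF| = (r ^ 2 * F' + r * |dF|) * h ^ 2 := by ring
    rw [e5]
    linarith
  have e2 : C * (u + 2 * h) ^ a * ((h * r) ^ 2 * F' + h ^ 2 * r * |dF| + e) ≤
      C * (1 + umin ^ a) * ((1 / umin ^ 2 * Fm + 1 / umin * dm + em) * h ^ 2) := by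
    apply mul_le_mul (mul_le_mul_of_nonneg_left hpow hC) e1 _ _
    · positivity
    · have := Real.rpow_nonneg h0.le a
      positivity
  have e3 : h * r * (u + 2 * h) ^ a * (R + 2 * a * F') =
      h * r * ((u + 2 * h) ^ a * (R + 2 * a * F')) := by ring
  rw [e3] at key
  linarith

/-- packaged form for `Q` -/
theorem tq {a C : ℝ} (hC : 0 ≤ C) (hT : TermQ a C) {umin Fm : ℝ} (h0 : 0 < umin)
    (hF : 0 ≤ Fm) : ∃ E : ℝ, 0 ≤ E ∧
    ∀ u h F R : ℝ, umin ≤ u → 0 < h → h ≤ umin / 8 → u + 2 * h ≤ 1 / 100 →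
      0 ≤ F → F ≤ Fm →
      |(u + 2 * h) ^ a * (F + h * (1 / (u + 2 * h) * R)) - (u ^ a * F
        + h * (1 / (u + 2 * h)) * ((u + 2 * h) ^ a * (R + 2 * a * F)))| ≤ E * h ^ 2 := by
  refine ⟨C * (1 + umin ^ a) * (1 / umin ^ 2 * Fm), ?_, ?_⟩
  · have := Real.rpow_nonneg h0.le a
    positivity
  intro u h F R hu hh hh1 hu1 hF0 hFm
  have hv : 0 < u + 2 * h := by linarith
  have hr0 : 0 < 1 / (u + 2 * h) := by positivity
  have hrm : 1 / (u + 2 * h) ≤ 1 / umin := one_div_le_one_div_of_le h0 (by linarith)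
  have hhr : h * (1 / (u + 2 * h)) ≤ 1 / 8 := by
    rw [mul_one_div, div_le_iff₀ hv]
    linarith
  have key := hT u h (1 / (u + 2 * h)) F R (by linarith) hh
    (mul_one_div_cancel hv.ne') hhr hF0
  have hpow := pow_bound (a := a) h0 (show umin ≤ u + 2 * h by linarith)
    (show u + 2 * h ≤ 1 by linarith)
  have hpow0 : 0 ≤ (u + 2 * h) ^ a := Real.rpow_nonneg hv.le a
  set r := 1 / (u + 2 * h) with hr
  have q1 : r ^ 2 ≤ 1 / umin ^ 2 := by
    calc r ^ 2 ≤ (1 / umin) ^ 2 := pow_le_pow_left₀ hr0.le hrm 2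
      _ = _ := by rw [div_pow, one_pow]
  have q2 : r ^ 2 * F ≤ 1 / umin ^ 2 * Fm := mul_le_mul q1 hFm hF0 (by positivity)
  have e2 : C * (u + 2 * h) ^ a * (h * r) ^ 2 * F ≤
      C * (1 + umin ^ a) * (1 / umin ^ 2 * Fm) * h ^ 2 := by
    have e4 : C * (u + 2 * h) ^ a * (h * r) ^ 2 * F =
        C * (u + 2 * h) ^ a * (r ^ 2 * F) * h ^ 2 := by ring
    rw [e4]
    apply mul_le_mul_of_nonneg_right _ (sq_nonneg h)
    apply mul_le_mul (mul_le_mul_of_nonneg_left hpow hC) q2 _ _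
    · positivity
    · have := Real.rpow_nonneg h0.le a
      positivity
  have e3 : h * r * (u + 2 * h) ^ a * (R + 2 * a * F) =
      h * r * ((u + 2 * h) ^ a * (R + 2 * a * F)) := by ring
  rw [e3] at key
  exact key.trans e2

/-! linearity of the generator -/

theorem g_add (Bl : Finset (Finset α)) (r : ℝ) (s : St α) (F G : St α → ℝ) :
    gen Bl r (fun s' => F s' + G s') s = gen Bl r F s + gen Bl r G s := by
  unfold gen
  have e1 : ∑ T ∈ s.W, (F (ring s T) + G (ring s T) - (F s + G s)) =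
      ∑ T ∈ s.W, (F (ring s T) - F s) + ∑ T ∈ s.W, (G (ring s T) - G s) := by
    rw [← sum_add_distrib]
    exact sum_congr rfl fun T _ => by ring
  have e2 : ∑ T ∈ s.W, ∑ f ∈ T \ s.B, (r * (1 + s.a f) - 1) *
        (F (virt s T) + G (virt s T) - (F s + G s)) =
      ∑ T ∈ s.W, ∑ f ∈ T \ s.B, (r * (1 + s.a f) - 1) * (F (virt s T) - F s) +
        ∑ T ∈ s.W, ∑ f ∈ T \ s.B, (r * (1 + s.a f) - 1) * (G (virt s T) - G s) := by
    rw [← sum_add_distrib]
    refine sum_congr rfl fun T _ => ?_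
    rw [← sum_add_distrib]
    exact sum_congr rfl fun f _ => by ring
  have e3 : ∑ T ∈ bl Bl s.A \ s.W, (F (nring s T) + G (nring s T) - (F s + G s)) =
      ∑ T ∈ bl Bl s.A \ s.W, (F (nring s T) - F s) +
        ∑ T ∈ bl Bl s.A \ s.W, (G (nring s T) - G s) := by
    rw [← sum_add_distrib]
    exact sum_congr rfl fun T _ => by ring
  rw [e1, e2, e3]
  ring

theorem g_smul (Bl : Finset (Finset α)) (r : ℝ) (s : St α) (c : ℝ) (F : St α → ℝ) :
    gen Bl r (fun s' => c * F s') s = c * gen Bl r F s := by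
  unfold gen
  rw [mul_add, mul_add, mul_sum, mul_sum, mul_sum]
  congr 1
  · congr 1
    · exact sum_congr rfl fun T _ => by ring
    · refine sum_congr rfl fun T _ => ?_
      rw [mul_sum]
      exact sum_congr rfl fun f _ => by ring
  · exact sum_congr rfl fun T _ => by ring

theorem inv_mono {Bl : Finset (Finset α)} {th th' u : ℝ} {s : St α} (h : Inv Bl th u s)
    (hth : th ≤ th') : Inv Bl th' u s :=
  ⟨h.sub, h.full, h.cov, h.disj, fun e => (h.bd e).trans hth, fun e => (h.bda e).trans hth⟩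

/-! crude bounds -/

theorem Nc_le (C : Finset (Finset (Finset α))) (s : St α) : Nc C s ≤ (C.card : ℝ) := by
  unfold Nc
  exact_mod_cast card_filter_le _ _

theorem Nc_nonneg (C : Finset (Finset (Finset α))) (s : St α) : 0 ≤ Nc C s := by
  unfold Nc; positivity

theorem V_nonneg (s : St α) : 0 ≤ V s := by
  unfold V; exact sum_nonneg fun _ _ => by positivity

theorem Q_nonneg (s : St α) : 0 ≤ Q s := by
  unfold Q; positivity

theorem S_nonneg {k : ℕ} (hk : Even k) (u : ℝ) (s : St α) : 0 ≤ S k u s := by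
  unfold S; exact sum_nonneg fun _ _ => hk.pow_nonneg _

theorem Sb_nonneg (u : ℝ) (s : St α) : 0 ≤ Sb u s := by
  unfold Sb; exact sum_nonneg fun _ _ => sq_nonneg _

theorem wt_nonneg {dl : ℝ} (hdl : 0 < dl) (y : ℝ) : 0 ≤ wt dl y := by
  unfold wt; positivity

theorem Ph_nonneg (Bl : Finset (Finset α)) {dl : ℝ} (hdl : 0 < dl) (u : ℝ) (s : St α) :
    0 ≤ Ph Bl dl u s := by
  unfold Ph
  have : 0 ≤ ∑ e ∈ (s.A \ s.B) \ s.Z, wt dl (u * gd Bl s e) :=
    sum_nonneg fun _ _ => wt_nonneg hdl _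
  positivity

theorem Ph_le {Bl : Finset (Finset α)} {dl : ℝ} (hdl : 0 < dl) {u : ℝ} (hu : 0 ≤ u) (hu1 : u ≤ 1)
    {s : St α} {A₀ : Finset α} (hA : s.A ⊆ A₀) (hB : s.B ⊆ A₀) :
    Ph Bl dl u s ≤ (A₀.card : ℝ) * (1 + (1 / (2 * dl)) * (Bl.card : ℝ) ^ 2) + 3 * (A₀.card : ℝ) := by
  unfold Ph
  have h1 : ∑ e ∈ (s.A \ s.B) \ s.Z, wt dl (u * gd Bl s e) ≤
      (A₀.card : ℝ) * (1 + (1 / (2 * dl)) * (Bl.card : ℝ) ^ 2) := by
    have h2 : ∀ e ∈ (s.A \ s.B) \ s.Z, wt dl (u * gd Bl s e) ≤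
        1 + (1 / (2 * dl)) * (Bl.card : ℝ) ^ 2 := by
      intro e _
      unfold wt
      have h3 : gd Bl s e ≤ (Bl.card : ℝ) := by
        unfold gd; exact_mod_cast card_filter_le _ _
      have h3' : 0 ≤ gd Bl s e := by unfold gd; positivity
      have h4 : u * gd Bl s e ≤ (Bl.card : ℝ) := by
        calc u * gd Bl s e ≤ 1 * gd Bl s e := mul_le_mul_of_nonneg_right hu1 h3'
          _ ≤ _ := by rw [one_mul]; exact h3
      have h5 : max (u * gd Bl s e - 1 - dl / 2) 0 ≤ (Bl.card : ℝ) :=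
        max_le (by linarith) (by positivity)
      have h6 : max (u * gd Bl s e - 1 - dl / 2) 0 ^ 2 ≤ (Bl.card : ℝ) ^ 2 :=
        pow_le_pow_left₀ (le_max_right _ _) h5 2
      have h7 : 0 ≤ 1 / (2 * dl) := by positivity
      have := mul_le_mul_of_nonneg_left h6 h7
      linarith
    refine (sum_le_sum h2).trans ?_
    rw [sum_const, nsmul_eq_mul]
    apply mul_le_mul_of_nonneg_right _ (by positivity)
    have : ((s.A \ s.B) \ s.Z).card ≤ A₀.card :=
      card_le_card ((sdiff_subset.trans sdiff_subset).trans hA)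
    exact_mod_cast this
  have h8 : ((s.B \ s.A).card : ℝ) ≤ (A₀.card : ℝ) := by
    exact_mod_cast card_le_card (sdiff_subset.trans hB)
  have h9 : ((s.Z ∩ s.A).card : ℝ) ≤ (A₀.card : ℝ) := by
    exact_mod_cast card_le_card (inter_subset_right.trans hA)
  linarith

theorem Q_le {s : St α} {A₀ : Finset α} (hB : s.B ⊆ A₀) : Q s ≤ (A₀.card : ℝ) := by
  unfold Q; exact_mod_cast card_le_card hB

theorem X1_bound (u : ℝ) (s : St α) (mu : ℝ) (hmu : 0 < mu) :
    2 * |∑ e ∈ s.B, xv u s e| ≤ mu * Q s + S 2 u s / mu := by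
  have h1 : |∑ e ∈ s.B, xv u s e| ≤ ∑ e ∈ s.B, |xv u s e| := abs_sum_le_sum_abs _ _
  have h2 : ∀ e ∈ s.B, 2 * |xv u s e| ≤ mu + xv u s e ^ 2 / mu := by
    intro e _
    have h3 : 0 ≤ (mu - |xv u s e|) ^ 2 / mu := by positivity
    have h4 : (mu - |xv u s e|) ^ 2 / mu = mu + xv u s e ^ 2 / mu - 2 * |xv u s e| := by
      rw [← sq_abs (xv u s e)]
      field_simp
      ring
    linarith
  have h5 := sum_le_sum h2
  rw [← mul_sum, sum_add_distrib, sum_const, nsmul_eq_mul, ← sum_div] at h5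
  unfold Q S
  have h6 : (s.B.card : ℝ) * mu = mu * (s.B.card : ℝ) := mul_comm _ _
  linarith

end

end Vale.Agent.P046.NL.MC
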