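import Vale.Agent.P046.NL.DOM

/-!
P046, sharp constant: second moment of the real degrees.
-/

namespace Vale.Agent.P046.NL

open Finset Vale.Agent.P046

noncomputable section

variable {α : Type} [DecidableEq α]

/-- second moment of the real degrees -/
def M2 (Bl : Finset (Finset α)) (u : ℝ) (s : St α) : ℝ :=
  ∑ e ∈ s.A, (u * (dg Bl s.A e : ℝ)) ^ 2

/-- derivative of `M2` in `u` -/
def dM2 (Bl : Finset (Finset α)) (u : ℝ) (s : St α) : ℝ :=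
  ∑ e ∈ s.A, 2 * u * (dg Bl s.A e : ℝ) ^ 2

namespace M2x

theorem dg_anti {Bl : Finset (Finset α)} {A A' : Finset α} (h : A ⊆ A') (e : α) :
    dg Bl A e ≤ dg Bl A' e := by
  unfold dg bl
  refine card_le_card fun T hT => ?_
  simp only [mem_filter] at hT ⊢
  exact ⟨⟨hT.1.1, hT.1.2.trans h⟩, hT.2⟩

/-- double counting over the alive blocks -/
theorem dc (Bl : Finset (Finset α)) (A : Finset α) (g : α → ℝ) :
    ∑ T ∈ bl Bl A, ∑ e ∈ T, g e = ∑ e ∈ A, (dg Bl A e : ℝ) * g e := by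
  have h1 : ∀ T ∈ bl Bl A, ∑ e ∈ T, g e = ∑ e ∈ A, if e ∈ T then g e else 0 := by
    intro T hT
    rw [← sum_filter]
    refine sum_congr ?_ fun _ _ => rfl
    ext e
    simp only [mem_filter]
    exact ⟨fun h => ⟨(mem_bl.mp hT).2 h, h⟩, fun h => h.2⟩
  rw [sum_congr rfl h1, sum_comm]
  refine sum_congr rfl fun e _ => ?_
  rw [← sum_filter, sum_const, nsmul_eq_mul]
  rfl

/-- one event of the real process -/
theorem step (Bl : Finset (Finset α)) {u : ℝ} {A T : Finset α} (hT : T ⊆ A) :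
    ∑ e ∈ A \ T, (u * (dg Bl (A \ T) e : ℝ)) ^ 2 - ∑ e ∈ A, (u * (dg Bl A e : ℝ)) ^ 2 ≤
      -∑ e ∈ T, (u * (dg Bl A e : ℝ)) ^ 2 := by
  have h1 : ∑ e ∈ A, (u * (dg Bl A e : ℝ)) ^ 2 =
      ∑ e ∈ A \ T, (u * (dg Bl A e : ℝ)) ^ 2 + ∑ e ∈ T, (u * (dg Bl A e : ℝ)) ^ 2 :=
    (sum_sdiff hT).symm
  have h2 : ∑ e ∈ A \ T, (u * (dg Bl (A \ T) e : ℝ)) ^ 2 ≤
      ∑ e ∈ A \ T, (u * (dg Bl A e : ℝ)) ^ 2 := by
    refine sum_le_sum fun e _ => ?_
    rw [mul_pow, mul_pow]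
    refine mul_le_mul_of_nonneg_left ?_ (sq_nonneg u)
    have h3 : (dg Bl (A \ T) e : ℝ) ≤ (dg Bl A e : ℝ) := by
      exact_mod_cast dg_anti sdiff_subset e
    exact pow_le_pow_left₀ (by positivity) h3 2
  rw [h1]
  linarith

end M2x

open M2x in
/-- generator of `M2` -/
theorem gen_M2 {Bl : Finset (Finset α)} {u r : ℝ} {s : St α} (hsub : s.W ⊆ Bl)
    (hur : u * r = 1) :
    gen Bl r (M2 Bl u) s + 2 * dM2 Bl u s ≤
      r * ∑ e ∈ s.A, (4 * (u * (dg Bl s.A e : ℝ)) ^ 2 - (u * (dg Bl s.A e : ℝ)) ^ 3) := by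
  have h1 : gen Bl r (M2 Bl u) s = ∑ T ∈ bl Bl s.A,
      (∑ e ∈ s.A \ T, (u * (dg Bl (s.A \ T) e : ℝ)) ^ 2 -
        ∑ e ∈ s.A, (u * (dg Bl s.A e : ℝ)) ^ 2) :=
    gen_A r hsub (fun A => ∑ e ∈ A, (u * (dg Bl A e : ℝ)) ^ 2)
  have h2 : gen Bl r (M2 Bl u) s ≤ -∑ e ∈ s.A, (dg Bl s.A e : ℝ) * (u * (dg Bl s.A e : ℝ)) ^ 2 := by
    rw [h1, ← dc Bl s.A (fun e => (u * (dg Bl s.A e : ℝ)) ^ 2), ← sum_neg_distrib]
    exact sum_le_sum fun T hT => step Bl (mem_bl.mp hT).2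
  have h3 : r * ∑ e ∈ s.A, (4 * (u * (dg Bl s.A e : ℝ)) ^ 2 - (u * (dg Bl s.A e : ℝ)) ^ 3) =
      2 * dM2 Bl u s - ∑ e ∈ s.A, (dg Bl s.A e : ℝ) * (u * (dg Bl s.A e : ℝ)) ^ 2 := by
    unfold dM2
    rw [mul_sum, mul_sum, ← sum_sub_distrib]
    refine sum_congr rfl fun e _ => ?_
    have h4 : r * (4 * (u * (dg Bl s.A e : ℝ)) ^ 2 - (u * (dg Bl s.A e : ℝ)) ^ 3) =
        (u * r) * (4 * u * (dg Bl s.A e : ℝ) ^ 2 - u ^ 2 * (dg Bl s.A e : ℝ) ^ 3) := by ring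
    rw [h4, hur]
    ring
  rw [h3]
  linarith

theorem M2_nonneg (Bl : Finset (Finset α)) (u : ℝ) (s : St α) : 0 ≤ M2 Bl u s :=
  sum_nonneg fun _ _ => sq_nonneg _

/-- linear form -/
theorem gen_M2' {Bl : Finset (Finset α)} {u r : ℝ} {s : St α} (hsub : s.W ⊆ Bl)
    (hur : u * r = 1) (hr : 0 < r) :
    gen Bl r (M2 Bl u) s + 2 * dM2 Bl u s ≤
      r * (41 * (s.A.card : ℝ) - 5 / 2 * M2 Bl u s) := by
  refine (gen_M2 hsub hur).trans (mul_le_mul_of_nonneg_left ?_ hr.le)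
  have hu : 0 < u := by
    by_contra h
    nlinarith
  have h1 : 41 * (s.A.card : ℝ) - 5 / 2 * M2 Bl u s =
      ∑ e ∈ s.A, (41 - 5 / 2 * (u * (dg Bl s.A e : ℝ)) ^ 2) := by
    unfold M2
    rw [sum_sub_distrib, sum_const, nsmul_eq_mul, mul_sum]
    ring
  rw [h1]
  refine sum_le_sum fun e _ => ?_
  have h2 : 0 ≤ u * (dg Bl s.A e : ℝ) := by positivity
  set y := u * (dg Bl s.A e : ℝ)
  nlinarith [mul_nonneg h2 (sq_nonneg (y - 13 / 3)), sq_nonneg (y - 13 / 3)]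

/-- time step: `u' = u + 2 h` -/
theorem time_M2 (Bl : Finset (Finset α)) (u h : ℝ) (s : St α) :
    M2 Bl (u + 2 * h) s - 2 * h * dM2 Bl (u + 2 * h) s ≤ M2 Bl u s := by
  unfold M2 dM2
  rw [mul_sum, ← sum_sub_distrib]
  refine sum_le_sum fun e _ => ?_
  nlinarith [sq_nonneg (h * (dg Bl s.A e : ℝ))]

theorem M2_fixs (Bl : Finset (Finset α)) (th u v : ℝ) (s : St α) :
    M2 Bl u (fixs th v s) = M2 Bl u s := rfl

theorem M2_le (Bl : Finset (Finset α)) (u : ℝ) (s : St α) :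
    M2 Bl u s ≤ u ^ 2 * (s.A.card : ℝ) * (Bl.card : ℝ) ^ 2 := by
  have h1 : u ^ 2 * (s.A.card : ℝ) * (Bl.card : ℝ) ^ 2 =
      ∑ _e ∈ s.A, u ^ 2 * (Bl.card : ℝ) ^ 2 := by
    rw [sum_const, nsmul_eq_mul]
    ring
  rw [h1]
  unfold M2
  refine sum_le_sum fun e _ => ?_
  rw [mul_pow]
  refine mul_le_mul_of_nonneg_left ?_ (sq_nonneg u)
  refine pow_le_pow_left₀ (by positivity) ?_ 2
  have h2 : dg Bl s.A e ≤ Bl.card := by
    unfold dg
    exact (card_filter_le _ _).trans (bl_card_le Bl s.A)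
  exact_mod_cast h2

theorem dM2_le (Bl : Finset (Finset α)) {u : ℝ} (hu : 0 ≤ u) (s : St α) :
    0 ≤ dM2 Bl u s ∧ dM2 Bl u s ≤ 2 * u * (s.A.card : ℝ) * (Bl.card : ℝ) ^ 2 := by
  constructor
  · exact sum_nonneg fun e _ => by positivity
  · have h1 : 2 * u * (s.A.card : ℝ) * (Bl.card : ℝ) ^ 2 =
        ∑ _e ∈ s.A, 2 * u * (Bl.card : ℝ) ^ 2 := by
      rw [sum_const, nsmul_eq_mul]
      ring
    rw [h1]
    unfold dM2
    refine sum_le_sum fun e _ => ?_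
    refine mul_le_mul_of_nonneg_left ?_ (by positivity)
    refine pow_le_pow_left₀ (by positivity) ?_ 2
    have h2 : dg Bl s.A e ≤ Bl.card := by
      unfold dg
      exact (card_filter_le _ _).trans (bl_card_le Bl s.A)
    exact_mod_cast h2

/-- the cost of deletions: for every `lam > 0`,
`sqrt (1 + 2 d t) ≤ 1 + sqrt (2 t / u) * (lam + (u d) ^ 2 / lam ^ 3)` -/
theorem sqrt_deg_le {u t d lam : ℝ} (hu : 0 < u) (ht : 0 ≤ t) (hd : 0 ≤ d) (hl : 0 < lam) :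
    Real.sqrt (1 + 2 * d * t) ≤ 1 + Real.sqrt (2 * t / u) * (lam + (u * d) ^ 2 / lam ^ 3) := by
  have h1 : Real.sqrt (1 + 2 * d * t) ≤ 1 + Real.sqrt (2 * d * t) := by
    have h2 : 0 ≤ 2 * d * t := by positivity
    rw [Real.sqrt_le_left (by positivity)]
    nlinarith [Real.sq_sqrt h2, Real.sqrt_nonneg (2 * d * t)]
  have h2 : Real.sqrt (2 * d * t) = Real.sqrt (2 * t / u) * Real.sqrt (u * d) := by
    rw [← Real.sqrt_mul (by positivity)]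
    congr 1
    field_simp
  have hy : 0 ≤ u * d := by positivity
  have h3 : Real.sqrt (u * d) ≤ lam + (u * d) ^ 2 / lam ^ 3 := by
    set v := Real.sqrt (u * d) with hv
    have hv0 : 0 ≤ v := Real.sqrt_nonneg _
    have hv2 : v ^ 2 = u * d := Real.sq_sqrt hy
    rw [← hv2]
    rcases le_total v lam with h | h
    · have : 0 ≤ (v ^ 2) ^ 2 / lam ^ 3 := by positivity
      linarith
    · have h4 : v ≤ (v ^ 2) ^ 2 / lam ^ 3 := by
        rw [le_div_iff₀ (by positivity)]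
        have h5 : lam ^ 3 ≤ v ^ 3 := pow_le_pow_left₀ hl.le h 3
        nlinarith [mul_le_mul_of_nonneg_left h5 hv0]
      linarith
  rw [h2] at h1
  have h4 := mul_le_mul_of_nonneg_left h3 (Real.sqrt_nonneg (2 * t / u))
  linarith

/-- sum over a set of deleted points -/
theorem sum_sqrt_deg {Bl : Finset (Finset α)} {u t lam : ℝ} (hu : 0 < u) (ht : 0 ≤ t)
    (hl : 0 < lam) (s : St α) {D : Finset α} (hD : D ⊆ s.A) :
    ∑ x ∈ D, Real.sqrt (1 + 2 * (dg Bl s.A x : ℝ) * t) ≤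
      (1 + Real.sqrt (2 * t / u) * lam) * (D.card : ℝ) +
        Real.sqrt (2 * t / u) / lam ^ 3 * M2 Bl u s := by
  have h1 : ∑ x ∈ D, Real.sqrt (1 + 2 * (dg Bl s.A x : ℝ) * t) ≤
      ∑ x ∈ D, ((1 + Real.sqrt (2 * t / u) * lam) +
        Real.sqrt (2 * t / u) / lam ^ 3 * (u * (dg Bl s.A x : ℝ)) ^ 2) := by
    refine sum_le_sum fun x _ => ?_
    refine (sqrt_deg_le hu ht (by positivity) hl).trans (le_of_eq ?_)
    ring
  refine h1.trans ?_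
  rw [sum_add_distrib, sum_const, nsmul_eq_mul, ← mul_sum]
  have h2 : ∑ x ∈ D, (u * (dg Bl s.A x : ℝ)) ^ 2 ≤ M2 Bl u s :=
    sum_le_sum_of_subset_of_nonneg hD fun _ _ _ => sq_nonneg _
  have h3 : 0 ≤ Real.sqrt (2 * t / u) / lam ^ 3 := by positivity
  have h4 := mul_le_mul_of_nonneg_left h2 h3
  linarith

end

end Vale.Agent.P046.NL
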