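import Vale.Agent.P046.NL.FixAux

/-!
P046, removal of the logarithm: row FIX.
-/

namespace Vale.Agent.P046.NL

open Finset Vale.Agent.P046

noncomputable section

variable {α : Type} [DecidableEq α]

variable {Bl : Finset (Finset α)} {th u r : ℝ} {s : St α}

/-- [FIX] effect of the detachments; `m` = number of detached points -/
theorem fix_all (hL : Lin3 Bl) (hur : u * r = 1) (hr : 100 ≤ r) (th0 : ℝ) (h0 : 0 ≤ th0)
    (h1 : th0 ≤ th) (hth : th ≤ 1 / 10) (hI : Inv Bl th u s) (dl : ℝ) (hdl : 0 < dl)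
    (C : Finset (Finset (Finset α))) :
    ∃ m : ℝ, 0 ≤ m ∧ Q (fixs th0 u s) = Q s - m ∧ S 2 u (fixs th0 u s) ≤ S 2 u s ∧
      S 4 u (fixs th0 u s) ≤ S 4 u s - th0 ^ 4 * m ∧ Sb u (fixs th0 u s) ≤ Sb u s ∧
      V (fixs th0 u s) ≤ V s + (1 + th) * r * m ∧ Nc C (fixs th0 u s) = Nc C s ∧
      Ph Bl dl u (fixs th0 u s) ≤ Ph Bl dl u s + 2 * m ∧ GS Bl th0 th u (fixs th0 u s) := by
  have _ := hL
  have _ := h1
  have _ := hth
  have hr0 : 0 < r := by linarith
  have hu : 0 ≤ u := by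
    by_contra h
    nlinarith
  have h2 := FixAux.S_fixs_le h0 s (k := 2) (u := u) even_two
  have h3 : 0 ≤ th0 ^ 2 * ((FixAux.dets th0 u s).card : ℝ) := by positivity
  exact ⟨((FixAux.dets th0 u s).card : ℝ), by positivity, FixAux.Q_fixs th0 u s, by linarith,
    FixAux.S_fixs_le h0 s (by decide), FixAux.Sb_fixs_le th0 u s, FixAux.V_fixs_le hI hur hr0,
    FixAux.Nc_fixs C th0 u s, FixAux.Ph_fixs_le Bl hdl hu th0 s, gs_fixs hI⟩

end

end Vale.Agent.P046.NL
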