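import Vale.Agent.P046.NL.Defs4
import Vale.Agent.P046.NL.FIX

/-!
P046: row [DFIX], the detachments in the concentration functional.
-/

namespace Vale.Agent.P046.NL

open Finset Vale.Agent.P046

noncomputable section

namespace DFix

theorem t0_pos {ep : ℝ} (h0 : 0 < ep) : 0 < t0 ep := by
  unfold t0
  positivity

theorem t0_le {ep : ℝ} (h0 : 0 < ep) (h1 : ep ≤ 1 / 100) : t0 ep ≤ 1 / 10000 := by
  unfold t0
  nlinarith

/-- strong form of `fix_mid`: each detached point pays -/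
theorem fix_mid_strong (ep : ℝ) (h0 : 0 < ep) (h1 : ep ≤ 1 / 100) :
    ∃ u1 : ℝ, 0 < u1 ∧ u1 ≤ 1 / 100 ∧
    ∀ (α : Type) [DecidableEq α] (Bl : Finset (Finset α)) (C6 C8 : Finset (Finset (Finset α))),
    Sys Bl C6 C8 → ∀ u, 0 < u → u ≤ u1 → ∀ s, Inv Bl (2 * t0 ep) u s →
      ∃ m : ℝ, 0 ≤ m ∧ Q (fixs (t0 ep) u s) = Q s - m ∧
      PsiM ep Bl C6 C8 u (fixs (t0 ep) u s) ≤ PsiM ep Bl C6 C8 u s
        - u ^ (-(1 / 2 + ep) : ℝ) * (250 * t0 ep ^ 4 / ep) * m := by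
  have ht := t0_pos h0
  have ht1 := t0_le h0 h1
  have hk : 0 < 125 * t0 ep ^ 4 / ep := by positivity
  refine ⟨min (1 / 100) ((125 * t0 ep ^ 4 / ep) ^ (2 / ep)), by positivity, min_le_left _ _, ?_⟩
  intro α _ Bl C6 C8 hS u hu hu1 s hI
  have hu2 : u ≤ 1 / 100 := hu1.trans (min_le_left _ _)
  have hu3 : u ≤ (125 * t0 ep ^ 4 / ep) ^ (2 / ep) := hu1.trans (min_le_right _ _)
  have hur : u * (1 / u) = 1 := by field_simp
  have hr : 100 ≤ 1 / u := by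
    rw [le_div_iff₀ hu]
    linarith
  obtain ⟨m, hm, hQ, hS2, hS4, hSb, hV, hN6, hPh, -⟩ := fix_all hS.lin hur hr (t0 ep) ht.le
    (by linarith) (by linarith) hI (ep / 4) (by positivity) C6
  obtain ⟨-, -, -, -, -, -, -, hN8, -, -⟩ := fix_all hS.lin hur hr (t0 ep) ht.le
    (by linarith) (by linarith) hI (ep / 4) (by positivity) C8
  refine ⟨m, hm, hQ, ?_⟩
  have e1 : u ^ (1 / 2 + ep / 4 : ℝ) ≤ u ^ (1 / 2 : ℝ) :=
    Real.rpow_le_rpow_of_exponent_ge hu (by linarith) (by linarith)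
  have e2 : u ^ (ep / 2 : ℝ) ≤ 125 * t0 ep ^ 4 / ep := by
    calc u ^ (ep / 2 : ℝ) ≤ ((125 * t0 ep ^ 4 / ep) ^ (2 / ep)) ^ (ep / 2 : ℝ) :=
          Real.rpow_le_rpow hu.le hu3 (by positivity)
      _ = 125 * t0 ep ^ 4 / ep := by
          rw [← Real.rpow_mul hk.le]
          have : 2 / ep * (ep / 2) = 1 := by field_simp
          rw [this, Real.rpow_one]
  have e3 : u ^ (-(1 / 2 + ep / 2) : ℝ) = u ^ (-(1 / 2 + ep) : ℝ) * u ^ (ep / 2 : ℝ) := by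
    rw [← Real.rpow_add hu]
    congr 1
    ring
  have hA3 : 0 < u ^ (-(1 / 2 + ep) : ℝ) := by positivity
  have hA4 : 0 < u ^ (-(1 / 2 + ep / 2) : ℝ) := by positivity
  have e4 : 2 * u ^ (-(1 / 2 + ep / 2) : ℝ) ≤
      u ^ (-(1 / 2 + ep) : ℝ) * (250 * t0 ep ^ 4 / ep) := by
    rw [e3]
    have := mul_le_mul_of_nonneg_left e2 hA3.le
    calc 2 * (u ^ (-(1 / 2 + ep) : ℝ) * u ^ (ep / 2 : ℝ))
        ≤ 2 * (u ^ (-(1 / 2 + ep) : ℝ) * (125 * t0 ep ^ 4 / ep)) := by linarith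
      _ = _ := by ring
  unfold PsiM
  rw [hQ, hN6, hN8]
  generalize u ^ (1 / 2 : ℝ) = A1 at *
  generalize u ^ (1 / 2 + ep / 4 : ℝ) = A2 at *
  generalize u ^ (-(1 / 2 + ep) : ℝ) = A3 at *
  generalize u ^ (-(1 / 2 + ep / 2) : ℝ) = A4 at *
  -- the bracket
  have b1 : u * V (fixs (t0 ep) u s) ≤ u * V s + (1 + 2 * t0 ep) * m := by
    have := mul_le_mul_of_nonneg_left hV hu.le
    calc u * V (fixs (t0 ep) u s) ≤ u * (V s + (1 + 2 * t0 ep) * (1 / u) * m) := this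
      _ = u * V s + (1 + 2 * t0 ep) * m := by field_simp
  have b2 : Sb u (fixs (t0 ep) u s) + 1000 / ep * S 4 u (fixs (t0 ep) u s)
      + 400 * t0 ep ^ 4 / ep * (u * V (fixs (t0 ep) u s)) ≤
      (Sb u s + 1000 / ep * S 4 u s + 400 * t0 ep ^ 4 / ep * (u * V s))
        - (500 * t0 ep ^ 4 / ep) * m := by
    have c1 : 1000 / ep * S 4 u (fixs (t0 ep) u s) ≤ 1000 / ep * (S 4 u s - t0 ep ^ 4 * m) :=
      mul_le_mul_of_nonneg_left hS4 (by positivity)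
    have c2 : 400 * t0 ep ^ 4 / ep * (u * V (fixs (t0 ep) u s)) ≤
        400 * t0 ep ^ 4 / ep * (u * V s + (1 + 2 * t0 ep) * m) :=
      mul_le_mul_of_nonneg_left b1 (by positivity)
    have c3 : 0 ≤ t0 ep ^ 4 / ep * m := by positivity
    have c4 : 400 * (1 + 2 * t0 ep) * (t0 ep ^ 4 / ep * m) ≤ 500 * (t0 ep ^ 4 / ep * m) :=
      mul_le_mul_of_nonneg_right (by linarith) c3
    have c5 : 1000 / ep * (S 4 u s - t0 ep ^ 4 * m) =
        1000 / ep * S 4 u s - 1000 * (t0 ep ^ 4 / ep * m) := by ring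
    have c6 : 400 * t0 ep ^ 4 / ep * (u * V s + (1 + 2 * t0 ep) * m) =
        400 * t0 ep ^ 4 / ep * (u * V s) + 400 * (1 + 2 * t0 ep) * (t0 ep ^ 4 / ep * m) := by
      ring
    have c7 : 500 * t0 ep ^ 4 / ep * m = 500 * (t0 ep ^ 4 / ep * m) := by ring
    rw [c5] at c1
    rw [c6] at c2
    rw [c7]
    linarith
  have b3 := mul_le_mul_of_nonneg_left b2 hA3.le
  have b4 : A4 * Ph Bl (ep / 4) u (fixs (t0 ep) u s) ≤ A4 * (Ph Bl (ep / 4) u s + 2 * m) :=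
    mul_le_mul_of_nonneg_left hPh hA4.le
  have b5 := mul_le_mul_of_nonneg_right e4 hm
  have b6 := mul_le_mul_of_nonneg_right e1 hm
  have b7 : A3 * ((Sb u s + 1000 / ep * S 4 u s + 400 * t0 ep ^ 4 / ep * (u * V s))
        - (500 * t0 ep ^ 4 / ep) * m) =
      A3 * (Sb u s + 1000 / ep * S 4 u s + 400 * t0 ep ^ 4 / ep * (u * V s))
        - 2 * (A3 * (250 * t0 ep ^ 4 / ep) * m) := by ring
  rw [b7] at b3
  have b8 : A4 * (Ph Bl (ep / 4) u s + 2 * m) = A4 * Ph Bl (ep / 4) u s + 2 * A4 * m := by ring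
  rw [b8] at b4
  have b9 : A1 * (Q s - m) = A1 * Q s - A1 * m := by ring
  have b10 : A2 * (Q s - m) = A2 * Q s - A2 * m := by ring
  rw [b9, b10]
  linarith

/-- `y ↦ sqrt (1 + y ^ 2)` is 1-Lipschitz -/
theorem sqrt_lip (x y : ℝ) : Real.sqrt (1 + y ^ 2) ≤ Real.sqrt (1 + x ^ 2) + |y - x| := by
  have h1 : 0 ≤ Real.sqrt (1 + x ^ 2) := Real.sqrt_nonneg _
  have h2 : 0 ≤ |y - x| := abs_nonneg _
  rw [Real.sqrt_le_left (by positivity)]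
  have h3 : Real.sqrt (1 + x ^ 2) ^ 2 = 1 + x ^ 2 := Real.sq_sqrt (by positivity)
  have h4 : |x| ≤ Real.sqrt (1 + x ^ 2) := by
    refine Real.le_sqrt_of_sq_le ?_
    rw [sq_abs]
    linarith
  have h5 : |y| ≤ |x| + |y - x| := by
    have := abs_add_le x (y - x)
    rwa [add_sub_cancel] at this
  have h6 : y ^ 2 ≤ (|x| + |y - x|) ^ 2 := by
    rw [← sq_abs y]
    exact pow_le_pow_left₀ (abs_nonneg _) h5 2
  have h7 : |x| * |y - x| ≤ Real.sqrt (1 + x ^ 2) * |y - x| := mul_le_mul_of_nonneg_right h4 h2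
  have h8 : |x| ^ 2 = x ^ 2 := sq_abs x
  nlinarith

end DFix

/-- [DFIX] -/
theorem d_fix (ep : ℝ) (h0 : 0 < ep) (h1 : ep ≤ 1 / 100) :
    ∃ u1 : ℝ, 0 < u1 ∧ u1 ≤ 1 / 100 ∧
    ∀ (α : Type) [DecidableEq α] (Bl : Finset (Finset α)) (C6 C8 : Finset (Finset (Finset α))),
    Sys Bl C6 C8 → ∀ uK u c, 0 < u → u ≤ uK → uK ≤ u1 → ∀ s, Inv Bl (2 * t0 ep) u s →
      PsiD ep c uK Bl C6 C8 u (fixs (t0 ep) u s) ≤ PsiD ep c uK Bl C6 C8 u s := by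
  obtain ⟨u1, hu1, hu1', H⟩ := DFix.fix_mid_strong ep h0 h1
  have ht := DFix.t0_pos h0
  have hk : 0 < 250 * t0 ep ^ 4 / ep := by positivity
  refine ⟨min u1 ((250 * t0 ep ^ 4 / ep) ^ (2 : ℝ)), lt_min hu1 (by positivity),
    (min_le_left _ _).trans hu1', ?_⟩
  intro α _ Bl C6 C8 hS uK u c hu huK huK1 s hI
  have hu2 : u ≤ u1 := (huK.trans huK1).trans (min_le_left _ _)
  have hu3 : u ≤ (250 * t0 ep ^ 4 / ep) ^ (2 : ℝ) := (huK.trans huK1).trans (min_le_right _ _)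
  obtain ⟨m, hm, hQ, hP⟩ := H α Bl C6 C8 hS u hu hu2 s hI
  have hu4 : u ≤ 1 := by linarith
  -- the weight pays for the change of the first term
  have e1 : u ^ (1 / 2 : ℝ) ≤ 250 * t0 ep ^ 4 / ep := by
    calc u ^ (1 / 2 : ℝ) ≤ ((250 * t0 ep ^ 4 / ep) ^ (2 : ℝ)) ^ (1 / 2 : ℝ) :=
          Real.rpow_le_rpow hu.le hu3 (by norm_num)
      _ = 250 * t0 ep ^ 4 / ep := by
          rw [← Real.rpow_mul hk.le]
          norm_num
  have e2 : u ^ (1 / 20 : ℝ) ≤ uK ^ (1 / 20 : ℝ) := Real.rpow_le_rpow hu.le huK (by norm_num)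
  have hKp : 0 ≤ uK ^ (1 / 20 : ℝ) := Real.rpow_nonneg (hu.le.trans huK) _
  have e3 : (1 : ℝ) ≤ u ^ (1 / 20 : ℝ) * u ^ (-(1 / 2 + ep) : ℝ) := by
    rw [← Real.rpow_add hu]
    exact Real.one_le_rpow_of_pos_of_le_one_of_nonpos hu hu4 (by linarith)
  have hA3 : 0 < u ^ (-(1 / 2 + ep) : ℝ) := by positivity
  have e4 : (1 : ℝ) ≤ uK ^ (1 / 20 : ℝ) * u ^ (-(1 / 2 + ep) : ℝ) :=
    e3.trans (mul_le_mul_of_nonneg_right e2 hA3.le)
  have e5 : u ^ (1 / 2 : ℝ) ≤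
      uK ^ (1 / 20 : ℝ) * (u ^ (-(1 / 2 + ep) : ℝ) * (250 * t0 ep ^ 4 / ep)) := by
    have h2 := mul_le_mul_of_nonneg_right e4 hk.le
    rw [one_mul] at h2
    calc u ^ (1 / 2 : ℝ) ≤ 250 * t0 ep ^ 4 / ep := e1
      _ ≤ _ := h2
      _ = _ := by ring
  have e6 := DFix.sqrt_lip (u ^ (1 / 2 : ℝ) * Q s - c) (u ^ (1 / 2 : ℝ) * (Q s - m) - c)
  have e7 : |u ^ (1 / 2 : ℝ) * (Q s - m) - c - (u ^ (1 / 2 : ℝ) * Q s - c)| =
      u ^ (1 / 2 : ℝ) * m := by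
    have h2 : u ^ (1 / 2 : ℝ) * (Q s - m) - c - (u ^ (1 / 2 : ℝ) * Q s - c) =
        -(u ^ (1 / 2 : ℝ) * m) := by ring
    rw [h2, abs_neg, abs_of_nonneg (by positivity)]
  rw [e7] at e6
  have e8 := mul_le_mul_of_nonneg_right e5 hm
  have e9 := mul_le_mul_of_nonneg_left hP hKp
  unfold PsiD
  rw [hQ]
  have e10 : uK ^ (1 / 20 : ℝ) * (PsiM ep Bl C6 C8 u s
        - u ^ (-(1 / 2 + ep) : ℝ) * (250 * t0 ep ^ 4 / ep) * m) =
      uK ^ (1 / 20 : ℝ) * PsiM ep Bl C6 C8 u s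
        - uK ^ (1 / 20 : ℝ) * (u ^ (-(1 / 2 + ep) : ℝ) * (250 * t0 ep ^ 4 / ep)) * m := by ring
  rw [e10] at e9
  linarith

end

end Vale.Agent.P046.NL
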