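import Vale.Agent.P046.NL.Defs4
import Vale.Agent.P046.NL.FIX

/-!
P046, stage 2: row [FIXS], the detachments in the second stage.
-/

namespace Vale.Agent.P046.NL

open Finset Vale.Agent.P046

noncomputable section

/-- the coefficient of `Q` in the functional of the second stage is nonnegative -/
theorem FIXS.coef_nonneg {ep uK u : ℝ} (hu : 0 < u) (huK : u ≤ uK) (h1 : uK ≤ 1 / 100) :
    0 ≤ uK ^ (1 - ep : ℝ) * u ^ (1 / 2 : ℝ) - uK ^ (1 - ep : ℝ) * u ^ (7 / 10 : ℝ)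
      - 1 / 2 * uK ^ (1 / 10 - ep : ℝ) * u ^ (7 / 5 : ℝ) := by
  have hK : 0 < uK := lt_of_lt_of_le hu huK
  have a1 : u ^ (7 / 10 : ℝ) = u ^ (1 / 2 : ℝ) * u ^ (1 / 5 : ℝ) := by
    rw [← Real.rpow_add hu]
    congr 1
    norm_num
  have a2 : u ^ (1 / 5 : ℝ) ≤ 1 / 2 := by
    calc u ^ (1 / 5 : ℝ) ≤ (1 / 32 : ℝ) ^ (1 / 5 : ℝ) :=
          Real.rpow_le_rpow hu.le (by linarith) (by norm_num)
      _ = ((1 / 2 : ℝ) ^ (5 : ℝ)) ^ (1 / 5 : ℝ) := by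
          congr 1
          norm_num
      _ = 1 / 2 := by
          rw [← Real.rpow_mul (by norm_num)]
          norm_num
  have a3 : uK ^ (1 / 10 - ep : ℝ) * u ^ (7 / 5 : ℝ) ≤ uK ^ (1 - ep : ℝ) * u ^ (1 / 2 : ℝ) := by
    have b1 : u ^ (7 / 5 : ℝ) = u ^ (1 / 2 : ℝ) * u ^ (9 / 10 : ℝ) := by
      rw [← Real.rpow_add hu]
      congr 1
      norm_num
    have b2 : uK ^ (1 - ep : ℝ) = uK ^ (1 / 10 - ep : ℝ) * uK ^ (9 / 10 : ℝ) := by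
      rw [← Real.rpow_add hK]
      congr 1
      ring
    have b3 : u ^ (9 / 10 : ℝ) ≤ uK ^ (9 / 10 : ℝ) :=
      Real.rpow_le_rpow hu.le huK (by norm_num)
    rw [b1, b2]
    have b4 : 0 ≤ uK ^ (1 / 10 - ep : ℝ) * u ^ (1 / 2 : ℝ) := by positivity
    calc uK ^ (1 / 10 - ep : ℝ) * (u ^ (1 / 2 : ℝ) * u ^ (9 / 10 : ℝ))
        = uK ^ (1 / 10 - ep : ℝ) * u ^ (1 / 2 : ℝ) * u ^ (9 / 10 : ℝ) := by ring
      _ ≤ uK ^ (1 / 10 - ep : ℝ) * u ^ (1 / 2 : ℝ) * uK ^ (9 / 10 : ℝ) :=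
          mul_le_mul_of_nonneg_left b3 b4
      _ = _ := by ring
  have a4 : 0 ≤ uK ^ (1 - ep : ℝ) * u ^ (1 / 2 : ℝ) := by positivity
  have a5 : uK ^ (1 - ep : ℝ) * u ^ (7 / 10 : ℝ) ≤
      1 / 2 * (uK ^ (1 - ep : ℝ) * u ^ (1 / 2 : ℝ)) := by
    rw [a1]
    calc uK ^ (1 - ep : ℝ) * (u ^ (1 / 2 : ℝ) * u ^ (1 / 5 : ℝ))
        = uK ^ (1 - ep : ℝ) * u ^ (1 / 2 : ℝ) * u ^ (1 / 5 : ℝ) := by ring
      _ ≤ uK ^ (1 - ep : ℝ) * u ^ (1 / 2 : ℝ) * (1 / 2) := mul_le_mul_of_nonneg_left a2 a4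
      _ = _ := by ring
  have a6 : 1 / 2 * uK ^ (1 / 10 - ep : ℝ) * u ^ (7 / 5 : ℝ) =
      1 / 2 * (uK ^ (1 / 10 - ep : ℝ) * u ^ (7 / 5 : ℝ)) := by ring
  rw [a6]
  linarith

/-- [FIXS] -/
theorem fix_st2 (ep t dl : ℝ) (h0 : 0 < ep) (h1 : ep ≤ 1 / 100) (ht0 : 0 < t)
    (ht : t ≤ ep ^ 2 / 5000) (hd1 : ep / 8 ≤ dl) (hd2 : dl ≤ ep / 2) :
    ∃ u1 : ℝ, 0 < u1 ∧ u1 ≤ 1 / 100 ∧
    ∀ (α : Type) [DecidableEq α] (Bl : Finset (Finset α)) (C6 C8 : Finset (Finset (Finset α))),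
    Sys Bl C6 C8 → ∀ uK u, 0 < u → u ≤ uK → uK ≤ u1 → ∀ s, Inv Bl (2 * t) u s →
      PsiS ep t dl uK Bl C6 C8 u (fixs t u s) ≤ PsiS ep t dl uK Bl C6 C8 u s := by
  have _ := hd2
  have hdl : 0 < dl := by linarith
  have ht1 : t ≤ 1 / 10000 := by nlinarith
  have hk : 0 < 250 * t ^ 4 / ep := by positivity
  refine ⟨min (1 / 100) ((250 * t ^ 4 / ep) ^ (2 / ep)), by positivity, min_le_left _ _, ?_⟩
  intro α _ Bl C6 C8 hS uK u hu huK huK1 s hI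
  have hK : 0 < uK := lt_of_lt_of_le hu huK
  have huK2 : uK ≤ 1 / 100 := huK1.trans (min_le_left _ _)
  have hu1 := huK.trans huK1
  have hu2 : u ≤ 1 / 100 := hu1.trans (min_le_left _ _)
  have hu3 : u ≤ (250 * t ^ 4 / ep) ^ (2 / ep) := hu1.trans (min_le_right _ _)
  have hur : u * (1 / u) = 1 := by field_simp
  have hr : 100 ≤ 1 / u := by
    rw [le_div_iff₀ hu]
    linarith
  obtain ⟨m, hm, hQ, hS2, hS4, hSb, hV, hN6, hPh, -⟩ := fix_all hS.lin hur hr t ht0.le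
    (by linarith) (by linarith) hI dl hdl C6
  obtain ⟨-, -, -, -, -, -, -, hN8, -, -⟩ := fix_all hS.lin hur hr t ht0.le
    (by linarith) (by linarith) hI dl hdl C8
  have e1 := FIXS.coef_nonneg (ep := ep) hu huK huK2
  have e2 : u ^ (ep / 2 : ℝ) ≤ 250 * t ^ 4 / ep := by
    calc u ^ (ep / 2 : ℝ) ≤ ((250 * t ^ 4 / ep) ^ (2 / ep)) ^ (ep / 2 : ℝ) :=
          Real.rpow_le_rpow hu.le hu3 (by positivity)
      _ = 250 * t ^ 4 / ep := by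
          rw [← Real.rpow_mul hk.le]
          have : 2 / ep * (ep / 2) = 1 := by field_simp
          rw [this, Real.rpow_one]
  have e3 : u ^ (-(1 / 2 + ep / 2) : ℝ) = u ^ (-(1 / 2 + ep) : ℝ) * u ^ (ep / 2 : ℝ) := by
    rw [← Real.rpow_add hu]
    congr 1
    ring
  have hA3 : 0 < u ^ (-(1 / 2 + ep) : ℝ) := by positivity
  have hA4 : 0 < u ^ (-(1 / 2 + ep / 2) : ℝ) := by positivity
  have e4 : 2 * u ^ (-(1 / 2 + ep / 2) : ℝ) ≤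
      u ^ (-(1 / 2 + ep) : ℝ) * (500 * t ^ 4 / ep) := by
    rw [e3]
    have := mul_le_mul_of_nonneg_left e2 hA3.le
    calc 2 * (u ^ (-(1 / 2 + ep) : ℝ) * u ^ (ep / 2 : ℝ))
        ≤ 2 * (u ^ (-(1 / 2 + ep) : ℝ) * (250 * t ^ 4 / ep)) := by linarith
      _ = _ := by ring
  have e5 : 0 ≤ 4 * 10 ^ 8 / ep * (uK ^ (1 - ep : ℝ) * u ^ (1 / 2 : ℝ)
      - uK ^ (1 - ep : ℝ) * u ^ (7 / 10 : ℝ) - 1 / 2 * uK ^ (1 / 10 - ep : ℝ) * u ^ (7 / 5 : ℝ)) :=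
    mul_nonneg (by positivity) e1
  have e6 : 0 ≤ 4 * 10 ^ 6 / ep * uK ^ (1 / 10 - ep : ℝ) * u ^ (2 / 5 : ℝ)
      + 4 * 10 ^ 8 / ep * uK ^ (1 - ep : ℝ) * u ^ (1 / 10 : ℝ) := by positivity
  unfold PsiS
  rw [hQ, hN6, hN8]
  generalize 4 * 10 ^ 8 / ep * (uK ^ (1 - ep : ℝ) * u ^ (1 / 2 : ℝ)
      - uK ^ (1 - ep : ℝ) * u ^ (7 / 10 : ℝ)
      - 1 / 2 * uK ^ (1 / 10 - ep : ℝ) * u ^ (7 / 5 : ℝ)) = A1 at *
  generalize 4 * 10 ^ 6 / ep * uK ^ (1 / 10 - ep : ℝ) * u ^ (2 / 5 : ℝ)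
      + 4 * 10 ^ 8 / ep * uK ^ (1 - ep : ℝ) * u ^ (1 / 10 : ℝ) = A2 at *
  generalize u ^ (-(1 / 2 + ep) : ℝ) = A3 at *
  generalize u ^ (-(1 / 2 + ep / 2) : ℝ) = A4 at *
  -- the bracket
  have b1 : u * V (fixs t u s) ≤ u * V s + (1 + 2 * t) * m := by
    have := mul_le_mul_of_nonneg_left hV hu.le
    calc u * V (fixs t u s) ≤ u * (V s + (1 + 2 * t) * (1 / u) * m) := this
      _ = u * V s + (1 + 2 * t) * m := by field_simp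
  have b2 : Sb u (fixs t u s) + 1000 / ep * S 4 u (fixs t u s)
      + 400 * t ^ 4 / ep * (u * V (fixs t u s)) ≤
      (Sb u s + 1000 / ep * S 4 u s + 400 * t ^ 4 / ep * (u * V s))
        - (500 * t ^ 4 / ep) * m := by
    have c1 : 1000 / ep * S 4 u (fixs t u s) ≤ 1000 / ep * (S 4 u s - t ^ 4 * m) :=
      mul_le_mul_of_nonneg_left hS4 (by positivity)
    have c2 : 400 * t ^ 4 / ep * (u * V (fixs t u s)) ≤
        400 * t ^ 4 / ep * (u * V s + (1 + 2 * t) * m) :=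
      mul_le_mul_of_nonneg_left b1 (by positivity)
    have c3 : 0 ≤ t ^ 4 / ep * m := by positivity
    have c4 : 400 * (1 + 2 * t) * (t ^ 4 / ep * m) ≤ 500 * (t ^ 4 / ep * m) :=
      mul_le_mul_of_nonneg_right (by linarith) c3
    have c5 : 1000 / ep * (S 4 u s - t ^ 4 * m) =
        1000 / ep * S 4 u s - 1000 * (t ^ 4 / ep * m) := by ring
    have c6 : 400 * t ^ 4 / ep * (u * V s + (1 + 2 * t) * m) =
        400 * t ^ 4 / ep * (u * V s) + 400 * (1 + 2 * t) * (t ^ 4 / ep * m) := by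
      ring
    have c7 : 500 * t ^ 4 / ep * m = 500 * (t ^ 4 / ep * m) := by ring
    rw [c5] at c1
    rw [c6] at c2
    rw [c7]
    linarith
  have b3 := mul_le_mul_of_nonneg_left b2 hA3.le
  have b4 : A4 * Ph Bl dl u (fixs t u s) ≤ A4 * (Ph Bl dl u s + 2 * m) :=
    mul_le_mul_of_nonneg_left hPh hA4.le
  have b5 := mul_le_mul_of_nonneg_right e4 hm
  have b6 : 0 ≤ A1 * m := mul_nonneg e5 hm
  have b7 : A3 * ((Sb u s + 1000 / ep * S 4 u s + 400 * t ^ 4 / ep * (u * V s))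
        - (500 * t ^ 4 / ep) * m) =
      A3 * (Sb u s + 1000 / ep * S 4 u s + 400 * t ^ 4 / ep * (u * V s))
        - A3 * (500 * t ^ 4 / ep) * m := by ring
  rw [b7] at b3
  have b8 : A4 * (Ph Bl dl u s + 2 * m) = A4 * Ph Bl dl u s + 2 * A4 * m := by ring
  rw [b8] at b4
  have b9 : A1 * (Q s - m) = A1 * Q s - A1 * m := by ring
  have b10 := mul_le_mul_of_nonneg_left hS2 e6
  rw [b9]
  linarith

end

end Vale.Agent.P046.NL
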