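import Vale.Agent.P046.NL.DS
import Vale.Agent.P046.NL.DFIX
import Vale.Agent.P046.NL.FIXS

/-!
P046: the detachments in the concentration functional of the second stage.
-/

namespace Vale.Agent.P046.NL

open Finset Vale.Agent.P046

noncomputable section

/-- strong form of `fix_st2`: each detached point pays -/
theorem DSF.fix_st2_strong (ep t dl : ℝ) (h0 : 0 < ep) (h1 : ep ≤ 1 / 100) (ht0 : 0 < t)
    (ht : t ≤ ep ^ 2 / 5000) (hd1 : ep / 8 ≤ dl) (hd2 : dl ≤ ep / 2) :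
    ∃ u1 : ℝ, 0 < u1 ∧ u1 ≤ 1 / 100 ∧
    ∀ (α : Type) [DecidableEq α] (Bl : Finset (Finset α)) (C6 C8 : Finset (Finset (Finset α))),
    Sys Bl C6 C8 → ∀ uK u, 0 < u → u ≤ uK → uK ≤ u1 → ∀ s, Inv Bl (2 * t) u s →
      ∃ m : ℝ, 0 ≤ m ∧ Q (fixs t u s) = Q s - m ∧
      PsiS ep t dl uK Bl C6 C8 u (fixs t u s) ≤ PsiS ep t dl uK Bl C6 C8 u s
        - u ^ (-(1 / 2 + ep) : ℝ) * (250 * t ^ 4 / ep) * m := by
  have _ := hd2
  have hdl : 0 < dl := by linarith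
  have ht1 : t ≤ 1 / 10000 := by nlinarith
  have hk : 0 < 125 * t ^ 4 / ep := by positivity
  refine ⟨min (1 / 100) ((125 * t ^ 4 / ep) ^ (2 / ep)), by positivity, min_le_left _ _, ?_⟩
  intro α _ Bl C6 C8 hS uK u hu huK huK1 s hI
  have hK : 0 < uK := lt_of_lt_of_le hu huK
  have huK2 : uK ≤ 1 / 100 := huK1.trans (min_le_left _ _)
  have hu1 := huK.trans huK1
  have hu2 : u ≤ 1 / 100 := hu1.trans (min_le_left _ _)
  have hu3 : u ≤ (125 * t ^ 4 / ep) ^ (2 / ep) := hu1.trans (min_le_right _ _)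
  have hur : u * (1 / u) = 1 := by field_simp
  have hr : 100 ≤ 1 / u := by
    rw [le_div_iff₀ hu]
    linarith
  obtain ⟨m, hm, hQ, hS2, hS4, hSb, hV, hN6, hPh, -⟩ := fix_all hS.lin hur hr t ht0.le
    (by linarith) (by linarith) hI dl hdl C6
  obtain ⟨-, -, -, -, -, -, -, hN8, -, -⟩ := fix_all hS.lin hur hr t ht0.le
    (by linarith) (by linarith) hI dl hdl C8
  have e1 := FIXS.coef_nonneg (ep := ep) hu huK huK2
  have e2 : u ^ (ep / 2 : ℝ) ≤ 125 * t ^ 4 / ep := by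
    calc u ^ (ep / 2 : ℝ) ≤ ((125 * t ^ 4 / ep) ^ (2 / ep)) ^ (ep / 2 : ℝ) :=
          Real.rpow_le_rpow hu.le hu3 (by positivity)
      _ = 125 * t ^ 4 / ep := by
          rw [← Real.rpow_mul hk.le]
          have : 2 / ep * (ep / 2) = 1 := by field_simp
          rw [this, Real.rpow_one]
  have e3 : u ^ (-(1 / 2 + ep / 2) : ℝ) = u ^ (-(1 / 2 + ep) : ℝ) * u ^ (ep / 2 : ℝ) := by
    rw [← Real.rpow_add hu]
    congr 1
    ring
  have hA3 : 0 < u ^ (-(1 / 2 + ep) : ℝ) := by positivity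
  have hA4 : 0 < u ^ (-(1 / 2 + ep / 2) : ℝ) := by positivity
  have e4 : 2 * u ^ (-(1 / 2 + ep / 2) : ℝ) ≤
      u ^ (-(1 / 2 + ep) : ℝ) * (250 * t ^ 4 / ep) := by
    rw [e3]
    have := mul_le_mul_of_nonneg_left e2 hA3.le
    calc 2 * (u ^ (-(1 / 2 + ep) : ℝ) * u ^ (ep / 2 : ℝ))
        ≤ 2 * (u ^ (-(1 / 2 + ep) : ℝ) * (125 * t ^ 4 / ep)) := by linarith
      _ = _ := by ring
  have e5 : 0 ≤ 4 * 10 ^ 8 / ep * (uK ^ (1 - ep : ℝ) * u ^ (1 / 2 : ℝ)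
      - uK ^ (1 - ep : ℝ) * u ^ (7 / 10 : ℝ) - 1 / 2 * uK ^ (1 / 10 - ep : ℝ) * u ^ (7 / 5 : ℝ)) :=
    mul_nonneg (by positivity) e1
  have e6 : 0 ≤ 4 * 10 ^ 6 / ep * uK ^ (1 / 10 - ep : ℝ) * u ^ (2 / 5 : ℝ)
      + 4 * 10 ^ 8 / ep * uK ^ (1 - ep : ℝ) * u ^ (1 / 10 : ℝ) := by positivity
  refine ⟨m, hm, hQ, ?_⟩
  unfold PsiS
  rw [hQ, hN6, hN8]
  generalize 4 * 10 ^ 8 / ep * (uK ^ (1 - ep : ℝ) * u ^ (1 / 2 : ℝ)
      - uK ^ (1 - ep : ℝ) * u ^ (7 / 10 : ℝ)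
      - 1 / 2 * uK ^ (1 / 10 - ep : ℝ) * u ^ (7 / 5 : ℝ)) = A1 at *
  generalize 4 * 10 ^ 6 / ep * uK ^ (1 / 10 - ep : ℝ) * u ^ (2 / 5 : ℝ)
      + 4 * 10 ^ 8 / ep * uK ^ (1 - ep : ℝ) * u ^ (1 / 10 : ℝ) = A2 at *
  generalize u ^ (-(1 / 2 + ep) : ℝ) = A3 at *
  generalize u ^ (-(1 / 2 + ep / 2) : ℝ) = A4 at *
  -- the bracket
  have b1 : u * V (fixs t u s) ≤ u * V s + (1 + 2 * t) * m := by
    have := mul_le_mul_of_nonneg_left hV hu.le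
    calc u * V (fixs t u s) ≤ u * (V s + (1 + 2 * t) * (1 / u) * m) := this
      _ = u * V s + (1 + 2 * t) * m := by field_simp
  have b2 : Sb u (fixs t u s) + 1000 / ep * S 4 u (fixs t u s)
      + 400 * t ^ 4 / ep * (u * V (fixs t u s)) ≤
      (Sb u s + 1000 / ep * S 4 u s + 400 * t ^ 4 / ep * (u * V s))
        - (500 * t ^ 4 / ep) * m := by
    have c1 : 1000 / ep * S 4 u (fixs t u s) ≤ 1000 / ep * (S 4 u s - t ^ 4 * m) :=
      mul_le_mul_of_nonneg_left hS4 (by positivity)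
    have c2 : 400 * t ^ 4 / ep * (u * V (fixs t u s)) ≤
        400 * t ^ 4 / ep * (u * V s + (1 + 2 * t) * m) :=
      mul_le_mul_of_nonneg_left b1 (by positivity)
    have c3 : 0 ≤ t ^ 4 / ep * m := by positivity
    have c4 : 400 * (1 + 2 * t) * (t ^ 4 / ep * m) ≤ 500 * (t ^ 4 / ep * m) :=
      mul_le_mul_of_nonneg_right (by linarith) c3
    have c5 : 1000 / ep * (S 4 u s - t ^ 4 * m) =
        1000 / ep * S 4 u s - 1000 * (t ^ 4 / ep * m) := by ring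
    have c6 : 400 * t ^ 4 / ep * (u * V s + (1 + 2 * t) * m) =
        400 * t ^ 4 / ep * (u * V s) + 400 * (1 + 2 * t) * (t ^ 4 / ep * m) := by
      ring
    have c7 : 500 * t ^ 4 / ep * m = 500 * (t ^ 4 / ep * m) := by ring
    rw [c5] at c1
    rw [c6] at c2
    rw [c7]
    linarith
  have b3 := mul_le_mul_of_nonneg_left b2 hA3.le
  have b4 : A4 * Ph Bl dl u (fixs t u s) ≤ A4 * (Ph Bl dl u s + 2 * m) :=
    mul_le_mul_of_nonneg_left hPh hA4.le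
  have b5 := mul_le_mul_of_nonneg_right e4 hm
  have b6 : 0 ≤ A1 * m := mul_nonneg e5 hm
  have b7 : A3 * ((Sb u s + 1000 / ep * S 4 u s + 400 * t ^ 4 / ep * (u * V s))
        - (500 * t ^ 4 / ep) * m) =
      A3 * (Sb u s + 1000 / ep * S 4 u s + 400 * t ^ 4 / ep * (u * V s))
        - 2 * (A3 * (250 * t ^ 4 / ep) * m) := by ring
  rw [b7] at b3
  have b8 : A4 * (Ph Bl dl u s + 2 * m) = A4 * Ph Bl dl u s + 2 * A4 * m := by ring
  rw [b8] at b4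
  have b9 : A1 * (Q s - m) = A1 * Q s - A1 * m := by ring
  have b10 := mul_le_mul_of_nonneg_left hS2 e6
  rw [b9]
  linarith

/-- [DSFIX] -/
theorem ds_fix (ep t dl : ℝ) (h0 : 0 < ep) (h1 : ep ≤ 1 / 100) (ht0 : 0 < t)
    (ht : t ≤ ep ^ 2 / 5000) (hd1 : ep / 8 ≤ dl) (hd2 : dl ≤ ep / 2) :
    ∃ u1 : ℝ, 0 < u1 ∧ u1 ≤ 1 / 100 ∧
    ∀ (α : Type) [DecidableEq α] (Bl : Finset (Finset α)) (C6 C8 : Finset (Finset (Finset α))),
    Sys Bl C6 C8 → ∀ uE uK u c kap, 0 < u → u ≤ uE → uE ≤ uK → uK ≤ u1 → 0 < kap →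
      uE ^ (1 / 5 : ℝ) ≤ (kap * uK ^ (1 - ep : ℝ)) ^ 2 → ∀ s, Inv Bl (2 * t) u s →
      PsiDS ep t dl uK c kap Bl C6 C8 u (fixs t u s) ≤ PsiDS ep t dl uK c kap Bl C6 C8 u s := by
  obtain ⟨u1, hu1, hu1', H⟩ := DSF.fix_st2_strong ep t dl h0 h1 ht0 ht hd1 hd2
  have hk : 0 < 250 * t ^ 4 / ep := by positivity
  refine ⟨min u1 ((250 * t ^ 4 / ep) ^ (2 : ℝ)), lt_min hu1 (by positivity),
    (min_le_left _ _).trans hu1', ?_⟩
  intro α _ Bl C6 C8 hS uE uK u c kap hu huE hEK huK1 hkap hcond s hI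
  have huK : u ≤ uK := huE.trans hEK
  have hu2 : u ≤ u1 := (huK.trans huK1).trans (min_le_left _ _)
  have hu3 : u ≤ (250 * t ^ 4 / ep) ^ (2 : ℝ) := (huK.trans huK1).trans (min_le_right _ _)
  obtain ⟨m, hm, hQ, hP⟩ := H α Bl C6 C8 hS uK u hu huK (huK1.trans (min_le_left _ _)) s hI
  have hu4 : u ≤ 1 := by linarith
  have hK0 : 0 < uK := hu.trans_le huK
  have hE0 : 0 < uE := hu.trans_le huE
  have hK1 : uK ≤ 1 := (huK1.trans (min_le_left _ _)).trans (by linarith)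
  -- the weight pays for the change of the first term
  have e1 : u ^ (1 / 2 : ℝ) ≤ 250 * t ^ 4 / ep := by
    calc u ^ (1 / 2 : ℝ) ≤ ((250 * t ^ 4 / ep) ^ (2 : ℝ)) ^ (1 / 2 : ℝ) :=
          Real.rpow_le_rpow hu.le hu3 (by norm_num)
      _ = 250 * t ^ 4 / ep := by
          rw [← Real.rpow_mul hk.le]
          norm_num
  have e2 : u ^ (1 / 10 : ℝ) ≤ kap := by
    have h2 : (u ^ (1 / 10 : ℝ)) ^ 2 ≤ kap ^ 2 := by
      have h3 : (u ^ (1 / 10 : ℝ)) ^ 2 = u ^ (1 / 5 : ℝ) := by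
        rw [← Real.rpow_natCast, ← Real.rpow_mul hu.le]
        norm_num
      rw [h3]
      have h4 : u ^ (1 / 5 : ℝ) ≤ uE ^ (1 / 5 : ℝ) := Real.rpow_le_rpow hu.le huE (by norm_num)
      have h5 : kap * uK ^ (1 - ep : ℝ) ≤ kap * 1 :=
        mul_le_mul_of_nonneg_left (Real.rpow_le_one hK0.le hK1 (by linarith)) hkap.le
      have h6 : (kap * uK ^ (1 - ep : ℝ)) ^ 2 ≤ kap ^ 2 := by
        rw [mul_one] at h5
        exact pow_le_pow_left₀ (by positivity) h5 2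
      exact (h4.trans hcond).trans h6
    exact (abs_le_of_sq_le_sq' h2 hkap.le).2
  have e3 : (1 : ℝ) ≤ u ^ (1 / 10 : ℝ) * u ^ (-(1 / 2 + ep) : ℝ) := by
    rw [← Real.rpow_add hu]
    exact Real.one_le_rpow_of_pos_of_le_one_of_nonpos hu hu4 (by linarith)
  have hA3 : 0 < u ^ (-(1 / 2 + ep) : ℝ) := by positivity
  have e4 : (1 : ℝ) ≤ kap * u ^ (-(1 / 2 + ep) : ℝ) :=
    e3.trans (mul_le_mul_of_nonneg_right e2 hA3.le)
  have e5 : u ^ (1 / 2 : ℝ) ≤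
      kap * (u ^ (-(1 / 2 + ep) : ℝ) * (250 * t ^ 4 / ep)) := by
    have h2 := mul_le_mul_of_nonneg_right e4 hk.le
    rw [one_mul] at h2
    calc u ^ (1 / 2 : ℝ) ≤ 250 * t ^ 4 / ep := e1
      _ ≤ _ := h2
      _ = _ := by ring
  have e6 := DFix.sqrt_lip (u ^ (1 / 2 : ℝ) * Q s - c) (u ^ (1 / 2 : ℝ) * (Q s - m) - c)
  have e7 : |u ^ (1 / 2 : ℝ) * (Q s - m) - c - (u ^ (1 / 2 : ℝ) * Q s - c)| =
      u ^ (1 / 2 : ℝ) * m := by
    have h2 : u ^ (1 / 2 : ℝ) * (Q s - m) - c - (u ^ (1 / 2 : ℝ) * Q s - c) =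
        -(u ^ (1 / 2 : ℝ) * m) := by ring
    rw [h2, abs_neg, abs_of_nonneg (by positivity)]
  rw [e7] at e6
  have e8 := mul_le_mul_of_nonneg_right e5 hm
  have e9 := mul_le_mul_of_nonneg_left hP hkap.le
  unfold PsiDS
  rw [hQ]
  have e10 : kap * (PsiS ep t dl uK Bl C6 C8 u s
        - u ^ (-(1 / 2 + ep) : ℝ) * (250 * t ^ 4 / ep) * m) =
      kap * PsiS ep t dl uK Bl C6 C8 u s
        - kap * (u ^ (-(1 / 2 + ep) : ℝ) * (250 * t ^ 4 / ep)) * m := by ring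
  rw [e10] at e9
  linarith

end

end Vale.Agent.P046.NL
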