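import Vale.Agent.P046.NL.Defs

/-!
P046, removal of the logarithm, row QQ: the quadratic term in the drift of `beta`
-/

namespace Vale.Agent.P046.NL

open Finset Vale.Agent.P046

noncomputable section

variable {α : Type} [DecidableEq α]

namespace QQ

theorem dW_eq {u r : ℝ} (hur : u * r = 1) {s : St α} {e : α} (he : e ∈ s.B) :
    dW s.W e = r * (1 + xv u s e) := by
  unfold xv
  rw [if_pos he]
  linear_combination (-dW s.W e) * hur

theorem dW_le {Bl : Finset (Finset α)} {th u r : ℝ} {s : St α} (h : Inv Bl th u s)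
    (hth : th ≤ 1 / 10) (hur : u * r = 1) (hr : 0 < r) {e : α} (he : e ∈ s.B) :
    dW s.W e ≤ 11 / 10 * r := by
  rw [dW_eq hur he]
  have h1 := (abs_le.1 (h.bd e)).2
  nlinarith

/-- `(x + y)^4 ≤ 8 (x^4 + y^4)`, as a sum over two points. -/
theorem sum_pow_four {ι : Type*} (t : Finset ι) (f : ι → ℝ) (ht : t.card = 2) :
    (∑ i ∈ t, f i) ^ 4 ≤ 8 * ∑ i ∈ t, f i ^ 4 := by
  have h1 : (∑ i ∈ t, f i) ^ 2 ≤ 2 * ∑ i ∈ t, f i ^ 2 := by
    have := sq_sum_le_card_mul_sum_sq (s := t) (f := f)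
    rw [ht] at this
    exact_mod_cast this
  have h2 : (∑ i ∈ t, f i ^ 2) ^ 2 ≤ 2 * ∑ i ∈ t, (f i ^ 2) ^ 2 := by
    have := sq_sum_le_card_mul_sum_sq (s := t) (f := fun i => f i ^ 2)
    rw [ht] at this
    exact_mod_cast this
  have h3 : (∑ i ∈ t, f i) ^ 4 ≤ (2 * ∑ i ∈ t, f i ^ 2) ^ 2 := by
    have : (∑ i ∈ t, f i) ^ 4 = ((∑ i ∈ t, f i) ^ 2) ^ 2 := by ring
    rw [this]
    exact pow_le_pow_left₀ (sq_nonneg _) h1 2
  have h4 : ∑ i ∈ t, (f i ^ 2) ^ 2 = ∑ i ∈ t, f i ^ 4 :=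
    Finset.sum_congr rfl fun i _ => by ring
  rw [h4] at h2
  calc (∑ i ∈ t, f i) ^ 4 ≤ (2 * ∑ i ∈ t, f i ^ 2) ^ 2 := h3
    _ = 4 * (∑ i ∈ t, f i ^ 2) ^ 2 := by ring
    _ ≤ 4 * (2 * ∑ i ∈ t, f i ^ 4) := by linarith
    _ = 8 * ∑ i ∈ t, f i ^ 4 := by ring

end QQ

open QQ

theorem qq_le (Bl : Finset (Finset α)) (hB : Lin3 Bl) (th u r : ℝ) (s : St α)
    (h : Inv Bl th u s) (hth0 : 0 ≤ th) (hth : th ≤ 1 / 10) (hur : u * r = 1) (hr : 0 < r) :
    ∑ e ∈ s.B, (qq u s e) ^ 2 ≤ 20 * (S 4 u s + th ^ 4 * u * V s) := by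
  have hu : 0 < u := by
    have : u = 1 / r := by field_simp; linarith
    rw [this]
    positivity
  -- one point
  have hpt : ∀ e ∈ s.B, (qq u s e) ^ 2 ≤
      44 / 5 * u * ∑ T ∈ s.W.filter (fun T => e ∈ T), ∑ f ∈ T.erase e, xv u s f ^ 4 := by
    intro e he
    unfold qq
    have h1 := sq_sum_le_card_mul_sum_sq (s := s.W.filter (fun T => e ∈ T))
      (f := fun T => sm u s T e ^ 2)
    have h2 : ∑ T ∈ s.W.filter (fun T => e ∈ T), (sm u s T e ^ 2) ^ 2 ≤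
        8 * ∑ T ∈ s.W.filter (fun T => e ∈ T), ∑ f ∈ T.erase e, xv u s f ^ 4 := by
      rw [Finset.mul_sum]
      refine Finset.sum_le_sum fun T hT => ?_
      rw [mem_filter] at hT
      have hc : (T.erase e).card = 2 := by
        rw [Finset.card_erase_of_mem hT.2, hB.card3 T (h.sub hT.1)]
      have := sum_pow_four (T.erase e) (fun f => xv u s f) hc
      unfold sm
      refine le_trans (le_of_eq ?_) this
      ring
    have h3 : ((s.W.filter (fun T => e ∈ T)).card : ℝ) ≤ 11 / 10 * r :=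
      dW_le h hth hur hr he
    set X := ∑ T ∈ s.W.filter (fun T => e ∈ T), ∑ f ∈ T.erase e, xv u s f ^ 4 with hX
    have hX0 : 0 ≤ X := Finset.sum_nonneg fun T _ => Finset.sum_nonneg fun f _ => by positivity
    have h4 : (∑ T ∈ s.W.filter (fun T => e ∈ T), sm u s T e ^ 2) ^ 2 ≤ 11 / 10 * r * (8 * X) := by
      refine h1.trans ?_
      refine mul_le_mul h3 h2 (Finset.sum_nonneg fun T _ => by positivity) (by positivity)
    rw [mul_pow]
    calc u ^ 2 * (∑ T ∈ s.W.filter (fun T => e ∈ T), sm u s T e ^ 2) ^ 2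
        ≤ u ^ 2 * (11 / 10 * r * (8 * X)) := mul_le_mul_of_nonneg_left h4 (by positivity)
      _ = 44 / 5 * u * X * (u * r) := by ring
      _ = 44 / 5 * u * X := by rw [hur, mul_one]
  refine (Finset.sum_le_sum hpt).trans ?_
  rw [← Finset.mul_sum]
  -- the double count
  have hdc : ∑ e ∈ s.B, ∑ T ∈ s.W.filter (fun T => e ∈ T), ∑ f ∈ T.erase e, xv u s f ^ 4 ≤
      2 * ∑ T ∈ s.W, ∑ f ∈ T, xv u s f ^ 4 := by
    have e1 : ∑ e ∈ s.B, ∑ T ∈ s.W.filter (fun T => e ∈ T), ∑ f ∈ T.erase e, xv u s f ^ 4 =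
        ∑ T ∈ s.W, ∑ e ∈ s.B, if e ∈ T then ∑ f ∈ T.erase e, xv u s f ^ 4 else 0 := by
      simp_rw [Finset.sum_filter]
      rw [Finset.sum_comm]
    rw [e1, Finset.mul_sum]
    refine Finset.sum_le_sum fun T hT => ?_
    rw [← Finset.sum_filter]
    have e2 : ∑ e ∈ s.B.filter (fun e => e ∈ T), ∑ f ∈ T.erase e, xv u s f ^ 4 ≤
        ∑ e ∈ T, ∑ f ∈ T.erase e, xv u s f ^ 4 := by
      refine Finset.sum_le_sum_of_subset_of_nonneg ?_ ?_
      · intro e he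
        exact (mem_filter.1 he).2
      · intro e _ _
        exact Finset.sum_nonneg fun f _ => by positivity
    refine e2.trans ?_
    have e3 : ∀ e ∈ T, ∑ f ∈ T.erase e, xv u s f ^ 4 =
        ∑ f ∈ T, xv u s f ^ 4 - xv u s e ^ 4 := by
      intro e he
      rw [← Finset.sum_erase_add _ _ he]
      ring
    rw [Finset.sum_congr rfl e3, Finset.sum_sub_distrib, Finset.sum_const,
      hB.card3 T (h.sub hT), nsmul_eq_mul]
    push_cast
    linarith
  -- splitting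
  have hsp : ∑ T ∈ s.W, ∑ f ∈ T, xv u s f ^ 4 ≤
      11 / 10 * r * S 4 u s + th ^ 4 * V s := by
    have e1 : ∀ T ∈ s.W, ∑ f ∈ T, xv u s f ^ 4 ≤
        ∑ f ∈ s.B, (if f ∈ T then xv u s f ^ 4 else 0) + th ^ 4 * ((T \ s.B).card : ℝ) := by
      intro T _
      have e2 : ∑ f ∈ T, xv u s f ^ 4 = ∑ f ∈ T ∩ s.B, xv u s f ^ 4 +
          ∑ f ∈ T \ s.B, xv u s f ^ 4 := by
        rw [← Finset.sum_inter_add_sum_sdiff T s.B]
      have e3 : ∑ f ∈ T ∩ s.B, xv u s f ^ 4 = ∑ f ∈ s.B, (if f ∈ T then xv u s f ^ 4 else 0) := by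
        rw [← Finset.sum_filter, Finset.filter_mem_eq_inter, Finset.inter_comm]
      have e4 : ∑ f ∈ T \ s.B, xv u s f ^ 4 ≤ th ^ 4 * ((T \ s.B).card : ℝ) := by
        have : ∑ f ∈ T \ s.B, xv u s f ^ 4 ≤ ∑ _f ∈ T \ s.B, th ^ 4 := by
          refine Finset.sum_le_sum fun f _ => ?_
          have := h.bd f
          calc xv u s f ^ 4 = |xv u s f| ^ 4 := by rw [Even.pow_abs ⟨2, rfl⟩]
            _ ≤ th ^ 4 := pow_le_pow_left₀ (abs_nonneg _) this 4
        refine this.trans (le_of_eq ?_)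
        rw [Finset.sum_const, nsmul_eq_mul, mul_comm]
      rw [e2, e3]
      linarith
    refine (Finset.sum_le_sum e1).trans ?_
    rw [Finset.sum_add_distrib, ← Finset.mul_sum, Finset.sum_comm]
    have e5 : ∑ f ∈ s.B, ∑ T ∈ s.W, (if f ∈ T then xv u s f ^ 4 else 0) ≤
        11 / 10 * r * S 4 u s := by
      unfold S
      rw [Finset.mul_sum]
      refine Finset.sum_le_sum fun f hf => ?_
      rw [← Finset.sum_filter, Finset.sum_const, nsmul_eq_mul]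
      exact mul_le_mul_of_nonneg_right (dW_le h hth hur hr hf) (by positivity)
    have e6 : th ^ 4 * ∑ T ∈ s.W, ((T \ s.B).card : ℝ) = th ^ 4 * V s := rfl
    rw [e6]
    linarith
  have hS : 0 ≤ S 4 u s := Finset.sum_nonneg fun f _ => by positivity
  have hV : 0 ≤ V s := Finset.sum_nonneg fun T _ => Nat.cast_nonneg _
  have hfin : ∑ e ∈ s.B, ∑ T ∈ s.W.filter (fun T => e ∈ T), ∑ f ∈ T.erase e, xv u s f ^ 4 ≤
      2 * (11 / 10 * r * S 4 u s + th ^ 4 * V s) := by linarith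
  calc 44 / 5 * u * ∑ e ∈ s.B, ∑ T ∈ s.W.filter (fun T => e ∈ T), ∑ f ∈ T.erase e, xv u s f ^ 4
      ≤ 44 / 5 * u * (2 * (11 / 10 * r * S 4 u s + th ^ 4 * V s)) :=
        mul_le_mul_of_nonneg_left hfin (by positivity)
    _ = 484 / 25 * (u * r) * S 4 u s + 88 / 5 * (th ^ 4 * u * V s) := by ring
    _ = 484 / 25 * S 4 u s + 88 / 5 * (th ^ 4 * u * V s) := by rw [hur, mul_one]
    _ ≤ 20 * (S 4 u s + th ^ 4 * u * V s) := by
        have : 0 ≤ th ^ 4 * u * V s := by positivity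
        linarith

end

end Vale.Agent.P046.NL
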