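import Vale.Agent.P046.NL.Defs2

/-! P046 no-log, row QG: generator of the number of real points. -/

namespace Vale.Agent.P046.NL

open Finset Vale.Agent.P046

noncomputable section

variable {α : Type} [DecidableEq α]

variable {Bl : Finset (Finset α)} {th u r : ℝ} {s : St α}

/-- [QG] -/
theorem gen_Q (hL : Lin3 Bl) (hur : u * r = 1) (hr : 0 < r) (hI : Inv Bl th u s) :
    gen Bl r Q s = -r * (Q s + ∑ e ∈ s.B, xv u s e) := by
  have h1 : ∀ T : Finset α, Q (ring s T) - Q s = - ∑ e ∈ s.B, (if e ∈ T then (1 : ℝ) else 0) := by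
    intro T
    have h2 : (s.B \ T).card + (s.B.filter (fun e => e ∈ T)).card = s.B.card := by
      rw [Finset.sdiff_eq_filter]
      have := Finset.card_filter_add_card_filter_not (s := s.B) (fun e => e ∈ T)
      omega
    have h3 : (∑ e ∈ s.B, (if e ∈ T then (1 : ℝ) else 0))
        = ((s.B.filter (fun e => e ∈ T)).card : ℝ) := by
      rw [Finset.sum_boole]
    have h4 : (((s.B \ T).card : ℝ)) + ((s.B.filter (fun e => e ∈ T)).card : ℝ)
        = (s.B.card : ℝ) := by exact_mod_cast h2
    rw [h3]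
    show ((s.B \ T).card : ℝ) - (s.B.card : ℝ) = _
    linarith
  have h5 : ∀ T : Finset α, Q (virt s T) - Q s = 0 := fun T => sub_self _
  have h6 : ∀ T : Finset α, Q (nring s T) - Q s = 0 := fun T => sub_self _
  unfold gen
  simp only [h1, h5, h6, mul_zero, sum_const_zero, add_zero, sum_neg_distrib]
  rw [sum_comm]
  have h7 : ∀ e ∈ s.B, (∑ T ∈ s.W, (if e ∈ T then (1 : ℝ) else 0)) = r * (1 + xv u s e) := by
    intro e he
    rw [Finset.sum_boole]
    unfold xv dW
    rw [if_pos he]
    have : r * (1 + (u * ((s.W.filter (fun T => e ∈ T)).card : ℝ) - 1))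
        = (u * r) * ((s.W.filter (fun T => e ∈ T)).card : ℝ) := by ring
    rw [this, hur, one_mul]
  rw [sum_congr rfl h7, ← mul_sum, sum_add_distrib]
  unfold Q
  simp

end

end Vale.Agent.P046.NL
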