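import Vale.Agent.P046.NL.Defs4
import Vale.Agent.P046.NL.MidAux
import Vale.Agent.P046.NL.QG

/-!
P046: row [DCORE], concentration of the number of points: one step of the functional `PsiD`
(form with the strong form of the middle phase as a hypothesis).
-/

namespace Vale.Agent.P046.NL

open Finset Vale.Agent.P046

noncomputable section

namespace DCore

/-- the conclusion of `mid_core_strong` -/
def MidStrong (ep : ℝ) : Prop :=
    ∃ u1 : ℝ, 0 < u1 ∧ u1 ≤ 1 / 100 ∧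
    ∀ (α : Type) [DecidableEq α] (Bl : Finset (Finset α)) (C6 C8 : Finset (Finset (Finset α))),
    Sys Bl C6 C8 → ∀ (umin : ℝ) (A₀ : Finset α), 0 < umin → ∃ E h1 : ℝ, 0 ≤ E ∧ 0 < h1 ∧
    ∀ h u : ℝ, 0 < h → h ≤ h1 → umin ≤ u → u + 2 * h ≤ u1 → ∀ s : St α, s.B ⊆ A₀ → s.A ⊆ A₀ →
      Inv Bl (2 * t0 ep) (u + 2 * h) s →
      PsiM ep Bl C6 C8 (u + 2 * h) s
        + h * gen Bl (1 / (u + 2 * h)) (fun s' => PsiM ep Bl C6 C8 (u + 2 * h) s') s
        ≤ PsiM ep Bl C6 C8 u s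
          - h / (u + 2 * h) * (ep / 8 * (u + 2 * h) ^ (1 / 2 + ep / 4 : ℝ) * Q s
            + S 2 (u + 2 * h) s / 4) + E * h ^ 2

/-- the function `sqrt (1 + y ^ 2)` -/
def ph (y : ℝ) : ℝ := Real.sqrt (1 + y ^ 2)

/-- its derivative -/
def dp (y : ℝ) : ℝ := y / ph y

theorem one_le_ph (y : ℝ) : 1 ≤ ph y := by
  unfold ph
  rw [show (1 : ℝ) = Real.sqrt 1 by simp]
  exact Real.sqrt_le_sqrt (by simp; positivity)

theorem ph_sq (y : ℝ) : ph y ^ 2 = 1 + y ^ 2 := by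
  unfold ph; exact Real.sq_sqrt (by positivity)

theorem abs_dp_le (y : ℝ) : |dp y| ≤ 1 := by
  unfold dp
  have h1 := one_le_ph y
  rw [abs_div, abs_of_pos (by linarith : 0 < ph y), div_le_one (by linarith)]
  unfold ph
  refine Real.le_sqrt_of_sq_le ?_
  rw [sq_abs]
  linarith

/-- convexity -/
theorem ph_lower (x y : ℝ) : ph y + dp y * (x - y) ≤ ph x := by
  have hy := one_le_ph y
  have hx := one_le_ph x
  have h1 : 1 + x * y ≤ ph x * ph y := by
    by_contra h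
    push Not at h
    have h2 : 0 ≤ ph x * ph y := by positivity
    have h3 : (ph x * ph y) ^ 2 < (1 + x * y) ^ 2 := by
      apply sq_lt_sq' <;> linarith
    rw [mul_pow, ph_sq, ph_sq] at h3
    nlinarith [sq_nonneg (x - y)]
  have h2 : ph y + dp y * (x - y) = (1 + x * y) / ph y := by
    unfold dp
    rw [eq_div_iff (by linarith), add_mul]
    have h3 : y / ph y * (x - y) * ph y = y * (x - y) := by
      field_simp
    rw [h3, ← sq, ph_sq]
    ring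
  rw [h2, div_le_iff₀ (by linarith)]
  exact h1

/-- second order upper bound -/
theorem ph_upper (x y : ℝ) : ph x ≤ ph y + dp y * (x - y) + (x - y) ^ 2 / 2 := by
  have hy := one_le_ph y
  have hx := one_le_ph x
  have h0 : 0 < 2 * ph y := by linarith
  have h1 : ph x ≤ (ph x ^ 2 + ph y ^ 2) / (2 * ph y) := by
    rw [le_div_iff₀ h0]
    nlinarith [sq_nonneg (ph x - ph y)]
  have h2 : (ph x ^ 2 + ph y ^ 2) / (2 * ph y) =
      ph y + dp y * (x - y) + (x - y) ^ 2 / (2 * ph y) := by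
    unfold dp
    rw [div_eq_iff h0.ne', add_mul, add_mul]
    have h3 : y / ph y * (x - y) * (2 * ph y) = 2 * (y * (x - y)) := by
      field_simp
    have h4 : (x - y) ^ 2 / (2 * ph y) * (2 * ph y) = (x - y) ^ 2 := by
      field_simp
    have h5 : ph y * (2 * ph y) = 2 * ph y ^ 2 := by ring
    rw [h3, h4, h5, ph_sq, ph_sq]
    ring
  have h3 : (x - y) ^ 2 / (2 * ph y) ≤ (x - y) ^ 2 / 2 :=
    div_le_div_of_nonneg_left (sq_nonneg _) (by norm_num) (by linarith)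
  rw [h2] at h1
  linarith

variable {α : Type} [DecidableEq α]

/-- generator of a smooth function of the number of real points -/
theorem gen_ph {Bl : Finset (Finset α)} (hL : Lin3 Bl) {s : St α} (hs : s.W ⊆ Bl) (r b c : ℝ) :
    gen Bl r (fun s' => ph (b * Q s' - c)) s ≤
      dp (b * Q s - c) * b * gen Bl r Q s + 3 / 2 * b ^ 2 * (-gen Bl r Q s) := by
  have hv1 : ∑ T ∈ s.W, ∑ f ∈ T \ s.B, (r * (1 + s.a f) - 1) *
      (ph (b * Q (virt s T) - c) - ph (b * Q s - c)) = 0 := by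
    refine sum_eq_zero fun T _ => sum_eq_zero fun f _ => ?_
    have h1 : Q (virt s T) = Q s := rfl
    rw [h1, _root_.sub_self, mul_zero]
  have hv2 : ∑ T ∈ s.W, ∑ f ∈ T \ s.B, (r * (1 + s.a f) - 1) * (Q (virt s T) - Q s) = 0 := by
    refine sum_eq_zero fun T _ => sum_eq_zero fun f _ => ?_
    have h1 : Q (virt s T) = Q s := rfl
    rw [h1, _root_.sub_self, mul_zero]
  have hn1 : ∑ T ∈ bl Bl s.A \ s.W, (ph (b * Q (nring s T) - c) - ph (b * Q s - c)) = 0 := by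
    refine sum_eq_zero fun T _ => ?_
    have h1 : Q (nring s T) = Q s := rfl
    rw [h1, _root_.sub_self]
  have hn2 : ∑ T ∈ bl Bl s.A \ s.W, (Q (nring s T) - Q s) = 0 := by
    refine sum_eq_zero fun T _ => ?_
    have h1 : Q (nring s T) = Q s := rfl
    rw [h1, _root_.sub_self]
  have e1 : gen Bl r (fun s' => ph (b * Q s' - c)) s =
      ∑ T ∈ s.W, (ph (b * Q (ring s T) - c) - ph (b * Q s - c)) := by
    unfold gen
    rw [hv1, hn1, add_zero, add_zero]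
  have e2 : gen Bl r Q s = ∑ T ∈ s.W, (Q (ring s T) - Q s) := by
    unfold gen
    rw [hv2, hn2, add_zero, add_zero]
  rw [e1, e2, ← sum_neg_distrib, mul_sum, mul_sum, ← sum_add_distrib]
  refine sum_le_sum fun T hT => ?_
  have h1 := ph_upper (b * Q (ring s T) - c) (b * Q s - c)
  have h2 : 0 ≤ Q s - Q (ring s T) ∧ Q s - Q (ring s T) ≤ 3 := by
    have h3 : (s.B \ T).card + (s.B ∩ T).card = s.B.card := card_sdiff_add_card_inter s.B T
    have h4 : (s.B ∩ T).card ≤ 3 := by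
      refine (card_le_card inter_subset_right).trans ?_
      rw [hL.card3 T (hs hT)]
    have h5 : ((s.B \ T).card : ℝ) + ((s.B ∩ T).card : ℝ) = (s.B.card : ℝ) := by
      exact_mod_cast h3
    have h6 : ((s.B ∩ T).card : ℝ) ≤ 3 := by exact_mod_cast h4
    have h7 : (0 : ℝ) ≤ ((s.B ∩ T).card : ℝ) := Nat.cast_nonneg _
    have h8 : Q (ring s T) = ((s.B \ T).card : ℝ) := rfl
    have h9 : Q s = (s.B.card : ℝ) := rfl
    rw [h8, h9]
    constructor <;> linarith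
  have h3 : (b * Q (ring s T) - c - (b * Q s - c)) ^ 2 ≤ 3 * (b ^ 2 * (Q s - Q (ring s T))) := by
    have h4 : (b * Q (ring s T) - c - (b * Q s - c)) ^ 2 =
        b ^ 2 * ((Q s - Q (ring s T)) * (Q s - Q (ring s T))) := by ring
    rw [h4]
    have h5 : (Q s - Q (ring s T)) * (Q s - Q (ring s T)) ≤ 3 * (Q s - Q (ring s T)) :=
      mul_le_mul_of_nonneg_right h2.2 h2.1
    have h6 := mul_le_mul_of_nonneg_left h5 (sq_nonneg b)
    linarith
  have h4 : dp (b * Q s - c) * (b * Q (ring s T) - c - (b * Q s - c)) =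
      dp (b * Q s - c) * b * (Q (ring s T) - Q s) := by ring
  rw [h4] at h1
  linarith

/-- one step of the first term -/
theorem ph_step {Bl : Finset (Finset α)} (hL : Lin3 Bl) {th a b m0 h c qm : ℝ} {s : St α}
    (hth : th ≤ 1) (hm0 : 0 < m0) (ha : m0 ≤ a) (hab : b ^ 2 = a ^ 2 + 2 * h) (hb : 0 < b)
    (hh : 0 < h) (hI : Inv Bl th (b ^ 2) s) (hq : Q s ≤ qm) :
    ph (b * Q s - c) + h * gen Bl (1 / b ^ 2) (fun s' => ph (b * Q s' - c)) s ≤
      ph (a * Q s - c) + h * (|∑ e ∈ s.B, xv (b ^ 2) s e| / b + 3 * Q s)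
        + qm / (2 * m0 ^ 3) * h ^ 2 := by
  have hb2 : 0 < b ^ 2 := by positivity
  have hu : b ^ 2 * (1 / b ^ 2) = 1 := by field_simp
  have hg := gen_Q hL hu (by positivity : 0 < 1 / b ^ 2) hI
  set X := ∑ e ∈ s.B, xv (b ^ 2) s e with hX
  have hQ0 := MC.Q_nonneg s
  have hXQ : |X| ≤ Q s := by
    refine (abs_sum_le_sum_abs _ _).trans ?_
    refine (sum_le_sum fun e _ => (hI.bd e).trans hth).trans ?_
    rw [sum_const, nsmul_eq_mul, mul_one]
    rfl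
  have hX1 := abs_le.mp hXQ
  have h1 := gen_ph hL hI.sub (1 / b ^ 2) b c
  have h2 := ph_lower (a * Q s - c) (b * Q s - c)
  set p := dp (b * Q s - c) with hp
  have hp1 : |p| ≤ 1 := abs_dp_le _
  have hp2 := abs_le.mp hp1
  rw [hg] at h1
  have h3 := mul_le_mul_of_nonneg_left h1 hh.le
  have e1 : h * (p * b * (-(1 / b ^ 2) * (Q s + X)) + 3 / 2 * b ^ 2 *
      (-(-(1 / b ^ 2) * (Q s + X)))) =
      -(h * p / b * (Q s + X)) + 3 / 2 * h * (Q s + X) := by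
    field_simp
  rw [e1] at h3
  -- the time step
  have hba : a ≤ b := by
    by_contra hcon
    push Not at hcon
    have : b ^ 2 < a ^ 2 := by
      apply sq_lt_sq' <;> linarith
    linarith
  have h4 : b - a ≤ h / m0 := by
    rw [le_div_iff₀ hm0]
    nlinarith
  have h5 : b - a - h / b = (b - a) ^ 2 / (2 * b) := by
    have h6 : h = (b ^ 2 - a ^ 2) / 2 := by linarith
    rw [h6]
    field_simp
    ring
  have h6 : (b - a) ^ 2 / (2 * b) ≤ h ^ 2 / (2 * m0 ^ 3) := by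
    have h7 : (b - a) ^ 2 ≤ (h / m0) ^ 2 := pow_le_pow_left₀ (by linarith) h4 2
    calc (b - a) ^ 2 / (2 * b) ≤ (h / m0) ^ 2 / (2 * b) :=
          div_le_div_of_nonneg_right h7 (by positivity)
      _ ≤ (h / m0) ^ 2 / (2 * m0) :=
          div_le_div_of_nonneg_left (by positivity) (by positivity) (by linarith)
      _ = h ^ 2 / (2 * m0 ^ 3) := by
          field_simp
  have h7 : 0 ≤ b - a - h / b := by rw [h5]; positivity
  have h8 : p * (b - a - h / b) * Q s ≤ qm / (2 * m0 ^ 3) * h ^ 2 := by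
    have h9 : p * (b - a - h / b) ≤ 1 * (b - a - h / b) := mul_le_mul_of_nonneg_right hp2.2 h7
    have h10 := mul_le_mul_of_nonneg_right h9 hQ0
    have h11 : 1 * (b - a - h / b) * Q s ≤ h ^ 2 / (2 * m0 ^ 3) * qm := by
      rw [one_mul]
      exact mul_le_mul (by rw [h5]; exact h6) hq hQ0 (by positivity)
    have h12 : h ^ 2 / (2 * m0 ^ 3) * qm = qm / (2 * m0 ^ 3) * h ^ 2 := by ring
    linarith
  have h9 : -(h * p / b * X) ≤ h * (|X| / b) := by
    have h10 : -(p * X) ≤ |X| := by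
      have h11 : |p * X| ≤ |X| := by
        rw [abs_mul]
        have := mul_le_mul_of_nonneg_right hp1 (abs_nonneg X)
        linarith
      linarith [neg_abs_le (p * X)]
    have h12 : h / b * (-(p * X)) ≤ h / b * |X| := mul_le_mul_of_nonneg_left h10 (by positivity)
    have h13 : -(h * p / b * X) = h / b * (-(p * X)) := by ring
    have h14 : h * (|X| / b) = h / b * |X| := by ring
    rw [h13, h14]
    exact h12
  have h10 : 3 / 2 * h * (Q s + X) ≤ 3 * h * Q s := by nlinarith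
  have h11 : -(h * p / b * (Q s + X)) = -(h * p / b * Q s) + -(h * p / b * X) := by ring
  have h12 : p * (b - a - h / b) * Q s = -(p * (a * Q s - c - (b * Q s - c))) - h * p / b * Q s := by
    ring
  rw [h11] at h3
  have h13 : h * (|X| / b + 3 * Q s) = h * (|X| / b) + 3 * h * Q s := by ring
  rw [h13]
  linarith

/-- the real inequality: the surplus of the middle phase pays for the first term -/
theorem pay {ep g b v q X S2 uK : ℝ} (h0 : 0 < ep) (h1 : ep ≤ 1 / 100) (hv : 0 < v)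
    (hvb : b ^ 2 = v) (hb : 0 < b) (hg : g = uK ^ (1 / 20 : ℝ)) (hvK : v ≤ uK) (hK1 : uK ≤ 1)
    (hK : uK ≤ (ep / 32) ^ (5 : ℝ)) (hq : 0 ≤ q)
    (hX : ∀ mu : ℝ, 0 < mu → 2 * |X| ≤ mu * q + S2 / mu) :
    |X| / b + 3 * q ≤ g * (1 / v * (ep / 8 * v ^ (1 / 2 + ep / 4 : ℝ) * q + S2 / 4)) := by
  have hK0 : 0 < uK := by linarith
  have hg0 : 0 < g := by rw [hg]; positivity
  have hg1 : g ≤ 1 := by rw [hg]; exact Real.rpow_le_one hK0.le hK1 (by norm_num)
  have h2 := hX (2 * b / g) (by positivity)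
  have h3 : |X| / b ≤ q / g + g * (1 / v * (S2 / 4)) := by
    rw [div_le_iff₀ hb]
    have h4 : (q / g + g * (1 / v * (S2 / 4))) * b = (2 * b / g * q + S2 / (2 * b / g)) / 2 := by
      rw [← hvb]
      field_simp
      ring
    rw [h4]
    linarith
  have h4 : (4 : ℝ) / g ≤ g * (ep / 8 * v ^ (-(1 / 2) + ep / 4 : ℝ)) := by
    rw [div_le_iff₀ hg0]
    have h5 : uK ^ (-(1 / 2) + ep / 4 : ℝ) ≤ v ^ (-(1 / 2) + ep / 4 : ℝ) :=
      Real.rpow_le_rpow_of_nonpos hv hvK (by linarith)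
    have h6 : g * g = uK ^ (1 / 10 : ℝ) := by
      rw [hg, ← Real.rpow_add hK0]
      norm_num
    have h7 : (32 : ℝ) / ep ≤ uK ^ (-(1 / 5) : ℝ) := by
      have h8 : ((ep / 32) ^ (5 : ℝ)) ^ (-(1 / 5) : ℝ) ≤ uK ^ (-(1 / 5) : ℝ) :=
        Real.rpow_le_rpow_of_nonpos hK0 hK (by norm_num)
      have h9 : ((ep / 32) ^ (5 : ℝ)) ^ (-(1 / 5) : ℝ) = 32 / ep := by
        rw [← Real.rpow_mul (by positivity)]
        have h10 : (5 : ℝ) * (-(1 / 5)) = -1 := by norm_num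
        rw [h10, Real.rpow_neg_one, inv_div]
      rwa [h9] at h8
    have h8 : uK ^ (-(1 / 5) : ℝ) ≤ uK ^ (1 / 10 : ℝ) * uK ^ (-(1 / 2) + ep / 4 : ℝ) := by
      rw [← Real.rpow_add hK0]
      exact Real.rpow_le_rpow_of_exponent_ge hK0 hK1 (by linarith)
    have h9 : uK ^ (1 / 10 : ℝ) * uK ^ (-(1 / 2) + ep / 4 : ℝ) ≤
        uK ^ (1 / 10 : ℝ) * v ^ (-(1 / 2) + ep / 4 : ℝ) :=
      mul_le_mul_of_nonneg_left h5 (by positivity)
    have h10 : g * (ep / 8 * v ^ (-(1 / 2) + ep / 4 : ℝ)) * g =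
        ep / 8 * (uK ^ (1 / 10 : ℝ) * v ^ (-(1 / 2) + ep / 4 : ℝ)) := by
      rw [← h6]
      ring
    rw [h10]
    have h11 : 32 / ep ≤ uK ^ (1 / 10 : ℝ) * v ^ (-(1 / 2) + ep / 4 : ℝ) :=
      (h7.trans h8).trans h9
    have h12 := mul_le_mul_of_nonneg_left h11 (by positivity : 0 ≤ ep / 8)
    have h13 : ep / 8 * (32 / ep) = 4 := by
      field_simp
      norm_num
    linarith
  have h5 : 1 / v * v ^ (1 / 2 + ep / 4 : ℝ) = v ^ (-(1 / 2) + ep / 4 : ℝ) := by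
    have h6 : 1 / v = v ^ (-1 : ℝ) := by rw [Real.rpow_neg_one, one_div]
    rw [h6, ← Real.rpow_add hv]
    congr 1
    ring
  have h6 : q / g + 3 * q ≤ 4 / g * q := by
    have h7 : 1 ≤ 1 / g := by
      rw [le_div_iff₀ hg0]
      linarith
    have h8 : 4 / g * q = q / g + 3 * (1 / g * q) := by ring
    rw [h8]
    have := mul_le_mul_of_nonneg_right h7 hq
    linarith
  have h7 := mul_le_mul_of_nonneg_right h4 hq
  have h8 : g * (1 / v * (ep / 8 * v ^ (1 / 2 + ep / 4 : ℝ) * q + S2 / 4)) =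
      g * (ep / 8 * v ^ (-(1 / 2) + ep / 4 : ℝ)) * q + g * (1 / v * (S2 / 4)) := by
    rw [← h5]
    ring
  rw [h8]
  linarith

end DCore

open DCore in
/-- [DCORE], from the strong form of the middle phase -/
theorem d_core_of (ep : ℝ) (h0 : 0 < ep) (h1 : ep ≤ 1 / 100) (HM : MidStrong ep) :
    ∃ u1 : ℝ, 0 < u1 ∧ u1 ≤ 1 / 100 ∧
    ∀ (α : Type) [DecidableEq α] (Bl : Finset (Finset α)) (C6 C8 : Finset (Finset (Finset α))),
    Sys Bl C6 C8 → ∀ (umin uK c : ℝ) (A₀ : Finset α), 0 < umin → uK ≤ u1 →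
    ∃ E h1 : ℝ, 0 ≤ E ∧ 0 < h1 ∧
    ∀ h u : ℝ, 0 < h → h ≤ h1 → umin ≤ u → u + 2 * h ≤ uK → ∀ s : St α, s.B ⊆ A₀ → s.A ⊆ A₀ →
      Inv Bl (2 * t0 ep) (u + 2 * h) s →
      PsiD ep c uK Bl C6 C8 (u + 2 * h) s
        + h * gen Bl (1 / (u + 2 * h)) (fun s' => PsiD ep c uK Bl C6 C8 (u + 2 * h) s') s
        ≤ PsiD ep c uK Bl C6 C8 u s + E * h ^ 2 := by
  obtain ⟨u1, hu1, hu1', H⟩ := HM
  refine ⟨min u1 ((ep / 32) ^ (5 : ℝ)), lt_min hu1 (by positivity),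
    (min_le_left _ _).trans hu1', ?_⟩
  intro α _ Bl C6 C8 hS umin uK c A₀ hum huK
  obtain ⟨E, hh1, hE, hh1p, HH⟩ := H α Bl C6 C8 hS umin A₀ hum
  have hm0 : 0 < umin ^ (1 / 2 : ℝ) := by positivity
  refine ⟨(A₀.card : ℝ) / (2 * (umin ^ (1 / 2 : ℝ)) ^ 3) + E, hh1, by positivity, hh1p, ?_⟩
  intro h u hh hhle hu huv s hB hA hI
  have hu0 : 0 < u := by linarith
  have hv0 : 0 < u + 2 * h := by linarith
  have hK0 : 0 < uK := by linarith
  have hK1 : uK ≤ 1 := by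
    have := huK.trans (min_le_left _ _)
    linarith
  have hK2 : uK ≤ (ep / 32) ^ (5 : ℝ) := huK.trans (min_le_right _ _)
  have hvu1 : u + 2 * h ≤ u1 := huv.trans (huK.trans (min_le_left _ _))
  have key := HH h u hh hhle hu hvu1 s hB hA hI
  have sq1 : ∀ x : ℝ, 0 ≤ x → (x ^ (1 / 2 : ℝ)) ^ 2 = x := by
    intro x hx
    rw [← Real.sqrt_eq_rpow, Real.sq_sqrt hx]
  set a := u ^ (1 / 2 : ℝ) with ha
  set b := (u + 2 * h) ^ (1 / 2 : ℝ) with hb
  have ha2 : a ^ 2 = u := sq1 u hu0.le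
  have hb2 : b ^ 2 = u + 2 * h := sq1 _ hv0.le
  have hb0 : 0 < b := by positivity
  have hma : umin ^ (1 / 2 : ℝ) ≤ a := Real.rpow_le_rpow hum.le hu (by norm_num)
  have ht : 2 * t0 ep ≤ 1 := by
    unfold t0
    nlinarith
  have k1 := ph_step (h := h) (c := c) hS.lin ht hm0 hma (by rw [ha2, hb2]) hb0 hh
    (by rw [hb2]; exact hI) (MC.Q_le hB)
  rw [hb2] at k1
  have k2 := pay (g := uK ^ (1 / 20 : ℝ)) h0 h1 hv0 hb2 hb0 rfl huv hK1 hK2 (MC.Q_nonneg s)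
    (MC.X1_bound (u + 2 * h) s)
  have hg0 : 0 < uK ^ (1 / 20 : ℝ) := by positivity
  have hg1 : uK ^ (1 / 20 : ℝ) ≤ 1 := Real.rpow_le_one hK0.le hK1 (by norm_num)
  have k3 := mul_le_mul_of_nonneg_left key hg0.le
  have e1 : gen Bl (1 / (u + 2 * h)) (fun s' => PsiD ep c uK Bl C6 C8 (u + 2 * h) s') s =
      gen Bl (1 / (u + 2 * h)) (fun s' => ph (b * Q s' - c)) s + uK ^ (1 / 20 : ℝ) *
        gen Bl (1 / (u + 2 * h)) (fun s' => PsiM ep Bl C6 C8 (u + 2 * h) s') s := by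
    rw [← MC.g_smul, ← MC.g_add]
    rfl
  have e2 : ∀ (x : ℝ) (s' : St α), PsiD ep c uK Bl C6 C8 x s' =
      ph (x ^ (1 / 2 : ℝ) * Q s' - c) + uK ^ (1 / 20 : ℝ) * PsiM ep Bl C6 C8 x s' :=
    fun _ _ => rfl
  rw [e1, e2, e2, ← ha, ← hb]
  have k4 := mul_le_mul_of_nonneg_left k2 hh.le
  have k5 : uK ^ (1 / 20 : ℝ) * (E * h ^ 2) ≤ E * h ^ 2 := by
    have : 0 ≤ E * h ^ 2 := by positivity
    nlinarith
  have k6 : uK ^ (1 / 20 : ℝ) * (PsiM ep Bl C6 C8 u s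
          - h / (u + 2 * h) * (ep / 8 * (u + 2 * h) ^ (1 / 2 + ep / 4 : ℝ) * Q s
            + S 2 (u + 2 * h) s / 4) + E * h ^ 2) =
      uK ^ (1 / 20 : ℝ) * PsiM ep Bl C6 C8 u s
        - h * (uK ^ (1 / 20 : ℝ) * (1 / (u + 2 * h) * (ep / 8 *
          (u + 2 * h) ^ (1 / 2 + ep / 4 : ℝ) * Q s + S 2 (u + 2 * h) s / 4)))
        + uK ^ (1 / 20 : ℝ) * (E * h ^ 2) := by
    ring
  rw [k6] at k3
  have k7 : uK ^ (1 / 20 : ℝ) * (PsiM ep Bl C6 C8 (u + 2 * h) s + h * gen Bl (1 / (u + 2 * h))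
      (fun s' => PsiM ep Bl C6 C8 (u + 2 * h) s') s) =
      uK ^ (1 / 20 : ℝ) * PsiM ep Bl C6 C8 (u + 2 * h) s + h * (uK ^ (1 / 20 : ℝ) *
        gen Bl (1 / (u + 2 * h)) (fun s' => PsiM ep Bl C6 C8 (u + 2 * h) s') s) := by ring
  rw [k7] at k3
  have k8 : ((A₀.card : ℝ) / (2 * (umin ^ (1 / 2 : ℝ)) ^ 3) + E) * h ^ 2 =
      (A₀.card : ℝ) / (2 * (umin ^ (1 / 2 : ℝ)) ^ 3) * h ^ 2 + E * h ^ 2 := by ring
  rw [k8, mul_add h]
  linarith

end

end Vale.Agent.P046.NL
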