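import Vale.Agent.P046.NL.ST2S
import Vale.Agent.P046.NL.DCoreOf

/-! P046: concentration of the number of points in the second stage: the functional
`sqrt (1 + (u ^ (1/2) * Q - c) ^ 2) + kap * PsiS` -/

namespace Vale.Agent.P046.NL

open Finset Vale.Agent.P046

noncomputable section

variable {α : Type} [DecidableEq α]

/-- concentration functional of the second stage: `u ^ (1/2) * Q` stays near `c` -/
def PsiDS (ep t dl uK c kap : ℝ) (Bl : Finset (Finset α)) (C6 C8 : Finset (Finset (Finset α)))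
    (u : ℝ) (s : St α) : ℝ :=
  Real.sqrt (1 + (u ^ (1 / 2 : ℝ) * Q s - c) ^ 2) + kap * PsiS ep t dl uK Bl C6 C8 u s

namespace DS

/-- the dissipation of the second stage pays for the first term -/
theorem pay {ep kap K1 G b v q X S2 : ℝ} (h0 : 0 < ep) (h1 : ep ≤ 1 / 100) (hv : 0 < v)
    (hv1 : v ≤ 1) (hvb : b = v ^ (1 / 2 : ℝ)) (hG : G = kap * K1) (hG0 : 0 < G)
    (hGv : v ^ (1 / 5 : ℝ) ≤ G ^ 2) (hq : 0 ≤ q) (hS : 0 ≤ S2)
    (hX : ∀ mu : ℝ, 0 < mu → 2 * |X| ≤ mu * q + S2 / mu) :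
    |X| / b + 3 * q ≤ kap * (1 / v * (4 * 10 ^ 8 / ep * (K1 * v ^ (7 / 10 : ℝ) / 20 * q
      + K1 * v ^ (1 / 10 : ℝ) / 4 * S2))) := by
  obtain ⟨w, hw⟩ : ∃ w : ℝ, w = v ^ (1 / 10 : ℝ) := ⟨_, rfl⟩
  have hw0 : 0 < w := by rw [hw]; positivity
  have hw1 : w ≤ 1 := by rw [hw]; exact Real.rpow_le_one hv.le hv1 (by norm_num)
  have pw : ∀ k : ℕ, v ^ ((k : ℝ) / 10 : ℝ) = w ^ k := by
    intro k
    rw [hw, ← Real.rpow_natCast, ← Real.rpow_mul hv.le]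
    congr 1
    ring
  have e5 : v ^ (1 / 2 : ℝ) = w ^ 5 := by rw [← pw 5]; norm_num
  have e7 : v ^ (7 / 10 : ℝ) = w ^ 7 := by rw [← pw 7]; norm_num
  have e2 : v ^ (1 / 5 : ℝ) = w ^ 2 := by rw [← pw 2]; norm_num
  have e10 : v = w ^ 10 := by rw [← pw 10]; norm_num
  have eb : b = w ^ 5 := by rw [hvb, e5]
  have hGw : w ≤ G := by
    rw [e2] at hGv
    exact (abs_le_of_sq_le_sq' hGv hG0.le).2
  have h2 := hX (w ^ 4 / G) (by positivity)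
  have hb0 : 0 < b := by rw [eb]; positivity
  -- |X| / b
  have h3 : |X| / b ≤ G / w ^ 3 * q + G / w ^ 9 * S2 := by
    rw [div_le_iff₀ hb0, eb]
    have e1 : (G / w ^ 3 * q + G / w ^ 9 * S2) * w ^ 5 = G * w ^ 2 * q + G / w ^ 4 * S2 := by
      field_simp
    have e3 : S2 / (w ^ 4 / G) = G / w ^ 4 * S2 := by field_simp
    rw [e1]
    rw [e3] at h2
    have h4 : w ^ 4 / G ≤ G * w ^ 2 := by
      rw [div_le_iff₀ hG0]
      have h5 : w ^ 2 ≤ G ^ 2 := pow_le_pow_left₀ hw0.le hGw 2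
      have h6 := mul_le_mul_of_nonneg_left h5 (sq_nonneg w)
      calc w ^ 4 = w ^ 2 * w ^ 2 := by ring
        _ ≤ w ^ 2 * G ^ 2 := h6
        _ = G * w ^ 2 * G := by ring
    have h5 := mul_le_mul_of_nonneg_right h4 hq
    have h6 : 0 ≤ G / w ^ 4 * S2 := by positivity
    have h7 : 0 ≤ G * w ^ 2 * q := by positivity
    linarith
  have h4 : 3 * q ≤ 3 * (G / w ^ 3) * q := by
    have h5 : 1 ≤ G / w ^ 3 := by
      rw [le_div_iff₀ (by positivity), one_mul]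
      have h6 : w ^ 3 ≤ w := by
        calc w ^ 3 = w * w ^ 2 := by ring
          _ ≤ w * 1 := mul_le_mul_of_nonneg_left (pow_le_one₀ hw0.le hw1) hw0.le
          _ = w := mul_one w
      linarith
    have := mul_le_mul_of_nonneg_right h5 hq
    linarith
  have h5 : kap * (1 / v * (4 * 10 ^ 8 / ep * (K1 * v ^ (7 / 10 : ℝ) / 20 * q
      + K1 * v ^ (1 / 10 : ℝ) / 4 * S2))) =
      2 * 10 ^ 7 / ep * (G / w ^ 3 * q) + 10 ^ 8 / ep * (G / w ^ 9 * S2) := by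
    rw [← hw, e7, hG]
    nth_rewrite 1 [e10]
    field_simp
    ring
  rw [h5]
  have h6 : (2 * 10 ^ 9 : ℝ) ≤ 2 * 10 ^ 7 / ep := by
    rw [le_div_iff₀ h0]; linarith
  have h7 : (10 ^ 10 : ℝ) ≤ 10 ^ 8 / ep := by
    rw [le_div_iff₀ h0]; linarith
  have h8 : 0 ≤ G / w ^ 3 * q := by positivity
  have h9 : 0 ≤ G / w ^ 9 * S2 := by positivity
  have h10 := mul_le_mul_of_nonneg_right h6 h8
  have h11 := mul_le_mul_of_nonneg_right h7 h9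
  linarith

end DS

open DCore in
/-- [DS] one core step of the concentration functional of the second stage -/
theorem ds_core (ep t dl : ℝ) (h0 : 0 < ep) (h1 : ep ≤ 1 / 100) (ht0 : 0 < t)
    (ht : t ≤ ep ^ 2 / 5000) (hd1 : ep / 8 ≤ dl) (hd2 : dl ≤ ep / 2) :
    ∃ u1 : ℝ, 0 < u1 ∧ u1 ≤ 1 / 100 ∧
    ∀ (α : Type) [DecidableEq α] (Bl : Finset (Finset α)) (C6 C8 : Finset (Finset (Finset α))),
    Sys Bl C6 C8 → ∀ (umin uE uK c kap : ℝ) (A₀ : Finset α), 0 < umin → uE ≤ uK → uK ≤ u1 →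
    0 < kap → uE ^ (1 / 5 : ℝ) ≤ (kap * uK ^ (1 - ep : ℝ)) ^ 2 →
    ∃ E h1 : ℝ, 0 ≤ E ∧ 0 < h1 ∧
    ∀ h u : ℝ, 0 < h → h ≤ h1 → umin ≤ u → u + 2 * h ≤ uE → ∀ s : St α, s.B ⊆ A₀ → s.A ⊆ A₀ →
      Inv Bl (2 * t) (u + 2 * h) s →
      PsiDS ep t dl uK c kap Bl C6 C8 (u + 2 * h) s
        + h * gen Bl (1 / (u + 2 * h))
            (fun s' => PsiDS ep t dl uK c kap Bl C6 C8 (u + 2 * h) s') s
        ≤ PsiDS ep t dl uK c kap Bl C6 C8 u s + E * h ^ 2 := by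
  obtain ⟨u1, hu1, hu1', H⟩ := st2_core_strong ep t dl h0 h1 ht0 ht hd1 hd2
  refine ⟨u1, hu1, hu1', ?_⟩
  intro α _ Bl C6 C8 hS umin uE uK c kap A₀ hum hEK huK hkap hcond
  obtain ⟨E, hh1, hE, hh1p, HH⟩ := H α Bl C6 C8 hS umin uK A₀ hum huK
  have hm0 : 0 < umin ^ (1 / 2 : ℝ) := by positivity
  refine ⟨(A₀.card : ℝ) / (2 * (umin ^ (1 / 2 : ℝ)) ^ 3) + kap * E, hh1, by positivity, hh1p, ?_⟩
  intro h u hh hhle hu huv s hB hA hI
  have hu0 : 0 < u := by linarith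
  have hv0 : 0 < u + 2 * h := by linarith
  have hE0 : 0 < uE := by linarith
  have hK0 : 0 < uK := by linarith
  have hv1 : u + 2 * h ≤ 1 := by linarith
  have key := HH h u hh hhle hu (huv.trans hEK) s hB hA hI
  have sq1 : ∀ x : ℝ, 0 ≤ x → (x ^ (1 / 2 : ℝ)) ^ 2 = x := by
    intro x hx
    rw [← Real.sqrt_eq_rpow, Real.sq_sqrt hx]
  set a := u ^ (1 / 2 : ℝ) with ha
  set b := (u + 2 * h) ^ (1 / 2 : ℝ) with hb
  have ha2 : a ^ 2 = u := sq1 u hu0.le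
  have hb2 : b ^ 2 = u + 2 * h := sq1 _ hv0.le
  have hb0 : 0 < b := by positivity
  have hma : umin ^ (1 / 2 : ℝ) ≤ a := Real.rpow_le_rpow hum.le hu (by norm_num)
  have ht1 : 2 * t ≤ 1 := by nlinarith
  have k1 := ph_step (h := h) (c := c) hS.lin ht1 hm0 hma (by rw [ha2, hb2]) hb0 hh
    (by rw [hb2]; exact hI) (MC.Q_le hB)
  rw [hb2] at k1
  have hG0 : 0 < kap * uK ^ (1 - ep : ℝ) := by positivity
  have hGv : (u + 2 * h) ^ (1 / 5 : ℝ) ≤ (kap * uK ^ (1 - ep : ℝ)) ^ 2 :=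
    (Real.rpow_le_rpow hv0.le huv (by norm_num)).trans hcond
  have k2 := DS.pay (kap := kap) (K1 := uK ^ (1 - ep : ℝ)) h0 h1 hv0 hv1 hb rfl hG0 hGv
    (MC.Q_nonneg s) (MC.S_nonneg (k := 2) (by decide) (u + 2 * h) s)
    (MC.X1_bound (u + 2 * h) s)
  have k3 := mul_le_mul_of_nonneg_left key hkap.le
  have e1 : gen Bl (1 / (u + 2 * h)) (fun s' => PsiDS ep t dl uK c kap Bl C6 C8 (u + 2 * h) s') s =
      gen Bl (1 / (u + 2 * h)) (fun s' => ph (b * Q s' - c)) s + kap *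
        gen Bl (1 / (u + 2 * h)) (fun s' => PsiS ep t dl uK Bl C6 C8 (u + 2 * h) s') s := by
    rw [← MC.g_smul, ← MC.g_add]
    rfl
  have e2 : ∀ (x : ℝ) (s' : St α), PsiDS ep t dl uK c kap Bl C6 C8 x s' =
      ph (x ^ (1 / 2 : ℝ) * Q s' - c) + kap * PsiS ep t dl uK Bl C6 C8 x s' :=
    fun _ _ => rfl
  rw [e1, e2, e2, ← ha, ← hb]
  have k4 := mul_le_mul_of_nonneg_left k2 hh.le
  obtain ⟨D, hD⟩ : ∃ D : ℝ, D = 4 * 10 ^ 8 / ep * (uK ^ (1 - ep : ℝ) * (u + 2 * h) ^ (7 / 10 : ℝ)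
      / 20 * Q s + uK ^ (1 - ep : ℝ) * (u + 2 * h) ^ (1 / 10 : ℝ) / 4 * S 2 (u + 2 * h) s) :=
    ⟨_, rfl⟩
  rw [← hD] at k3 k4
  have k6 : kap * (PsiS ep t dl uK Bl C6 C8 u s - h / (u + 2 * h) * D + E * h ^ 2) =
      kap * PsiS ep t dl uK Bl C6 C8 u s - h * (kap * (1 / (u + 2 * h) * D))
        + kap * E * h ^ 2 := by
    ring
  rw [k6] at k3
  have k8 : ((A₀.card : ℝ) / (2 * (umin ^ (1 / 2 : ℝ)) ^ 3) + kap * E) * h ^ 2 =
      (A₀.card : ℝ) / (2 * (umin ^ (1 / 2 : ℝ)) ^ 3) * h ^ 2 + kap * E * h ^ 2 := by ring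
  rw [k8]
  linarith

end

end Vale.Agent.P046.NL
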