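import Vale.Agent.P046.NL.Defs3
import Vale.Agent.P046.NL.FIX

/-!
P046, no-log: row [FIXM], the detachments in the middle phase.
-/

namespace Vale.Agent.P046.NL

open Finset Vale.Agent.P046

noncomputable section

theorem FIXM.t0_pos {ep : ℝ} (h0 : 0 < ep) : 0 < t0 ep := by
  unfold t0
  positivity

theorem FIXM.t0_le {ep : ℝ} (h0 : 0 < ep) (h1 : ep ≤ 1 / 100) : t0 ep ≤ 1 / 10000 := by
  unfold t0
  nlinarith

/-- [FIXM] -/
theorem fix_mid (ep : ℝ) (h0 : 0 < ep) (h1 : ep ≤ 1 / 100) : ∃ u1 : ℝ, 0 < u1 ∧ u1 ≤ 1 / 100 ∧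
    ∀ (α : Type) [DecidableEq α] (Bl : Finset (Finset α)) (C6 C8 : Finset (Finset (Finset α))),
    Sys Bl C6 C8 → ∀ u, 0 < u → u ≤ u1 → ∀ s, Inv Bl (2 * t0 ep) u s →
      PsiM ep Bl C6 C8 u (fixs (t0 ep) u s) ≤ PsiM ep Bl C6 C8 u s := by
  have ht := FIXM.t0_pos h0
  have ht1 := FIXM.t0_le h0 h1
  have hk : 0 < 250 * t0 ep ^ 4 / ep := by positivity
  refine ⟨min (1 / 100) ((250 * t0 ep ^ 4 / ep) ^ (2 / ep)), by positivity, min_le_left _ _, ?_⟩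
  intro α _ Bl C6 C8 hS u hu hu1 s hI
  have hu2 : u ≤ 1 / 100 := hu1.trans (min_le_left _ _)
  have hu3 : u ≤ (250 * t0 ep ^ 4 / ep) ^ (2 / ep) := hu1.trans (min_le_right _ _)
  have hur : u * (1 / u) = 1 := by field_simp
  have hr : 100 ≤ 1 / u := by
    rw [le_div_iff₀ hu]
    linarith
  obtain ⟨m, hm, hQ, hS2, hS4, hSb, hV, hN6, hPh, -⟩ := fix_all hS.lin hur hr (t0 ep) ht.le
    (by linarith) (by linarith) hI (ep / 4) (by positivity) C6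
  obtain ⟨-, -, -, -, -, -, -, hN8, -, -⟩ := fix_all hS.lin hur hr (t0 ep) ht.le
    (by linarith) (by linarith) hI (ep / 4) (by positivity) C8
  have e1 : u ^ (1 / 2 + ep / 4 : ℝ) ≤ u ^ (1 / 2 : ℝ) :=
    Real.rpow_le_rpow_of_exponent_ge hu (by linarith) (by linarith)
  have e2 : u ^ (ep / 2 : ℝ) ≤ 250 * t0 ep ^ 4 / ep := by
    calc u ^ (ep / 2 : ℝ) ≤ ((250 * t0 ep ^ 4 / ep) ^ (2 / ep)) ^ (ep / 2 : ℝ) :=
          Real.rpow_le_rpow hu.le hu3 (by positivity)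
      _ = 250 * t0 ep ^ 4 / ep := by
          rw [← Real.rpow_mul hk.le]
          have : 2 / ep * (ep / 2) = 1 := by field_simp
          rw [this, Real.rpow_one]
  have e3 : u ^ (-(1 / 2 + ep / 2) : ℝ) = u ^ (-(1 / 2 + ep) : ℝ) * u ^ (ep / 2 : ℝ) := by
    rw [← Real.rpow_add hu]
    congr 1
    ring
  have hA3 : 0 < u ^ (-(1 / 2 + ep) : ℝ) := by positivity
  have hA4 : 0 < u ^ (-(1 / 2 + ep / 2) : ℝ) := by positivity
  have e4 : 2 * u ^ (-(1 / 2 + ep / 2) : ℝ) ≤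
      u ^ (-(1 / 2 + ep) : ℝ) * (500 * t0 ep ^ 4 / ep) := by
    rw [e3]
    have := mul_le_mul_of_nonneg_left e2 hA3.le
    calc 2 * (u ^ (-(1 / 2 + ep) : ℝ) * u ^ (ep / 2 : ℝ))
        ≤ 2 * (u ^ (-(1 / 2 + ep) : ℝ) * (250 * t0 ep ^ 4 / ep)) := by linarith
      _ = _ := by ring
  unfold PsiM
  rw [hQ, hN6, hN8]
  generalize u ^ (1 / 2 : ℝ) = A1 at *
  generalize u ^ (1 / 2 + ep / 4 : ℝ) = A2 at *
  generalize u ^ (-(1 / 2 + ep) : ℝ) = A3 at *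
  generalize u ^ (-(1 / 2 + ep / 2) : ℝ) = A4 at *
  -- the bracket
  have b1 : u * V (fixs (t0 ep) u s) ≤ u * V s + (1 + 2 * t0 ep) * m := by
    have := mul_le_mul_of_nonneg_left hV hu.le
    calc u * V (fixs (t0 ep) u s) ≤ u * (V s + (1 + 2 * t0 ep) * (1 / u) * m) := this
      _ = u * V s + (1 + 2 * t0 ep) * m := by field_simp
  have b2 : Sb u (fixs (t0 ep) u s) + 1000 / ep * S 4 u (fixs (t0 ep) u s)
      + 400 * t0 ep ^ 4 / ep * (u * V (fixs (t0 ep) u s)) ≤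
      (Sb u s + 1000 / ep * S 4 u s + 400 * t0 ep ^ 4 / ep * (u * V s))
        - (500 * t0 ep ^ 4 / ep) * m := by
    have c1 : 1000 / ep * S 4 u (fixs (t0 ep) u s) ≤ 1000 / ep * (S 4 u s - t0 ep ^ 4 * m) :=
      mul_le_mul_of_nonneg_left hS4 (by positivity)
    have c2 : 400 * t0 ep ^ 4 / ep * (u * V (fixs (t0 ep) u s)) ≤
        400 * t0 ep ^ 4 / ep * (u * V s + (1 + 2 * t0 ep) * m) :=
      mul_le_mul_of_nonneg_left b1 (by positivity)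
    have c3 : 0 ≤ t0 ep ^ 4 / ep * m := by positivity
    have c4 : 400 * (1 + 2 * t0 ep) * (t0 ep ^ 4 / ep * m) ≤ 500 * (t0 ep ^ 4 / ep * m) :=
      mul_le_mul_of_nonneg_right (by linarith) c3
    have c5 : 1000 / ep * (S 4 u s - t0 ep ^ 4 * m) =
        1000 / ep * S 4 u s - 1000 * (t0 ep ^ 4 / ep * m) := by ring
    have c6 : 400 * t0 ep ^ 4 / ep * (u * V s + (1 + 2 * t0 ep) * m) =
        400 * t0 ep ^ 4 / ep * (u * V s) + 400 * (1 + 2 * t0 ep) * (t0 ep ^ 4 / ep * m) := by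
      ring
    have c7 : 500 * t0 ep ^ 4 / ep * m = 500 * (t0 ep ^ 4 / ep * m) := by ring
    rw [c5] at c1
    rw [c6] at c2
    rw [c7]
    linarith
  have b3 := mul_le_mul_of_nonneg_left b2 hA3.le
  have b4 : A4 * Ph Bl (ep / 4) u (fixs (t0 ep) u s) ≤ A4 * (Ph Bl (ep / 4) u s + 2 * m) :=
    mul_le_mul_of_nonneg_left hPh hA4.le
  have b5 := mul_le_mul_of_nonneg_right e4 hm
  have b6 := mul_le_mul_of_nonneg_right e1 hm
  have b7 : A3 * ((Sb u s + 1000 / ep * S 4 u s + 400 * t0 ep ^ 4 / ep * (u * V s))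
        - (500 * t0 ep ^ 4 / ep) * m) =
      A3 * (Sb u s + 1000 / ep * S 4 u s + 400 * t0 ep ^ 4 / ep * (u * V s))
        - A3 * (500 * t0 ep ^ 4 / ep) * m := by ring
  rw [b7] at b3
  have b8 : A4 * (Ph Bl (ep / 4) u s + 2 * m) = A4 * Ph Bl (ep / 4) u s + 2 * A4 * m := by ring
  rw [b8] at b4
  have b9 : A1 * (Q s - m) = A1 * Q s - A1 * m := by ring
  have b10 : A2 * (Q s - m) = A2 * Q s - A2 * m := by ring
  rw [b9, b10]
  linarith

end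

end Vale.Agent.P046.NL
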