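import Vale.Agent.P046.NL.DOM

/-!
P046, removal of the logarithm: row PRE.
-/

namespace Vale.Agent.P046.NL

open Finset Vale.Agent.P046

noncomputable section

variable {α : Type} [DecidableEq α]

variable {Bl : Finset (Finset α)} {th u : ℝ} {s : St α}

/-- [PRE] the state after an event (before the detachment) satisfies the invariants with `th` at
the new time -/
theorem pre (hL : Lin3 Bl) {th0 h : ℝ} (h0 : 0 < th0) (hth : th = 2 * th0) (hth1 : th ≤ 1 / 10)
    (hu : 0 < u) (hh : 0 < h) (hhu : h ≤ u * th0 / 100) (hu1 : 10 * u ≤ th0)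
    (hG : GS Bl th0 th u s) :
    Inv Bl th (u + 2 * h) s ∧ (∀ T ∈ s.W, Inv Bl th (u + 2 * h) (ring s T)) ∧
      (∀ T ∈ s.W, (T \ s.B).Nonempty → Inv Bl th (u + 2 * h) (virt s T)) ∧
      (∀ T ∈ bl Bl s.A \ s.W, Inv Bl th (u + 2 * h) (nring s T)) := by
  have h1 : 0 < u * th0 := by positivity
  have h2 : th0 ≤ 1 / 20 := by linarith
  have h3 : u * th0 ≤ u * (1 / 20) := mul_le_mul_of_nonneg_left h2 hu.le
  have c1 : 2 * h * (1 + th0) ≤ (th - th0) * u := by
    rw [hth]
    have h4 : 2 * h * (1 + th0) ≤ 2 * (u * th0 / 100) * (1 + th0) :=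
      mul_le_mul_of_nonneg_right (by linarith) (by linarith)
    have h5 : 2 * (u * th0 / 100) * (1 + th0) ≤ 2 * (u * th0 / 100) * 2 :=
      mul_le_mul_of_nonneg_left (by linarith) (by positivity)
    linarith
  have c2 : 3 * (u + 2 * h) ≤ th - th0 := by
    rw [hth]
    linarith
  exact ⟨inv_time hG hh.le hu c1 c2, fun T hT => inv_ring hL hG hh.le hu c1 c2 hT,
    fun T _ hT' => inv_virt hG hh.le hu c1 c2 hT', fun T _ => inv_nring hG hh.le hu c1 c2 T⟩

end

end Vale.Agent.P046.NL
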