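import Vale.Agent.P046.NL.ITER
import Vale.Agent.P046.NL.FIXM
import Vale.Agent.P046.NL.PRE

/-!
P046, removal of the logarithm: row MIDTHM (the middle phase, from the time step `mid_core` and
the detachments `fix_mid`).
-/

namespace Vale.Agent.P046.NL

open Finset Vale.Agent.P046

noncomputable section

variable {α : Type} [DecidableEq α]

namespace MidThm

theorem one_le_wt {dl : ℝ} (hdl : 0 < dl) (y : ℝ) : 1 ≤ wt dl y := by
  unfold wt
  have h : 0 ≤ 1 / (2 * dl) * (max (y - 1 - dl / 2) 0) ^ 2 := by positivity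
  linarith

theorem Ph_nonneg (Bl : Finset (Finset α)) {dl : ℝ} (hdl : 0 < dl) (u : ℝ) (s : St α) :
    0 ≤ Ph Bl dl u s := by
  unfold Ph
  have h1 : 0 ≤ ∑ e ∈ (s.A \ s.B) \ s.Z, wt dl (u * gd Bl s e) :=
    sum_nonneg fun e _ => zero_le_one.trans (one_le_wt hdl _)
  positivity

theorem card_A_le (Bl : Finset (Finset α)) {dl : ℝ} (hdl : 0 < dl) (u : ℝ) (s : St α) :
    (s.A.card : ℝ) ≤ Q s + Ph Bl dl u s := by
  have h1 : s.A ⊆ ((s.A \ s.B) \ s.Z ∪ s.B) ∪ (s.Z ∩ s.A) := by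
    intro x hx
    simp only [mem_union, mem_sdiff, mem_inter]
    tauto
  have h2 : s.A.card ≤ ((s.A \ s.B) \ s.Z).card + s.B.card + (s.Z ∩ s.A).card :=
    (card_le_card h1).trans ((card_union_le _ _).trans
      (Nat.add_le_add_right (card_union_le _ _) _))
  have h3 : (s.A.card : ℝ) ≤ (((s.A \ s.B) \ s.Z).card : ℝ) + (s.B.card : ℝ)
      + ((s.Z ∩ s.A).card : ℝ) := by exact_mod_cast h2
  have h4 : (((s.A \ s.B) \ s.Z).card : ℝ) ≤ ∑ e ∈ (s.A \ s.B) \ s.Z, wt dl (u * gd Bl s e) := by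
    have h5 : ∑ _e ∈ (s.A \ s.B) \ s.Z, (1 : ℝ) ≤
        ∑ e ∈ (s.A \ s.B) \ s.Z, wt dl (u * gd Bl s e) :=
      sum_le_sum fun e _ => one_le_wt hdl _
    rwa [sum_const, nsmul_eq_mul, mul_one] at h5
  have h5 : (0 : ℝ) ≤ ((s.B \ s.A).card : ℝ) := Nat.cast_nonneg _
  have h6 : (0 : ℝ) ≤ ((s.Z ∩ s.A).card : ℝ) := Nat.cast_nonneg _
  unfold Q Ph
  linarith

theorem S_nonneg {k : ℕ} (hk : Even k) (u : ℝ) (s : St α) : 0 ≤ S k u s :=
  sum_nonneg fun _ _ => hk.pow_nonneg _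

theorem V_nonneg (s : St α) : 0 ≤ V s := sum_nonneg fun _ _ => Nat.cast_nonneg _

theorem Sb_nonneg (u : ℝ) (s : St α) : 0 ≤ Sb u s := sum_nonneg fun _ _ => sq_nonneg _

/-- lower bound of the functional -/
theorem psiM_lower {ep : ℝ} (h0 : 0 < ep) (Bl : Finset (Finset α))
    (C6 C8 : Finset (Finset (Finset α))) {u : ℝ} (hu : 0 < u) (hu1 : u ≤ 1) (s : St α) :
    (u ^ (1 / 2 : ℝ) - u ^ (1 / 2 + ep / 4 : ℝ)) * (s.A.card : ℝ) ≤ PsiM ep Bl C6 C8 u s := by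
  have hdl : 0 < ep / 4 := by linarith
  have h1 := card_A_le Bl hdl u s
  have h2 := Ph_nonneg Bl hdl u s
  have h3 : 0 ≤ Q s := Nat.cast_nonneg _
  have h4 : (0 : ℝ) ≤ u ^ (1 / 2 + ep / 4 : ℝ) := by positivity
  have h5 : u ^ (1 / 2 : ℝ) ≤ 1 := Real.rpow_le_one hu.le hu1 (by norm_num)
  have h6 : u ^ (1 / 2 + ep / 4 : ℝ) ≤ u ^ (1 / 2 : ℝ) :=
    Real.rpow_le_rpow_of_exponent_ge hu hu1 (by linarith)
  have h7 : 1 ≤ u ^ (-(1 / 2 + ep / 2) : ℝ) :=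
    Real.one_le_rpow_of_pos_of_le_one_of_nonpos hu hu1 (by linarith)
  have h8 : 0 ≤ u ^ (-(1 / 2 + ep) : ℝ) * (Sb u s + 1000 / ep * S 4 u s
      + 400 * t0 ep ^ 4 / ep * (u * V s)) := by
    have a1 := Sb_nonneg u s
    have a2 := S_nonneg (k := 4) (by decide) u s
    have a3 := V_nonneg s
    positivity
  have h9 : 0 ≤ u ^ (11 / 4 : ℝ) * Nc C6 s := by
    unfold Nc
    positivity
  have h10 : 0 ≤ 10 ^ 6 * u ^ (7 / 2 - ep : ℝ) * Nc C8 s := by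
    unfold Nc
    positivity
  have h11 := S_nonneg (k := 2) (by decide) u s
  have h12 : (u ^ (1 / 2 : ℝ) - u ^ (1 / 2 + ep / 4 : ℝ)) * (s.A.card : ℝ) ≤
      (u ^ (1 / 2 : ℝ) - u ^ (1 / 2 + ep / 4 : ℝ)) * (Q s + Ph Bl (ep / 4) u s) :=
    mul_le_mul_of_nonneg_left h1 (by linarith)
  have h13 : (u ^ (1 / 2 : ℝ) - u ^ (1 / 2 + ep / 4 : ℝ)) * Ph Bl (ep / 4) u s ≤
      u ^ (-(1 / 2 + ep / 2) : ℝ) * Ph Bl (ep / 4) u s :=
    mul_le_mul_of_nonneg_right (by linarith) h2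
  unfold PsiM
  linarith

theorem gen_smul (Bl : Finset (Finset α)) (r a : ℝ) (F : St α → ℝ) (s : St α) :
    gen Bl r (fun s' => a * F s') s = a * gen Bl r F s := by
  unfold gen
  rw [mul_add, mul_add, mul_sum, mul_sum, mul_sum]
  congr 1
  · congr 1
    · exact sum_congr rfl fun T _ => by ring
    · refine sum_congr rfl fun T _ => ?_
      rw [mul_sum]
      exact sum_congr rfl fun f _ => by ring
  · exact sum_congr rfl fun T _ => by ring

/-- comparison of two functionals under one step -/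
theorem step_le {Bl : Finset (Finset α)} {r h : ℝ} {s : St α} {F G : St α → ℝ} (hh : 0 ≤ h)
    (hr : ∀ T ∈ s.W, ∀ f ∈ T \ s.B, 0 ≤ r * (1 + s.a f) - 1)
    (htot : h * rate Bl r s ≤ 1) (h0 : F s ≤ G s)
    (h1 : ∀ T ∈ s.W, F (ring s T) ≤ G (ring s T))
    (h2 : ∀ T ∈ s.W, (T \ s.B).Nonempty → F (virt s T) ≤ G (virt s T))
    (h3 : ∀ T ∈ bl Bl s.A \ s.W, F (nring s T) ≤ G (nring s T)) :
    F s + h * gen Bl r F s ≤ G s + h * gen Bl r G s := by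
  have e1 := gen_ge (Bl := Bl) (r := r) (s := s) (D := fun s' => G s' - F s') hr
    (fun T hT => sub_nonneg.2 (h1 T hT))
    (fun T hT hT' => sub_nonneg.2 (h2 T hT hT'))
    (fun T hT => sub_nonneg.2 (h3 T hT))
  rw [gen_sub] at e1
  have e2 : h * (-(rate Bl r s) * (G s - F s)) ≤ h * (gen Bl r G s - gen Bl r F s) :=
    mul_le_mul_of_nonneg_left e1 hh
  have e3 : h * rate Bl r s * (G s - F s) ≤ 1 * (G s - F s) :=
    mul_le_mul_of_nonneg_right htot (by linarith)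
  linarith

end MidThm

open MidThm in
/-- [MIDTHM] from the statement of `mid_core` -/
theorem mid_thm_of (ep : ℝ) (h0 : 0 < ep) (h1 : ep ≤ 1 / 100)
    (mc : ∃ u1 : ℝ, 0 < u1 ∧ u1 ≤ 1 / 100 ∧
    ∀ (α : Type) [DecidableEq α] (Bl : Finset (Finset α)) (C6 C8 : Finset (Finset (Finset α))),
    Sys Bl C6 C8 → ∀ (umin : ℝ) (A₀ : Finset α), 0 < umin → ∃ E h1 : ℝ, 0 ≤ E ∧ 0 < h1 ∧
    ∀ h u : ℝ, 0 < h → h ≤ h1 → umin ≤ u → u + 2 * h ≤ u1 → ∀ s : St α, s.B ⊆ A₀ → s.A ⊆ A₀ →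
      Inv Bl (2 * t0 ep) (u + 2 * h) s →
      PsiM ep Bl C6 C8 (u + 2 * h) s
        + h * gen Bl (1 / (u + 2 * h)) (fun s' => PsiM ep Bl C6 C8 (u + 2 * h) s') s
        ≤ PsiM ep Bl C6 C8 u s + E * h ^ 2) : ∃ u1 K : ℝ, 0 < u1 ∧ 0 < K ∧
    ∀ (α : Type) [DecidableEq α] (Bl : Finset (Finset α)) (C6 C8 : Finset (Finset (Finset α))),
    Sys Bl C6 C8 → ∀ u0, 0 < u0 → u0 ≤ u1 → ∀ A : Finset α,
      (∀ e ∈ A, |xv u0 (toSt Bl A) e| ≤ t0 ep) →
      run Bl (fun A => (A.card : ℝ)) A.card A ≤ K * PsiM ep Bl C6 C8 u0 (toSt Bl A) := by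
  obtain ⟨ua, ha0, ha1, hfix⟩ := fix_mid ep h0 h1
  obtain ⟨ub, hb0, hb1, hcore⟩ := mc
  have ht : 0 < t0 ep := by unfold t0; positivity
  have ht1 : t0 ep ≤ 1 / 100 := by
    unfold t0
    nlinarith
  obtain ⟨t, rfl⟩ : ∃ t, t = t0 ep := ⟨_, rfl⟩
  obtain ⟨U, hU0, hUa, hUb, hUt⟩ : ∃ U : ℝ, 0 < U ∧ U ≤ ua ∧ U ≤ ub ∧ 10 * U ≤ t0 ep := by
    refine ⟨min (min ua ub) (t0 ep / 10), by positivity, ?_, ?_, ?_⟩
    · exact (min_le_left _ _).trans (min_le_left _ _)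
    · exact (min_le_left _ _).trans (min_le_right _ _)
    · have := min_le_right (min ua ub) (t0 ep / 10)
      linarith
  have hU1 : U < 1 := by linarith
  obtain ⟨c, hc⟩ : ∃ c : ℝ, c = U ^ (1 / 2 : ℝ) - U ^ (1 / 2 + ep / 4 : ℝ) := ⟨_, rfl⟩
  have hc0 : 0 < c := by
    rw [hc, sub_pos]
    exact Real.rpow_lt_rpow_of_exponent_gt hU0 hU1 (by linarith)
  refine ⟨U / 2, 1 / c, by positivity, by positivity, ?_⟩
  intro α _ Bl C6 C8 hS v hv0 hv1 A hA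
  obtain ⟨E0, g1, hE0, hg1, core⟩ := hcore α Bl C6 C8 hS v A hv0
  apply le_of_forall_pos_le_add
  intro ε hε
  -- the step length
  obtain ⟨w, hw⟩ : ∃ w : ℝ, w = U - v := ⟨_, rfl⟩
  have hw0 : 0 < w := by rw [hw]; linarith
  obtain ⟨δ, hδ0, hδ1, hδ2, hδ3, hδ4⟩ : ∃ δ : ℝ, 0 < δ ∧ δ ≤ g1 ∧ δ ≤ v * t0 ep / 100 ∧
      δ * (Bl.card : ℝ) * (1 + 3 * (1 + 2 * t0 ep) / v) ≤ 1 ∧
      1 / c * E0 * (w / 2) * δ ≤ ε := by
    have p1 : 0 < v * t0 ep / 100 := by positivity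
    have p2 : (0 : ℝ) ≤ (Bl.card : ℝ) * (1 + 3 * (1 + 2 * t0 ep) / v) := by positivity
    have p3 : (0 : ℝ) ≤ 1 / c * E0 * (w / 2) := by positivity
    obtain ⟨x, hx⟩ : ∃ x : ℝ, x = (Bl.card : ℝ) * (1 + 3 * (1 + 2 * t0 ep) / v) := ⟨_, rfl⟩
    obtain ⟨y, hy⟩ : ∃ y : ℝ, y = 1 / c * E0 * (w / 2) := ⟨_, rfl⟩
    rw [← hx] at p2
    rw [← hy] at p3
    refine ⟨min (min g1 (v * t0 ep / 100)) (min (1 / (x + 1)) (ε / (y + 1))), ?_, ?_, ?_, ?_, ?_⟩
    · exact lt_min (lt_min hg1 p1) (lt_min (by positivity) (by positivity))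
    · exact (min_le_left _ _).trans (min_le_left _ _)
    · exact (min_le_left _ _).trans (min_le_right _ _)
    · rw [mul_assoc, ← hx]
      calc min (min g1 (v * t0 ep / 100)) (min (1 / (x + 1)) (ε / (y + 1))) * x
          ≤ 1 / (x + 1) * x :=
            mul_le_mul_of_nonneg_right ((min_le_right _ _).trans (min_le_left _ _)) p2
        _ = x / (x + 1) := by ring
        _ ≤ 1 := by
            rw [div_le_one (by linarith)]
            linarith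
    · rw [← hy]
      calc y * min (min g1 (v * t0 ep / 100)) (min (1 / (x + 1)) (ε / (y + 1)))
          ≤ y * (ε / (y + 1)) :=
            mul_le_mul_of_nonneg_left ((min_le_right _ _).trans (min_le_right _ _)) p3
        _ = ε * (y / (y + 1)) := by ring
        _ ≤ ε * 1 := by
            refine mul_le_mul_of_nonneg_left ?_ hε.le
            rw [div_le_one (by linarith)]
            linarith
        _ = ε := mul_one ε
  obtain ⟨k, hk⟩ := exists_nat_gt (w / (2 * δ))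
  have hk0 : (0 : ℝ) < k := lt_of_le_of_lt (by positivity) hk
  obtain ⟨h, hh⟩ : ∃ h : ℝ, h = w / (2 * k) := ⟨_, rfl⟩
  have hh0 : 0 < h := by rw [hh]; positivity
  have hhδ : h ≤ δ := by
    rw [hh, div_le_iff₀ (by positivity)]
    rw [div_lt_iff₀ (by positivity)] at hk
    linarith
  have hkh : (k : ℝ) * h = w / 2 := by
    rw [hh]
    field_simp
  have PP : Prm Bl (t0 ep) (2 * t0 ep) h v U := by
    refine ⟨hS.lin, ht.le, by linarith, hh0.le, hv0, ?_, by linarith, by linarith, ?_⟩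
    · have q1 : 2 * h * (1 + t0 ep) ≤ 2 * h * 2 :=
        mul_le_mul_of_nonneg_left (by linarith) (by linarith)
      have q2 : (2 * t0 ep - t0 ep) * v = v * t0 ep := by ring
      have q3 : 0 < v * t0 ep := by positivity
      rw [q2]
      linarith
    · calc h * (Bl.card : ℝ) * (1 + 3 * (1 + 2 * t0 ep) / v)
          = h * ((Bl.card : ℝ) * (1 + 3 * (1 + 2 * t0 ep) / v)) := by ring
        _ ≤ δ * ((Bl.card : ℝ) * (1 + 3 * (1 + 2 * t0 ep) / v)) :=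
            mul_le_mul_of_nonneg_right hhδ (by positivity)
        _ = δ * (Bl.card : ℝ) * (1 + 3 * (1 + 2 * t0 ep) / v) := by ring
        _ ≤ 1 := hδ3
  have hpre : ∀ u s, v ≤ u → u + 2 * h ≤ U → GS Bl (t0 ep) (2 * t0 ep) u s →
      Inv Bl (2 * t0 ep) (u + 2 * h) s ∧
      (∀ T ∈ s.W, Inv Bl (2 * t0 ep) (u + 2 * h) (ring s T)) ∧
      (∀ T ∈ s.W, (T \ s.B).Nonempty → Inv Bl (2 * t0 ep) (u + 2 * h) (virt s T)) ∧
      (∀ T ∈ bl Bl s.A \ s.W, Inv Bl (2 * t0 ep) (u + 2 * h) (nring s T)) := by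
    intro u s hu hu' hs
    refine pre hS.lin ht rfl (by linarith) (by linarith) hh0 ?_ (by linarith) hs
    have : v * t0 ep ≤ u * t0 ep := mul_le_mul_of_nonneg_right hu ht.le
    linarith
  have main := iter_bound hS.lin (t0 ep) h U (1 / c * (E0 * h ^ 2)) hh0 (by positivity)
    (fun u s => GS Bl (t0 ep) (2 * t0 ep) u s ∧ s.A ⊆ A ∧ s.B ⊆ A ∧ v ≤ u)
    (fun u s => 1 / c * PsiM ep Bl C6 C8 u s)
    (fun u s hP => hP.1.inv.sub)
    (fun u s hP hu T _ f _ => PP.rpos hP.2.2.2 hu hP.1 f)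
    (fun u s hP hu => PP.hrate hP.2.2.2 hP.1)
    ?_ ?_ ?_ ?_ ?_ ?_ k v (toSt Bl A) ?_ ?_
  · refine main.trans ?_
    have e1 : (k : ℝ) * (1 / c * (E0 * h ^ 2)) = 1 / c * E0 * (k * h) * h := by ring
    rw [e1, hkh]
    have e2 : 1 / c * E0 * (w / 2) * h ≤ 1 / c * E0 * (w / 2) * δ :=
      mul_le_mul_of_nonneg_left hhδ (by positivity)
    linarith
  · rintro u s ⟨hs, hsA, hsB, hu⟩ hu'
    exact ⟨gs_fixs (hpre u s hu hu' hs).1, hsA, (FixAux.fixs_B_sub _ _ _).trans hsB, by linarith⟩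
  · rintro u s ⟨hs, hsA, hsB, hu⟩ hu' T hT
    refine ⟨gs_fixs ((hpre u s hu hu' hs).2.1 T hT), ?_, ?_, by linarith⟩
    · rw [fixs_A]
      show (if T ⊆ s.A then s.A \ T else s.A) ⊆ A
      split_ifs
      · exact sdiff_subset.trans hsA
      · exact hsA
    · exact (FixAux.fixs_B_sub _ _ _).trans (sdiff_subset.trans hsB)
  · rintro u s ⟨hs, hsA, hsB, hu⟩ hu' T hT hT'
    exact ⟨gs_fixs ((hpre u s hu hu' hs).2.2.1 T hT hT'), hsA,
      (FixAux.fixs_B_sub _ _ _).trans hsB, by linarith⟩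
  · rintro u s ⟨hs, hsA, hsB, hu⟩ hu' T hT
    exact ⟨gs_fixs ((hpre u s hu hu' hs).2.2.2 T hT), sdiff_subset.trans hsA,
      (FixAux.fixs_B_sub _ _ _).trans hsB, by linarith⟩
  · rintro u s ⟨hs, hsA, hsB, hu⟩ hu'
    obtain ⟨i0, i1, i2, i3⟩ := hpre u s hu hu' hs
    have hcmp : ∀ s', Inv Bl (2 * t0 ep) (u + 2 * h) s' →
        1 / c * PsiM ep Bl C6 C8 (u + 2 * h) (fixs (t0 ep) (u + 2 * h) s') ≤
        1 / c * PsiM ep Bl C6 C8 (u + 2 * h) s' := fun s' hs' =>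
      mul_le_mul_of_nonneg_left
        (hfix α Bl C6 C8 hS (u + 2 * h) (by linarith) (by linarith) s' hs') (by positivity)
    have e1 := step_le (Bl := Bl) (r := 1 / (u + 2 * h)) (h := h) (s := s)
      (F := fun s' => 1 / c * PsiM ep Bl C6 C8 (u + 2 * h) (fixs (t0 ep) (u + 2 * h) s'))
      (G := fun s' => 1 / c * PsiM ep Bl C6 C8 (u + 2 * h) s') hh0.le
      (fun T _ f _ => PP.rpos hu hu' hs f) (PP.hrate hu hs) (hcmp s i0)
      (fun T hT => hcmp _ (i1 T hT)) (fun T hT hT' => hcmp _ (i2 T hT hT'))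
      (fun T hT => hcmp _ (i3 T hT))
    refine e1.trans ?_
    rw [gen_smul]
    have e2 := core h u hh0 (by linarith) hu (by linarith) s hsB hsA i0
    have e3 : 1 / c * (PsiM ep Bl C6 C8 (u + 2 * h) s
        + h * gen Bl (1 / (u + 2 * h)) (fun s' => PsiM ep Bl C6 C8 (u + 2 * h) s') s) ≤
        1 / c * (PsiM ep Bl C6 C8 u s + E0 * h ^ 2) :=
      mul_le_mul_of_nonneg_left e2 (by positivity)
    calc _ = 1 / c * (PsiM ep Bl C6 C8 (u + 2 * h) s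
        + h * gen Bl (1 / (u + 2 * h)) (fun s' => PsiM ep Bl C6 C8 (u + 2 * h) s') s) := by ring
      _ ≤ _ := e3
      _ = _ := by ring
  · rintro s ⟨hs, -, -, -⟩
    have e1 := psiM_lower h0 Bl C6 C8 hU0 hU1.le s
    rw [← hc] at e1
    rw [one_div, inv_mul_eq_div, le_div_iff₀ hc0]
    linarith
  · refine ⟨gs_toSt ht.le (by linarith) A ?_, subset_rfl, subset_rfl, le_rfl⟩
    intro e he
    have := hA e he
    unfold xv at this
    rwa [if_pos (show e ∈ (toSt Bl A).B from he)] at this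
  · have : 2 * h * k = w := by
      have := hkh
      linarith
    rw [this, hw]
    ring

end

end Vale.Agent.P046.NL
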