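import Vale.Agent.P046.NL.Defs5
import Vale.Agent.P046.CT.Bad

/-! P046, sharp constant: definitions for the assembly of the stages -/

namespace Vale.Agent.P046.NL

open Finset Vale.Agent.P046

noncomputable section

variable {α : Type} [DecidableEq α]

/-- the quantities which have to be small when a stage ends -/
def Rst (e1 dl : ℝ) (Bl : Finset (Finset α)) (C6 C8 : Finset (Finset (Finset α))) (u : ℝ)
    (s : St α) : ℝ :=
  u ^ (-(1 / 2 + e1) : ℝ) * (Sb u s + S 4 u s + u * V s)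
    + u ^ (-(1 / 2 + e1 / 2) : ℝ) * Ph Bl dl u s + u ^ (1 / 10 : ℝ) * S 2 u s
    + u ^ (57 / 20 : ℝ) * Nc C6 s + u ^ (7 / 2 - e1 : ℝ) * Nc C8 s

/-- good states of the early phase with threshold `t` -/
def GoodT (n : ℕ) (t u : ℝ) (A : Finset (Sym2 (Fin n))) : Prop :=
  S 6 u (toSt (BK n) A) ≤ t ^ 6 ∧ 2 * 10 ^ 12 * XX u A * u ^ 2 ≤ 1

/-- what stage 1 needs at `u0 n` -/
def R0 (n : ℕ) (C6 C8 : Finset (Finset (Finset (Sym2 (Fin n))))) (A : Finset (Sym2 (Fin n))) : ℝ :=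
  u0 n ^ (-(1 / 2 + 3 / 4 * e0) : ℝ) *
      (Sb (u0 n) (toSt (BK n) A) + S 4 (u0 n) (toSt (BK n) A))
    + S 2 (u0 n) (toSt (BK n) A) + u0 n ^ (57 / 20 : ℝ) * Nc C6 (toSt (BK n) A)
    + u0 n ^ (7 / 2 - 3 / 4 * e0 : ℝ) * Nc C8 (toSt (BK n) A)

end

end Vale.Agent.P046.NL
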