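import Vale.Agent.P046.NL.Transfer

/-!
P046, row ETR: `early_transfer` with an arbitrary predicate in place of `GoodE`.
-/

namespace Vale.Agent.P046.NL

open Finset Vale.Agent.P046

noncomputable section

/-- [ETR] transfer through the early phase, arbitrary predicate -/
theorem early_transfer_gen {n : ℕ} (hn4 : 4 ≤ n) (hL : Lin3 (BK n))
    (hU3 : 1 / ((n : ℝ) - 2) < u0 n) (Phi : Finset (Sym2 (Fin n)) → ℝ)
    (Good : ℝ → Finset (Sym2 (Fin n)) → Prop)
    (G : ℝ → Finset (Sym2 (Fin n)) → ℝ) (a : ℝ) (ha : 0 ≤ a)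
    (hbad : ∀ u A, A ⊆ tr univ → 1 / ((n : ℝ) - 2) ≤ u → u ≤ u0 n → ¬ Good u A →
      run (BK n) Phi A.card A ≤ G u A)
    (hcore : ∃ E h1 : ℝ, 0 ≤ E ∧ 0 < h1 ∧ ∀ h u : ℝ, 0 < h → h ≤ h1 → 1 / ((n : ℝ) - 2) ≤ u →
      u + 2 * h ≤ u0 n → ∀ A : Finset (Sym2 (Fin n)), A ⊆ tr univ → Good u A →
      G (u + 2 * h) A + h * ∑ T ∈ bl (BK n) A, (G (u + 2 * h) (A \ T) - G (u + 2 * h) A)
        ≤ G u A + h * a + E * h ^ 2)
    (hend : ∀ A, A ⊆ tr univ → Good (u0 n) A → run (BK n) Phi A.card A ≤ G (u0 n) A) :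
    run (BK n) Phi (tr (univ : Finset (Fin n))).card (tr (univ : Finset (Fin n))) ≤
      G (1 / ((n : ℝ) - 2)) (tr univ) + a * (u0 n / 2) := by
  obtain ⟨E, h1, hE, hh1, hstep⟩ := hcore
  have hnr4 : (4 : ℝ) ≤ n := by exact_mod_cast hn4
  have hus : 0 < 1 / ((n : ℝ) - 2) := div_pos one_pos (by linarith)
  obtain ⟨us, hus_def⟩ : ∃ us : ℝ, us = 1 / ((n : ℝ) - 2) := ⟨_, rfl⟩
  rw [← hus_def] at hus hU3 ⊢
  apply le_of_forall_pos_le_add
  intro ε hε
  obtain ⟨k, h, hh0, hkU, hhg, -, hhx, hke⟩ := TR.steps (t := 1)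
    (x := ((BK n).card : ℝ)) (E := E) hU3 hus one_pos (Nat.cast_nonneg _) hE hε hh1
  have hmain := iter_early_gen hL Phi h (u0 n) (h * a + E * h ^ 2) hh0 (by positivity) hhx
    (tr univ) (fun u A => us ≤ u ∧ Good u A)
    (fun u A => if us ≤ u then G u A else run (BK n) Phi A.card A)
    (by
      intro u A hA hu hb
      split_ifs with hcase
      · exact hbad u A hA (by rw [← hus_def]; exact hcase) hu (fun hg => hb ⟨hcase, hg⟩)
      · exact le_rfl)
    (by
      intro u A hA hu hg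
      have hcase2 : us ≤ u + 2 * h := by linarith [hg.1]
      have j1 := hstep h u hh0 hhg (by rw [← hus_def]; exact hg.1) hu A hA hg.2
      simp only [if_pos hg.1, if_pos hcase2]
      linarith)
    (by
      intro A hA hg
      simp only [if_pos hU3.le]
      exact hend A hA hg.2)
    k us (tr univ) subset_rfl hkU
  simp only [if_pos (le_refl us)] at hmain
  have hkh : (k : ℝ) * h ≤ u0 n / 2 := by
    have : 2 * h * k = 2 * ((k : ℝ) * h) := by ring
    linarith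
  have r1 : (k : ℝ) * (h * a + E * h ^ 2) = a * (k * h) + k * (E * h ^ 2) := by ring
  have r2 : a * (k * h) ≤ a * (u0 n / 2) := mul_le_mul_of_nonneg_left hkh ha
  linarith

end

end Vale.Agent.P046.NL
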