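import Vale.Agent.P046.NL.Defs4
import Vale.Agent.P046.NL.MidAux

/-! P046, row CMP2: comparison of the functionals of the second stage and of the middle phase -/

namespace Vale.Agent.P046.NL

open Finset Vale.Agent.P046

noncomputable section

namespace CMP2

theorem n1 {e1 K w g1 g2 g3 k5 z q : ℝ} (h0 : 0 < e1) (hK : 0 < K) (hw : 0 < w) (p1 : 0 < g1)
    (p2 : 0 < g2) (p3 : 0 < g3) (p4 : 0 < k5) (hz0 : 0 < z) (hz : z ≤ 1 / 2) (hq : 0 ≤ q) :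
    4 * 10 ^ 8 / e1 * (K * g1 - K * g2 - 1 / 2 * k5 * g3) * q ≤
      8 * 10 ^ 8 / e1 * (K + w) * (g1 * q - g1 * z * q) := by
  have q1 : 4 * 10 ^ 8 / e1 * (K * g1 - K * g2 - 1 / 2 * k5 * g3) ≤
      4 * 10 ^ 8 / e1 * (K * g1) := by
    apply mul_le_mul_of_nonneg_left _ (by positivity)
    have := mul_pos hK p2
    have := mul_pos (mul_pos (show (0 : ℝ) < 1 / 2 by norm_num) p4) p3
    linarith
  have q2 : 4 * 10 ^ 8 / e1 * (K * g1) = 8 * 10 ^ 8 / e1 * K * (1 / 2 * g1) := by ring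
  have q3 : 8 * 10 ^ 8 / e1 * K * (1 / 2 * g1) ≤ 8 * 10 ^ 8 / e1 * (K + w) * (g1 * (1 - z)) := by
    apply mul_le_mul _ _ (by positivity) (by positivity)
    · apply mul_le_mul_of_nonneg_left _ (by positivity)
      linarith
    · have : 1 / 2 * g1 ≤ (1 - z) * g1 := mul_le_mul_of_nonneg_right (by linarith) p1.le
      linarith
  have q4 := mul_le_mul_of_nonneg_right ((q1.trans_eq q2).trans q3) hq
  refine q4.trans (le_of_eq ?_)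
  ring

theorem n2 {e1 K w g1 g2 k5 q : ℝ} (h0 : 0 < e1) (hK : 0 < K) (hw : 0 < w) (p1 : 0 < g1)
    (p1' : g1 ≤ w) (p2' : g2 ≤ 1) (p4 : 0 < k5) (p4' : k5 ≤ 1) (hq : 0 ≤ q) :
    (4 * 10 ^ 6 / e1 * k5 * g1 + 4 * 10 ^ 8 / e1 * K * g2) * q ≤
      8 * 10 ^ 8 / e1 * (K + w) * q := by
  apply mul_le_mul_of_nonneg_right _ hq
  have q1 : 4 * 10 ^ 6 / e1 * k5 * g1 ≤ 4 * 10 ^ 6 / e1 * 1 * w := by
    apply mul_le_mul _ p1' p1.le (by positivity)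
    exact mul_le_mul_of_nonneg_left p4' (by positivity)
  have q2 : 4 * 10 ^ 8 / e1 * K * g2 ≤ 4 * 10 ^ 8 / e1 * K * 1 :=
    mul_le_mul_of_nonneg_left p2' (by positivity)
  have q3 : 4 * 10 ^ 6 / e1 * 1 * w ≤ 8 * 10 ^ 8 / e1 * w := by
    apply mul_le_mul_of_nonneg_right _ hw.le
    rw [mul_one]
    apply div_le_div_of_nonneg_right _ h0.le
    norm_num
  have q4 : 4 * 10 ^ 8 / e1 * K * 1 ≤ 8 * 10 ^ 8 / e1 * K := by
    rw [mul_one]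
    apply mul_le_mul_of_nonneg_right _ hK.le
    apply div_le_div_of_nonneg_right _ h0.le
    norm_num
  linarith

theorem nF {e1 K w : ℝ} (h0 : 0 < e1) (h1 : e1 ≤ 1) (hK : 0 < K) (hw : 0 < w) :
    w ≤ 8 * 10 ^ 8 / e1 * (K + w) := by
  have h2 : 1 ≤ 8 * 10 ^ 8 / e1 := by
    rw [le_div_iff₀ h0]; linarith
  calc w ≤ 1 * (K + w) := by linarith
    _ ≤ _ := mul_le_mul_of_nonneg_right h2 (by linarith)

theorem nE {e1 ep K w : ℝ} (h0 : 0 < e1) (hep : 0 < ep) (h1 : ep ≤ 1) (hK : 0 < K) (hw : 0 < w)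
    (hw1 : w ≤ 1) : w * w / e1 ≤ 8 * 10 ^ 8 / e1 * (K + w) / ep := by
  have hww : w * w ≤ w * 1 := mul_le_mul_of_nonneg_left hw1 hw.le
  rw [div_le_div_iff₀ h0 hep]
  have q1 : w * w * ep ≤ w * 1 * 1 := by
    apply mul_le_mul hww h1 hep.le (by linarith)
  have q3 : 8 * 10 ^ 8 / e1 * (K + w) * e1 = 8 * 10 ^ 8 * (K + w) := by
    field_simp
  rw [q3]
  linarith

theorem nS {a b F x y c d : ℝ} (h : a / x ≤ F / y) (hb : 0 ≤ b) (hc : 0 ≤ c) (hd : 0 ≤ d) :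
    b * a * (c / x * d) ≤ F * (b * (c / y * d)) := by
  have h1 := mul_le_mul_of_nonneg_right h (mul_nonneg hb (mul_nonneg hc hd))
  have e1 : a / x * (b * (c * d)) = b * a * (c / x * d) := by ring
  have e2 : F / y * (b * (c * d)) = F * (b * (c / y * d)) := by ring
  linarith

theorem nP {a b F d : ℝ} (h : a ≤ F) (hb : 0 ≤ b) (hd : 0 ≤ d) : b * a * d ≤ F * (b * d) := by
  have h1 := mul_le_mul_of_nonneg_right h (mul_nonneg hb hd)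
  linarith

end CMP2

open CMP2

/-- [CMP2] comparison at the beginning of the second stage -/
theorem cmp_st2 (ep e1 : ℝ) (h0 : 0 < e1) (h1 : e1 < ep) (h2 : ep ≤ 1 / 100) :
    ∃ C : ℝ, 0 < C ∧ ∀ uK : ℝ, 0 < uK → uK ≤ 1 / 100 → ∀ (α : Type) [DecidableEq α]
    (Bl : Finset (Finset α)) (C6 C8 : Finset (Finset (Finset α))) (u : ℝ) (s : St α),
    0 < u → u ≤ uK → u ^ (ep / 4 : ℝ) ≤ 1 / 2 →
      PsiS e1 (t0 ep) (ep / 4) uK Bl C6 C8 u s ≤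
        C * (uK ^ (1 - e1 : ℝ) + u ^ ((ep - e1) / 2 : ℝ)) * PsiM ep Bl C6 C8 u s := by
  refine ⟨8 * 10 ^ 8 / e1, by positivity, ?_⟩
  intro uK hK0 hK1 α _ Bl C6 C8 u s hu huK hu4
  have hu1 : u ≤ 1 := by linarith
  have hep : 0 < ep := by linarith
  have ht : 0 ≤ 400 * t0 ep ^ 4 := by unfold t0; positivity
  have hUV : 0 ≤ u * V s := mul_nonneg hu.le (MC.V_nonneg s)
  have hKp : 0 < uK ^ (1 - e1 : ℝ) := Real.rpow_pos_of_pos hK0 _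
  have hwp : 0 < u ^ ((ep - e1) / 2 : ℝ) := Real.rpow_pos_of_pos hu _
  have hw1 : u ^ ((ep - e1) / 2 : ℝ) ≤ 1 := Real.rpow_le_one hu.le hu1 (by linarith)
  have p6 : u ^ (2 / 5 : ℝ) ≤ u ^ ((ep - e1) / 2 : ℝ) :=
    Real.rpow_le_rpow_of_exponent_ge hu hu1 (by linarith)
  have p8 : u ^ (1 / 10 : ℝ) ≤ u ^ ((ep - e1) / 2 : ℝ) :=
    Real.rpow_le_rpow_of_exponent_ge hu hu1 (by linarith)
  have a1 : u ^ (-(1 / 2 + e1) : ℝ) =
      u ^ (-(1 / 2 + ep) : ℝ) * (u ^ ((ep - e1) / 2 : ℝ) * u ^ ((ep - e1) / 2 : ℝ)) := by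
    rw [← Real.rpow_add hu, ← Real.rpow_add hu]
    congr 1
    ring
  have a2 : u ^ (-(1 / 2 + e1 / 2) : ℝ) =
      u ^ (-(1 / 2 + ep / 2) : ℝ) * u ^ ((ep - e1) / 2 : ℝ) := by
    rw [← Real.rpow_add hu]
    congr 1
    ring
  have a3 : u ^ (57 / 20 : ℝ) = u ^ (11 / 4 : ℝ) * u ^ (1 / 10 : ℝ) := by
    rw [← Real.rpow_add hu]
    congr 1
    norm_num
  have a4 : u ^ (7 / 2 - e1 : ℝ) =
      u ^ (7 / 2 - ep : ℝ) * (u ^ ((ep - e1) / 2 : ℝ) * u ^ ((ep - e1) / 2 : ℝ)) := by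
    rw [← Real.rpow_add hu, ← Real.rpow_add hu]
    congr 1
    ring
  have a5 : u ^ (1 / 2 + ep / 4 : ℝ) = u ^ (1 / 2 : ℝ) * u ^ (ep / 4 : ℝ) := Real.rpow_add hu _ _
  have b1 : 0 ≤ u ^ (-(1 / 2 + ep) : ℝ) := Real.rpow_nonneg hu.le _
  have b2 : 0 ≤ u ^ (-(1 / 2 + ep / 2) : ℝ) := Real.rpow_nonneg hu.le _
  have b3 : 0 ≤ u ^ (11 / 4 : ℝ) := Real.rpow_nonneg hu.le _
  have b4 : 0 ≤ u ^ (7 / 2 - ep : ℝ) := Real.rpow_nonneg hu.le _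
  have hCF := nF h0 (by linarith) hKp hwp
  have hCE := nE h0 hep (by linarith) hKp hwp hw1
  have hww : u ^ ((ep - e1) / 2 : ℝ) * u ^ ((ep - e1) / 2 : ℝ) ≤ u ^ ((ep - e1) / 2 : ℝ) * 1 :=
    mul_le_mul_of_nonneg_left hw1 hwp.le
  rw [mul_one] at hww
  have t1 := n1 h0 hKp hwp (Real.rpow_pos_of_pos hu (1 / 2 : ℝ))
    (Real.rpow_pos_of_pos hu (7 / 10 : ℝ)) (Real.rpow_pos_of_pos hu (7 / 5 : ℝ))
    (Real.rpow_pos_of_pos hK0 (1 / 10 - e1 : ℝ)) (Real.rpow_pos_of_pos hu (ep / 4 : ℝ)) hu4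
    (MC.Q_nonneg s)
  have t2 := n2 (q := S 2 u s) h0 hKp hwp (Real.rpow_pos_of_pos hu (2 / 5 : ℝ)) p6
    (Real.rpow_le_one hu.le hu1 (by norm_num) : u ^ (1 / 10 : ℝ) ≤ 1)
    (Real.rpow_pos_of_pos hK0 (1 / 10 - e1 : ℝ))
    (Real.rpow_le_one hK0.le (by linarith) (by linarith)) (MC.S_nonneg (by decide) u s)
  have t3 := nP (hww.trans hCF) b1 (MC.Sb_nonneg u s)
  have t4 := nS hCE b1 (show (0 : ℝ) ≤ 1000 by norm_num) (MC.S_nonneg (k := 4) (by decide) u s)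
  have t5 := nS hCE b1 ht hUV
  have t6 := nP hCF b2 (MC.Ph_nonneg Bl (show 0 < ep / 4 by linarith) u s)
  have t7 := nP (p8.trans hCF) b3 (MC.Nc_nonneg C6 s)
  have t8 := nP (hww.trans hCF) b4 (MC.Nc_nonneg C8 s)
  unfold PsiS PsiM
  rw [a1, a2, a3, a4, a5]
  linarith

end

end Vale.Agent.P046.NL
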