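import Vale.Agent.P046.NL.Defs2

/-! P046 no-log: row XG (generator of the codegree discrepancy on real states). -/

namespace Vale.Agent.P046.NL

open Finset Vale.Agent.P046

noncomputable section

variable {th u r : ℝ}

namespace XG

variable {n : ℕ}

/-- common neighbours -/
def nb (A : Finset (Sym2 (Fin n))) (a b : Fin n) : Finset (Fin n) :=
  univ.filter (fun w => s(a, w) ∈ A ∧ s(b, w) ∈ A)

/-- number of common neighbours that are lost with `T` -/
def dd (A T : Finset (Sym2 (Fin n))) (a b : Fin n) : ℝ :=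
  (((nb A a b).filter (fun w => s(a, w) ∈ T ∨ s(b, w) ∈ T)).card : ℝ)

theorem cd_eq (A : Finset (Sym2 (Fin n))) (a b : Fin n) : cd A a b = ((nb A a b).card : ℝ) := rfl

theorem dd_nonneg (A T : Finset (Sym2 (Fin n))) (a b : Fin n) : 0 ≤ dd A T a b := Nat.cast_nonneg _

theorem cd_nonneg (A : Finset (Sym2 (Fin n))) (a b : Fin n) : 0 ≤ cd A a b := Nat.cast_nonneg _

theorem cd_sdiff (A T : Finset (Sym2 (Fin n))) (a b : Fin n) :
    cd (A \ T) a b = cd A a b - dd A T a b := by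
  have h := card_filter_add_card_filter_not (s := nb A a b)
    (fun w => s(a, w) ∈ T ∨ s(b, w) ∈ T)
  have h2 : nb (A \ T) a b = (nb A a b).filter (fun w => ¬ (s(a, w) ∈ T ∨ s(b, w) ∈ T)) := by
    ext w
    simp only [nb, mem_filter, mem_univ, true_and, mem_sdiff]
    tauto
  rw [cd_eq, cd_eq, dd, h2]
  have h3 : ((((nb A a b).filter (fun w => s(a, w) ∈ T ∨ s(b, w) ∈ T)).card : ℕ) : ℝ) +
      (((nb A a b).filter (fun w => ¬ (s(a, w) ∈ T ∨ s(b, w) ∈ T))).card : ℝ) =
      ((nb A a b).card : ℝ) := by exact_mod_cast h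
  linarith

theorem card_at_le (T : Finset (Sym2 (Fin n))) (hT : T.card = 3) (a : Fin n) :
    (univ.filter (fun w => s(a, w) ∈ T)).card ≤ 3 := by
  rw [← hT]
  refine card_le_card_of_injOn (fun w => s(a, w)) ?_ ?_
  · intro w hw
    have hw' := (mem_filter.1 (mem_coe.1 hw)).2
    exact hw'
  · intro w _ w' _ h
    exact Sym2.congr_right.1 h

theorem dd_le (A T : Finset (Sym2 (Fin n))) (hT : T.card = 3) (a b : Fin n) : dd A T a b ≤ 6 := by
  unfold dd
  have h1 : (nb A a b).filter (fun w => s(a, w) ∈ T ∨ s(b, w) ∈ T) ⊆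
      univ.filter (fun w => s(a, w) ∈ T) ∪ univ.filter (fun w => s(b, w) ∈ T) := by
    intro w hw
    rw [mem_filter] at hw
    rw [mem_union, mem_filter, mem_filter]
    rcases hw.2 with h | h
    · exact Or.inl ⟨mem_univ _, h⟩
    · exact Or.inr ⟨mem_univ _, h⟩
  have h2 := (card_le_card h1).trans (card_union_le _ _)
  have h3 := card_at_le T hT a
  have h4 := card_at_le T hT b
  have h5 : ((nb A a b).filter (fun w => s(a, w) ∈ T ∨ s(b, w) ∈ T)).card ≤ 6 := by omega
  exact_mod_cast h5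

theorem sum_dd {A : Finset (Sym2 (Fin n))} {a b : Fin n} (hab : a ≠ b) :
    ∃ E : ℝ, 0 ≤ E ∧ E ≤ cd A a b ∧ ∑ T ∈ bl (BK n) A, dd A T a b =
      ∑ w ∈ nb A a b, dW (bl (BK n) A) s(a, w) + ∑ w ∈ nb A a b, dW (bl (BK n) A) s(b, w) - E := by
  classical
  have h1 : ∀ T, dd A T a b =
      ∑ w ∈ nb A a b, (if s(a, w) ∈ T ∨ s(b, w) ∈ T then (1 : ℝ) else 0) := by
    intro T
    unfold dd
    rw [card_filter]
    push_cast
    rfl
  refine ⟨∑ w ∈ nb A a b,
    ((((bl (BK n) A).filter (fun T => s(a, w) ∈ T)) ∩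
      ((bl (BK n) A).filter (fun T => s(b, w) ∈ T))).card : ℝ), ?_, ?_, ?_⟩
  · exact sum_nonneg fun _ _ => Nat.cast_nonneg _
  · have : cd A a b = ∑ _w ∈ nb A a b, (1 : ℝ) := by
      rw [sum_const, nsmul_eq_mul, mul_one]; rfl
    rw [this]
    refine sum_le_sum fun w _ => ?_
    have : (((bl (BK n) A).filter (fun T => s(a, w) ∈ T)) ∩
      ((bl (BK n) A).filter (fun T => s(b, w) ∈ T))).card ≤ 1 := by
      rw [card_le_one]
      intro T hT S hS
      rw [mem_inter, mem_filter, mem_filter] at hT hS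
      by_contra hne
      have hT1 := (mem_filter.1 hT.1.1).1
      have hS1 := (mem_filter.1 hS.1.1).1
      have hlin := (lin3_BK n).lin T hT1 S hS1 hne
      have h2 : ({s(a, w), s(b, w)} : Finset (Sym2 (Fin n))) ⊆ T ∩ S := by
        intro e he
        rw [mem_insert, mem_singleton] at he
        rw [mem_inter]
        rcases he with rfl | rfl
        · exact ⟨hT.1.2, hS.1.2⟩
        · exact ⟨hT.2.2, hS.2.2⟩
      have h3 : s(a, w) ≠ s(b, w) := by
        intro h
        exact hab (Sym2.congr_left.1 h)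
      have h4 := card_le_card h2
      rw [card_pair h3] at h4
      omega
    exact_mod_cast this
  · simp_rw [h1]
    rw [sum_comm, ← sum_add_distrib, ← sum_sub_distrib]
    refine sum_congr rfl fun w _ => ?_
    have h2 : ∑ T ∈ bl (BK n) A, (if s(a, w) ∈ T ∨ s(b, w) ∈ T then (1 : ℝ) else 0) =
        (((bl (BK n) A).filter (fun T => s(a, w) ∈ T ∨ s(b, w) ∈ T)).card : ℝ) := by
      rw [card_filter]
      push_cast
      rfl
    rw [h2, filter_or]
    have h3 := card_union_add_card_inter ((bl (BK n) A).filter (fun T => s(a, w) ∈ T))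
      ((bl (BK n) A).filter (fun T => s(b, w) ∈ T))
    have h4 : ((((bl (BK n) A).filter (fun T => s(a, w) ∈ T)) ∪
      ((bl (BK n) A).filter (fun T => s(b, w) ∈ T))).card : ℝ) +
      ((((bl (BK n) A).filter (fun T => s(a, w) ∈ T)) ∩
      ((bl (BK n) A).filter (fun T => s(b, w) ∈ T))).card : ℝ) =
      (((bl (BK n) A).filter (fun T => s(a, w) ∈ T)).card : ℝ) +
      (((bl (BK n) A).filter (fun T => s(b, w) ∈ T)).card : ℝ) := by exact_mod_cast h3
    unfold dW
    linarith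

theorem dW_eq {A : Finset (Sym2 (Fin n))} (hur : u * r = 1) {e : Sym2 (Fin n)} (he : e ∈ A) :
    dW (bl (BK n) A) e = r * (1 + xv u (toSt (BK n) A) e) := by
  have h1 : xv u (toSt (BK n) A) e = u * dW (bl (BK n) A) e - 1 := by
    unfold xv
    rw [if_pos (show e ∈ (toSt (BK n) A).B from he)]
    rfl
  rw [h1]
  have : r * (1 + (u * dW (bl (BK n) A) e - 1)) = (u * r) * dW (bl (BK n) A) e := by ring
  rw [this, hur, one_mul]

/-- the real inequality for one of the two cross terms -/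
theorem cross (C X s y : ℝ) (hur : u * r = 1) (hr : 0 < r) (hC : 0 ≤ C) (hy : y = u * C - 1)
    (hs : s ^ 2 ≤ C * X) (hX : 0 ≤ X) (hs2 : |s| ≤ C / 10) :
    -2 * y * s ≤ r * y ^ 2 + 2 * X := by
  have hCr : C = r * (1 + y) := by
    rw [hy]
    have : r * (1 + (u * C - 1)) = (u * r) * C := by ring
    rw [this, hur, one_mul]
  have h0 : -2 * y * s ≤ 2 * |y| * |s| := by
    have h1 : -(y * s) ≤ |y * s| := neg_le_abs _
    rw [abs_mul] at h1
    linarith
  have hys : |y| ^ 2 = y ^ 2 := sq_abs y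
  have hss : |s| ^ 2 = s ^ 2 := sq_abs s
  have hy0 := abs_nonneg y
  have hs0 := abs_nonneg s
  by_cases hc : C ≤ 2 * r
  · have h1 : |s| ^ 2 ≤ 2 * r * X := by
      rw [hss]; exact hs.trans (mul_le_mul_of_nonneg_right hc hX)
    have h2 : 2 * |y| * |s| ≤ r * |y| ^ 2 + |s| ^ 2 / r := by
      have : r * |y| ^ 2 + |s| ^ 2 / r - 2 * |y| * |s| = (r * |y| - |s|) ^ 2 / r := by
        field_simp; ring
      have h3 : 0 ≤ (r * |y| - |s|) ^ 2 / r := by positivity
      linarith
    have h3 : |s| ^ 2 / r ≤ 2 * X := by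
      rw [div_le_iff₀ hr]; linarith
    rw [hys] at h2
    linarith
  · push Not at hc
    have h1 : 1 < y := by
      by_contra h
      push Not at h
      nlinarith
    have h2 : |y| = y := abs_of_pos (by linarith)
    have h3 : |s| ≤ r * y / 5 := by
      refine hs2.trans ?_
      rw [hCr]
      nlinarith
    have h4 : 2 * |y| * |s| ≤ 2 * y * (r * y / 5) := by
      rw [h2]
      exact mul_le_mul_of_nonneg_left h3 (by linarith)
    nlinarith [mul_nonneg hr.le (sq_nonneg y)]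

/-- sum over ordered representations -/
theorem sum_ord_le (A : Finset (Sym2 (Fin n))) (f : Sym2 (Fin n) → ℝ) (hf : ∀ e, 0 ≤ f e) :
    ∑ a : Fin n, ∑ w ∈ univ.filter (fun w => s(a, w) ∈ A), f s(a, w) ≤ 2 * ∑ e ∈ A, f e := by
  classical
  have h1 : ∑ a : Fin n, ∑ w ∈ univ.filter (fun w => s(a, w) ∈ A), f s(a, w) =
      ∑ p ∈ (univ : Finset (Fin n × Fin n)).filter (fun p => s(p.1, p.2) ∈ A),
        f s(p.1, p.2) := by
    rw [sum_filter, Fintype.sum_prod_type]
    refine sum_congr rfl fun a _ => ?_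
    rw [sum_filter]
  rw [h1, ← sum_fiberwise_of_maps_to (t := A) (g := fun p : Fin n × Fin n => s(p.1, p.2))
    (fun p hp => (mem_filter.1 hp).2), mul_sum]
  refine sum_le_sum fun e _ => ?_
  have h2 : ∑ p ∈ (univ.filter (fun p : Fin n × Fin n => s(p.1, p.2) ∈ A)).filter
      (fun p => s(p.1, p.2) = e), f s(p.1, p.2) =
      ∑ _p ∈ (univ.filter (fun p : Fin n × Fin n => s(p.1, p.2) ∈ A)).filter
      (fun p => s(p.1, p.2) = e), f e :=
    sum_congr rfl fun p hp => by rw [(mem_filter.1 hp).2]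
  rw [h2, sum_const, nsmul_eq_mul]
  refine mul_le_mul_of_nonneg_right ?_ (hf e)
  have h3 : ((univ.filter (fun p : Fin n × Fin n => s(p.1, p.2) ∈ A)).filter
      (fun p => s(p.1, p.2) = e)).card ≤ 2 := by
    induction e with
    | h x y =>
      have : (univ.filter (fun p : Fin n × Fin n => s(p.1, p.2) ∈ A)).filter
          (fun p => s(p.1, p.2) = s(x, y)) ⊆ {(x, y), (y, x)} := by
        intro p hp
        have hp2 := (mem_filter.1 hp).2
        rw [Sym2.eq_iff] at hp2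
        rw [mem_insert, mem_singleton]
        rcases hp2 with ⟨h4, h5⟩ | ⟨h4, h5⟩
        · exact Or.inl (Prod.ext h4 h5)
        · exact Or.inr (Prod.ext h4 h5)
      exact (card_le_card this).trans card_le_two
  exact_mod_cast h3

/-- one ordered pair of vertices -/
theorem pair {A : Finset (Sym2 (Fin n))} (hur : u * r = 1) (hr : 100 ≤ r) (hth : th ≤ 1 / 10)
    (hI : Inv (BK n) th u (toSt (BK n) A)) {a b : Fin n} (hab : a ≠ b) :
    ∑ T ∈ bl (BK n) A, ((u * cd (A \ T) a b - 1) ^ 2 - (u * cd A a b - 1) ^ 2) +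
      2 * (2 * (u * cd A a b - 1) * cd A a b) ≤
      r * (3 * (u * cd A a b - 1) ^ 2) + 2 * ∑ w ∈ nb A a b, xv u (toSt (BK n) A) s(a, w) ^ 2 +
      2 * ∑ w ∈ nb A a b, xv u (toSt (BK n) A) s(b, w) ^ 2 + 30 := by
  have hr0 : 0 < r := by linarith
  have hu0 : 0 < u := by
    by_contra h
    push Not at h
    nlinarith
  set C := cd A a b with hC
  have hC0 : 0 ≤ C := cd_nonneg A a b
  set y := u * C - 1 with hy
  have hy1 : -1 ≤ y := by have := mul_nonneg hu0.le hC0; linarith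
  have hCr : C = r * (1 + y) := by
    rw [hy]
    have : r * (1 + (u * C - 1)) = (u * r) * C := by ring
    rw [this, hur, one_mul]
  -- expansion
  have e1 : ∀ T ∈ bl (BK n) A, (u * cd (A \ T) a b - 1) ^ 2 - y ^ 2 ≤
      (-2 * u * y + 6 * u ^ 2) * dd A T a b := by
    intro T hT
    have hT3 := (lin3_BK n).card3 T (mem_filter.1 hT).1
    rw [cd_sdiff]
    have h1 := dd_le A T hT3 a b
    have h2 := dd_nonneg A T a b
    have h3 : (u * (cd A a b - dd A T a b) - 1) ^ 2 - y ^ 2 =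
        -2 * u * y * dd A T a b + u ^ 2 * (dd A T a b) ^ 2 := by
      rw [hy, hC]; ring
    rw [h3]
    have h4 : (dd A T a b) ^ 2 ≤ 6 * dd A T a b := by nlinarith
    nlinarith [mul_le_mul_of_nonneg_left h4 (sq_nonneg u)]
  obtain ⟨E, hE0, hE1, hE⟩ := sum_dd (A := A) hab
  set sa := ∑ w ∈ nb A a b, xv u (toSt (BK n) A) s(a, w) with hsa
  set sb := ∑ w ∈ nb A a b, xv u (toSt (BK n) A) s(b, w) with hsb
  have hcard : ∑ _w ∈ nb A a b, (1 : ℝ) = C := by
    rw [sum_const, nsmul_eq_mul, mul_one]; rfl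
  have ha : ∑ w ∈ nb A a b, dW (bl (BK n) A) s(a, w) = r * (C + sa) := by
    rw [hsa, ← hcard, ← sum_add_distrib, mul_sum]
    refine sum_congr rfl fun w hw => ?_
    exact dW_eq hur (mem_filter.1 hw).2.1
  have hb : ∑ w ∈ nb A a b, dW (bl (BK n) A) s(b, w) = r * (C + sb) := by
    rw [hsb, ← hcard, ← sum_add_distrib, mul_sum]
    refine sum_congr rfl fun w hw => ?_
    exact dW_eq hur (mem_filter.1 hw).2.2
  rw [ha, hb] at hE
  have hsum : ∑ T ∈ bl (BK n) A, ((u * cd (A \ T) a b - 1) ^ 2 - y ^ 2) ≤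
      (-2 * u * y + 6 * u ^ 2) * (r * (C + sa) + r * (C + sb) - E) := by
    rw [← hE, mul_sum]
    exact sum_le_sum e1
  have habs : ∀ c : Fin n, |∑ w ∈ nb A a b, xv u (toSt (BK n) A) s(c, w)| ≤ C / 10 := by
    intro c
    calc |∑ w ∈ nb A a b, xv u (toSt (BK n) A) s(c, w)|
        ≤ ∑ w ∈ nb A a b, |xv u (toSt (BK n) A) s(c, w)| := abs_sum_le_sum_abs _ _
      _ ≤ ∑ _w ∈ nb A a b, (1 / 10 : ℝ) := sum_le_sum fun w _ => (hI.bd _).trans hth
      _ = C / 10 := by rw [sum_const, nsmul_eq_mul, hC, cd_eq]; ring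
  have hsq : ∀ c : Fin n, (∑ w ∈ nb A a b, xv u (toSt (BK n) A) s(c, w)) ^ 2 ≤
      C * ∑ w ∈ nb A a b, xv u (toSt (BK n) A) s(c, w) ^ 2 :=
    fun c => sq_sum_le_card_mul_sum_sq
  have ca := cross C _ sa y hur hr0 hC0 hy (hsq a) (sum_nonneg fun _ _ => sq_nonneg _) (habs a)
  have cb := cross C _ sb y hur hr0 hC0 hy (hsq b) (sum_nonneg fun _ _ => sq_nonneg _) (habs b)
  have hsa1 := (abs_le.1 (habs a)).2
  have hsb1 := (abs_le.1 (habs b)).2
  -- split
  have k1 : (-2 * u * y) * (r * (C + sa) + r * (C + sb) - E) =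
      -4 * y * C + (-2 * y * sa) + (-2 * y * sb) + 2 * u * y * E := by
    have : (-2 * u * y) * (r * (C + sa) + r * (C + sb) - E) =
      (u * r) * (-4 * y * C + (-2 * y * sa) + (-2 * y * sb)) + 2 * u * y * E := by ring
    rw [this, hur, one_mul]
  have k2 : 2 * u * y * E ≤ 2 * |y| * (1 + y) := by
    have h1 : u * E ≤ 1 + y := by
      have := mul_le_mul_of_nonneg_left hE1 hu0.le
      linarith
    have h2 : 0 ≤ u * E := mul_nonneg hu0.le hE0
    calc 2 * u * y * E = 2 * (y * (u * E)) := by ring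
      _ ≤ 2 * (|y| * (u * E)) := by
        have := mul_le_mul_of_nonneg_right (le_abs_self y) h2
        linarith
      _ ≤ 2 * (|y| * (1 + y)) := by
        have := mul_le_mul_of_nonneg_left h1 (abs_nonneg y)
        linarith
      _ = _ := by ring
  have k3 : 2 * |y| * (1 + y) ≤ 1 + 3 * y ^ 2 := by
    have h1 : |y| ^ 2 = y ^ 2 := sq_abs y
    have h2 := abs_nonneg y
    have h3 := le_abs_self y
    nlinarith [sq_nonneg (|y| - 1)]
  have k4 : 6 * u ^ 2 * (r * (C + sa) + r * (C + sb) - E) ≤ 14 * (1 + y) := by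
    have h1 : r * (C + sa) + r * (C + sb) - E ≤ r * (22 / 10 * C) := by nlinarith
    have h2 : 6 * u ^ 2 * (r * (C + sa) + r * (C + sb) - E) ≤ 6 * u ^ 2 * (r * (22 / 10 * C)) :=
      mul_le_mul_of_nonneg_left h1 (by positivity)
    have h3 : 6 * u ^ 2 * (r * (22 / 10 * C)) = (u * r) * (132 / 10 * (u * C)) := by ring
    rw [h3, hur, one_mul] at h2
    have h4 : u * C = 1 + y := by rw [hy]; ring
    rw [h4] at h2
    linarith
  have k5 : 14 * (1 + y) ≤ 21 + 7 * y ^ 2 := by nlinarith [sq_nonneg (y - 1)]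
  have k6 : (-2 * u * y + 6 * u ^ 2) * (r * (C + sa) + r * (C + sb) - E) =
      (-2 * u * y) * (r * (C + sa) + r * (C + sb) - E) +
      6 * u ^ 2 * (r * (C + sa) + r * (C + sb) - E) := by ring
  rw [k6, k1] at hsum
  have k7 : 10 * y ^ 2 ≤ r * y ^ 2 := mul_le_mul_of_nonneg_right (by linarith) (sq_nonneg y)
  linarith

end XG

open XG in
/-- [XG] generator of `XX` on real states without loops -/
theorem gen_XX {n : ℕ} {A : Finset (Sym2 (Fin n))} (hA : A ⊆ tr univ) (hur : u * r = 1)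
    (hr : 100 ≤ r) (hrn : r ≤ n) (hth0 : 0 ≤ th) (hth : th ≤ 1 / 10)
    (hI : Inv (BK n) th u (toSt (BK n) A)) :
    ∑ T ∈ bl (BK n) A, (XX u (A \ T) - XX u A) + 2 * dXX u A ≤
      r * (10 * XX u A + 100 * (n * u) ^ 2 * S 2 u (toSt (BK n) A) + 100 * u * n ^ 2) := by
  have hr0 : 0 < r := by linarith
  have hu0 : 0 < u := by
    by_contra h
    push Not at h
    nlinarith
  have hn0 : (0 : ℝ) ≤ n := Nat.cast_nonneg n
  set X := S 2 u (toSt (BK n) A) with hX
  have hX0 : 0 ≤ X := sum_nonneg fun _ _ => sq_nonneg _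
  have e1 : ∑ T ∈ bl (BK n) A, (XX u (A \ T) - XX u A) + 2 * dXX u A =
      ∑ a : Fin n, ∑ b ∈ univ.erase a,
      (∑ T ∈ bl (BK n) A, ((u * cd (A \ T) a b - 1) ^ 2 - (u * cd A a b - 1) ^ 2) +
      2 * (2 * (u * cd A a b - 1) * cd A a b)) := by
    unfold XX dXX
    simp only [← sum_sub_distrib, mul_sum, sum_add_distrib]
    congr 1
    rw [sum_comm]
    refine sum_congr rfl fun a _ => ?_
    rw [sum_comm]
  rw [e1]
  have e2 : ∑ a : Fin n, ∑ b ∈ univ.erase a,
      (∑ T ∈ bl (BK n) A, ((u * cd (A \ T) a b - 1) ^ 2 - (u * cd A a b - 1) ^ 2) +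
      2 * (2 * (u * cd A a b - 1) * cd A a b)) ≤
      ∑ a : Fin n, ∑ b ∈ univ.erase a, (r * (3 * (u * cd A a b - 1) ^ 2) +
      2 * ∑ w ∈ nb A a b, xv u (toSt (BK n) A) s(a, w) ^ 2 +
      2 * ∑ w ∈ nb A a b, xv u (toSt (BK n) A) s(b, w) ^ 2 + 30) :=
    sum_le_sum fun a _ => sum_le_sum fun b hb =>
      pair hur hr hth hI (ne_of_mem_erase hb).symm
  refine e2.trans ?_
  -- the four sums
  have s1 : ∑ a : Fin n, ∑ b ∈ univ.erase a, r * (3 * (u * cd A a b - 1) ^ 2) =
      r * (3 * XX u A) := by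
    unfold XX
    simp only [mul_sum]
  have hrow : ∀ a : Fin n, ∑ b ∈ univ.erase a, ∑ w ∈ nb A a b,
      xv u (toSt (BK n) A) s(a, w) ^ 2 ≤
      n * ∑ w ∈ univ.filter (fun w => s(a, w) ∈ A), xv u (toSt (BK n) A) s(a, w) ^ 2 := by
    intro a
    have h1 : ∀ b ∈ univ.erase a, ∑ w ∈ nb A a b, xv u (toSt (BK n) A) s(a, w) ^ 2 ≤
        ∑ w ∈ univ.filter (fun w => s(a, w) ∈ A), xv u (toSt (BK n) A) s(a, w) ^ 2 := by
      intro b _
      refine sum_le_sum_of_subset_of_nonneg ?_ fun _ _ _ => sq_nonneg _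
      intro w hw
      exact mem_filter.2 ⟨mem_univ _, (mem_filter.1 hw).2.1⟩
    refine (sum_le_sum h1).trans ?_
    rw [sum_const, nsmul_eq_mul]
    refine mul_le_mul_of_nonneg_right ?_ (sum_nonneg fun _ _ => sq_nonneg _)
    have : (univ.erase a).card ≤ n := by
      refine (card_le_card (erase_subset _ _)).trans ?_
      rw [card_univ, Fintype.card_fin]
    exact_mod_cast this
  have hord := sum_ord_le A (fun e => xv u (toSt (BK n) A) e ^ 2) (fun _ => sq_nonneg _)
  have s2 : ∑ a : Fin n, ∑ b ∈ univ.erase a, 2 * ∑ w ∈ nb A a b,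
      xv u (toSt (BK n) A) s(a, w) ^ 2 ≤ 4 * n * X := by
    simp only [← mul_sum]
    have h1 := sum_le_sum (s := univ) fun a _ => hrow a
    rw [← mul_sum] at h1
    have h2 := mul_le_mul_of_nonneg_left hord hn0
    have h3 : ∑ e ∈ A, xv u (toSt (BK n) A) e ^ 2 = X := rfl
    rw [h3] at h2
    linarith
  have s3 : ∑ a : Fin n, ∑ b ∈ univ.erase a, 2 * ∑ w ∈ nb A a b,
      xv u (toSt (BK n) A) s(b, w) ^ 2 ≤ 4 * n * X := by
    have h1 : ∑ a : Fin n, ∑ b ∈ univ.erase a, 2 * ∑ w ∈ nb A a b,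
        xv u (toSt (BK n) A) s(b, w) ^ 2 = ∑ a : Fin n, ∑ b ∈ univ.erase a,
        2 * ∑ w ∈ nb A a b, xv u (toSt (BK n) A) s(a, w) ^ 2 := by
      rw [sum_comm' (t' := univ) (s' := fun b => univ.erase b)]
      · refine sum_congr rfl fun b _ => sum_congr rfl fun a _ => ?_
        congr 1
        have : nb A a b = nb A b a := by
          ext w
          simp only [nb, mem_filter, mem_univ, true_and]
          tauto
        rw [this]
      · intro x y
        simp only [mem_univ, mem_erase, and_true, true_and]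
        exact ne_comm
    rw [h1]; exact s2
  have s4 : ∑ a : Fin n, ∑ b ∈ univ.erase a, (30 : ℝ) ≤ 30 * n ^ 2 := by
    have h1 : ∀ a ∈ (univ : Finset (Fin n)), ∑ b ∈ univ.erase a, (30 : ℝ) ≤ 30 * n := by
      intro a _
      rw [sum_const, nsmul_eq_mul]
      have : (univ.erase a).card ≤ n := by
        refine (card_le_card (erase_subset _ _)).trans ?_
        rw [card_univ, Fintype.card_fin]
      have h2 : ((univ.erase a).card : ℝ) ≤ n := by exact_mod_cast this
      linarith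
    refine (sum_le_sum h1).trans ?_
    rw [sum_const, nsmul_eq_mul, card_univ, Fintype.card_fin]
    exact le_of_eq (by ring)
  simp only [sum_add_distrib]
  rw [s1]
  have hXX : 0 ≤ XX u A := sum_nonneg fun _ _ => sum_nonneg fun _ _ => sq_nonneg _
  have hnu : 1 ≤ n * u := by
    have := mul_le_mul_of_nonneg_right hrn hu0.le
    have h2 : r * u = 1 := by rw [mul_comm]; exact hur
    linarith
  have t1 : 8 * n * X ≤ r * (100 * (n * u) ^ 2 * X) := by
    have h1 : r * (100 * (n * u) ^ 2 * X) = (u * r) * (100 * (n * u) * (n * X)) := by ring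
    rw [h1, hur, one_mul]
    have h2 : 0 ≤ n * X := mul_nonneg hn0 hX0
    nlinarith
  have t2 : 30 * (n : ℝ) ^ 2 ≤ r * (100 * u * n ^ 2) := by
    have h1 : r * (100 * u * n ^ 2) = (u * r) * (100 * (n : ℝ) ^ 2) := by ring
    rw [h1, hur, one_mul]
    nlinarith [sq_nonneg (n : ℝ)]
  have t3 : r * (3 * XX u A) ≤ r * (10 * XX u A) := by
    apply mul_le_mul_of_nonneg_left _ hr0.le
    linarith
  have t4 : r * (10 * XX u A + 100 * (n * u) ^ 2 * X + 100 * u * n ^ 2) =
    r * (10 * XX u A) + r * (100 * (n * u) ^ 2 * X) + r * (100 * u * n ^ 2) := by ring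
  rw [t4]
  linarith

end

end Vale.Agent.P046.NL
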