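import Vale.Agent.P046.NL.BADCa
import Vale.Agent.P046.NL.XG

/-! P046 no-log, row BADCORE. -/

namespace Vale.Agent.P046.NL

open Finset Vale.Agent.P046

noncomputable section

theorem BADC.genXX_holds : BADC.GenXX := fun _ _ _ _ _ hA hur hr hrn h0 h1 hI =>
  gen_XX hA hur hr hrn h0 h1 hI

/-- [BADCORE] -/
theorem bad_core : ∃ n0 : ℕ, ∀ n : ℕ, n0 ≤ n →
    ∃ E h1 : ℝ, 0 ≤ E ∧ 0 < h1 ∧ ∀ h u : ℝ, 0 < h → h ≤ h1 → 1 / ((n : ℝ) - 2) ≤ u →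
      u + 2 * h ≤ u0 n → ∀ A : Finset (Sym2 (Fin n)), A ⊆ tr univ → GoodE n u A →
      BadE n (u + 2 * h) A
        + h * ∑ T ∈ bl (BK n) A, (BadE n (u + 2 * h) (A \ T) - BadE n (u + 2 * h) A)
        ≤ BadE n u A + E * h ^ 2
          + h / (u + 2 * h) * (u0 n ^ (5001 : ℝ) * (u + 2 * h) ^ (-5001 : ℝ) *
            ((n : ℝ) ^ 2 / t0 e0 ^ 6 * (10000 * (u + 2 * h) ^ 3 * (A.card : ℝ))
              + 2 * 10 ^ 12 * (n : ℝ) ^ 2 * u0 n ^ 2 *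
                (100 * (n * (u + 2 * h)) ^ 2 * S 2 (u + 2 * h) (toSt (BK n) A)
                  + 100 * (u + 2 * h) * n ^ 2))) :=
  bad_core_of BADC.genXX_holds

end

end Vale.Agent.P046.NL
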