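import Vale.Agent.P046.NL.FixAux

/-!
P046, removal of the logarithm: row CVX.
-/

namespace Vale.Agent.P046.NL

open Finset Vale.Agent.P046

noncomputable section

variable {α : Type} [DecidableEq α]

/-- [CVX] time step: `u' = u + 2 h` -/
theorem time_S (k : ℕ) (hk : Even k) (u h : ℝ) (s : St α) :
    S k (u + 2 * h) s - 2 * h * dS k (u + 2 * h) s ≤ S k u s := by
  have h1 := FixAux.S_time hk u (u + 2 * h) s
  have h2 : u + 2 * h - u = 2 * h := by ring
  rw [h2] at h1
  linarith

theorem time_Ph (Bl : Finset (Finset α)) {dl : ℝ} (hdl : 0 < dl) (u h : ℝ) (s : St α) :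
    Ph Bl dl (u + 2 * h) s - 2 * h * dPh Bl dl (u + 2 * h) s ≤ Ph Bl dl u s := by
  have h1 := FixAux.Ph_time Bl hdl u (u + 2 * h) s
  have h2 : u + 2 * h - u = 2 * h := by ring
  rw [h2] at h1
  linarith

end

end Vale.Agent.P046.NL
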