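import Vale.Agent.P046.NL.Defs2

/-!
P046, no-log: row [RED], real states (`toSt`): generator, functionals and invariants.
The blocks must be nonempty for `gen_toSt` (an empty block would die in the modified process
without changing the set of points), hence the hypothesis `Lin3 Bl`.
-/

namespace Vale.Agent.P046.NL

open Finset Vale.Agent.P046

noncomputable section

variable {α : Type} [DecidableEq α]

namespace RED

theorem mem_bl' {Bl : Finset (Finset α)} {A T : Finset α} :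
    T ∈ bl Bl A ↔ T ∈ Bl ∧ T ⊆ A := by
  unfold bl; exact mem_filter

theorem ring_toSt {Bl : Finset (Finset α)} {A T : Finset α} (hT : T ∈ bl Bl A)
    (hne : T.Nonempty) : ring (toSt Bl A) T = toSt Bl (A \ T) := by
  have hTA : T ⊆ A := (mem_bl'.1 hT).2
  have hW : (bl Bl A).filter (fun S => S ≠ T ∧ Disjoint S (T ∩ A)) = bl Bl (A \ T) := by
    ext S
    rw [mem_filter, mem_bl', mem_bl', inter_eq_left.2 hTA]
    constructor
    · rintro ⟨⟨h1, h2⟩, _, h4⟩
      exact ⟨h1, subset_sdiff.2 ⟨h2, h4⟩⟩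
    · rintro ⟨h1, h2⟩
      obtain ⟨h3, h4⟩ := subset_sdiff.1 h2
      refine ⟨⟨h1, h3⟩, ?_, h4⟩
      rintro rfl
      exact hne.ne_empty (disjoint_self_iff_empty _ |>.1 h4)
  show St.mk ((bl Bl A).filter (fun S => S ≠ T ∧ Disjoint S (T ∩ A))) (A \ T) ∅ (fun _ => 0)
    (if T ⊆ A then A \ T else A) = St.mk (bl Bl (A \ T)) (A \ T) ∅ (fun _ => 0) (A \ T)
  rw [hW, if_pos hTA]

theorem sdiff_bl {Bl : Finset (Finset α)} {A T : Finset α} (hT : T ∈ bl Bl A) : T \ A = ∅ :=
  sdiff_eq_empty_iff_subset.2 (mem_bl'.1 hT).2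

end RED

/-- [RED] the generator on a real state -/
theorem gen_toSt {Bl : Finset (Finset α)} (hL : Lin3 Bl) (r : ℝ) (G : St α → ℝ) (A : Finset α) :
    gen Bl r G (toSt Bl A) = ∑ T ∈ bl Bl A, (G (toSt Bl (A \ T)) - G (toSt Bl A)) := by
  have h1 : ∑ T ∈ (toSt Bl A).W, (G (ring (toSt Bl A) T) - G (toSt Bl A)) =
      ∑ T ∈ bl Bl A, (G (toSt Bl (A \ T)) - G (toSt Bl A)) := by
    refine sum_congr rfl fun T hT => ?_
    have hne : T.Nonempty := by
      rw [← card_pos, hL.card3 T (RED.mem_bl'.1 hT).1]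
      norm_num
    rw [RED.ring_toSt hT hne]
  have h2 : ∑ T ∈ (toSt Bl A).W, ∑ f ∈ T \ (toSt Bl A).B,
      (r * (1 + (toSt Bl A).a f) - 1) * (G (virt (toSt Bl A) T) - G (toSt Bl A)) = 0 := by
    refine sum_eq_zero fun T hT => ?_
    have h3 : T \ (toSt Bl A).B = ∅ := RED.sdiff_bl hT
    rw [h3, sum_empty]
  have h4 : bl Bl (toSt Bl A).A \ (toSt Bl A).W = ∅ := by
    show bl Bl A \ bl Bl A = ∅
    exact Finset.sdiff_self _
  unfold gen
  rw [h1, h2, h4, sum_empty, add_zero, add_zero]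

theorem V_toSt (Bl : Finset (Finset α)) (A : Finset α) : V (toSt Bl A) = 0 := by
  unfold V
  refine sum_eq_zero fun T hT => ?_
  have h3 : T \ (toSt Bl A).B = ∅ := RED.sdiff_bl hT
  rw [h3, card_empty, Nat.cast_zero]

theorem Ph_toSt (Bl : Finset (Finset α)) (dl u : ℝ) (A : Finset α) :
    Ph Bl dl u (toSt Bl A) = 0 := by
  have h1 : ((toSt Bl A).A \ (toSt Bl A).B) \ (toSt Bl A).Z = ∅ := by
    show (A \ A) \ ∅ = ∅
    rw [Finset.sdiff_self]
    simp
  have h2 : (toSt Bl A).B \ (toSt Bl A).A = ∅ := by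
    show A \ A = ∅
    exact Finset.sdiff_self _
  have h3 : (toSt Bl A).Z ∩ (toSt Bl A).A = ∅ := by
    show ∅ ∩ A = ∅
    exact empty_inter _
  unfold Ph
  rw [h1, h2, h3, sum_empty, card_empty, Nat.cast_zero]
  ring

theorem inv_toSt (Bl : Finset (Finset α)) (th u : ℝ) (hth : 0 ≤ th) (A : Finset α)
    (h : ∀ e ∈ A, |xv u (toSt Bl A) e| ≤ th) : Inv Bl th u (toSt Bl A) := by
  refine ⟨filter_subset _ _, ?_, ?_, ?_, ?_, ?_⟩
  · intro T hT hTA
    exact RED.mem_bl'.2 ⟨hT, hTA⟩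
  · intro T hT
    have h1 : T ⊆ A := (RED.mem_bl'.1 hT).2
    exact h1.trans subset_union_left
  · exact disjoint_empty_right _
  · intro e
    by_cases he : e ∈ A
    · exact h e he
    · have h1 : xv u (toSt Bl A) e = 0 := by
        unfold xv toSt
        simp only [he, if_false]
      rw [h1, abs_zero]
      exact hth
  · intro e
    show |(0 : ℝ)| ≤ th
    rw [abs_zero]
    exact hth

end

end Vale.Agent.P046.NL
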