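import Vale.Agent.P046.NL.GenSum

/-!
P046, no log: generator of the power sums `S 2`, `S 4` (and of any `∑ φ (x_e)`).
-/

namespace Vale.Agent.P046.NL

open Finset Vale.Agent.P046

noncomputable section

variable {α : Type} [DecidableEq α]

theorem rate_nonneg {Bl : Finset (Finset α)} {th u r : ℝ} (hr : 0 ≤ r) (hr1 : 1 ≤ r * (1 - th))
    {s : St α} (hI : Inv Bl th u s) {f : α} (hf : f ∉ s.B) : 0 ≤ r * (1 + s.a f) - 1 := by
  rw [← rate_virt (u := u) r s hf]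
  have h5 := (abs_le.mp (hI.bd f)).1
  have h6 : r * (1 - th) ≤ r * (1 + xv u s f) := mul_le_mul_of_nonneg_left (by linarith) hr
  linarith

/-- the generator applied to `φ (x_e)` -/
theorem genAt_comp_le {Bl : Finset (Finset α)} {th u r : ℝ} (hL : Lin3 Bl) (hur : u * r = 1)
    (hr : 0 ≤ r) (hr1 : 1 ≤ r * (1 - th)) {s : St α} (hI : Inv Bl th u s) (φ : ℝ → ℝ) (κ : ℝ)
    {e : α} (he : e ∈ s.B)
    (hφ : ∀ D, 0 ≤ D → D ≤ 3 → φ (xv u s e - u * D) - φ (xv u s e) ≤ κ * D) :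
    genAt r (fun s e => φ (xv u s e)) s e ≤ κ * ((2 * r - 2) * dW s.W e + r ^ 2 * be u s e) := by
  rw [← drift_dW hL hur hI.sub he, mul_add]
  unfold genAt
  refine add_le_add ?_ ?_
  · rw [mul_sum]
    refine sum_le_sum fun T hT => ?_
    rw [mem_filter] at hT
    show φ (xv u (ring s T) e) - φ (xv u s e) ≤ _
    rw [xv_ring u he hT.2]
    exact hφ _ (ring_diff_nonneg s T e) (ring_diff_le hL hI.sub hT.1 hT.2)
  · rw [mul_sum]
    refine sum_le_sum fun T hT => ?_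
    rw [mul_sum]
    refine sum_le_sum fun f hf => ?_
    rw [mem_sdiff] at hf
    have h1 := erase_diff_nonneg s.W hT e
    have h2 := erase_diff_le s.W hT e
    have h3 := rate_nonneg hr hr1 hI hf.2
    have h4 := hφ _ h1 (by linarith)
    show (r * (1 + s.a f) - 1) * (φ (xv u (virt s T) e) - φ (xv u s e)) ≤ _
    rw [xv_virt u he T]
    calc (r * (1 + s.a f) - 1) * (φ (xv u s e - u * (dW s.W e - dW (s.W.erase T) e))
            - φ (xv u s e))
        ≤ (r * (1 + s.a f) - 1) * (κ * (dW s.W e - dW (s.W.erase T) e)) :=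
          mul_le_mul_of_nonneg_left h4 h3
      _ = κ * ((r * (1 + s.a f) - 1) * (dW s.W e - dW (s.W.erase T) e)) := by ring

theorem sm_abs_le {Bl : Finset (Finset α)} {th u : ℝ} (hL : Lin3 Bl) {s : St α}
    (hI : Inv Bl th u s) {T : Finset α} (hT : T ∈ s.W) {e : α} (he : e ∈ T) :
    |sm u s T e| ≤ 2 * th := by
  unfold sm
  refine (abs_sum_le_sum_abs _ _).trans ?_
  refine (sum_le_sum fun f _ => hI.bd f).trans ?_
  rw [sum_const, nsmul_eq_mul, card_erase_of_mem he, hL.card3 T (hI.sub hT)]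
  norm_num

theorem be_abs_le {Bl : Finset (Finset α)} {th u r : ℝ} (hL : Lin3 Bl) (hur : u * r = 1)
    (hu : 0 ≤ u) (hth : 0 ≤ th) {s : St α} (hI : Inv Bl th u s) {e : α} (he : e ∈ s.B) :
    |be u s e| ≤ 2 * th * (1 + th) := by
  unfold be
  rw [abs_mul, abs_of_nonneg hu]
  have h1 : |∑ T ∈ s.W.filter (fun T => e ∈ T), sm u s T e| ≤ dW s.W e * (2 * th) := by
    refine (abs_sum_le_sum_abs _ _).trans ?_
    have h2 : ∀ T ∈ s.W.filter (fun T => e ∈ T), |sm u s T e| ≤ 2 * th := by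
      intro T hT
      rw [mem_filter] at hT
      exact sm_abs_le hL hI hT.1 hT.2
    refine (sum_le_sum h2).trans ?_
    rw [sum_const, nsmul_eq_mul]
    rfl
  have h3 : u * dW s.W e = 1 + xv u s e := by
    rw [dW_eq_xv hur s he, ← mul_assoc, hur, one_mul]
  have h4 := (abs_le.mp (hI.bd e)).2
  calc u * |∑ T ∈ s.W.filter (fun T => e ∈ T), sm u s T e|
      ≤ u * (dW s.W e * (2 * th)) := mul_le_mul_of_nonneg_left h1 hu
    _ = (u * dW s.W e) * (2 * th) := by ring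
    _ = (1 + xv u s e) * (2 * th) := by rw [h3]
    _ ≤ (1 + th) * (2 * th) := mul_le_mul_of_nonneg_right (by linarith) (by linarith)
    _ = _ := by ring

/-- `u` times the drift rate of the degree -/
theorem u_drift {u r : ℝ} (hur : u * r = 1) (s : St α) {e : α} (he : e ∈ s.B) :
    u * ((2 * r - 2) * dW s.W e + r ^ 2 * be u s e)
      = 2 * dW s.W e - 2 * (1 + xv u s e) + r * be u s e := by
  have h3 : u * dW s.W e = 1 + xv u s e := by
    rw [dW_eq_xv hur s he, ← mul_assoc, hur, one_mul]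
  have h1 : u * ((2 * r - 2) * dW s.W e + r ^ 2 * be u s e)
      = 2 * (u * r) * dW s.W e - 2 * (u * dW s.W e) + (u * r) * (r * be u s e) := by ring
  rw [h1, hur, h3]
  ring

theorem u2_drift {u r : ℝ} (hur : u * r = 1) (s : St α) {e : α} (he : e ∈ s.B) :
    u ^ 2 * ((2 * r - 2) * dW s.W e + r ^ 2 * be u s e)
      = (2 - 2 * u) * (1 + xv u s e) + be u s e := by
  have h3 : u * dW s.W e = 1 + xv u s e := by
    rw [dW_eq_xv hur s he, ← mul_assoc, hur, one_mul]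
  have h1 : u ^ 2 * ((2 * r - 2) * dW s.W e + r ^ 2 * be u s e)
      = u * (u * ((2 * r - 2) * dW s.W e + r ^ 2 * be u s e)) := by ring
  rw [h1, u_drift hur s he]
  have h2 : u * (2 * dW s.W e - 2 * (1 + xv u s e) + r * be u s e)
      = 2 * (u * dW s.W e) - 2 * u * (1 + xv u s e) + (u * r) * be u s e := by ring
  rw [h2, h3, hur]
  ring

/-- `u ^ 2` times the drift rate of the degree is bounded -/
theorem u2_drift_le {Bl : Finset (Finset α)} {th u r : ℝ} (hL : Lin3 Bl) (hur : u * r = 1)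
    (hu : 0 ≤ u) (hth : 0 ≤ th) (hth' : th ≤ 1 / 10) {s : St α} (hI : Inv Bl th u s) {e : α}
    (he : e ∈ s.B) :
    u ^ 2 * ((2 * r - 2) * dW s.W e + r ^ 2 * be u s e) ≤ 5 / 2 := by
  rw [u2_drift hur s he]
  have h1 := (abs_le.mp (be_abs_le hL hur hu hth hI he)).2
  have h4 := abs_le.mp (hI.bd e)
  have h5 : 0 ≤ u * (1 + xv u s e) := mul_nonneg hu (by linarith)
  nlinarith

theorem drift_nonneg {Bl : Finset (Finset α)} {th u r : ℝ} (hL : Lin3 Bl) (hur : u * r = 1)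
    (hr : 0 ≤ r) (hr1 : 1 ≤ r * (1 - th)) {s : St α} (hI : Inv Bl th u s) {e : α}
    (he : e ∈ s.B) : 0 ≤ (2 * r - 2) * dW s.W e + r ^ 2 * be u s e := by
  rw [← drift_dW hL hur hI.sub he]
  refine add_nonneg (sum_nonneg fun T _ => ring_diff_nonneg s T e)
    (sum_nonneg fun T hT => sum_nonneg fun f hf => ?_)
  exact mul_nonneg (rate_nonneg hr hr1 hI (mem_sdiff.mp hf).2) (erase_diff_nonneg s.W hT e)

/-- row GS2 -/
theorem gen_S2_raw {Bl : Finset (Finset α)} {th u r : ℝ} (hL : Lin3 Bl) (hur : u * r = 1)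
    (hu : 0 ≤ u) (hth : 0 ≤ th) (hth' : th ≤ 1 / 10) (hr : 2 ≤ r) {s : St α}
    (hI : Inv Bl th u s) :
    gen Bl r (S 2 u) s + 2 * dS 2 u s
      ≤ - r * ∑ e ∈ s.B, (1 + xv u s e) * xv u s e ^ 2
        - 2 * r * ∑ e ∈ s.B, xv u s e * be u s e + 8 * Q s := by
  have hr0 : 0 ≤ r := by linarith
  have hr1 : 1 ≤ r * (1 - th) := by nlinarith
  have h0 : gen Bl r (S 2 u) s = ∑ e ∈ s.B, (-(dW s.W e) * xv u s e ^ 2
      + genAt r (fun s e => xv u s e ^ 2) s e) :=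
    gen_sum Bl r (fun s e => xv u s e ^ 2) (fun _ _ _ => rfl) s
  rw [h0]
  unfold dS Q
  rw [mul_sum, mul_sum, mul_sum, ← sum_add_distrib]
  have hQ : (8 : ℝ) * (s.B.card : ℝ) = ∑ e ∈ s.B, (8 : ℝ) := by
    rw [sum_const, nsmul_eq_mul]; ring
  rw [hQ, ← sum_sub_distrib, ← sum_add_distrib]
  refine sum_le_sum fun e he => ?_
  have h1 := genAt_comp_le hL hur hr0 hr1 hI (fun x => x ^ 2)
    (-2 * u * xv u s e + 3 * u ^ 2) he (fun D hD hD' => by
      have : 0 ≤ u ^ 2 * (D * (3 - D)) :=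
        mul_nonneg (sq_nonneg u) (mul_nonneg hD (by linarith))
      nlinarith)
  have h2 := u_drift hur s he
  have h3 := u2_drift_le hL hur hu hth hth' hI he
  have h4 := abs_le.mp (hI.bd e)
  have h5 := dW_eq_xv hur s he
  have h6 : (-2 * u * xv u s e + 3 * u ^ 2) * ((2 * r - 2) * dW s.W e + r ^ 2 * be u s e)
      = -2 * xv u s e * (u * ((2 * r - 2) * dW s.W e + r ^ 2 * be u s e))
        + 3 * (u ^ 2 * ((2 * r - 2) * dW s.W e + r ^ 2 * be u s e)) := by ring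
  rw [h6, h2] at h1
  have h7 : xv u s e * (1 + xv u s e) ≤ 11 / 100 := by nlinarith
  push_cast
  rw [pow_one]
  set R := (2 * r - 2) * dW s.W e + r ^ 2 * be u s e with hR
  have h9 : dW s.W e * xv u s e ^ 2 = r * (1 + xv u s e) * xv u s e ^ 2 := by rw [h5]
  linarith

/-- row GS4 -/
theorem gen_S4_raw {Bl : Finset (Finset α)} {th u r : ℝ} (hL : Lin3 Bl) (hur : u * r = 1)
    (hu : 0 ≤ u) (hth : 0 ≤ th) (hth' : th ≤ 1 / 10) (hr : 2 ≤ r) {s : St α}
    (hI : Inv Bl th u s) :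
    gen Bl r (S 4 u) s + 2 * dS 4 u s
      ≤ - r * ∑ e ∈ s.B, (1 + xv u s e) * xv u s e ^ 4
        - 4 * r * ∑ e ∈ s.B, xv u s e ^ 3 * be u s e + 62 * S 2 u s + 210 * u ^ 2 * Q s := by
  have hr0 : 0 ≤ r := by linarith
  have hr1 : 1 ≤ r * (1 - th) := by nlinarith
  have h0 : gen Bl r (S 4 u) s = ∑ e ∈ s.B, (-(dW s.W e) * xv u s e ^ 4
      + genAt r (fun s e => xv u s e ^ 4) s e) :=
    gen_sum Bl r (fun s e => xv u s e ^ 4) (fun _ _ _ => rfl) s
  rw [h0]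
  unfold dS Q S
  rw [mul_sum, mul_sum, mul_sum, mul_sum, ← sum_add_distrib]
  have hQ : (210 : ℝ) * u ^ 2 * (s.B.card : ℝ) = ∑ e ∈ s.B, (210 : ℝ) * u ^ 2 := by
    rw [sum_const, nsmul_eq_mul]; ring
  rw [hQ, ← sum_sub_distrib, ← sum_add_distrib, ← sum_add_distrib]
  refine sum_le_sum fun e he => ?_
  set x := xv u s e with hx
  have h1 := genAt_comp_le hL hur hr0 hr1 hI (fun x => x ^ 4)
    (-4 * u * x ^ 3 + 24 * u ^ 2 * x ^ 2 + 81 * u ^ 4) he (fun D hD hD' => by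
      simp only [← hx]
      have a1 : 0 ≤ (x * u * D - u ^ 2 * D ^ 2) ^ 2 := sq_nonneg _
      have a2 : 0 ≤ (x * u * D + u ^ 2 * D ^ 2) ^ 2 := sq_nonneg _
      have a3 : 0 ≤ u ^ 2 * x ^ 2 * (D * (3 - D)) :=
        mul_nonneg (by positivity) (mul_nonneg hD (by linarith))
      have a4 : 0 ≤ u ^ 4 * (D * (27 - D ^ 3)) := by
        have : D ^ 3 ≤ 27 := by
          have := pow_le_pow_left₀ hD hD' 3
          norm_num at this
          exact this
        exact mul_nonneg (by positivity) (mul_nonneg hD (by linarith))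
      have e1 : (x - u * D) ^ 4 - x ^ 4
          = -4 * u * x ^ 3 * D + 6 * (u ^ 2 * x ^ 2 * D ^ 2) - 4 * x * u ^ 3 * D ^ 3
            + u ^ 4 * D ^ 4 := by ring
      rw [e1]
      nlinarith)
  have h2 := u_drift hur s he
  have h3 := u2_drift_le hL hur hu hth hth' hI he
  have h3' : 0 ≤ u ^ 2 * ((2 * r - 2) * dW s.W e + r ^ 2 * be u s e) :=
    mul_nonneg (sq_nonneg u) (drift_nonneg hL hur hr0 hr1 hI he)
  have h4 := abs_le.mp (hI.bd e)
  rw [← hx] at h4 h2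
  have h5 := dW_eq_xv hur s he
  rw [← hx] at h5
  set R := (2 * r - 2) * dW s.W e + r ^ 2 * be u s e with hR
  have h6 : (-4 * u * x ^ 3 + 24 * u ^ 2 * x ^ 2 + 81 * u ^ 4) * R
      = -4 * x ^ 3 * (u * R) + 24 * x ^ 2 * (u ^ 2 * R) + 81 * u ^ 2 * (u ^ 2 * R) := by ring
  rw [h6, h2] at h1
  have h7 : x ^ 3 * (1 + x) ≤ 11 / 100 * x ^ 2 := by
    have : x * (1 + x) ≤ 11 / 100 := by nlinarith
    nlinarith [sq_nonneg x]
  have h8 : 24 * x ^ 2 * (u ^ 2 * R) ≤ 24 * x ^ 2 * (5 / 2) :=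
    mul_le_mul_of_nonneg_left h3 (by positivity)
  have h9 : 81 * u ^ 2 * (u ^ 2 * R) ≤ 81 * u ^ 2 * (5 / 2) :=
    mul_le_mul_of_nonneg_left h3 (by positivity)
  have h10 : 0 ≤ u ^ 2 := sq_nonneg u
  have h11 : dW s.W e * x ^ 4 = r * (1 + x) * x ^ 4 := by rw [h5]
  have h12 : 0 ≤ x ^ 2 := sq_nonneg x
  push_cast
  linarith

end

end Vale.Agent.P046.NL
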