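import Vale.Agent.P046.NL.Defs2
import Vale.Agent.P046.NL.GS

/-!
P046, no log: row SCR (crude generator bounds of `S (2 k)`, `k = 1, 2, 3`, without virtual copies).
-/

namespace Vale.Agent.P046.NL

open Finset Vale.Agent.P046

noncomputable section

variable {α : Type} [DecidableEq α]

namespace SCR

theorem pow_bd {D : ℝ} (hD : 0 ≤ D) (hD' : D ≤ 3) (j : ℕ) : D ^ (j + 1) ≤ 3 ^ j * D := by
  rw [pow_succ]
  exact mul_le_mul_of_nonneg_right (pow_le_pow_left₀ hD hD' j) hD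

theorem phi_le {x u D : ℝ} (hu : 0 ≤ u) (hD : 0 ≤ D) (hD' : D ≤ 3) {k : ℕ}
    (hk : k = 1 ∨ k = 2 ∨ k = 3) :
    (x - u * D) ^ (2 * k) - x ^ (2 * k) ≤
      (-(2 * k) * u * x ^ (2 * k - 1) + 45 * u ^ 2 * (|x| + 3 * u) ^ (2 * k - 2)) * D := by
  obtain ⟨z, hz⟩ : ∃ z, z = |x| := ⟨_, rfl⟩
  have hz0 : 0 ≤ z := hz ▸ abs_nonneg x
  have hxz : -x ≤ z := hz ▸ neg_le_abs x
  have hz2 : x ^ 2 = z ^ 2 := by rw [hz, sq_abs]
  have d2 := pow_bd hD hD' 1
  have d3 := pow_bd hD hD' 2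
  have d4 := pow_bd hD hD' 3
  have d5 := pow_bd hD hD' 4
  have d6 := pow_bd hD hD' 5
  norm_num at d2 d3 d4 d5 d6
  have hD3 : 0 ≤ D ^ 3 := by positivity
  have hD5 : 0 ≤ D ^ 5 := by positivity
  have hx3 : -x ^ 3 ≤ z ^ 3 := by
    have : -x ^ 3 = (-x) * x ^ 2 := by ring
    rw [this, hz2]
    have : z ^ 3 = z * z ^ 2 := by ring
    rw [this]
    exact mul_le_mul_of_nonneg_right hxz (sq_nonneg z)
  rw [← hz]
  rcases hk with rfl | rfl | rfl
  · have e1 : (x - u * D) ^ (2 * 1) - x ^ (2 * 1) = -2 * u * x * D + u ^ 2 * D ^ 2 := by ring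
    have e2 : (-(2 * ((1 : ℕ) : ℝ)) * u * x ^ (2 * 1 - 1) + 45 * u ^ 2 * (z + 3 * u) ^ (2 * 1 - 2)) * D
        = -2 * u * x * D + 45 * u ^ 2 * D := by
      norm_num
      ring
    rw [e1, e2]
    have h1 : u ^ 2 * D ^ 2 ≤ u ^ 2 * (3 * D) := mul_le_mul_of_nonneg_left d2 (sq_nonneg u)
    have h2 : 0 ≤ u ^ 2 * D := by positivity
    linarith
  · have e1 : (x - u * D) ^ (2 * 2) - x ^ (2 * 2) =
        -4 * u * x ^ 3 * D + 6 * u ^ 2 * x ^ 2 * D ^ 2 + 4 * u ^ 3 * (-x * D ^ 3) + u ^ 4 * D ^ 4 := by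
      ring
    have e2 : (-(2 * ((2 : ℕ) : ℝ)) * u * x ^ (2 * 2 - 1) + 45 * u ^ 2 * (z + 3 * u) ^ (2 * 2 - 2)) * D
        = -4 * u * x ^ 3 * D + 45 * (u ^ 2 * z ^ 2 * D) + 270 * (u ^ 3 * (z * D))
          + 405 * (u ^ 4 * D) := by
      norm_num
      ring
    rw [e1, e2, hz2]
    have h1 : 6 * u ^ 2 * z ^ 2 * D ^ 2 ≤ 6 * u ^ 2 * z ^ 2 * (3 * D) :=
      mul_le_mul_of_nonneg_left d2 (by positivity)
    have h2 : -x * D ^ 3 ≤ z * (9 * D) :=
      (mul_le_mul_of_nonneg_right hxz hD3).trans (mul_le_mul_of_nonneg_left d3 hz0)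
    have h3 : 4 * u ^ 3 * (-x * D ^ 3) ≤ 4 * u ^ 3 * (z * (9 * D)) :=
      mul_le_mul_of_nonneg_left h2 (by positivity)
    have h4 : u ^ 4 * D ^ 4 ≤ u ^ 4 * (27 * D) := mul_le_mul_of_nonneg_left d4 (by positivity)
    have h5 : 0 ≤ u ^ 2 * z ^ 2 * D := by positivity
    have h6 : 0 ≤ u ^ 3 * (z * D) := by positivity
    have h7 : 0 ≤ u ^ 4 * D := by positivity
    linarith
  · have e1 : (x - u * D) ^ (2 * 3) - x ^ (2 * 3) =
        -6 * u * x ^ 5 * D + 15 * u ^ 2 * (x ^ 2) ^ 2 * D ^ 2 + 20 * u ^ 3 * (-x ^ 3 * D ^ 3)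
          + 15 * u ^ 4 * x ^ 2 * D ^ 4 + 6 * u ^ 5 * (-x * D ^ 5) + u ^ 6 * D ^ 6 := by
      ring
    have e2 : (-(2 * ((3 : ℕ) : ℝ)) * u * x ^ (2 * 3 - 1) + 45 * u ^ 2 * (z + 3 * u) ^ (2 * 3 - 2)) * D
        = -6 * u * x ^ 5 * D + 45 * (u ^ 2 * (z ^ 2) ^ 2 * D) + 540 * (u ^ 3 * (z ^ 3 * D))
          + 2430 * (u ^ 4 * z ^ 2 * D) + 4860 * (u ^ 5 * (z * D)) + 3645 * (u ^ 6 * D) := by
      norm_num
      ring
    rw [e1, e2, hz2]
    have h1 : 15 * u ^ 2 * (z ^ 2) ^ 2 * D ^ 2 ≤ 15 * u ^ 2 * (z ^ 2) ^ 2 * (3 * D) :=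
      mul_le_mul_of_nonneg_left d2 (by positivity)
    have h2 : -x ^ 3 * D ^ 3 ≤ z ^ 3 * (9 * D) :=
      (mul_le_mul_of_nonneg_right hx3 hD3).trans (mul_le_mul_of_nonneg_left d3 (by positivity))
    have h3 : 20 * u ^ 3 * (-x ^ 3 * D ^ 3) ≤ 20 * u ^ 3 * (z ^ 3 * (9 * D)) :=
      mul_le_mul_of_nonneg_left h2 (by positivity)
    have h4 : 15 * u ^ 4 * z ^ 2 * D ^ 4 ≤ 15 * u ^ 4 * z ^ 2 * (27 * D) :=
      mul_le_mul_of_nonneg_left d4 (by positivity)
    have h5 : -x * D ^ 5 ≤ z * (81 * D) :=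
      (mul_le_mul_of_nonneg_right hxz hD5).trans (mul_le_mul_of_nonneg_left d5 hz0)
    have h6 : 6 * u ^ 5 * (-x * D ^ 5) ≤ 6 * u ^ 5 * (z * (81 * D)) :=
      mul_le_mul_of_nonneg_left h5 (by positivity)
    have h7 : u ^ 6 * D ^ 6 ≤ u ^ 6 * (243 * D) := mul_le_mul_of_nonneg_left d6 (by positivity)
    have p1 : 0 ≤ u ^ 2 * (z ^ 2) ^ 2 * D := by positivity
    have p2 : 0 ≤ u ^ 3 * (z ^ 3 * D) := by positivity
    have p3 : 0 ≤ u ^ 4 * z ^ 2 * D := by positivity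
    have p4 : 0 ≤ u ^ 5 * (z * D) := by positivity
    have p5 : 0 ≤ u ^ 6 * D := by positivity
    linarith

theorem young {a b : ℝ} (ha : 0 ≤ a) (hb : 0 ≤ b) (m : ℕ) :
    a ^ m * b ≤ a ^ (m + 1) + b ^ (m + 1) := by
  rcases le_total a b with h | h
  · have h1 : a ^ m * b ≤ b ^ m * b := mul_le_mul_of_nonneg_right (pow_le_pow_left₀ ha h m) hb
    rw [← pow_succ] at h1
    have := pow_nonneg ha (m + 1)
    linarith
  · have h1 : a ^ m * b ≤ a ^ m * a := mul_le_mul_of_nonneg_left h (pow_nonneg ha m)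
    rw [← pow_succ] at h1
    have := pow_nonneg hb (m + 1)
    linarith

theorem sub_B {s : St α} (hV : V s = 0) {T : Finset α}
    (hT : T ∈ s.W) : T ⊆ s.B := by
  have h1 := (sum_eq_zero_iff_of_nonneg (fun T _ => Nat.cast_nonneg _)).1 hV T hT
  rw [Nat.cast_eq_zero, card_eq_zero, sdiff_eq_empty_iff_subset] at h1
  exact h1

/-- sum over flags -/
theorem flag_sum {s : St α} (hV : ∀ T ∈ s.W, T ⊆ s.B) (F : Finset α → α → ℝ) :
    ∑ e ∈ s.B, ∑ T ∈ s.W.filter (fun T => e ∈ T), F T e = ∑ T ∈ s.W, ∑ e ∈ T, F T e := by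
  have h1 : ∀ e ∈ s.B, ∑ T ∈ s.W.filter (fun T => e ∈ T), F T e =
      ∑ T ∈ s.W, if e ∈ T then F T e else 0 := fun e _ => sum_filter _ _
  rw [sum_congr rfl h1, sum_comm]
  refine sum_congr rfl fun T hT => ?_
  rw [← sum_filter]
  refine sum_congr ?_ fun _ _ => rfl
  ext e
  rw [mem_filter]
  exact ⟨fun h => h.2, fun h => ⟨hV T hT h, h⟩⟩

theorem sum_be_le {Bl : Finset (Finset α)} {th u r : ℝ} (hL : Lin3 Bl) (hur : u * r = 1)
    (hu : 0 ≤ u) (hth' : th ≤ 1 / 10) {s : St α} (hI : Inv Bl th u s)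
    (hV : ∀ T ∈ s.W, T ⊆ s.B) (m : ℕ) (hm : Even (m + 1)) :
    ∑ e ∈ s.B, |xv u s e| ^ m * |be u s e| ≤ 5 * S (m + 1) u s := by
  have h1 : ∀ e ∈ s.B, |xv u s e| ^ m * |be u s e| ≤
      u * ∑ T ∈ s.W.filter (fun T => e ∈ T), ∑ f ∈ T.erase e,
        (xv u s e ^ (m + 1) + xv u s f ^ (m + 1)) := by
    intro e _
    have h2 : |be u s e| ≤ u * ∑ T ∈ s.W.filter (fun T => e ∈ T), ∑ f ∈ T.erase e, |xv u s f| := by
      unfold be
      rw [abs_mul, abs_of_nonneg hu]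
      refine mul_le_mul_of_nonneg_left ?_ hu
      refine (abs_sum_le_sum_abs _ _).trans (sum_le_sum fun T _ => ?_)
      exact abs_sum_le_sum_abs _ _
    calc |xv u s e| ^ m * |be u s e|
        ≤ |xv u s e| ^ m *
          (u * ∑ T ∈ s.W.filter (fun T => e ∈ T), ∑ f ∈ T.erase e, |xv u s f|) :=
          mul_le_mul_of_nonneg_left h2 (pow_nonneg (abs_nonneg _) m)
      _ = u * ∑ T ∈ s.W.filter (fun T => e ∈ T), ∑ f ∈ T.erase e,
            |xv u s e| ^ m * |xv u s f| := by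
          rw [mul_left_comm, mul_sum]
          congr 1
          refine sum_congr rfl fun T _ => ?_
          rw [mul_sum]
      _ ≤ _ := by
          refine mul_le_mul_of_nonneg_left (sum_le_sum fun T _ => sum_le_sum fun f _ => ?_) hu
          have h3 := young (abs_nonneg (xv u s e)) (abs_nonneg (xv u s f)) m
          rw [hm.pow_abs, hm.pow_abs] at h3
          exact h3
  refine (sum_le_sum h1).trans ?_
  rw [← mul_sum, flag_sum hV]
  have h4 : ∀ T ∈ s.W, ∑ e ∈ T, ∑ f ∈ T.erase e, (xv u s e ^ (m + 1) + xv u s f ^ (m + 1)) =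
      ∑ e ∈ T, 4 * xv u s e ^ (m + 1) := by
    intro T hT
    have hc := hL.card3 T (hI.sub hT)
    have h5 : ∀ e ∈ T, ∑ f ∈ T.erase e, (xv u s e ^ (m + 1) + xv u s f ^ (m + 1)) =
        xv u s e ^ (m + 1) + ∑ f ∈ T, xv u s f ^ (m + 1) := by
      intro e he
      rw [sum_add_distrib, sum_const, card_erase_of_mem he, hc,
        ← add_sum_erase T (fun f => xv u s f ^ (m + 1)) he, nsmul_eq_mul]
      push_cast
      ring
    rw [sum_congr rfl h5, sum_add_distrib, sum_const, hc, nsmul_eq_mul, ← mul_sum]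
    push_cast
    ring
  rw [sum_congr rfl h4, ← flag_sum hV]
  have h6 : ∀ e ∈ s.B, ∑ T ∈ s.W.filter (fun T => e ∈ T), 4 * xv u s e ^ (m + 1) =
      dW s.W e * (4 * xv u s e ^ (m + 1)) := by
    intro e _
    rw [sum_const, nsmul_eq_mul]
    rfl
  rw [sum_congr rfl h6]
  unfold S
  rw [mul_sum, mul_sum]
  refine sum_le_sum fun e he => ?_
  have h7 : u * dW s.W e = 1 + xv u s e := by
    rw [dW_eq_xv hur s he, ← mul_assoc, hur, one_mul]
  have h8 := (abs_le.mp (hI.bd e)).2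
  have h9 : 0 ≤ xv u s e ^ (m + 1) := hm.pow_nonneg _
  calc u * (dW s.W e * (4 * xv u s e ^ (m + 1))) = (u * dW s.W e) * 4 * xv u s e ^ (m + 1) := by
        ring
    _ = (1 + xv u s e) * 4 * xv u s e ^ (m + 1) := by rw [h7]
    _ ≤ 5 * xv u s e ^ (m + 1) := mul_le_mul_of_nonneg_right (by linarith) h9

end SCR

open SCR

/-- row SCR: crude forms, no virtual copies -/
theorem gen_Scr {Bl : Finset (Finset α)} {th u r : ℝ} {s : St α} (hL : Lin3 Bl)
    (hur : u * r = 1) (hr : 100 ≤ r) (hth0 : 0 ≤ th)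
    (hth : th ≤ 1 / 10) (hI : Inv Bl th u s) (hV : V s = 0) (k : ℕ) (hk : k = 1 ∨ k = 2 ∨ k = 3) :
    gen Bl r (S (2 * k) u) s + 2 * dS (2 * k) u s ≤
      r * (10000 * (S (2 * k) u s + u ^ k * Q s)) := by
  have hr0 : 0 < r := by linarith
  have hu : 0 < u := by
    by_contra h
    push Not at h
    nlinarith
  have hu1 : u ≤ 1 / 100 := by
    have : u * 100 ≤ u * r := mul_le_mul_of_nonneg_left hr hu.le
    linarith
  have hr1 : 1 ≤ r * (1 - th) := by nlinarith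
  have hsub : ∀ T ∈ s.W, T ⊆ s.B := fun T hT => sub_B hV hT
  have hk1 : 1 ≤ k := by omega
  have hk3 : (k : ℝ) ≤ 3 := by
    have : k ≤ 3 := by omega
    exact_mod_cast this
  have hkR : (1 : ℝ) ≤ k := by exact_mod_cast hk1
  have heven : Even (2 * k - 1 + 1) := by
    rw [Nat.sub_add_cancel (by omega)]
    exact even_two_mul k
  have hbe := sum_be_le hL hur hu.le hth hI hsub (2 * k - 1) heven
  rw [Nat.sub_add_cancel (by omega : 1 ≤ 2 * k)] at hbe
  have h0 : gen Bl r (S (2 * k) u) s = ∑ e ∈ s.B, (-(dW s.W e) * xv u s e ^ (2 * k)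
      + genAt r (fun s e => xv u s e ^ (2 * k)) s e) :=
    gen_sum Bl r (fun s e => xv u s e ^ (2 * k)) (fun _ _ _ => rfl) s
  -- pointwise estimate
  have hpt : ∀ e ∈ s.B, (-(dW s.W e) * xv u s e ^ (2 * k)
      + genAt r (fun s e => xv u s e ^ (2 * k)) s e) +
      2 * (((2 * k : ℕ) : ℝ) * xv u s e ^ (2 * k - 1) * dW s.W e) ≤
      r * (6 * (|xv u s e| ^ (2 * k - 1) * |be u s e|)) +
        r * (3900 * (xv u s e ^ (2 * k) + u ^ k)) := by
    intro e he
    obtain ⟨x, hx⟩ : ∃ x, x = xv u s e := ⟨_, rfl⟩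
    have h1 := genAt_comp_le hL hur hr0.le hr1 hI (fun x => x ^ (2 * k))
      (-(2 * k) * u * x ^ (2 * k - 1) + 45 * u ^ 2 * (|x| + 3 * u) ^ (2 * k - 2)) he
      (fun D hD hD' => by
        simp only [← hx]
        exact phi_le hu.le hD hD' hk)
    have h2 := u_drift hur s he
    have h3 := u2_drift_le hL hur hu.le hth0 hth hI he
    have h4 := abs_le.mp (hI.bd e)
    have h5 := dW_eq_xv hur s he
    rw [← hx] at h2 h4 h5 ⊢
    obtain ⟨R, hR⟩ : ∃ R, R = (2 * r - 2) * dW s.W e + r ^ 2 * be u s e := ⟨_, rfl⟩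
    rw [← hR] at h1 h2 h3
    obtain ⟨y, hy⟩ : ∃ y, y = (|x| + 3 * u) ^ (2 * k - 2) := ⟨_, rfl⟩
    obtain ⟨w, hw⟩ : ∃ w, w = x ^ (2 * k - 1) := ⟨_, rfl⟩
    have hy0 : 0 ≤ y := by rw [hy]; positivity
    have hwabs : |w| = |x| ^ (2 * k - 1) := by rw [hw, abs_pow]
    rw [← hy, ← hw] at h1
    rw [← hw, ← hwabs]
    have h6 : (-(2 * k) * u * w + 45 * u ^ 2 * y) * R =
        -(2 * k) * w * (u * R) + 45 * y * (u ^ 2 * R) := by ring
    rw [h6, h2] at h1
    have h7 : 45 * y * (u ^ 2 * R) ≤ 45 * y * (5 / 2) :=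
      mul_le_mul_of_nonneg_left h3 (by positivity)
    -- Young
    have hx2k : 0 ≤ x ^ (2 * k) := (even_two_mul k).pow_nonneg _
    have huk : 0 ≤ u ^ k := by positivity
    have hu2k : u ^ (2 * k) ≤ u ^ k := by
      rw [two_mul, pow_add]
      have : u ^ k ≤ 1 := pow_le_one₀ hu.le (by linarith)
      exact mul_le_of_le_one_left huk this
    have h8 : |w| ≤ r * (x ^ (2 * k) + u ^ k) := by
      have a1 := young (abs_nonneg x) hu.le (2 * k - 1)
      rw [Nat.sub_add_cancel (by omega : 1 ≤ 2 * k), (even_two_mul k).pow_abs, ← hwabs] at a1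
      have a2 : |w| = r * (|w| * u) := by
        have : r * (|w| * u) = (u * r) * |w| := by ring
        rw [this, hur, one_mul]
      rw [a2]
      exact mul_le_mul_of_nonneg_left (a1.trans (by linarith)) hr0.le
    have h9 : y ≤ r * (33 * (x ^ (2 * k) + u ^ k)) := by
      have b0 : 0 ≤ |x| + 3 * u := by positivity
      have b1 : y * u ≤ (|x| + 3 * u) ^ (2 * k) + u ^ k := by
        have hyk : y = ((|x| + 3 * u) ^ 2) ^ (k - 1) := by
          rw [hy, ← pow_mul]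
          congr 1
          omega
        have c1 := young (sq_nonneg (|x| + 3 * u)) hu.le (k - 1)
        rw [Nat.sub_add_cancel hk1, ← hyk, ← pow_mul] at c1
        exact c1
      have b2 : (|x| + 3 * u) ^ (2 * k) ≤ 32 * (x ^ (2 * k) + u ^ k) := by
        have c1 := add_pow_le (abs_nonneg x) (by positivity : 0 ≤ 3 * u) (2 * k)
        rw [(even_two_mul k).pow_abs] at c1
        have c2 : (3 * u) ^ (2 * k) ≤ u ^ k := by
          have : (3 * u) ^ (2 * k) = (9 * u) ^ k * u ^ k := by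
            rw [pow_mul, ← mul_pow]
            congr 1
            ring
          rw [this]
          exact mul_le_of_le_one_left huk (pow_le_one₀ (by positivity) (by linarith))
        have c3 : (2 : ℝ) ^ (2 * k - 1) ≤ 32 := by
          rcases hk with rfl | rfl | rfl <;> norm_num
        calc (|x| + 3 * u) ^ (2 * k) ≤ 2 ^ (2 * k - 1) * (x ^ (2 * k) + (3 * u) ^ (2 * k)) := c1
          _ ≤ 32 * (x ^ (2 * k) + (3 * u) ^ (2 * k)) :=
              mul_le_mul_of_nonneg_right c3 (by positivity)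
          _ ≤ 32 * (x ^ (2 * k) + u ^ k) := by linarith
      have a2 : y = r * (y * u) := by
        have : r * (y * u) = (u * r) * y := by ring
        rw [this, hur, one_mul]
      rw [a2]
      exact mul_le_mul_of_nonneg_left (b1.trans (by linarith)) hr0.le
    -- assembly
    have h10 : -(2 * (k : ℝ)) * w * (2 * dW s.W e - 2 * (1 + x) + r * be u s e) =
        -(4 * k * w * dW s.W e) + 4 * k * (w * (1 + x)) + r * (2 * k * (-w * be u s e)) := by
      ring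
    have h11 : 4 * (k : ℝ) * (w * (1 + x)) ≤ 4 * 3 * (|w| * (11 / 10)) := by
      have a1 : w * (1 + x) ≤ |w| * (11 / 10) :=
        (mul_le_mul_of_nonneg_right (le_abs_self w) (by linarith)).trans
          (mul_le_mul_of_nonneg_left (by linarith) (abs_nonneg w))
      calc 4 * (k : ℝ) * (w * (1 + x)) ≤ 4 * (k : ℝ) * (|w| * (11 / 10)) :=
            mul_le_mul_of_nonneg_left a1 (by positivity)
        _ ≤ 4 * 3 * (|w| * (11 / 10)) :=
            mul_le_mul_of_nonneg_right (by linarith) (by positivity)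
    have h12 : r * (2 * k * (-w * be u s e)) ≤ r * (6 * (|w| * |be u s e|)) := by
      refine mul_le_mul_of_nonneg_left ?_ hr0.le
      have a1 : -w * be u s e ≤ |w| * |be u s e| := by
        rw [← abs_neg w, ← abs_mul]
        exact le_abs_self _
      calc 2 * (k : ℝ) * (-w * be u s e) ≤ 2 * (k : ℝ) * (|w| * |be u s e|) :=
            mul_le_mul_of_nonneg_left a1 (by positivity)
        _ ≤ 6 * (|w| * |be u s e|) :=
            mul_le_mul_of_nonneg_right (by linarith) (by positivity)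
    have h13 : 0 ≤ dW s.W e * x ^ (2 * k) := by
      unfold dW
      positivity
    have h14 : 0 ≤ r * (x ^ (2 * k) + u ^ k) := by positivity
    push_cast
    rw [h10] at h1
    linarith
  unfold dS
  rw [h0, mul_sum, ← sum_add_distrib]
  refine (sum_le_sum hpt).trans ?_
  rw [sum_add_distrib, ← mul_sum, ← mul_sum, ← mul_sum, ← mul_sum, sum_add_distrib, sum_const,
    nsmul_eq_mul]
  have h20 : ∑ e ∈ s.B, xv u s e ^ (2 * k) = S (2 * k) u s := rfl
  have h21 : (s.B.card : ℝ) = Q s := rfl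
  rw [h20, h21, ← mul_add]
  refine mul_le_mul_of_nonneg_left ?_ hr0.le
  have h22 : 0 ≤ S (2 * k) u s := sum_nonneg fun e _ => (even_two_mul k).pow_nonneg _
  have h23 : 0 ≤ u ^ k * Q s := by
    unfold Q
    positivity
  have h24 : Q s * u ^ k = u ^ k * Q s := mul_comm _ _
  linarith

end

end Vale.Agent.P046.NL
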