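import Vale.Agent.P046.NL.Defs2
import Mathlib.Analysis.SpecialFunctions.Pow.Real
import Mathlib.Analysis.SpecialFunctions.Log.Deriv

/-! P046 no-log, row TERM: a weighted term of the Lyapunov functional. -/

namespace Vale.Agent.P046.NL

open Finset Vale.Agent.P046

noncomputable section

namespace TERM

theorem exp_sub_le (y : ℝ) : |Real.exp y - 1 - y| ≤ y ^ 2 * Real.exp |y| := by
  have h := Complex.norm_exp_sub_sum_le_norm_mul_exp (y : ℂ) 2
  have h1 : (Complex.exp (y : ℂ) - ∑ m ∈ range 2, (y : ℂ) ^ m / (m.factorial : ℂ))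
      = ((Real.exp y - 1 - y : ℝ) : ℂ) := by
    simp [Finset.sum_range_succ, Complex.ofReal_exp]
    ring
  rw [h1, Complex.norm_real, Complex.norm_real, Real.norm_eq_abs, Real.norm_eq_abs, sq_abs] at h
  exact h

theorem log_le {x : ℝ} (h0 : 0 ≤ x) (h1 : x ≤ 1 / 4) : |Real.log (1 - x) + x| ≤ 2 * x ^ 2 := by
  have h := Real.abs_log_sub_add_sum_range_le (x := x) (by rw [abs_of_nonneg h0]; linarith) 1
  have h2 : (∑ i ∈ range 1, x ^ (i + 1) / ((i : ℝ) + 1)) = x := by simp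
  rw [h2, abs_of_nonneg h0, add_comm x] at h
  refine h.trans ?_
  rw [div_le_iff₀ (by linarith)]
  have h3 : x ^ (1 + 1) = x ^ 2 := rfl
  rw [h3]
  nlinarith [sq_nonneg x, mul_nonneg (sq_nonneg x) (by linarith : (0 : ℝ) ≤ 1 - 2 * x)]

/-- the weight `(1 - 2 t) ^ a` -/
theorem weight (a : ℝ) : ∃ C1 C2 C3 : ℝ, 0 ≤ C1 ∧ 0 ≤ C2 ∧ 0 ≤ C3 ∧ ∀ t : ℝ, 0 ≤ t → t ≤ 1 / 8 →
    |1 - (1 - 2 * t) ^ a - 2 * a * t| ≤ C1 * t ^ 2 ∧ |1 - (1 - 2 * t) ^ a| ≤ C2 * t ∧
      0 < (1 - 2 * t) ^ a ∧ (1 - 2 * t) ^ a ≤ C3 := by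
  set E : ℝ := Real.exp |a| with hE
  have hE0 : 0 < E := Real.exp_pos _
  refine ⟨16 * a ^ 2 * E + 8 * |a|, 2 * |a| + 2 * a ^ 2 * E + |a|, E, by positivity, by positivity,
    hE0.le, ?_⟩
  intro t ht0 ht1
  have hx0 : (0 : ℝ) ≤ 2 * t := by linarith
  have hx1 : 2 * t ≤ 1 / 4 := by linarith
  have hpos : 0 < 1 - 2 * t := by linarith
  have hl := log_le hx0 hx1
  set L : ℝ := Real.log (1 - 2 * t) with hL
  have hw : (1 - 2 * t) ^ a = Real.exp (a * L) := by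
    rw [Real.rpow_def_of_pos hpos, mul_comm]
  have habs := abs_le.mp hl
  have hL1 : |L| ≤ 4 * t := by
    rw [abs_le]
    constructor <;> nlinarith [habs.1, habs.2]
  have ha0 : 0 ≤ |a| := abs_nonneg a
  have hy1 : |a * L| ≤ |a| * (4 * t) := by
    rw [abs_mul]; exact mul_le_mul_of_nonneg_left hL1 ha0
  have hy2 : |a * L| ≤ |a| := by
    refine hy1.trans ?_
    nlinarith
  have hexp : Real.exp |a * L| ≤ E := Real.exp_le_exp.mpr hy2
  have hsq : (a * L) ^ 2 ≤ 16 * a ^ 2 * t ^ 2 := by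
    rw [← sq_abs (a * L)]
    calc |a * L| ^ 2 ≤ (|a| * (4 * t)) ^ 2 := by
          exact pow_le_pow_left₀ (abs_nonneg _) hy1 2
      _ = 16 * |a| ^ 2 * t ^ 2 := by ring
      _ = 16 * a ^ 2 * t ^ 2 := by rw [sq_abs]
  have hmain : |Real.exp (a * L) - 1 - a * L| ≤ 16 * a ^ 2 * E * t ^ 2 := by
    refine (exp_sub_le (a * L)).trans ?_
    calc (a * L) ^ 2 * Real.exp |a * L| ≤ (16 * a ^ 2 * t ^ 2) * E :=
          mul_le_mul hsq hexp (Real.exp_pos _).le (by positivity)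
      _ = 16 * a ^ 2 * E * t ^ 2 := by ring
  have hlin : |a * L + 2 * a * t| ≤ 8 * |a| * t ^ 2 := by
    have h1 : a * L + 2 * a * t = a * (L + 2 * t) := by ring
    rw [h1, abs_mul]
    calc |a| * |L + 2 * t| ≤ |a| * (2 * (2 * t) ^ 2) := mul_le_mul_of_nonneg_left hl ha0
      _ = 8 * |a| * t ^ 2 := by ring
  have h1 : |1 - (1 - 2 * t) ^ a - 2 * a * t| ≤ (16 * a ^ 2 * E + 8 * |a|) * t ^ 2 := by
    have h2 : 1 - (1 - 2 * t) ^ a - 2 * a * t
        = -((Real.exp (a * L) - 1 - a * L) + (a * L + 2 * a * t)) := by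
      rw [hw]; ring
    rw [h2, abs_neg]
    refine (abs_add_le _ _).trans ?_
    calc _ ≤ 16 * a ^ 2 * E * t ^ 2 + 8 * |a| * t ^ 2 := add_le_add hmain hlin
      _ = (16 * a ^ 2 * E + 8 * |a|) * t ^ 2 := by ring
  refine ⟨h1, ?_, ?_, ?_⟩
  · have h2 : 1 - (1 - 2 * t) ^ a = (1 - (1 - 2 * t) ^ a - 2 * a * t) + 2 * a * t := by ring
    rw [h2]
    refine (abs_add_le _ _).trans ?_
    have h3 : |2 * a * t| = 2 * |a| * t := by
      rw [abs_mul, abs_mul, abs_of_nonneg ht0]; norm_num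
    rw [h3]
    have h4 : (16 * a ^ 2 * E + 8 * |a|) * t ^ 2 ≤ (16 * a ^ 2 * E + 8 * |a|) * (t * (1 / 8)) := by
      refine mul_le_mul_of_nonneg_left ?_ (by positivity)
      nlinarith
    calc _ ≤ (16 * a ^ 2 * E + 8 * |a|) * (t * (1 / 8)) + 2 * |a| * t :=
          add_le_add (h1.trans h4) le_rfl
      _ = (2 * |a| + 2 * a ^ 2 * E + |a|) * t := by ring
  · rw [hw]; exact Real.exp_pos _
  · rw [hw]
    refine (Real.exp_le_exp.mpr (le_abs_self _)).trans hexp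

end TERM

/-- [TERM] abstract weighted term: `F, F', dF, g` numbers; weight `u ^ a` -/
theorem term_pow (a : ℝ) : ∃ C : ℝ, 0 ≤ C ∧ ∀ u h r F F' dF g R e : ℝ, 0 < u → 0 < h →
    (u + 2 * h) * r = 1 → h * r ≤ 1 / 8 → 0 ≤ F → 0 ≤ F' → F' - 2 * h * dF - e ≤ F → 0 ≤ e →
    g + 2 * dF ≤ r * R →
    (u + 2 * h) ^ a * (F' + h * g) ≤ u ^ a * F + h * r * (u + 2 * h) ^ a * (R + 2 * a * F')
      + C * (u + 2 * h) ^ a * ((h * r) ^ 2 * F' + h ^ 2 * r * |dF| + e) := by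
  obtain ⟨C1, C2, C3, hC1, hC2, hC3, hw⟩ := TERM.weight a
  refine ⟨C1 + 2 * C2 + C3, by positivity, ?_⟩
  intro u h r F F' dF g R e hu hh hur hhr hF hF' hFe he hg
  have hv : 0 < u + 2 * h := by linarith
  have hr : 0 < r := by
    by_contra hcon
    push Not at hcon
    nlinarith [mul_nonneg hv.le (neg_nonneg.mpr hcon)]
  have ht0 : 0 ≤ h * r := by positivity
  obtain ⟨h1, h2, h3, h4⟩ := hw (h * r) ht0 hhr
  set w : ℝ := (1 - 2 * (h * r)) ^ a with hwdef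
  set v : ℝ := u + 2 * h with hvdef
  have huv : u = v * (1 - 2 * (h * r)) := by
    have : v * (1 - 2 * (h * r)) = v - 2 * h * (v * r) := by ring
    rw [this, hur]; rw [hvdef]; ring
  have huw : u ^ a = v ^ a * w := by
    rw [hwdef, ← Real.mul_rpow hv.le (by linarith), ← huv]
  have hva : 0 < v ^ a := Real.rpow_pos_of_pos hv a
  rw [huw]
  have key : F' + h * g ≤ w * F + h * r * (R + 2 * a * F')
      + (C1 + 2 * C2 + C3) * ((h * r) ^ 2 * F' + h ^ 2 * r * |dF| + e) := by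
    have k1 : h * g ≤ h * r * R - 2 * h * dF := by
      have := mul_le_mul_of_nonneg_left hg hh.le
      nlinarith
    have k2 : w * (F' - 2 * h * dF - e) ≤ w * F := mul_le_mul_of_nonneg_left hFe h3.le
    have a1 := (abs_le.mp h1).2
    have k3 : (1 - w - 2 * a * (h * r)) * F' ≤ C1 * (h * r) ^ 2 * F' :=
      mul_le_mul_of_nonneg_right a1 hF'
    have k4 : -((1 - w) * (2 * h * dF)) ≤ 2 * C2 * (h ^ 2 * r * |dF|) := by
      calc -((1 - w) * (2 * h * dF)) ≤ |(1 - w) * (2 * h * dF)| := neg_le_abs _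
        _ = |1 - w| * (2 * h * |dF|) := by
            rw [abs_mul, abs_mul, abs_of_pos (by positivity : (0 : ℝ) < 2 * h)]
        _ ≤ (C2 * (h * r)) * (2 * h * |dF|) :=
            mul_le_mul_of_nonneg_right h2 (by positivity)
        _ = 2 * C2 * (h ^ 2 * r * |dF|) := by ring
    have k5 : w * e ≤ C3 * e := mul_le_mul_of_nonneg_right h4 he
    have p1 : 0 ≤ (h * r) ^ 2 * F' := by positivity
    have p2 : 0 ≤ h ^ 2 * r * |dF| := by positivity
    have q1 : 0 ≤ (2 * C2 + C3) * ((h * r) ^ 2 * F') := by positivity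
    have q2 : 0 ≤ (C1 + C3) * (h ^ 2 * r * |dF|) := by positivity
    have q3 : 0 ≤ (C1 + 2 * C2) * e := by positivity
    linarith
  calc v ^ a * (F' + h * g)
      ≤ v ^ a * (w * F + h * r * (R + 2 * a * F')
        + (C1 + 2 * C2 + C3) * ((h * r) ^ 2 * F' + h ^ 2 * r * |dF| + e)) :=
        mul_le_mul_of_nonneg_left key hva.le
    _ = v ^ a * w * F + h * r * v ^ a * (R + 2 * a * F')
        + (C1 + 2 * C2 + C3) * v ^ a * ((h * r) ^ 2 * F' + h ^ 2 * r * |dF| + e) := by ring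

end

end Vale.Agent.P046.NL
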