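import Vale.Agent.P046.NL.Defs5
import Vale.Agent.P046.NL.EARLYTHM
import Vale.Agent.P046.NL.SCR
import Vale.Agent.P046.NL.RED
import Vale.Agent.P046.NL.MidAux
import Vale.Agent.P046.NL.TERM
import Vale.Agent.P046.NL.CVX

/-! P046 no-log, row BADCORE: the part of the early functional that detects bad states
(form with the row XG as a hypothesis; see BADCORE.lean). -/

namespace Vale.Agent.P046.NL

open Finset Vale.Agent.P046

noncomputable section

namespace BADC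

/-- row XG as a proposition -/
def GenXX : Prop := ∀ (n : ℕ) (A : Finset (Sym2 (Fin n))) (u r th : ℝ), A ⊆ tr univ → u * r = 1 →
    100 ≤ r → r ≤ n → 0 ≤ th → th ≤ 1 / 10 → Inv (BK n) th u (toSt (BK n) A) →
    ∑ T ∈ bl (BK n) A, (XX u (A \ T) - XX u A) + 2 * dXX u A ≤
      r * (10 * XX u A + 100 * (n * u) ^ 2 * S 2 u (toSt (BK n) A) + 100 * u * n ^ 2)

theorem xv_real {n : ℕ} (u : ℝ) {A : Finset (Sym2 (Fin n))} {e : Sym2 (Fin n)} (he : e ∈ A) :
    xv u (toSt (BK n) A) e = u * dW (bl (BK n) A) e - 1 := by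
  unfold xv
  have h1 : e ∈ (toSt (BK n) A).B := he
  rw [if_pos h1]
  rfl

/-- the invariants at the next time -/
theorem inv_next {n : ℕ} (hn : 4 ≤ n) {h u : ℝ} (hh : 0 < h) (hh1 : h ≤ t0 e0 / (8 * n))
    (hu : 1 / ((n : ℝ) - 2) ≤ u) {A : Finset (Sym2 (Fin n))} (hG : GoodE n u A) :
    Inv (BK n) (2 * t0 e0) (u + 2 * h) (toSt (BK n) A) := by
  have ht := ET.t0_pos
  have ht1 : t0 e0 ≤ 1 := by unfold t0 e0; norm_num
  have hn4 : (4 : ℝ) ≤ n := by exact_mod_cast hn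
  have hu1 : 1 / (n : ℝ) ≤ u := by
    refine le_trans ?_ hu
    exact one_div_le_one_div_of_le (by linarith) (by linarith)
  have hu0 : 0 < u := lt_of_lt_of_le (by positivity) hu1
  apply inv_toSt _ _ _ (by linarith)
  intro e he
  have h1 := ET.good_xv hG e he
  rw [xv_real u he] at h1
  rw [xv_real _ he]
  have hd : 0 ≤ dW (bl (BK n) A) e := by unfold dW; positivity
  obtain ⟨h2, h3⟩ := abs_le.1 h1
  have h4 : u * dW (bl (BK n) A) e ≤ 2 := by linarith
  have h5 : 8 * h ≤ t0 e0 * u := by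
    have h6 : t0 e0 / (8 * n) = t0 e0 * (1 / n) / 8 := by
      field_simp
    rw [h6] at hh1
    have h7 := mul_le_mul_of_nonneg_left hu1 ht.le
    linarith
  have h6 : 8 * h * dW (bl (BK n) A) e ≤ t0 e0 * 2 := by
    calc 8 * h * dW (bl (BK n) A) e ≤ t0 e0 * u * dW (bl (BK n) A) e :=
          mul_le_mul_of_nonneg_right h5 hd
      _ = t0 e0 * (u * dW (bl (BK n) A) e) := by ring
      _ ≤ _ := mul_le_mul_of_nonneg_left h4 ht.le
  have h7 : 0 ≤ h * dW (bl (BK n) A) e := mul_nonneg hh.le hd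
  rw [abs_le]
  constructor
  · nlinarith
  · nlinarith

theorem cd_nonneg {n : ℕ} (A : Finset (Sym2 (Fin n))) (a b : Fin n) : 0 ≤ cd A a b := by
  unfold cd; positivity

theorem cd_le {n : ℕ} (A : Finset (Sym2 (Fin n))) (a b : Fin n) : cd A a b ≤ n := by
  unfold cd
  have h1 : (univ.filter (fun w => s(a, w) ∈ A ∧ s(b, w) ∈ A)).card ≤ n := by
    refine (card_filter_le _ _).trans ?_
    rw [card_univ, Fintype.card_fin]
  exact_mod_cast h1

theorem XX_time {n : ℕ} (u h : ℝ) (A : Finset (Sym2 (Fin n))) :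
    XX (u + 2 * h) A - 2 * h * dXX (u + 2 * h) A - 0 ≤ XX u A := by
  unfold XX dXX
  rw [mul_sum, ← sum_sub_distrib, sub_zero]
  refine sum_le_sum fun a _ => ?_
  rw [mul_sum, ← sum_sub_distrib]
  refine sum_le_sum fun b _ => ?_
  nlinarith [sq_nonneg (2 * h * cd A a b)]

theorem XX_le {n : ℕ} {v : ℝ} (hv : 0 ≤ v) (hv1 : v ≤ 1) (A : Finset (Sym2 (Fin n))) :
    XX v A ≤ (n : ℝ) * ((n : ℝ) * ((n : ℝ) + 1) ^ 2) := by
  unfold XX
  have h1 : ∀ a ∈ (univ : Finset (Fin n)), ∑ b ∈ univ.erase a, (v * cd A a b - 1) ^ 2 ≤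
      (n : ℝ) * ((n : ℝ) + 1) ^ 2 := by
    intro a _
    have h2 : ∀ b ∈ (univ : Finset (Fin n)).erase a, (v * cd A a b - 1) ^ 2 ≤
        ((n : ℝ) + 1) ^ 2 := by
      intro b _
      have h3 := cd_nonneg A a b
      have h4 := cd_le A a b
      have h5 : 0 ≤ v * cd A a b := mul_nonneg hv h3
      have h6 : v * cd A a b ≤ n := by
        calc v * cd A a b ≤ 1 * cd A a b := mul_le_mul_of_nonneg_right hv1 h3
          _ ≤ n := by linarith
      have hn0 : (0 : ℝ) ≤ n := Nat.cast_nonneg n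
      apply sq_le_sq'
      · linarith
      · linarith
    refine (sum_le_sum h2).trans ?_
    rw [sum_const, nsmul_eq_mul]
    apply mul_le_mul_of_nonneg_right _ (by positivity)
    have h7 : ((univ : Finset (Fin n)).erase a).card ≤ n := by
      refine (card_erase_le).trans ?_
      rw [card_univ, Fintype.card_fin]
    exact_mod_cast h7
  refine (sum_le_sum h1).trans ?_
  rw [sum_const, nsmul_eq_mul, card_univ, Fintype.card_fin]

theorem dXX_le {n : ℕ} {v : ℝ} (hv : 0 ≤ v) (hv1 : v ≤ 1) (A : Finset (Sym2 (Fin n))) :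
    |dXX v A| ≤ (n : ℝ) * ((n : ℝ) * (2 * ((n : ℝ) + 1) * n)) := by
  unfold dXX
  have h1 : ∀ a ∈ (univ : Finset (Fin n)),
      |∑ b ∈ univ.erase a, 2 * (v * cd A a b - 1) * cd A a b| ≤
      (n : ℝ) * (2 * ((n : ℝ) + 1) * n) := by
    intro a _
    have h2 : ∀ b ∈ (univ : Finset (Fin n)).erase a, |2 * (v * cd A a b - 1) * cd A a b| ≤
        2 * ((n : ℝ) + 1) * n := by
      intro b _
      have h3 := cd_nonneg A a b
      have h4 := cd_le A a b
      have h5 : 0 ≤ v * cd A a b := mul_nonneg hv h3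
      have h6 : v * cd A a b ≤ n := by
        calc v * cd A a b ≤ 1 * cd A a b := mul_le_mul_of_nonneg_right hv1 h3
          _ ≤ n := by linarith
      have hn0 : (0 : ℝ) ≤ n := Nat.cast_nonneg n
      have h8 : |2 * (v * cd A a b - 1)| ≤ 2 * ((n : ℝ) + 1) := by
        rw [abs_le]
        constructor <;> linarith
      rw [abs_mul, abs_of_nonneg h3]
      exact mul_le_mul h8 h4 h3 (by positivity)
    refine (abs_sum_le_sum_abs _ _).trans ((sum_le_sum h2).trans ?_)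
    rw [sum_const, nsmul_eq_mul]
    apply mul_le_mul_of_nonneg_right _ (by positivity)
    have h7 : ((univ : Finset (Fin n)).erase a).card ≤ n := by
      refine (card_erase_le).trans ?_
      rw [card_univ, Fintype.card_fin]
    exact_mod_cast h7
  refine (abs_sum_le_sum_abs _ _).trans ((sum_le_sum h1).trans ?_)
  rw [sum_const, nsmul_eq_mul, card_univ, Fintype.card_fin]

theorem S_le_Q {α : Type} [DecidableEq α] {Bl : Finset (Finset α)} {th u : ℝ} {s : St α}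
    (hth : th ≤ 1) (hI : Inv Bl th u s) {k : ℕ} (hk : Even k) : S k u s ≤ Q s := by
  unfold S Q
  have h1 : ∀ e ∈ s.B, xv u s e ^ k ≤ 1 := by
    intro e _
    rw [← hk.pow_abs]
    exact pow_le_one₀ (abs_nonneg _) ((hI.bd e).trans hth)
  refine (sum_le_sum h1).trans ?_
  rw [sum_const, nsmul_eq_mul, mul_one]

theorem dS_le {α : Type} [DecidableEq α] {Bl : Finset (Finset α)} {th u : ℝ} {s : St α}
    (hth : th ≤ 1) (hI : Inv Bl th u s) (k : ℕ) :
    |dS k u s| ≤ Q s * ((k : ℝ) * (Bl.card : ℝ)) := by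
  unfold dS Q
  have h1 : ∀ e ∈ s.B, |(k : ℝ) * (xv u s e) ^ (k - 1) * dW s.W e| ≤ (k : ℝ) * (Bl.card : ℝ) := by
    intro e _
    have h2 : |xv u s e ^ (k - 1)| ≤ 1 := by
      rw [abs_pow]
      exact pow_le_one₀ (abs_nonneg _) ((hI.bd e).trans hth)
    have h3 : 0 ≤ dW s.W e := by unfold dW; positivity
    have h4 : dW s.W e ≤ (Bl.card : ℝ) := by
      unfold dW
      exact_mod_cast (card_filter_le _ _).trans (card_le_card hI.sub)
    rw [abs_mul, abs_mul, abs_of_nonneg h3, abs_of_nonneg (Nat.cast_nonneg k : (0 : ℝ) ≤ k)]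
    apply mul_le_mul _ h4 h3 (by positivity)
    calc (k : ℝ) * |xv u s e ^ (k - 1)| ≤ (k : ℝ) * 1 :=
          mul_le_mul_of_nonneg_left h2 (Nat.cast_nonneg k)
      _ = k := mul_one _
  refine (abs_sum_le_sum_abs _ _).trans ((sum_le_sum h1).trans ?_)
  rw [sum_const, nsmul_eq_mul]

theorem sum_BadE {n : ℕ} (v : ℝ) (A : Finset (Sym2 (Fin n))) :
    ∑ T ∈ bl (BK n) A, (BadE n v (A \ T) - BadE n v A) =
      u0 n ^ (5001 : ℝ) * v ^ (-5001 : ℝ) *
      ((n : ℝ) ^ 2 / t0 e0 ^ 6 *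
          ∑ T ∈ bl (BK n) A, (S 6 v (toSt (BK n) (A \ T)) - S 6 v (toSt (BK n) A))
        + 2 * 10 ^ 12 * (n : ℝ) ^ 2 * u0 n ^ 2 * ∑ T ∈ bl (BK n) A, (XX v (A \ T) - XX v A)) := by
  unfold BadE
  rw [mul_sum, mul_sum, ← sum_add_distrib, mul_sum]
  exact sum_congr rfl fun T _ => by ring

end BADC

open BADC MC

theorem bad_core_of (hXX : GenXX) : ∃ n0 : ℕ, ∀ n : ℕ, n0 ≤ n →
    ∃ E h1 : ℝ, 0 ≤ E ∧ 0 < h1 ∧ ∀ h u : ℝ, 0 < h → h ≤ h1 → 1 / ((n : ℝ) - 2) ≤ u →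
      u + 2 * h ≤ u0 n → ∀ A : Finset (Sym2 (Fin n)), A ⊆ tr univ → GoodE n u A →
      BadE n (u + 2 * h) A
        + h * ∑ T ∈ bl (BK n) A, (BadE n (u + 2 * h) (A \ T) - BadE n (u + 2 * h) A)
        ≤ BadE n u A + E * h ^ 2
          + h / (u + 2 * h) * (u0 n ^ (5001 : ℝ) * (u + 2 * h) ^ (-5001 : ℝ) *
            ((n : ℝ) ^ 2 / t0 e0 ^ 6 * (10000 * (u + 2 * h) ^ 3 * (A.card : ℝ))
              + 2 * 10 ^ 12 * (n : ℝ) ^ 2 * u0 n ^ 2 *
                (100 * (n * (u + 2 * h)) ^ 2 * S 2 (u + 2 * h) (toSt (BK n) A)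
                  + 100 * (u + 2 * h) * n ^ 2))) := by
  obtain ⟨n2, hn2⟩ := ET.ev_u0 (1 / 100) (by norm_num)
  refine ⟨n2, fun n hn => ?_⟩
  obtain ⟨hn4, hU100, hU1, -⟩ := hn2 n hn
  have ht := ET.t0_pos
  have ht1 : 2 * t0 e0 ≤ 1 / 10 := by unfold t0 e0; norm_num
  have hn4' : (4 : ℝ) ≤ n := by exact_mod_cast hn4
  have hn0 : (0 : ℝ) < n := by linarith
  have hU : 0 < u0 n := by unfold u0; exact Real.rpow_pos_of_pos hn0 _
  set umin : ℝ := 1 / ((n : ℝ) - 2) with humin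
  have hum : 0 < umin := by rw [humin]; apply one_div_pos.2; linarith
  obtain ⟨C, hC, hT⟩ := term_pow (-5001)
  obtain ⟨E1, hE1, H1⟩ := tp (Fm := (n : ℝ) ^ 2) (dm := (n : ℝ) ^ 2 * (6 * ((BK n).card : ℝ)))
    (em := 0) hC hT hum (by positivity) (by positivity) le_rfl
  obtain ⟨E2, hE2, H2⟩ := tp (Fm := (n : ℝ) * ((n : ℝ) * ((n : ℝ) + 1) ^ 2))
    (dm := (n : ℝ) * ((n : ℝ) * (2 * ((n : ℝ) + 1) * n)))
    (em := 0) hC hT hum (by positivity) (by positivity) le_rfl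
  refine ⟨u0 n ^ (5001 : ℝ) * ((n : ℝ) ^ 2 / t0 e0 ^ 6 * E1
      + 2 * 10 ^ 12 * (n : ℝ) ^ 2 * u0 n ^ 2 * E2), min (umin / 8) (t0 e0 / (8 * n)), ?_, ?_, ?_⟩
  · have := Real.rpow_nonneg hU.le (5001 : ℝ)
    positivity
  · apply lt_min
    · positivity
    · positivity
  intro h u hh hh1 hu huv A hA hG
  have hhu : h ≤ umin / 8 := hh1.trans (min_le_left _ _)
  have hht : h ≤ t0 e0 / (8 * n) := hh1.trans (min_le_right _ _)
  have hI := inv_next hn4 hh hht hu hG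
  have hv : 0 < u + 2 * h := by linarith
  have hv100 : u + 2 * h ≤ 1 / 100 := huv.trans hU100
  have hr100 : 100 ≤ 1 / (u + 2 * h) := by
    rw [le_div_iff₀ hv]
    linarith
  have hur : (u + 2 * h) * (1 / (u + 2 * h)) = 1 := mul_one_div_cancel hv.ne'
  have hrn : 1 / (u + 2 * h) ≤ n := by
    rw [div_le_iff₀ hv]
    have h1 : 1 / (n : ℝ) ≤ umin := by
      rw [humin]
      exact one_div_le_one_div_of_le (by linarith) (by linarith)
    have h2 : (n : ℝ) * (1 / n) = 1 := mul_one_div_cancel hn0.ne'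
    have h3 : (n : ℝ) * (1 / n) ≤ n * (u + 2 * h) :=
      mul_le_mul_of_nonneg_left (by linarith) hn0.le
    linarith
  have hV : V (toSt (BK n) A) = 0 := V_toSt _ _
  have hQn : Q (toSt (BK n) A) ≤ (n : ℝ) ^ 2 := by
    refine le_trans ?_ (ET.card_tr n)
    unfold Q
    exact_mod_cast card_le_card (show (toSt (BK n) A).B ⊆ tr univ from hA)
  have hQc : Q (toSt (BK n) A) = (A.card : ℝ) := rfl
  have hQ0 : 0 ≤ Q (toSt (BK n) A) := Q_nonneg _
  -- the term `S 6`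
  have g6 := gen_Scr (lin3_BK n) hur hr100 (by linarith) ht1 hI hV 3 (Or.inr (Or.inr rfl))
  rw [gen_toSt (lin3_BK n)] at g6
  have t6 := time_S 6 (by decide) u h (toSt (BK n) A)
  have k6 := H1 u h (S 6 u (toSt (BK n) A)) (S 6 (u + 2 * h) (toSt (BK n) A))
    (dS 6 (u + 2 * h) (toSt (BK n) A))
    (∑ T ∈ bl (BK n) A, (S 6 (u + 2 * h) (toSt (BK n) (A \ T))
      - S 6 (u + 2 * h) (toSt (BK n) A)))
    (10000 * (S 6 (u + 2 * h) (toSt (BK n) A) + (u + 2 * h) ^ 3 * Q (toSt (BK n) A))) 0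
    hu hh hhu hv100 (S_nonneg (by decide) _ _) (S_nonneg (by decide) _ _)
    ((S_le_Q (by linarith) hI (by decide)).trans hQn)
    (by
      refine (dS_le (by linarith) hI 6).trans ?_
      norm_num
      exact mul_le_mul_of_nonneg_right hQn (by positivity))
    (by linarith) le_rfl (by simp) g6
  -- the term `XX`
  have gX := hXX n A (u + 2 * h) (1 / (u + 2 * h)) (2 * t0 e0) hA hur hr100 hrn (by linarith)
    ht1 hI
  have kX := H2 u h (XX u A) (XX (u + 2 * h) A) (dXX (u + 2 * h) A)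
    (∑ T ∈ bl (BK n) A, (XX (u + 2 * h) (A \ T) - XX (u + 2 * h) A)) _ 0
    hu hh hhu hv100 (ET.XX_nonneg _ _) (ET.XX_nonneg _ _)
    (XX_le hv.le (by linarith) A) (dXX_le hv.le (by linarith) A)
    (XX_time u h A) le_rfl (by simp) gX
  rw [sum_BadE, ← hQc]
  have hUp := Real.rpow_nonneg hU.le (5001 : ℝ)
  have hvp := Real.rpow_nonneg hv.le (-5001 : ℝ)
  have hS6 : 0 ≤ S 6 (u + 2 * h) (toSt (BK n) A) := S_nonneg (by decide) _ _
  have hXX0 : 0 ≤ XX (u + 2 * h) A := ET.XX_nonneg _ _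
  have hhr : 0 ≤ h * (1 / (u + 2 * h)) := by positivity
  -- drop the negative terms
  have m6 : h * (1 / (u + 2 * h)) * ((u + 2 * h) ^ (-5001 : ℝ) *
      (10000 * (S 6 (u + 2 * h) (toSt (BK n) A) + (u + 2 * h) ^ 3 * Q (toSt (BK n) A))
        + 2 * (-5001) * S 6 (u + 2 * h) (toSt (BK n) A))) ≤
      h * (1 / (u + 2 * h)) * ((u + 2 * h) ^ (-5001 : ℝ) *
        (10000 * (u + 2 * h) ^ 3 * Q (toSt (BK n) A))) := by
    apply mul_le_mul_of_nonneg_left _ hhr
    apply mul_le_mul_of_nonneg_left _ hvp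
    linarith
  have mX : h * (1 / (u + 2 * h)) * ((u + 2 * h) ^ (-5001 : ℝ) *
      (10 * XX (u + 2 * h) A + 100 * (n * (u + 2 * h)) ^ 2 * S 2 (u + 2 * h) (toSt (BK n) A)
        + 100 * (u + 2 * h) * n ^ 2
        + 2 * (-5001) * XX (u + 2 * h) A)) ≤
      h * (1 / (u + 2 * h)) * ((u + 2 * h) ^ (-5001 : ℝ) *
        (100 * (n * (u + 2 * h)) ^ 2 * S 2 (u + 2 * h) (toSt (BK n) A)
          + 100 * (u + 2 * h) * n ^ 2)) := by
    apply mul_le_mul_of_nonneg_left _ hhr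
    apply mul_le_mul_of_nonneg_left _ hvp
    linarith
  have q6 := k6.trans (add_le_add (add_le_add le_rfl m6) (le_refl (E1 * h ^ 2)))
  have qX := kX.trans (add_le_add (add_le_add le_rfl mX) (le_refl (E2 * h ^ 2)))
  have c1 : 0 ≤ (n : ℝ) ^ 2 / t0 e0 ^ 6 := by positivity
  have c2 : 0 ≤ 2 * 10 ^ 12 * (n : ℝ) ^ 2 * u0 n ^ 2 := by positivity
  have w6 := mul_le_mul_of_nonneg_left q6 c1
  have wX := mul_le_mul_of_nonneg_left qX c2
  have w := mul_le_mul_of_nonneg_left (add_le_add w6 wX) hUp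
  unfold BadE
  refine le_trans (le_of_eq ?_) (w.trans (le_of_eq ?_))
  · ring
  · ring

end

end Vale.Agent.P046.NL
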