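import Vale.Agent.P046.NL.Defs2
import Vale.Agent.P046.NL.GS

/-!
P046, no-log: row [BDS], crude bounds of all functionals and derivatives.
-/

namespace Vale.Agent.P046.NL

open Finset Vale.Agent.P046

noncomputable section

variable {α : Type} [DecidableEq α]

variable {Bl : Finset (Finset α)} {th u r : ℝ} {s : St α}

namespace BDS

theorem dWnn (W : Finset (Finset α)) (e : α) : 0 ≤ dW W e := by
  unfold dW; exact Nat.cast_nonneg _

/-- a sum over the real points, bounded pointwise -/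
theorem sum_le_Q (s : St α) (g : α → ℝ) (c : ℝ) (h : ∀ e ∈ s.B, g e ≤ c) :
    ∑ e ∈ s.B, g e ≤ c * Q s := by
  refine (sum_le_sum h).trans ?_
  rw [sum_const, nsmul_eq_mul, Q, mul_comm]

theorem abs_sum_le_Q (s : St α) (g : α → ℝ) (c : ℝ) (h : ∀ e ∈ s.B, |g e| ≤ c) :
    |∑ e ∈ s.B, g e| ≤ c * Q s :=
  (abs_sum_le_sum_abs _ _).trans (sum_le_Q s _ c h)

/-- degree of a real point -/
theorem dW_le (hur : u * r = 1) (hr : 0 ≤ r) (hth : th ≤ 1 / 10) (hI : Inv Bl th u s) {e : α}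
    (he : e ∈ s.B) : dW s.W e ≤ 11 / 10 * r := by
  have h1 := dW_eq_xv hur s he
  have h2 := (abs_le.mp (hI.bd e)).2
  rw [h1]
  nlinarith

theorem x_abs (hth : th ≤ 1 / 10) (hI : Inv Bl th u s) (e : α) : |xv u s e| ≤ 1 / 10 :=
  (hI.bd e).trans hth

/-- powers of `x` -/
theorem x_pow (hth : th ≤ 1 / 10) (hI : Inv Bl th u s) (e : α) (k : ℕ) :
    |xv u s e ^ k| ≤ 1 := by
  rw [abs_pow]
  exact pow_le_one₀ (abs_nonneg _) ((x_abs hth hI e).trans (by norm_num))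

theorem be_le (hL : Lin3 Bl) (hur : u * r = 1) (hu : 0 ≤ u) (hth0 : 0 ≤ th) (hth : th ≤ 1 / 10)
    (hI : Inv Bl th u s) {e : α} (he : e ∈ s.B) : |be u s e| ≤ 1 / 2 := by
  refine (be_abs_le hL hur hu hth0 hI he).trans ?_
  nlinarith

/-- the sum of the pair sums at a point -/
theorem sumsm_le (hL : Lin3 Bl) (hur : u * r = 1) (hr : 0 ≤ r) (hth0 : 0 ≤ th)
    (hth : th ≤ 1 / 10) (hI : Inv Bl th u s) {e : α} (he : e ∈ s.B) :
    |∑ T ∈ s.W.filter (fun T => e ∈ T), sm u s T e| ≤ r := by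
  have h1 : |∑ T ∈ s.W.filter (fun T => e ∈ T), sm u s T e| ≤ dW s.W e * (2 * th) := by
    refine (abs_sum_le_sum_abs _ _).trans ?_
    have h2 : ∀ T ∈ s.W.filter (fun T => e ∈ T), |sm u s T e| ≤ 2 * th := by
      intro T hT
      rw [mem_filter] at hT
      exact sm_abs_le hL hI hT.1 hT.2
    refine (sum_le_sum h2).trans ?_
    rw [sum_const, nsmul_eq_mul]
    rfl
  have h2 := dW_le hur hr hth hI he
  have h3 := dWnn s.W e
  refine h1.trans ?_
  nlinarith

/-- the second part of the derivative of `be` -/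
theorem sumdd_le (hL : Lin3 Bl) (hur : u * r = 1) (hr : 0 ≤ r)
    (hth : th ≤ 1 / 10) (hI : Inv Bl th u s) {e : α} (he : e ∈ s.B) :
    0 ≤ ∑ T ∈ s.W.filter (fun T => e ∈ T), ∑ f ∈ (T.erase e).filter (fun f => f ∈ s.B), dW s.W f ∧
    ∑ T ∈ s.W.filter (fun T => e ∈ T), ∑ f ∈ (T.erase e).filter (fun f => f ∈ s.B), dW s.W f
      ≤ 3 * r ^ 2 := by
  constructor
  · exact sum_nonneg fun T _ => sum_nonneg fun f _ => dWnn s.W f
  · have h2 : ∀ T ∈ s.W.filter (fun T => e ∈ T),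
        ∑ f ∈ (T.erase e).filter (fun f => f ∈ s.B), dW s.W f ≤ 22 / 10 * r := by
      intro T hT
      rw [mem_filter] at hT
      have h3 : ∀ f ∈ (T.erase e).filter (fun f => f ∈ s.B), dW s.W f ≤ 11 / 10 * r := by
        intro f hf
        exact dW_le hur hr hth hI (mem_filter.mp hf).2
      refine (sum_le_sum h3).trans ?_
      rw [sum_const, nsmul_eq_mul]
      have h4 : ((T.erase e).filter (fun f => f ∈ s.B)).card ≤ 2 := by
        refine (card_filter_le _ _).trans ?_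
        rw [card_erase_of_mem hT.2, hL.card3 T (hI.sub hT.1)]
      have h5 : (((T.erase e).filter (fun f => f ∈ s.B)).card : ℝ) ≤ 2 := by exact_mod_cast h4
      nlinarith
    refine (sum_le_sum h2).trans ?_
    rw [sum_const, nsmul_eq_mul]
    have h6 : ((s.W.filter (fun T => e ∈ T)).card : ℝ) ≤ 11 / 10 * r := dW_le hur hr hth hI he
    nlinarith

theorem dbe_le (hL : Lin3 Bl) (hur : u * r = 1) (hr : 100 ≤ r) (hth0 : 0 ≤ th)
    (hth : th ≤ 1 / 10) (hI : Inv Bl th u s) {e : α} (he : e ∈ s.B) :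
    |dbe u s e| ≤ 4 * r := by
  have hr0 : 0 ≤ r := by linarith
  have hu : 0 ≤ u := by
    by_contra h
    push Not at h
    nlinarith
  have h1 := sumsm_le hL hur hr0 hth0 hth hI he
  obtain ⟨h2, h3⟩ := sumdd_le hL hur hr0 hth hI he
  have h4 : u * ∑ T ∈ s.W.filter (fun T => e ∈ T),
      ∑ f ∈ (T.erase e).filter (fun f => f ∈ s.B), dW s.W f ≤ 3 * r := by
    refine (mul_le_mul_of_nonneg_left h3 hu).trans ?_
    have h5 : u * (3 * r ^ 2) = 3 * (u * r) * r := by ring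
    rw [h5, hur]
    linarith
  have h5 := mul_nonneg hu h2
  unfold dbe
  refine (abs_add_le _ _).trans ?_
  rw [abs_of_nonneg h5]
  linarith

/-- number of virtual copies -/
theorem V_le (hL : Lin3 Bl) (hI : Inv Bl th u s) : V s ≤ 3 * (Bl.card : ℝ) := by
  unfold V
  have h1 : ∀ T ∈ s.W, ((T \ s.B).card : ℝ) ≤ 3 := by
    intro T hT
    have h2 : (T \ s.B).card ≤ 3 := (card_le_card sdiff_subset).trans (hL.card3 T (hI.sub hT)).le
    exact_mod_cast h2
  refine (sum_le_sum h1).trans ?_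
  rw [sum_const, nsmul_eq_mul, mul_comm]
  have h3 : (s.W.card : ℝ) ≤ Bl.card := by exact_mod_cast card_le_card hI.sub
  linarith

theorem gd_nonneg (Bl : Finset (Finset α)) (s : St α) (e : α) : 0 ≤ gd Bl s e := by
  unfold gd; exact Nat.cast_nonneg _

theorem gd_le (Bl : Finset (Finset α)) (s : St α) (e : α) : gd Bl s e ≤ (Bl.card : ℝ) := by
  unfold gd
  exact_mod_cast card_filter_le _ _

/-- derivative of the weighted number of discrepancies -/
theorem dPh_le (hu : 0 ≤ u) {dl : ℝ} (hdl : 0 < dl) :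
    |dPh Bl dl u s| ≤ (s.A.card : ℝ) * (Bl.card : ℝ) ^ 2 * (1 + u) / dl := by
  have hb : (0 : ℝ) ≤ (Bl.card : ℝ) ^ 2 * (1 + u) / dl := by positivity
  have h1 : ∀ e ∈ (s.A \ s.B) \ s.Z,
      |dwt dl (u * gd Bl s e) * gd Bl s e| ≤ (Bl.card : ℝ) ^ 2 * (1 + u) / dl := by
    intro e _
    have h2 := gd_nonneg Bl s e
    have h3 := gd_le Bl s e
    have h4 : 0 ≤ max (u * gd Bl s e - 1 - dl / 2) 0 := le_max_right _ _
    have h5 : max (u * gd Bl s e - 1 - dl / 2) 0 ≤ u * gd Bl s e := by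
      refine max_le ?_ (mul_nonneg hu h2)
      linarith
    have h6 : 0 ≤ 1 / dl := by positivity
    unfold dwt
    rw [abs_of_nonneg (mul_nonneg (mul_nonneg h6 h4) h2)]
    have h7 : 1 / dl * max (u * gd Bl s e - 1 - dl / 2) 0 * gd Bl s e ≤
        1 / dl * (u * gd Bl s e) * gd Bl s e := by
      refine mul_le_mul_of_nonneg_right (mul_le_mul_of_nonneg_left h5 h6) h2
    refine h7.trans ?_
    have h8 : gd Bl s e ^ 2 ≤ (Bl.card : ℝ) ^ 2 := pow_le_pow_left₀ h2 h3 2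
    have h9 : 1 / dl * (u * gd Bl s e) * gd Bl s e = 1 / dl * (u * gd Bl s e ^ 2) := by ring
    have h10 : (Bl.card : ℝ) ^ 2 * (1 + u) / dl = 1 / dl * ((1 + u) * (Bl.card : ℝ) ^ 2) := by ring
    rw [h9, h10]
    refine mul_le_mul_of_nonneg_left ?_ h6
    exact mul_le_mul (by linarith) h8 (sq_nonneg _) (by linarith)
  unfold dPh
  refine (abs_sum_le_sum_abs _ _).trans ((sum_le_sum h1).trans ?_)
  rw [sum_const, nsmul_eq_mul]
  have h11 : ((((s.A \ s.B) \ s.Z).card : ℕ) : ℝ) ≤ (s.A.card : ℝ) := by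
    have h12 : ((s.A \ s.B) \ s.Z).card ≤ s.A.card :=
      card_le_card (sdiff_subset.trans sdiff_subset)
    exact_mod_cast h12
  have h13 := mul_le_mul_of_nonneg_right h11 hb
  refine h13.trans (le_of_eq ?_)
  ring

end BDS

/-- [BDS] crude bounds of all functionals and derivatives -/
theorem bounds (hL : Lin3 Bl) (hur : u * r = 1) (hr : 100 ≤ r) (hth0 : 0 ≤ th)
    (hth : th ≤ 1 / 10) (hI : Inv Bl th u s) {dl : ℝ} (hdl : 0 < dl) (hdl2 : dl ≤ 1 / 2) :
    S 2 u s ≤ Q s ∧ S 4 u s ≤ Q s ∧ Sb u s ≤ Q s ∧ |dS 2 u s| ≤ 10 * r * Q s ∧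
      |dS 4 u s| ≤ 10 * r * Q s ∧ |dSb u s| ≤ 100 * r ^ 2 * Q s ∧
      V s ≤ 3 * (Bl.card : ℝ) ∧
      |dPh Bl dl u s| ≤ (s.A.card : ℝ) * (Bl.card : ℝ) ^ 2 * (1 + u) / dl := by
  have _ := hdl2
  have hr0 : 0 ≤ r := by linarith
  have hu : 0 ≤ u := by
    by_contra h
    push Not at h
    nlinarith
  have hS : ∀ k : ℕ, S k u s ≤ Q s := by
    intro k
    have h1 := BDS.sum_le_Q s (fun e => xv u s e ^ k) 1
      (fun e _ => (le_abs_self _).trans (BDS.x_pow hth hI e k))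
    rw [one_mul] at h1
    exact h1
  have hdS : ∀ k : ℕ, (k : ℝ) ≤ 4 → |dS k u s| ≤ 10 * r * Q s := by
    intro k hk
    refine BDS.abs_sum_le_Q s _ _ ?_
    intro e he
    have h1 := BDS.x_pow hth hI e (k - 1)
    have h2 := BDS.dW_le hur hr0 hth hI he
    have h3 := BDS.dWnn s.W e
    have h4 : (0 : ℝ) ≤ k := Nat.cast_nonneg k
    rw [abs_mul, abs_mul, abs_of_nonneg h3, abs_of_nonneg h4]
    have h5 : (k : ℝ) * |xv u s e ^ (k - 1)| ≤ 4 := by nlinarith [abs_nonneg (xv u s e ^ (k - 1))]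
    have h6 : 0 ≤ (k : ℝ) * |xv u s e ^ (k - 1)| := by positivity
    nlinarith
  refine ⟨hS 2, hS 4, ?_, hdS 2 (by norm_num), hdS 4 (by norm_num), ?_, BDS.V_le hL hI,
    BDS.dPh_le hu hdl⟩
  · have h1 := BDS.sum_le_Q s (fun e => be u s e ^ 2) 1 (fun e he => by
      have h2 := BDS.be_le hL hur hu hth0 hth hI he
      have h3 := sq_le_sq' (abs_le.mp h2).1 (abs_le.mp h2).2
      have h4 : (1 / 2 : ℝ) ^ 2 ≤ 1 := by norm_num
      linarith)
    rw [one_mul] at h1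
    exact h1
  · refine BDS.abs_sum_le_Q s _ _ ?_
    intro e he
    have h2 := BDS.be_le hL hur hu hth0 hth hI he
    have h3 := BDS.dbe_le hL hur hr hth0 hth hI he
    rw [abs_mul, abs_mul, abs_of_pos (by norm_num : (0 : ℝ) < 2)]
    have h4 := abs_nonneg (be u s e)
    have h5 := abs_nonneg (dbe u s e)
    have h6 : 2 * |be u s e| ≤ 1 := by linarith
    have h7 : 0 ≤ 2 * |be u s e| := by linarith
    have h8 : 2 * |be u s e| * |dbe u s e| ≤ 1 * (4 * r) := mul_le_mul h6 h3 h5 (by norm_num)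
    nlinarith

end

end Vale.Agent.P046.NL
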