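import Vale.Agent.P046.NL.Defs4

/-! P046: the scalar inequality of the second stage -/

namespace Vale.Agent.P046.NL

open Finset Vale.Agent.P046

noncomputable section

set_option linter.unusedVariables false

namespace ScalS

theorem ident (ep i t dl u k1 k2 v12 v710 v75 v25 v110 D D2 V6 V8 q S2 S4 b U N6 N8 P X1 : ℝ)
    (hi : i = 1 / ep) :
    4 * 10 ^ 8 / ep * (k1 * v12 * (-(q + X1) + q)
        - k1 * v710 * (-(q + X1) + 7 / 5 * q)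
        - 1 / 2 * k2 * v75 * (-(q + X1) + 14 / 5 * q))
    + 4 * 10 ^ 6 / ep * k2 * v25 *
        (-(1 - 2 * t - 1 / 10) * S2 + 10 * b + 16 * u * (S2 + q) + 4 / 5 * S2)
    + 4 * 10 ^ 8 / ep * k1 * v110 *
        (-(1 - 2 * t - 1 / 10) * S2 + 10 * b + 16 * u * (S2 + q) + 1 / 5 * S2)
    + D *
      (((1 + 2 * t + ep / 2) * b + 40 / ep * (S4 + (2 * t) ^ 4 * U)
          + ep / 10 * b + 16000 / ep * u ^ 2 * q + 200 * u * (S2 + U)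
          + (50 * u ^ 2 * q + 207360 * u ^ 4 * (N6 + N8)) - (1 + 2 * ep) * b)
        + 1000 / ep * (-(1 - 6 * t) * S4 + 4 * t * b + 80 * u * S2 + 216 * u ^ 3 * q
          - (1 + 2 * ep) * S4)
        + 400 * t ^ 4 / ep * ((2 - 3 * (1 - 2 * t) + 2 * u) * U - (1 + 2 * ep) * U))
    + D2 *
      ((1 + dl + 16 * t / dl + 7 * u / dl) * P + 2 * U - (1 + ep) * P)
    + V6 * (-(6 * (1 - 2 * t) - 100 * u) * N6 + 57 / 10 * N6)
    + 10 ^ 6 * V8 * (-(8 * (1 - 2 * t) - 100 * u) * N8 + (7 - 2 * ep) * N8)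
    = 4 * 10 ^ 8 * i * ((-(k1 * v12) + k1 * v710 + 1 / 2 * (k2 * v75)) * X1)
      + (4 * 10 ^ 8 * i * (-(2 / 5) * (k1 * v710) - 9 / 10 * (k2 * v75))
          + 4 * 10 ^ 6 * i * 16 * (k2 * (u * v25)) + 4 * 10 ^ 8 * i * 16 * (u * (k1 * v110))
          + D * u ^ 2 * (16000 * i + 50 + 216000 * (i * u))) * q
      + (4 * 10 ^ 6 * i * (k2 * v25) * (-(1 / 10) + 2 * t + 16 * u)
          + 4 * 10 ^ 8 * i * (k1 * v110) * (-(7 / 10) + 2 * t + 16 * u)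
          + D * u * (200 + 80000 * i)) * S2
      + (i * D * (40 - 1000 * (2 + 2 * ep - 6 * t))) * S4
      + (10 * (4 * 10 ^ 6 * i) * (k2 * v25) + 10 * (4 * 10 ^ 8 * i) * (k1 * v110)
          + D * (-(7 / 5) * ep + 2 * t + 4000 * (i * t))) * b
      + (D * (i * t ^ 4 * (640 + 400 * (-2 + 6 * t + 2 * u - 2 * ep)) + 200 * u) + 2 * D2) * U
      + (D2 * (dl - ep + (16 * t + 7 * u) * (1 / dl))) * P
      + (D * u ^ 4 * 207360 + V6 * (-(3 / 10) + 12 * t + 100 * u)) * N6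
      + (207360 * (D * u ^ 4) + 10 ^ 6 * V8 * (-1 + 16 * t + 100 * u - 2 * ep)) * N8 := by
    rw [hi]; ring

theorem cq' (ep i t u k1 k2 v710 v75 v25 v110 D : ℝ)
    (hep : 0 < ep) (hep1 : ep ≤ 1 / 100) (hei : ep * i = 1) (hi0 : 0 < i) (hi100 : 100 ≤ i)
    (ht0 : 0 < t) (hit : i * t ≤ ep / 5000) (hiu : i * u ≤ ep / 1000) (ht1 : t ≤ ep / 1000)
    (hu1 : u ≤ ep / 1000) (hu8 : u ≤ 1 / 100000) (hu0 : 0 < u)
    (R1 : u * v25 = v75) (R2 : u * (k1 * v110) ≤ k1 * v710 / 1000)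
    (R3 : D * u ^ 2 ≤ k2 * v75) (p1 : 0 ≤ k1 * v710) (p2 : 0 ≤ k2 * v75) :
    4 * 10 ^ 8 * i * (-(2 / 5) * (k1 * v710) - 9 / 10 * (k2 * v75))
          + 4 * 10 ^ 6 * i * 16 * (k2 * (u * v25)) + 4 * 10 ^ 8 * i * 16 * (u * (k1 * v110))
          + D * u ^ 2 * (16000 * i + 50 + 216000 * (i * u))
          ≤ -(4 * 10 ^ 8 * i * (k1 * v710 / 20)) := by
    rw [R1]
    have e1 : D * u ^ 2 * (16000 * i + 50 + 216000 * (i * u)) ≤ k2 * v75 * (17000 * i) := by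
      refine mul_le_mul R3 ?_ (by positivity) p2
      linarith
    have e2 : i * (u * (k1 * v110)) ≤ i * (k1 * v710 / 1000) := mul_le_mul_of_nonneg_left R2 hi0.le
    have e3 : 0 ≤ i * (k1 * v710) := mul_nonneg hi0.le p1
    have e4 : 0 ≤ i * (k2 * v75) := mul_nonneg hi0.le p2
    linarith

theorem c2' (ep i t u k1 k2 v710 v75 v25 v110 D : ℝ)
    (hep : 0 < ep) (hep1 : ep ≤ 1 / 100) (hei : ep * i = 1) (hi0 : 0 < i) (hi100 : 100 ≤ i)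
    (ht0 : 0 < t) (hit : i * t ≤ ep / 5000) (hiu : i * u ≤ ep / 1000) (ht1 : t ≤ ep / 1000)
    (hu1 : u ≤ ep / 1000) (hu8 : u ≤ 1 / 100000) (hu0 : 0 < u)
    (R4 : D * u ≤ k2 * v25) (p3 : 0 ≤ k1 * v110) (p4 : 0 ≤ k2 * v25) :
    4 * 10 ^ 6 * i * (k2 * v25) * (-(1 / 10) + 2 * t + 16 * u)
          + 4 * 10 ^ 8 * i * (k1 * v110) * (-(7 / 10) + 2 * t + 16 * u)
          + D * u * (200 + 80000 * i) ≤ -(4 * 10 ^ 8 * i * (k1 * v110 / 4)) := by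
    have e1 : D * u * (200 + 80000 * i) ≤ k2 * v25 * (81000 * i) := by
      refine mul_le_mul R4 ?_ (by positivity) p4
      linarith
    have e3 : 0 ≤ i * (k1 * v110) := mul_nonneg hi0.le p3
    have e4 : 0 ≤ i * (k2 * v25) := mul_nonneg hi0.le p4
    have e5 : i * (k2 * v25) * (-(1 / 10) + 2 * t + 16 * u) ≤ i * (k2 * v25) * (-(9 / 100)) :=
      mul_le_mul_of_nonneg_left (by linarith) e4
    have e6 : i * (k1 * v110) * (-(7 / 10) + 2 * t + 16 * u) ≤ i * (k1 * v110) * (-(1 / 2)) :=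
      mul_le_mul_of_nonneg_left (by linarith) e3
    linarith

theorem fin (A x y z Cq C2 C4 Cb CU CP C6 C8 q S2 S4 b U P N6 N8 : ℝ) (hA : 0 ≤ A)
    (hq : 0 ≤ q) (h2 : 0 ≤ S2) (h4 : 0 ≤ S4) (hb : 0 ≤ b) (hU : 0 ≤ U) (hP : 0 ≤ P)
    (hN6 : 0 ≤ N6) (hN8 : 0 ≤ N8) (c0 : x ≤ y * q + z * S2) (cq : Cq ≤ -(A * y))
    (c2 : C2 ≤ -(A * z)) (c4 : C4 ≤ 0) (cb : Cb ≤ 0) (cU : CU ≤ 0) (cP : CP ≤ 0) (c6 : C6 ≤ 0)
    (c8 : C8 ≤ 0) :
    A * x + Cq * q + C2 * S2 + C4 * S4 + Cb * b + CU * U + CP * P + C6 * N6 + C8 * N8 ≤ 0 := by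
  have f0 := mul_le_mul_of_nonneg_left c0 hA
  have fq := mul_le_mul_of_nonneg_right cq hq
  have f2 := mul_le_mul_of_nonneg_right c2 h2
  have f4 := mul_nonpos_of_nonpos_of_nonneg c4 h4
  have fb := mul_nonpos_of_nonpos_of_nonneg cb hb
  have fU := mul_nonpos_of_nonpos_of_nonneg cU hU
  have fP := mul_nonpos_of_nonpos_of_nonneg cP hP
  have f6 := mul_nonpos_of_nonpos_of_nonneg c6 hN6
  have f8 := mul_nonpos_of_nonpos_of_nonneg c8 hN8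
  nlinarith

theorem core (ep i t dl u k1 k2 v12 v710 v75 v25 v110 D D2 V6 V8 q S2 S4 b U N6 N8 P X1 : ℝ)
    (hep : 0 < ep) (hep1 : ep ≤ 1 / 100) (hi : i = 1 / ep)
    (ht0 : 0 < t) (ht : t ≤ ep ^ 2 / 5000) (hd1 : ep / 8 ≤ dl) (hd2 : dl ≤ ep / 2)
    (hu0 : 0 < u) (hu8 : u ≤ 1 / 100000) (hue : u ≤ ep ^ 2 / 1000)
    (hq : 0 ≤ q) (h2 : 0 ≤ S2) (h4 : 0 ≤ S4)
    (hb : 0 ≤ b) (hU : 0 ≤ U) (hN6 : 0 ≤ N6) (hN8 : 0 ≤ N8) (hP : 0 ≤ P)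
    (hk1 : 0 ≤ k1) (hk2 : 0 ≤ k2) (h710 : 0 ≤ v710) (h75 : 0 ≤ v75) (h25 : 0 ≤ v25)
    (h110 : 0 ≤ v110) (hD : 0 ≤ D) (hD2 : 0 ≤ D2) (hV6 : 0 ≤ V6) (hV8 : 0 ≤ V8)
    (R0 : v710 ≤ v12 / 2) (R0' : k2 * v75 ≤ k1 * v12)
    (hX : k1 * v12 * |X1| ≤ k1 * v710 / 20 * q + k1 * v110 / 4 * S2)
    (R1 : u * v25 = v75) (R2 : u * (k1 * v110) ≤ k1 * v710 / 1000)
    (R3 : D * u ^ 2 ≤ k2 * v75) (R4 : D * u ≤ k2 * v25)
    (R5 : 10 * (4 * 10 ^ 6 * i) * (k2 * v25) ≤ ep / 5 * D)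
    (R5' : 10 * (4 * 10 ^ 8 * i) * (k1 * v110) ≤ ep / 5 * D)
    (R6 : 200 * u ≤ 40 * (i * t ^ 4)) (R6' : 2 * D2 ≤ 40 * (i * t ^ 4) * D)
    (R7 : D * u ^ 4 * 207360 ≤ V6 / 10) (R7' : D * u ^ 4 = V8) :
    4 * 10 ^ 8 / ep * (k1 * v12 * (-(q + X1) + q)
        - k1 * v710 * (-(q + X1) + 7 / 5 * q)
        - 1 / 2 * k2 * v75 * (-(q + X1) + 14 / 5 * q))
    + 4 * 10 ^ 6 / ep * k2 * v25 *
        (-(1 - 2 * t - 1 / 10) * S2 + 10 * b + 16 * u * (S2 + q) + 4 / 5 * S2)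
    + 4 * 10 ^ 8 / ep * k1 * v110 *
        (-(1 - 2 * t - 1 / 10) * S2 + 10 * b + 16 * u * (S2 + q) + 1 / 5 * S2)
    + D *
      (((1 + 2 * t + ep / 2) * b + 40 / ep * (S4 + (2 * t) ^ 4 * U)
          + ep / 10 * b + 16000 / ep * u ^ 2 * q + 200 * u * (S2 + U)
          + (50 * u ^ 2 * q + 207360 * u ^ 4 * (N6 + N8)) - (1 + 2 * ep) * b)
        + 1000 / ep * (-(1 - 6 * t) * S4 + 4 * t * b + 80 * u * S2 + 216 * u ^ 3 * q
          - (1 + 2 * ep) * S4)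
        + 400 * t ^ 4 / ep * ((2 - 3 * (1 - 2 * t) + 2 * u) * U - (1 + 2 * ep) * U))
    + D2 *
      ((1 + dl + 16 * t / dl + 7 * u / dl) * P + 2 * U - (1 + ep) * P)
    + V6 * (-(6 * (1 - 2 * t) - 100 * u) * N6 + 57 / 10 * N6)
    + 10 ^ 6 * V8 * (-(8 * (1 - 2 * t) - 100 * u) * N8 + (7 - 2 * ep) * N8)
      ≤ 0 := by
  have hi0 : 0 < i := by rw [hi]; positivity
  have hei : ep * i = 1 := by rw [hi]; field_simp
  have hi100 : 100 ≤ i := by rw [hi, le_div_iff₀ hep]; linarith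
  have hsq : ep ^ 2 ≤ ep / 100 := by
    have := mul_le_mul_of_nonneg_left hep1 hep.le
    rw [sq]; linarith
  have hit : i * t ≤ ep / 5000 := by
    calc i * t ≤ i * (ep ^ 2 / 5000) := mul_le_mul_of_nonneg_left ht hi0.le
      _ = (ep * i) * ep / 5000 := by ring
      _ = ep / 5000 := by rw [hei, one_mul]
  have hiu : i * u ≤ ep / 1000 := by
    calc i * u ≤ i * (ep ^ 2 / 1000) := mul_le_mul_of_nonneg_left hue hi0.le
      _ = (ep * i) * ep / 1000 := by ring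
      _ = ep / 1000 := by rw [hei, one_mul]
  have ht1 : t ≤ ep / 1000 := by linarith
  have ht2 : t ≤ 1 / 100000 := by linarith
  have hu1 : u ≤ ep / 1000 := by linarith
  have hdl0 : 0 < dl := by linarith
  have hdi : 1 / dl ≤ 8 * i := by
    rw [div_le_iff₀ hdl0]
    have := mul_le_mul_of_nonneg_left hd1 hi0.le
    linarith
  -- the coefficients
  rw [ident ep i t dl u k1 k2 v12 v710 v75 v25 v110 D D2 V6 V8 q S2 S4 b U N6 N8 P X1 hi]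
  have c0 : (-(k1 * v12) + k1 * v710 + 1 / 2 * (k2 * v75)) * X1
      ≤ k1 * v710 / 20 * q + k1 * v110 / 4 * S2 := by
    refine le_trans ?_ hX
    have e1 : k1 * v710 ≤ k1 * v12 / 2 := by
      have := mul_le_mul_of_nonneg_left R0 hk1
      linarith
    have e2 : 0 ≤ k1 * v710 := mul_nonneg hk1 h710
    have e3 : 0 ≤ k2 * v75 := mul_nonneg hk2 h75
    have e4 : |(-(k1 * v12) + k1 * v710 + 1 / 2 * (k2 * v75))| ≤ k1 * v12 := by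
      rw [abs_le]; constructor <;> linarith
    calc (-(k1 * v12) + k1 * v710 + 1 / 2 * (k2 * v75)) * X1
        ≤ |(-(k1 * v12) + k1 * v710 + 1 / 2 * (k2 * v75)) * X1| := le_abs_self _
      _ = |(-(k1 * v12) + k1 * v710 + 1 / 2 * (k2 * v75))| * |X1| := abs_mul _ _
      _ ≤ k1 * v12 * |X1| := mul_le_mul_of_nonneg_right e4 (abs_nonneg _)
  have p1 : 0 ≤ k1 * v710 := mul_nonneg hk1 h710
  have p2 : 0 ≤ k2 * v75 := mul_nonneg hk2 h75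
  have p3 : 0 ≤ k1 * v110 := mul_nonneg hk1 h110
  have p4 : 0 ≤ k2 * v25 := mul_nonneg hk2 h25
  have cq := cq' ep i t u k1 k2 v710 v75 v25 v110 D hep hep1 hei hi0 hi100 ht0 hit hiu ht1 hu1 hu8 hu0
    R1 R2 R3 p1 p2
  have c2 := c2' ep i t u k1 k2 v710 v75 v25 v110 D hep hep1 hei hi0 hi100 ht0 hit hiu ht1 hu1 hu8 hu0
    R4 p3 p4
  have c4 : i * D * (40 - 1000 * (2 + 2 * ep - 6 * t)) ≤ 0 :=
    mul_nonpos_of_nonneg_of_nonpos (mul_nonneg hi0.le hD) (by linarith)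
  have cb : 10 * (4 * 10 ^ 6 * i) * (k2 * v25) + 10 * (4 * 10 ^ 8 * i) * (k1 * v110)
          + D * (-(7 / 5) * ep + 2 * t + 4000 * (i * t)) ≤ 0 := by
    have e1 : D * (-(7 / 5) * ep + 2 * t + 4000 * (i * t)) ≤ D * (-(2 / 5) * ep) :=
      mul_le_mul_of_nonneg_left (by linarith) hD
    linarith
  have hit4 : 0 ≤ i * t ^ 4 := by positivity
  have cU : D * (i * t ^ 4 * (640 + 400 * (-2 + 6 * t + 2 * u - 2 * ep)) + 200 * u) + 2 * D2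
      ≤ 0 := by
    have e1 : i * t ^ 4 * (640 + 400 * (-2 + 6 * t + 2 * u - 2 * ep)) ≤ i * t ^ 4 * (-160) :=
      mul_le_mul_of_nonneg_left (by linarith) hit4
    have e2 : D * (i * t ^ 4 * (640 + 400 * (-2 + 6 * t + 2 * u - 2 * ep)) + 200 * u)
        ≤ D * (i * t ^ 4 * (-120)) := mul_le_mul_of_nonneg_left (by linarith) hD
    have e3 : 0 ≤ D * (i * t ^ 4) := mul_nonneg hD hit4
    linarith
  have cP : D2 * (dl - ep + (16 * t + 7 * u) * (1 / dl)) ≤ 0 := by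
    refine mul_nonpos_of_nonneg_of_nonpos hD2 ?_
    have : (16 * t + 7 * u) * (1 / dl) ≤ (16 * t + 7 * u) * (8 * i) :=
      mul_le_mul_of_nonneg_left hdi (by positivity)
    linarith
  have c6 : D * u ^ 4 * 207360 + V6 * (-(3 / 10) + 12 * t + 100 * u) ≤ 0 := by
    have e1 : V6 * (-(3 / 10) + 12 * t + 100 * u) ≤ V6 * (-(1 / 5)) :=
      mul_le_mul_of_nonneg_left (by linarith) hV6
    linarith
  have c8 : 207360 * (D * u ^ 4) + 10 ^ 6 * V8 * (-1 + 16 * t + 100 * u - 2 * ep) ≤ 0 := by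
    rw [R7']
    have e1 : V8 * (-1 + 16 * t + 100 * u - 2 * ep) ≤ V8 * (-(1 / 2)) :=
      mul_le_mul_of_nonneg_left (by linarith) hV8
    linarith
  exact fin (4 * 10 ^ 8 * i) _ _ _ _ _ _ _ _ _ _ _ q S2 S4 b U P N6 N8 (by positivity) hq h2 h4 hb hU hP
    hN6 hN8 c0 cq c2 c4 cb cU cP c6 c8
end ScalS

/-- [SCALS] scalar inequality of the second stage -/
theorem scalar_st2 (ep t dl : ℝ) (h0 : 0 < ep) (h1 : ep ≤ 1 / 100) (ht0 : 0 < t)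
    (ht : t ≤ ep ^ 2 / 5000) (hd1 : ep / 8 ≤ dl) (hd2 : dl ≤ ep / 2) :
    ∃ u1 : ℝ, 0 < u1 ∧ u1 ≤ 1 / 100 ∧
    ∀ uK u q S2 S4 b U N6 N8 P X1 : ℝ, 0 < u → u ≤ uK → uK ≤ u1 → 0 ≤ q → 0 ≤ S2 → 0 ≤ S4 →
    0 ≤ b → 0 ≤ U → 0 ≤ N6 → 0 ≤ N8 → 0 ≤ P → (∀ mu : ℝ, 0 < mu → 2 * |X1| ≤ mu * q + S2 / mu) →
    4 * 10 ^ 8 / ep * (uK ^ (1 - ep : ℝ) * u ^ (1 / 2 : ℝ) * (-(q + X1) + q)
        - uK ^ (1 - ep : ℝ) * u ^ (7 / 10 : ℝ) * (-(q + X1) + 7 / 5 * q)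
        - 1 / 2 * uK ^ (1 / 10 - ep : ℝ) * u ^ (7 / 5 : ℝ) * (-(q + X1) + 14 / 5 * q))
    + 4 * 10 ^ 6 / ep * uK ^ (1 / 10 - ep : ℝ) * u ^ (2 / 5 : ℝ) *
        (-(1 - 2 * t - 1 / 10) * S2 + 10 * b + 16 * u * (S2 + q) + 4 / 5 * S2)
    + 4 * 10 ^ 8 / ep * uK ^ (1 - ep : ℝ) * u ^ (1 / 10 : ℝ) *
        (-(1 - 2 * t - 1 / 10) * S2 + 10 * b + 16 * u * (S2 + q) + 1 / 5 * S2)
    + u ^ (-(1 / 2 + ep) : ℝ) *
      (((1 + 2 * t + ep / 2) * b + 40 / ep * (S4 + (2 * t) ^ 4 * U)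
          + ep / 10 * b + 16000 / ep * u ^ 2 * q + 200 * u * (S2 + U)
          + (50 * u ^ 2 * q + 207360 * u ^ 4 * (N6 + N8)) - (1 + 2 * ep) * b)
        + 1000 / ep * (-(1 - 6 * t) * S4 + 4 * t * b + 80 * u * S2 + 216 * u ^ 3 * q
          - (1 + 2 * ep) * S4)
        + 400 * t ^ 4 / ep * ((2 - 3 * (1 - 2 * t) + 2 * u) * U - (1 + 2 * ep) * U))
    + u ^ (-(1 / 2 + ep / 2) : ℝ) *
      ((1 + dl + 16 * t / dl + 7 * u / dl) * P + 2 * U - (1 + ep) * P)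
    + u ^ (57 / 20 : ℝ) * (-(6 * (1 - 2 * t) - 100 * u) * N6 + 57 / 10 * N6)
    + 10 ^ 6 * u ^ (7 / 2 - ep : ℝ) * (-(8 * (1 - 2 * t) - 100 * u) * N8 + (7 - 2 * ep) * N8)
      ≤ 0 := by
  obtain ⟨g, hg⟩ : ∃ g : ℝ, g = ep ^ 2 * t ^ 4 / 10 ^ 11 := ⟨_, rfl⟩
  have hg0 : 0 < g := by rw [hg]; positivity
  have hep2 : ep ^ 2 ≤ 1 / 10000 := by nlinarith
  have ht1 : t ≤ 1 / 1000 := by linarith
  have ht4 : t ^ 4 ≤ 1 := pow_le_one₀ ht0.le (by linarith)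
  have hg1 : g ≤ ep ^ 2 / 10 ^ 11 := by
    rw [hg]
    have : ep ^ 2 * t ^ 4 ≤ ep ^ 2 * 1 := mul_le_mul_of_nonneg_left ht4 (by positivity)
    linarith
  have hg2 : g ≤ t ^ 4 := by
    rw [hg]
    have : ep ^ 2 * t ^ 4 ≤ 1 * t ^ 4 := mul_le_mul_of_nonneg_right (by linarith) (by positivity)
    have h' : 0 ≤ t ^ 4 := by positivity
    linarith
  have hg3 : g ≤ 1 / 10 ^ 11 := by linarith
  refine ⟨min (1 / 100) (g ^ (4 / ep)), lt_min (by norm_num) (Real.rpow_pos_of_pos hg0 _),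
    min_le_left _ _, ?_⟩
  intro uK u q S2 S4 b U N6 N8 P X1 hu0 huK hK1 hq hS2 hS4 hb hU hN6 hN8 hP hX1
  have huK0 : 0 < uK := hu0.trans_le huK
  have hK2 : uK ≤ 1 := (hK1.trans (min_le_left _ _)).trans (by norm_num)
  have hu1 : u ≤ 1 := huK.trans hK2
  have hug : u ^ (ep / 4 : ℝ) ≤ g := by
    have h := Real.rpow_le_rpow hu0.le (huK.trans (hK1.trans (min_le_right _ _)))
      (by positivity : 0 ≤ ep / 4)
    rwa [← Real.rpow_mul hg0.le, show 4 / ep * (ep / 4) = 1 by field_simp, Real.rpow_one] at h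
  have ua : ∀ a a' : ℝ, u ^ a * u ^ a' = u ^ (a + a') := fun a a' => (Real.rpow_add hu0 a a').symm
  have Ka : ∀ a a' : ℝ, uK ^ a * uK ^ a' = uK ^ (a + a') :=
    fun a a' => (Real.rpow_add huK0 a a').symm
  have up : ∀ a : ℝ, 0 < u ^ a := fun a => Real.rpow_pos_of_pos hu0 a
  have Kp : ∀ a : ℝ, 0 < uK ^ a := fun a => Real.rpow_pos_of_pos huK0 a
  have uK' : ∀ {a : ℝ}, 0 ≤ a → u ^ a ≤ uK ^ a := fun h => Real.rpow_le_rpow hu0.le huK h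
  have ug : ∀ {a : ℝ}, ep / 4 ≤ a → u ^ a ≤ g := fun h =>
    (Real.rpow_le_rpow_of_exponent_ge hu0 hu1 h).trans hug
  have hu' : u ≤ g := by
    have := ug (a := 1) (by linarith)
    rwa [Real.rpow_one] at this
  have hu1' : u = u ^ (1 : ℝ) := (Real.rpow_one u).symm
  have hu2' : u ^ 2 = u ^ (2 : ℝ) := by norm_num
  have hu4' : u ^ 4 = u ^ (4 : ℝ) := by norm_num
  obtain ⟨i, hi⟩ : ∃ i, i = 1 / ep := ⟨_, rfl⟩
  have hi0 : 0 < i := by rw [hi]; positivity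
  have hei : ep * i = 1 := by rw [hi]; field_simp
  have hi100 : 100 ≤ i := by rw [hi, le_div_iff₀ h0]; linarith
  have hig : i * g ≤ ep / 10 ^ 11 := by
    calc i * g ≤ i * (ep ^ 2 / 10 ^ 11) := mul_le_mul_of_nonneg_left hg1 hi0.le
      _ = (ep * i) * ep / 10 ^ 11 := by ring
      _ = ep / 10 ^ 11 := by rw [hei, one_mul]
  have hit4 : 100 * g ≤ i * t ^ 4 := by
    calc 100 * g ≤ i * g := mul_le_mul_of_nonneg_right hi100 hg0.le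
      _ ≤ i * t ^ 4 := mul_le_mul_of_nonneg_left hg2 hi0.le
  have Dp := up (-(1 / 2 + ep))
  refine ScalS.core ep i t dl u (uK ^ (1 - ep : ℝ)) (uK ^ (1 / 10 - ep : ℝ)) (u ^ (1 / 2 : ℝ))
    (u ^ (7 / 10 : ℝ)) (u ^ (7 / 5 : ℝ)) (u ^ (2 / 5 : ℝ)) (u ^ (1 / 10 : ℝ))
    (u ^ (-(1 / 2 + ep) : ℝ)) (u ^ (-(1 / 2 + ep / 2) : ℝ)) (u ^ (57 / 20 : ℝ))
    (u ^ (7 / 2 - ep : ℝ)) q S2 S4 b U N6 N8 P X1 h0 h1 hi ht0 ht hd1 hd2 hu0 (by linarith)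
    (by linarith) hq hS2 hS4 hb hU hN6 hN8 hP (Kp _).le (Kp _).le (up _).le (up _).le (up _).le
    (up _).le (up _).le (up _).le (up _).le (up _).le ?_ ?_ ?_ ?_ ?_ ?_ ?_ ?_ ?_ ?_ ?_ ?_ ?_
  · -- R0
    have e : u ^ (7 / 10 : ℝ) = u ^ (1 / 2 : ℝ) * u ^ (1 / 5 : ℝ) := by rw [ua]; norm_num
    have h := mul_le_mul_of_nonneg_left (ug (a := 1 / 5) (by linarith)) (up (1 / 2)).le
    have h' := mul_le_mul_of_nonneg_left (show g ≤ 1 / 2 by linarith) (up (1 / 2)).le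
    rw [e]; linarith
  · -- R0'
    have e : u ^ (7 / 5 : ℝ) = u ^ (1 / 2 : ℝ) * u ^ (9 / 10 : ℝ) := by rw [ua]; norm_num
    have e' : uK ^ (1 - ep : ℝ) = uK ^ (1 / 10 - ep : ℝ) * uK ^ (9 / 10 : ℝ) := by
      rw [Ka]; congr 1; ring
    have h := uK' (a := 9 / 10) (by norm_num)
    rw [e, e']
    have h' := mul_le_mul_of_nonneg_left h
      (mul_nonneg (Kp (1 / 10 - ep)).le (up (1 / 2)).le)
    calc uK ^ (1 / 10 - ep) * (u ^ (1 / 2 : ℝ) * u ^ (9 / 10 : ℝ))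
        = uK ^ (1 / 10 - ep) * u ^ (1 / 2 : ℝ) * u ^ (9 / 10 : ℝ) := by ring
      _ ≤ uK ^ (1 / 10 - ep) * u ^ (1 / 2 : ℝ) * uK ^ (9 / 10 : ℝ) := h'
      _ = _ := by ring
  · -- hX
    obtain ⟨m, hm⟩ : ∃ m, m = u ^ (1 / 5 : ℝ) := ⟨_, rfl⟩
    have hm0 : 0 < m := by rw [hm]; exact up _
    have hmg : m ≤ g := by rw [hm]; exact ug (by linarith)
    have h := hX1 (m / 10) (by positivity)
    have e1 : u ^ (7 / 10 : ℝ) = u ^ (1 / 2 : ℝ) * m := by rw [hm, ua]; norm_num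
    have e2 : u ^ (1 / 2 : ℝ) = u ^ (1 / 10 : ℝ) * m * m := by rw [hm, ua, ua]; norm_num
    have h2 : |X1| ≤ m / 20 * q + 5 / m * S2 := by
      have e : S2 / (m / 10) = 10 / m * S2 := by field_simp
      rw [e] at h
      have e' : (5 : ℝ) / m = 10 / m / 2 := by ring
      rw [e']
      linarith
    have hk : 0 ≤ uK ^ (1 - ep : ℝ) := (Kp _).le
    have h3 := mul_le_mul_of_nonneg_left h2 (mul_nonneg hk (up (1 / 2)).le)
    refine h3.trans ?_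
    have e3 : uK ^ (1 - ep : ℝ) * u ^ (1 / 2 : ℝ) * (5 / m * S2)
        = uK ^ (1 - ep : ℝ) * u ^ (1 / 10 : ℝ) * (5 * m) * S2 := by
      rw [e2]; field_simp
    have e4 : uK ^ (1 - ep : ℝ) * u ^ (1 / 10 : ℝ) * (5 * m) * S2
        ≤ uK ^ (1 - ep : ℝ) * u ^ (1 / 10 : ℝ) * (1 / 4) * S2 :=
      mul_le_mul_of_nonneg_right (mul_le_mul_of_nonneg_left (by linarith)
        (mul_nonneg hk (up _).le)) hS2
    rw [mul_add, e3, e1]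
    calc uK ^ (1 - ep : ℝ) * u ^ (1 / 2 : ℝ) * (m / 20 * q)
        + uK ^ (1 - ep : ℝ) * u ^ (1 / 10 : ℝ) * (5 * m) * S2
        ≤ uK ^ (1 - ep : ℝ) * u ^ (1 / 2 : ℝ) * (m / 20 * q)
          + uK ^ (1 - ep : ℝ) * u ^ (1 / 10 : ℝ) * (1 / 4) * S2 := by linarith
      _ = _ := by ring
  · -- R1
    nth_rewrite 1 [hu1']
    rw [ua]; norm_num
  · -- R2
    have e : u * u ^ (1 / 10 : ℝ) = u ^ (7 / 10 : ℝ) * u ^ (2 / 5 : ℝ) := by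
      nth_rewrite 1 [hu1']
      rw [ua, ua]; norm_num
    have h := mul_le_mul_of_nonneg_left (ug (a := 2 / 5) (by linarith))
      (mul_nonneg (Kp (1 - ep)).le (up (7 / 10)).le)
    have h' := mul_le_mul_of_nonneg_left (show g ≤ 1 / 1000 by linarith)
      (mul_nonneg (Kp (1 - ep)).le (up (7 / 10)).le)
    calc u * (uK ^ (1 - ep : ℝ) * u ^ (1 / 10 : ℝ))
        = uK ^ (1 - ep : ℝ) * (u * u ^ (1 / 10 : ℝ)) := by ring
      _ = uK ^ (1 - ep : ℝ) * u ^ (7 / 10 : ℝ) * u ^ (2 / 5 : ℝ) := by rw [e]; ring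
      _ ≤ _ := by linarith
  · -- R3
    have e : u ^ (-(1 / 2 + ep) : ℝ) * u ^ 2 = u ^ (1 / 10 - ep : ℝ) * u ^ (7 / 5 : ℝ) := by
      rw [hu2', ua, ua]; congr 1; ring
    rw [e]
    exact mul_le_mul_of_nonneg_right (uK' (by linarith)) (up _).le
  · -- R4
    have e : u ^ (-(1 / 2 + ep) : ℝ) * u = u ^ (1 / 10 - ep : ℝ) * u ^ (2 / 5 : ℝ) := by
      nth_rewrite 2 [hu1']
      rw [ua, ua]; congr 1; ring
    rw [e]
    exact mul_le_mul_of_nonneg_right (uK' (by linarith)) (up _).le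
  · -- R5
    have e : u ^ (2 / 5 : ℝ) = u ^ (-(1 / 2 + ep) : ℝ) * u ^ (2 / 5 + (1 / 2 + ep) : ℝ) := by
      rw [ua]; congr 1; ring
    have h := mul_le_mul_of_nonneg_left (ug (a := 2 / 5 + (1 / 2 + ep)) (by linarith)) Dp.le
    have hk : uK ^ (1 / 10 - ep : ℝ) ≤ 1 := Real.rpow_le_one huK0.le hK2 (by linarith)
    have h2 : uK ^ (1 / 10 - ep : ℝ) * u ^ (2 / 5 : ℝ) ≤ u ^ (-(1 / 2 + ep) : ℝ) * g := by
      calc uK ^ (1 / 10 - ep : ℝ) * u ^ (2 / 5 : ℝ) ≤ 1 * u ^ (2 / 5 : ℝ) :=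
            mul_le_mul_of_nonneg_right hk (up _).le
        _ ≤ _ := by rw [one_mul, e]; exact h
    have h3 := mul_le_mul_of_nonneg_left h2 (by positivity : 0 ≤ 10 * (4 * 10 ^ 6 * i))
    refine h3.trans ?_
    have h4 := mul_le_mul_of_nonneg_left hig Dp.le
    have h5 : 0 ≤ u ^ (-(1 / 2 + ep) : ℝ) * ep := mul_nonneg Dp.le h0.le
    linarith
  · -- R5'
    have e : u ^ (1 / 10 : ℝ) = u ^ (-(1 / 2 + ep) : ℝ) * u ^ (1 / 10 + (1 / 2 + ep) : ℝ) := by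
      rw [ua]; congr 1; ring
    have h := mul_le_mul_of_nonneg_left (ug (a := 1 / 10 + (1 / 2 + ep)) (by linarith)) Dp.le
    have hk : uK ^ (1 - ep : ℝ) ≤ 1 := Real.rpow_le_one huK0.le hK2 (by linarith)
    have h2 : uK ^ (1 - ep : ℝ) * u ^ (1 / 10 : ℝ) ≤ u ^ (-(1 / 2 + ep) : ℝ) * g := by
      calc uK ^ (1 - ep : ℝ) * u ^ (1 / 10 : ℝ) ≤ 1 * u ^ (1 / 10 : ℝ) :=
            mul_le_mul_of_nonneg_right hk (up _).le
        _ ≤ _ := by rw [one_mul, e]; exact h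
    have h3 := mul_le_mul_of_nonneg_left h2 (by positivity : 0 ≤ 10 * (4 * 10 ^ 8 * i))
    refine h3.trans ?_
    have h4 := mul_le_mul_of_nonneg_left hig Dp.le
    have h5 : 0 ≤ u ^ (-(1 / 2 + ep) : ℝ) * ep := mul_nonneg Dp.le h0.le
    linarith
  · -- R6
    linarith
  · -- R6'
    have e : u ^ (-(1 / 2 + ep / 2) : ℝ) = u ^ (-(1 / 2 + ep) : ℝ) * u ^ (ep / 2 : ℝ) := by
      rw [ua]; congr 1; ring
    have h := mul_le_mul_of_nonneg_left (ug (a := ep / 2) (by linarith)) Dp.le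
    have h' := mul_le_mul_of_nonneg_left hit4 Dp.le
    have h'' : 0 ≤ u ^ (-(1 / 2 + ep) : ℝ) * g := mul_nonneg Dp.le hg0.le
    rw [e]; linarith
  · -- R7
    have e : u ^ (-(1 / 2 + ep) : ℝ) * u ^ 4 = u ^ (57 / 20 : ℝ) * u ^ (13 / 20 - ep : ℝ) := by
      rw [hu4', ua, ua]; congr 1; ring
    have h := mul_le_mul_of_nonneg_left (ug (a := 13 / 20 - ep) (by linarith)) (up (57 / 20)).le
    have h' := mul_le_mul_of_nonneg_left hg3 (up (57 / 20)).le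
    have h'' : 0 ≤ u ^ (57 / 20 : ℝ) := (up _).le
    rw [e]; linarith
  · -- R7'
    rw [hu4', ua]; congr 1; ring

end

end Vale.Agent.P046.NL
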