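import Vale.Agent.P046.NL.COREST2b
import Vale.Agent.P046.NL.SCALS

/-! P046, row COREST2: time step and generator of the second stage functional -/

namespace Vale.Agent.P046.NL

open Finset Vale.Agent.P046

noncomputable section

/-- [COREST2] -/
theorem st2_core (ep t dl : ℝ) (h0 : 0 < ep) (h1 : ep ≤ 1 / 100) (ht0 : 0 < t)
    (ht : t ≤ ep ^ 2 / 5000) (hd1 : ep / 8 ≤ dl) (hd2 : dl ≤ ep / 2) :
    ∃ u1 : ℝ, 0 < u1 ∧ u1 ≤ 1 / 100 ∧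
    ∀ (α : Type) [DecidableEq α] (Bl : Finset (Finset α)) (C6 C8 : Finset (Finset (Finset α))),
    Sys Bl C6 C8 → ∀ (umin uK : ℝ) (A₀ : Finset α), 0 < umin → uK ≤ u1 →
    ∃ E h1 : ℝ, 0 ≤ E ∧ 0 < h1 ∧
    ∀ h u : ℝ, 0 < h → h ≤ h1 → umin ≤ u → u + 2 * h ≤ uK → ∀ s : St α, s.B ⊆ A₀ → s.A ⊆ A₀ →
      Inv Bl (2 * t) (u + 2 * h) s →
      PsiS ep t dl uK Bl C6 C8 (u + 2 * h) s
        + h * gen Bl (1 / (u + 2 * h)) (fun s' => PsiS ep t dl uK Bl C6 C8 (u + 2 * h) s') s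
        ≤ PsiS ep t dl uK Bl C6 C8 u s + E * h ^ 2 :=
  st2_core_of ep t dl (scalar_st2 ep t dl h0 h1 ht0 ht hd1 hd2) h0 h1 ht0 ht hd1 hd2

end

end Vale.Agent.P046.NL
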