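import Vale.Agent.P046.NL.Defs

/-!
P046 no-log, row NG: drift of the number of alive configurations of a family of sets of at most
four blocks with at least `m` points.
-/

namespace Vale.Agent.P046.NL

open Finset Vale.Agent.P046

noncomputable section

variable {α : Type} [DecidableEq α]

namespace NG

/-- indicator of the event that the configuration `c` is alive -/
def al (c : Finset (Finset α)) (s : St α) : ℝ := if c ⊆ s.W then 1 else 0

theorem Nc_eq (C : Finset (Finset (Finset α))) (s : St α) : Nc C s = ∑ c ∈ C, al c s := by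
  unfold Nc al
  rw [Finset.card_filter]
  push_cast
  rfl

theorem gen_sum {ι : Type*} (Bl : Finset (Finset α)) (r : ℝ) (C : Finset ι) (F : ι → St α → ℝ)
    (s : St α) :
    gen Bl r (fun t => ∑ c ∈ C, F c t) s = ∑ c ∈ C, gen Bl r (F c) s := by
  unfold gen
  simp only [← Finset.sum_sub_distrib, Finset.mul_sum, Finset.sum_add_distrib]
  congr 1
  · congr 1
    · rw [Finset.sum_comm]
    · rw [Finset.sum_comm (s := C) (t := s.W)]
      refine Finset.sum_congr rfl fun T _ => ?_
      rw [Finset.sum_comm]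
  · rw [Finset.sum_comm]

theorem card_bound {c : Finset (Finset α)} (h3 : ∀ T ∈ c, T.card = 3) (h4 : c.card ≤ 4) :
    (c.biUnion id).card ≤ 12 := by
  calc (c.biUnion id).card ≤ ∑ T ∈ c, (id T).card := Finset.card_biUnion_le
    _ = ∑ T ∈ c, 3 := Finset.sum_congr rfl fun T hT => h3 T hT
    _ = c.card * 3 := by simp
    _ ≤ 12 := by omega

/-- number of pairs of points of `U` in blocks -/
theorem pairs {Bl : Finset (Finset α)} (hBl : Lin3 Bl) {W : Finset (Finset α)} (hW : W ⊆ Bl)
    (U : Finset α) :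
    ∑ T ∈ W, ((T ∩ U).offDiag).card ≤ U.offDiag.card := by
  rw [← Finset.card_biUnion]
  · refine Finset.card_le_card fun p hp => ?_
    simp only [Finset.mem_biUnion, Finset.mem_offDiag, Finset.mem_inter] at hp ⊢
    obtain ⟨T, _, ⟨_, h1⟩, ⟨_, h2⟩, h3⟩ := hp
    exact ⟨h1, h2, h3⟩
  · intro T hT T' hT' hne
    rw [Function.onFun, Finset.disjoint_left]
    intro p hp hp'
    simp only [Finset.mem_offDiag, Finset.mem_inter] at hp hp'
    have h1 := hBl.lin T (hW hT) T' (hW hT') hne
    rw [Finset.card_le_one] at h1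
    exact hp.2.2 (h1 p.1 (Finset.mem_inter.2 ⟨hp.1.1, hp'.1.1⟩) p.2
      (Finset.mem_inter.2 ⟨hp.2.1.1, hp'.2.1.1⟩))

theorem sum_dW (W : Finset (Finset α)) (U : Finset α) :
    ∑ e ∈ U, dW W e = ∑ T ∈ W, ((T ∩ U).card : ℝ) := by
  unfold dW
  simp only [Finset.card_filter, Nat.cast_sum, Nat.cast_ite, Nat.cast_one, Nat.cast_zero]
  rw [Finset.sum_comm]
  refine Finset.sum_congr rfl fun T _ => ?_
  rw [← Finset.sum_filter, Finset.sum_const, nsmul_eq_mul, mul_one]
  congr 2
  ext x
  simp [and_comm]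

theorem ring_part {Bl : Finset (Finset α)} (hBl : Lin3 Bl) {s : St α} (hW : s.W ⊆ Bl)
    {c : Finset (Finset α)} (hc : c ⊆ s.W) (h4 : c.card ≤ 4) :
    ∑ T ∈ s.W, (al c (ring s T) - al c s) ≤ 66 - ∑ e ∈ (c.biUnion id) ∩ s.B, dW s.W e := by
  have hal : al c s = 1 := if_pos hc
  set U := (c.biUnion id) ∩ s.B with hU
  have h1 : ∀ T ∈ s.W, al c (ring s T) - al c s ≤
      (1 / 2 : ℝ) * ((T ∩ U).offDiag.card : ℝ) - ((T ∩ U).card : ℝ) := by
    intro T hT
    have hk : ((T ∩ U).offDiag.card : ℝ) = ((T ∩ U).card : ℝ) * ((T ∩ U).card : ℝ)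
        - ((T ∩ U).card : ℝ) := by
      rw [Finset.offDiag_card, Nat.cast_sub (Nat.le_mul_self _)]
      push_cast
      ring
    rw [hk, hal]
    rcases Nat.eq_zero_or_pos (T ∩ U).card with h0 | hpos
    · rw [h0]
      have : al c (ring s T) ≤ 1 := by unfold al; split_ifs <;> norm_num
      norm_num
      linarith
    · have h0 : al c (ring s T) = 0 := by
        unfold al
        rw [if_neg]
        intro hsub
        obtain ⟨e, he⟩ := Finset.card_pos.1 hpos
        simp only [hU, Finset.mem_inter, Finset.mem_biUnion, id] at he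
        obtain ⟨heT, ⟨S, hS, heS⟩, heB⟩ := he
        have := hsub hS
        simp only [NL.ring, Finset.mem_filter] at this
        exact (Finset.disjoint_left.1 this.2.2 heS) (Finset.mem_inter.2 ⟨heT, heB⟩)
      rw [h0]
      have hk1 : (1 : ℝ) ≤ ((T ∩ U).card : ℝ) := by exact_mod_cast hpos
      rcases Nat.lt_or_ge (T ∩ U).card 2 with h2 | h2
      · have : (T ∩ U).card = 1 := by omega
        rw [this]; norm_num
      · have h2' : (2 : ℝ) ≤ ((T ∩ U).card : ℝ) := by exact_mod_cast h2
        nlinarith [mul_nonneg (sub_nonneg.2 hk1) (sub_nonneg.2 h2')]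
  have h2 : ∑ T ∈ s.W, (al c (ring s T) - al c s) ≤
      (1 / 2 : ℝ) * ∑ T ∈ s.W, ((T ∩ U).offDiag.card : ℝ) - ∑ T ∈ s.W, ((T ∩ U).card : ℝ) := by
    rw [Finset.mul_sum, ← Finset.sum_sub_distrib]
    exact Finset.sum_le_sum h1
  rw [← sum_dW] at h2
  have h3 : ((∑ T ∈ s.W, (T ∩ U).offDiag.card : ℕ) : ℝ) ≤ 132 := by
    have hp := pairs hBl hW U
    have hUc : U.card ≤ 12 :=
      (Finset.card_le_card Finset.inter_subset_left).trans
        (card_bound (fun T hT => hBl.card3 T (hW (hc hT))) h4)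
    have ho : U.offDiag.card ≤ 132 := by
      rw [Finset.offDiag_card]
      have : U.card * U.card - U.card = U.card * (U.card - 1) := by
        rw [Nat.mul_sub]; simp
      rw [this]
      calc U.card * (U.card - 1) ≤ 12 * 11 := Nat.mul_le_mul hUc (by omega)
        _ = 132 := by norm_num
    exact_mod_cast hp.trans ho
  push_cast at h3
  linarith

theorem virt_part {Bl : Finset (Finset α)} (hBl : Lin3 Bl) {th u r : ℝ} {s : St α}
    (hI : Inv Bl th u s) (hr : 0 < r) (hth : th ≤ 1)
    {c : Finset (Finset α)} (hc : c ⊆ s.W) (h4 : c.card ≤ 4) :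
    ∑ T ∈ s.W, ∑ f ∈ T \ s.B, (r * (1 + s.a f) - 1) * (al c (virt s T) - al c s) ≤
      12 - (((c.biUnion id) \ s.B).card : ℝ) * (r * (1 - th)) := by
  have hal : al c s = 1 := if_pos hc
  have ha : ∀ f, f ∉ s.B → r * (1 - th) ≤ r * (1 + s.a f) := by
    intro f hf
    have := hI.bd f
    unfold xv at this
    rw [if_neg hf] at this
    have := (abs_le.1 this).1
    exact mul_le_mul_of_nonneg_left (by linarith) hr.le
  have hnn : 0 ≤ r * (1 - th) := mul_nonneg hr.le (by linarith)
  have h1 : ∑ T ∈ s.W, ∑ f ∈ T \ s.B, (r * (1 + s.a f) - 1) * (al c (virt s T) - al c s)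
      = ∑ T ∈ c, ∑ f ∈ T \ s.B, (1 - r * (1 + s.a f)) := by
    rw [← Finset.sum_subset hc]
    · refine Finset.sum_congr rfl fun T hT => Finset.sum_congr rfl fun f _ => ?_
      have : al c (virt s T) = 0 := by
        unfold al
        rw [if_neg]
        intro h
        exact (Finset.mem_erase.1 (h hT)).1 rfl
      rw [this, hal]; ring
    · intro T _ hT
      refine Finset.sum_eq_zero fun f _ => ?_
      have : al c (virt s T) = 1 := by
        unfold al
        rw [if_pos]
        intro S hS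
        exact Finset.mem_erase.2 ⟨fun h => hT (h ▸ hS), hc hS⟩
      rw [this, hal]; ring
  rw [h1]
  simp only [Finset.sum_sub_distrib]
  have h2 : ∑ T ∈ c, ∑ f ∈ T \ s.B, (1 : ℝ) ≤ 12 := by
    calc ∑ T ∈ c, ∑ f ∈ T \ s.B, (1 : ℝ) ≤ ∑ T ∈ c, (3 : ℝ) := by
          refine Finset.sum_le_sum fun T hT => ?_
          rw [Finset.sum_const, nsmul_eq_mul, mul_one]
          have : (T \ s.B).card ≤ T.card := Finset.card_le_card Finset.sdiff_subset
          rw [hBl.card3 T (hI.sub (hc hT))] at this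
          exact_mod_cast this
      _ = (c.card : ℝ) * 3 := by simp
      _ ≤ 12 := by
          have : (c.card : ℝ) ≤ 4 := by exact_mod_cast h4
          linarith
  have h3 : (((c.biUnion id) \ s.B).card : ℝ) * (r * (1 - th)) ≤
      ∑ T ∈ c, ∑ f ∈ T \ s.B, r * (1 + s.a f) := by
    have hUe : (c.biUnion id) \ s.B = c.biUnion (fun T => T \ s.B) := by
      ext f
      simp only [Finset.mem_sdiff, Finset.mem_biUnion, id]
      constructor
      · rintro ⟨⟨T, hT, hf⟩, hB⟩; exact ⟨T, hT, hf, hB⟩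
      · rintro ⟨T, hT, hf, hB⟩; exact ⟨⟨T, hT, hf⟩, hB⟩
    calc (((c.biUnion id) \ s.B).card : ℝ) * (r * (1 - th))
        = ((c.biUnion (fun T => T \ s.B)).card : ℝ) * (r * (1 - th)) := by rw [hUe]
      _ ≤ (∑ T ∈ c, ((T \ s.B).card : ℝ)) * (r * (1 - th)) := by
          refine mul_le_mul_of_nonneg_right ?_ hnn
          exact_mod_cast Finset.card_biUnion_le
      _ = ∑ T ∈ c, ∑ f ∈ T \ s.B, r * (1 - th) := by
          rw [Finset.sum_mul]
          refine Finset.sum_congr rfl fun T _ => ?_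
          rw [Finset.sum_const, nsmul_eq_mul]
      _ ≤ _ := by
          refine Finset.sum_le_sum fun T _ => Finset.sum_le_sum fun f hf => ?_
          exact ha f (Finset.mem_sdiff.1 hf).2
  linarith

theorem one {Bl : Finset (Finset α)} (hBl : Lin3 Bl) {th u r : ℝ} {s : St α}
    (hI : Inv Bl th u s) (hu : u * r = 1) (hr : 0 < r) (hth : th ≤ 1) (m : ℕ)
    {c : Finset (Finset α)} (h4 : c.card ≤ 4) (hm : m ≤ (c.biUnion id).card) :
    gen Bl r (al c) s ≤ -((m : ℝ) * (1 - th) * r - 100) * al c s := by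
  by_cases hc : c ⊆ s.W
  · have h1 := ring_part hBl hI.sub hc h4
    have h2 := virt_part hBl hI hr hth hc h4
    have h3 : ∑ T ∈ bl Bl s.A \ s.W, (al c (nring s T) - al c s) = 0 :=
      Finset.sum_eq_zero fun T _ => by unfold al nring; simp
    have h5 : (((c.biUnion id) ∩ s.B).card : ℝ) * (r * (1 - th)) ≤
        ∑ e ∈ (c.biUnion id) ∩ s.B, dW s.W e := by
      rw [← nsmul_eq_mul]
      refine Finset.card_nsmul_le_sum _ _ _ fun e he => ?_
      have heB := (Finset.mem_inter.1 he).2
      have := hI.bd e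
      unfold xv at this
      rw [if_pos heB] at this
      have h6 := (abs_le.1 this).1
      have h7 : r * (1 - th) ≤ r * (u * dW s.W e) := mul_le_mul_of_nonneg_left (by linarith) hr.le
      have h8 : r * (u * dW s.W e) = dW s.W e := by rw [← mul_assoc, mul_comm r u, hu, one_mul]
      linarith
    have h9 : (((c.biUnion id) ∩ s.B).card : ℝ) + (((c.biUnion id) \ s.B).card : ℝ)
        = ((c.biUnion id).card : ℝ) := by
      exact_mod_cast Finset.card_inter_add_card_sdiff _ _
    have h10 : (m : ℝ) * (r * (1 - th)) ≤ ((c.biUnion id).card : ℝ) * (r * (1 - th)) :=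
      mul_le_mul_of_nonneg_right (by exact_mod_cast hm) (mul_nonneg hr.le (by linarith))
    have hal : al c s = 1 := if_pos hc
    unfold gen
    rw [h3]
    have h11 : ((c.biUnion id).card : ℝ) * (r * (1 - th)) =
      (((c.biUnion id) ∩ s.B).card : ℝ) * (r * (1 - th))
        + (((c.biUnion id) \ s.B).card : ℝ) * (r * (1 - th)) := by rw [← add_mul, h9]
    have h12 : -((m : ℝ) * (1 - th) * r - 100) * al c s = 100 - (m : ℝ) * (r * (1 - th)) := by
      rw [hal]; ring
    rw [h12]
    linarith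
  · have hal : al c s = 0 := if_neg hc
    have hr' : ∀ T, al c (ring s T) = 0 := fun T => if_neg fun h =>
      hc (h.trans (Finset.filter_subset _ _))
    have hv' : ∀ T, al c (virt s T) = 0 := fun T => if_neg fun h =>
      hc (h.trans (Finset.erase_subset _ _))
    have hn' : ∀ T, al c (nring s T) = 0 := fun T => if_neg hc
    unfold gen
    simp [hal, hr', hv', hn']

end NG

/-- **row NG** -/
theorem ng {Bl : Finset (Finset α)} (hBl : Lin3 Bl) {th u r : ℝ} {s : St α}
    (hI : Inv Bl th u s) (hu : u * r = 1) (hr : 0 < r) (hth : th ≤ 1)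
    (C : Finset (Finset (Finset α))) (m : ℕ)
    (hC : ∀ c ∈ C, c.card ≤ 4 ∧ m ≤ (c.biUnion id).card) :
    gen Bl r (Nc C) s ≤ -((m : ℝ) * (1 - th) * r - 100) * Nc C s := by
  have h1 : Nc C = fun t : St α => ∑ c ∈ C, NG.al c t := by
    funext t; exact NG.Nc_eq C t
  rw [h1, NG.gen_sum]
  simp only
  rw [Finset.mul_sum]
  exact Finset.sum_le_sum fun c hc => NG.one hBl hI hu hr hth m (hC c hc).1 (hC c hc).2

end

end Vale.Agent.P046.NL
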