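import Vale.Agent.P046.NL.ID1

/-!
P046, no log: row PH, part a (the weight function and the counting at a discrepancy).
-/

namespace Vale.Agent.P046.NL

open Finset Vale.Agent.P046

noncomputable section

variable {α : Type} [DecidableEq α]

namespace PH

theorem one_le_wt {dl : ℝ} (hdl : 0 < dl) (y : ℝ) : 1 ≤ wt dl y := by
  unfold wt
  have : 0 ≤ 1 / (2 * dl) * (max (y - 1 - dl / 2) 0) ^ 2 := by positivity
  linarith

theorem dwt_nonneg {dl : ℝ} (hdl : 0 < dl) (y : ℝ) : 0 ≤ dwt dl y := by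
  unfold dwt
  have : 0 ≤ max (y - 1 - dl / 2) 0 := le_max_right _ _
  positivity

theorem wt_eq_one {dl y : ℝ} (h : y ≤ 1 + dl / 2) : wt dl y = 1 := by
  unfold wt
  rw [max_eq_right (by linarith)]
  simp

/-- second order bound for the weight -/
theorem wt_sub {dl : ℝ} (hdl : 0 < dl) (y a : ℝ) :
    wt dl (y - a) ≤ wt dl y - a * dwt dl y + a ^ 2 / (2 * dl) := by
  unfold wt dwt
  obtain ⟨z, hz⟩ : ∃ z : ℝ, z = y - 1 - dl / 2 := ⟨_, rfl⟩
  have e1 : y - a - 1 - dl / 2 = z - a := by rw [hz]; ring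
  rw [e1, ← hz]
  have key : (max (z - a) 0) ^ 2 ≤ (max z 0) ^ 2 - 2 * a * max z 0 + a ^ 2 := by
    rcases le_total z 0 with h1 | h1
    · rw [max_eq_right h1]
      rcases le_total (z - a) 0 with h2 | h2
      · rw [max_eq_right h2]
        nlinarith [sq_nonneg a]
      · rw [max_eq_left h2]
        nlinarith
    · rw [max_eq_left h1]
      rcases le_total (z - a) 0 with h2 | h2
      · rw [max_eq_right h2]
        nlinarith [sq_nonneg (z - a)]
      · rw [max_eq_left h2]
        nlinarith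
  have e2 : 1 + 1 / (2 * dl) * (max z 0) ^ 2 - a * (1 / dl * max z 0) + a ^ 2 / (2 * dl) =
      1 + 1 / (2 * dl) * ((max z 0) ^ 2 - 2 * a * max z 0 + a ^ 2) := by
    field_simp
    ring
  rw [e2]
  have h3 : 0 ≤ 1 / (2 * dl) := by positivity
  have := mul_le_mul_of_nonneg_left key h3
  linarith

/-- `y` is at most twice the weight -/
theorem le_two_wt {dl : ℝ} (hdl : 0 < dl) (hdl1 : dl ≤ 1) (y : ℝ) : y ≤ 2 * wt dl y := by
  unfold wt
  obtain ⟨z, hz⟩ : ∃ z : ℝ, z = max (y - 1 - dl / 2) 0 := ⟨_, rfl⟩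
  rw [← hz]
  have h0 : 0 ≤ z := by rw [hz]; exact le_max_right _ _
  have h1 : y - 1 - dl / 2 ≤ z := by rw [hz]; exact le_max_left _ _
  have h2 : (1 : ℝ) / 2 ≤ 1 / (2 * dl) := by
    apply one_div_le_one_div_of_le (by positivity)
    linarith
  have h3 : 1 / 2 * z ^ 2 ≤ 1 / (2 * dl) * z ^ 2 :=
    mul_le_mul_of_nonneg_right h2 (by positivity)
  nlinarith [sq_nonneg (z - 1)]

/-- the growth rate of a discrepancy -/
theorem growth {dl th : ℝ} (hdl : 0 < dl) (hdl1 : dl ≤ 1) (hth0 : 0 ≤ th) (hth : th ≤ dl / 16)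
    (y : ℝ) (hy : 0 ≤ y) :
    y * max (2 - wt dl y) 0 + 2 * th * (y * dwt dl y) ≤ (1 + dl) * wt dl y := by
  rcases le_total (y - 1 - dl / 2) 0 with h0 | h0
  · have h1 : wt dl y = 1 := wt_eq_one (by linarith)
    have h2 : dwt dl y = 0 := by unfold dwt; rw [max_eq_right h0]; ring
    rw [h1, h2, max_eq_left (by norm_num)]
    linarith
  · obtain ⟨z, hz⟩ : ∃ z : ℝ, z = y - 1 - dl / 2 := ⟨_, rfl⟩
    obtain ⟨t, ht⟩ : ∃ t : ℝ, t = z / dl := ⟨_, rfl⟩
    have hzt : z = dl * t := by rw [ht]; field_simp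
    have hz0 : 0 ≤ z := by rw [hz]; exact h0
    have ht0 : 0 ≤ t := by rw [ht]; positivity
    have hyz : y = 1 + dl / 2 + dl * t := by rw [← hzt, hz]; ring
    have h1 : wt dl y = 1 + dl * t ^ 2 / 2 := by
      unfold wt
      rw [max_eq_left h0, ← hz, hzt]
      field_simp
    have h2 : dwt dl y = t := by
      unfold dwt
      rw [max_eq_left h0, ← hz, hzt]
      field_simp
    rw [h1, h2]
    have hth2 : 2 * th * (y * t) ≤ dl / 8 * (y * t) :=
      mul_le_mul_of_nonneg_right (by linarith) (by positivity)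
    have hdt : 0 ≤ dl * t := by positivity
    rcases le_total (2 - (1 + dl * t ^ 2 / 2)) 0 with h3 | h3
    · rw [max_eq_right h3]
      have h4 : (1 : ℝ) ≤ dl * t ^ 2 / 2 := by linarith
      have h5 : y * t ≤ 3 / 2 * t + dl * t ^ 2 := by
        rw [hyz]; nlinarith
      have h6 : dl / 8 * (y * t) ≤ 1 / 8 * (3 / 2 * (dl * t) + dl * t ^ 2) := by
        have h7 : dl / 8 * (y * t) ≤ dl / 8 * (3 / 2 * t + dl * t ^ 2) :=
          mul_le_mul_of_nonneg_left h5 (by positivity)
        have h8 : dl * (dl * t ^ 2) ≤ 1 * (dl * t ^ 2) :=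
          mul_le_mul_of_nonneg_right hdl1 (by positivity)
        nlinarith
      have h9 : dl * t ≤ 1 / 2 + dl * t ^ 2 / 2 := by nlinarith [sq_nonneg (t - 1)]
      nlinarith
    · rw [max_eq_left h3]
      have h4 : dl * t ^ 2 ≤ 2 := by linarith
      have h5 : dl * t ≤ 3 / 2 := by
        by_contra hcon
        push Not at hcon
        have h6 : (3 / 2) * (3 / 2) < (dl * t) * (dl * t) := by nlinarith
        have h7 : (dl * t) * (dl * t) = dl * (dl * t ^ 2) := by ring
        have h8 : dl * (dl * t ^ 2) ≤ 1 * 2 := by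
          apply mul_le_mul hdl1 h4 (by positivity) (by norm_num)
        linarith
      have hy3 : y ≤ 3 := by rw [hyz]; linarith
      have h6 : dl / 8 * (y * t) ≤ dl / 8 * (3 * t) := by
        apply mul_le_mul_of_nonneg_left _ (by positivity)
        exact mul_le_mul_of_nonneg_right hy3 ht0
      have h7 : y * (2 - (1 + dl * t ^ 2 / 2)) =
          1 + dl / 2 + dl * t - (dl * t ^ 2 / 2) * (1 + dl / 2 + dl * t) := by
        rw [hyz]; ring
      have h8 : (dl * t ^ 2 / 2) * (1 + dl / 2 + dl * t) ≥ (dl * t ^ 2 / 2) * 1 := by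
        apply mul_le_mul_of_nonneg_left _ (by positivity)
        nlinarith
      have h9 : (1 + dl) * (1 + dl * t ^ 2 / 2) ≥ 1 + dl + dl * t ^ 2 / 2 := by nlinarith [mul_pos hdl hdl, sq_nonneg t, mul_nonneg hdl.le (sq_nonneg t)]
      have h10 : dl * (1 / 2 - t + t ^ 2 - 3 / 8 * t) ≥ 0 := by
        apply mul_nonneg hdl.le
        nlinarith [sq_nonneg (t - 11 / 16)]
      nlinarith

/-- the blocks counted by `gd` -/
def G (Bl : Finset (Finset α)) (s : St α) (e : α) : Finset (Finset α) :=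
  Bl.filter (fun T => e ∈ T ∧ T.erase e ⊆ s.B)

theorem gd_eq (Bl : Finset (Finset α)) (s : St α) (e : α) : gd Bl s e = ((G Bl s e).card : ℝ) := rfl

theorem gd_nonneg (Bl : Finset (Finset α)) (s : St α) (e : α) : 0 ≤ gd Bl s e := by
  rw [gd_eq]; positivity

/-- number of blocks of `gd` which are hit by `T` -/
def kT (Bl : Finset (Finset α)) (s : St α) (T : Finset α) (e : α) : ℝ :=
  ∑ S ∈ G Bl s e, if ¬ Disjoint (S.erase e) T then (1 : ℝ) else 0

theorem kT_nonneg (Bl : Finset (Finset α)) (s : St α) (T : Finset α) (e : α) :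
    0 ≤ kT Bl s T e := by
  unfold kT
  refine sum_nonneg fun S _ => ?_
  split_ifs <;> norm_num

theorem gd_ring (Bl : Finset (Finset α)) (s : St α) (T : Finset α) (e : α) :
    gd Bl (ring s T) e = gd Bl s e - kT Bl s T e := by
  have h1 : G Bl (ring s T) e = (G Bl s e).filter (fun S => Disjoint (S.erase e) T) := by
    unfold G
    rw [filter_filter]
    refine filter_congr fun S _ => ?_
    have h2 : (ring s T).B = s.B \ T := rfl
    rw [h2, subset_sdiff, and_assoc]
  rw [gd_eq, gd_eq, h1, kT]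
  have h3 := card_filter_add_card_filter_not (s := G Bl s e) (fun S => Disjoint (S.erase e) T)
  rw [← sum_filter, sum_const, nsmul_eq_mul, mul_one]
  have h4 : (((G Bl s e).filter (fun S => Disjoint (S.erase e) T)).card : ℝ) +
      (((G Bl s e).filter (fun S => ¬ Disjoint (S.erase e) T)).card : ℝ) =
      ((G Bl s e).card : ℝ) := by exact_mod_cast h3
  linarith

theorem kT_le {Bl : Finset (Finset α)} (hL : Lin3 Bl) (s : St α) {T : Finset α}
    (hT : T ∈ Bl) (e : α) : kT Bl s T e ≤ 3 := by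
  have h1 : kT Bl s T e ≤ ∑ S ∈ G Bl s e, ∑ f ∈ T, if f ∈ S.erase e then (1 : ℝ) else 0 := by
    unfold kT
    refine sum_le_sum fun S _ => ?_
    by_cases h : Disjoint (S.erase e) T
    · rw [if_neg (not_not.mpr h)]
      exact sum_nonneg fun i _ => by split_ifs <;> norm_num
    · rw [if_pos h]
      obtain ⟨f, hf1, hf2⟩ := not_disjoint_iff.1 h
      have h2 : (if f ∈ S.erase e then (1 : ℝ) else 0) ≤
          ∑ f ∈ T, if f ∈ S.erase e then (1 : ℝ) else 0 :=
        single_le_sum (f := fun f => if f ∈ S.erase e then (1 : ℝ) else 0)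
          (fun i _ => by split_ifs <;> norm_num) hf2
      rw [if_pos hf1] at h2
      exact h2
  refine h1.trans ?_
  rw [sum_comm]
  have h2 : ∀ f ∈ T, ∑ S ∈ G Bl s e, (if f ∈ S.erase e then (1 : ℝ) else 0) ≤ 1 := by
    intro f _
    rw [← sum_filter, sum_const, nsmul_eq_mul, mul_one]
    have h3 : ((G Bl s e).filter (fun S => f ∈ S.erase e)).card ≤ 1 := by
      rw [card_le_one]
      intro S hS S' hS'
      unfold G at hS hS'
      simp only [mem_filter, mem_erase] at hS hS'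
      exact lin_eq hL hS.1.1 hS'.1.1 (Ne.symm hS.2.1) hS.1.2.1 hS.2.2 hS'.1.2.1 hS'.2.2
    exact_mod_cast h3
  calc ∑ f ∈ T, ∑ S ∈ G Bl s e, (if f ∈ S.erase e then (1 : ℝ) else 0) ≤ ∑ _f ∈ T, (1 : ℝ) :=
        sum_le_sum h2
    _ = 3 := by
        rw [sum_const, hL.card3 T hT]
        norm_num

/-- the degree of a real point -/
theorem dW_real {u r : ℝ} (hur : u * r = 1) (s : St α) {f : α} (hf : f ∈ s.B) :
    dW s.W f = r * (1 + xv u s f) := by
  have := rate_real hur s hf
  linarith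

/-- the total hitting rate -/
theorem sum_kT {Bl : Finset (Finset α)} {th u : ℝ} (hL : Lin3 Bl) {s : St α}
    (hI : Inv Bl th u s) {e : α} (he : e ∉ s.B) (heZ : e ∉ s.Z) :
    ∑ T ∈ s.W, kT Bl s T e = ∑ S ∈ G Bl s e, ∑ f ∈ S.erase e, dW s.W f := by
  unfold kT
  rw [sum_comm]
  refine sum_congr rfl fun S hS => ?_
  unfold G at hS
  rw [mem_filter] at hS
  have h1 : ∀ T ∈ s.W, (if ¬ Disjoint (S.erase e) T then (1 : ℝ) else 0) =
      ∑ f ∈ S.erase e, if f ∈ T then (1 : ℝ) else 0 := by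
    intro T hT
    by_cases h : Disjoint (S.erase e) T
    · rw [if_neg (not_not.mpr h)]
      symm
      refine sum_eq_zero fun f hf => ?_
      rw [if_neg (disjoint_left.1 h hf)]
    · rw [if_pos h]
      obtain ⟨f, hf1, hf2⟩ := not_disjoint_iff.1 h
      rw [← add_sum_erase _ _ hf1, if_pos hf2]
      have h2 : ∑ g ∈ (S.erase e).erase f, (if g ∈ T then (1 : ℝ) else 0) = 0 := by
        refine sum_eq_zero fun g hg => ?_
        rw [if_neg]
        intro hgT
        rw [mem_erase] at hg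
        have h3 : S = T := lin_eq hL hS.1 (hI.sub hT) hg.1 (mem_erase.1 hg.2).2
          (mem_erase.1 hf1).2 hgT hf2
        have h4 := hI.cov T hT (h3 ▸ hS.2.1)
        rw [mem_union] at h4
        rcases h4 with h4 | h4
        · exact he h4
        · exact heZ h4
      rw [h2, add_zero]
  rw [sum_congr rfl h1, sum_comm]
  refine sum_congr rfl fun f _ => ?_
  unfold dW
  rw [← sum_filter, sum_const, nsmul_eq_mul, mul_one]

theorem sum_kT_bounds {Bl : Finset (Finset α)} {th u r : ℝ} (hL : Lin3 Bl) (hur : u * r = 1)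
    (hr : 0 < r) {s : St α} (hI : Inv Bl th u s) {e : α} (he : e ∉ s.B) (heZ : e ∉ s.Z) :
    2 * r * (1 - th) * gd Bl s e ≤ ∑ T ∈ s.W, kT Bl s T e ∧
      ∑ T ∈ s.W, kT Bl s T e ≤ 2 * r * (1 + th) * gd Bl s e := by
  rw [sum_kT (u := u) hL hI he heZ, gd_eq]
  have hS : ∀ S ∈ G Bl s e, 2 * r * (1 - th) ≤ ∑ f ∈ S.erase e, dW s.W f ∧
      ∑ f ∈ S.erase e, dW s.W f ≤ 2 * r * (1 + th) := by
    intro S hS
    unfold G at hS
    rw [mem_filter] at hS
    have hc : (S.erase e).card = 2 := by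
      rw [card_erase_of_mem hS.2.1, hL.card3 S hS.1]
    have h1 : ∀ f ∈ S.erase e, r * (1 - th) ≤ dW s.W f ∧ dW s.W f ≤ r * (1 + th) := by
      intro f hf
      rw [dW_real hur s (hS.2.2 hf)]
      have h2 := abs_le.1 (hI.bd f)
      exact ⟨mul_le_mul_of_nonneg_left (by linarith) hr.le,
        mul_le_mul_of_nonneg_left (by linarith) hr.le⟩
    constructor
    · have h3 := sum_le_sum fun f hf => (h1 f hf).1
      rw [sum_const, hc, nsmul_eq_mul] at h3
      push_cast at h3
      linarith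
    · have h3 := sum_le_sum fun f hf => (h1 f hf).2
      rw [sum_const, hc, nsmul_eq_mul] at h3
      push_cast at h3
      linarith
  constructor
  · have h3 := sum_le_sum fun S h => (hS S h).1
    rw [sum_const, nsmul_eq_mul] at h3
    linarith
  · have h3 := sum_le_sum fun S h => (hS S h).2
    rw [sum_const, nsmul_eq_mul] at h3
    linarith

/-- the change of the weight of a fixed discrepancy under all clocks -/
theorem ring_wt {Bl : Finset (Finset α)} {th u r dl : ℝ} (hL : Lin3 Bl) (hur : u * r = 1)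
    (hr : 0 < r) (hdl : 0 < dl) {s : St α} (hI : Inv Bl th u s) {e : α} (he : e ∉ s.B)
    (heZ : e ∉ s.Z) :
    ∑ T ∈ s.W, (wt dl (u * gd Bl (ring s T) e) - wt dl (u * gd Bl s e)) ≤
      - (2 * (1 - th)) * (dwt dl (u * gd Bl s e) * gd Bl s e)
        + 3 * (1 + th) / dl * (u * gd Bl s e) := by
  have hu : 0 < u := by
    by_contra h
    push Not at h
    nlinarith
  obtain ⟨hlo, hhi⟩ := sum_kT_bounds hL hur hr hI he heZ
  have hterm : ∀ T ∈ s.W, wt dl (u * gd Bl (ring s T) e) - wt dl (u * gd Bl s e) ≤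
      (-(u * dwt dl (u * gd Bl s e)) + 3 * u ^ 2 / (2 * dl)) * kT Bl s T e := by
    intro T hT
    have h1 := wt_sub hdl (u * gd Bl s e) (u * kT Bl s T e)
    have h2 : u * gd Bl s e - u * kT Bl s T e = u * gd Bl (ring s T) e := by
      rw [gd_ring]; ring
    rw [h2] at h1
    have h3 := kT_nonneg Bl s T e
    have h4 := kT_le hL s (hI.sub hT) e
    have h5 : (u * kT Bl s T e) ^ 2 / (2 * dl) ≤ 3 * u ^ 2 / (2 * dl) * kT Bl s T e := by
      have h6 : kT Bl s T e ^ 2 ≤ 3 * kT Bl s T e := by nlinarith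
      have h7 : (u * kT Bl s T e) ^ 2 / (2 * dl) = u ^ 2 / (2 * dl) * kT Bl s T e ^ 2 := by ring
      have h8 : u ^ 2 / (2 * dl) * kT Bl s T e ^ 2 ≤ u ^ 2 / (2 * dl) * (3 * kT Bl s T e) :=
        mul_le_mul_of_nonneg_left h6 (by positivity)
      rw [h7]
      refine h8.trans (le_of_eq ?_)
      ring
    linarith
  refine (sum_le_sum hterm).trans ?_
  rw [← mul_sum]
  set SK := ∑ T ∈ s.W, kT Bl s T e with hSK
  set g := gd Bl s e with hg
  set w' := dwt dl (u * g) with hw'
  have hw0 : 0 ≤ w' := dwt_nonneg hdl _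
  have h1 : -(u * w') * SK ≤ -(u * w') * (2 * r * (1 - th) * g) := by
    have := mul_le_mul_of_nonneg_left hlo (mul_nonneg hu.le hw0)
    linarith
  have h2 : 3 * u ^ 2 / (2 * dl) * SK ≤ 3 * u ^ 2 / (2 * dl) * (2 * r * (1 + th) * g) :=
    mul_le_mul_of_nonneg_left hhi (by positivity)
  have h3 : -(u * w') * (2 * r * (1 - th) * g) = -(2 * (1 - th)) * (w' * g) * (u * r) := by ring
  have h4 : 3 * u ^ 2 / (2 * dl) * (2 * r * (1 + th) * g) =
      3 * (1 + th) / dl * (u * g) * (u * r) := by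
    field_simp
  rw [hur, mul_one] at h3 h4
  calc (-(u * w') + 3 * u ^ 2 / (2 * dl)) * SK = -(u * w') * SK + 3 * u ^ 2 / (2 * dl) * SK := by
        ring
    _ ≤ _ := by linarith

end PH

end

end Vale.Agent.P046.NL
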