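import Vale.Agent.P046.NL.Defs2
import Vale.Agent.P046.NL.PHa

/-!
P046, no log: row PHG (the generator of the weighted number of discrepancies).
-/

namespace Vale.Agent.P046.NL

open Finset Vale.Agent.P046

noncomputable section

variable {α : Type} [DecidableEq α]

namespace PH

theorem y_dwt {dl : ℝ} (hdl : 0 < dl) (hdl1 : dl ≤ 1 / 2) (y : ℝ) (_hy : 0 ≤ y) :
    y * dwt dl y ≤ 4 / dl * wt dl y := by
  obtain ⟨z, hz⟩ : ∃ z : ℝ, z = max (y - 1 - dl / 2) 0 := ⟨_, rfl⟩
  have h0 : 0 ≤ z := by rw [hz]; exact le_max_right _ _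
  have h2 : dwt dl y = 1 / dl * z := by unfold dwt; rw [← hz]
  have h3 : wt dl y = 1 + 1 / (2 * dl) * z ^ 2 := by unfold wt; rw [← hz]
  rw [h2, h3]
  have h4 : z ^ 2 ≤ 1 / (2 * dl) * z ^ 2 := by
    have h5 : (1 : ℝ) ≤ 1 / (2 * dl) := by
      rw [le_div_iff₀ (by positivity)]
      linarith
    nlinarith [sq_nonneg z]
  have h5 : y * z ≤ 4 * (1 + 1 / (2 * dl) * z ^ 2) := by
    rcases eq_or_lt_of_le h0 with h6 | h6
    · rw [← h6]
      norm_num
    · have h7 : z = y - 1 - dl / 2 := by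
        rw [hz]
        apply max_eq_left
        by_contra hcon
        push Not at hcon
        rw [max_eq_right hcon.le] at hz
        linarith
      have h8 : y = 1 + dl / 2 + z := by linarith
      rw [h8]
      nlinarith [sq_nonneg (z - 1)]
  calc y * (1 / dl * z) = 1 / dl * (y * z) := by ring
    _ ≤ 1 / dl * (4 * (1 + 1 / (2 * dl) * z ^ 2)) := by
        apply mul_le_mul_of_nonneg_left h5 (by positivity)
    _ = _ := by ring

/-- the set of real-only points -/
def X (s : St α) : Finset α := (s.A \ s.B) \ s.Z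

theorem Ph_def (Bl : Finset (Finset α)) (dl u : ℝ) (s : St α) :
    Ph Bl dl u s = ∑ e ∈ X s, wt dl (u * gd Bl s e) + ((s.B \ s.A).card : ℝ)
      + 2 * ((s.Z ∩ s.A).card : ℝ) := rfl

theorem mem_X {s : St α} {e : α} : e ∈ X s ↔ e ∈ s.A ∧ e ∉ s.B ∧ e ∉ s.Z := by
  unfold X
  simp only [mem_sdiff]
  tauto

/-- `gd` at a real point is at most the degree -/
theorem gd_le_dW {Bl : Finset (Finset α)} {th u : ℝ} {s : St α} (hI : Inv Bl th u s) {e : α}
    (he : e ∈ s.B) : gd Bl s e ≤ dW s.W e := by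
  unfold gd dW
  have : (Bl.filter (fun T => e ∈ T ∧ T.erase e ⊆ s.B)) ⊆ s.W.filter (fun T => e ∈ T) := by
    intro T hT
    rw [mem_filter] at hT ⊢
    refine ⟨hI.full T hT.1 ?_, hT.2.1⟩
    intro f hf
    by_cases h : f = e
    · rw [h]; exact he
    · exact hT.2.2 (mem_erase.2 ⟨h, hf⟩)
  exact_mod_cast card_le_card this

theorem new_wt {Bl : Finset (Finset α)} {th u r dl : ℝ} (hur : u * r = 1)
    (hr : 0 < r) {s : St α} (hI : Inv Bl th u s) (hth : 4 * th ≤ dl) (T : Finset α)
    {e : α} (he : e ∈ s.B) (hth0 : 0 ≤ th) : wt dl (u * gd Bl (ring s T) e) = 1 := by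
  have hu : 0 < u := by
    by_contra h
    push Not at h
    nlinarith
  apply wt_eq_one
  have h1 := gd_le_dW hI he
  have h2 := kT_nonneg Bl s T e
  have h3 := dW_real hur s he
  have h4 := abs_le.1 (hI.bd e)
  rw [gd_ring]
  have h5 : u * (gd Bl s e - kT Bl s T e) ≤ u * (r * (1 + xv u s e)) :=
    mul_le_mul_of_nonneg_left (by linarith) hu.le
  have h6 : u * (r * (1 + xv u s e)) = 1 + xv u s e := by
    rw [← mul_assoc, hur, one_mul]
  linarith [h4.2]

/-- change of `Ph` when the clock of `T ∈ W` rings -/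
theorem ring_Ph {Bl : Finset (Finset α)} {th u r dl : ℝ} (hL : Lin3 Bl) (hur : u * r = 1)
    (hr : 0 < r) (hth0 : 0 ≤ th) (hth : 4 * th ≤ dl) {s : St α} (hI : Inv Bl th u s)
    {T : Finset α} (hT : T ∈ s.W) :
    Ph Bl dl u (ring s T) - Ph Bl dl u s ≤
      ∑ e ∈ X s, (wt dl (u * gd Bl (ring s T) e) - wt dl (u * gd Bl s e))
        + (((s.B \ s.A) ∩ T).card : ℝ) + 2 * ((T \ s.B).card : ℝ) := by
  have hcov := hI.cov T hT
  have hdisj := hI.disj
  have hT3 := hL.card3 T (hI.sub hT)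
  rw [Ph_def, Ph_def, sum_sub_distrib]
  by_cases hTA : T ⊆ s.A
  · have hA' : (ring s T).A = s.A \ T := by unfold ring; simp [hTA]
    have hB' : (ring s T).B = s.B \ T := rfl
    have hZ' : (ring s T).Z = s.Z := rfl
    have hX : X (ring s T) = X s := by
      ext e
      rw [mem_X, mem_X, hA', hB', hZ']
      simp only [mem_sdiff]
      constructor
      · rintro ⟨⟨h1, h2⟩, h3, h4⟩
        exact ⟨h1, fun h5 => h3 ⟨h5, h2⟩, h4⟩
      · rintro ⟨h1, h2, h3⟩
        refine ⟨⟨h1, fun h4 => ?_⟩, fun h4 => h2 h4.1, h3⟩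
        have h5 := hcov h4
        rw [mem_union] at h5
        rcases h5 with h5 | h5
        · exact h2 h5
        · exact h3 h5
    have hY : (ring s T).B \ (ring s T).A = s.B \ s.A := by
      rw [hA', hB']
      ext e
      simp only [mem_sdiff]
      constructor
      · rintro ⟨⟨h1, h2⟩, h3⟩
        exact ⟨h1, fun h4 => h3 ⟨h4, h2⟩⟩
      · rintro ⟨h1, h2⟩
        exact ⟨⟨h1, fun h4 => h2 (hTA h4)⟩, fun h4 => h2 h4.1⟩
    have hZA : (((ring s T).Z ∩ (ring s T).A).card : ℝ) ≤ ((s.Z ∩ s.A).card : ℝ) := by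
      rw [hA', hZ']
      exact_mod_cast card_le_card (inter_subset_inter (Subset.refl _) sdiff_subset)
    rw [hX, hY]
    have h1 : (0 : ℝ) ≤ (((s.B \ s.A) ∩ T).card : ℝ) := by positivity
    have h2 : (0 : ℝ) ≤ ((T \ s.B).card : ℝ) := by positivity
    linarith
  · have hA' : (ring s T).A = s.A := by unfold ring; simp [hTA]
    have hB' : (ring s T).B = s.B \ T := rfl
    have hZ' : (ring s T).Z = s.Z := rfl
    have hX : X (ring s T) = X s ∪ (s.A ∩ (s.B ∩ T)) := by
      ext e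
      rw [mem_X, hA', hB', hZ', mem_union, mem_X]
      simp only [mem_sdiff, mem_inter]
      constructor
      · rintro ⟨h1, h2, h3⟩
        by_cases h4 : e ∈ s.B
        · right
          refine ⟨h1, h4, ?_⟩
          by_contra h5
          exact h2 ⟨h4, h5⟩
        · left
          exact ⟨h1, h4, h3⟩
      · rintro (⟨h1, h2, h3⟩ | ⟨h1, h2, h3⟩)
        · exact ⟨h1, fun h4 => h2 h4.1, h3⟩
        · exact ⟨h1, fun h4 => h4.2 h3, disjoint_left.1 hdisj h2⟩
    have hXd : Disjoint (X s) (s.A ∩ (s.B ∩ T)) := by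
      rw [disjoint_left]
      intro e h1 h2
      rw [mem_X] at h1
      simp only [mem_inter] at h2
      exact h1.2.1 h2.2.1
    have hnew : ∑ e ∈ s.A ∩ (s.B ∩ T), wt dl (u * gd Bl (ring s T) e) =
        ((s.A ∩ (s.B ∩ T)).card : ℝ) := by
      rw [sum_congr rfl (g := fun _ => (1 : ℝ)), sum_const, nsmul_eq_mul, mul_one]
      intro e he
      simp only [mem_inter] at he
      exact new_wt hur hr hI hth T he.2.1 hth0
    have hYeq : (ring s T).B \ (ring s T).A = (s.B \ s.A) \ T := by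
      rw [hA', hB']
      ext e
      simp only [mem_sdiff]
      tauto
    have hYc : (((s.B \ s.A) \ T).card : ℝ) + (((s.B \ s.A) ∩ T).card : ℝ) =
        ((s.B \ s.A).card : ℝ) := by
      exact_mod_cast card_sdiff_add_card_inter (s.B \ s.A) T
    have hZA : (ring s T).Z ∩ (ring s T).A = s.Z ∩ s.A := by rw [hA', hZ']
    rw [hX, sum_union hXd, hnew, hYeq, hZA]
    have hnat : (s.A ∩ (s.B ∩ T)).card ≤
        2 * ((s.B \ s.A) ∩ T).card + 2 * (T \ s.B).card := by
      have h1 : (s.A ∩ (s.B ∩ T)).card + ((s.B \ s.A) ∩ T).card = (s.B ∩ T).card := by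
        rw [← card_union_of_disjoint]
        · congr 1
          ext e
          simp only [mem_union, mem_inter, mem_sdiff]
          tauto
        · rw [disjoint_left]
          intro e h2 h3
          simp only [mem_inter, mem_sdiff] at h2 h3
          exact h3.1.2 h2.1
      have h2 : (s.B ∩ T).card + (T \ s.B).card = 3 := by
        rw [← hT3, inter_comm]
        exact card_inter_add_card_sdiff T s.B
      have h3 : 1 ≤ ((s.B \ s.A) ∩ T).card ∨ 1 ≤ (T \ s.B).card := by
        obtain ⟨f, hf1, hf2⟩ := not_subset.1 hTA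
        by_cases h4 : f ∈ s.B
        · left
          exact card_pos.2 ⟨f, by simp only [mem_inter, mem_sdiff]; exact ⟨⟨h4, hf2⟩, hf1⟩⟩
        · right
          exact card_pos.2 ⟨f, by simp only [mem_sdiff]; exact ⟨hf1, h4⟩⟩
      omega
    have hreal : ((s.A ∩ (s.B ∩ T)).card : ℝ) ≤
        2 * (((s.B \ s.A) ∩ T).card : ℝ) + 2 * ((T \ s.B).card : ℝ) := by exact_mod_cast hnat
    linarith

/-- change of `Ph` when a block of the real process rings which is not alive in the modified one -/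
theorem nring_Ph {Bl : Finset (Finset α)} {th u dl : ℝ} (hL : Lin3 Bl) (hdl : 0 < dl) {s : St α}
    (hI : Inv Bl th u s) {T : Finset α} (hT : T ∈ bl Bl s.A \ s.W) :
    Ph Bl dl u (nring s T) - Ph Bl dl u s ≤
      ∑ f ∈ X s, if f ∈ T ∧ T.erase f ⊆ s.B then 2 - wt dl (u * gd Bl s f) else 0 := by
  rw [mem_sdiff] at hT
  have hTB := (mem_filter.1 hT.1).1
  have hTA := (mem_filter.1 hT.1).2
  have hT3 := hL.card3 T hTB
  have hdisj := hI.disj
  have hX : X (nring s T) = X s \ (X s ∩ T) := by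
    ext e
    rw [mem_sdiff, mem_inter, mem_X, mem_X]
    have h1 : (nring s T).A = s.A \ T := rfl
    have h2 : (nring s T).B = s.B := rfl
    have h3 : (nring s T).Z = s.Z := rfl
    rw [h1, h2, h3, mem_sdiff]
    tauto
  have hXs : ∑ e ∈ X s \ (X s ∩ T), wt dl (u * gd Bl (nring s T) e) =
      ∑ e ∈ X s, wt dl (u * gd Bl s e) - ∑ e ∈ X s ∩ T, wt dl (u * gd Bl s e) := by
    have h1 : ∀ e, gd Bl (nring s T) e = gd Bl s e := fun e => rfl
    simp only [h1]
    rw [eq_sub_iff_add_eq]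
    exact sum_sdiff inter_subset_left
  have hY : (((nring s T).B \ (nring s T).A).card : ℝ) = ((s.B \ s.A).card : ℝ) +
      ((s.B ∩ T).card : ℝ) := by
    have h1 : (nring s T).B \ (nring s T).A = (s.B \ s.A) ∪ (s.B ∩ T) := by
      have h1 : (nring s T).A = s.A \ T := rfl
      have h2 : (nring s T).B = s.B := rfl
      rw [h1, h2]
      ext e
      simp only [mem_union, mem_inter, mem_sdiff]
      tauto
    rw [h1, card_union_of_disjoint]
    · push_cast
      rfl
    · rw [disjoint_left]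
      intro e h2 h3
      simp only [mem_inter, mem_sdiff] at h2 h3
      exact h2.2 (hTA h3.2)
  have hZ : (((nring s T).Z ∩ (nring s T).A).card : ℝ) = ((s.Z ∩ s.A).card : ℝ) -
      ((s.Z ∩ T).card : ℝ) := by
    have h1 : (nring s T).Z ∩ (nring s T).A = (s.Z ∩ s.A) \ (s.Z ∩ T) := by
      have h1 : (nring s T).A = s.A \ T := rfl
      have h2 : (nring s T).Z = s.Z := rfl
      rw [h1, h2]
      ext e
      simp only [mem_inter, mem_sdiff]
      tauto
    have h2 : s.Z ∩ T ⊆ s.Z ∩ s.A := inter_subset_inter (Subset.refl _) hTA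
    rw [h1, card_sdiff_of_subset h2, Nat.cast_sub (card_le_card h2)]
  rw [Ph_def, Ph_def, hX, hXs, hY, hZ]
  set F := (X s).filter (fun f => f ∈ T ∧ T.erase f ⊆ s.B) with hF
  rw [← sum_filter, ← hF, sum_sub_distrib, sum_const, nsmul_eq_mul]
  have hFX : F ⊆ X s ∩ T := by
    intro f hf
    rw [hF, mem_filter] at hf
    exact mem_inter.2 ⟨hf.1, hf.2.1⟩
  have hsum : ∑ e ∈ F, wt dl (u * gd Bl s e) + (((X s ∩ T) \ F).card : ℝ) ≤
      ∑ e ∈ X s ∩ T, wt dl (u * gd Bl s e) := by
    rw [← sum_sdiff hFX, add_comm]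
    have h1 : (((X s ∩ T) \ F).card : ℝ) ≤ ∑ e ∈ (X s ∩ T) \ F, wt dl (u * gd Bl s e) := by
      have h2 : ∑ _e ∈ (X s ∩ T) \ F, (1 : ℝ) ≤ ∑ e ∈ (X s ∩ T) \ F, wt dl (u * gd Bl s e) :=
        sum_le_sum fun e _ => one_le_wt hdl _
      rw [sum_const, nsmul_eq_mul, mul_one] at h2
      exact h2
    linarith
  have hcF : (((X s ∩ T) \ F).card : ℝ) = ((X s ∩ T).card : ℝ) - (F.card : ℝ) := by
    rw [card_sdiff_of_subset hFX, Nat.cast_sub (card_le_card hFX)]
  -- the counting
  have hpart : (X s ∩ T).card + (s.B ∩ T).card + (s.Z ∩ T).card = 3 := by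
    rw [← hT3, ← card_union_of_disjoint, ← card_union_of_disjoint]
    · congr 1
      ext e
      simp only [mem_union, mem_inter, mem_X]
      constructor
      · rintro ((h | h) | h)
        · exact h.2
        · exact h.2
        · exact h.2
      · intro h
        have hA := hTA h
        tauto
    · rw [disjoint_left]
      intro e h1 h2
      simp only [mem_union, mem_inter, mem_X] at h1 h2
      rcases h1 with h1 | h1
      · exact h1.1.2.2 h2.1
      · exact disjoint_left.1 hdisj h1.1 h2.1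
    · rw [disjoint_left]
      intro e h1 h2
      simp only [mem_inter, mem_X] at h1 h2
      exact h1.1.2.1 h2.1
  have hb2 : (s.B ∩ T).card ≤ 2 := by
    by_contra hcon
    push Not at hcon
    have h1 : (s.B ∩ T).card ≤ T.card := card_le_card inter_subset_right
    have h2 : s.B ∩ T = T := eq_of_subset_of_card_le inter_subset_right (by omega)
    exact hT.2 (hI.full T hTB (by rw [← h2]; exact inter_subset_left))
  have hmain : (s.B ∩ T).card ≤ (X s ∩ T).card + 2 * (s.Z ∩ T).card + F.card := by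
    rcases Nat.eq_zero_or_pos F.card with h0 | h0
    · by_contra hcon
      push Not at hcon
      have hb : (s.B ∩ T).card = 2 := by omega
      have hx : (X s ∩ T).card = 1 := by omega
      have hz : (s.Z ∩ T).card = 0 := by omega
      obtain ⟨f, hf⟩ := card_eq_one.1 hx
      have hfm : f ∈ X s ∩ T := by rw [hf]; exact mem_singleton_self f
      have hf1 := mem_inter.1 hfm
      have : f ∈ F := by
        rw [hF, mem_filter]
        refine ⟨hf1.1, hf1.2, ?_⟩
        intro g hg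
        rw [mem_erase] at hg
        by_contra hgB
        have hgA := hTA hg.2
        by_cases hgZ : g ∈ s.Z
        · have : g ∈ s.Z ∩ T := mem_inter.2 ⟨hgZ, hg.2⟩
          rw [card_eq_zero.1 hz] at this
          exact notMem_empty _ this
        · have : g ∈ X s ∩ T := mem_inter.2 ⟨mem_X.2 ⟨hgA, hgB, hgZ⟩, hg.2⟩
          rw [hf, mem_singleton] at this
          exact hg.1 this
      rw [card_eq_zero.1 h0] at this
      exact notMem_empty _ this
    · have h1 : F.card ≤ (X s ∩ T).card := card_le_card hFX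
      omega
  have hmainR : ((s.B ∩ T).card : ℝ) ≤ ((X s ∩ T).card : ℝ) + 2 * ((s.Z ∩ T).card : ℝ)
      + (F.card : ℝ) := by exact_mod_cast hmain
  linarith

/-- the total contribution of the blocks of the real process -/
theorem nring_sum {Bl : Finset (Finset α)} {th u dl : ℝ} (hL : Lin3 Bl) (hdl : 0 < dl) {s : St α}
    (hI : Inv Bl th u s) :
    ∑ T ∈ bl Bl s.A \ s.W, (Ph Bl dl u (nring s T) - Ph Bl dl u s) ≤
      ∑ f ∈ X s, gd Bl s f * max (2 - wt dl (u * gd Bl s f)) 0 := by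
  refine (sum_le_sum fun T hT => nring_Ph hL hdl hI hT).trans ?_
  rw [sum_comm]
  refine sum_le_sum fun f _ => ?_
  rw [← sum_filter, sum_const, nsmul_eq_mul]
  have h1 : (((bl Bl s.A \ s.W).filter (fun T => f ∈ T ∧ T.erase f ⊆ s.B)).card : ℝ) ≤
      gd Bl s f := by
    rw [gd_eq]
    have h2 : (bl Bl s.A \ s.W).filter (fun T => f ∈ T ∧ T.erase f ⊆ s.B) ⊆ G Bl s f := by
      intro T hT
      unfold G
      rw [mem_filter, mem_sdiff] at hT
      rw [mem_filter]
      exact ⟨(mem_filter.1 hT.1.1).1, hT.2⟩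
    exact_mod_cast card_le_card h2
  calc (((bl Bl s.A \ s.W).filter (fun T => f ∈ T ∧ T.erase f ⊆ s.B)).card : ℝ)
        * (2 - wt dl (u * gd Bl s f)) ≤
      (((bl Bl s.A \ s.W).filter (fun T => f ∈ T ∧ T.erase f ⊆ s.B)).card : ℝ)
        * max (2 - wt dl (u * gd Bl s f)) 0 :=
        mul_le_mul_of_nonneg_left (le_max_left _ _) (by positivity)
    _ ≤ _ := mul_le_mul_of_nonneg_right h1 (le_max_right _ _)

/-- the number of clocks at the modified-only points -/
theorem sum_Y {Bl : Finset (Finset α)} {th u r : ℝ} (hur : u * r = 1) (hr : 0 < r) {s : St α}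
    (hI : Inv Bl th u s) :
    ∑ T ∈ s.W, (((s.B \ s.A) ∩ T).card : ℝ) ≤ r * (1 + th) * ((s.B \ s.A).card : ℝ) := by
  have h1 : ∀ T ∈ s.W, (((s.B \ s.A) ∩ T).card : ℝ) =
      ∑ f ∈ s.B \ s.A, if f ∈ T then (1 : ℝ) else 0 := by
    intro T _
    rw [← sum_filter, sum_const, nsmul_eq_mul, mul_one, filter_mem_eq_inter]
  rw [sum_congr rfl h1, sum_comm]
  have h2 : ∀ f ∈ s.B \ s.A, ∑ T ∈ s.W, (if f ∈ T then (1 : ℝ) else 0) ≤ r * (1 + th) := by
    intro f hf
    have h3 : ∑ T ∈ s.W, (if f ∈ T then (1 : ℝ) else 0) = dW s.W f := by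
      unfold dW
      rw [← sum_filter, sum_const, nsmul_eq_mul, mul_one]
    rw [h3, dW_real hur s (mem_sdiff.1 hf).1]
    have h4 := abs_le.1 (hI.bd f)
    exact mul_le_mul_of_nonneg_left (by linarith [h4.2]) hr.le
  refine (sum_le_sum h2).trans (le_of_eq ?_)
  rw [sum_const, nsmul_eq_mul, mul_comm]

end PH

open PH

variable {Bl : Finset (Finset α)} {th u r : ℝ} {s : St α}

/-- [PHG] -/
theorem gen_Ph (hL : Lin3 Bl) (hur : u * r = 1) (hr : 100 ≤ r) (hth0 : 0 ≤ th)
    (hI : Inv Bl th u s) {dl : ℝ} (hdl : 0 < dl) (hdl2 : dl ≤ 1 / 2) (hth : 4 * th ≤ dl)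
    :
    gen Bl r (Ph Bl dl u) s + 2 * dPh Bl dl u s ≤
      r * ((1 + dl + 8 * th / dl + 7 * u / dl) * Ph Bl dl u s + 2 * (u * V s)) := by
  have hr0 : 0 < r := by linarith
  have hu : 0 < u := by
    by_contra h
    push Not at h
    nlinarith
  have hvirt : ∀ T, Ph Bl dl u (virt s T) - Ph Bl dl u s = 0 := fun T => sub_self _
  have h2 : ∑ T ∈ s.W, ∑ f ∈ T \ s.B,
      (r * (1 + s.a f) - 1) * (Ph Bl dl u (virt s T) - Ph Bl dl u s) = 0 := by
    refine sum_eq_zero fun T _ => sum_eq_zero fun f _ => ?_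
    rw [hvirt, mul_zero]
  have h1 : ∑ T ∈ s.W, (Ph Bl dl u (ring s T) - Ph Bl dl u s) ≤
      ∑ e ∈ X s, (-(2 * (1 - th)) * (dwt dl (u * gd Bl s e) * gd Bl s e)
        + 3 * (1 + th) / dl * (u * gd Bl s e))
      + r * (1 + th) * ((s.B \ s.A).card : ℝ) + 2 * V s := by
    refine (sum_le_sum fun T hT => ring_Ph (dl := dl) hL hur hr0 hth0 hth hI hT).trans ?_
    rw [sum_add_distrib, sum_add_distrib, sum_comm]
    have h3 := sum_Y hur hr0 hI
    have h4 : ∑ T ∈ s.W, 2 * ((T \ s.B).card : ℝ) = 2 * V s := by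
      unfold V
      rw [mul_sum]
    have h5 : ∑ e ∈ X s, ∑ T ∈ s.W,
        (wt dl (u * gd Bl (ring s T) e) - wt dl (u * gd Bl s e)) ≤
        ∑ e ∈ X s, (-(2 * (1 - th)) * (dwt dl (u * gd Bl s e) * gd Bl s e)
        + 3 * (1 + th) / dl * (u * gd Bl s e)) := by
      refine sum_le_sum fun e he => ?_
      rw [mem_X] at he
      exact ring_wt hL hur hr0 hdl hI he.2.1 he.2.2
    linarith
  have h3 := nring_sum (u := u) (th := th) hL hdl hI
  have hdPh : dPh Bl dl u s = ∑ e ∈ X s, dwt dl (u * gd Bl s e) * gd Bl s e := rfl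
  unfold gen
  rw [h2, hdPh]
  -- pointwise inequality at a real-only point
  have hpt : ∀ e ∈ X s, (-(2 * (1 - th)) * (dwt dl (u * gd Bl s e) * gd Bl s e)
        + 3 * (1 + th) / dl * (u * gd Bl s e))
        + gd Bl s e * max (2 - wt dl (u * gd Bl s e)) 0
        + 2 * (dwt dl (u * gd Bl s e) * gd Bl s e) ≤
      r * ((1 + dl + 8 * th / dl + 7 * u / dl) * wt dl (u * gd Bl s e)) := by
    intro e _
    obtain ⟨y, hy⟩ : ∃ y : ℝ, y = u * gd Bl s e := ⟨_, rfl⟩
    have hg : gd Bl s e = r * y := by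
      rw [hy]
      calc gd Bl s e = (u * r) * gd Bl s e := by rw [hur, one_mul]
        _ = _ := by ring
    have hy0 : 0 ≤ y := by rw [hy]; exact mul_nonneg hu.le (gd_nonneg _ _ _)
    rw [← hy, hg]
    have k1 := growth hdl (by linarith) le_rfl (by positivity) y hy0
    have k2 := y_dwt hdl hdl2 y hy0
    have k3 := le_two_wt hdl (by linarith) y
    have k4 := one_le_wt hdl y
    have k5 : 3 * (1 + th) / dl * y ≤ 7 / dl * wt dl y := by
      have k6 : 3 * (1 + th) / dl * y ≤ 3 * (1 + th) / dl * (2 * wt dl y) :=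
        mul_le_mul_of_nonneg_left k3 (by positivity)
      have k7 : 3 * (1 + th) / dl * (2 * wt dl y) = (6 * (1 + th)) / dl * wt dl y := by ring
      have k8 : (6 * (1 + th)) / dl * wt dl y ≤ 7 / dl * wt dl y := by
        apply mul_le_mul_of_nonneg_right _ (by linarith)
        apply div_le_div_of_nonneg_right _ hdl.le
        linarith
      linarith
    have k9 : 2 * th * (y * dwt dl y) ≤ 8 * th / dl * wt dl y := by
      have := mul_le_mul_of_nonneg_left k2 (by positivity : 0 ≤ 2 * th)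
      refine this.trans (le_of_eq ?_)
      ring
    have k10 : y * max (2 - wt dl y) 0 ≤ (1 + dl) * wt dl y := by
      have : 2 * 0 * (y * dwt dl y) = 0 := by ring
      linarith
    have k11 : r * (7 * u / dl * wt dl y) = 7 / dl * wt dl y := by
      calc r * (7 * u / dl * wt dl y) = (u * r) * (7 / dl * wt dl y) := by ring
        _ = _ := by rw [hur, one_mul]
    have k12 : (-(2 * (1 - th)) * (dwt dl y * (r * y)) + 3 * (1 + th) / dl * y)
        + r * y * max (2 - wt dl y) 0 + 2 * (dwt dl y * (r * y)) =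
        r * (2 * th * (y * dwt dl y) + y * max (2 - wt dl y) 0) + 3 * (1 + th) / dl * y := by
      ring
    rw [k12]
    have k13 : r * (2 * th * (y * dwt dl y) + y * max (2 - wt dl y) 0) ≤
        r * (8 * th / dl * wt dl y + (1 + dl) * wt dl y) :=
      mul_le_mul_of_nonneg_left (by linarith) hr0.le
    have k14 : r * ((1 + dl + 8 * th / dl + 7 * u / dl) * wt dl y) =
        r * (8 * th / dl * wt dl y + (1 + dl) * wt dl y) + r * (7 * u / dl * wt dl y) := by ring
    rw [k14, k11]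
    linarith
  have hsum := sum_le_sum hpt
  rw [sum_add_distrib, sum_add_distrib, ← mul_sum, ← mul_sum, ← mul_sum] at hsum
  have hPh := Ph_def Bl dl u s
  obtain ⟨c, hc⟩ : ∃ c : ℝ, c = 1 + dl + 8 * th / dl + 7 * u / dl := ⟨_, rfl⟩
  have hc1 : 1 + th ≤ c := by
    rw [hc]
    have e1 : 0 ≤ 8 * th / dl := by positivity
    have e2 : 0 ≤ 7 * u / dl := by positivity
    linarith
  rw [← hc] at hsum ⊢
  have hYc : r * (1 + th) * ((s.B \ s.A).card : ℝ) ≤ r * (c * ((s.B \ s.A).card : ℝ)) := by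
    rw [mul_assoc]
    apply mul_le_mul_of_nonneg_left _ hr0.le
    exact mul_le_mul_of_nonneg_right hc1 (by positivity)
  have hZc : 0 ≤ r * (c * (2 * ((s.Z ∩ s.A).card : ℝ))) := by
    have : 0 ≤ c := by linarith
    positivity
  have hV : r * (2 * (u * V s)) = 2 * V s := by
    calc r * (2 * (u * V s)) = (u * r) * (2 * V s) := by ring
      _ = _ := by rw [hur, one_mul]
  have hfin : r * (c * Ph Bl dl u s + 2 * (u * V s)) =
      r * (c * ∑ e ∈ X s, wt dl (u * gd Bl s e)) + r * (c * ((s.B \ s.A).card : ℝ))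
      + r * (c * (2 * ((s.Z ∩ s.A).card : ℝ))) + r * (2 * (u * V s)) := by
    rw [hPh]; ring
  rw [hfin, hV]
  linarith

end

end Vale.Agent.P046.NL
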