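import Vale.Agent.P046.NL.GS

/-! P046 no-log, rows [S2G] and [S4G]: final forms of the generator of `S 2` and `S 4`. -/

namespace Vale.Agent.P046.NL

open Finset Vale.Agent.P046

noncomputable section

variable {α : Type} [DecidableEq α]

variable {Bl : Finset (Finset α)} {th u r : ℝ} {s : St α}

/-- [S2G] -/
theorem gen_S2 (hL : Lin3 Bl) (hur : u * r = 1) (hr : 100 ≤ r) (hth0 : 0 ≤ th) (hth : th ≤ 1 / 10)
    (hI : Inv Bl th u s) (lam : ℝ) (hl : 0 < lam) :
    gen Bl r (S 2 u) s + 2 * dS 2 u s ≤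
      r * (-(1 - th - lam) * S 2 u s + (1 / lam) * Sb u s + 16 * u * (S 2 u s + Q s)) := by
  have hr0 : 0 < r := by linarith
  have hu : 0 < u := by
    rcases lt_or_ge 0 u with h | h
    · exact h
    · exfalso; nlinarith
  refine (gen_S2_raw hL hur hu.le hth0 hth (by linarith) hI).trans ?_
  have key : - r * ∑ e ∈ s.B, (1 + xv u s e) * xv u s e ^ 2
        - 2 * r * ∑ e ∈ s.B, xv u s e * be u s e ≤
      r * (-(1 - th - lam) * S 2 u s + (1 / lam) * Sb u s) := by
    unfold S Sb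
    rw [mul_sum, mul_sum, mul_sum, mul_sum, ← sum_add_distrib, mul_sum, ← sum_sub_distrib]
    refine sum_le_sum fun e _ => ?_
    have h4 := abs_le.mp (hI.bd e)
    set x := xv u s e
    set b := be u s e
    have e1 : -(2 * (x * b)) ≤ lam * x ^ 2 + (1 / lam) * b ^ 2 := by
      have h1 : 0 ≤ (1 / lam) * (lam * x + b) ^ 2 := by positivity
      have h2 : (1 / lam) * (lam * x + b) ^ 2 = lam * x ^ 2 + 2 * (x * b) + (1 / lam) * b ^ 2 := by
        field_simp
        ring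
      linarith
    have e2 : 0 ≤ (x + th) * x ^ 2 := mul_nonneg (by linarith) (sq_nonneg x)
    have e3 : -((1 + x) * x ^ 2) - 2 * (x * b) ≤ -(1 - th - lam) * x ^ 2 + (1 / lam) * b ^ 2 := by
      linarith [e1, e2]
    have e4 := mul_le_mul_of_nonneg_left e3 hr0.le
    have e5 : -r * ((1 + x) * x ^ 2) - 2 * r * (x * b)
        = r * (-((1 + x) * x ^ 2) - 2 * (x * b)) := by ring
    rw [e5]
    exact e4
  have hQ : 0 ≤ Q s := by unfold Q; positivity
  have hS : 0 ≤ S 2 u s := by unfold S; positivity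
  have e6 : r * (-(1 - th - lam) * S 2 u s + (1 / lam) * Sb u s + 16 * u * (S 2 u s + Q s))
      = r * (-(1 - th - lam) * S 2 u s + (1 / lam) * Sb u s) + 16 * (u * r) * (S 2 u s + Q s) := by
    ring
  rw [e6, hur]
  linarith

/-- [S4G] -/
theorem gen_S4 (hL : Lin3 Bl) (hur : u * r = 1) (hr : 100 ≤ r) (hth0 : 0 ≤ th) (hth : th ≤ 1 / 10)
    (hI : Inv Bl th u s) :
    gen Bl r (S 4 u) s + 2 * dS 4 u s ≤
      r * (-(1 - 3 * th) * S 4 u s + 2 * th * Sb u s + 80 * u * S 2 u s + 216 * u ^ 3 * Q s) := by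
  have hr0 : 0 < r := by linarith
  have hu : 0 < u := by
    rcases lt_or_ge 0 u with h | h
    · exact h
    · exfalso; nlinarith
  refine (gen_S4_raw hL hur hu.le hth0 hth (by linarith) hI).trans ?_
  have key : - r * ∑ e ∈ s.B, (1 + xv u s e) * xv u s e ^ 4
        - 4 * r * ∑ e ∈ s.B, xv u s e ^ 3 * be u s e ≤
      r * (-(1 - 3 * th) * S 4 u s + 2 * th * Sb u s) := by
    unfold S Sb
    rw [mul_sum, mul_sum, mul_sum, mul_sum, ← sum_add_distrib, mul_sum, ← sum_sub_distrib]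
    refine sum_le_sum fun e _ => ?_
    have h4 := abs_le.mp (hI.bd e)
    set x := xv u s e
    set b := be u s e
    have e1 : -(4 * (x ^ 3 * b)) ≤ 2 * th * x ^ 4 + 2 * th * b ^ 2 := by
      have h1 : 0 ≤ (th + x) * (x ^ 2 + b) ^ 2 := mul_nonneg (by linarith) (sq_nonneg _)
      have h2 : 0 ≤ (th - x) * (x ^ 2 - b) ^ 2 := mul_nonneg (by linarith) (sq_nonneg _)
      have h3 : (th + x) * (x ^ 2 + b) ^ 2 + (th - x) * (x ^ 2 - b) ^ 2
          = 2 * th * x ^ 4 + 2 * th * b ^ 2 + 4 * (x ^ 3 * b) := by ring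
      linarith
    have e2 : 0 ≤ (x + th) * x ^ 4 := mul_nonneg (by linarith) (by positivity)
    have e3 : -((1 + x) * x ^ 4) - 4 * (x ^ 3 * b) ≤ -(1 - 3 * th) * x ^ 4 + 2 * th * b ^ 2 := by
      linarith [e1, e2]
    have e4 := mul_le_mul_of_nonneg_left e3 hr0.le
    have e5 : -r * ((1 + x) * x ^ 4) - 4 * r * (x ^ 3 * b)
        = r * (-((1 + x) * x ^ 4) - 4 * (x ^ 3 * b)) := by ring
    rw [e5]
    exact e4
  have hQ : 0 ≤ Q s := by unfold Q; positivity
  have hS : 0 ≤ S 2 u s := by unfold S; positivity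
  have e6 : r * (-(1 - 3 * th) * S 4 u s + 2 * th * Sb u s + 80 * u * S 2 u s
        + 216 * u ^ 3 * Q s)
      = r * (-(1 - 3 * th) * S 4 u s + 2 * th * Sb u s) + 80 * (u * r) * S 2 u s
        + 216 * (u * r) * (u ^ 2 * Q s) := by
    ring
  rw [e6, hur]
  have h7 : 0 ≤ u ^ 2 * Q s := mul_nonneg (sq_nonneg u) hQ
  linarith

end

end Vale.Agent.P046.NL
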