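import Vale.Agent.P046.NL.Defs

/-!
P046 no-log, row [PSD]: positivity of `∑_T (∑_{e ∈ T ∩ B} b_e)^2`.
-/

namespace Vale.Agent.P046.NL

open Finset Vale.Agent.P046

variable {α : Type} [DecidableEq α]

/-- `∑_{T ∈ W} (∑_{e ∈ T ∩ B} b_e)^2` in terms of degrees and the adjacency form -/
theorem sum_block_sq (W : Finset (Finset α)) (B : Finset α) (b : α → ℝ) :
    ∑ T ∈ W, (∑ e ∈ B with e ∈ T, b e) ^ 2 =
      ∑ e ∈ B, dW W e * b e ^ 2 +
        ∑ e ∈ B, b e * ∑ T ∈ W with e ∈ T, ∑ f ∈ T.erase e with f ∈ B, b f := by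
  have h1 : ∀ T ∈ W, (∑ e ∈ B with e ∈ T, b e) ^ 2 =
      ∑ e ∈ B, (if e ∈ T then b e ^ 2 else 0) +
        ∑ e ∈ B, (if e ∈ T then b e * ∑ f ∈ T.erase e with f ∈ B, b f else 0) := by
    intro T _
    rw [← sum_add_distrib, sq, sum_mul, sum_filter]
    refine sum_congr rfl fun e he => ?_
    split_ifs with h
    · have h2 : (B.filter fun f => f ∈ T) = insert e ((T.erase e).filter fun f => f ∈ B) := by
        ext f
        simp only [mem_filter, mem_insert, mem_erase]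
        constructor
        · rintro ⟨hf, hT⟩
          by_cases hfe : f = e
          · exact Or.inl hfe
          · exact Or.inr ⟨⟨hfe, hT⟩, hf⟩
        · rintro (rfl | ⟨⟨-, hT⟩, hf⟩)
          · exact ⟨he, h⟩
          · exact ⟨hf, hT⟩
      rw [h2, sum_insert (by simp)]
      ring
    · simp
  rw [sum_congr rfl h1, sum_add_distrib]
  congr 1
  · rw [sum_comm]
    refine sum_congr rfl fun e _ => ?_
    rw [← sum_filter, sum_const, nsmul_eq_mul, dW]
  · rw [sum_comm]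
    refine sum_congr rfl fun e _ => ?_
    rw [← sum_filter, ← mul_sum]

theorem psd' (s : St α) {u : ℝ} (hu : 0 ≤ u) :
    -2 * ∑ e ∈ s.B, be u s e * Pb u s e ≤ 2 * ∑ e ∈ s.B, (1 + xv u s e) * be u s e ^ 2 := by
  have h0 : 0 ≤ u * ∑ T ∈ s.W, (∑ e ∈ s.B with e ∈ T, be u s e) ^ 2 :=
    mul_nonneg hu (sum_nonneg fun _ _ => sq_nonneg _)
  rw [sum_block_sq, mul_add, mul_sum, mul_sum] at h0
  have h1 : ∑ e ∈ s.B, u * (dW s.W e * be u s e ^ 2) =
      ∑ e ∈ s.B, (1 + xv u s e) * be u s e ^ 2 := by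
    refine sum_congr rfl fun e he => ?_
    rw [xv, if_pos he]
    ring
  have h2 : ∑ e ∈ s.B, u * (be u s e * ∑ T ∈ s.W with e ∈ T,
      ∑ f ∈ T.erase e with f ∈ s.B, be u s f) = ∑ e ∈ s.B, be u s e * Pb u s e := by
    refine sum_congr rfl fun e _ => ?_
    rw [Pb]
    ring
  rw [h1, h2] at h0
  linarith

theorem psd {Bl : Finset (Finset α)} {th u r : ℝ} {s : St α} (_h : Inv Bl th u s)
    (hur : u * r = 1) (hr : 0 < r) :
    -2 * ∑ e ∈ s.B, be u s e * Pb u s e ≤ 2 * ∑ e ∈ s.B, (1 + xv u s e) * be u s e ^ 2 := by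
  refine psd' s ?_
  by_contra hu
  push Not at hu
  nlinarith

end Vale.Agent.P046.NL
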