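import Vale.Agent.P046.NL.Defs
import Vale.Agent.P046.Kn

/-! P046 no-log: further definitions -/

namespace Vale.Agent.P046.NL

open Finset Vale.Agent.P046

noncomputable section

variable {α : Type} [DecidableEq α]

/-- events that do not kill `e` -/
def genE (r : ℝ) (s : St α) (e : α) (G : St α → ℝ) : ℝ :=
  ∑ T ∈ s.W.filter (fun T => e ∉ T), (G (ring s T) - G s)
    + ∑ T ∈ s.W, ∑ f ∈ T \ s.B, (r * (1 + s.a f) - 1) * (G (virt s T) - G s)

/-- good states: detachment threshold `th0`, invariants with `th` -/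
structure GS (Bl : Finset (Finset α)) (th0 th u : ℝ) (s : St α) : Prop where
  inv : Inv Bl th u s
  det : ∀ e ∈ s.B, |xv u s e| ≤ th0

/-- codegree of two vertices in the graph with edge set `A` -/
def cd {n : ℕ} (A : Finset (Sym2 (Fin n))) (a b : Fin n) : ℝ :=
  ((univ.filter (fun w => s(a, w) ∈ A ∧ s(b, w) ∈ A)).card : ℝ)

/-- codegree discrepancy over all ordered pairs of distinct vertices -/
def XX {n : ℕ} (u : ℝ) (A : Finset (Sym2 (Fin n))) : ℝ :=
  ∑ a : Fin n, ∑ b ∈ univ.erase a, (u * cd A a b - 1) ^ 2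

def dXX {n : ℕ} (u : ℝ) (A : Finset (Sym2 (Fin n))) : ℝ :=
  ∑ a : Fin n, ∑ b ∈ univ.erase a, 2 * (u * cd A a b - 1) * cd A a b

end

end Vale.Agent.P046.NL
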