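import Vale.Agent.P046.NL.SBa
import Vale.Agent.P046.NL.Defs2

/-!
P046, no log: row SBD, the drift of `be` at a real point.
-/

namespace Vale.Agent.P046.NL

open Finset Vale.Agent.P046

noncomputable section

variable {α : Type} [DecidableEq α]

variable {Bl : Finset (Finset α)} {th u r : ℝ} {s : St α}

theorem rate_nonneg' (hr : 0 ≤ r) (hr1 : 1 ≤ r * (1 - th)) (hI : Inv Bl th u s) :
    ∀ T ∈ s.W, ∀ f ∈ T \ s.B, 0 ≤ r * (1 + s.a f) - 1 := by
  intro T _ f hf
  rw [mem_sdiff] at hf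
  exact rate_nonneg hr hr1 hI hf.2

theorem evs_KK (hL : Lin3 Bl) (hur : u * r = 1) (hsub : s.W ⊆ Bl) {e : α} (he : e ∈ s.B) :
    evs r s e (fun s' => KK u s s' e)
      = (2 * r - 2) * ∑ T ∈ s.W.filter (fun T => e ∈ T), sm u s T e
        + r * ∑ T ∈ s.W.filter (fun T => e ∈ T), sm u s T e ^ 2 := by
  unfold KK
  rw [evs_sum, mul_sum, mul_sum, ← sum_add_distrib]
  refine sum_congr rfl fun T hT => ?_
  rw [mem_filter] at hT
  have h1 : evs r s e (fun s' => kk s' T * sm u s T e)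
      = evs r s e (fun s' => sm u s T e * kk s' T) :=
    evs_congr' fun s' _ => mul_comm _ _
  rw [h1, evs_mul, kill_rate hL hur hsub he hT.1 hT.2]
  ring

/-- joint events -/
def Jt (r : ℝ) (s : St α) (T : Finset α) (f : α) : ℝ :=
  evs r s f (fun s' => kk s' T * (dW s.W f - dW s'.W f))

theorem drift_dW' (hL : Lin3 Bl) (hur : u * r = 1) (hsub : s.W ⊆ Bl) {e : α} (he : e ∈ s.B) :
    evs r s e (fun s' => dW s.W e - dW s'.W e) = (2 * r - 2) * dW s.W e + r ^ 2 * be u s e :=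
  drift_dW hL hur hsub he

theorem evs_LL (hL : Lin3 Bl) (hur : u * r = 1) (hsub : s.W ⊆ Bl) {e : α} (he : e ∈ s.B) :
    evs r s e (fun s' => LL s s' e)
      = ∑ T ∈ s.W.filter (fun T => e ∈ T), ∑ f ∈ (T.erase e).filter (fun f => f ∈ s.B),
          ((2 * r - 2) * dW s.W f + r ^ 2 * be u s f - Jt r s T f) := by
  unfold LL
  rw [evs_sum]
  refine sum_congr rfl fun T hT => ?_
  rw [mem_filter] at hT
  have h1 : evs r s e (fun s' => (1 - kk s' T) *
        ∑ f ∈ (T.erase e).filter (fun f => f ∈ s.B), (dW s.W f - dW s'.W f))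
      = evs r s e (fun s' => ∑ f ∈ (T.erase e).filter (fun f => f ∈ s.B),
          (1 - kk s' T) * (dW s.W f - dW s'.W f)) :=
    evs_congr' fun s' _ => mul_sum _ _ _
  rw [h1, evs_sum]
  refine sum_congr rfl fun f hf => ?_
  rw [mem_filter, mem_erase] at hf
  rw [evs_survive he hf.2 hT.1 hT.2 hf.1.2 (fun s' => dW s.W f - dW s'.W f)]
  rw [← drift_dW' hL hur hsub hf.2]
  have h2 : evs r s f (fun s' => dW s.W f - dW s'.W f)
      = evs r s f (fun s' => (1 - kk s' T) * (dW s.W f - dW s'.W f)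
          + kk s' T * (dW s.W f - dW s'.W f)) :=
    evs_congr' fun s' _ => by ring
  rw [h2, evs_add]
  unfold Jt
  ring

theorem Jt_nonneg (hr : 0 ≤ r) (hr1 : 1 ≤ r * (1 - th)) (hI : Inv Bl th u s) (T : Finset α)
    (f : α) : 0 ≤ Jt r s T f := by
  refine evs_nonneg (rate_nonneg' hr hr1 hI) (fun T0 _ _ => ?_) (fun T0 hT0 => ?_)
  · exact mul_nonneg (kk_nonneg _ _) (ring_diff_nonneg s T0 f)
  · exact mul_nonneg (kk_nonneg _ _) (erase_diff_nonneg s.W hT0 f)

theorem Jt_le (hL : Lin3 Bl) (hur : u * r = 1) (hr : 0 ≤ r) (hr1 : 1 ≤ r * (1 - th))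
    (hI : Inv Bl th u s) {T : Finset α} (hT : T ∈ s.W) {f : α} (hf : f ∈ s.B) (hfT : f ∈ T) :
    Jt r s T f ≤ 3 * ((2 * r - 2) + r * sm u s T f) := by
  rw [← kill_rate hL hur hI.sub hf hT hfT, ← evs_mul]
  refine evs_le (rate_nonneg' hr hr1 hI) (fun T0 hT0 hfT0 => ?_) (fun T0 hT0 => ?_)
  · rw [mul_comm]
    exact mul_le_mul_of_nonneg_right (ring_diff_le hL hI.sub hT0 hfT0) (kk_nonneg _ _)
  · rw [mul_comm]
    refine mul_le_mul_of_nonneg_right ?_ (kk_nonneg _ _)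
    have := erase_diff_le s.W hT0 f
    have h1 : (virt s T0).W = s.W.erase T0 := rfl
    rw [h1]
    linarith

/-- double sum over the neighbours of `e` -/
theorem nb_le (hL : Lin3 Bl) (hsub : s.W ⊆ Bl) {e : α} (F : Finset α → α → ℝ) (c : ℝ) (hc : 0 ≤ c)
    (hF : ∀ T ∈ s.W, e ∈ T → ∀ f ∈ T.erase e, f ∈ s.B → F T f ≤ c) :
    ∑ T ∈ s.W.filter (fun T => e ∈ T), ∑ f ∈ (T.erase e).filter (fun f => f ∈ s.B), F T f
      ≤ dW s.W e * (2 * c) := by
  have h1 : ∀ T ∈ s.W.filter (fun T => e ∈ T),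
      ∑ f ∈ (T.erase e).filter (fun f => f ∈ s.B), F T f ≤ 2 * c := by
    intro T hT
    rw [mem_filter] at hT
    have h2 : ∀ f ∈ (T.erase e).filter (fun f => f ∈ s.B), F T f ≤ c := by
      intro f hf
      rw [mem_filter] at hf
      exact hF T hT.1 hT.2 f hf.1 hf.2
    refine (sum_le_sum h2).trans ?_
    rw [sum_const, nsmul_eq_mul]
    refine mul_le_mul_of_nonneg_right ?_ hc
    have h3 : ((T.erase e).filter (fun f => f ∈ s.B)).card ≤ 2 := by
      refine (card_filter_le _ _).trans ?_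
      rw [card_erase_of_mem hT.2, hL.card3 T (hsub hT.1)]
    exact_mod_cast h3
  refine (sum_le_sum h1).trans ?_
  rw [sum_const, nsmul_eq_mul]
  rfl

/-- row SBD -/
theorem drift_be (hL : Lin3 Bl) (hur : u * r = 1) (hr : 100 ≤ r) (hth0 : 0 ≤ th)
    (hth : th ≤ 1 / 10) (hI : Inv Bl th u s) {e : α} (he : e ∈ s.B) :
    |genE r s e (fun s' => be u s' e) + 2 * dbe u s e + r * (Pb u s e + qq u s e)| ≤ 40 := by
  have hr0 : 0 ≤ r := by linarith
  have hr1 : 1 ≤ r * (1 - th) := by nlinarith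
  have hu : 0 ≤ u := by
    by_contra h
    push Not at h
    nlinarith
  have h0 : genE r s e (fun s' => be u s' e)
      = evs r s e (fun s' => (-u) * KK u s s' e + (-u ^ 2) * LL s s' e) := by
    have h1 : genE r s e (fun s' => be u s' e) = evs r s e (fun s' => be u s' e - be u s e) := rfl
    rw [h1]
    refine evs_congr' fun s' hs' => ?_
    rw [be_event hs' e]
    ring
  rw [h0, evs_add, evs_mul, evs_mul, evs_KK hL hur hI.sub he, evs_LL hL hur hI.sub he]
  set M := ∑ T ∈ s.W.filter (fun T => e ∈ T), sm u s T e with hM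
  set M2 := ∑ T ∈ s.W.filter (fun T => e ∈ T), sm u s T e ^ 2 with hM2
  set D := ∑ T ∈ s.W.filter (fun T => e ∈ T), ∑ f ∈ (T.erase e).filter (fun f => f ∈ s.B),
    dW s.W f with hD
  set BB := ∑ T ∈ s.W.filter (fun T => e ∈ T), ∑ f ∈ (T.erase e).filter (fun f => f ∈ s.B),
    be u s f with hBB
  set JJ := ∑ T ∈ s.W.filter (fun T => e ∈ T), ∑ f ∈ (T.erase e).filter (fun f => f ∈ s.B),
    Jt r s T f with hJJ
  have h2 : ∑ T ∈ s.W.filter (fun T => e ∈ T), ∑ f ∈ (T.erase e).filter (fun f => f ∈ s.B),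
      ((2 * r - 2) * dW s.W f + r ^ 2 * be u s f - Jt r s T f)
      = (2 * r - 2) * D + r ^ 2 * BB - JJ := by
    rw [hD, hBB, hJJ, mul_sum, mul_sum, ← sum_add_distrib, ← sum_sub_distrib]
    refine sum_congr rfl fun T _ => ?_
    rw [mul_sum, mul_sum, ← sum_add_distrib, ← sum_sub_distrib]
  have h3 : be u s e = u * M := rfl
  have h4 : qq u s e = u * M2 := rfl
  have h5 : Pb u s e = u * BB := rfl
  have h6 : dbe u s e = M + u * D := rfl
  rw [h2, h4, h5, h6]
  have h7 : -u * ((2 * r - 2) * M + r * M2) + -u ^ 2 * ((2 * r - 2) * D + r ^ 2 * BB - JJ)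
        + 2 * (M + u * D) + r * (u * BB + u * M2)
      = 2 * (u * M) + 2 * (u ^ 2 * D) + u ^ 2 * JJ
        + (1 - u * r) * (2 * M + 2 * u * D + r * (u * BB)) := by ring
  rw [h7, hur, sub_self, zero_mul, add_zero, ← h3]
  have hb := abs_le.mp (be_abs_le hL hur hu hth0 hI he)
  have hdW : ∀ f ∈ s.B, dW s.W f ≤ r * (1 + th) := by
    intro f hf
    rw [dW_eq_xv hur s hf]
    have := (abs_le.mp (hI.bd f)).2
    exact mul_le_mul_of_nonneg_left (by linarith) hr0
  have hdW0 : ∀ f, 0 ≤ dW s.W f := fun f => by unfold dW; positivity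
  have hD0 : 0 ≤ D := sum_nonneg fun T _ => sum_nonneg fun f _ => hdW0 f
  have hD1 : D ≤ dW s.W e * (2 * (r * (1 + th))) := by
    refine nb_le hL hI.sub (fun _ f => dW s.W f) _ (mul_nonneg hr0 (by linarith)) ?_
    intro T _ _ f _ hfB
    exact hdW f hfB
  have hJ0 : 0 ≤ JJ := sum_nonneg fun T _ => sum_nonneg fun f _ => Jt_nonneg hr0 hr1 hI T f
  have hJ1 : JJ ≤ dW s.W e * (2 * (3 * (r * (2 + 2 * th)))) := by
    refine nb_le hL hI.sub (fun T f => Jt r s T f) _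
      (mul_nonneg (by norm_num) (mul_nonneg hr0 (by linarith))) ?_
    intro T hT _ f hf hfB
    have hfT := mem_of_mem_erase hf
    refine (Jt_le hL hur hr0 hr1 hI hT hfB hfT).trans ?_
    have h8 := (abs_le.mp (sm_abs_le hL hI hT hfT)).2
    have h9 : r * sm u s T f ≤ r * (2 * th) := mul_le_mul_of_nonneg_left h8 hr0
    nlinarith
  have he1 := hdW e he
  have hur2 : u ^ 2 * r ^ 2 = 1 := by rw [← mul_pow, hur, one_pow]
  have hD2 : u ^ 2 * D ≤ 2 * (1 + th) ^ 2 := by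
    have h10 : D ≤ (r * (1 + th)) * (2 * (r * (1 + th))) :=
      hD1.trans (mul_le_mul_of_nonneg_right he1 (by
        have : 0 ≤ r * (1 + th) := mul_nonneg hr0 (by linarith)
        linarith))
    calc u ^ 2 * D ≤ u ^ 2 * ((r * (1 + th)) * (2 * (r * (1 + th)))) :=
          mul_le_mul_of_nonneg_left h10 (sq_nonneg u)
      _ = (u ^ 2 * r ^ 2) * (2 * (1 + th) ^ 2) := by ring
      _ = _ := by rw [hur2, one_mul]
  have hJ2 : u ^ 2 * JJ ≤ 12 * (1 + th) ^ 2 := by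
    have h10 : JJ ≤ (r * (1 + th)) * (2 * (3 * (r * (2 + 2 * th)))) :=
      hJ1.trans (mul_le_mul_of_nonneg_right he1 (by
        have : 0 ≤ r * (2 + 2 * th) := mul_nonneg hr0 (by linarith)
        linarith))
    calc u ^ 2 * JJ ≤ u ^ 2 * ((r * (1 + th)) * (2 * (3 * (r * (2 + 2 * th))))) :=
          mul_le_mul_of_nonneg_left h10 (sq_nonneg u)
      _ = (u ^ 2 * r ^ 2) * (12 * (1 + th) ^ 2) := by ring
      _ = _ := by rw [hur2, one_mul]
  have hD3 : 0 ≤ u ^ 2 * D := mul_nonneg (sq_nonneg u) hD0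
  have hJ3 : 0 ≤ u ^ 2 * JJ := mul_nonneg (sq_nonneg u) hJ0
  rw [abs_le]
  constructor
  · nlinarith
  · nlinarith

end

end Vale.Agent.P046.NL
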