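import Vale.Agent.P046.NL.ID1

/-!
P046, no log: generator of a functional `∑ e ∈ B, g s e`.
-/

namespace Vale.Agent.P046.NL

open Finset Vale.Agent.P046

noncomputable section

variable {α : Type} [DecidableEq α]

/-- the generator applied to `g · e` for a real point `e` that stays alive -/
def genAt (r : ℝ) (g : St α → α → ℝ) (s : St α) (e : α) : ℝ :=
  ∑ T ∈ s.W.filter (fun T => e ∉ T), (g (ring s T) e - g s e)
    + ∑ T ∈ s.W, ∑ f ∈ T \ s.B, (r * (1 + s.a f) - 1) * (g (virt s T) e - g s e)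

theorem gen_sum (Bl : Finset (Finset α)) (r : ℝ) (g : St α → α → ℝ)
    (hA : ∀ s T e, g (nring s T) e = g s e) (s : St α) :
    gen Bl r (fun s => ∑ e ∈ s.B, g s e) s
      = ∑ e ∈ s.B, (-(dW s.W e) * g s e + genAt r g s e) := by
  have h3 : ∑ T ∈ bl Bl s.A \ s.W,
      ((fun s : St α => ∑ e ∈ s.B, g s e) (nring s T) - (fun s : St α => ∑ e ∈ s.B, g s e) s) = 0 := by
    refine sum_eq_zero fun T _ => ?_
    have : (nring s T).B = s.B := rfl
    simp only [this, hA, sub_self]
  have h2 : ∑ T ∈ s.W, ∑ f ∈ T \ s.B, (r * (1 + s.a f) - 1) *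
      ((fun s : St α => ∑ e ∈ s.B, g s e) (virt s T) - (fun s : St α => ∑ e ∈ s.B, g s e) s)
      = ∑ e ∈ s.B, ∑ T ∈ s.W, ∑ f ∈ T \ s.B,
          (r * (1 + s.a f) - 1) * (g (virt s T) e - g s e) := by
    rw [sum_comm]
    refine sum_congr rfl fun T _ => ?_
    rw [sum_comm]
    refine sum_congr rfl fun f _ => ?_
    have : (virt s T).B = s.B := rfl
    simp only [this]
    rw [← mul_sum, sum_sub_distrib]
  have h1 : ∑ T ∈ s.W,
      ((fun s : St α => ∑ e ∈ s.B, g s e) (ring s T) - (fun s : St α => ∑ e ∈ s.B, g s e) s)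
      = ∑ e ∈ s.B, (-(dW s.W e) * g s e
          + ∑ T ∈ s.W.filter (fun T => e ∉ T), (g (ring s T) e - g s e)) := by
    have h4 : ∀ T ∈ s.W,
        ((fun s : St α => ∑ e ∈ s.B, g s e) (ring s T) - (fun s : St α => ∑ e ∈ s.B, g s e) s)
        = ∑ e ∈ s.B, (if e ∈ T then - g s e else g (ring s T) e - g s e) := by
      intro T _
      have h5 : (ring s T).B = s.B.filter (fun e => e ∉ T) := by
        have : (ring s T).B = s.B \ T := rfl
        rw [this]
        ext e
        rw [mem_sdiff, mem_filter]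
      simp only [h5]
      rw [sum_filter, ← sum_sub_distrib]
      refine sum_congr rfl fun e _ => ?_
      by_cases h : e ∈ T
      · simp [h]
      · simp [h]
    rw [sum_congr rfl h4, sum_comm]
    refine sum_congr rfl fun e _ => ?_
    have h6 : ∀ T ∈ s.W, (if e ∈ T then - g s e else g (ring s T) e - g s e)
        = (if e ∈ T then (1 : ℝ) else 0) * (- g s e)
          + (if e ∉ T then g (ring s T) e - g s e else 0) := by
      intro T _
      by_cases h : e ∈ T
      · simp [h]
      · simp [h]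
    rw [sum_congr rfl h6, sum_add_distrib, ← sum_mul, ← sum_filter, ← sum_filter, sum_const,
      nsmul_eq_mul, mul_one]
    unfold dW
    ring
  unfold gen genAt
  rw [h1, h2, h3, add_zero, ← sum_add_distrib]
  refine sum_congr rfl fun e _ => ?_
  ring

/-- drift of the degree in closed form -/
theorem drift_dW {Bl : Finset (Finset α)} {u r : ℝ} (hL : Lin3 Bl) (hur : u * r = 1) {s : St α}
    (hsub : s.W ⊆ Bl) {e : α} (he : e ∈ s.B) :
    ∑ T ∈ s.W.filter (fun T => e ∉ T), (dW s.W e - dW (ring s T).W e)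
      + ∑ T ∈ s.W, ∑ f ∈ T \ s.B, (r * (1 + s.a f) - 1) * (dW s.W e - dW (s.W.erase T) e)
    = (2 * r - 2) * dW s.W e + r ^ 2 * be u s e := by
  rw [id1 hL hur hsub he]
  have h1 : ∀ T ∈ s.W.filter (fun T => e ∈ T), ∑ f ∈ T.erase e, (r * (1 + xv u s f) - 1)
      = (2 * r - 2) + r * sm u s T e := by
    intro T hT
    rw [mem_filter] at hT
    unfold sm
    have h2 : (T.erase e).card = 2 := by
      rw [card_erase_of_mem hT.2, hL.card3 T (hsub hT.1)]
    have h3 : ∑ f ∈ T.erase e, (r * (1 + xv u s f) - 1)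
        = ∑ f ∈ T.erase e, (r - 1) + r * ∑ f ∈ T.erase e, xv u s f := by
      rw [mul_sum, ← sum_add_distrib]
      exact sum_congr rfl fun f _ => by ring
    rw [h3, sum_const, nsmul_eq_mul, h2]
    push_cast
    ring
  rw [sum_congr rfl h1, sum_add_distrib, sum_const, nsmul_eq_mul, ← mul_sum]
  unfold be dW
  have h4 : r ^ 2 * (u * ∑ T ∈ s.W.filter (fun T => e ∈ T), sm u s T e)
      = (u * r) * (r * ∑ T ∈ s.W.filter (fun T => e ∈ T), sm u s T e) := by ring
  rw [h4, hur, one_mul]
  ring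

/-- value of `xv` after a ring -/
theorem xv_ring (u : ℝ) {s : St α} {e : α} (he : e ∈ s.B) {T : Finset α} (heT : e ∉ T) :
    xv u (ring s T) e = xv u s e - u * (dW s.W e - dW (ring s T).W e) := by
  have h1 : e ∈ (ring s T).B := mem_sdiff.mpr ⟨he, heT⟩
  unfold xv
  rw [if_pos h1, if_pos he]
  ring

theorem xv_virt (u : ℝ) {s : St α} {e : α} (he : e ∈ s.B) (T : Finset α) :
    xv u (virt s T) e = xv u s e - u * (dW s.W e - dW (s.W.erase T) e) := by
  have h1 : e ∈ (virt s T).B := he
  unfold xv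
  rw [if_pos h1, if_pos he]
  have h2 : (virt s T).W = s.W.erase T := rfl
  rw [h2]
  ring

theorem dW_eq_xv {u r : ℝ} (hur : u * r = 1) (s : St α) {e : α} (he : e ∈ s.B) :
    dW s.W e = r * (1 + xv u s e) := by
  have := rate_real hur s he
  linarith

end

end Vale.Agent.P046.NL
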