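import Vale.Agent.P046.NL.Defs2
import Vale.Agent.P046.NL.GenSum
import Vale.Agent.P046.NL.QQ

/-! P046 no-log, row SBN: the noise of `be`. -/

namespace Vale.Agent.P046.NL

open Finset Vale.Agent.P046

noncomputable section

variable {α : Type} [DecidableEq α]

namespace SBN

theorem be_ring (u : ℝ) {s : St α} {R : Finset α} {e : α} :
    be u s e - be u (ring s R) e =
      u * ∑ S ∈ s.W.filter (fun S => e ∈ S), (if hit s R S then sm u s S e else 0)
      + u ^ 2 * ∑ S ∈ s.W.filter (fun S => e ∈ S), (if hit s R S then 0 else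
          ∑ f ∈ (S.erase e).filter (fun f => f ∈ s.B), (dW s.W f - dW (ring s R).W f)) := by
  have h1 : ∀ S, ¬ hit s R S → sm u (ring s R) S e = sm u s S e
      - u * ∑ f ∈ (S.erase e).filter (fun f => f ∈ s.B), (dW s.W f - dW (ring s R).W f) := by
    intro S hh
    have hd : Disjoint S (R ∩ s.B) := (not_not.mp hh).2
    unfold sm
    rw [mul_sum, sum_filter, ← sum_sub_distrib]
    refine sum_congr rfl fun f hf => ?_
    have hfS := mem_of_mem_erase hf
    by_cases hfB : f ∈ s.B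
    · have hfR : f ∉ R := fun h => (disjoint_left.mp hd) hfS (mem_inter.mpr ⟨h, hfB⟩)
      rw [if_pos hfB, xv_ring u hfB hfR]
    · rw [if_neg hfB, sub_zero]
      unfold xv
      rw [if_neg hfB, if_neg (show f ∉ (ring s R).B from fun h => hfB (mem_sdiff.mp h).1)]
      rfl
  have h2 : be u (ring s R) e = u * ∑ S ∈ s.W.filter (fun S => e ∈ S),
      (if ¬ hit s R S then sm u (ring s R) S e else 0) := by
    unfold be
    rw [← sum_filter, filter_comm, ← ring_W]
  have h5 : ∀ S, sm u s S e - (if ¬ hit s R S then sm u (ring s R) S e else 0) =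
      (if hit s R S then sm u s S e else 0) + u * (if hit s R S then 0 else
          ∑ f ∈ (S.erase e).filter (fun f => f ∈ s.B), (dW s.W f - dW (ring s R).W f)) := by
    intro S
    by_cases h : hit s R S
    · simp [h]
    · rw [if_pos h, if_neg h, if_neg h, h1 S h]
      ring
  rw [h2]
  unfold be
  rw [← mul_sub, ← sum_sub_distrib, sum_congr rfl fun S _ => h5 S, sum_add_distrib, ← mul_sum]
  ring

/-- number of common neighbours through real points of `R` -/
def Nr (s : St α) (R : Finset α) (e : α) : ℝ :=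
  ∑ S ∈ (s.W.erase R).filter (fun S => e ∈ S),
    ∑ f ∈ (S.erase e).filter (fun f => f ∈ s.B), (if f ∈ R then (1 : ℝ) else 0)

theorem be_virt (u : ℝ) {s : St α} {R : Finset α} (hR : R ∈ s.W) {e : α} :
    be u s e - be u (virt s R) e =
      (if e ∈ R then u * sm u s R e else 0) + u ^ 2 * Nr s R e := by
  have h1 : ∀ S, sm u (virt s R) S e = sm u s S e
      - u * ∑ f ∈ (S.erase e).filter (fun f => f ∈ s.B), (if f ∈ R then (1 : ℝ) else 0) := by
    intro S
    unfold sm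
    rw [mul_sum, sum_filter, ← sum_sub_distrib]
    refine sum_congr rfl fun f hf => ?_
    by_cases hfB : f ∈ s.B
    · rw [if_pos hfB, xv_virt u hfB, dW_sub_erase s.W hR]
    · rw [if_neg hfB, sub_zero]
      unfold xv
      rw [if_neg hfB, if_neg (show f ∉ (virt s R).B from hfB)]
      rfl
  have h2 : ∑ S ∈ s.W.filter (fun S => e ∈ S), sm u s S e =
      (if e ∈ R then sm u s R e else 0)
        + ∑ S ∈ (s.W.erase R).filter (fun S => e ∈ S), sm u s S e := by
    rw [sum_filter, sum_filter, ← add_sum_erase _ _ hR]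
  have h3 : be u (virt s R) e = u * ∑ S ∈ (s.W.erase R).filter (fun S => e ∈ S),
      sm u (virt s R) S e := rfl
  rw [h3]
  unfold be Nr
  rw [h2, sum_congr rfl fun S _ => h1 S, sum_sub_distrib, ← mul_sum]
  split_ifs <;> ring

theorem ring_sum_lost {Bl : Finset (Finset α)} (hL : Lin3 Bl) (u : ℝ) {s : St α} (hsub : s.W ⊆ Bl)
    {R : Finset α} (hR : R ∈ s.W) {e : α} (heR : e ∉ R) :
    (∑ S ∈ s.W.filter (fun S => e ∈ S), (if hit s R S then sm u s S e else 0)) ^ 2 ≤
      3 * ∑ S ∈ s.W.filter (fun S => e ∈ S), (if hit s R S then sm u s S e ^ 2 else 0) := by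
  rw [← sum_filter, ← sum_filter]
  have h1 := sq_sum_le_card_mul_sum_sq (s := (s.W.filter (fun S => e ∈ S)).filter
    (fun S => hit s R S)) (f := fun S => sm u s S e)
  have h2 := ring_diff_le hL hsub hR heR
  rw [dW_sub_ring, ← sum_filter, sum_const, nsmul_eq_mul, mul_one] at h2
  refine h1.trans ?_
  exact mul_le_mul_of_nonneg_right h2 (sum_nonneg fun S _ => sq_nonneg _)

theorem ring_sum_kept {s : St α} {R : Finset α} {e : α} :
    ∑ S ∈ s.W.filter (fun S => e ∈ S), (if hit s R S then 0 else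
          ∑ f ∈ (S.erase e).filter (fun f => f ∈ s.B), (dW s.W f - dW (ring s R).W f)) ≤
      ∑ h ∈ R.filter (fun h => h ∈ s.B), pth s e h := by
  unfold pth
  rw [sum_comm]
  refine sum_le_sum fun S hS => ?_
  by_cases hh : hit s R S
  · rw [if_pos hh]
    exact sum_nonneg fun h _ => sum_nonneg fun f _ => Nat.cast_nonneg _
  · rw [if_neg hh]
    have hd : Disjoint S (R ∩ s.B) := (not_not.mp hh).2
    have h1 : ∀ h ∈ R.filter (fun h => h ∈ s.B),
        ((S.erase e).erase h).filter (fun f => f ∈ s.B) = (S.erase e).filter (fun f => f ∈ s.B) := by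
      intro h hh'
      rw [mem_filter] at hh'
      congr 1
      refine erase_eq_of_notMem fun h2 => ?_
      exact (disjoint_left.mp hd) (mem_of_mem_erase h2) (mem_inter.mpr hh')
    have h1' : ∑ h ∈ R.filter (fun h => h ∈ s.B),
        ∑ f ∈ ((S.erase e).erase h).filter (fun f => f ∈ s.B),
          (((s.W.filter (fun S => f ∈ S ∧ h ∈ S)).erase S).card : ℝ) =
        ∑ h ∈ R.filter (fun h => h ∈ s.B), ∑ f ∈ (S.erase e).filter (fun f => f ∈ s.B),
          (((s.W.filter (fun S => f ∈ S ∧ h ∈ S)).erase S).card : ℝ) :=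
      sum_congr rfl fun h hh' => by rw [h1 h hh']
    rw [h1', sum_comm]
    refine sum_le_sum fun f hf => ?_
    rw [mem_filter] at hf
    have hfR : f ∉ R := fun h => (disjoint_left.mp hd) (mem_of_mem_erase hf.1)
      (mem_inter.mpr ⟨h, hf.2⟩)
    rw [dW_sub_ring]
    have h2 : ∀ S' ∈ s.W.filter (fun S' => f ∈ S'), (if hit s R S' then (1 : ℝ) else 0) ≤
        ∑ h ∈ R.filter (fun h => h ∈ s.B), (if h ∈ S' ∧ S' ≠ S then (1 : ℝ) else 0) := by
      intro S' hS'
      rw [mem_filter] at hS'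
      split_ifs with hhit
      · have h3 : S' ≠ R := fun h => hfR (h ▸ hS'.2)
        have h4 : ¬ Disjoint S' (R ∩ s.B) := fun hd' => hhit ⟨h3, hd'⟩
        rw [not_disjoint_iff] at h4
        obtain ⟨h, hhS, hhR⟩ := h4
        rw [mem_inter] at hhR
        have h5 : S' ≠ S := fun h' => hh (h' ▸ hhit)
        calc (1 : ℝ) = if h ∈ S' ∧ S' ≠ S then (1 : ℝ) else 0 := by rw [if_pos ⟨hhS, h5⟩]
          _ ≤ _ := single_le_sum (f := fun h => if h ∈ S' ∧ S' ≠ S then (1 : ℝ) else 0)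
              (fun g _ => by split_ifs <;> norm_num) (mem_filter.mpr hhR)
      · exact sum_nonneg fun g _ => by split_ifs <;> norm_num
    refine (sum_le_sum h2).trans (le_of_eq ?_)
    rw [sum_comm]
    refine sum_congr rfl fun h _ => ?_
    rw [← sum_filter, filter_filter, sum_const, nsmul_eq_mul, mul_one]
    congr 2
    ext S'
    simp only [mem_filter, mem_erase]
    tauto

theorem kept_nonneg {s : St α} {R : Finset α} {e : α} :
    0 ≤ ∑ S ∈ s.W.filter (fun S => e ∈ S), (if hit s R S then 0 else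
          ∑ f ∈ (S.erase e).filter (fun f => f ∈ s.B), (dW s.W f - dW (ring s R).W f)) := by
  refine sum_nonneg fun S _ => ?_
  split_ifs
  · exact le_rfl
  · exact sum_nonneg fun f _ => ring_diff_nonneg s R f

theorem ring_sq {Bl : Finset (Finset α)} (hL : Lin3 Bl) (u : ℝ) {s : St α} (hsub : s.W ⊆ Bl)
    {R : Finset α} (hR : R ∈ s.W) {e : α} (heR : e ∉ R) :
    (be u (ring s R) e - be u s e) ^ 2 ≤
      6 * u ^ 2 * ∑ S ∈ s.W.filter (fun S => e ∈ S), (if hit s R S then sm u s S e ^ 2 else 0)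
      + 6 * u ^ 4 * ∑ h ∈ R.filter (fun h => h ∈ s.B), pth s e h ^ 2 := by
  have h1 := be_ring u (s := s) (R := R) (e := e)
  have h2 := ring_sum_lost hL u hsub hR heR
  have h3 := ring_sum_kept (s := s) (R := R) (e := e)
  have h4 := kept_nonneg (s := s) (R := R) (e := e)
  set A := ∑ S ∈ s.W.filter (fun S => e ∈ S), (if hit s R S then sm u s S e else 0) with hA
  set K := ∑ S ∈ s.W.filter (fun S => e ∈ S), (if hit s R S then 0 else
          ∑ f ∈ (S.erase e).filter (fun f => f ∈ s.B), (dW s.W f - dW (ring s R).W f)) with hK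
  have h5 : K ^ 2 ≤ 3 * ∑ h ∈ R.filter (fun h => h ∈ s.B), pth s e h ^ 2 := by
    have h6 : K ^ 2 ≤ (∑ h ∈ R.filter (fun h => h ∈ s.B), pth s e h) ^ 2 :=
      pow_le_pow_left₀ h4 h3 2
    have h7 := sq_sum_le_card_mul_sum_sq (s := R.filter (fun h => h ∈ s.B))
      (f := fun h => pth s e h)
    have h8 : ((R.filter (fun h => h ∈ s.B)).card : ℝ) ≤ 3 := by
      have := card_filter_le R (fun h => h ∈ s.B)
      rw [hL.card3 R (hsub hR)] at this
      exact_mod_cast this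
    exact h6.trans (h7.trans (mul_le_mul_of_nonneg_right h8 (sum_nonneg fun h _ => sq_nonneg _)))
  have h9 : (be u (ring s R) e - be u s e) ^ 2 = (u * A + u ^ 2 * K) ^ 2 := by
    rw [← h1]
    ring
  rw [h9]
  have h10 : (u * A + u ^ 2 * K) ^ 2 ≤ 2 * u ^ 2 * A ^ 2 + 2 * u ^ 4 * K ^ 2 := by
    nlinarith [sq_nonneg (u * A - u ^ 2 * K)]
  refine h10.trans ?_
  have h11 : 2 * u ^ 2 * A ^ 2 ≤ 2 * u ^ 2 * (3 * ∑ S ∈ s.W.filter (fun S => e ∈ S),
      (if hit s R S then sm u s S e ^ 2 else 0)) := mul_le_mul_of_nonneg_left h2 (by positivity)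
  have h12 : 2 * u ^ 4 * K ^ 2 ≤ 2 * u ^ 4 * (3 * ∑ h ∈ R.filter (fun h => h ∈ s.B),
      pth s e h ^ 2) := mul_le_mul_of_nonneg_left h5 (by positivity)
  linarith

/-- sum over the rings, one point -/
theorem ring_point {Bl : Finset (Finset α)} {th u r : ℝ} (hL : Lin3 Bl) (hur : u * r = 1)
    (hr : 0 < r) (hth : th ≤ 1 / 10) {s : St α} (hI : Inv Bl th u s) {e : α} (he : e ∈ s.B) :
    ∑ R ∈ s.W.filter (fun R => e ∉ R), (be u (ring s R) e - be u s e) ^ 2 ≤
      20 * u * ∑ S ∈ s.W.filter (fun S => e ∈ S), sm u s S e ^ 2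
      + 7 * u ^ 3 * ∑ h ∈ s.B.erase e, pth s e h ^ 2 := by
  have hu : 0 < u := by
    by_contra hu
    have : u * r ≤ 0 := mul_nonpos_of_nonpos_of_nonneg (not_lt.mp hu) hr.le
    linarith
  have h1 : ∀ R ∈ s.W.filter (fun R => e ∉ R), (be u (ring s R) e - be u s e) ^ 2 ≤
      6 * u ^ 2 * ∑ S ∈ s.W.filter (fun S => e ∈ S), (if hit s R S then sm u s S e ^ 2 else 0)
      + 6 * u ^ 4 * ∑ h ∈ R.filter (fun h => h ∈ s.B), pth s e h ^ 2 := by
    intro R hR
    rw [mem_filter] at hR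
    exact ring_sq hL u hI.sub hR.1 hR.2
  refine (sum_le_sum h1).trans ?_
  rw [sum_add_distrib, ← mul_sum, ← mul_sum]
  have h2 : ∑ R ∈ s.W.filter (fun R => e ∉ R), ∑ S ∈ s.W.filter (fun S => e ∈ S),
      (if hit s R S then sm u s S e ^ 2 else 0) ≤
      (33 / 10 * r) * ∑ S ∈ s.W.filter (fun S => e ∈ S), sm u s S e ^ 2 := by
    rw [sum_comm, mul_sum]
    refine sum_le_sum fun S hS => ?_
    rw [mem_filter] at hS
    have h3 : ∑ R ∈ s.W.filter (fun R => e ∉ R), (if hit s R S then sm u s S e ^ 2 else 0) ≤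
        ∑ R ∈ s.W, (if hit s R S then (1 : ℝ) else 0) * sm u s S e ^ 2 := by
      have h4 : ∀ R ∈ s.W.filter (fun R => e ∉ R), (if hit s R S then sm u s S e ^ 2 else 0) =
          (if hit s R S then (1 : ℝ) else 0) * sm u s S e ^ 2 := by
        intro R _
        split_ifs <;> ring
      rw [sum_congr rfl h4]
      refine sum_le_sum_of_subset_of_nonneg (filter_subset _ _) fun R _ _ => ?_
      exact mul_nonneg (by split_ifs <;> norm_num) (sq_nonneg _)
    refine h3.trans ?_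
    rw [← sum_mul]
    refine mul_le_mul_of_nonneg_right ?_ (sq_nonneg _)
    rw [card_hit hL hI.sub hS.1]
    have h5 : e ∈ S.filter (fun f => f ∈ s.B) := mem_filter.mpr ⟨hS.2, he⟩
    have h6 : ∑ f ∈ S.filter (fun f => f ∈ s.B), (dW s.W f - 1) ≤
        ∑ f ∈ S.filter (fun f => f ∈ s.B), (11 / 10 * r - 1) := by
      refine sum_le_sum fun f hf => ?_
      have := QQ.dW_le hI hth hur hr (mem_filter.mp hf).2
      linarith
    rw [sum_const, nsmul_eq_mul] at h6
    have h7 : ((S.filter (fun f => f ∈ s.B)).card : ℝ) ≤ 3 := by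
      have := card_filter_le S (fun h => h ∈ s.B)
      rw [hL.card3 S (hI.sub hS.1)] at this
      exact_mod_cast this
    have h8 : (1 : ℝ) ≤ ((S.filter (fun f => f ∈ s.B)).card : ℝ) := by
      exact_mod_cast card_pos.mpr ⟨e, h5⟩
    have h9 : ((S.filter (fun f => f ∈ s.B)).card : ℝ) * (11 / 10 * r) ≤ 3 * (11 / 10 * r) :=
      mul_le_mul_of_nonneg_right h7 (by positivity)
    linarith
  have h10 : ∑ R ∈ s.W.filter (fun R => e ∉ R), ∑ h ∈ R.filter (fun h => h ∈ s.B),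
      pth s e h ^ 2 ≤ (11 / 10 * r) * ∑ h ∈ s.B.erase e, pth s e h ^ 2 := by
    have h11 : ∀ R ∈ s.W.filter (fun R => e ∉ R), ∑ h ∈ R.filter (fun h => h ∈ s.B),
        pth s e h ^ 2 = ∑ h ∈ s.B.erase e, (if h ∈ R then (1 : ℝ) else 0) * pth s e h ^ 2 := by
      intro R hR
      rw [mem_filter] at hR
      have h12 : ∀ h ∈ s.B.erase e, (if h ∈ R then (1 : ℝ) else 0) * pth s e h ^ 2 =
          if h ∈ R then pth s e h ^ 2 else 0 := by
        intro h _
        split_ifs <;> ring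
      rw [sum_congr rfl h12, ← sum_filter]
      refine sum_congr ?_ fun _ _ => rfl
      ext h
      simp only [mem_filter, mem_erase]
      constructor
      · rintro ⟨h13, h14⟩
        exact ⟨⟨fun h15 => hR.2 (h15 ▸ h13), h14⟩, h13⟩
      · rintro ⟨⟨_, h14⟩, h13⟩
        exact ⟨h13, h14⟩
    rw [sum_congr rfl h11, sum_comm, mul_sum]
    refine sum_le_sum fun h hh => ?_
    rw [← sum_mul]
    refine mul_le_mul_of_nonneg_right ?_ (sq_nonneg _)
    rw [← sum_filter, filter_filter, sum_const, nsmul_eq_mul, mul_one]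
    refine le_trans ?_ (QQ.dW_le hI hth hur hr (mem_of_mem_erase hh))
    unfold dW
    have : (s.W.filter (fun R => e ∉ R ∧ h ∈ R)).card ≤ (s.W.filter (fun T => h ∈ T)).card := by
      refine card_le_card fun R hR => ?_
      rw [mem_filter] at hR ⊢
      exact ⟨hR.1, hR.2.2⟩
    exact_mod_cast this
  set X := ∑ S ∈ s.W.filter (fun S => e ∈ S), sm u s S e ^ 2 with hX
  set Y := ∑ h ∈ s.B.erase e, pth s e h ^ 2 with hY
  have hX0 : 0 ≤ X := sum_nonneg fun S _ => sq_nonneg _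
  have hY0 : 0 ≤ Y := sum_nonneg fun S _ => sq_nonneg _
  calc 6 * u ^ 2 * ∑ R ∈ s.W.filter (fun R => e ∉ R), ∑ S ∈ s.W.filter (fun S => e ∈ S),
        (if hit s R S then sm u s S e ^ 2 else 0)
      + 6 * u ^ 4 * ∑ R ∈ s.W.filter (fun R => e ∉ R), ∑ h ∈ R.filter (fun h => h ∈ s.B),
        pth s e h ^ 2
      ≤ 6 * u ^ 2 * (33 / 10 * r * X) + 6 * u ^ 4 * (11 / 10 * r * Y) :=
        add_le_add (mul_le_mul_of_nonneg_left h2 (by positivity))
          (mul_le_mul_of_nonneg_left h10 (by positivity))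
    _ = 99 / 5 * u * X * (u * r) + 33 / 5 * u ^ 3 * Y * (u * r) := by ring
    _ = 99 / 5 * u * X + 33 / 5 * u ^ 3 * Y := by rw [hur, mul_one, mul_one]
    _ ≤ 20 * u * X + 7 * u ^ 3 * Y := by
        have : 0 ≤ u * X := mul_nonneg hu.le hX0
        have : 0 ≤ u ^ 3 * Y := mul_nonneg (by positivity) hY0
        linarith

/-- value of `Nr` -/
theorem Nr_eq {s : St α} (R : Finset α) (e : α) : Nr s R e =
    ∑ f ∈ R.filter (fun f => f ∈ s.B),
      (((s.W.erase R).filter (fun S => e ∈ S ∧ f ∈ S.erase e)).card : ℝ) := by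
  unfold Nr
  have h1 : ∀ S ∈ (s.W.erase R).filter (fun S => e ∈ S),
      ∑ f ∈ (S.erase e).filter (fun f => f ∈ s.B), (if f ∈ R then (1 : ℝ) else 0) =
      ∑ f ∈ R.filter (fun f => f ∈ s.B), (if f ∈ S.erase e then (1 : ℝ) else 0) := by
    intro S _
    rw [← sum_filter, ← sum_filter]
    refine sum_congr ?_ fun _ _ => rfl
    ext f
    simp only [mem_filter]
    tauto
  rw [sum_congr rfl h1, sum_comm]
  refine sum_congr rfl fun f _ => ?_
  rw [← sum_filter, filter_filter, sum_const, nsmul_eq_mul, mul_one]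

theorem Nr_nonneg {s : St α} (R : Finset α) (e : α) : 0 ≤ Nr s R e := by
  rw [Nr_eq]
  exact sum_nonneg fun f _ => Nat.cast_nonneg _

theorem Nr_le {Bl : Finset (Finset α)} (hL : Lin3 Bl) {s : St α} (hsub : s.W ⊆ Bl)
    {R : Finset α} (hR : R ∈ s.W) (e : α) : Nr s R e ≤ 3 := by
  rw [Nr_eq]
  have h1 : ∀ f ∈ R.filter (fun f => f ∈ s.B),
      (((s.W.erase R).filter (fun S => e ∈ S ∧ f ∈ S.erase e)).card : ℝ) ≤ 1 := by
    intro f _
    have : ((s.W.erase R).filter (fun S => e ∈ S ∧ f ∈ S.erase e)).card ≤ 1 := by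
      rw [card_le_one]
      intro S hS S' hS'
      rw [mem_filter, mem_erase] at hS hS'
      exact lin_eq hL (hsub hS.1.2) (hsub hS'.1.2) (ne_of_mem_erase hS.2.2).symm hS.2.1
        (mem_of_mem_erase hS.2.2) hS'.2.1 (mem_of_mem_erase hS'.2.2)
    exact_mod_cast this
  refine (sum_le_sum h1).trans ?_
  rw [sum_const, nsmul_eq_mul, mul_one]
  have := card_filter_le R (fun h => h ∈ s.B)
  rw [hL.card3 R (hsub hR)] at this
  exact_mod_cast this

theorem Nr_zero {Bl : Finset (Finset α)} (hL : Lin3 Bl) {s : St α} (hsub : s.W ⊆ Bl)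
    {R : Finset α} (hR : R ∈ s.W) {e : α} (he : e ∈ R) : Nr s R e = 0 := by
  unfold Nr
  refine sum_eq_zero fun S hS => sum_eq_zero fun f hf => ?_
  rw [mem_filter, mem_erase] at hS
  rw [mem_filter] at hf
  refine if_neg fun hfR => hS.1.1 ?_
  exact lin_eq hL (hsub hS.1.2) (hsub hR) (ne_of_mem_erase hf.1).symm hS.2
    (mem_of_mem_erase hf.1) he hfR

theorem Nr_sum {Bl : Finset (Finset α)} {th u r : ℝ} (hL : Lin3 Bl) (hur : u * r = 1)
    (hr : 0 < r) (hth : th ≤ 1 / 10) {s : St α} (hI : Inv Bl th u s) {R : Finset α}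
    (hR : R ∈ s.W) : ∑ e ∈ s.B, Nr s R e ≤ 7 * r := by
  rw [sum_congr rfl fun e _ => Nr_eq R e, sum_comm]
  have h1 : ∀ f ∈ R.filter (fun f => f ∈ s.B), ∑ e ∈ s.B,
      (((s.W.erase R).filter (fun S => e ∈ S ∧ f ∈ S.erase e)).card : ℝ) ≤ 22 / 10 * r := by
    intro f hf
    rw [mem_filter] at hf
    have h2 : ∀ e ∈ s.B, (((s.W.erase R).filter (fun S => e ∈ S ∧ f ∈ S.erase e)).card : ℝ) =
        ∑ S ∈ s.W.erase R, (if e ∈ S ∧ f ∈ S.erase e then (1 : ℝ) else 0) := by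
      intro e _
      rw [← sum_filter, sum_const, nsmul_eq_mul, mul_one]
    rw [sum_congr rfl h2, sum_comm]
    have h3 : ∀ S ∈ s.W.erase R, ∑ e ∈ s.B, (if e ∈ S ∧ f ∈ S.erase e then (1 : ℝ) else 0) ≤
        (if f ∈ S then (2 : ℝ) else 0) := by
      intro S hS
      rw [mem_erase] at hS
      rw [← sum_filter, sum_const, nsmul_eq_mul, mul_one]
      split_ifs with hfS
      · have h4 : (s.B.filter (fun e => e ∈ S ∧ f ∈ S.erase e)).card ≤ (S.erase f).card := by
          refine card_le_card fun e he => ?_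
          rw [mem_filter] at he
          exact mem_erase.mpr ⟨(ne_of_mem_erase he.2.2).symm, he.2.1⟩
        rw [card_erase_of_mem hfS, hL.card3 S (hI.sub hS.2)] at h4
        exact_mod_cast h4
      · have h4 : s.B.filter (fun e => e ∈ S ∧ f ∈ S.erase e) = ∅ := by
          rw [filter_eq_empty_iff]
          rintro e _ ⟨_, h5⟩
          exact hfS (mem_of_mem_erase h5)
        rw [h4, card_empty, Nat.cast_zero]
    refine (sum_le_sum h3).trans ?_
    have h5 : ∑ S ∈ s.W.erase R, (if f ∈ S then (2 : ℝ) else 0) ≤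
        ∑ S ∈ s.W, (if f ∈ S then (2 : ℝ) else 0) :=
      sum_le_sum_of_subset_of_nonneg (erase_subset _ _) fun S _ _ => by split_ifs <;> norm_num
    refine h5.trans ?_
    rw [← sum_filter, sum_const, nsmul_eq_mul]
    have h6 := QQ.dW_le hI hth hur hr hf.2
    unfold dW at h6
    linarith
  refine (sum_le_sum h1).trans ?_
  rw [sum_const, nsmul_eq_mul]
  have h7 : ((R.filter (fun f => f ∈ s.B)).card : ℝ) ≤ 3 := by
    have := card_filter_le R (fun h => h ∈ s.B)
    rw [hL.card3 R (hI.sub hR)] at this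
    exact_mod_cast this
  have h8 : ((R.filter (fun f => f ∈ s.B)).card : ℝ) * (22 / 10 * r) ≤ 3 * (22 / 10 * r) :=
    mul_le_mul_of_nonneg_right h7 (by positivity)
  linarith

theorem virt_sq {Bl : Finset (Finset α)} (hL : Lin3 Bl) {u : ℝ} (_hu : 0 ≤ u) {s : St α}
    (hsub : s.W ⊆ Bl) {R : Finset α} (hR : R ∈ s.W) (e : α) :
    (be u (virt s R) e - be u s e) ^ 2 ≤
      (if e ∈ R then u ^ 2 * sm u s R e ^ 2 else 0) + 3 * u ^ 4 * Nr s R e := by
  have h1 := be_virt u hR (e := e)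
  have h2 : (be u (virt s R) e - be u s e) ^ 2 =
      ((if e ∈ R then u * sm u s R e else 0) + u ^ 2 * Nr s R e) ^ 2 := by
    rw [← h1]
    ring
  rw [h2]
  split_ifs with he
  · rw [Nr_zero hL hsub hR he]
    refine le_of_eq ?_
    ring
  · have h3 := Nr_le hL hsub hR e
    have h4 := Nr_nonneg (s := s) R e
    have h5 : Nr s R e ^ 2 ≤ 3 * Nr s R e := by nlinarith
    calc (0 + u ^ 2 * Nr s R e) ^ 2 = u ^ 4 * Nr s R e ^ 2 := by ring
      _ ≤ u ^ 4 * (3 * Nr s R e) := mul_le_mul_of_nonneg_left h5 (by positivity)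
      _ = 0 + 3 * u ^ 4 * Nr s R e := by ring

/-- sum over the virtual deaths -/
theorem virt_total {Bl : Finset (Finset α)} {th u r : ℝ} (hL : Lin3 Bl) (hur : u * r = 1)
    (hr : 0 < r) (hth : th ≤ 1 / 10) {s : St α} (hI : Inv Bl th u s) :
    ∑ e ∈ s.B, ∑ R ∈ s.W, ∑ f ∈ R \ s.B,
        (r * (1 + s.a f) - 1) * (be u (virt s R) e - be u s e) ^ 2 ≤
      3 * u * (∑ e ∈ s.B, ∑ S ∈ s.W.filter (fun S => e ∈ S), sm u s S e ^ 2)
      + 24 * u ^ 2 * V s := by
  have hu : 0 < u := by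
    by_contra hu
    have : u * r ≤ 0 := mul_nonpos_of_nonpos_of_nonneg (not_lt.mp hu) hr.le
    linarith
  have h1 : ∀ e ∈ s.B, ∀ R ∈ s.W, ∑ f ∈ R \ s.B,
      (r * (1 + s.a f) - 1) * (be u (virt s R) e - be u s e) ^ 2 ≤
      (if e ∈ R then 22 / 10 * u * sm u s R e ^ 2 else 0)
        + 33 / 10 * u ^ 3 * (((R \ s.B).card : ℝ) * Nr s R e) := by
    intro e he R hR
    have h2 : ∀ f ∈ R \ s.B, (r * (1 + s.a f) - 1) * (be u (virt s R) e - be u s e) ^ 2 ≤
        (11 / 10 * r) * ((if e ∈ R then u ^ 2 * sm u s R e ^ 2 else 0)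
          + 3 * u ^ 4 * Nr s R e) := by
      intro f _
      have h3 := (abs_le.mp (hI.bda f)).2
      have h4 : r * (1 + s.a f) - 1 ≤ 11 / 10 * r := by nlinarith
      calc (r * (1 + s.a f) - 1) * (be u (virt s R) e - be u s e) ^ 2
          ≤ (11 / 10 * r) * (be u (virt s R) e - be u s e) ^ 2 :=
            mul_le_mul_of_nonneg_right h4 (sq_nonneg _)
        _ ≤ _ := mul_le_mul_of_nonneg_left (virt_sq hL hu.le hI.sub hR e) (by positivity)
    refine (sum_le_sum h2).trans ?_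
    rw [sum_const, nsmul_eq_mul]
    have h0 := Nr_nonneg (s := s) R e
    have h5 : ((R \ s.B).card : ℝ) * ((11 / 10 * r) * ((if e ∈ R then u ^ 2 * sm u s R e ^ 2
        else 0) + 3 * u ^ 4 * Nr s R e)) =
        (if e ∈ R then ((R \ s.B).card : ℝ) * (11 / 10 * u * sm u s R e ^ 2 * (u * r)) else 0)
          + 33 / 10 * u ^ 3 * (((R \ s.B).card : ℝ) * Nr s R e) * (u * r) := by
      split_ifs <;> ring
    rw [h5, hur, mul_one, mul_one]
    refine add_le_add ?_ le_rfl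
    split_ifs with heR
    · have h6 : ((R \ s.B).card : ℝ) ≤ 2 := by
        have h7 : (R \ s.B).card ≤ (R.erase e).card := by
          refine card_le_card fun f hf => ?_
          rw [mem_sdiff] at hf
          exact mem_erase.mpr ⟨fun h => hf.2 (h ▸ he), hf.1⟩
        rw [card_erase_of_mem heR, hL.card3 R (hI.sub hR)] at h7
        exact_mod_cast h7
      calc ((R \ s.B).card : ℝ) * (11 / 10 * u * sm u s R e ^ 2)
          ≤ 2 * (11 / 10 * u * sm u s R e ^ 2) := mul_le_mul_of_nonneg_right h6 (by positivity)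
        _ = 22 / 10 * u * sm u s R e ^ 2 := by ring
    · exact le_rfl
  refine (sum_le_sum fun e he => sum_le_sum fun R hR => h1 e he R hR).trans ?_
  have h8 : ∑ e ∈ s.B, ∑ R ∈ s.W, ((if e ∈ R then 22 / 10 * u * sm u s R e ^ 2 else 0)
        + 33 / 10 * u ^ 3 * (((R \ s.B).card : ℝ) * Nr s R e)) =
      22 / 10 * u * (∑ e ∈ s.B, ∑ S ∈ s.W.filter (fun S => e ∈ S), sm u s S e ^ 2)
        + 33 / 10 * u ^ 3 * ∑ R ∈ s.W, ((R \ s.B).card : ℝ) * ∑ e ∈ s.B, Nr s R e := by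
    rw [sum_congr rfl fun e _ => sum_add_distrib, sum_add_distrib]
    congr 1
    · rw [mul_sum]
      refine sum_congr rfl fun e _ => ?_
      rw [← sum_filter, mul_sum]
    · rw [sum_comm, mul_sum]
      refine sum_congr rfl fun R _ => ?_
      rw [mul_sum, mul_sum]
  rw [h8]
  have h9 : ∑ R ∈ s.W, ((R \ s.B).card : ℝ) * ∑ e ∈ s.B, Nr s R e ≤ V s * (7 * r) := by
    unfold V
    rw [sum_mul]
    exact sum_le_sum fun R hR => mul_le_mul_of_nonneg_left (Nr_sum hL hur hr hth hI hR)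
      (Nat.cast_nonneg _)
  have h10 : 33 / 10 * u ^ 3 * ∑ R ∈ s.W, ((R \ s.B).card : ℝ) * ∑ e ∈ s.B, Nr s R e ≤
      33 / 10 * u ^ 3 * (V s * (7 * r)) := mul_le_mul_of_nonneg_left h9 (by positivity)
  have h11 : 33 / 10 * u ^ 3 * (V s * (7 * r)) = 231 / 10 * u ^ 2 * V s * (u * r) := by ring
  rw [h11, hur, mul_one] at h10
  have hV : 0 ≤ V s := sum_nonneg fun T _ => Nat.cast_nonneg _
  have hV2 : 0 ≤ u ^ 2 * V s := mul_nonneg (by positivity) hV
  have hX : 0 ≤ u * (∑ e ∈ s.B, ∑ S ∈ s.W.filter (fun S => e ∈ S), sm u s S e ^ 2) :=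
    mul_nonneg hu.le (sum_nonneg fun e _ => sum_nonneg fun S _ => sq_nonneg _)
  linarith

/-- the double count -/
theorem sm_total {Bl : Finset (Finset α)} {th u r : ℝ} (hL : Lin3 Bl) (hur : u * r = 1)
    (hr : 0 < r) (hth0 : 0 ≤ th) (hth : th ≤ 1 / 10) {s : St α} (hI : Inv Bl th u s) :
    ∑ e ∈ s.B, ∑ S ∈ s.W.filter (fun S => e ∈ S), sm u s S e ^ 2 ≤
      4 * (11 / 10 * r * S 2 u s + 1 / 100 * V s) := by
  have h1 : ∀ e ∈ s.B, ∀ T ∈ s.W.filter (fun T => e ∈ T), sm u s T e ^ 2 ≤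
      2 * ∑ f ∈ T.erase e, xv u s f ^ 2 := by
    intro e _ T hT
    rw [mem_filter] at hT
    have hc : (T.erase e).card = 2 := by
      rw [card_erase_of_mem hT.2, hL.card3 T (hI.sub hT.1)]
    have := sq_sum_le_card_mul_sum_sq (s := T.erase e) (f := fun f => xv u s f)
    rw [hc] at this
    exact_mod_cast this
  refine (sum_le_sum fun e he => sum_le_sum fun T hT => h1 e he T hT).trans ?_
  have h2 : ∑ e ∈ s.B, ∑ T ∈ s.W.filter (fun T => e ∈ T), 2 * ∑ f ∈ T.erase e, xv u s f ^ 2 =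
      2 * ∑ T ∈ s.W, ∑ e ∈ s.B.filter (fun e => e ∈ T), ∑ f ∈ T.erase e, xv u s f ^ 2 := by
    rw [mul_sum]
    simp_rw [sum_filter]
    rw [sum_comm]
    refine sum_congr rfl fun T _ => ?_
    rw [mul_sum]
    refine sum_congr rfl fun e _ => ?_
    split_ifs <;> ring
  rw [h2]
  have h3 : ∀ T ∈ s.W, ∑ e ∈ s.B.filter (fun e => e ∈ T), ∑ f ∈ T.erase e, xv u s f ^ 2 ≤
      2 * ∑ f ∈ T, xv u s f ^ 2 := by
    intro T hT
    have e2 : ∑ e ∈ s.B.filter (fun e => e ∈ T), ∑ f ∈ T.erase e, xv u s f ^ 2 ≤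
        ∑ e ∈ T, ∑ f ∈ T.erase e, xv u s f ^ 2 := by
      refine sum_le_sum_of_subset_of_nonneg ?_ ?_
      · intro e he
        exact (mem_filter.1 he).2
      · intro e _ _
        exact sum_nonneg fun f _ => sq_nonneg _
    refine e2.trans ?_
    have e3 : ∀ e ∈ T, ∑ f ∈ T.erase e, xv u s f ^ 2 =
        ∑ f ∈ T, xv u s f ^ 2 - xv u s e ^ 2 := by
      intro e he
      rw [← sum_erase_add _ _ he]
      ring
    rw [sum_congr rfl e3, sum_sub_distrib, sum_const, hL.card3 T (hI.sub hT), nsmul_eq_mul]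
    push_cast
    linarith
  have h4 : ∑ T ∈ s.W, ∑ f ∈ T, xv u s f ^ 2 ≤ 11 / 10 * r * S 2 u s + 1 / 100 * V s := by
    have e1 : ∀ T ∈ s.W, ∑ f ∈ T, xv u s f ^ 2 ≤
        ∑ f ∈ s.B, (if f ∈ T then xv u s f ^ 2 else 0) + 1 / 100 * ((T \ s.B).card : ℝ) := by
      intro T _
      have e2 : ∑ f ∈ T, xv u s f ^ 2 = ∑ f ∈ T ∩ s.B, xv u s f ^ 2 +
          ∑ f ∈ T \ s.B, xv u s f ^ 2 := by
        rw [← sum_inter_add_sum_sdiff T s.B]
      have e3 : ∑ f ∈ T ∩ s.B, xv u s f ^ 2 = ∑ f ∈ s.B, (if f ∈ T then xv u s f ^ 2 else 0) := by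
        rw [← sum_filter, filter_mem_eq_inter, inter_comm]
      have e4 : ∑ f ∈ T \ s.B, xv u s f ^ 2 ≤ 1 / 100 * ((T \ s.B).card : ℝ) := by
        have : ∑ f ∈ T \ s.B, xv u s f ^ 2 ≤ ∑ _f ∈ T \ s.B, (1 / 100 : ℝ) := by
          refine sum_le_sum fun f _ => ?_
          have h5 := hI.bd f
          have h6 := abs_nonneg (xv u s f)
          rw [← sq_abs]
          nlinarith
        refine this.trans (le_of_eq ?_)
        rw [sum_const, nsmul_eq_mul, mul_comm]
      rw [e2, e3]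
      linarith
    refine (sum_le_sum e1).trans ?_
    rw [sum_add_distrib, ← mul_sum, sum_comm]
    have e5 : ∑ f ∈ s.B, ∑ T ∈ s.W, (if f ∈ T then xv u s f ^ 2 else 0) ≤
        11 / 10 * r * S 2 u s := by
      unfold S
      rw [mul_sum]
      refine sum_le_sum fun f hf => ?_
      rw [← sum_filter, sum_const, nsmul_eq_mul]
      exact mul_le_mul_of_nonneg_right (QQ.dW_le hI hth hur hr hf) (sq_nonneg _)
    have e6 : 1 / 100 * ∑ T ∈ s.W, ((T \ s.B).card : ℝ) = 1 / 100 * V s := rfl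
    rw [e6]
    linarith
  have h5 := sum_le_sum h3
  rw [← mul_sum] at h5
  linarith

end SBN

open SBN

/-- [SBN] noise of `be` -/
theorem noise_be {Bl : Finset (Finset α)} {th u r : ℝ} {s : St α}
    (hL : Lin3 Bl) (hur : u * r = 1) (hr : 100 ≤ r) (hth0 : 0 ≤ th)
    (hth : th ≤ 1 / 10) (hI : Inv Bl th u s) :
    ∑ e ∈ s.B, (∑ T ∈ s.W.filter (fun T => e ∉ T), (be u (ring s T) e - be u s e) ^ 2
      + ∑ T ∈ s.W, ∑ f ∈ T \ s.B, (r * (1 + s.a f) - 1) * (be u (virt s T) e - be u s e) ^ 2) ≤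
      200 * (S 2 u s + u * V s) + 10 * u ^ 3 * P2 s := by
  have hr0 : 0 < r := by linarith
  have hu : 0 < u := by
    by_contra hu
    have : u * r ≤ 0 := mul_nonpos_of_nonpos_of_nonneg (not_lt.mp hu) hr0.le
    linarith
  have hu1 : u ≤ 1 / 100 := by nlinarith
  have h1 : ∑ e ∈ s.B, ∑ T ∈ s.W.filter (fun T => e ∉ T), (be u (ring s T) e - be u s e) ^ 2 ≤
      20 * u * (∑ e ∈ s.B, ∑ S ∈ s.W.filter (fun S => e ∈ S), sm u s S e ^ 2)
      + 7 * u ^ 3 * P2 s := by
    refine (sum_le_sum fun e he => ring_point hL hur hr0 hth hI he).trans ?_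
    rw [sum_add_distrib, ← mul_sum, ← mul_sum]
    exact le_rfl
  have h2 := virt_total hL hur hr0 hth hI
  have h3 := sm_total hL hur hr0 hth0 hth hI
  rw [sum_add_distrib]
  set X := ∑ e ∈ s.B, ∑ S ∈ s.W.filter (fun S => e ∈ S), sm u s S e ^ 2 with hX
  have hV : 0 ≤ V s := sum_nonneg fun T _ => Nat.cast_nonneg _
  have hS : 0 ≤ S 2 u s := sum_nonneg fun e _ => sq_nonneg _
  have hP : 0 ≤ P2 s := sum_nonneg fun e _ => sum_nonneg fun h _ => sq_nonneg _
  have hX0 : 0 ≤ X := sum_nonneg fun e _ => sum_nonneg fun S _ => sq_nonneg _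
  have h4 : 23 * u * X ≤ 23 * u * (4 * (11 / 10 * r * S 2 u s + 1 / 100 * V s)) :=
    mul_le_mul_of_nonneg_left h3 (by positivity)
  have h5 : 23 * u * (4 * (11 / 10 * r * S 2 u s + 1 / 100 * V s)) =
      506 / 5 * S 2 u s * (u * r) + 23 / 25 * (u * V s) := by ring
  rw [h5, hur, mul_one] at h4
  have h6 : 24 * u ^ 2 * V s ≤ u * V s := by
    have h7 : 0 ≤ u * V s := mul_nonneg hu.le hV
    have h8 : 24 * u ^ 2 * V s = (24 * u) * (u * V s) := by ring
    rw [h8]
    nlinarith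
  have h9 : 0 ≤ u ^ 3 * P2 s := mul_nonneg (by positivity) hP
  have h10 : 0 ≤ u * V s := mul_nonneg hu.le hV
  linarith

end

end Vale.Agent.P046.NL
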