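import Vale.Agent.P046.NL.SBG
import Vale.Agent.P046.NL.SBD
import Vale.Agent.P046.NL.SBN
import Vale.Agent.P046.NL.PSD
import Vale.Agent.P046.NL.QQ

/-! P046 no-log: row SBF (final form of the generator bound of `Sb`). -/

namespace Vale.Agent.P046.NL

open Finset Vale.Agent.P046

noncomputable section

variable {α : Type} [DecidableEq α]

variable {Bl : Finset (Finset α)} {th u r : ℝ} {s : St α}

/-- [SBG] from drift and noise -/
theorem gen_Sb_raw (hL : Lin3 Bl) (hur : u * r = 1) (hr : 100 ≤ r) (hth0 : 0 ≤ th)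
    (hth : th ≤ 1 / 10) (hI : Inv Bl th u s) :
    gen Bl r (Sb u) s + 2 * dSb u s ≤
      - r * ∑ e ∈ s.B, (1 + xv u s e) * be u s e ^ 2
      - 2 * r * ∑ e ∈ s.B, be u s e * Pb u s e + 2 * r * ∑ e ∈ s.B, |be u s e| * qq u s e
      + 80 * ∑ e ∈ s.B, |be u s e| + 200 * (S 2 u s + u * V s) + 10 * u ^ 3 * P2 s :=
  gen_Sb_raw_of hur hr (fun _ he => drift_be hL hur hr hth0 hth hI he)
    (noise_be hL hur hr hth0 hth hI)

namespace SBF

theorem x_bounds (hI : Inv Bl th u s) :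
    (1 - th) * Sb u s ≤ ∑ e ∈ s.B, (1 + xv u s e) * be u s e ^ 2 ∧
      ∑ e ∈ s.B, (1 + xv u s e) * be u s e ^ 2 ≤ (1 + th) * Sb u s := by
  unfold Sb
  rw [mul_sum, mul_sum]
  constructor
  · refine sum_le_sum fun e _ => ?_
    have h := (abs_le.1 (hI.bd e)).1
    have h2 := sq_nonneg (be u s e)
    nlinarith
  · refine sum_le_sum fun e _ => ?_
    have h := (abs_le.1 (hI.bd e)).2
    have h2 := sq_nonneg (be u s e)
    nlinarith

theorem cross (u : ℝ) (s : St α) (lam : ℝ) (hl : 0 < lam) :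
    2 * ∑ e ∈ s.B, |be u s e| * qq u s e ≤ lam * Sb u s + (1 / lam) * ∑ e ∈ s.B, qq u s e ^ 2 := by
  unfold Sb
  rw [mul_sum, mul_sum, mul_sum, ← sum_add_distrib]
  refine sum_le_sum fun e _ => ?_
  have h1 : 0 ≤ (lam * |be u s e| - qq u s e) ^ 2 := sq_nonneg _
  have h2 : |be u s e| ^ 2 = be u s e ^ 2 := sq_abs _
  have h3 : lam * be u s e ^ 2 + 1 / lam * qq u s e ^ 2 - 2 * (|be u s e| * qq u s e)
      = (1 / lam) * (lam * |be u s e| - qq u s e) ^ 2 := by
    rw [← h2]; field_simp; ring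
  have h4 : 0 ≤ (1 / lam) * (lam * |be u s e| - qq u s e) ^ 2 := by positivity
  linarith

theorem lin (u : ℝ) (s : St α) (mu : ℝ) (hm : 0 < mu) :
    80 * ∑ e ∈ s.B, |be u s e| ≤ mu * Sb u s + (1600 / mu) * Q s := by
  have hQ : (1600 / mu) * Q s = ∑ _e ∈ s.B, 1600 / mu := by
    rw [sum_const, nsmul_eq_mul]; unfold Q; ring
  rw [hQ]
  unfold Sb
  rw [mul_sum, mul_sum, ← sum_add_distrib]
  refine sum_le_sum fun e _ => ?_
  have h2 : |be u s e| ^ 2 = be u s e ^ 2 := sq_abs _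
  have h3 : mu * be u s e ^ 2 + 1600 / mu - 80 * |be u s e|
      = (1 / mu) * (mu * |be u s e| - 40) ^ 2 := by
    rw [← h2]; field_simp; ring
  have h4 : 0 ≤ (1 / mu) * (mu * |be u s e| - 40) ^ 2 := by positivity
  linarith

end SBF

/-- [SBF] final form -/
theorem gen_Sb (hL : Lin3 Bl) (hur : u * r = 1) (hr : 100 ≤ r) (hth0 : 0 ≤ th)
    (hth : th ≤ 1 / 10) (hI : Inv Bl th u s) (lam mu : ℝ) (hl : 0 < lam) (hmu : 0 < mu) :
    gen Bl r (Sb u) s + 2 * dSb u s ≤
      r * ((1 + th + lam) * Sb u s + (20 / lam) * (S 4 u s + th ^ 4 * (u * V s))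
        + mu * u * Sb u s + (1600 / mu) * u * Q s + 200 * u * (S 2 u s + u * V s)
        + 10 * u ^ 4 * P2 s) := by
  have hr0 : 0 < r := by linarith
  have hraw := gen_Sb_raw hL hur hr hth0 hth hI
  have hpsd := psd hI hur hr0
  obtain ⟨_, hx⟩ := SBF.x_bounds hI
  have hc := SBF.cross u s lam hl
  have hlin := SBF.lin u s mu hmu
  have hqq := qq_le Bl hL th u r s hI hth0 hth hur hr0
  have hqq' : (1 / lam) * ∑ e ∈ s.B, qq u s e ^ 2 ≤
      (20 / lam) * (S 4 u s + th ^ 4 * (u * V s)) := by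
    calc (1 / lam) * ∑ e ∈ s.B, qq u s e ^ 2
        ≤ (1 / lam) * (20 * (S 4 u s + th ^ 4 * u * V s)) := by gcongr
      _ = _ := by ring
  have h1 := mul_le_mul_of_nonneg_left hpsd hr0.le
  have h2 := mul_le_mul_of_nonneg_left hx hr0.le
  have h3 := mul_le_mul_of_nonneg_left (hc.trans (add_le_add_right hqq' _)) hr0.le
  have e1 : 80 * ∑ e ∈ s.B, |be u s e| ≤ r * (mu * u * Sb u s + (1600 / mu) * u * Q s) := by
    have : r * (mu * u * Sb u s + (1600 / mu) * u * Q s) =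
        (u * r) * (mu * Sb u s + (1600 / mu) * Q s) := by ring
    rw [this, hur, one_mul]; exact hlin
  have e2 : 200 * (S 2 u s + u * V s) = r * (200 * u * (S 2 u s + u * V s)) := by
    have : r * (200 * u * (S 2 u s + u * V s)) = (u * r) * (200 * (S 2 u s + u * V s)) := by ring
    rw [this, hur, one_mul]
  have e3 : 10 * u ^ 3 * P2 s = r * (10 * u ^ 4 * P2 s) := by
    have : r * (10 * u ^ 4 * P2 s) = (u * r) * (10 * u ^ 3 * P2 s) := by ring
    rw [this, hur, one_mul]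
  rw [e2, e3] at hraw
  have e4 : r * ((1 + th + lam) * Sb u s + (20 / lam) * (S 4 u s + th ^ 4 * (u * V s))
        + mu * u * Sb u s + (1600 / mu) * u * Q s + 200 * u * (S 2 u s + u * V s)
        + 10 * u ^ 4 * P2 s) = r * ((1 + th) * Sb u s) +
        r * (lam * Sb u s + (20 / lam) * (S 4 u s + th ^ 4 * (u * V s))) +
        r * (mu * u * Sb u s + (1600 / mu) * u * Q s) + r * (200 * u * (S 2 u s + u * V s))
        + r * (10 * u ^ 4 * P2 s) := by ring
  rw [e4]
  linarith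

/-- [SBE] early form: real state, spectral bound `kap` -/
theorem gen_Sb_early (hL : Lin3 Bl) (hur : u * r = 1) (hr : 100 ≤ r) (hth0 : 0 ≤ th)
    (hth : th ≤ 1 / 10) (hI : Inv Bl th u s) (hV : V s = 0) (kap : ℝ)
    (hspec : -2 * ∑ e ∈ s.B, be u s e * Pb u s e ≤ kap * Sb u s)
    (lam mu : ℝ) (hl : 0 < lam) (hmu : 0 < mu) :
    gen Bl r (Sb u) s + 2 * dSb u s ≤
      r * (-(1 - th - kap - lam) * Sb u s + (20 / lam) * S 4 u s
        + mu * u * Sb u s + (1600 / mu) * u * Q s + 200 * u * S 2 u s + 10 * u ^ 4 * P2 s) := by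
  have hr0 : 0 < r := by linarith
  have hraw := gen_Sb_raw hL hur hr hth0 hth hI
  obtain ⟨hx, _⟩ := SBF.x_bounds hI
  have hc := SBF.cross u s lam hl
  have hlin := SBF.lin u s mu hmu
  have hqq := qq_le Bl hL th u r s hI hth0 hth hur hr0
  rw [hV] at hraw hqq
  have hqq' : (1 / lam) * ∑ e ∈ s.B, qq u s e ^ 2 ≤ (20 / lam) * S 4 u s := by
    calc (1 / lam) * ∑ e ∈ s.B, qq u s e ^ 2
        ≤ (1 / lam) * (20 * (S 4 u s + th ^ 4 * u * 0)) := by gcongr
      _ = _ := by ring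
  have h1 := mul_le_mul_of_nonneg_left hspec hr0.le
  have h2 := mul_le_mul_of_nonneg_left hx hr0.le
  have h3 := mul_le_mul_of_nonneg_left (hc.trans (add_le_add_right hqq' _)) hr0.le
  have e1 : 80 * ∑ e ∈ s.B, |be u s e| ≤ r * (mu * u * Sb u s + (1600 / mu) * u * Q s) := by
    have : r * (mu * u * Sb u s + (1600 / mu) * u * Q s) =
        (u * r) * (mu * Sb u s + (1600 / mu) * Q s) := by ring
    rw [this, hur, one_mul]; exact hlin
  have e2 : 200 * (S 2 u s + u * 0) = r * (200 * u * S 2 u s) := by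
    have : r * (200 * u * S 2 u s) = (u * r) * (200 * S 2 u s) := by ring
    rw [this, hur, one_mul]; ring
  have e3 : 10 * u ^ 3 * P2 s = r * (10 * u ^ 4 * P2 s) := by
    have : r * (10 * u ^ 4 * P2 s) = (u * r) * (10 * u ^ 3 * P2 s) := by ring
    rw [this, hur, one_mul]
  rw [e2, e3] at hraw
  have e4 : r * (-(1 - th - kap - lam) * Sb u s + (20 / lam) * S 4 u s
        + mu * u * Sb u s + (1600 / mu) * u * Q s + 200 * u * S 2 u s + 10 * u ^ 4 * P2 s) =
        - (r * ((1 - th) * Sb u s)) + r * (kap * Sb u s) +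
        r * (lam * Sb u s + (20 / lam) * S 4 u s) +
        r * (mu * u * Sb u s + (1600 / mu) * u * Q s) + r * (200 * u * S 2 u s)
        + r * (10 * u ^ 4 * P2 s) := by ring
  rw [e4]
  linarith

end

end Vale.Agent.P046.NL
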