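import Vale.Agent.P046.NL.FixAux

/-!
P046, removal of the logarithm: row TSB.
-/

namespace Vale.Agent.P046.NL

open Finset Vale.Agent.P046

noncomputable section

variable {α : Type} [DecidableEq α]

variable {Bl : Finset (Finset α)} {th u r : ℝ} {s : St α}

/-- [TSB] -/
theorem time_Sb (hL : Lin3 Bl) (hth0 : 0 ≤ th) (hth : th ≤ 1 / 10) {h : ℝ} (hh : 0 < h)
    (hur : (u + 2 * h) * r = 1) (hr : 100 ≤ r) (hhu : h * r ≤ 1)
    (hI : Inv Bl th (u + 2 * h) s) :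
    Sb (u + 2 * h) s - 2 * h * dSb (u + 2 * h) s ≤ Sb u s + 1000 * h ^ 2 * r ^ 4 * Q s := by
  have _ := hth0
  have _ := hhu
  have _ := hh
  have h1 := FixAux.Sb_time hL hI hth hur (by linarith) (2 * h)
  have h2 : u + 2 * h - 2 * h = u := by ring
  rw [h2] at h1
  have h3 : 0 ≤ Q s := by
    unfold Q
    positivity
  have h4 : (1 : ℝ) ≤ r ^ 2 := one_le_pow₀ (by linarith)
  have h5 : 2 * (2 * h) ^ 2 * r ^ 2 * Q s ≤ 1000 * h ^ 2 * r ^ 4 * Q s := by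
    refine mul_le_mul_of_nonneg_right ?_ h3
    have h6 : 0 ≤ h ^ 2 * r ^ 2 := by positivity
    have h7 : h ^ 2 * r ^ 2 * 1 ≤ h ^ 2 * r ^ 2 * r ^ 2 := mul_le_mul_of_nonneg_left h4 h6
    nlinarith
  linarith

end

end Vale.Agent.P046.NL
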