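import Vale.Agent.P046.NL.ID1

/-!
P046, no log: row VG (the number of virtual copies decreases at rate `3 (1 - th) r - 2`).
-/

namespace Vale.Agent.P046.NL

open Finset Vale.Agent.P046

noncomputable section

variable {α : Type} [DecidableEq α]

/-- the total rate of the death of the block `S` -/
theorem rate_block {Bl : Finset (Finset α)} {th u r : ℝ} (hL : Lin3 Bl) (hur : u * r = 1)
    (hr : 0 < r) {s : St α} (hI : Inv Bl th u s) {S : Finset α} (hS : S ∈ s.W) :
    3 * (1 - th) * r - 2 ≤ ∑ T ∈ s.W, (if hit s T S then (1 : ℝ) else 0)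
      + ∑ f ∈ S \ s.B, (r * (1 + s.a f) - 1) := by
  rw [card_hit hL hI.sub hS]
  have h1 : ∑ f ∈ S.filter (fun f => f ∈ s.B), (dW s.W f - 1)
      = ∑ f ∈ S.filter (fun f => f ∈ s.B), (r * (1 + xv u s f) - 1) :=
    sum_congr rfl fun f hf => (rate_real hur s (mem_filter.mp hf).2).symm
  have h2 : ∑ f ∈ S \ s.B, (r * (1 + s.a f) - 1)
      = ∑ f ∈ S.filter (fun f => ¬ f ∈ s.B), (r * (1 + xv u s f) - 1) := by
    have h3 : S.filter (fun f => ¬ f ∈ s.B) = S \ s.B := by
      ext f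
      rw [mem_filter, mem_sdiff]
    rw [h3]
    exact sum_congr rfl fun f hf => (rate_virt r s (mem_sdiff.mp hf).2).symm
  rw [h1, h2, add_assoc, sum_filter_add_sum_filter_not]
  have h4 : ∑ f ∈ S, (r * (1 - th) - 1) ≤ ∑ f ∈ S, (r * (1 + xv u s f) - 1) := by
    refine sum_le_sum fun f _ => ?_
    have h5 := (abs_le.mp (hI.bd f)).1
    have h6 : r * (1 - th) ≤ r * (1 + xv u s f) := mul_le_mul_of_nonneg_left (by linarith) hr.le
    linarith
  rw [sum_const, nsmul_eq_mul, hL.card3 S (hI.sub hS)] at h4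
  push_cast at h4
  linarith

theorem V_ring (s : St α) (T : Finset α) :
    V (ring s T) - V s = - ∑ S ∈ s.W, (if hit s T S then (1 : ℝ) else 0) * ((S \ s.B).card : ℝ) := by
  have h1 : V (ring s T) = ∑ S ∈ s.W, (if ¬ hit s T S then ((S \ s.B).card : ℝ) else 0) := by
    unfold V
    rw [ring_W, ← sum_filter]
    refine sum_congr rfl fun S hS => ?_
    rw [mem_filter] at hS
    have hd : Disjoint S (T ∩ s.B) := (not_not.mp hS.2).2
    have h2 : S \ (ring s T).B = S \ s.B := by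
      have h3 : (ring s T).B = s.B \ T := rfl
      rw [h3]
      ext f
      simp only [mem_sdiff, not_and, not_not]
      constructor
      · rintro ⟨h, h'⟩
        exact ⟨h, fun hB => (disjoint_left.mp hd) h (mem_inter.mpr ⟨h' hB, hB⟩)⟩
      · rintro ⟨h, h'⟩
        exact ⟨h, fun hB => absurd hB h'⟩
    rw [h2]
  rw [h1]
  unfold V
  rw [← sum_sub_distrib, ← sum_neg_distrib]
  refine sum_congr rfl fun S _ => ?_
  by_cases h : hit s T S
  · simp [h]
  · simp [h]

theorem V_virt (s : St α) {T : Finset α} (hT : T ∈ s.W) :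
    V (virt s T) - V s = - ((T \ s.B).card : ℝ) := by
  have h1 : V (virt s T) = ∑ S ∈ s.W.erase T, ((S \ s.B).card : ℝ) := rfl
  have h2 : V s = ((T \ s.B).card : ℝ) + ∑ S ∈ s.W.erase T, ((S \ s.B).card : ℝ) :=
    (add_sum_erase _ _ hT).symm
  rw [h1, h2]
  ring

/-- row VG -/
theorem gen_V {Bl : Finset (Finset α)} {th u r : ℝ} (hL : Lin3 Bl) (hur : u * r = 1)
    (hr : 0 < r) {s : St α} (hI : Inv Bl th u s) :
    gen Bl r V s ≤ -(3 * (1 - th) * r - 2) * V s := by
  have h3 : ∑ T ∈ bl Bl s.A \ s.W, (V (nring s T) - V s) = 0 :=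
    sum_eq_zero fun T _ => sub_self _
  have h1 : ∑ T ∈ s.W, (V (ring s T) - V s)
      = - ∑ S ∈ s.W, (∑ T ∈ s.W, (if hit s T S then (1 : ℝ) else 0)) * ((S \ s.B).card : ℝ) := by
    rw [sum_congr rfl fun T _ => V_ring s T, sum_neg_distrib, sum_comm]
    congr 1
    exact sum_congr rfl fun S _ => (sum_mul _ _ _).symm
  have h2 : ∑ T ∈ s.W, ∑ f ∈ T \ s.B, (r * (1 + s.a f) - 1) * (V (virt s T) - V s)
      = - ∑ S ∈ s.W, (∑ f ∈ S \ s.B, (r * (1 + s.a f) - 1)) * ((S \ s.B).card : ℝ) := by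
    rw [← sum_neg_distrib]
    refine sum_congr rfl fun T hT => ?_
    rw [← sum_mul, V_virt s hT]
    ring
  unfold gen
  rw [h1, h2, h3, add_zero, ← neg_add, ← sum_add_distrib]
  have h4 : (3 * (1 - th) * r - 2) * V s
      ≤ ∑ S ∈ s.W, ((∑ T ∈ s.W, (if hit s T S then (1 : ℝ) else 0)) * ((S \ s.B).card : ℝ)
        + (∑ f ∈ S \ s.B, (r * (1 + s.a f) - 1)) * ((S \ s.B).card : ℝ)) := by
    unfold V
    rw [mul_sum]
    refine sum_le_sum fun S hS => ?_
    rw [← add_mul]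
    exact mul_le_mul_of_nonneg_right (rate_block hL hur hr hI hS) (Nat.cast_nonneg _)
  linarith

end

end Vale.Agent.P046.NL
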