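import Vale.Agent.P046.NL.MidAux
import Vale.Agent.P046.NL.GLIN
import Vale.Agent.P046.NL.SBF
import Vale.Agent.P046.NL.NG
import Vale.Agent.P046.NL.VG
import Vale.Agent.P046.NL.CVX
import Vale.Agent.P046.NL.TSB
import Vale.Agent.P046.NL.PHG
import Vale.Agent.P046.NL.QG
import Vale.Agent.P046.NL.S24G
import Vale.Agent.P046.NL.BDS
import Vale.Agent.P046.NL.TERM

/-! P046, row COREST2 (part a): the term lemmas for a general detachment threshold `t` -/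

namespace Vale.Agent.P046.NL

open Finset Vale.Agent.P046

noncomputable section

variable {α : Type} [DecidableEq α]

namespace CS

open MC

/-- the conditions on a state and a time step -/
structure Cnd (t umin : ℝ) (Bl : Finset (Finset α)) (A₀ : Finset α) (u h : ℝ) (s : St α) :
    Prop where
  hh : 0 < h
  hh1 : h ≤ umin / 8
  hu : umin ≤ u
  hu1 : u + 2 * h ≤ 1 / 100
  hB : s.B ⊆ A₀
  hA : s.A ⊆ A₀
  inv : Inv Bl (2 * t) (u + 2 * h) s

section facts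

variable {t umin u h : ℝ} {Bl : Finset (Finset α)} {A₀ : Finset α} {s : St α}

theorem Cnd.vpos (hu0 : 0 < umin) (c : Cnd t umin Bl A₀ u h s) : 0 < u + 2 * h := by
  have := c.hh; have := c.hu; linarith

theorem Cnd.r100 (hu0 : 0 < umin) (c : Cnd t umin Bl A₀ u h s) : 100 ≤ 1 / (u + 2 * h) := by
  rw [le_div_iff₀ (c.vpos hu0)]
  have := c.hu1
  linarith

theorem Cnd.hur (hu0 : 0 < umin) (c : Cnd t umin Bl A₀ u h s) :
    (u + 2 * h) * (1 / (u + 2 * h)) = 1 := mul_one_div_cancel (c.vpos hu0).ne'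

theorem Cnd.rle (hu0 : 0 < umin) (c : Cnd t umin Bl A₀ u h s) :
    1 / (u + 2 * h) ≤ 1 / umin := by
  apply one_div_le_one_div_of_le hu0
  have := c.hh; have := c.hu; linarith

end facts

/-- term `Q` -/
theorem term1 {t umin : ℝ} (hu0 : 0 < umin)
    {Bl : Finset (Finset α)} (hL : Lin3 Bl) (A₀ : Finset α) (a : ℝ) : ∃ E : ℝ, 0 ≤ E ∧
    ∀ u h : ℝ, ∀ s : St α, Cnd t umin Bl A₀ u h s →
      |(u + 2 * h) ^ a * (Q s + h * gen Bl (1 / (u + 2 * h)) Q s) - (u ^ a * Q s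
        + h * (1 / (u + 2 * h)) * ((u + 2 * h) ^ a *
          (-(Q s + ∑ e ∈ s.B, xv (u + 2 * h) s e) + 2 * a * Q s)))| ≤ E * h ^ 2 := by
  obtain ⟨C, hC, hT⟩ := term_Q a
  obtain ⟨E, hE, H⟩ := tq hC hT hu0 (show (0 : ℝ) ≤ (A₀.card : ℝ) by positivity)
  refine ⟨E, hE, fun u h s c => ?_⟩
  have hv := c.vpos hu0
  have hg := gen_Q hL (c.hur hu0) (by positivity : 0 < 1 / (u + 2 * h)) c.inv
  have key := H u h (Q s) (-(Q s + ∑ e ∈ s.B, xv (u + 2 * h) s e)) c.hu c.hh c.hh1 c.hu1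
    (Q_nonneg s) (Q_le c.hB)
  have e1 : gen Bl (1 / (u + 2 * h)) Q s =
      1 / (u + 2 * h) * -(Q s + ∑ e ∈ s.B, xv (u + 2 * h) s e) := by
    rw [hg]; ring
  rw [e1]
  exact key

/-- term `S 2` -/
theorem term2 {t umin : ℝ} (ht0 : 0 < t) (ht1 : 2 * t ≤ 1 / 10) (hu0 : 0 < umin)
    {Bl : Finset (Finset α)} (hL : Lin3 Bl) (A₀ : Finset α) (a : ℝ) : ∃ E : ℝ, 0 ≤ E ∧
    ∀ u h : ℝ, ∀ s : St α, Cnd t umin Bl A₀ u h s →
      (u + 2 * h) ^ a * (S 2 (u + 2 * h) s + h * gen Bl (1 / (u + 2 * h)) (S 2 (u + 2 * h)) s) ≤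
        u ^ a * S 2 u s + h * (1 / (u + 2 * h)) * ((u + 2 * h) ^ a *
          ((-(1 - 2 * t - 1 / 10) * S 2 (u + 2 * h) s + 10 * Sb (u + 2 * h) s
            + 16 * (u + 2 * h) * (S 2 (u + 2 * h) s + Q s))
          + 2 * a * S 2 (u + 2 * h) s)) + E * h ^ 2 := by
  obtain ⟨C, hC, hT⟩ := term_pow a
  have hqm : (0 : ℝ) ≤ (A₀.card : ℝ) := by positivity
  obtain ⟨E, hE, H⟩ := tp (dm := 10 * (1 / umin) * (A₀.card : ℝ))
    (em := 0) hC hT hu0 hqm (by positivity) le_rfl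
  refine ⟨E, hE, fun u h s c => ?_⟩
  have hv := c.vpos hu0
  have hrle := c.rle hu0
  have hr0 : 0 ≤ 1 / (u + 2 * h) := by positivity
  have hQ := Q_nonneg s
  have hQm := Q_le c.hB
  have hb := bounds hL (c.hur hu0) (c.r100 hu0) (by linarith) ht1 c.inv
    (dl := 1 / 4) (by norm_num) (by norm_num)
  obtain ⟨b1, b2, b3, b4, b5, b6, b7, b8⟩ := hb
  have hg := gen_S2 hL (c.hur hu0) (c.r100 hu0) (by linarith) ht1 c.inv (1 / 10) (by norm_num)
  have hts := time_S 2 (by decide) u h s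
  refine H u h (S 2 u s) (S 2 (u + 2 * h) s) (dS 2 (u + 2 * h) s)
    (gen Bl (1 / (u + 2 * h)) (S 2 (u + 2 * h)) s) _
    0 c.hu c.hh c.hh1 c.hu1 (S_nonneg (by decide) _ _)
    (S_nonneg (by decide) _ _) (b1.trans hQm) ?_ (by linarith) le_rfl (by simp) ?_
  · refine b4.trans ?_
    apply mul_le_mul _ hQm hQ (by positivity)
    exact mul_le_mul_of_nonneg_left hrle (by norm_num)
  · refine hg.trans ?_
    apply mul_le_mul_of_nonneg_left _ hr0
    have e : (1 : ℝ) / (1 / 10) = 10 := by norm_num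
    rw [e]

/-- term `Sb` -/
theorem term3 {ep t umin : ℝ} (h0 : 0 < ep) (ht0 : 0 < t) (ht1 : 2 * t ≤ 1 / 10) (hu0 : 0 < umin)
    {Bl : Finset (Finset α)} {C6 C8 : Finset (Finset (Finset α))} (hS : Sys Bl C6 C8)
    (A₀ : Finset α) (a : ℝ) : ∃ E : ℝ, 0 ≤ E ∧
    ∀ u h : ℝ, ∀ s : St α, Cnd t umin Bl A₀ u h s →
      (u + 2 * h) ^ a * (Sb (u + 2 * h) s + h * gen Bl (1 / (u + 2 * h)) (Sb (u + 2 * h)) s) ≤
        u ^ a * Sb u s + h * (1 / (u + 2 * h)) * ((u + 2 * h) ^ a *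
          (((1 + 2 * t + ep / 2) * Sb (u + 2 * h) s
          + 40 / ep * (S 4 (u + 2 * h) s + (2 * t) ^ 4 * ((u + 2 * h) * V s))
          + ep / 10 * Sb (u + 2 * h) s
          + 16000 / ep * (u + 2 * h) ^ 2 * Q s
          + 200 * (u + 2 * h) * (S 2 (u + 2 * h) s + (u + 2 * h) * V s)
          + (50 * (u + 2 * h) ^ 2 * Q s + 207360 * (u + 2 * h) ^ 4 * (Nc C6 s + Nc C8 s)))
          + 2 * a * Sb (u + 2 * h) s)) + E * h ^ 2 := by
  obtain ⟨C, hC, hT⟩ := term_pow a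
  have hqm : (0 : ℝ) ≤ (A₀.card : ℝ) := by positivity
  obtain ⟨E, hE, H⟩ := tp (dm := 100 * (1 / umin) ^ 2 * (A₀.card : ℝ))
    (em := 1000 * (1 / umin) ^ 4 * (A₀.card : ℝ)) hC hT hu0 hqm (by positivity) (by positivity)
  refine ⟨E, hE, fun u h s c => ?_⟩
  have hv := c.vpos hu0
  have hrle := c.rle hu0
  have hr0 : 0 ≤ 1 / (u + 2 * h) := by positivity
  have hQ := Q_nonneg s
  have hQm := Q_le c.hB
  have hb := bounds hS.lin (c.hur hu0) (c.r100 hu0) (by linarith) ht1 c.inv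
    (dl := 1 / 4) (by norm_num) (by norm_num)
  obtain ⟨b1, b2, b3, b4, b5, b6, b7, b8⟩ := hb
  have hmu : 0 < ep / (10 * (u + 2 * h)) := by positivity
  have hg := gen_Sb hS.lin (c.hur hu0) (c.r100 hu0) (by linarith) ht1 c.inv (ep / 2)
    (ep / (10 * (u + 2 * h))) (by linarith) hmu
  have hP := hS.cyc (u + 2 * h) (1 / (u + 2 * h)) s (c.hur hu0) (by positivity)
    (inv_mono c.inv ht1)
  have hhr1 : h * (1 / (u + 2 * h)) ≤ 1 := by
    rw [mul_one_div, div_le_one hv]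
    have := c.hh; have := c.hu; linarith
  have hts := time_Sb hS.lin (by linarith) ht1 c.hh (c.hur hu0) (c.r100 hu0) hhr1 c.inv
  refine H u h (Sb u s) (Sb (u + 2 * h) s) (dSb (u + 2 * h) s)
    (gen Bl (1 / (u + 2 * h)) (Sb (u + 2 * h)) s) _
    (1000 * h ^ 2 * (1 / (u + 2 * h)) ^ 4 * Q s) c.hu c.hh c.hh1 c.hu1 (Sb_nonneg _ _)
    (Sb_nonneg _ _) (b3.trans hQm) ?_ (by linarith) (by positivity) ?_ ?_
  · refine b6.trans ?_
    apply mul_le_mul _ hQm hQ (by positivity)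
    apply mul_le_mul_of_nonneg_left _ (by norm_num)
    exact pow_le_pow_left₀ hr0 hrle 2
  · have q1 : (1 / (u + 2 * h)) ^ 4 ≤ (1 / umin) ^ 4 := pow_le_pow_left₀ hr0 hrle 4
    have q2 : (1 / (u + 2 * h)) ^ 4 * Q s ≤ (1 / umin) ^ 4 * (A₀.card : ℝ) :=
      mul_le_mul q1 hQm hQ (by positivity)
    have q3 := mul_le_mul_of_nonneg_left q2 (show 0 ≤ 1000 * h ^ 2 by positivity)
    linarith
  · refine hg.trans ?_
    apply mul_le_mul_of_nonneg_left _ hr0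
    have m1 : ep / (10 * (u + 2 * h)) * (u + 2 * h) = ep / 10 := by
      field_simp
    have m2 : 1600 / (ep / (10 * (u + 2 * h))) * (u + 2 * h) =
        16000 / ep * (u + 2 * h) ^ 2 := by
      field_simp
      ring
    have m3 : 20 / (ep / 2) = 40 / ep := by
      field_simp
      norm_num
    rw [m1, m2, m3]
    have m4 := mul_le_mul_of_nonneg_left hP (show 0 ≤ 10 * (u + 2 * h) ^ 4 by positivity)
    have m5 : 10 * (u + 2 * h) ^ 4 * (5 * (1 / (u + 2 * h)) ^ 2 * Q s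
        + 20736 * (Nc C6 s + Nc C8 s)) =
        50 * (u + 2 * h) ^ 2 * Q s + 207360 * (u + 2 * h) ^ 4 * (Nc C6 s + Nc C8 s) := by
      field_simp
      ring
    rw [m5] at m4
    linarith

/-- term `S 4` -/
theorem term4 {t umin : ℝ} (ht0 : 0 < t) (ht1 : 2 * t ≤ 1 / 10) (hu0 : 0 < umin)
    {Bl : Finset (Finset α)} (hL : Lin3 Bl) (A₀ : Finset α) (a : ℝ) : ∃ E : ℝ, 0 ≤ E ∧
    ∀ u h : ℝ, ∀ s : St α, Cnd t umin Bl A₀ u h s →
      (u + 2 * h) ^ a * (S 4 (u + 2 * h) s + h * gen Bl (1 / (u + 2 * h)) (S 4 (u + 2 * h)) s) ≤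
        u ^ a * S 4 u s + h * (1 / (u + 2 * h)) * ((u + 2 * h) ^ a *
          ((-(1 - 6 * t) * S 4 (u + 2 * h) s + 4 * t * Sb (u + 2 * h) s
            + 80 * (u + 2 * h) * S 2 (u + 2 * h) s + 216 * (u + 2 * h) ^ 3 * Q s)
          + 2 * a * S 4 (u + 2 * h) s)) + E * h ^ 2 := by
  obtain ⟨C, hC, hT⟩ := term_pow a
  have hqm : (0 : ℝ) ≤ (A₀.card : ℝ) := by positivity
  obtain ⟨E, hE, H⟩ := tp (dm := 10 * (1 / umin) * (A₀.card : ℝ))
    (em := 0) hC hT hu0 hqm (by positivity) le_rfl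
  refine ⟨E, hE, fun u h s c => ?_⟩
  have hv := c.vpos hu0
  have hrle := c.rle hu0
  have hr0 : 0 ≤ 1 / (u + 2 * h) := by positivity
  have hQ := Q_nonneg s
  have hQm := Q_le c.hB
  have hb := bounds hL (c.hur hu0) (c.r100 hu0) (by linarith) ht1 c.inv
    (dl := 1 / 4) (by norm_num) (by norm_num)
  obtain ⟨b1, b2, b3, b4, b5, b6, b7, b8⟩ := hb
  have hg := gen_S4 hL (c.hur hu0) (c.r100 hu0) (by linarith) ht1 c.inv
  have hts := time_S 4 (by decide) u h s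
  refine H u h (S 4 u s) (S 4 (u + 2 * h) s) (dS 4 (u + 2 * h) s)
    (gen Bl (1 / (u + 2 * h)) (S 4 (u + 2 * h)) s) _
    0 c.hu c.hh c.hh1 c.hu1 (S_nonneg (by decide) _ _)
    (S_nonneg (by decide) _ _) (b2.trans hQm) ?_ (by linarith) le_rfl (by simp) ?_
  · refine b5.trans ?_
    apply mul_le_mul _ hQm hQ (by positivity)
    exact mul_le_mul_of_nonneg_left hrle (by norm_num)
  · refine hg.trans ?_
    apply mul_le_mul_of_nonneg_left _ hr0
    linarith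

/-- term `u V` -/
theorem term5 {t umin : ℝ} (ht0 : 0 < t) (ht1 : 2 * t ≤ 1 / 10) (hu0 : 0 < umin)
    {Bl : Finset (Finset α)} (hL : Lin3 Bl) (A₀ : Finset α) (a : ℝ) : ∃ E : ℝ, 0 ≤ E ∧
    ∀ u h : ℝ, ∀ s : St α, Cnd t umin Bl A₀ u h s →
      (u + 2 * h) ^ a * ((u + 2 * h) * V s + h * ((u + 2 * h) * gen Bl (1 / (u + 2 * h)) V s)) ≤
        u ^ a * (u * V s) + h * (1 / (u + 2 * h)) * ((u + 2 * h) ^ a *
          ((2 - 3 * (1 - 2 * t) + 2 * (u + 2 * h)) * ((u + 2 * h) * V s)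
          + 2 * a * ((u + 2 * h) * V s))) + E * h ^ 2 := by
  obtain ⟨C, hC, hT⟩ := term_pow a
  have hqm : (0 : ℝ) ≤ 3 * (Bl.card : ℝ) := by positivity
  obtain ⟨E, hE, H⟩ := tp (dm := 3 * (Bl.card : ℝ))
    (em := 0) hC hT hu0 hqm (by positivity) le_rfl
  refine ⟨E, hE, fun u h s c => ?_⟩
  have hv := c.vpos hu0
  have hr0 : 0 ≤ 1 / (u + 2 * h) := by positivity
  have hV := V_nonneg s
  have hb := bounds hL (c.hur hu0) (c.r100 hu0) (by linarith) ht1 c.inv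
    (dl := 1 / 4) (by norm_num) (by norm_num)
  obtain ⟨b1, b2, b3, b4, b5, b6, b7, b8⟩ := hb
  have hg := gen_V hL (c.hur hu0) (by positivity : 0 < 1 / (u + 2 * h)) c.inv
  have hupos : 0 < u := by have := c.hu; linarith
  refine H u h (u * V s) ((u + 2 * h) * V s) (V s)
    ((u + 2 * h) * gen Bl (1 / (u + 2 * h)) V s) _
    0 c.hu c.hh c.hh1 c.hu1 (by positivity) (by positivity) ?_ ?_ (by linarith) le_rfl
    (by simp) ?_
  · calc (u + 2 * h) * V s ≤ 1 * V s := by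
          apply mul_le_mul_of_nonneg_right _ hV
          have := c.hu1; linarith
      _ ≤ _ := by rw [one_mul]; exact b7
  · rw [abs_of_nonneg hV]; exact b7
  · have m1 := mul_le_mul_of_nonneg_left hg hv.le
    have m2 : (u + 2 * h) * (-(3 * (1 - 2 * t) * (1 / (u + 2 * h)) - 2) * V s) =
        -(3 * (1 - 2 * t)) * V s + 2 * ((u + 2 * h) * V s) := by
      field_simp
      ring
    have m3 : 1 / (u + 2 * h) * ((2 - 3 * (1 - 2 * t) + 2 * (u + 2 * h))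
        * ((u + 2 * h) * V s)) = (2 - 3 * (1 - 2 * t) + 2 * (u + 2 * h)) * V s := by
      field_simp
    rw [m3]
    rw [m2] at m1
    linarith

/-- term `Ph` -/
theorem term6 {t dl umin : ℝ} (ht0 : 0 < t) (ht1 : 2 * t ≤ 1 / 10) (hdl : 0 < dl)
    (hdl2 : dl ≤ 1 / 2) (ht4 : 4 * (2 * t) ≤ dl) (hu0 : 0 < umin)
    {Bl : Finset (Finset α)} (hL : Lin3 Bl) (A₀ : Finset α) (a : ℝ) : ∃ E : ℝ, 0 ≤ E ∧
    ∀ u h : ℝ, ∀ s : St α, Cnd t umin Bl A₀ u h s →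
      (u + 2 * h) ^ a * (Ph Bl dl (u + 2 * h) s
        + h * gen Bl (1 / (u + 2 * h)) (Ph Bl dl (u + 2 * h)) s) ≤
        u ^ a * Ph Bl dl u s + h * (1 / (u + 2 * h)) * ((u + 2 * h) ^ a *
          (((1 + dl + 16 * t / dl + 7 * (u + 2 * h) / dl)
              * Ph Bl dl (u + 2 * h) s + 2 * ((u + 2 * h) * V s))
          + 2 * a * Ph Bl dl (u + 2 * h) s)) + E * h ^ 2 := by
  obtain ⟨C, hC, hT⟩ := term_pow a
  obtain ⟨E, hE, H⟩ := tp
    (Fm := (A₀.card : ℝ) * (1 + (1 / (2 * dl)) * (Bl.card : ℝ) ^ 2) + 3 * (A₀.card : ℝ))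
    (dm := (A₀.card : ℝ) * (Bl.card : ℝ) ^ 2 * 2 / dl)
    (em := 0) hC hT hu0 (by positivity) (by positivity) le_rfl
  refine ⟨E, hE, fun u h s c => ?_⟩
  have hv := c.vpos hu0
  have hr0 : 0 ≤ 1 / (u + 2 * h) := by positivity
  have hu1 := c.hu1
  have hb := bounds hL (c.hur hu0) (c.r100 hu0) (by linarith) ht1 c.inv
    (dl := dl) hdl hdl2
  obtain ⟨b1, b2, b3, b4, b5, b6, b7, b8⟩ := hb
  have hg := gen_Ph hL (c.hur hu0) (c.r100 hu0) (by linarith) c.inv hdl hdl2 ht4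
  have hts := time_Ph Bl hdl u h s
  refine H u h (Ph Bl dl u s) (Ph Bl dl (u + 2 * h) s)
    (dPh Bl dl (u + 2 * h) s)
    (gen Bl (1 / (u + 2 * h)) (Ph Bl dl (u + 2 * h)) s) _
    0 c.hu c.hh c.hh1 c.hu1 (Ph_nonneg _ hdl _ _) (Ph_nonneg _ hdl _ _)
    (Ph_le hdl hv.le (by linarith) c.hA c.hB) ?_ (by linarith) le_rfl (by simp) ?_
  · refine b8.trans ?_
    apply div_le_div_of_nonneg_right _ hdl.le
    have hc1 : (s.A.card : ℝ) ≤ (A₀.card : ℝ) := by exact_mod_cast card_le_card c.hA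
    have hc2 : 0 ≤ (Bl.card : ℝ) ^ 2 := by positivity
    apply mul_le_mul (mul_le_mul_of_nonneg_right hc1 hc2) (by linarith) (by linarith)
      (by positivity)
  · refine hg.trans (le_of_eq ?_)
    have e : 8 * (2 * t) / dl = 16 * t / dl := by ring
    rw [e]

/-- term `Nc` -/
theorem term7 {t umin : ℝ} (ht1 : 2 * t ≤ 1 / 10) (hu0 : 0 < umin)
    {Bl : Finset (Finset α)} (hL : Lin3 Bl) (A₀ : Finset α) (C6 : Finset (Finset (Finset α)))
    (m : ℕ) (hC6 : ∀ c ∈ C6, c.card ≤ 4 ∧ m ≤ (c.biUnion id).card) (a : ℝ) : ∃ E : ℝ, 0 ≤ E ∧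
    ∀ u h : ℝ, ∀ s : St α, Cnd t umin Bl A₀ u h s →
      (u + 2 * h) ^ a * (Nc C6 s + h * gen Bl (1 / (u + 2 * h)) (Nc C6) s) ≤
        u ^ a * Nc C6 s + h * (1 / (u + 2 * h)) * ((u + 2 * h) ^ a *
          (-((m : ℝ) * (1 - 2 * t) - 100 * (u + 2 * h)) * Nc C6 s
          + 2 * a * Nc C6 s)) + E * h ^ 2 := by
  obtain ⟨C, hC, hT⟩ := term_pow a
  obtain ⟨E, hE, H⟩ := tp (Fm := (C6.card : ℝ)) (dm := 0) (em := 0) hC hT hu0 (by positivity)
    le_rfl le_rfl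
  refine ⟨E, hE, fun u h s c => ?_⟩
  have hv := c.vpos hu0
  have hr0 : 0 ≤ 1 / (u + 2 * h) := by positivity
  have hg := ng hL c.inv (c.hur hu0) (by positivity : 0 < 1 / (u + 2 * h)) (by linarith) C6 m hC6
  refine H u h (Nc C6 s) (Nc C6 s) 0
    (gen Bl (1 / (u + 2 * h)) (Nc C6) s) _
    0 c.hu c.hh c.hh1 c.hu1 (Nc_nonneg _ _) (Nc_nonneg _ _)
    (Nc_le _ _) (by simp) (by simp) le_rfl (by simp) ?_
  rw [mul_zero, add_zero]
  refine hg.trans (le_of_eq ?_)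
  field_simp

end CS

end

end Vale.Agent.P046.NL
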