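import Vale.Agent.P046.NL.COREST2a
import Vale.Agent.P046.NL.Defs4

/-! P046, row COREST2 (part b): the second stage, with the scalar inequality as a hypothesis -/

namespace Vale.Agent.P046.NL

open Finset Vale.Agent.P046

noncomputable section

variable {α : Type} [DecidableEq α]

namespace CS

open MC

/-- the conclusion of `scalar_st2` -/
def ScalarSt2 (ep t dl : ℝ) : Prop :=
    ∃ u1 : ℝ, 0 < u1 ∧ u1 ≤ 1 / 100 ∧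
    ∀ uK u q S2 S4 b U N6 N8 P X1 : ℝ, 0 < u → u ≤ uK → uK ≤ u1 → 0 ≤ q → 0 ≤ S2 → 0 ≤ S4 →
    0 ≤ b → 0 ≤ U → 0 ≤ N6 → 0 ≤ N8 → 0 ≤ P → (∀ mu : ℝ, 0 < mu → 2 * |X1| ≤ mu * q + S2 / mu) →
    4 * 10 ^ 8 / ep * (uK ^ (1 - ep : ℝ) * u ^ (1 / 2 : ℝ) * (-(q + X1) + q)
        - uK ^ (1 - ep : ℝ) * u ^ (7 / 10 : ℝ) * (-(q + X1) + 7 / 5 * q)
        - 1 / 2 * uK ^ (1 / 10 - ep : ℝ) * u ^ (7 / 5 : ℝ) * (-(q + X1) + 14 / 5 * q))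
    + 4 * 10 ^ 6 / ep * uK ^ (1 / 10 - ep : ℝ) * u ^ (2 / 5 : ℝ) *
        (-(1 - 2 * t - 1 / 10) * S2 + 10 * b + 16 * u * (S2 + q) + 4 / 5 * S2)
    + 4 * 10 ^ 8 / ep * uK ^ (1 - ep : ℝ) * u ^ (1 / 10 : ℝ) *
        (-(1 - 2 * t - 1 / 10) * S2 + 10 * b + 16 * u * (S2 + q) + 1 / 5 * S2)
    + u ^ (-(1 / 2 + ep) : ℝ) *
      (((1 + 2 * t + ep / 2) * b + 40 / ep * (S4 + (2 * t) ^ 4 * U)
          + ep / 10 * b + 16000 / ep * u ^ 2 * q + 200 * u * (S2 + U)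
          + (50 * u ^ 2 * q + 207360 * u ^ 4 * (N6 + N8)) - (1 + 2 * ep) * b)
        + 1000 / ep * (-(1 - 6 * t) * S4 + 4 * t * b + 80 * u * S2 + 216 * u ^ 3 * q
          - (1 + 2 * ep) * S4)
        + 400 * t ^ 4 / ep * ((2 - 3 * (1 - 2 * t) + 2 * u) * U - (1 + 2 * ep) * U))
    + u ^ (-(1 / 2 + ep / 2) : ℝ) *
      ((1 + dl + 16 * t / dl + 7 * u / dl) * P + 2 * U - (1 + ep) * P)
    + u ^ (57 / 20 : ℝ) * (-(6 * (1 - 2 * t) - 100 * u) * N6 + 57 / 10 * N6)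
    + 10 ^ 6 * u ^ (7 / 2 - ep : ℝ) * (-(8 * (1 - 2 * t) - 100 * u) * N8 + (7 - 2 * ep) * N8)
      ≤ 0

/-- the generator of the functional -/
theorem gen_PsiS (ep t dl uK : ℝ) (Bl : Finset (Finset α)) (C6 C8 : Finset (Finset (Finset α)))
    (v r : ℝ) (s : St α) :
    gen Bl r (fun s' => PsiS ep t dl uK Bl C6 C8 v s') s =
      4 * 10 ^ 8 / ep * (uK ^ (1 - ep : ℝ) * v ^ (1 / 2 : ℝ) - uK ^ (1 - ep : ℝ) * v ^ (7 / 10 : ℝ)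
      - 1 / 2 * uK ^ (1 / 10 - ep : ℝ) * v ^ (7 / 5 : ℝ)) * gen Bl r Q s
    + (4 * 10 ^ 6 / ep * uK ^ (1 / 10 - ep : ℝ) * v ^ (2 / 5 : ℝ)
      + 4 * 10 ^ 8 / ep * uK ^ (1 - ep : ℝ) * v ^ (1 / 10 : ℝ)) * gen Bl r (S 2 v) s
    + v ^ (-(1 / 2 + ep) : ℝ) * (gen Bl r (Sb v) s + 1000 / ep * gen Bl r (S 4 v) s
      + 400 * t ^ 4 / ep * (v * gen Bl r V s))
    + v ^ (-(1 / 2 + ep / 2) : ℝ) * gen Bl r (Ph Bl dl v) s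
    + v ^ (57 / 20 : ℝ) * gen Bl r (Nc C6) s + 10 ^ 6 * v ^ (7 / 2 - ep : ℝ) * gen Bl r (Nc C8) s := by
  have e : (fun s' => PsiS ep t dl uK Bl C6 C8 v s') = fun s' : St α =>
      ((((((4 * 10 ^ 8 / ep * (uK ^ (1 - ep : ℝ) * v ^ (1 / 2 : ℝ)
          - uK ^ (1 - ep : ℝ) * v ^ (7 / 10 : ℝ)
          - 1 / 2 * uK ^ (1 / 10 - ep : ℝ) * v ^ (7 / 5 : ℝ))) * Q s'
      + (4 * 10 ^ 6 / ep * uK ^ (1 / 10 - ep : ℝ) * v ^ (2 / 5 : ℝ)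
        + 4 * 10 ^ 8 / ep * uK ^ (1 - ep : ℝ) * v ^ (1 / 10 : ℝ)) * S 2 v s')
      + v ^ (-(1 / 2 + ep) : ℝ) * Sb v s')
      + (v ^ (-(1 / 2 + ep) : ℝ) * (1000 / ep)) * S 4 v s')
      + (v ^ (-(1 / 2 + ep) : ℝ) * (400 * t ^ 4 / ep) * v) * V s')
      + v ^ (-(1 / 2 + ep / 2) : ℝ) * Ph Bl dl v s')
      + v ^ (57 / 20 : ℝ) * Nc C6 s'
      + (10 ^ 6 * v ^ (7 / 2 - ep : ℝ)) * Nc C8 s' := by
    funext s'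
    unfold PsiS
    ring
  rw [e]
  simp only [g_add, g_smul]
  ring

end CS

open CS MC

/-- [COREST2], with the scalar inequality as a hypothesis -/
theorem st2_core_of (ep t dl : ℝ) (hSC : ScalarSt2 ep t dl) (h0 : 0 < ep) (h1 : ep ≤ 1 / 100)
    (ht0 : 0 < t) (ht : t ≤ ep ^ 2 / 5000) (hd1 : ep / 8 ≤ dl) (hd2 : dl ≤ ep / 2) :
    ∃ u1 : ℝ, 0 < u1 ∧ u1 ≤ 1 / 100 ∧
    ∀ (α : Type) [DecidableEq α] (Bl : Finset (Finset α)) (C6 C8 : Finset (Finset (Finset α))),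
    Sys Bl C6 C8 → ∀ (umin uK : ℝ) (A₀ : Finset α), 0 < umin → uK ≤ u1 →
    ∃ E h1 : ℝ, 0 ≤ E ∧ 0 < h1 ∧
    ∀ h u : ℝ, 0 < h → h ≤ h1 → umin ≤ u → u + 2 * h ≤ uK → ∀ s : St α, s.B ⊆ A₀ → s.A ⊆ A₀ →
      Inv Bl (2 * t) (u + 2 * h) s →
      PsiS ep t dl uK Bl C6 C8 (u + 2 * h) s
        + h * gen Bl (1 / (u + 2 * h)) (fun s' => PsiS ep t dl uK Bl C6 C8 (u + 2 * h) s') s
        ≤ PsiS ep t dl uK Bl C6 C8 u s + E * h ^ 2 := by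
  obtain ⟨u1, hu1p, hu1, hsc⟩ := hSC
  refine ⟨u1, hu1p, hu1, ?_⟩
  intro α _ Bl C6 C8 hS umin uK A₀ hu0 huK
  rcases le_or_gt uK 0 with hK0 | hK0
  · refine ⟨0, 1, le_rfl, one_pos, ?_⟩
    intro h u hh _ hum huk
    linarith
  have hep2 : ep ^ 2 ≤ ep * (1 / 100) := by
    rw [sq]; exact mul_le_mul_of_nonneg_left h1 h0.le
  have ht1 : 2 * t ≤ 1 / 10 := by linarith
  have hdl : 0 < dl := by linarith
  have hdl2 : dl ≤ 1 / 2 := by linarith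
  have ht4 : 4 * (2 * t) ≤ dl := by linarith
  obtain ⟨E1, hE1, H1⟩ := term1 (t := t) hu0 hS.lin A₀ (1 / 2 : ℝ)
  obtain ⟨E1', hE1', H1'⟩ := term1 (t := t) hu0 hS.lin A₀ (7 / 10 : ℝ)
  obtain ⟨E1'', hE1'', H1''⟩ := term1 (t := t) hu0 hS.lin A₀ (7 / 5 : ℝ)
  obtain ⟨E2, hE2, H2⟩ := term2 ht0 ht1 hu0 hS.lin A₀ (2 / 5 : ℝ)
  obtain ⟨E2', hE2', H2'⟩ := term2 ht0 ht1 hu0 hS.lin A₀ (1 / 10 : ℝ)
  obtain ⟨E3, hE3, H3⟩ := term3 h0 ht0 ht1 hu0 hS A₀ (-(1 / 2 + ep) : ℝ)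
  obtain ⟨E4, hE4, H4⟩ := term4 ht0 ht1 hu0 hS.lin A₀ (-(1 / 2 + ep) : ℝ)
  obtain ⟨E5, hE5, H5⟩ := term5 ht0 ht1 hu0 hS.lin A₀ (-(1 / 2 + ep) : ℝ)
  obtain ⟨E6, hE6, H6⟩ := term6 ht0 ht1 hdl hdl2 ht4 hu0 hS.lin A₀ (-(1 / 2 + ep / 2) : ℝ)
  obtain ⟨E7, hE7, H7⟩ := term7 ht1 hu0 hS.lin A₀ C6 6
    (fun c hc => ⟨(hS.h6 c hc).2.1, (hS.h6 c hc).2.2⟩) (57 / 20 : ℝ)
  obtain ⟨E8, hE8, H8⟩ := term7 ht1 hu0 hS.lin A₀ C8 8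
    (fun c hc => ⟨(hS.h8 c hc).2.1, (hS.h8 c hc).2.2⟩) (7 / 2 - ep : ℝ)
  obtain ⟨K1, hK1⟩ : ∃ x : ℝ, x = uK ^ (1 - ep : ℝ) := ⟨_, rfl⟩
  obtain ⟨K2, hK2⟩ : ∃ x : ℝ, x = uK ^ (1 / 10 - ep : ℝ) := ⟨_, rfl⟩
  have hK1p : 0 ≤ K1 := by rw [hK1]; exact Real.rpow_nonneg hK0.le _
  have hK2p : 0 ≤ K2 := by rw [hK2]; exact Real.rpow_nonneg hK0.le _
  refine ⟨4 * 10 ^ 8 / ep * K1 * E1 + 4 * 10 ^ 8 / ep * K1 * E1'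
    + 4 * 10 ^ 8 / ep * (1 / 2 * K2) * E1'' + 4 * 10 ^ 6 / ep * K2 * E2
    + 4 * 10 ^ 8 / ep * K1 * E2' + E3 + 1000 / ep * E4 + 400 * t ^ 4 / ep * E5 + E6 + E7
    + 10 ^ 6 * E8, umin / 8, by positivity, by positivity, ?_⟩
  intro h u hh hhm hum hu2 s hB hA hI
  have c : CS.Cnd t umin Bl A₀ u h s := ⟨hh, hhm, hum, by linarith, hB, hA, hI⟩
  have hv := c.vpos hu0
  have k1 := (abs_le.mp (H1 u h s c)).2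
  have k1' := (abs_le.mp (H1' u h s c)).1
  have k1'' := (abs_le.mp (H1'' u h s c)).1
  have k2 := H2 u h s c
  have k2' := H2' u h s c
  have k3 := H3 u h s c
  have k4 := H4 u h s c
  have k5 := H5 u h s c
  have k6 := H6 u h s c
  have k7 := H7 u h s c
  have k8 := H8 u h s c
  have ks := hsc uK (u + 2 * h) (Q s) (S 2 (u + 2 * h) s) (S 4 (u + 2 * h) s)
    (Sb (u + 2 * h) s)
    ((u + 2 * h) * V s) (Nc C6 s) (Nc C8 s) (Ph Bl dl (u + 2 * h) s)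
    (∑ e ∈ s.B, xv (u + 2 * h) s e) hv hu2 huK (Q_nonneg s) (S_nonneg (by decide) _ _)
    (S_nonneg (by decide) _ _) (Sb_nonneg _ _) (mul_nonneg hv.le (V_nonneg s)) (Nc_nonneg _ _)
    (Nc_nonneg _ _) (Ph_nonneg _ hdl _ _) (fun mu hmu => X1_bound _ s mu hmu)
  rw [gen_PsiS]
  have hr0 : 0 ≤ h * (1 / (u + 2 * h)) := by positivity
  have ks' := mul_nonpos_of_nonneg_of_nonpos hr0 ks
  have c1 : 0 ≤ 4 * 10 ^ 8 / ep * K1 := by positivity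
  have c2 : 0 ≤ 4 * 10 ^ 8 / ep * (1 / 2 * K2) := by positivity
  have c3 : 0 ≤ 4 * 10 ^ 6 / ep * K2 := by positivity
  have m1 := mul_le_mul_of_nonneg_left k1 c1
  have m1' := mul_le_mul_of_nonneg_left k1' c1
  have m1'' := mul_le_mul_of_nonneg_left k1'' c2
  have m2 := mul_le_mul_of_nonneg_left k2 c3
  have m2' := mul_le_mul_of_nonneg_left k2' c1
  have k4' := mul_le_mul_of_nonneg_left k4 (show 0 ≤ 1000 / ep by positivity)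
  have k5' := mul_le_mul_of_nonneg_left k5 (show 0 ≤ 400 * t ^ 4 / ep by positivity)
  have k8' := mul_le_mul_of_nonneg_left k8 (show (0 : ℝ) ≤ 10 ^ 6 by positivity)
  unfold PsiS
  push_cast at k7 k8' ⊢
  rw [← hK1, ← hK2] at ks' ⊢
  clear hsc H1 H1' H1'' H2 H2' H3 H4 H5 H6 H7 H8 k1 k1' k1'' k2 k2' k4 k5 k8
  linarith

end

end Vale.Agent.P046.NL
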