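import Vale.Agent.P046.NL.MidStrongOf
import Vale.Agent.P046.NL.SBF

/-! P046 no-log, rows MIDCORE and MIDSTRONG. -/

namespace Vale.Agent.P046.NL

open Finset Vale.Agent.P046

noncomputable section

theorem MC.genSb_holds : MC.GenSb := fun _ _ _ _ _ _ _ hL hur hr h0 h1 hI lam mu hl hmu =>
  gen_Sb hL hur hr h0 h1 hI lam mu hl hmu

/-- [MIDCORE] time step and generator, before the detachments -/
theorem mid_core (ep : ℝ) (h0 : 0 < ep) (h1 : ep ≤ 1 / 100) : ∃ u1 : ℝ, 0 < u1 ∧ u1 ≤ 1 / 100 ∧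
    ∀ (α : Type) [DecidableEq α] (Bl : Finset (Finset α)) (C6 C8 : Finset (Finset (Finset α))),
    Sys Bl C6 C8 → ∀ (umin : ℝ) (A₀ : Finset α), 0 < umin → ∃ E h1 : ℝ, 0 ≤ E ∧ 0 < h1 ∧
    ∀ h u : ℝ, 0 < h → h ≤ h1 → umin ≤ u → u + 2 * h ≤ u1 → ∀ s : St α, s.B ⊆ A₀ → s.A ⊆ A₀ →
      Inv Bl (2 * t0 ep) (u + 2 * h) s →
      PsiM ep Bl C6 C8 (u + 2 * h) s
        + h * gen Bl (1 / (u + 2 * h)) (fun s' => PsiM ep Bl C6 C8 (u + 2 * h) s') s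
        ≤ PsiM ep Bl C6 C8 u s + E * h ^ 2 :=
  mid_core_of MC.genSb_holds (fun a => term_Q a) ep h0 h1 (scalar_mid ep h0 h1)

/-- [MIDSTRONG] strong form of `mid_core` -/
theorem mid_core_strong (ep : ℝ) (h0 : 0 < ep) (h1 : ep ≤ 1 / 100) :
    ∃ u1 : ℝ, 0 < u1 ∧ u1 ≤ 1 / 100 ∧
    ∀ (α : Type) [DecidableEq α] (Bl : Finset (Finset α)) (C6 C8 : Finset (Finset (Finset α))),
    Sys Bl C6 C8 → ∀ (umin : ℝ) (A₀ : Finset α), 0 < umin → ∃ E h1 : ℝ, 0 ≤ E ∧ 0 < h1 ∧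
    ∀ h u : ℝ, 0 < h → h ≤ h1 → umin ≤ u → u + 2 * h ≤ u1 → ∀ s : St α, s.B ⊆ A₀ → s.A ⊆ A₀ →
      Inv Bl (2 * t0 ep) (u + 2 * h) s →
      PsiM ep Bl C6 C8 (u + 2 * h) s
        + h * gen Bl (1 / (u + 2 * h)) (fun s' => PsiM ep Bl C6 C8 (u + 2 * h) s') s
        ≤ PsiM ep Bl C6 C8 u s
          - h / (u + 2 * h) * (ep / 8 * (u + 2 * h) ^ (1 / 2 + ep / 4 : ℝ) * Q s
            + S 2 (u + 2 * h) s / 4) + E * h ^ 2 :=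
  mid_core_strong_of MC.genSb_holds ep h0 h1

end

end Vale.Agent.P046.NL
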