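import Vale.Agent.P046.NL.Defs3
import Vale.Agent.P046.NL.RED

/-! P046: the one-variable function `sqrt (1 + y ^ 2)` and one step of the real process. -/

namespace Vale.Agent.P046.NL

open Finset Vale.Agent.P046

noncomputable section

namespace SqA

/-- `sqrt (1 + y ^ 2)` -/
def ph (y : ℝ) : ℝ := Real.sqrt (1 + y ^ 2)

theorem ph_one_le (y : ℝ) : 1 ≤ ph y := by
  unfold ph
  rw [Real.one_le_sqrt]
  nlinarith [sq_nonneg y]

theorem ph_pos (y : ℝ) : 0 < ph y := lt_of_lt_of_le one_pos (ph_one_le y)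

theorem ph_sq (y : ℝ) : ph y ^ 2 = 1 + y ^ 2 := by
  unfold ph
  rw [Real.sq_sqrt]
  nlinarith [sq_nonneg y]

/-- the derivative is bounded by one -/
theorem ph_deriv_le (y : ℝ) : |y / ph y| ≤ 1 := by
  rw [abs_div, abs_of_pos (ph_pos y), div_le_one (ph_pos y)]
  have h := ph_sq y
  have h1 := ph_pos y
  exact abs_le_of_sq_le_sq (by nlinarith) h1.le

/-- convexity -/
theorem ph_convex (y z : ℝ) : ph y - ph z ≤ y / ph y * (y - z) := by
  have h1 := ph_pos y
  have h2 := ph_pos z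
  have h3 := ph_sq y
  have h4 := ph_sq z
  have h5 : 1 + y * z ≤ ph y * ph z := by
    refine le_of_sq_le_sq ?_ (by positivity)
    rw [mul_pow, h3, h4]
    nlinarith [sq_nonneg (y - z)]
  rw [div_mul_eq_mul_div, le_div_iff₀ h1]
  nlinarith

/-- second order upper bound -/
theorem ph_taylor (y z : ℝ) : ph z ≤ ph y + y / ph y * (z - y) + (z - y) ^ 2 / 2 := by
  have h1 := ph_pos y
  have h0 := ph_one_le y
  have h3 := ph_sq y
  have h4 := ph_sq z
  have h6 : ph z * ph y ≤ 1 + y * z + (z - y) ^ 2 / 2 := by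
    nlinarith [sq_nonneg (ph z - ph y)]
  have h7 : ph z ≤ (1 + y * z + (z - y) ^ 2 / 2) / ph y := by
    rw [le_div_iff₀ h1]
    exact h6
  have h8 : (1 + y * z + (z - y) ^ 2 / 2) / ph y
      = ph y + y / ph y * (z - y) + (z - y) ^ 2 / 2 / ph y := by
    field_simp
    nlinarith
  have h9 : (z - y) ^ 2 / 2 / ph y ≤ (z - y) ^ 2 / 2 := div_le_self (by positivity) h0
  linarith

/-- handshake: `3 N u = |A| + sum of xv` -/
theorem handshake {α : Type} [DecidableEq α] {Bl : Finset (Finset α)} (hL : Lin3 Bl)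
    (A : Finset α) (u : ℝ) :
    3 * ((bl Bl A).card : ℝ) * u = (A.card : ℝ) + ∑ e ∈ A, xv u (toSt Bl A) e := by
  have h1 : ∀ e ∈ A, xv u (toSt Bl A) e = u * dW (bl Bl A) e - 1 := by
    intro e he
    unfold xv
    rw [if_pos (show e ∈ (toSt Bl A).B from he)]
    rfl
  rw [sum_congr rfl h1, sum_sub_distrib, ← mul_sum]
  have h2 : ∑ e ∈ A, dW (bl Bl A) e = 3 * ((bl Bl A).card : ℝ) := by
    unfold dW
    have h3 : ∀ e : α, (((bl Bl A).filter (fun T => e ∈ T)).card : ℝ)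
        = ∑ T ∈ bl Bl A, (if e ∈ T then (1 : ℝ) else 0) := by
      intro e
      rw [Finset.sum_boole]
    simp only [h3]
    rw [sum_comm]
    have h4 : ∀ T ∈ bl Bl A, (∑ e ∈ A, (if e ∈ T then (1 : ℝ) else 0)) = 3 := by
      intro T hT
      rw [Finset.sum_boole]
      have h5 : T ⊆ A := (RED.mem_bl'.1 hT).2
      have h6 : A.filter (fun e => e ∈ T) = T := by
        ext e
        simp only [mem_filter]
        exact ⟨fun h => h.2, fun h => ⟨h5 h, h⟩⟩
      rw [h6, hL.card3 T (RED.mem_bl'.1 hT).1]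
      norm_num
    rw [sum_congr rfl h4, sum_const, nsmul_eq_mul]
    ring
  rw [h2]
  simp
  ring

/-- one step for `sqrt (1 + (u ^ (1/2) |A| - c) ^ 2)` -/
theorem ph_step {α : Type} [DecidableEq α] {Bl : Finset (Finset α)} (hL : Lin3 Bl)
    (A : Finset α) (c u h : ℝ) (hu : 0 < u) (hh : 0 < h) :
    ph ((u + 2 * h) ^ (1 / 2 : ℝ) * (A.card : ℝ) - c)
      + h * ∑ T ∈ bl Bl A, (ph ((u + 2 * h) ^ (1 / 2 : ℝ) * ((A \ T).card : ℝ) - c)
        - ph ((u + 2 * h) ^ (1 / 2 : ℝ) * (A.card : ℝ) - c))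
      ≤ ph (u ^ (1 / 2 : ℝ) * (A.card : ℝ) - c)
        + h * (|∑ e ∈ A, xv (u + 2 * h) (toSt Bl A) e| / (u + 2 * h) ^ (1 / 2 : ℝ)
          + 3 / 2 * ((A.card : ℝ) + ∑ e ∈ A, xv (u + 2 * h) (toSt Bl A) e))
        + 2 * h ^ 2 * (A.card : ℝ) / ((u + 2 * h) ^ (1 / 2 : ℝ)) ^ 3 := by
  have hu' : 0 < u + 2 * h := by linarith
  set u' : ℝ := u + 2 * h with hu'd
  set s : ℝ := u ^ (1 / 2 : ℝ) with hs
  set t : ℝ := u' ^ (1 / 2 : ℝ) with ht
  have hs0 : 0 < s := Real.rpow_pos_of_pos hu _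
  have ht0 : 0 < t := Real.rpow_pos_of_pos hu' _
  have hs2 : s ^ 2 = u := by
    rw [hs, ← Real.rpow_natCast, ← Real.rpow_mul hu.le]
    norm_num
  have ht2 : t ^ 2 = u' := by
    rw [ht, ← Real.rpow_natCast, ← Real.rpow_mul hu'.le]
    norm_num
  have hst : s ≤ t := Real.rpow_le_rpow hu.le (by linarith) (by norm_num)
  set q : ℝ := (A.card : ℝ) with hq
  have hq0 : 0 ≤ q := Nat.cast_nonneg _
  set X : ℝ := ∑ e ∈ A, xv u' (toSt Bl A) e with hX
  set N : ℝ := ((bl Bl A).card : ℝ) with hN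
  have hN0 : 0 ≤ N := Nat.cast_nonneg _
  have hhs : 3 * N * u' = q + X := handshake hL A u'
  set y : ℝ := t * q - c with hy
  set d : ℝ := y / ph y with hd
  have hd1 : |d| ≤ 1 := ph_deriv_le y
  -- the events
  have h1 : ∀ T ∈ bl Bl A, ph (t * ((A \ T).card : ℝ) - c) - ph y ≤ -3 * t * d + 9 / 2 * t ^ 2 := by
    intro T hT
    have h5 : T ⊆ A := (RED.mem_bl'.1 hT).2
    have h6 : ((A \ T).card : ℝ) = q - 3 := by
      rw [card_sdiff_of_subset h5, Nat.cast_sub (card_le_card h5),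
        hL.card3 T (RED.mem_bl'.1 hT).1, hq]
      norm_num
    have h7 := ph_taylor y (t * ((A \ T).card : ℝ) - c)
    have h8 : t * ((A \ T).card : ℝ) - c - y = -3 * t := by
      rw [h6, hy]
      ring
    rw [h8] at h7
    have h9 : y / ph y * (-3 * t) = -3 * t * d := by rw [hd]; ring
    have h10 : (-3 * t) ^ 2 / 2 = 9 / 2 * t ^ 2 := by ring
    rw [h9, h10] at h7
    linarith
  have h2 : ∑ T ∈ bl Bl A, (ph (t * ((A \ T).card : ℝ) - c) - ph y)
      ≤ N * (-3 * t * d + 9 / 2 * t ^ 2) := by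
    calc _ ≤ ∑ T ∈ bl Bl A, (-3 * t * d + 9 / 2 * t ^ 2) := sum_le_sum h1
      _ = _ := by rw [sum_const, nsmul_eq_mul]
  -- the time step
  have h3 : ph y - ph (s * q - c) ≤ d * ((t - s) * q) := by
    have := ph_convex y (s * q - c)
    have h4 : y - (s * q - c) = (t - s) * q := by rw [hy]; ring
    rw [h4] at this
    exact this
  -- `t - s = h / t + theta`
  have h5 : (t - s) * (t + s) = 2 * h := by nlinarith
  have hts : 0 < t + s := by linarith
  have h6 : t - s = h / t + 2 * h ^ 2 / (t * (t + s) ^ 2) := by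
    have e1 : t - s = 2 * h / (t + s) := by
      rw [eq_div_iff hts.ne']
      exact h5
    have e2 : h = (t - s) * (t + s) / 2 := by linarith
    rw [e2]
    field_simp
    ring
  have h7 : 2 * h ^ 2 / (t * (t + s) ^ 2) ≤ 2 * h ^ 2 / t ^ 3 := by
    apply div_le_div_of_nonneg_left (by positivity) (by positivity)
    nlinarith [mul_pos ht0 hs0, mul_pos ht0 ht0, mul_pos (mul_pos ht0 ht0) hs0,
      mul_pos (mul_pos ht0 hs0) hs0]
  have h7' : 0 ≤ 2 * h ^ 2 / (t * (t + s) ^ 2) := by positivity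
  have h8 : d * ((t - s) * q) ≤ d * (h / t * q) + 2 * h ^ 2 / t ^ 3 * q := by
    rw [h6]
    have e1 : d * ((h / t + 2 * h ^ 2 / (t * (t + s) ^ 2)) * q)
        = d * (h / t * q) + d * (2 * h ^ 2 / (t * (t + s) ^ 2) * q) := by ring
    rw [e1]
    have e2 : d * (2 * h ^ 2 / (t * (t + s) ^ 2) * q)
        ≤ 1 * (2 * h ^ 2 / (t * (t + s) ^ 2) * q) :=
      mul_le_mul_of_nonneg_right (le_trans (le_abs_self d) hd1) (mul_nonneg h7' hq0)
    have e3 := mul_le_mul_of_nonneg_right h7 hq0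
    linarith
  have h9 : h * (N * (-3 * t * d + 9 / 2 * t ^ 2))
      = h * (-(q + X) / t * d + 3 / 2 * (q + X)) := by
    rw [← hhs, ← ht2]
    field_simp
    ring
  have h10 : -(X / t * d) ≤ |X| / t := by
    calc -(X / t * d) ≤ |X / t * d| := neg_le_abs _
      _ = |X| / t * |d| := by rw [abs_mul, abs_div, abs_of_pos ht0]
      _ ≤ |X| / t * 1 := mul_le_mul_of_nonneg_left hd1 (by positivity)
      _ = |X| / t := mul_one _
  have h11 := mul_le_mul_of_nonneg_left h2 hh.le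
  have h12 := mul_le_mul_of_nonneg_left h10 hh.le
  rw [h9] at h11
  have e4 : h * (-(q + X) / t * d + 3 / 2 * (q + X))
      = h * (-(X / t * d)) - d * (h / t * q) + h * (3 / 2 * (q + X)) := by
    field_simp
    ring
  rw [e4] at h11
  have e5 : 2 * h ^ 2 * q / t ^ 3 = 2 * h ^ 2 / t ^ 3 * q := by ring
  rw [e5]
  have e6 : h * (|X| / t + 3 / 2 * (q + X)) = h * (|X| / t) + h * (3 / 2 * (q + X)) := by ring
  rw [e6]
  linarith

end SqA

end

end Vale.Agent.P046.NL
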