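import Vale.Agent.P046.NL.Defs5
import Vale.Agent.P046.NL.SqrtAux
import Vale.Agent.P046.NL.EARLYTHM

/-! P046, row DECORE: concentration of the number of edges in the early phase. -/

namespace Vale.Agent.P046.NL

open Finset Vale.Agent.P046

noncomputable section

namespace DE

theorem ev_pow (K a b : ℝ) (hab : a < b) : ∃ n0 : ℕ, ∀ n : ℕ, n0 ≤ n →
    K * (n : ℝ) ^ a ≤ (n : ℝ) ^ b := by
  have t2 : Filter.Tendsto (fun n : ℕ => (n : ℝ) ^ (b - a : ℝ)) Filter.atTop Filter.atTop :=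
    (tendsto_rpow_atTop (y := b - a) (by linarith)).comp tendsto_natCast_atTop_atTop
  obtain ⟨n0, hn0⟩ := Filter.eventually_atTop.mp
    ((t2.eventually_ge_atTop K).and (Filter.eventually_ge_atTop 1))
  refine ⟨n0, fun n hn => ?_⟩
  obtain ⟨h1, h2⟩ := hn0 n hn
  have hn' : (0 : ℝ) < n := by exact_mod_cast h2
  calc K * (n : ℝ) ^ a ≤ (n : ℝ) ^ (b - a) * (n : ℝ) ^ a :=
        mul_le_mul_of_nonneg_right h1 (Real.rpow_nonneg hn'.le _)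
    _ = (n : ℝ) ^ b := by
        rw [← Real.rpow_add hn']
        congr 1
        ring

theorem ev_const (K b : ℝ) (hb : 0 < b) : ∃ n0 : ℕ, ∀ n : ℕ, n0 ≤ n → K ≤ (n : ℝ) ^ b := by
  obtain ⟨n0, h⟩ := ev_pow K 0 b hb
  refine ⟨n0, fun n hn => ?_⟩
  have := h n hn
  rwa [Real.rpow_zero, mul_one] at this

theorem X1_le (x : ℝ) {mu : ℝ} (hmu : 0 < mu) : |x| ≤ (mu + x ^ 2 / mu) / 2 := by
  have h : 2 * |x| * mu ≤ mu ^ 2 + x ^ 2 := by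
    nlinarith [sq_nonneg (|x| - mu), sq_abs x]
  have h2 : (mu + x ^ 2 / mu) / 2 = (mu ^ 2 + x ^ 2) / (2 * mu) := by
    field_simp
  rw [h2, le_div_iff₀ (by linarith)]
  linarith

theorem X1_sum {α : Type} [DecidableEq α] (Bl : Finset (Finset α)) (A : Finset α) (u : ℝ)
    {mu : ℝ} (hmu : 0 < mu) :
    |∑ e ∈ A, xv u (toSt Bl A) e| ≤ (mu * (A.card : ℝ) + S 2 u (toSt Bl A) / mu) / 2 := by
  calc |∑ e ∈ A, xv u (toSt Bl A) e| ≤ ∑ e ∈ A, |xv u (toSt Bl A) e| := abs_sum_le_sum_abs _ _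
    _ ≤ ∑ e ∈ A, (mu + (xv u (toSt Bl A) e) ^ 2 / mu) / 2 := sum_le_sum fun e _ => X1_le _ hmu
    _ = (mu * (A.card : ℝ) + S 2 u (toSt Bl A) / mu) / 2 := by
      rw [← sum_div, sum_add_distrib, sum_const, nsmul_eq_mul, ← sum_div]
      unfold S
      show (((A.card : ℝ)) * mu + (∑ e ∈ A, (xv u (toSt Bl A) e) ^ 2) / mu) / 2 = _
      rw [mul_comm mu]
      rfl

/-- the real inequality: all the errors of the concentration functional -/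
theorem real_ineq {kap s a rho M q S2 X h u nb B1 B2 : ℝ}
    (hk : 0 < kap) (hs : 0 < s) (ha : 0 < a) (hu : 0 < u) (hsu : s ^ 2 = u) (hu1 : u ≤ 1)
    (has : s ≤ a) (hrho : 1 ≤ rho) (hM : 0 < M) (hq : 0 ≤ q) (hS : 0 ≤ S2) (hh : 0 < h)
    (he : 0 < e0)
    (hX1 : |X| ≤ (kap * e0 / 8 * a * q + S2 / (kap * e0 / 8 * a)) / 2)
    (hX2 : |X| ≤ (1 * q + S2 / 1) / 2)
    (hM1 : 16 / (kap ^ 2 * e0) ≤ M) (hM2 : 6 ≤ kap * M)
    (hB1 : 8 * B1 ≤ kap * M) (hnb : 9 / 4 * q + B2 ≤ nb) :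
    h * (|X| / s + 3 / 2 * (q + X)) + h / u * (rho * S2 * B1) + h * B2
      ≤ h / u * (kap * (e0 / 8 * (s * a) * q + 1 / 2 * M * rho * S2)) + h * nb := by
  have hJ : 0 < h / u := div_pos hh hu
  have h1 : h = h / u * u := by field_simp
  -- claim A
  have hA : h * (|X| / s) ≤ h / u * (kap * (e0 / 8 * (s * a) * q) + kap / 4 * M * rho * S2) := by
    have e1 : h * (|X| / s) = h / u * (s * |X|) := by
      rw [← hsu]
      field_simp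
    rw [e1]
    refine mul_le_mul_of_nonneg_left ?_ hJ.le
    have e2 : s * |X| ≤ s * ((kap * e0 / 8 * a * q + S2 / (kap * e0 / 8 * a)) / 2) :=
      mul_le_mul_of_nonneg_left hX1 hs.le
    have e3 : s * ((kap * e0 / 8 * a * q + S2 / (kap * e0 / 8 * a)) / 2)
        = kap * (e0 / 16 * (s * a) * q) + 4 / (kap * e0) * (s / a) * S2 := by
      field_simp
      ring
    have e4 : s / a ≤ 1 := (div_le_one ha).mpr has
    have e5 : 4 / (kap * e0) * (s / a) * S2 ≤ 4 / (kap * e0) * 1 * S2 := by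
      refine mul_le_mul_of_nonneg_right (mul_le_mul_of_nonneg_left e4 ?_) hS
      positivity
    have e6 : 4 / (kap * e0) ≤ kap / 4 * M := by
      have e7 : 4 / (kap * e0) = kap / 4 * (16 / (kap ^ 2 * e0)) := by
        field_simp
        norm_num
      rw [e7]
      exact mul_le_mul_of_nonneg_left hM1 (by positivity)
    have e7 : kap / 4 * M * 1 * S2 ≤ kap / 4 * M * rho * S2 :=
      mul_le_mul_of_nonneg_right (mul_le_mul_of_nonneg_left hrho (by positivity)) hS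
    have e8 : 4 / (kap * e0) * 1 * S2 ≤ kap / 4 * M * 1 * S2 := by
      rw [mul_one, mul_one]
      exact mul_le_mul_of_nonneg_right e6 hS
    have e9 : 0 ≤ kap * (e0 / 16 * (s * a) * q) := by positivity
    linarith
  -- claim B
  have hB : h * (3 / 2 * (q + X)) ≤ h * (9 / 4 * q) + h / u * (kap / 8 * M * rho * S2) := by
    have e1 : X ≤ (q + S2) / 2 := by
      have := le_abs_self X
      simp only [one_mul, div_one] at hX2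
      linarith
    have e2 : h * (3 / 2 * (q + X)) ≤ h * (9 / 4 * q + 3 / 4 * S2) :=
      mul_le_mul_of_nonneg_left (by linarith) hh.le
    have e3 : h * (3 / 4 * S2) ≤ h / u * (kap / 8 * M * rho * S2) := by
      have e4 : h * (3 / 4 * S2) = h / u * (u * (3 / 4 * S2)) := by
        rw [← mul_assoc (h / u) u]
        rw [← h1]
      rw [e4]
      refine mul_le_mul_of_nonneg_left ?_ hJ.le
      have e5 : u * (3 / 4 * S2) ≤ 1 * (3 / 4 * S2) :=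
        mul_le_mul_of_nonneg_right hu1 (by positivity)
      have e6 : 3 / 4 * S2 ≤ kap / 8 * M * S2 :=
        mul_le_mul_of_nonneg_right (by linarith) hS
      have e7 : kap / 8 * M * 1 * S2 ≤ kap / 8 * M * rho * S2 :=
        mul_le_mul_of_nonneg_right (mul_le_mul_of_nonneg_left hrho (by positivity)) hS
      linarith
    linarith
  -- claim C
  have hC : h / u * (rho * S2 * B1) ≤ h / u * (kap / 8 * M * rho * S2) := by
    refine mul_le_mul_of_nonneg_left ?_ hJ.le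
    have e1 : rho * S2 * B1 ≤ rho * S2 * (kap / 8 * M) :=
      mul_le_mul_of_nonneg_left (by linarith) (by positivity)
    linarith
  have hD : h * (9 / 4 * q + B2) ≤ h * nb := mul_le_mul_of_nonneg_left hnb hh.le
  have e1 : h * (|X| / s + 3 / 2 * (q + X)) = h * (|X| / s) + h * (3 / 2 * (q + X)) := by ring
  have e2 : h / u * (kap * (e0 / 8 * (s * a) * q + 1 / 2 * M * rho * S2))
      = h / u * (kap * (e0 / 8 * (s * a) * q) + kap / 4 * M * rho * S2)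
        + h / u * (kap / 8 * M * rho * S2) + h / u * (kap / 8 * M * rho * S2) := by ring
  rw [e1, e2]
  linarith

/-- the factor `rho` -/
theorem rho_bounds {n : ℕ} (hn : 4 ≤ n) {u : ℝ} (hu : 1 / ((n : ℝ) - 2) ≤ u) (huU : u ≤ u0 n) :
    1 ≤ u0 n ^ (5001 : ℝ) * u ^ (-5001 : ℝ) ∧
      u0 n ^ (5001 : ℝ) * u ^ (-5001 : ℝ) ≤ (n : ℝ) ^ (10002 * c0 : ℝ) := by
  have hn4 : (4 : ℝ) ≤ n := by exact_mod_cast hn
  have hn' : (0 : ℝ) < n := by linarith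
  have h0 : 0 < 1 / ((n : ℝ) - 2) := div_pos one_pos (by linarith)
  have hu0 : 0 < u := lt_of_lt_of_le h0 hu
  have hU : 0 < u0 n := lt_of_lt_of_le hu0 huU
  have hn1 : (n : ℝ)⁻¹ ≤ u := by
    refine le_trans ?_ hu
    rw [one_div]
    exact inv_anti₀ (by linarith) (by linarith)
  constructor
  · rw [Real.rpow_neg hu0.le, ← div_eq_mul_inv, one_le_div (Real.rpow_pos_of_pos hu0 _)]
    exact Real.rpow_le_rpow hu0.le huU (by norm_num)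
  · have h1 : u ^ (-5001 : ℝ) ≤ (n : ℝ) ^ (5001 : ℝ) := by
      rw [Real.rpow_neg hu0.le]
      have h2 : ((n : ℝ)⁻¹) ^ (5001 : ℝ) ≤ u ^ (5001 : ℝ) :=
        Real.rpow_le_rpow (by positivity) hn1 (by norm_num)
      have h3 : 0 < ((n : ℝ)⁻¹) ^ (5001 : ℝ) := Real.rpow_pos_of_pos (by positivity) _
      calc (u ^ (5001 : ℝ))⁻¹ ≤ (((n : ℝ)⁻¹) ^ (5001 : ℝ))⁻¹ := inv_anti₀ h3 h2
        _ = (n : ℝ) ^ (5001 : ℝ) := by rw [Real.inv_rpow hn'.le, inv_inv]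
    calc u0 n ^ (5001 : ℝ) * u ^ (-5001 : ℝ) ≤ u0 n ^ (5001 : ℝ) * (n : ℝ) ^ (5001 : ℝ) :=
          mul_le_mul_of_nonneg_left h1 (Real.rpow_nonneg hU.le _)
      _ = (n : ℝ) ^ (10002 * c0 : ℝ) := by
          unfold u0
          rw [← Real.rpow_mul hn'.le, ← Real.rpow_add hn']
          congr 1
          ring

/-- the error of the detecting part -/
theorem bad_err {n : ℕ} (hn : 4 ≤ n) {u h q S2 : ℝ} (hu : 1 / ((n : ℝ) - 2) ≤ u)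
    (huU : u ≤ u0 n) (hh : 0 < h) (hq : 0 ≤ q) (hqn : q ≤ (n : ℝ) ^ 2) (hS : 0 ≤ S2) :
    (n : ℝ) ^ (1 / 100 : ℝ) * (h / u * (u0 n ^ (5001 : ℝ) * u ^ (-5001 : ℝ) *
      ((n : ℝ) ^ 2 / t0 e0 ^ 6 * (10000 * u ^ 3 * q)
        + 2 * 10 ^ 12 * (n : ℝ) ^ 2 * u0 n ^ 2 *
          (100 * (n * u) ^ 2 * S2 + 100 * u * n ^ 2))))
      ≤ h / u * (u0 n ^ (5001 : ℝ) * u ^ (-5001 : ℝ) * S2 *
          (2 * 10 ^ 14 * (n : ℝ) ^ (1 / 100 + 8 * c0 : ℝ)))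
        + h * ((10000 / t0 e0 ^ 6 + 2 * 10 ^ 14) * (n : ℝ) ^ (21 / 10 : ℝ)) := by
  obtain ⟨hr1, hr2⟩ := rho_bounds hn hu huU
  have hn4 : (4 : ℝ) ≤ n := by exact_mod_cast hn
  have hn' : (0 : ℝ) < n := by linarith
  have h0 : 0 < 1 / ((n : ℝ) - 2) := div_pos one_pos (by linarith)
  have hu0 : 0 < u := lt_of_lt_of_le h0 hu
  have hU : 0 < u0 n := lt_of_lt_of_le hu0 huU
  set rho : ℝ := u0 n ^ (5001 : ℝ) * u ^ (-5001 : ℝ) with hrho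
  set m : ℝ := (n : ℝ) ^ (1 / 100 : ℝ) with hm
  have hm0 : 0 < m := Real.rpow_pos_of_pos hn' _
  have hr0 : 0 < rho := lt_of_lt_of_le one_pos hr1
  have ht := ET.t0_pos
  have hU2 : u0 n ^ 2 = (n : ℝ) ^ (-2 + 4 * c0 : ℝ) := by
    unfold u0
    rw [← Real.rpow_natCast, ← Real.rpow_mul hn'.le]
    congr 1
    push_cast
    ring
  have hU4 : u0 n ^ 4 = (n : ℝ) ^ (-4 + 8 * c0 : ℝ) := by
    unfold u0
    rw [← Real.rpow_natCast, ← Real.rpow_mul hn'.le]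
    congr 1
    push_cast
    ring
  have hu2 : u ^ 2 ≤ u0 n ^ 2 := pow_le_pow_left₀ hu0.le huU 2
  -- split
  have e1 : m * (h / u * (rho *
      ((n : ℝ) ^ 2 / t0 e0 ^ 6 * (10000 * u ^ 3 * q)
        + 2 * 10 ^ 12 * (n : ℝ) ^ 2 * u0 n ^ 2 *
          (100 * (n * u) ^ 2 * S2 + 100 * u * n ^ 2))))
      = h / u * (rho * S2 * (2 * 10 ^ 14 * (m * ((n : ℝ) ^ 4 * (u0 n ^ 2 * u ^ 2)))))
        + h * (rho * m * (10000 / t0 e0 ^ 6 * ((n : ℝ) ^ 2 * u ^ 2 * q)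
          + 2 * 10 ^ 14 * ((n : ℝ) ^ 4 * u0 n ^ 2))) := by
    field_simp
    ring
  rw [e1]
  have i1 : m * ((n : ℝ) ^ 4 * (u0 n ^ 2 * u ^ 2)) ≤ (n : ℝ) ^ (1 / 100 + 8 * c0 : ℝ) := by
    calc m * ((n : ℝ) ^ 4 * (u0 n ^ 2 * u ^ 2)) ≤ m * ((n : ℝ) ^ 4 * (u0 n ^ 2 * u0 n ^ 2)) := by
          gcongr
      _ = m * ((n : ℝ) ^ (4 : ℝ) * (n : ℝ) ^ (-4 + 8 * c0 : ℝ)) := by
          have h44 : (n : ℝ) ^ (4 : ℝ) = (n : ℝ) ^ 4 := by
            exact_mod_cast Real.rpow_natCast (n : ℝ) 4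
          rw [← hU4, h44]
          ring
      _ = (n : ℝ) ^ (1 / 100 + 8 * c0 : ℝ) := by
          rw [hm, ← Real.rpow_add hn', ← Real.rpow_add hn']
          congr 1
          ring
  have i2 : rho * m * (10000 / t0 e0 ^ 6 * ((n : ℝ) ^ 2 * u ^ 2 * q)
          + 2 * 10 ^ 14 * ((n : ℝ) ^ 4 * u0 n ^ 2))
      ≤ (10000 / t0 e0 ^ 6 + 2 * 10 ^ 14) * (n : ℝ) ^ (21 / 10 : ℝ) := by
    have j1 : (n : ℝ) ^ 2 * u ^ 2 * q ≤ (n : ℝ) ^ 4 * u0 n ^ 2 := by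
      calc (n : ℝ) ^ 2 * u ^ 2 * q ≤ (n : ℝ) ^ 2 * u0 n ^ 2 * (n : ℝ) ^ 2 := by gcongr
        _ = (n : ℝ) ^ 4 * u0 n ^ 2 := by ring
    have j2 : 10000 / t0 e0 ^ 6 * ((n : ℝ) ^ 2 * u ^ 2 * q)
          + 2 * 10 ^ 14 * ((n : ℝ) ^ 4 * u0 n ^ 2)
        ≤ (10000 / t0 e0 ^ 6 + 2 * 10 ^ 14) * ((n : ℝ) ^ 4 * u0 n ^ 2) := by
      have : 10000 / t0 e0 ^ 6 * ((n : ℝ) ^ 2 * u ^ 2 * q) ≤
          10000 / t0 e0 ^ 6 * ((n : ℝ) ^ 4 * u0 n ^ 2) :=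
        mul_le_mul_of_nonneg_left j1 (by positivity)
      linarith
    have j3 : (n : ℝ) ^ 4 * u0 n ^ 2 = (n : ℝ) ^ (2 + 4 * c0 : ℝ) := by
      rw [hU2, ← Real.rpow_natCast, ← Real.rpow_add hn']
      congr 1
      push_cast
      ring
    have j4 : rho * m * ((n : ℝ) ^ 4 * u0 n ^ 2) ≤ (n : ℝ) ^ (21 / 10 : ℝ) := by
      calc rho * m * ((n : ℝ) ^ 4 * u0 n ^ 2)
          ≤ (n : ℝ) ^ (10002 * c0 : ℝ) * m * ((n : ℝ) ^ 4 * u0 n ^ 2) := by gcongr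
        _ = (n : ℝ) ^ (10002 * c0 + 1 / 100 + (2 + 4 * c0) : ℝ) := by
            rw [j3, hm, ← Real.rpow_add hn', ← Real.rpow_add hn']
        _ ≤ (n : ℝ) ^ (21 / 10 : ℝ) := by
            refine Real.rpow_le_rpow_of_exponent_le (by linarith) ?_
            unfold c0
            norm_num
    have j5 : 0 ≤ 10000 / t0 e0 ^ 6 + 2 * 10 ^ 14 := by positivity
    calc _ ≤ rho * m * ((10000 / t0 e0 ^ 6 + 2 * 10 ^ 14) * ((n : ℝ) ^ 4 * u0 n ^ 2)) :=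
          mul_le_mul_of_nonneg_left j2 (by positivity)
      _ = (10000 / t0 e0 ^ 6 + 2 * 10 ^ 14) * (rho * m * ((n : ℝ) ^ 4 * u0 n ^ 2)) := by ring
      _ ≤ _ := mul_le_mul_of_nonneg_left j4 j5
  refine add_le_add ?_ (mul_le_mul_of_nonneg_left i2 hh.le)
  refine mul_le_mul_of_nonneg_left ?_ (div_pos hh hu0).le
  exact mul_le_mul_of_nonneg_left (mul_le_mul_of_nonneg_left i1 (by norm_num)) (by positivity)

end DE

/-- [DECORE] from EARLYSTRONG and BADCORE -/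
theorem de_core_of
    (hES : ∃ n0 : ℕ, ∀ n : ℕ, n0 ≤ n →
      ∀ (C6 C8 : Finset (Finset (Finset (Sym2 (Fin n))))), Sys (BK n) C6 C8 →
      ∃ E h1 : ℝ, 0 ≤ E ∧ 0 < h1 ∧ ∀ h u : ℝ, 0 < h → h ≤ h1 → 1 / ((n : ℝ) - 2) ≤ u →
        u + 2 * h ≤ u0 n → ∀ A : Finset (Sym2 (Fin n)), A ⊆ tr univ → GoodE n u A →
        PsiE n C6 C8 (u + 2 * h) A
          + h * ∑ T ∈ bl (BK n) A, (PsiE n C6 C8 (u + 2 * h) (A \ T) - PsiE n C6 C8 (u + 2 * h) A)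
          ≤ PsiE n C6 C8 u A + h * (n : ℝ) ^ (249 / 100 : ℝ) + E * h ^ 2
            - h / (u + 2 * h) * (e0 / 8 * (u + 2 * h) ^ (1 / 2 + e0 / 4 : ℝ) * (A.card : ℝ)
              + 1 / 2 * (n : ℝ) ^ (1 / 10 : ℝ) * (u0 n ^ (5001 : ℝ) * (u + 2 * h) ^ (-5001 : ℝ)) *
                S 2 (u + 2 * h) (toSt (BK n) A)))
    (hBC : ∃ n0 : ℕ, ∀ n : ℕ, n0 ≤ n →
      ∃ E h1 : ℝ, 0 ≤ E ∧ 0 < h1 ∧ ∀ h u : ℝ, 0 < h → h ≤ h1 → 1 / ((n : ℝ) - 2) ≤ u →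
        u + 2 * h ≤ u0 n → ∀ A : Finset (Sym2 (Fin n)), A ⊆ tr univ → GoodE n u A →
        BadE n (u + 2 * h) A
          + h * ∑ T ∈ bl (BK n) A, (BadE n (u + 2 * h) (A \ T) - BadE n (u + 2 * h) A)
          ≤ BadE n u A + E * h ^ 2
            + h / (u + 2 * h) * (u0 n ^ (5001 : ℝ) * (u + 2 * h) ^ (-5001 : ℝ) *
              ((n : ℝ) ^ 2 / t0 e0 ^ 6 * (10000 * (u + 2 * h) ^ 3 * (A.card : ℝ))
                + 2 * 10 ^ 12 * (n : ℝ) ^ 2 * u0 n ^ 2 *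
                  (100 * (n * (u + 2 * h)) ^ 2 * S 2 (u + 2 * h) (toSt (BK n) A)
                    + 100 * (u + 2 * h) * n ^ 2))))
    (kap : ℝ) (hk : 0 < kap) (hk1 : kap ≤ 1) : ∃ n0 : ℕ, ∀ n : ℕ, n0 ≤ n →
    ∀ (C6 C8 : Finset (Finset (Finset (Sym2 (Fin n))))), Sys (BK n) C6 C8 → ∀ c : ℝ,
    ∃ E h1 : ℝ, 0 ≤ E ∧ 0 < h1 ∧ ∀ h u : ℝ, 0 < h → h ≤ h1 → 1 / ((n : ℝ) - 2) ≤ u →
      u + 2 * h ≤ u0 n → ∀ A : Finset (Sym2 (Fin n)), A ⊆ tr univ → GoodE n u A →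
      PsiDE n c kap C6 C8 (u + 2 * h) A
        + h * ∑ T ∈ bl (BK n) A,
          (PsiDE n c kap C6 C8 (u + 2 * h) (A \ T) - PsiDE n c kap C6 C8 (u + 2 * h) A)
        ≤ PsiDE n c kap C6 C8 u A + 2 * h * (n : ℝ) ^ (249 / 100 : ℝ) + E * h ^ 2 := by
  obtain ⟨n1, hES⟩ := hES
  obtain ⟨n2, hBC⟩ := hBC
  obtain ⟨n3, h3⟩ := ET.ev_u0 1 one_pos
  obtain ⟨n4, h4⟩ := DE.ev_const (16 / (kap ^ 2 * e0)) (1 / 10) (by norm_num)
  obtain ⟨n5, h5⟩ := DE.ev_const (6 / kap) (1 / 10) (by norm_num)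
  obtain ⟨n6, h6⟩ := DE.ev_pow (8 * (2 * 10 ^ 14) / kap) (1 / 100 + 8 * c0) (1 / 10)
    (by unfold c0; norm_num)
  obtain ⟨n7, h7⟩ := DE.ev_pow (9 / 4 + (10000 / t0 e0 ^ 6 + 2 * 10 ^ 14)) (21 / 10) (249 / 100)
    (by norm_num)
  refine ⟨max n1 (max n2 (max n3 (max n4 (max n5 (max n6 n7))))), fun n hn C6 C8 hSys c => ?_⟩
  simp only [max_le_iff] at hn
  obtain ⟨hn1, hn2, hn3, hn4, hn5, hn6, hn7⟩ := hn
  obtain ⟨E1, k1, hE1, hk1', hES⟩ := hES n hn1 C6 C8 hSys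
  obtain ⟨E2, k2, hE2, hk2', hBC⟩ := hBC n hn2
  obtain ⟨g4, _, gU1, _⟩ := h3 n hn3
  have gM1 := h4 n hn4
  have gM2 := h5 n hn5
  have gB := h6 n hn6
  have gN := h7 n hn7
  have hn4' : (4 : ℝ) ≤ n := by exact_mod_cast g4
  have hn' : (0 : ℝ) < n := by linarith
  have hm0 : 0 < (n : ℝ) ^ (1 / 100 : ℝ) := Real.rpow_pos_of_pos hn' _
  refine ⟨kap * E1 + (n : ℝ) ^ (1 / 100 : ℝ) * E2 + 2 * (n : ℝ) ^ 4, min k1 k2, by positivity,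
    lt_min hk1' hk2', fun h u hh hhle hu huU A hA hG => ?_⟩
  have f1 := hES h u hh (hhle.trans (min_le_left _ _)) hu huU A hA hG
  have f2 := hBC h u hh (hhle.trans (min_le_right _ _)) hu huU A hA hG
  have hus : 0 < 1 / ((n : ℝ) - 2) := div_pos one_pos (by linarith)
  have hu0 : 0 < u := lt_of_lt_of_le hus hu
  have f3 := SqA.ph_step hSys.lin A c u h hu0 hh
  have hup : 1 / ((n : ℝ) - 2) ≤ u + 2 * h := by linarith
  have hup0 : 0 < u + 2 * h := by linarith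
  set v : ℝ := u + 2 * h with hv
  have hv1 : v ≤ 1 := huU.trans gU1
  have hq0 : (0 : ℝ) ≤ (A.card : ℝ) := Nat.cast_nonneg _
  have hqn : (A.card : ℝ) ≤ (n : ℝ) ^ 2 :=
    le_trans (by exact_mod_cast card_le_card hA) (ET.card_tr n)
  have hS : 0 ≤ S 2 v (toSt (BK n) A) := ET.S_nonneg 2 (by decide) _ _
  have f4 := DE.bad_err g4 hup huU hh hq0 hqn hS
  set q : ℝ := (A.card : ℝ) with hq
  set S2 : ℝ := S 2 v (toSt (BK n) A) with hS2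
  set X : ℝ := ∑ e ∈ A, xv v (toSt (BK n) A) e with hX
  have hs0 : 0 < v ^ (1 / 2 : ℝ) := Real.rpow_pos_of_pos hup0 _
  have ha0 : 0 < v ^ (e0 / 4 : ℝ) := Real.rpow_pos_of_pos hup0 _
  have hs2 : (v ^ (1 / 2 : ℝ)) ^ 2 = v := by
    rw [← Real.rpow_natCast, ← Real.rpow_mul hup0.le]
    norm_num
  have has : v ^ (1 / 2 : ℝ) ≤ v ^ (e0 / 4 : ℝ) :=
    Real.rpow_le_rpow_of_exponent_ge hup0 hv1 (by unfold e0; norm_num)
  have hsa : v ^ (1 / 2 + e0 / 4 : ℝ) = v ^ (1 / 2 : ℝ) * v ^ (e0 / 4 : ℝ) :=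
    Real.rpow_add hup0 _ _
  have hmu : 0 < kap * e0 / 8 * v ^ (e0 / 4 : ℝ) := by
    have := ET.e0_pos
    positivity
  have f5 := DE.real_ineq (kap := kap) (s := v ^ (1 / 2 : ℝ)) (a := v ^ (e0 / 4 : ℝ))
    (rho := u0 n ^ (5001 : ℝ) * v ^ (-5001 : ℝ)) (M := (n : ℝ) ^ (1 / 10 : ℝ)) (q := q)
    (S2 := S2) (X := X) (h := h) (u := v) (nb := (n : ℝ) ^ (249 / 100 : ℝ))
    (B1 := 2 * 10 ^ 14 * (n : ℝ) ^ (1 / 100 + 8 * c0 : ℝ))
    (B2 := (10000 / t0 e0 ^ 6 + 2 * 10 ^ 14) * (n : ℝ) ^ (21 / 10 : ℝ))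
    hk hs0 ha0 hup0 hs2 hv1 has (DE.rho_bounds g4 hup huU).1 (Real.rpow_pos_of_pos hn' _) hq0 hS
    hh ET.e0_pos (DE.X1_sum (BK n) A v hmu) (DE.X1_sum (BK n) A v one_pos) gM1
    (by
      rw [div_le_iff₀ hk] at gM2
      linarith)
    (by
      rw [div_mul_eq_mul_div, div_le_iff₀ hk] at gB
      linarith)
    (by
      have j1 : (n : ℝ) ^ 2 ≤ (n : ℝ) ^ (21 / 10 : ℝ) := by
        rw [← Real.rpow_natCast (n : ℝ) 2]
        exact Real.rpow_le_rpow_of_exponent_le (by linarith) (by norm_num)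
      linarith)
  have f6 : 2 * h ^ 2 * q / (v ^ (1 / 2 : ℝ)) ^ 3 ≤ 2 * (n : ℝ) ^ 4 * h ^ 2 := by
    have j0 : (n : ℝ)⁻¹ ≤ v := by
      refine le_trans ?_ hup
      rw [one_div]
      exact inv_anti₀ (by linarith) (by linarith)
    have j1 : v ≤ v ^ (1 / 2 : ℝ) := by
      calc v = v ^ (1 : ℝ) := (Real.rpow_one v).symm
        _ ≤ v ^ (1 / 2 : ℝ) := Real.rpow_le_rpow_of_exponent_ge hup0 hv1 (by norm_num)
    have j2 : ((n : ℝ)⁻¹) ^ 2 ≤ (v ^ (1 / 2 : ℝ)) ^ 3 := by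
      have e1 : (v ^ (1 / 2 : ℝ)) ^ 3 = v ^ (1 / 2 : ℝ) * v := by
        rw [pow_succ, hs2, mul_comm]
      rw [e1, sq]
      exact mul_le_mul (j0.trans j1) j0 (by positivity) hs0.le
    rw [div_le_iff₀ (by positivity)]
    have j3 : 2 * (n : ℝ) ^ 4 * h ^ 2 * ((n : ℝ)⁻¹) ^ 2 = 2 * h ^ 2 * (n : ℝ) ^ 2 := by
      field_simp
    calc 2 * h ^ 2 * q ≤ 2 * h ^ 2 * (n : ℝ) ^ 2 :=
          mul_le_mul_of_nonneg_left hqn (by positivity)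
      _ = 2 * (n : ℝ) ^ 4 * h ^ 2 * ((n : ℝ)⁻¹) ^ 2 := j3.symm
      _ ≤ _ := mul_le_mul_of_nonneg_left j2 (by positivity)
  have f7 := mul_le_mul_of_nonneg_left f1 hk.le
  have f8 := mul_le_mul_of_nonneg_left f2 hm0.le
  have f9 : kap * (h * (n : ℝ) ^ (249 / 100 : ℝ)) ≤ 1 * (h * (n : ℝ) ^ (249 / 100 : ℝ)) :=
    mul_le_mul_of_nonneg_right hk1 (mul_nonneg hh.le (Real.rpow_nonneg hn'.le _))
  -- linearity of the sum
  have f10 : ∑ T ∈ bl (BK n) A,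
      (PsiDE n c kap C6 C8 v (A \ T) - PsiDE n c kap C6 C8 v A)
      = ∑ T ∈ bl (BK n) A, (SqA.ph (v ^ (1 / 2 : ℝ) * ((A \ T).card : ℝ) - c)
          - SqA.ph (v ^ (1 / 2 : ℝ) * q - c))
        + kap * ∑ T ∈ bl (BK n) A, (PsiE n C6 C8 v (A \ T) - PsiE n C6 C8 v A)
        + (n : ℝ) ^ (1 / 100 : ℝ) * ∑ T ∈ bl (BK n) A, (BadE n v (A \ T) - BadE n v A) := by
    rw [mul_sum, mul_sum, ← sum_add_distrib, ← sum_add_distrib]
    refine sum_congr rfl fun T _ => ?_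
    unfold PsiDE SqA.ph
    ring
  have f11 : ∀ w : ℝ, PsiDE n c kap C6 C8 w A = SqA.ph (w ^ (1 / 2 : ℝ) * q - c)
      + kap * PsiE n C6 C8 w A + (n : ℝ) ^ (1 / 100 : ℝ) * BadE n w A := fun w => rfl
  rw [f10, f11 v, f11 u]
  rw [hsa] at f7
  linarith

end

end Vale.Agent.P046.NL
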