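import Vale.Agent.P046.NL.Defs3
import Vale.Agent.P046.NL.RED

/-! P046 no-log, EARLYCORE: the invariants after one time step, crude bounds. -/

namespace Vale.Agent.P046.NL

open Finset Vale.Agent.P046

noncomputable section

namespace EA

variable {n : ℕ}

/-- crude bound for everything: `1 + |BK n|` -/
def bb (n : ℕ) : ℝ := 1 + ((BK n).card : ℝ)

/-- number of points -/
def NN (n : ℕ) : ℝ := (Fintype.card (Sym2 (Fin n)) : ℝ)

theorem bb_pos (n : ℕ) : 1 ≤ bb n := by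
  unfold bb
  have : (0 : ℝ) ≤ ((BK n).card : ℝ) := Nat.cast_nonneg _
  linarith

theorem NN_nonneg (n : ℕ) : 0 ≤ NN n := Nat.cast_nonneg _

theorem card_le_NN (A : Finset (Sym2 (Fin n))) : (A.card : ℝ) ≤ NN n := by
  unfold NN
  exact_mod_cast card_le_univ A

theorem card_bl_le (A : Finset (Sym2 (Fin n))) : ((bl (BK n) A).card : ℝ) ≤ bb n := by
  unfold bb
  have h : (bl (BK n) A).card ≤ (BK n).card := card_le_card (filter_subset _ _)
  have h2 : ((bl (BK n) A).card : ℝ) ≤ ((BK n).card : ℝ) := by exact_mod_cast h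
  linarith

theorem card_filter_bl_le (A : Finset (Sym2 (Fin n))) (p : Finset (Sym2 (Fin n)) → Prop)
    [DecidablePred p] : (((bl (BK n) A).filter p).card : ℝ) ≤ bb n := by
  have h : ((bl (BK n) A).filter p).card ≤ (bl (BK n) A).card := card_le_card (filter_subset _ _)
  have h2 : (((bl (BK n) A).filter p).card : ℝ) ≤ ((bl (BK n) A).card : ℝ) := by exact_mod_cast h
  exact h2.trans (card_bl_le A)

theorem dW_nonneg (W : Finset (Finset (Sym2 (Fin n)))) (e : Sym2 (Fin n)) : 0 ≤ dW W e :=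
  Nat.cast_nonneg _

theorem dW_le (A : Finset (Sym2 (Fin n))) (e : Sym2 (Fin n)) : dW (bl (BK n) A) e ≤ bb n :=
  card_filter_bl_le A _

theorem xv_of_mem {u : ℝ} {A : Finset (Sym2 (Fin n))} {e : Sym2 (Fin n)} (he : e ∈ A) :
    xv u (toSt (BK n) A) e = u * dW (bl (BK n) A) e - 1 := by
  unfold xv
  rw [if_pos (show e ∈ (toSt (BK n) A).B from he)]
  rfl

theorem xv_of_notMem {u : ℝ} {A : Finset (Sym2 (Fin n))} {e : Sym2 (Fin n)} (he : e ∉ A) :
    xv u (toSt (BK n) A) e = 0 := by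
  unfold xv
  rw [if_neg (show e ∉ (toSt (BK n) A).B from he)]
  rfl

theorem xv_abs {u : ℝ} (hu : 0 < u) (hu1 : u ≤ 1) (A : Finset (Sym2 (Fin n)))
    (e : Sym2 (Fin n)) : |xv u (toSt (BK n) A) e| ≤ bb n := by
  by_cases he : e ∈ A
  · rw [xv_of_mem he, abs_le]
    have h1 := dW_nonneg (bl (BK n) A) e
    have h2 := dW_le A e
    have h3 : 0 ≤ u * dW (bl (BK n) A) e := mul_nonneg hu.le h1
    have h4 : u * dW (bl (BK n) A) e ≤ 1 * bb n := mul_le_mul hu1 h2 h1 zero_le_one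
    have h5 := bb_pos n
    constructor <;> linarith
  · rw [xv_of_notMem he, abs_zero]
    linarith [bb_pos n]

/-- sums of bounded terms -/
theorem abs_sum_bd {ι : Type*} (A : Finset ι) (f : ι → ℝ) (N c : ℝ) (hA : (A.card : ℝ) ≤ N)
    (hc : 0 ≤ c) (hf : ∀ e ∈ A, |f e| ≤ c) : |∑ e ∈ A, f e| ≤ N * c := by
  calc |∑ e ∈ A, f e| ≤ ∑ e ∈ A, |f e| := abs_sum_le_sum_abs _ _
    _ ≤ ∑ _e ∈ A, c := sum_le_sum hf
    _ = (A.card : ℝ) * c := by rw [sum_const, nsmul_eq_mul]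
    _ ≤ N * c := mul_le_mul_of_nonneg_right hA hc

theorem S_bd (k : ℕ) {u : ℝ} (hu : 0 < u) (hu1 : u ≤ 1) (A : Finset (Sym2 (Fin n))) :
    |S k u (toSt (BK n) A)| ≤ NN n * bb n ^ k := by
  refine abs_sum_bd _ _ _ _ (card_le_NN A) (pow_nonneg (by linarith [bb_pos n]) k) fun e _ => ?_
  rw [abs_pow]
  exact pow_le_pow_left₀ (abs_nonneg _) (xv_abs hu hu1 A e) k

theorem dS_bd (k : ℕ) {u : ℝ} (hu : 0 < u) (hu1 : u ≤ 1) (A : Finset (Sym2 (Fin n))) :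
    |dS k u (toSt (BK n) A)| ≤ NN n * ((k : ℝ) * bb n ^ (k - 1) * bb n) := by
  have hb : 0 ≤ bb n := by linarith [bb_pos n]
  refine abs_sum_bd _ _ _ _ (card_le_NN A) (by positivity) fun e _ => ?_
  rw [abs_mul, abs_mul, abs_pow, Nat.abs_cast]
  have h1 : |dW (toSt (BK n) A).W e| ≤ bb n := by
    rw [abs_of_nonneg (dW_nonneg _ e)]; exact dW_le A e
  have h2 : |xv u (toSt (BK n) A) e| ^ (k - 1) ≤ bb n ^ (k - 1) :=
    pow_le_pow_left₀ (abs_nonneg _) (xv_abs hu hu1 A e) _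
  gcongr

theorem sm_bd {u : ℝ} (hu : 0 < u) (hu1 : u ≤ 1) (A T : Finset (Sym2 (Fin n)))
    (e : Sym2 (Fin n)) : |sm u (toSt (BK n) A) T e| ≤ NN n * bb n :=
  abs_sum_bd _ _ _ _ (card_le_NN _) (by linarith [bb_pos n]) fun f _ => xv_abs hu hu1 A f

theorem be_bd {u : ℝ} (hu : 0 < u) (hu1 : u ≤ 1) (A : Finset (Sym2 (Fin n)))
    (e : Sym2 (Fin n)) : |be u (toSt (BK n) A) e| ≤ bb n * (NN n * bb n) := by
  have hb : 0 ≤ bb n := by linarith [bb_pos n]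
  have hN := NN_nonneg n
  unfold be
  rw [abs_mul, abs_of_pos hu]
  have h1 : |∑ T ∈ (toSt (BK n) A).W.filter (fun T => e ∈ T), sm u (toSt (BK n) A) T e| ≤
      bb n * (NN n * bb n) :=
    abs_sum_bd _ _ _ _ (card_filter_bl_le A _) (by positivity) fun T _ => sm_bd hu hu1 A T e
  calc u * |∑ T ∈ (toSt (BK n) A).W.filter (fun T => e ∈ T), sm u (toSt (BK n) A) T e|
      ≤ 1 * (bb n * (NN n * bb n)) := mul_le_mul hu1 h1 (abs_nonneg _) zero_le_one
    _ = _ := one_mul _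

theorem dbe_bd {u : ℝ} (hu : 0 < u) (hu1 : u ≤ 1) (A : Finset (Sym2 (Fin n)))
    (e : Sym2 (Fin n)) : |dbe u (toSt (BK n) A) e| ≤ 2 * (bb n * (NN n * bb n)) := by
  have hb : 0 ≤ bb n := by linarith [bb_pos n]
  have hN := NN_nonneg n
  unfold dbe
  have h1 : |∑ T ∈ (toSt (BK n) A).W.filter (fun T => e ∈ T), sm u (toSt (BK n) A) T e| ≤
      bb n * (NN n * bb n) :=
    abs_sum_bd _ _ _ _ (card_filter_bl_le A _) (by positivity) fun T _ => sm_bd hu hu1 A T e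
  have h2 : |∑ T ∈ (toSt (BK n) A).W.filter (fun T => e ∈ T),
      ∑ f ∈ (T.erase e).filter (fun f => f ∈ (toSt (BK n) A).B), dW (toSt (BK n) A).W f| ≤
      bb n * (NN n * bb n) := by
    refine abs_sum_bd _ _ _ _ (card_filter_bl_le A _) (by positivity) fun T _ => ?_
    refine abs_sum_bd _ _ _ _ (card_le_NN _) hb fun f _ => ?_
    rw [abs_of_nonneg (dW_nonneg _ f)]
    exact dW_le A f
  have h3 : |u * ∑ T ∈ (toSt (BK n) A).W.filter (fun T => e ∈ T),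
      ∑ f ∈ (T.erase e).filter (fun f => f ∈ (toSt (BK n) A).B), dW (toSt (BK n) A).W f| ≤
      bb n * (NN n * bb n) := by
    rw [abs_mul, abs_of_pos hu]
    calc _ ≤ 1 * (bb n * (NN n * bb n)) := mul_le_mul hu1 h2 (abs_nonneg _) zero_le_one
      _ = _ := one_mul _
  calc _ ≤ _ := abs_add_le _ _
    _ ≤ bb n * (NN n * bb n) + bb n * (NN n * bb n) := add_le_add h1 h3
    _ = _ := by ring

theorem Sb_bd {u : ℝ} (hu : 0 < u) (hu1 : u ≤ 1) (A : Finset (Sym2 (Fin n))) :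
    |Sb u (toSt (BK n) A)| ≤ NN n * (bb n * (NN n * bb n)) ^ 2 := by
  refine abs_sum_bd _ _ _ _ (card_le_NN A) (sq_nonneg _) fun e _ => ?_
  rw [abs_pow]
  exact pow_le_pow_left₀ (abs_nonneg _) (be_bd hu hu1 A e) 2

theorem dSb_bd {u : ℝ} (hu : 0 < u) (hu1 : u ≤ 1) (A : Finset (Sym2 (Fin n))) :
    |dSb u (toSt (BK n) A)| ≤
      NN n * (2 * (bb n * (NN n * bb n)) * (2 * (bb n * (NN n * bb n)))) := by
  have hb : 0 ≤ bb n := by linarith [bb_pos n]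
  have hN := NN_nonneg n
  refine abs_sum_bd _ _ _ _ (card_le_NN A) (by positivity) fun e _ => ?_
  rw [abs_mul, abs_mul, abs_two]
  have h1 := be_bd hu hu1 A e
  have h2 := dbe_bd hu hu1 A e
  gcongr

theorem cd_nonneg (A : Finset (Sym2 (Fin n))) (a b : Fin n) : 0 ≤ cd A a b := Nat.cast_nonneg _

theorem cd_le (A : Finset (Sym2 (Fin n))) (a b : Fin n) : cd A a b ≤ n := by
  unfold cd
  have h : (univ.filter (fun w => s(a, w) ∈ A ∧ s(b, w) ∈ A)).card ≤ n := by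
    refine (card_le_card (filter_subset _ _)).trans ?_
    rw [card_univ, Fintype.card_fin]
  exact_mod_cast h

theorem y_bd {u : ℝ} (hu : 0 < u) (hu1 : u ≤ 1) (A : Finset (Sym2 (Fin n))) (a b : Fin n) :
    |u * cd A a b - 1| ≤ n + 1 := by
  have h1 := cd_nonneg A a b
  have h2 := cd_le A a b
  have h3 : 0 ≤ u * cd A a b := mul_nonneg hu.le h1
  have h4 : u * cd A a b ≤ 1 * n := mul_le_mul hu1 h2 h1 zero_le_one
  rw [abs_le]
  constructor <;> linarith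

theorem card_erase_le (a : Fin n) : (((univ : Finset (Fin n)).erase a).card : ℝ) ≤ n := by
  have h : ((univ : Finset (Fin n)).erase a).card ≤ n := by
    refine (card_le_card (erase_subset _ _)).trans ?_
    rw [card_univ, Fintype.card_fin]
  exact_mod_cast h

theorem card_univ_le (n : ℕ) : ((univ : Finset (Fin n)).card : ℝ) ≤ n := by
  rw [card_univ, Fintype.card_fin]

theorem XX_bd {u : ℝ} (hu : 0 < u) (hu1 : u ≤ 1) (A : Finset (Sym2 (Fin n))) :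
    |XX u A| ≤ (n : ℝ) * (n * ((n : ℝ) + 1) ^ 2) := by
  refine abs_sum_bd _ _ _ _ (card_univ_le n) (by positivity) fun a _ => ?_
  refine abs_sum_bd _ _ _ _ (card_erase_le a) (by positivity) fun b _ => ?_
  rw [abs_pow]
  exact pow_le_pow_left₀ (abs_nonneg _) (y_bd hu hu1 A a b) 2

theorem dXX_bd {u : ℝ} (hu : 0 < u) (hu1 : u ≤ 1) (A : Finset (Sym2 (Fin n))) :
    |dXX u A| ≤ (n : ℝ) * (n * (2 * ((n : ℝ) + 1) * n)) := by
  refine abs_sum_bd _ _ _ _ (card_univ_le n) (by positivity) fun a _ => ?_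
  refine abs_sum_bd _ _ _ _ (card_erase_le a) (by positivity) fun b _ => ?_
  rw [abs_mul, abs_mul, abs_two, abs_of_nonneg (cd_nonneg A a b)]
  have h1 := y_bd hu hu1 A a b
  have h2 := cd_le A a b
  have h3 := cd_nonneg A a b
  gcongr

theorem Nc_bd (C : Finset (Finset (Finset (Sym2 (Fin n))))) (s : St (Sym2 (Fin n))) :
    Nc C s ≤ (Fintype.card (Finset (Finset (Sym2 (Fin n)))) : ℝ) := by
  unfold Nc
  exact_mod_cast card_le_univ _

theorem Q_bd (A : Finset (Sym2 (Fin n))) : Q (toSt (BK n) A) ≤ NN n := card_le_NN A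

/-- all crude bounds together -/
theorem crude (n : ℕ) : ∃ M : ℝ, 0 ≤ M ∧ ∀ (A : Finset (Sym2 (Fin n))) (u : ℝ), 0 < u → u ≤ 1 →
    Q (toSt (BK n) A) ≤ M ∧
    S 2 u (toSt (BK n) A) ≤ M ∧ S 4 u (toSt (BK n) A) ≤ M ∧ S 6 u (toSt (BK n) A) ≤ M ∧
    |dS 2 u (toSt (BK n) A)| ≤ M ∧ |dS 4 u (toSt (BK n) A)| ≤ M ∧
    |dS 6 u (toSt (BK n) A)| ≤ M ∧
    Sb u (toSt (BK n) A) ≤ M ∧ |dSb u (toSt (BK n) A)| ≤ M ∧ XX u A ≤ M ∧ |dXX u A| ≤ M ∧
    ∀ C : Finset (Finset (Finset (Sym2 (Fin n)))), Nc C (toSt (BK n) A) ≤ M := by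
  have hb : 0 ≤ bb n := by linarith [bb_pos n]
  have hN := NN_nonneg n
  refine ⟨NN n + NN n * bb n ^ 2 + NN n * bb n ^ 4 + NN n * bb n ^ 6
    + NN n * (((2 : ℕ) : ℝ) * bb n ^ (2 - 1) * bb n) + NN n * (((4 : ℕ) : ℝ) * bb n ^ (4 - 1) * bb n)
    + NN n * (((6 : ℕ) : ℝ) * bb n ^ (6 - 1) * bb n) + NN n * (bb n * (NN n * bb n)) ^ 2
    + NN n * (2 * (bb n * (NN n * bb n)) * (2 * (bb n * (NN n * bb n))))
    + (n : ℝ) * (n * ((n : ℝ) + 1) ^ 2) + (n : ℝ) * (n * (2 * ((n : ℝ) + 1) * n))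
    + (Fintype.card (Finset (Finset (Sym2 (Fin n)))) : ℝ), by positivity, ?_⟩
  intro A u hu hu1
  have q1 : 0 ≤ NN n * bb n ^ 2 := by positivity
  have q2 : 0 ≤ NN n * bb n ^ 4 := by positivity
  have q3 : 0 ≤ NN n * bb n ^ 6 := by positivity
  have q4 : 0 ≤ NN n * (((2 : ℕ) : ℝ) * bb n ^ (2 - 1) * bb n) := by positivity
  have q5 : 0 ≤ NN n * (((4 : ℕ) : ℝ) * bb n ^ (4 - 1) * bb n) := by positivity
  have q6 : 0 ≤ NN n * (((6 : ℕ) : ℝ) * bb n ^ (6 - 1) * bb n) := by positivity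
  have q7 : 0 ≤ NN n * (bb n * (NN n * bb n)) ^ 2 := by positivity
  have q8 : 0 ≤ NN n * (2 * (bb n * (NN n * bb n)) * (2 * (bb n * (NN n * bb n)))) := by
    positivity
  have q9 : 0 ≤ (n : ℝ) * (n * ((n : ℝ) + 1) ^ 2) := by positivity
  have q10 : 0 ≤ (n : ℝ) * (n * (2 * ((n : ℝ) + 1) * n)) := by positivity
  have q11 : (0 : ℝ) ≤ (Fintype.card (Finset (Finset (Sym2 (Fin n)))) : ℝ) := Nat.cast_nonneg _
  have a1 := Q_bd A
  have a2 := (le_abs_self _).trans (S_bd 2 hu hu1 A)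
  have a3 := (le_abs_self _).trans (S_bd 4 hu hu1 A)
  have a4 := (le_abs_self _).trans (S_bd 6 hu hu1 A)
  have a5 := dS_bd 2 hu hu1 A
  have a6 := dS_bd 4 hu hu1 A
  have a7 := dS_bd 6 hu hu1 A
  have a8 := (le_abs_self _).trans (Sb_bd hu hu1 A)
  have a9 := dSb_bd hu hu1 A
  have a10 := (le_abs_self _).trans (XX_bd hu hu1 A)
  have a11 := dXX_bd hu hu1 A
  refine ⟨?_, ?_, ?_, ?_, ?_, ?_, ?_, ?_, ?_, ?_, ?_, ?_⟩
  · linarith
  · linarith
  · linarith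
  · linarith
  · linarith
  · linarith
  · linarith
  · linarith
  · linarith
  · linarith
  · linarith
  · intro C
    have := Nc_bd C (toSt (BK n) A)
    linarith

/-- one time step for `XX` -/
theorem XX_step {u h : ℝ} (hu : 0 < u) (hh : 0 < h) (hu1 : u + 2 * h ≤ 1)
    (A : Finset (Sym2 (Fin n))) :
    XX (u + 2 * h) A ≤ XX u A + n * (n * (4 * h * n * (n + 1))) := by
  have hn : (0 : ℝ) ≤ n := Nat.cast_nonneg n
  have key : |XX (u + 2 * h) A - XX u A| ≤ n * (n * (4 * h * n * (n + 1))) := by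
    unfold XX
    rw [← sum_sub_distrib]
    refine abs_sum_bd _ _ _ _ (card_univ_le n) (by positivity) fun a _ => ?_
    rw [← sum_sub_distrib]
    refine abs_sum_bd _ _ _ _ (card_erase_le a) (by positivity) fun b _ => ?_
    have e1 : ((u + 2 * h) * cd A a b - 1) ^ 2 - (u * cd A a b - 1) ^ 2 =
        2 * h * cd A a b * (((u + 2 * h) * cd A a b - 1) + (u * cd A a b - 1)) := by ring
    rw [e1, abs_mul, abs_mul, abs_mul, abs_two, abs_of_pos hh, abs_of_nonneg (cd_nonneg A a b)]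
    have h1 := y_bd (u := u + 2 * h) (by linarith) hu1 A a b
    have h2 := y_bd (u := u) hu (by linarith) A a b
    have h3 := cd_le A a b
    have h4 := cd_nonneg A a b
    have h5 := (abs_add_le ((u + 2 * h) * cd A a b - 1) (u * cd A a b - 1)).trans
      (add_le_add h1 h2)
    calc 2 * h * cd A a b * |(u + 2 * h) * cd A a b - 1 + (u * cd A a b - 1)|
        ≤ 2 * h * n * (n + 1 + (n + 1)) := by gcongr
      _ = 4 * h * n * (n + 1) := by ring
  have := (abs_le.1 key).2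
  linarith

theorem t0_pos : 0 < t0 e0 := by unfold t0 e0; norm_num

theorem u0_four (n : ℕ) (hn : 10 ^ 16 ≤ n) : ∃ w : ℝ, 10 ^ 4 ≤ w ∧ (n : ℝ) = w ^ 4 ∧
    u0 n ^ 4 ≤ 1 / w ^ 15 := by
  have hnR : (10 : ℝ) ^ 16 ≤ n := by exact_mod_cast hn
  have hn1 : (1 : ℝ) ≤ n := le_trans (by norm_num) hnR
  have hn0 : (0 : ℝ) < n := by linarith
  refine ⟨(n : ℝ) ^ (1 / 4 : ℝ), ?_, ?_, ?_⟩
  · have h1 : ((10 : ℝ) ^ 16) ^ (1 / 4 : ℝ) ≤ (n : ℝ) ^ (1 / 4 : ℝ) :=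
      Real.rpow_le_rpow (by positivity) hnR (by norm_num)
    have h2 : ((10 : ℝ) ^ 16) ^ (1 / 4 : ℝ) = 10 ^ 4 := by
      rw [← Real.rpow_natCast, ← Real.rpow_mul (by norm_num), ← Real.rpow_natCast]
      norm_num
    rwa [h2] at h1
  · rw [← Real.rpow_natCast, ← Real.rpow_mul hn0.le]
    norm_num
  · unfold u0 c0
    rw [← Real.rpow_natCast, ← Real.rpow_natCast, ← Real.rpow_mul hn0.le, ← Real.rpow_mul hn0.le]
    have e : 1 / (n : ℝ) ^ ((1 / 4 : ℝ) * ((15 : ℕ) : ℝ)) =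
        (n : ℝ) ^ (-((1 / 4 : ℝ) * ((15 : ℕ) : ℝ))) := by rw [Real.rpow_neg hn0.le, one_div]
    rw [e]
    apply Real.rpow_le_rpow_of_exponent_le hn1
    norm_num

theorem S6_x {u t : ℝ} (ht : 0 ≤ t) {A : Finset (Sym2 (Fin n))}
    (h : S 6 u (toSt (BK n) A) ≤ t ^ 6) {e : Sym2 (Fin n)} (he : e ∈ A) :
    |xv u (toSt (BK n) A) e| ≤ t := by
  have h1 : xv u (toSt (BK n) A) e ^ 6 ≤ S 6 u (toSt (BK n) A) :=
    single_le_sum (f := fun e => xv u (toSt (BK n) A) e ^ 6)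
      (fun i _ => by positivity) (show e ∈ (toSt (BK n) A).B from he)
  have h2 : |xv u (toSt (BK n) A) e| ^ 6 ≤ t ^ 6 := by
    rw [← abs_pow, abs_of_nonneg (by positivity)]
    exact h1.trans h
  exact le_of_pow_le_pow_left₀ (by norm_num) ht h2

end EA

open EA in
/-- the invariants after a time step from a good state -/
theorem good_step : ∃ n0 : ℕ, ∀ n : ℕ, n0 ≤ n → ∃ h1 : ℝ, 0 < h1 ∧ ∀ h u : ℝ, 0 < h → h ≤ h1 →
    1 / ((n : ℝ) - 2) ≤ u → u + 2 * h ≤ u0 n → ∀ A : Finset (Sym2 (Fin n)), A ⊆ tr univ →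
    GoodE n u A →
    Inv (BK n) (2 * t0 e0) (u + 2 * h) (toSt (BK n) A) ∧
    10 ^ 12 * XX (u + 2 * h) A ≤ (1 / (u + 2 * h)) ^ 2 ∧
    (10 : ℝ) ^ 12 * n ^ 3 ≤ (1 / (u + 2 * h)) ^ 4 ∧
    100 ≤ 1 / (u + 2 * h) ∧ 1 / (u + 2 * h) ≤ n := by
  refine ⟨10 ^ 16, fun n hn => ?_⟩
  obtain ⟨w, hw, hnw, hu04⟩ := u0_four n hn
  have hnR : (10 : ℝ) ^ 16 ≤ n := by exact_mod_cast hn
  have hn0 : (0 : ℝ) < n := lt_of_lt_of_le (by norm_num) hnR
  have hbb := bb_pos n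
  have ht := t0_pos
  refine ⟨min (t0 e0 / (2 * bb n)) (1 / (10 ^ 14 * (n : ℝ) ^ 4)), by positivity, ?_⟩
  intro h u hh hh1 hu hu0 A hA hG
  have hha : h ≤ t0 e0 / (2 * bb n) := hh1.trans (min_le_left _ _)
  have hhb : h ≤ 1 / (10 ^ 14 * (n : ℝ) ^ 4) := hh1.trans (min_le_right _ _)
  have hn2 : (0 : ℝ) < (n : ℝ) - 2 := by linarith
  have hun : 1 / (n : ℝ) ≤ u := by
    refine le_trans ?_ hu
    exact one_div_le_one_div_of_le hn2 (by linarith)
  have hupos : 0 < u := lt_of_lt_of_le (by positivity) hun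
  have hv : 0 < u + 2 * h := by linarith
  have hw0 : 0 < w := by linarith
  have hv4 : (u + 2 * h) ^ 4 ≤ 1 / w ^ 15 := by
    refine le_trans ?_ hu04
    exact pow_le_pow_left₀ hv.le hu0 4
  have hw3 : (10 : ℝ) ^ 12 ≤ w ^ 3 := by
    calc (10 : ℝ) ^ 12 = (10 ^ 4) ^ 3 := by norm_num
      _ ≤ w ^ 3 := pow_le_pow_left₀ (by norm_num) hw 3
  have hw1 : 1 ≤ w := by linarith
  have hv100 : u + 2 * h ≤ 1 / 100 := by
    by_contra hc
    push Not at hc
    have h1 : (1 / 100 : ℝ) ^ 4 < (u + 2 * h) ^ 4 := pow_lt_pow_left₀ hc (by norm_num) (by norm_num)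
    have h2 : 1 / w ^ 15 ≤ 1 / 10 ^ 12 := by
      apply one_div_le_one_div_of_le (by norm_num)
      calc (10 : ℝ) ^ 12 ≤ w ^ 3 := hw3
        _ ≤ w ^ 15 := pow_le_pow_right₀ hw1 (by norm_num)
    have h3 : (1 / 100 : ℝ) ^ 4 < 1 / 10 ^ 12 := by linarith
    norm_num at h3
  have hu1 : u + 2 * h ≤ 1 := by linarith
  have hhn4 : h * (10 ^ 14 * (n : ℝ) ^ 4) ≤ 1 := by
    rwa [le_div_iff₀ (by positivity)] at hhb
  refine ⟨?_, ?_, ?_, ?_, ?_⟩
  · refine inv_toSt _ _ _ (by linarith) A fun e he => ?_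
    have h1 := S6_x ht.le hG.1 he
    have e1 : xv (u + 2 * h) (toSt (BK n) A) e = xv u (toSt (BK n) A) e
        + 2 * h * dW (bl (BK n) A) e := by
      rw [xv_of_mem he, xv_of_mem he]; ring
    rw [e1]
    have h2 : |2 * h * dW (bl (BK n) A) e| ≤ t0 e0 := by
      have h3 := dW_nonneg (bl (BK n) A) e
      rw [abs_of_nonneg (by positivity)]
      have h4 : h * (2 * bb n) ≤ t0 e0 := by rwa [le_div_iff₀ (by positivity)] at hha
      have h5 := dW_le A e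
      calc 2 * h * dW (bl (BK n) A) e ≤ 2 * h * bb n := by gcongr
        _ = h * (2 * bb n) := by ring
        _ ≤ _ := h4
    calc _ ≤ _ := abs_add_le _ _
      _ ≤ t0 e0 + t0 e0 := add_le_add h1 h2
      _ = _ := by ring
  · have h1 := XX_step hupos hh hu1 A
    have hX0 : 0 ≤ XX u A := sum_nonneg fun _ _ => sum_nonneg fun _ _ => sq_nonneg _
    have hG2 := hG.2
    have h2 : (n : ℝ) * (n * (4 * h * n * (n + 1))) ≤ 8 / 10 ^ 14 := by
      have h3 : (n : ℝ) + 1 ≤ 2 * n := by linarith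
      calc (n : ℝ) * (n * (4 * h * n * (n + 1))) ≤ (n : ℝ) * (n * (4 * h * n * (2 * n))) := by
            gcongr
        _ = 8 / 10 ^ 14 * (h * (10 ^ 14 * (n : ℝ) ^ 4)) := by ring
        _ ≤ 8 / 10 ^ 14 * 1 := by gcongr
        _ = _ := mul_one _
    have h3 : 2 * h ≤ u / 10 := by
      have h4 : h * (10 ^ 14 * (n : ℝ) ^ 4) = (20 * h * n) * (5 * 10 ^ 12 * (n : ℝ) ^ 3) := by
        ring
      rw [h4] at hhn4
      have h5 : (1 : ℝ) ≤ 5 * 10 ^ 12 * (n : ℝ) ^ 3 := by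
        have : (1 : ℝ) ≤ (n : ℝ) ^ 3 := one_le_pow₀ (by linarith)
        nlinarith
      have h6 : 20 * h * n ≤ 1 := by
        by_contra hc
        push Not at hc
        nlinarith
      have h7 : 20 * h ≤ 1 / n := by rwa [le_div_iff₀ hn0]
      linarith
    have h4 : (u + 2 * h) ^ 2 ≤ 121 / 100 * u ^ 2 := by
      calc (u + 2 * h) ^ 2 ≤ (11 / 10 * u) ^ 2 := pow_le_pow_left₀ hv.le (by linarith) 2
        _ = _ := by ring
    rw [div_pow, one_pow, le_div_iff₀ (by positivity)]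
    have h5 : XX (u + 2 * h) A ≤ XX u A + 8 / 10 ^ 14 := by linarith
    calc 10 ^ 12 * XX (u + 2 * h) A * (u + 2 * h) ^ 2
        ≤ 10 ^ 12 * (XX u A + 8 / 10 ^ 14) * (121 / 100 * u ^ 2) := by gcongr
      _ = 121 / 200 * (2 * 10 ^ 12 * XX u A * u ^ 2) + 968 / 10000 * u ^ 2 := by ring
      _ ≤ 121 / 200 * 1 + 968 / 10000 * 1 := by
        have h6 : u ^ 2 ≤ 1 := by nlinarith
        gcongr
      _ ≤ 1 := by norm_num
  · rw [div_pow, one_pow, le_div_iff₀ (by positivity)]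
    calc 10 ^ 12 * (n : ℝ) ^ 3 * (u + 2 * h) ^ 4 ≤ w ^ 3 * (w ^ 4) ^ 3 * (1 / w ^ 15) := by
          rw [← hnw]
          gcongr
      _ = 1 := by field_simp
  · rw [le_div_iff₀ hv]
    linarith
  · rw [div_le_iff₀ hv]
    have := mul_le_mul_of_nonneg_left hun hn0.le
    rw [mul_one_div_cancel hn0.ne'] at this
    nlinarith

end

end Vale.Agent.P046.NL
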