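import Vale.Agent.P046.NL.Defs3

/-! P046: the strong scalar inequality of the early phase -/

namespace Vale.Agent.P046.NL

open Finset Vale.Agent.P046

noncomputable section

namespace ScalES

theorem core (u q S2 S4 S6 b X N6 N8 X1 M R W K Y N Pe P12 V11 V15 Z t e : ℝ)
    (he : e = 1 / 4000000) (_ht0 : 0 ≤ t) (ht : t ≤ 1 / 1000)
    (hu0 : 0 < u) (hu8 : u ≤ 1 / 10000) (hq : 0 ≤ q) (h2 : 0 ≤ S2) (h4 : 0 ≤ S4) (h6 : 0 ≤ S6)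
    (hb : 0 ≤ b) (hXX : 0 ≤ X) (hN6 : 0 ≤ N6) (hN8 : 0 ≤ N8)
    (hR : 0 ≤ R) (hW : 0 ≤ W) (hK : 0 ≤ K) (hY : 0 ≤ Y) (hPe : 0 ≤ Pe) (hP : 0 ≤ P12)
    (hV11 : 0 ≤ V11) (hV15 : 0 ≤ V15)
    (hX : (P12 + Pe) * |X1| ≤ (e / 8) * Pe * q + (8 / e) * S2)
    (H1 : 1 ≤ M) (H2 : M * R * 10000 * u ≤ (e / 32) * Pe)
    (H3 : M * (1000 / e * W * 10000 * u ^ 2) ≤ (e / 32) * Pe)
    (H4 : M * (K * 10000 * u ^ 3) ≤ (e / 32) * Pe)
    (H5 : W * 25650 * u ^ 2 ≤ (e / 32) * Pe)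
    (H6 : 8 / e ≤ R / 4) (H6b : W * 200 * u ≤ R / 4) (H6c : Y * 100 * (N * u) ^ 2 ≤ R / 4)
    (H7 : M * (Y * (100 * u * N ^ 2)) ≤ Z)
    (H9 : W * 207360 * u ^ 4 ≤ 3 / 10 * V11) (H10 : W * 207360 * u ^ 4 ≤ 3 / 10 * V15) :
    P12 * (-(q + X1) + q) - Pe * (-(q + X1) + (1 + e / 2) * q)
    + M *
      (R * (10000 * (S2 + u * q) - 10002 * S2)
        + 1000 / e * W * (10000 * (S4 + u ^ 2 * q) - 10002 * S4)
        + K * (10000 * (S6 + u ^ 3 * q) - 10002 * S6)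
        + Y * (10 * X + 100 * (N * u) ^ 2 * S2 + 100 * u * N ^ 2 - 10002 * X))
    + W *
      (-(1 - 2 * t - 1 / 16 - 1 / 16) * b + 320 * S4 + 1 / 16 * b + 25600 * u ^ 2 * q
        + 200 * u * S2 + (50 * u ^ 2 * q + 207360 * u ^ 4 * (N6 + N8)))
    + V11 * (-(6 * (1 - 2 * t) - 100 * u) * N6 + 11 / 2 * N6)
    + V15 * (-(8 * (1 - 2 * t) - 100 * u) * N8 + 15 / 2 * N8)
      ≤ Z - (e / 8 * Pe * q + 1 / 2 * R * M * S2) := by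
  have hM : 0 ≤ M := by linarith
  -- the terms with `X1`
  have a1 : -(P12 * X1) + Pe * X1 ≤ (P12 + Pe) * |X1| := by
    have e1 : -(P12 * X1) ≤ P12 * |X1| := by
      rw [← mul_neg]; exact mul_le_mul_of_nonneg_left (neg_le_abs X1) hP
    have e2 : Pe * X1 ≤ Pe * |X1| := mul_le_mul_of_nonneg_left (le_abs_self X1) hPe
    linarith
  have i1 := mul_le_mul_of_nonneg_right H2 hq
  have i2 := mul_le_mul_of_nonneg_right H3 hq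
  have i3 := mul_le_mul_of_nonneg_right H4 hq
  have i4 := mul_le_mul_of_nonneg_right H5 hq
  have i5 : 0 ≤ Pe * q := mul_nonneg hPe hq
  have j1 := mul_le_mul_of_nonneg_right H6 h2
  have j2 := mul_le_mul_of_nonneg_right H6b h2
  have j3 := mul_le_mul_of_nonneg_left (mul_le_mul_of_nonneg_right H6c h2) hM
  have j4 : R * S2 ≤ M * (R * S2) := le_mul_of_one_le_left (mul_nonneg hR h2) H1
  have k1 : W * S4 ≤ M * (W * S4) := le_mul_of_one_le_left (mul_nonneg hW h4) H1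
  have k1' : 0 ≤ W * S4 := mul_nonneg hW h4
  have k2 : 0 ≤ M * (K * S6) := mul_nonneg hM (mul_nonneg hK h6)
  have k3 : 0 ≤ M * (Y * X) := mul_nonneg hM (mul_nonneg hY hXX)
  have b1 : 0 ≤ W * b := mul_nonneg hW hb
  have b2 : t * (W * b) ≤ 1 / 1000 * (W * b) := mul_le_mul_of_nonneg_right ht b1
  have n1 := mul_le_mul_of_nonneg_right H9 hN6
  have n2 := mul_le_mul_of_nonneg_right H10 hN8
  have n3 : 0 ≤ V11 * N6 := mul_nonneg hV11 hN6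
  have n4 : 0 ≤ V15 * N8 := mul_nonneg hV15 hN8
  have n5 : t * (V11 * N6) ≤ 1 / 1000 * (V11 * N6) := mul_le_mul_of_nonneg_right ht n3
  have n6 : t * (V15 * N8) ≤ 1 / 1000 * (V15 * N8) := mul_le_mul_of_nonneg_right ht n4
  have n7 : u * (V11 * N6) ≤ 1 / 10000 * (V11 * N6) := mul_le_mul_of_nonneg_right hu8 n3
  have n8 : u * (V15 * N8) ≤ 1 / 10000 * (V15 * N8) := mul_le_mul_of_nonneg_right hu8 n4
  subst he
  norm_num at hX i1 i2 i3 i4 j1 ⊢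
  ring_nf at hX a1 i1 i2 i3 i4 i5 j1 j2 j3 j4 k1 k1' k2 k3 b1 b2 n1 n2 n3 n4 n5 n6 n7 n8 H7 ⊢
  linarith

theorem main (N κ u U : ℝ) (hκ : κ = 1 / 10 ^ 120) (hN : 3 ≤ N) (hL : N ^ (-(1 / 20) : ℝ) ≤ κ)
    (hU : U = N ^ (-1 + 2 * c0 : ℝ)) (hu1 : 1 / (N - 2) ≤ u) (huU : u ≤ U)
    (q S2 S4 S6 b X N6 N8 X1 : ℝ) (hq : 0 ≤ q) (h2 : 0 ≤ S2) (h4 : 0 ≤ S4) (h6 : 0 ≤ S6)
    (hb : 0 ≤ b) (hXX : 0 ≤ X) (hN6 : 0 ≤ N6) (hN8 : 0 ≤ N8)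
    (hX1 : ∀ mu : ℝ, 0 < mu → 2 * |X1| ≤ mu * q + S2 / mu) :
    u ^ (1 / 2 : ℝ) * (-(q + X1) + q) - u ^ (1 / 2 + e0 / 4 : ℝ) * (-(q + X1) + (1 + e0 / 2) * q)
    + U ^ (5001 : ℝ) * u ^ (-5001 : ℝ) *
      (N ^ (1 / 10 : ℝ) * (10000 * (S2 + u * q) - 10002 * S2)
        + 1000 / e0 * U ^ (-(1 / 2 + e0) : ℝ) * (10000 * (S4 + u ^ 2 * q) - 10002 * S4)
        + N ^ 2 / t0 e0 ^ 6 * (10000 * (S6 + u ^ 3 * q) - 10002 * S6)
        + 2 * 10 ^ 12 * N ^ 2 * U ^ 2 *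
          (10 * X + 100 * (N * u) ^ 2 * S2 + 100 * u * N ^ 2 - 10002 * X))
    + U ^ (-(1 / 2 + e0) : ℝ) *
      (-(1 - 2 * t0 e0 - 1 / 16 - 1 / 16) * b + 320 * S4 + 1 / 16 * b + 25600 * u ^ 2 * q
        + 200 * u * S2 + (50 * u ^ 2 * q + 207360 * u ^ 4 * (N6 + N8)))
    + u ^ (11 / 4 : ℝ) * (-(6 * (1 - 2 * t0 e0) - 100 * u) * N6 + 11 / 2 * N6)
    + 10 ^ 6 * U ^ (-(1 / 4 + e0) : ℝ) * u ^ (15 / 4 : ℝ) *
      (-(8 * (1 - 2 * t0 e0) - 100 * u) * N8 + 15 / 2 * N8)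
      ≤ u * N ^ (249 / 100 : ℝ) - (e0 / 8 * u ^ (1 / 2 + e0 / 4 : ℝ) * q
        + 1 / 2 * N ^ (1 / 10 : ℝ) * (U ^ (5001 : ℝ) * u ^ (-5001 : ℝ)) * S2) := by
  have hN0 : 0 < N := by linarith
  have hN1 : 1 ≤ N := by linarith
  have hκ0 : 0 < κ := by rw [hκ]; norm_num
  have he : e0 = 1 / 4000000 := rfl
  have hc : c0 = 1 / 1000000 := rfl
  have ht : t0 e0 = (1 / 4000000) ^ 2 / 10000 := by rw [t0, he]
  -- powers of `N`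
  have pm : ∀ {a a' : ℝ}, a ≤ a' → N ^ a ≤ N ^ a' := fun h => Real.rpow_le_rpow_of_exponent_le hN1 h
  have pa : ∀ a a' : ℝ, N ^ a * N ^ a' = N ^ (a + a') := fun a a' => (Real.rpow_add hN0 a a').symm
  have pp : ∀ a : ℝ, 0 < N ^ a := fun a => Real.rpow_pos_of_pos hN0 a
  have pκ : ∀ {a : ℝ}, a ≤ -(1 / 20) → N ^ a ≤ κ := fun h => (pm h).trans hL
  have pbig : 1 / κ ≤ N ^ (1 / 20 : ℝ) := by
    have : N ^ (-(1 / 20) : ℝ) = 1 / N ^ (1 / 20 : ℝ) := by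
      rw [Real.rpow_neg hN0.le]; exact (one_div _).symm
    rw [this] at hL
    rw [div_le_iff₀ hκ0]
    rw [div_le_iff₀ (pp _)] at hL
    linarith
  have hU0 : 0 < U := by rw [hU]; exact pp _
  have hUk : U ≤ κ := by rw [hU]; exact pκ (by rw [hc]; norm_num)
  have hU1 : U ≤ 1 := hUk.trans (by rw [hκ]; norm_num)
  have hu1' : N ^ (-1 : ℝ) ≤ u := by
    refine le_trans ?_ hu1
    rw [Real.rpow_neg_one, inv_eq_one_div]
    exact one_div_le_one_div_of_le (by linarith) (by linarith)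
  have hu0 : 0 < u := (pp _).trans_le hu1'
  have hu1'' : u ≤ 1 := huU.trans hU1
  have hUp : ∀ a : ℝ, U ^ a = N ^ ((-1 + 2 * c0) * a) := fun a => by
    rw [hU, ← Real.rpow_mul hN0.le]
  have uU : ∀ {a : ℝ}, 0 ≤ a → u ^ a ≤ U ^ a := fun h => Real.rpow_le_rpow hu0.le huU h
  have up : ∀ a : ℝ, 0 < u ^ a := fun a => Real.rpow_pos_of_pos hu0 a
  have Up : ∀ a : ℝ, 0 < U ^ a := fun a => Real.rpow_pos_of_pos hU0 a
  have ua : ∀ a a' : ℝ, u ^ a * u ^ a' = u ^ (a + a') := fun a a' => (Real.rpow_add hu0 a a').symm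
  have Ua : ∀ a a' : ℝ, U ^ a * U ^ a' = U ^ (a + a') := fun a a' => (Real.rpow_add hU0 a a').symm
  obtain ⟨M, hM⟩ : ∃ M, M = U ^ (5001 : ℝ) * u ^ (-5001 : ℝ) := ⟨_, rfl⟩
  obtain ⟨W, hW⟩ : ∃ W, W = U ^ (-(1 / 2 + e0) : ℝ) := ⟨_, rfl⟩
  obtain ⟨Pe, hPe⟩ : ∃ P, P = u ^ (1 / 2 + e0 / 4 : ℝ) := ⟨_, rfl⟩
  have hPe0 : 0 < Pe := by rw [hPe]; exact up _
  have hW0 : 0 < W := by rw [hW]; exact Up _
  have hM1 : 1 ≤ M := by
    have h := uU (a := 5001) (by norm_num)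
    have : (1 : ℝ) = u ^ (5001 : ℝ) * u ^ (-5001 : ℝ) := by
      rw [ua]; norm_num
    rw [this, hM]
    exact mul_le_mul_of_nonneg_right h (up _).le
  have hM2 : M ≤ N ^ (1 / 50 : ℝ) := by
    have h : u ^ (-5001 : ℝ) ≤ N ^ (5001 : ℝ) := by
      have := Real.rpow_le_rpow_of_nonpos (pp (-1)) hu1' (by norm_num : (-5001 : ℝ) ≤ 0)
      rwa [← Real.rpow_mul hN0.le, show (-1 : ℝ) * -5001 = 5001 by norm_num] at this
    rw [hM]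
    calc U ^ (5001 : ℝ) * u ^ (-5001 : ℝ) ≤ U ^ (5001 : ℝ) * N ^ (5001 : ℝ) :=
          mul_le_mul_of_nonneg_left h (Up _).le
      _ = N ^ ((-1 + 2 * c0) * 5001 + 5001) := by rw [hUp, pa]
      _ ≤ N ^ (1 / 50 : ℝ) := pm (by rw [hc]; norm_num)
  have hM0 : 0 ≤ M := by linarith
  have hNN : N ^ 2 = N ^ (2 : ℝ) := by norm_num
  have hUU : U ^ 2 = U ^ (2 : ℝ) := by norm_num
  have hNU : N ^ 2 * U ^ 2 ≤ N ^ (1 / 100 : ℝ) := by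
    rw [hNN, hUU, hUp, pa]
    exact pm (by rw [hc]; norm_num)
  have huk : u ≤ κ := huU.trans hUk
  -- powers of `u`
  have e1 : u = Pe * u ^ (1 / 2 - e0 / 4 : ℝ) := by
    rw [hPe, ua, show (1 / 2 + e0 / 4 + (1 / 2 - e0 / 4) : ℝ) = 1 by ring, Real.rpow_one]
  have e2 : u ^ 2 = Pe * u ^ (3 / 2 - e0 / 4 : ℝ) := by
    rw [hPe, ua, show (1 / 2 + e0 / 4 + (3 / 2 - e0 / 4) : ℝ) = 2 by ring]
    norm_num
  have e3 : u ^ 3 = Pe * u ^ (5 / 2 - e0 / 4 : ℝ) := by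
    rw [hPe, ua, show (1 / 2 + e0 / 4 + (5 / 2 - e0 / 4) : ℝ) = 3 by ring]
    norm_num
  have e4 : u ^ 4 = u ^ (11 / 4 : ℝ) * u ^ (5 / 4 : ℝ) := by
    rw [ua, show (11 / 4 + 5 / 4 : ℝ) = 4 by norm_num]
    norm_num
  have e5 : u ^ 4 = u ^ (15 / 4 : ℝ) * u ^ (1 / 4 : ℝ) := by
    rw [ua, show (15 / 4 + 1 / 4 : ℝ) = 4 by norm_num]
    norm_num
  have f1 : u ^ (1 / 2 - e0 / 4 : ℝ) ≤ N ^ (-(2 / 5) : ℝ) := by
    refine (uU (by rw [he]; norm_num)).trans ?_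
    rw [hUp]; exact pm (by rw [hc, he]; norm_num)
  have f2 : W * u ^ (3 / 2 - e0 / 4 : ℝ) ≤ N ^ (-(1 / 2) : ℝ) := by
    have h := uU (a := 3 / 2 - e0 / 4) (by rw [he]; norm_num)
    refine (mul_le_mul_of_nonneg_left h hW0.le).trans ?_
    rw [hW, Ua, hUp]; exact pm (by rw [hc, he]; norm_num)
  have f3 : u ^ (5 / 2 - e0 / 4 : ℝ) ≤ N ^ (-(12 / 5) : ℝ) := by
    refine (uU (by rw [he]; norm_num)).trans ?_
    rw [hUp]; exact pm (by rw [hc, he]; norm_num)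
  have f4 : W * u ^ (5 / 4 : ℝ) ≤ κ := by
    have h := uU (a := 5 / 4) (by norm_num)
    refine (mul_le_mul_of_nonneg_left h hW0.le).trans ?_
    rw [hW, Ua, hUp]; exact pκ (by rw [hc, he]; norm_num)
  have f5 : W * u ^ (1 / 4 : ℝ) ≤ U ^ (-(1 / 4 + e0) : ℝ) := by
    have h := uU (a := 1 / 4) (by norm_num)
    refine (mul_le_mul_of_nonneg_left h hW0.le).trans ?_
    rw [hW, Ua, show (-(1 / 2 + e0) + 1 / 4 : ℝ) = -(1 / 4 + e0) by ring]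
  have f6 : W * u ≤ 1 := by
    have h := uU (a := 1) (by norm_num)
    rw [Real.rpow_one] at h
    refine (mul_le_mul_of_nonneg_left h hW0.le).trans ?_
    rw [hW, Ua]
    exact Real.rpow_le_one hU0.le hU1 (by rw [he]; norm_num)
  have hR : 1 / κ ≤ N ^ (1 / 10 : ℝ) := pbig.trans (pm (by norm_num))
  -- apply the core inequality
  rw [← hM, ← hW, ← hPe]
  refine core u q S2 S4 S6 b X N6 N8 X1 M (N ^ (1 / 10 : ℝ)) W (N ^ 2 / t0 e0 ^ 6)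
    (2 * 10 ^ 12 * N ^ 2 * U ^ 2) N Pe (u ^ (1 / 2 : ℝ)) (u ^ (11 / 4 : ℝ))
    (10 ^ 6 * U ^ (-(1 / 4 + e0) : ℝ) * u ^ (15 / 4 : ℝ)) (u * N ^ (249 / 100 : ℝ)) (t0 e0) e0
    he (by rw [ht]; norm_num) (by rw [ht]; norm_num) hu0 (huk.trans (by rw [hκ]; norm_num)) hq h2
    h4 h6 hb hXX hN6 hN8 (pp _).le hW0.le (by rw [ht]; positivity) (by positivity) hPe0.le (up _).le
    (up _).le (mul_nonneg (mul_nonneg (by norm_num) (Up _).le) (up _).le) ?_ hM1 ?_ ?_ ?_ ?_ ?_ ?_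
    ?_ ?_ ?_ ?_
  · -- X1
    obtain ⟨mu, hmu⟩ : ∃ mu, mu = e0 / 8 * u ^ (e0 / 4 : ℝ) := ⟨_, rfl⟩
    have hmu0 : 0 < mu := by rw [hmu, he]; exact mul_pos (by norm_num) (up _)
    have h := hX1 mu hmu0
    have hPP : Pe ≤ u ^ (1 / 2 : ℝ) := by
      rw [hPe]
      exact Real.rpow_le_rpow_of_exponent_ge hu0 hu1'' (by rw [he]; norm_num)
    have h1 : (u ^ (1 / 2 : ℝ) + Pe) * |X1| ≤ u ^ (1 / 2 : ℝ) * (2 * |X1|) := by
      have := mul_le_mul_of_nonneg_right hPP (abs_nonneg X1)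
      linarith
    refine h1.trans ((mul_le_mul_of_nonneg_left h (up _).le).trans ?_)
    have g1 : u ^ (1 / 2 : ℝ) * mu = e0 / 8 * Pe := by
      rw [hmu, hPe, ← ua (1 / 2) (e0 / 4)]; ring
    have g2 : u ^ (1 / 2 : ℝ) / mu ≤ 8 / e0 := by
      rw [div_le_iff₀ hmu0, hmu]
      have : 8 / e0 * (e0 / 8 * u ^ (e0 / 4 : ℝ)) = u ^ (e0 / 4 : ℝ) := by
        rw [he]; ring
      rw [this]
      exact Real.rpow_le_rpow_of_exponent_ge hu0 hu1'' (by rw [he]; norm_num)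
    have g3 := mul_le_mul_of_nonneg_right g2 h2
    calc u ^ (1 / 2 : ℝ) * (mu * q + S2 / mu)
        = (u ^ (1 / 2 : ℝ) * mu) * q + u ^ (1 / 2 : ℝ) / mu * S2 := by ring
      _ ≤ e0 / 8 * Pe * q + 8 / e0 * S2 := by rw [g1]; linarith
  · -- H2
    have h : M * N ^ (1 / 10 : ℝ) * u ^ (1 / 2 - e0 / 4 : ℝ) ≤ κ := by
      calc M * N ^ (1 / 10 : ℝ) * u ^ (1 / 2 - e0 / 4 : ℝ)
          ≤ N ^ (1 / 50 : ℝ) * N ^ (1 / 10 : ℝ) * N ^ (-(2 / 5) : ℝ) :=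
            mul_le_mul (mul_le_mul_of_nonneg_right hM2 (pp _).le) f1 (up _).le
              (mul_nonneg (pp _).le (pp _).le)
        _ ≤ κ := by rw [pa, pa]; exact pκ (by norm_num)
    have h' := mul_le_mul_of_nonneg_left h hPe0.le
    have h3 : M * N ^ (1 / 10 : ℝ) * 10000 * u ≤ 10000 * (Pe * κ) := by
      calc M * N ^ (1 / 10 : ℝ) * 10000 * u
          = M * N ^ (1 / 10 : ℝ) * 10000 * (Pe * u ^ (1 / 2 - e0 / 4 : ℝ)) := by rw [← e1]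
        _ = 10000 * (Pe * (M * N ^ (1 / 10 : ℝ) * u ^ (1 / 2 - e0 / 4 : ℝ))) := by ring
        _ ≤ _ := by linarith
    refine h3.trans ?_
    have h4 : 10000 * κ ≤ e0 / 32 := by rw [hκ, he]; norm_num
    have := mul_le_mul_of_nonneg_left h4 hPe0.le
    linarith
  · -- H3
    have h : M * (W * u ^ (3 / 2 - e0 / 4 : ℝ)) ≤ κ := by
      calc M * (W * u ^ (3 / 2 - e0 / 4 : ℝ)) ≤ N ^ (1 / 50 : ℝ) * N ^ (-(1 / 2) : ℝ) :=
            mul_le_mul hM2 f2 (mul_nonneg hW0.le (up _).le) (pp _).le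
        _ ≤ κ := by rw [pa]; exact pκ (by norm_num)
    have h' := mul_le_mul_of_nonneg_left h hPe0.le
    have h3 : M * (1000 / e0 * W * 10000 * u ^ 2) ≤ 1000 / e0 * 10000 * (Pe * κ) := by
      rw [e2]
      calc M * (1000 / e0 * W * 10000 * (Pe * u ^ (3 / 2 - e0 / 4 : ℝ)))
          = 1000 / e0 * 10000 * (Pe * (M * (W * u ^ (3 / 2 - e0 / 4 : ℝ)))) := by ring
        _ ≤ _ := mul_le_mul_of_nonneg_left h' (by rw [he]; norm_num)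
    refine h3.trans ?_
    have h4 : 1000 / e0 * 10000 * κ ≤ e0 / 32 := by rw [hκ, he]; norm_num
    have := mul_le_mul_of_nonneg_left h4 hPe0.le
    linarith
  · -- H4
    have h : M * (N ^ 2 * u ^ (5 / 2 - e0 / 4 : ℝ)) ≤ κ := by
      rw [hNN]
      calc M * (N ^ (2 : ℝ) * u ^ (5 / 2 - e0 / 4 : ℝ))
          ≤ N ^ (1 / 50 : ℝ) * (N ^ (2 : ℝ) * N ^ (-(12 / 5) : ℝ)) :=
            mul_le_mul hM2 (mul_le_mul_of_nonneg_left f3 (pp _).le)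
              (mul_nonneg (pp _).le (up _).le) (pp _).le
        _ ≤ κ := by rw [pa, pa]; exact pκ (by norm_num)
    have h' := mul_le_mul_of_nonneg_left h hPe0.le
    have h3 : M * (N ^ 2 / t0 e0 ^ 6 * 10000 * u ^ 3) ≤ 10000 / t0 e0 ^ 6 * (Pe * κ) := by
      rw [e3]
      calc M * (N ^ 2 / t0 e0 ^ 6 * 10000 * (Pe * u ^ (5 / 2 - e0 / 4 : ℝ)))
          = 10000 / t0 e0 ^ 6 * (Pe * (M * (N ^ 2 * u ^ (5 / 2 - e0 / 4 : ℝ)))) := by ring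
        _ ≤ _ := mul_le_mul_of_nonneg_left h' (by rw [ht]; positivity)
    refine h3.trans ?_
    have h4 : 10000 / t0 e0 ^ 6 * κ ≤ e0 / 32 := by rw [hκ, he, t0]; norm_num
    have := mul_le_mul_of_nonneg_left h4 hPe0.le
    linarith
  · -- H5
    have h : W * u ^ (3 / 2 - e0 / 4 : ℝ) ≤ κ := f2.trans (pκ (by norm_num))
    have h' := mul_le_mul_of_nonneg_left h hPe0.le
    have h3 : W * 25650 * u ^ 2 ≤ 25650 * (Pe * κ) := by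
      rw [e2]
      calc W * 25650 * (Pe * u ^ (3 / 2 - e0 / 4 : ℝ))
          = 25650 * (Pe * (W * u ^ (3 / 2 - e0 / 4 : ℝ))) := by ring
        _ ≤ _ := by linarith
    refine h3.trans ?_
    have h4 : 25650 * κ ≤ e0 / 32 := by rw [hκ, he]; norm_num
    have := mul_le_mul_of_nonneg_left h4 hPe0.le
    linarith
  · -- H6
    have : 8 / e0 ≤ 1 / κ / 4 := by rw [hκ, he]; norm_num
    linarith
  · -- H6b
    have : (200 : ℝ) ≤ 1 / κ / 4 := by rw [hκ]; norm_num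
    linarith
  · -- H6c
    have h1 : (N * u) ^ 2 ≤ N ^ (1 / 100 : ℝ) := by
      refine le_trans ?_ hNU
      rw [mul_pow]
      have : u ^ 2 ≤ U ^ 2 := by gcongr
      exact mul_le_mul_of_nonneg_left this (by positivity)
    have h2' : 2 * 10 ^ 12 * N ^ 2 * U ^ 2 * 100 * (N * u) ^ 2
        ≤ 2 * 10 ^ 14 * (N ^ (1 / 100 : ℝ) * N ^ (1 / 100 : ℝ)) := by
      have := mul_le_mul hNU h1 (by positivity) (pp _).le
      calc 2 * 10 ^ 12 * N ^ 2 * U ^ 2 * 100 * (N * u) ^ 2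
          = 2 * 10 ^ 14 * ((N ^ 2 * U ^ 2) * (N * u) ^ 2) := by ring
        _ ≤ _ := by linarith
    refine h2'.trans ?_
    rw [pa]
    have h3 : N ^ (1 / 100 + 1 / 100 : ℝ) ≤ N ^ (1 / 20 : ℝ) := pm (by norm_num)
    have h4' : N ^ (1 / 20 : ℝ) * N ^ (1 / 20 : ℝ) = N ^ (1 / 10 : ℝ) := by
      rw [pa]; norm_num
    have h5 : (8 : ℝ) * 10 ^ 14 ≤ N ^ (1 / 20 : ℝ) := by
      refine le_trans ?_ pbig
      rw [hκ]; norm_num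
    have h6' := mul_le_mul_of_nonneg_right h5 (pp (1 / 20)).le
    rw [h4'] at h6'
    linarith
  · -- H7
    have h1 : M * (N ^ 2 * U ^ 2) * N ^ 2 ≤ N ^ (1 / 50 : ℝ) * N ^ (1 / 100 : ℝ) * N ^ (2 : ℝ) := by
      rw [← hNN]
      exact mul_le_mul_of_nonneg_right (mul_le_mul hM2 hNU (by positivity) (pp _).le)
        (by positivity)
    rw [pa, pa] at h1
    have h5 : (2 : ℝ) * 10 ^ 14 ≤ N ^ (1 / 20 : ℝ) := by
      refine le_trans ?_ pbig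
      rw [hκ]; norm_num
    have h6' : 2 * 10 ^ 14 * N ^ (1 / 50 + 1 / 100 + 2 : ℝ) ≤ N ^ (249 / 100 : ℝ) := by
      calc 2 * 10 ^ 14 * N ^ (1 / 50 + 1 / 100 + 2 : ℝ)
          ≤ N ^ (1 / 20 : ℝ) * N ^ (1 / 50 + 1 / 100 + 2 : ℝ) :=
            mul_le_mul_of_nonneg_right h5 (pp _).le
        _ ≤ _ := by rw [pa]; exact pm (by norm_num)
    calc M * (2 * 10 ^ 12 * N ^ 2 * U ^ 2 * (100 * u * N ^ 2))
        = u * (2 * 10 ^ 14 * (M * (N ^ 2 * U ^ 2) * N ^ 2)) := by ring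
      _ ≤ u * N ^ (249 / 100 : ℝ) := mul_le_mul_of_nonneg_left (by linarith) hu0.le
  · -- H9
    have h := mul_le_mul_of_nonneg_left f4 (up (11 / 4)).le
    have h4 : 207360 * κ ≤ 3 / 10 := by rw [hκ]; norm_num
    have := mul_le_mul_of_nonneg_left h4 (up (11 / 4)).le
    calc W * 207360 * u ^ 4 = 207360 * (u ^ (11 / 4 : ℝ) * (W * u ^ (5 / 4 : ℝ))) := by
          rw [e4]; ring
      _ ≤ _ := by linarith
  · -- H10
    have h := mul_le_mul_of_nonneg_left f5 (up (15 / 4)).le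
    have h0 : 0 ≤ U ^ (-(1 / 4 + e0) : ℝ) * u ^ (15 / 4 : ℝ) := mul_nonneg (Up _).le (up _).le
    calc W * 207360 * u ^ 4 = 207360 * (u ^ (15 / 4 : ℝ) * (W * u ^ (1 / 4 : ℝ))) := by
          rw [e5]; ring
      _ ≤ 207360 * (u ^ (15 / 4 : ℝ) * U ^ (-(1 / 4 + e0) : ℝ)) :=
          mul_le_mul_of_nonneg_left h (by norm_num)
      _ = 207360 * (U ^ (-(1 / 4 + e0) : ℝ) * u ^ (15 / 4 : ℝ)) := by ring
      _ ≤ 300000 * (U ^ (-(1 / 4 + e0) : ℝ) * u ^ (15 / 4 : ℝ)) :=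
          mul_le_mul_of_nonneg_right (by norm_num) h0
      _ = _ := by ring

end ScalES

/-- [SCALES] strong scalar inequality of the early phase -/
theorem scalar_early_strong : ∃ n0 : ℕ, ∀ n : ℕ, n0 ≤ n →
    ∀ u q S2 S4 S6 b X N6 N8 X1 : ℝ, 1 / ((n : ℝ) - 2) ≤ u → u ≤ u0 n → 0 ≤ q → 0 ≤ S2 →
    0 ≤ S4 → 0 ≤ S6 → 0 ≤ b → 0 ≤ X → 0 ≤ N6 → 0 ≤ N8 →
    (∀ mu : ℝ, 0 < mu → 2 * |X1| ≤ mu * q + S2 / mu) →
    u ^ (1 / 2 : ℝ) * (-(q + X1) + q) - u ^ (1 / 2 + e0 / 4 : ℝ) * (-(q + X1) + (1 + e0 / 2) * q)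
    + u0 n ^ (5001 : ℝ) * u ^ (-5001 : ℝ) *
      ((n : ℝ) ^ (1 / 10 : ℝ) * (10000 * (S2 + u * q) - 10002 * S2)
        + 1000 / e0 * u0 n ^ (-(1 / 2 + e0) : ℝ) * (10000 * (S4 + u ^ 2 * q) - 10002 * S4)
        + (n : ℝ) ^ 2 / t0 e0 ^ 6 * (10000 * (S6 + u ^ 3 * q) - 10002 * S6)
        + 2 * 10 ^ 12 * (n : ℝ) ^ 2 * u0 n ^ 2 *
          (10 * X + 100 * (n * u) ^ 2 * S2 + 100 * u * n ^ 2 - 10002 * X))
    + u0 n ^ (-(1 / 2 + e0) : ℝ) *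
      (-(1 - 2 * t0 e0 - 1 / 16 - 1 / 16) * b + 320 * S4 + 1 / 16 * b + 25600 * u ^ 2 * q
        + 200 * u * S2 + (50 * u ^ 2 * q + 207360 * u ^ 4 * (N6 + N8)))
    + u ^ (11 / 4 : ℝ) * (-(6 * (1 - 2 * t0 e0) - 100 * u) * N6 + 11 / 2 * N6)
    + 10 ^ 6 * u0 n ^ (-(1 / 4 + e0) : ℝ) * u ^ (15 / 4 : ℝ) *
      (-(8 * (1 - 2 * t0 e0) - 100 * u) * N8 + 15 / 2 * N8)
      ≤ u * (n : ℝ) ^ (249 / 100 : ℝ) - (e0 / 8 * u ^ (1 / 2 + e0 / 4 : ℝ) * q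
        + 1 / 2 * (n : ℝ) ^ (1 / 10 : ℝ) * (u0 n ^ (5001 : ℝ) * u ^ (-5001 : ℝ)) * S2) := by
  obtain ⟨κ, hκ⟩ : ∃ κ : ℝ, κ = 1 / 10 ^ 120 := ⟨_, rfl⟩
  have hκ0 : 0 < κ := by rw [hκ]; norm_num
  have h1 : Filter.Tendsto (fun n : ℕ => (n : ℝ) ^ (-(1 / 20) : ℝ)) Filter.atTop (nhds 0) :=
    (tendsto_rpow_neg_atTop (by norm_num : (0 : ℝ) < 1 / 20)).comp tendsto_natCast_atTop_atTop
  have h2 : ∀ᶠ n : ℕ in Filter.atTop, (n : ℝ) ^ (-(1 / 20) : ℝ) ≤ κ :=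
    h1.eventually_le_const hκ0
  obtain ⟨n1, hn1⟩ := Filter.eventually_atTop.1 h2
  refine ⟨max n1 3, fun n hn u q S2 S4 S6 b X N6 N8 X1 hu1 hu2 hq h2 h4 h6 hb hX hN6 hN8 hX1 => ?_⟩
  have h3 : (3 : ℝ) ≤ (n : ℝ) := by exact_mod_cast (le_max_right _ _).trans hn
  have h4' := hn1 n ((le_max_left _ _).trans hn)
  have h5 : u0 n = (n : ℝ) ^ (-1 + 2 * c0 : ℝ) := by rw [u0]
  exact ScalES.main n κ u (u0 n) hκ h3 h4' h5 hu1 hu2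
    q S2 S4 S6 b X N6 N8 X1 hq h2 h4 h6 hb hX hN6 hN8 hX1

end

end Vale.Agent.P046.NL
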