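import Vale.Agent.P046.NL.EarlyOf
import Vale.Agent.P046.NL.EARLYAux
import Vale.Agent.P046.NL.ScalE
import Vale.Agent.P046.NL.SCALES

/-! P046 no-log, rows EARLYCORE and EARLYSTRONG. -/

namespace Vale.Agent.P046.NL

open Finset Vale.Agent.P046

noncomputable section

/-- [EARLYCORE] -/
theorem early_core : ∃ n0 : ℕ, ∀ n : ℕ, n0 ≤ n →
    ∀ (C6 C8 : Finset (Finset (Finset (Sym2 (Fin n))))), Sys (BK n) C6 C8 →
    ∃ E h1 : ℝ, 0 ≤ E ∧ 0 < h1 ∧ ∀ h u : ℝ, 0 < h → h ≤ h1 → 1 / ((n : ℝ) - 2) ≤ u →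
      u + 2 * h ≤ u0 n → ∀ A : Finset (Sym2 (Fin n)), A ⊆ tr univ → GoodE n u A →
      PsiE n C6 C8 (u + 2 * h) A
        + h * ∑ T ∈ bl (BK n) A, (PsiE n C6 C8 (u + 2 * h) (A \ T) - PsiE n C6 C8 (u + 2 * h) A)
        ≤ PsiE n C6 C8 u A + h * (n : ℝ) ^ (249 / 100 : ℝ) + E * h ^ 2 := by
  obtain ⟨n1, hn1⟩ := scalar_early
  obtain ⟨n2, hn2⟩ := good_step
  refine ⟨max 3 (max n1 n2), ?_⟩
  intro n hn C6 C8 hS
  have h3 : 3 ≤ n := (le_max_left _ _).trans hn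
  have hsc : EC.ScalarE n (fun u _ _ => u * (n : ℝ) ^ (249 / 100 : ℝ)) :=
    hn1 n (((le_max_left _ _).trans (le_max_right _ _)).trans hn)
  have hgd : EC.GoodStep n := hn2 n (((le_max_right _ _).trans (le_max_right _ _)).trans hn)
  obtain ⟨E, h1, hE, hh1, H⟩ := early_of h3 _ hsc hgd C6 C8 hS
  refine ⟨E, h1, hE, hh1, ?_⟩
  intro h u hh hhm hum hu2 A hA hG
  have key := H h u hh hhm hum hu2 A hA hG
  have hn' : (3 : ℝ) ≤ n := by exact_mod_cast h3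
  have hv : 0 < u + 2 * h := by
    have : 0 < 1 / ((n : ℝ) - 2) := one_div_pos.mpr (by linarith)
    linarith
  have e1 : h * (1 / (u + 2 * h)) * ((u + 2 * h) * (n : ℝ) ^ (249 / 100 : ℝ)) =
      h * (n : ℝ) ^ (249 / 100 : ℝ) := by
    have e3 : (1 / (u + 2 * h)) * (u + 2 * h) = 1 := one_div_mul_cancel hv.ne'
    calc h * (1 / (u + 2 * h)) * ((u + 2 * h) * (n : ℝ) ^ (249 / 100 : ℝ)) =
        h * ((1 / (u + 2 * h)) * (u + 2 * h)) * (n : ℝ) ^ (249 / 100 : ℝ) := by ring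
      _ = _ := by rw [e3, mul_one]
  rw [e1] at key
  exact key

/-- [EARLYSTRONG] -/
theorem early_core_strong : ∃ n0 : ℕ, ∀ n : ℕ, n0 ≤ n →
    ∀ (C6 C8 : Finset (Finset (Finset (Sym2 (Fin n))))), Sys (BK n) C6 C8 →
    ∃ E h1 : ℝ, 0 ≤ E ∧ 0 < h1 ∧ ∀ h u : ℝ, 0 < h → h ≤ h1 → 1 / ((n : ℝ) - 2) ≤ u →
      u + 2 * h ≤ u0 n → ∀ A : Finset (Sym2 (Fin n)), A ⊆ tr univ → GoodE n u A →
      PsiE n C6 C8 (u + 2 * h) A
        + h * ∑ T ∈ bl (BK n) A, (PsiE n C6 C8 (u + 2 * h) (A \ T) - PsiE n C6 C8 (u + 2 * h) A)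
        ≤ PsiE n C6 C8 u A + h * (n : ℝ) ^ (249 / 100 : ℝ) + E * h ^ 2
          - h / (u + 2 * h) * (e0 / 8 * (u + 2 * h) ^ (1 / 2 + e0 / 4 : ℝ) * (A.card : ℝ)
            + 1 / 2 * (n : ℝ) ^ (1 / 10 : ℝ) * (u0 n ^ (5001 : ℝ) * (u + 2 * h) ^ (-5001 : ℝ)) *
              S 2 (u + 2 * h) (toSt (BK n) A)) := by
  obtain ⟨n1, hn1⟩ := scalar_early_strong
  obtain ⟨n2, hn2⟩ := good_step
  refine ⟨max 3 (max n1 n2), ?_⟩
  intro n hn C6 C8 hS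
  have h3 : 3 ≤ n := (le_max_left _ _).trans hn
  have hsc : EC.ScalarE n (fun u q S2 => u * (n : ℝ) ^ (249 / 100 : ℝ)
      - (e0 / 8 * u ^ (1 / 2 + e0 / 4 : ℝ) * q
        + 1 / 2 * (n : ℝ) ^ (1 / 10 : ℝ) * (u0 n ^ (5001 : ℝ) * u ^ (-5001 : ℝ)) * S2)) :=
    hn1 n (((le_max_left _ _).trans (le_max_right _ _)).trans hn)
  have hgd : EC.GoodStep n := hn2 n (((le_max_right _ _).trans (le_max_right _ _)).trans hn)
  obtain ⟨E, h1, hE, hh1, H⟩ := early_of h3 _ hsc hgd C6 C8 hS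
  refine ⟨E, h1, hE, hh1, ?_⟩
  intro h u hh hhm hum hu2 A hA hG
  have key := H h u hh hhm hum hu2 A hA hG
  have hn' : (3 : ℝ) ≤ n := by exact_mod_cast h3
  have hv : 0 < u + 2 * h := by
    have : 0 < 1 / ((n : ℝ) - 2) := one_div_pos.mpr (by linarith)
    linarith
  have e1 : h * (1 / (u + 2 * h)) * ((u + 2 * h) * (n : ℝ) ^ (249 / 100 : ℝ)) =
      h * (n : ℝ) ^ (249 / 100 : ℝ) := by
    have e3 : (1 / (u + 2 * h)) * (u + 2 * h) = 1 := one_div_mul_cancel hv.ne'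
    calc h * (1 / (u + 2 * h)) * ((u + 2 * h) * (n : ℝ) ^ (249 / 100 : ℝ)) =
        h * ((1 / (u + 2 * h)) * (u + 2 * h)) * (n : ℝ) ^ (249 / 100 : ℝ) := by ring
      _ = _ := by rw [e3, mul_one]
  have e2 : h / (u + 2 * h) = h * (1 / (u + 2 * h)) := by ring
  rw [mul_sub, e1] at key
  rw [e2]
  linarith

end

end Vale.Agent.P046.NL
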