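import Vale.Agent.P046.NL.DECORE
import Vale.Agent.P046.NL.EARLYCORE
import Vale.Agent.P046.NL.BADCORE

/-! P046, row DECORE, final form. -/

namespace Vale.Agent.P046.NL

open Finset Vale.Agent.P046

noncomputable section

/-- [DECORE] concentration in the early phase (`kap` fixed, `n` large) -/
theorem de_core (kap : ℝ) (hk : 0 < kap) (hk1 : kap ≤ 1) : ∃ n0 : ℕ, ∀ n : ℕ, n0 ≤ n →
    ∀ (C6 C8 : Finset (Finset (Finset (Sym2 (Fin n))))), Sys (BK n) C6 C8 → ∀ c : ℝ,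
    ∃ E h1 : ℝ, 0 ≤ E ∧ 0 < h1 ∧ ∀ h u : ℝ, 0 < h → h ≤ h1 → 1 / ((n : ℝ) - 2) ≤ u →
      u + 2 * h ≤ u0 n → ∀ A : Finset (Sym2 (Fin n)), A ⊆ tr univ → GoodE n u A →
      PsiDE n c kap C6 C8 (u + 2 * h) A
        + h * ∑ T ∈ bl (BK n) A,
          (PsiDE n c kap C6 C8 (u + 2 * h) (A \ T) - PsiDE n c kap C6 C8 (u + 2 * h) A)
        ≤ PsiDE n c kap C6 C8 u A + 2 * h * (n : ℝ) ^ (249 / 100 : ℝ) + E * h ^ 2 :=
  de_core_of early_core_strong bad_core kap hk hk1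

end

end Vale.Agent.P046.NL
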