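import Vale.Agent.P046.NL.Defs2
import Vale.Agent.P046.Chain

/-!
P046, removal of the logarithm: the calculus of `EV` (one step `st1`, invariants with overshoot,
positivity, monotonicity, Lyapunov principle), and the domination of the real process.
-/

namespace Vale.Agent.P046.NL

open Finset Vale.Agent.P046

noncomputable section

variable {α : Type} [DecidableEq α]

/-- one step of the process started at time `u`, applied to the functional `G` -/
def st1 (Bl : Finset (Finset α)) (th h : ℝ) (G : ℝ → St α → ℝ) (u : ℝ) (s : St α) : ℝ :=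
  G (u + 2 * h) (fixs th (u + 2 * h) s) +
    h * gen Bl (1 / (u + 2 * h)) (fun s' => G (u + 2 * h) (fixs th (u + 2 * h) s')) s

theorem EV_zero (Bl : Finset (Finset α)) (th h : ℝ) (F : ℝ → St α → ℝ) (u : ℝ) (s : St α) :
    EV Bl th h F 0 u s = F u s := rfl

theorem EV_succ (Bl : Finset (Finset α)) (th h : ℝ) (F : ℝ → St α → ℝ) (k : ℕ) (u : ℝ)
    (s : St α) : EV Bl th h F (k + 1) u s = st1 Bl th h (EV Bl th h F k) u s := rfl

/-- the last step first -/
theorem EV_succ' (Bl : Finset (Finset α)) (th h : ℝ) (F : ℝ → St α → ℝ) (k : ℕ) :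
    EV Bl th h (st1 Bl th h F) k = EV Bl th h F (k + 1) := by
  induction k with
  | zero => rfl
  | succ k ih =>
    ext u s
    rw [EV_succ, ih, EV_succ]

theorem GS.aa {Bl : Finset (Finset α)} {th th' u : ℝ} {s : St α} (h : GS Bl th th' u s) :
    ∀ e, |s.a e| ≤ th' := h.inv.bda

/-- parameters: `u0` = starting time, `U` = final time -/
structure Prm (Bl : Finset (Finset α)) (th th' h u0 U : ℝ) : Prop where
  lin : Lin3 Bl
  th0 : 0 ≤ th
  thle : th ≤ th'
  h0 : 0 ≤ h
  upos : 0 < u0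
  c1 : 2 * h * (1 + th) ≤ (th' - th) * u0
  c2 : 3 * U ≤ th' - th
  c3 : U ≤ 1 - th'
  c4 : h * (Bl.card : ℝ) * (1 + 3 * (1 + th') / u0) ≤ 1

/-! ### the detachment -/

theorem xv_fixs (th u : ℝ) (s : St α) (e : α) : xv u (fixs th u s) e = xv u s e := by
  by_cases h1 : e ∈ s.B
  · by_cases h2 : |xv u s e| ≤ th
    · have h3 : e ∈ (fixs th u s).B := mem_filter.mpr ⟨h1, h2⟩
      unfold xv
      rw [if_pos h3, if_pos h1]
      rfl
    · have h3 : e ∉ (fixs th u s).B := fun h => h2 (mem_filter.mp h).2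
      rw [xv, if_neg h3]
      rfl
  · have h3 : e ∉ (fixs th u s).B := fun h => h1 (mem_filter.mp h).1
    rw [xv, if_neg h3]
    rfl

theorem fixs_A (th u : ℝ) (s : St α) : (fixs th u s).A = s.A := rfl

theorem fixs_W (th u : ℝ) (s : St α) : (fixs th u s).W = s.W := rfl

theorem gs_fixs {Bl : Finset (Finset α)} {th th' u : ℝ} {s : St α} (h : Inv Bl th' u s) :
    GS Bl th th' u (fixs th u s) := by
  refine ⟨⟨h.sub, ?_, ?_, ?_, ?_, h.bd⟩, ?_⟩
  · intro T hT hTB
    exact h.full T hT (hTB.trans (filter_subset _ _))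
  · intro T hT e he
    have h1 := h.cov T hT he
    simp only [fixs, mem_union, mem_filter] at h1 ⊢
    tauto
  · rw [Finset.disjoint_left]
    intro e he he'
    have he1 := mem_filter.mp he
    rcases mem_union.mp he' with h2 | h2
    · exact Finset.disjoint_left.mp h.disj he1.1 h2
    · exact (mem_filter.mp h2).2 he1.2
  · intro e
    rw [xv_fixs]
    exact h.bd e
  · intro e he
    rw [xv_fixs]
    exact (mem_filter.mp he).2

/-! ### degrees -/

theorem dW_nonneg (W : Finset (Finset α)) (e : α) : 0 ≤ dW W e := by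
  unfold dW
  positivity

theorem dW_mono {W W' : Finset (Finset α)} (h : W ⊆ W') (e : α) : dW W e ≤ dW W' e := by
  unfold dW
  exact_mod_cast card_le_card (filter_subset_filter _ h)

theorem card_pair_le {Bl : Finset (Finset α)} (hB : Lin3 Bl) {e f : α} (hef : e ≠ f) :
    (Bl.filter (fun S => e ∈ S ∧ f ∈ S)).card ≤ 1 := by
  rw [card_le_one]
  intro S hS S' hS'
  rw [mem_filter] at hS hS'
  by_contra hne
  have h1 := hB.lin S hS.1 S' hS'.1 hne
  have h2 : ({e, f} : Finset α) ⊆ S ∩ S' := by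
    intro x hx
    simp only [mem_insert, mem_singleton] at hx
    rw [mem_inter]
    rcases hx with rfl | rfl
    · exact ⟨hS.2.1, hS'.2.1⟩
    · exact ⟨hS.2.2, hS'.2.2⟩
  have h3 := card_le_card h2
  rw [card_pair hef] at h3
  omega

theorem card_meet_le {Bl : Finset (Finset α)} (hB : Lin3 Bl) {e : α} {T : Finset α}
    (hT : T ∈ Bl) (he : e ∉ T) :
    (Bl.filter (fun S => e ∈ S ∧ ¬ Disjoint S T)).card ≤ 3 := by
  have h1 : Bl.filter (fun S => e ∈ S ∧ ¬ Disjoint S T) ⊆
      T.biUnion (fun f => Bl.filter (fun S => e ∈ S ∧ f ∈ S)) := by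
    intro S hS
    rw [mem_filter, not_disjoint_iff] at hS
    obtain ⟨h1, h2, f, h3, h4⟩ := hS
    rw [mem_biUnion]
    exact ⟨f, h4, mem_filter.mpr ⟨h1, h2, h3⟩⟩
  refine (card_le_card h1).trans (card_biUnion_le.trans ?_)
  calc ∑ f ∈ T, (Bl.filter (fun S => e ∈ S ∧ f ∈ S)).card ≤ ∑ _f ∈ T, 1 := by
        refine sum_le_sum fun f hf => card_pair_le hB ?_
        rintro rfl
        exact he hf
    _ = 3 := by rw [sum_const, hB.card3 T hT]; rfl

theorem dW_ring {Bl : Finset (Finset α)} (hB : Lin3 Bl) {s : St α} (hs : s.W ⊆ Bl) {T : Finset α}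
    (hT : T ∈ s.W) {e : α} (he : e ∉ T) : dW s.W e ≤ dW (ring s T).W e + 3 := by
  have h1 : s.W.filter (fun S => e ∈ S) ⊆ (ring s T).W.filter (fun S => e ∈ S) ∪
      Bl.filter (fun S => e ∈ S ∧ ¬ Disjoint S T) := by
    intro S hS
    rw [mem_filter] at hS
    rw [mem_union, mem_filter, mem_filter]
    by_cases h2 : Disjoint S T
    · left
      refine ⟨?_, hS.2⟩
      unfold ring
      simp only [mem_filter]
      refine ⟨hS.1, ?_, ?_⟩
      · rintro rfl
        exact he hS.2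
      · exact h2.mono_right inter_subset_left
    · right
      exact ⟨hs hS.1, hS.2, h2⟩
  have h2 := (card_le_card h1).trans (card_union_le _ _)
  have h3 := card_meet_le hB (hs hT) he
  unfold dW
  have h4 : (s.W.filter (fun S => e ∈ S)).card ≤
      ((ring s T).W.filter (fun S => e ∈ S)).card + 3 := by omega
  exact_mod_cast h4

theorem dW_erase (W : Finset (Finset α)) (T : Finset α) (e : α) :
    dW W e ≤ dW (W.erase T) e + 1 := by
  unfold dW
  have h1 : (W.erase T).filter (fun S => e ∈ S) = (W.filter (fun S => e ∈ S)).erase T := by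
    ext S
    simp only [mem_filter, mem_erase]
    tauto
  rw [h1]
  have h2 := pred_card_le_card_erase (s := W.filter (fun S => e ∈ S)) (a := T)
  have h3 : (W.filter (fun S => e ∈ S)).card ≤
      ((W.filter (fun S => e ∈ S)).erase T).card + 1 := by omega
  exact_mod_cast h3

/-! ### the invariants after one event -/

/-- a state whose degrees are smaller by at most 3 -/
theorem inv_of_close {Bl : Finset (Finset α)} {th th' h u : ℝ} {s s' : St α}
    (hs : GS Bl th th' u s) (hh : 0 ≤ h) (hu : 0 < u)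
    (c1 : 2 * h * (1 + th) ≤ (th' - th) * u) (c2 : 3 * (u + 2 * h) ≤ th' - th)
    (sub : s'.W ⊆ Bl) (full : ∀ T ∈ Bl, T ⊆ s'.B → T ∈ s'.W)
    (cov : ∀ T ∈ s'.W, T ⊆ s'.B ∪ s'.Z) (disj : Disjoint s'.B s'.Z)
    (hB : ∀ e ∈ s'.B, e ∈ s.B ∧ dW s'.W e ≤ dW s.W e ∧ dW s.W e ≤ dW s'.W e + 3)
    (ha : ∀ e, |s'.a e| ≤ th') : Inv Bl th' (u + 2 * h) s' := by
  refine ⟨sub, full, cov, disj, ?_, ha⟩
  intro e
  by_cases he : e ∈ s'.B
  · obtain ⟨h1, h2, h3⟩ := hB e he
    have h4 := hs.det e h1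
    unfold xv at h4 ⊢
    rw [if_pos h1] at h4
    rw [if_pos he]
    rw [abs_le] at h4 ⊢
    have h5 := dW_nonneg s'.W e
    have h6 := dW_nonneg s.W e
    constructor
    · nlinarith
    · -- (u+2h) dW' ≤ (u + 2h) dW ; u dW ≤ 1+th ; 2 h dW ≤ 2 h (1+th)/u
      have h7 : (u + 2 * h) * dW s'.W e ≤ (u + 2 * h) * dW s.W e :=
        mul_le_mul_of_nonneg_left h2 (by positivity)
      have h8 : 2 * h * dW s.W e * u ≤ (th' - th) * u := by
        have : 2 * h * (u * dW s.W e) ≤ 2 * h * (1 + th) :=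
          mul_le_mul_of_nonneg_left (by linarith) (by positivity)
        nlinarith
      have h9 := le_of_mul_le_mul_right h8 hu
      nlinarith
  · unfold xv
    rw [if_neg he]
    exact ha e

section steps

variable {Bl : Finset (Finset α)} {th th' h u : ℝ} {s : St α}

theorem inv_time (hs : GS Bl th th' u s) (hh : 0 ≤ h) (hu : 0 < u)
    (c1 : 2 * h * (1 + th) ≤ (th' - th) * u) (c2 : 3 * (u + 2 * h) ≤ th' - th) :
    Inv Bl th' (u + 2 * h) s := by
  refine inv_of_close hs hh hu c1 c2 hs.inv.sub hs.inv.full hs.inv.cov hs.inv.disj ?_ ?_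
  · intro e he
    exact ⟨he, le_rfl, by linarith⟩
  · exact hs.aa

theorem inv_ring (hlin : Lin3 Bl) (hs : GS Bl th th' u s) (hh : 0 ≤ h) (hu : 0 < u)
    (c1 : 2 * h * (1 + th) ≤ (th' - th) * u) (c2 : 3 * (u + 2 * h) ≤ th' - th)
    {T : Finset α} (hT : T ∈ s.W) : Inv Bl th' (u + 2 * h) (ring s T) := by
  refine inv_of_close hs hh hu c1 c2 ?_ ?_ ?_ ?_ ?_ ?_
  · exact (filter_subset _ _).trans hs.inv.sub
  · intro S hS hSB
    have hSB' : S ⊆ s.B \ T := hSB
    unfold ring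
    simp only [mem_filter]
    refine ⟨hs.inv.full S hS (hSB'.trans sdiff_subset), ?_, ?_⟩
    · rintro rfl
      have h1 := hlin.card3 S hS
      have h2 : S = ∅ := by
        rw [eq_empty_iff_forall_notMem]
        intro x hx
        exact (mem_sdiff.mp (hSB' hx)).2 hx
      rw [h2, card_empty] at h1
      omega
    · rw [Finset.disjoint_left]
      intro x hx hx'
      exact (mem_sdiff.mp (hSB' hx)).2 (mem_inter.mp hx').1
  · intro S hS e he
    have hS' : S ∈ s.W ∧ S ≠ T ∧ Disjoint S (T ∩ s.B) := by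
      unfold ring at hS
      simpa only [mem_filter] using hS
    have h1 := hs.inv.cov S hS'.1 he
    show e ∈ (s.B \ T) ∪ s.Z
    rw [mem_union] at h1 ⊢
    rcases h1 with h1 | h1
    · left
      rw [mem_sdiff]
      refine ⟨h1, fun h2 => ?_⟩
      exact Finset.disjoint_left.mp hS'.2.2 he (mem_inter.mpr ⟨h2, h1⟩)
    · exact Or.inr h1
  · exact hs.inv.disj.mono_left sdiff_subset
  · intro e he
    have he' : e ∈ s.B ∧ e ∉ T := mem_sdiff.mp he
    exact ⟨he'.1, dW_mono (filter_subset _ _) e, dW_ring hlin hs.inv.sub hT he'.2⟩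
  · exact hs.aa

theorem inv_virt (hs : GS Bl th th' u s) (hh : 0 ≤ h) (hu : 0 < u)
    (c1 : 2 * h * (1 + th) ≤ (th' - th) * u) (c2 : 3 * (u + 2 * h) ≤ th' - th)
    {T : Finset α} (hT : (T \ s.B).Nonempty) : Inv Bl th' (u + 2 * h) (virt s T) := by
  refine inv_of_close hs hh hu c1 c2 ?_ ?_ ?_ ?_ ?_ ?_
  · exact (erase_subset _ _).trans hs.inv.sub
  · intro S hS hSB
    have hSB' : S ⊆ s.B := hSB
    show S ∈ s.W.erase T
    rw [mem_erase]
    refine ⟨?_, hs.inv.full S hS hSB'⟩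
    rintro rfl
    obtain ⟨x, hx⟩ := hT
    exact (mem_sdiff.mp hx).2 (hSB' (mem_sdiff.mp hx).1)
  · intro S hS
    exact hs.inv.cov S (mem_of_mem_erase hS)
  · exact hs.inv.disj
  · intro e he
    have h1 : dW s.W e ≤ dW (s.W.erase T) e + 1 := dW_erase s.W T e
    exact ⟨he, dW_mono (erase_subset _ _) e, by
      show dW s.W e ≤ dW (s.W.erase T) e + 3
      linarith⟩
  · exact hs.aa

theorem inv_nring (hs : GS Bl th th' u s) (hh : 0 ≤ h) (hu : 0 < u)
    (c1 : 2 * h * (1 + th) ≤ (th' - th) * u) (c2 : 3 * (u + 2 * h) ≤ th' - th)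
    (T : Finset α) : Inv Bl th' (u + 2 * h) (nring s T) := by
  have h1 := inv_time hs hh hu c1 c2
  exact ⟨h1.sub, h1.full, h1.cov, h1.disj, h1.bd, h1.bda⟩

/-! ### the one-step operator -/

/-- total rate of the events -/
def rate (Bl : Finset (Finset α)) (r : ℝ) (s : St α) : ℝ :=
  (s.W.card : ℝ) + ∑ T ∈ s.W, ∑ f ∈ T \ s.B, (r * (1 + s.a f) - 1) +
    ((bl Bl s.A \ s.W).card : ℝ)

theorem gen_ge {Bl : Finset (Finset α)} {r : ℝ} {s : St α} {D : St α → ℝ}
    (hr : ∀ T ∈ s.W, ∀ f ∈ T \ s.B, 0 ≤ r * (1 + s.a f) - 1)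
    (h1 : ∀ T ∈ s.W, 0 ≤ D (ring s T))
    (h2 : ∀ T ∈ s.W, (T \ s.B).Nonempty → 0 ≤ D (virt s T))
    (h3 : ∀ T ∈ bl Bl s.A \ s.W, 0 ≤ D (nring s T)) :
    -(rate Bl r s) * D s ≤ gen Bl r D s := by
  unfold gen rate
  have e1 : ∑ _T ∈ s.W, (-D s) ≤ ∑ T ∈ s.W, (D (ring s T) - D s) :=
    sum_le_sum fun T hT => by linarith [h1 T hT]
  have e2 : ∑ T ∈ s.W, ∑ f ∈ T \ s.B, (r * (1 + s.a f) - 1) * (-D s) ≤
      ∑ T ∈ s.W, ∑ f ∈ T \ s.B, (r * (1 + s.a f) - 1) * (D (virt s T) - D s) := by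
    refine sum_le_sum fun T hT => sum_le_sum fun f hf => ?_
    refine mul_le_mul_of_nonneg_left ?_ (hr T hT f hf)
    linarith [h2 T hT ⟨f, hf⟩]
  have e3 : ∑ _T ∈ bl Bl s.A \ s.W, (-D s) ≤
      ∑ T ∈ bl Bl s.A \ s.W, (D (nring s T) - D s) :=
    sum_le_sum fun T hT => by linarith [h3 T hT]
  rw [sum_const, nsmul_eq_mul] at e1 e3
  have e4 : ∑ T ∈ s.W, ∑ f ∈ T \ s.B, (r * (1 + s.a f) - 1) * (-D s) =
      (∑ T ∈ s.W, ∑ f ∈ T \ s.B, (r * (1 + s.a f) - 1)) * (-D s) := by
    rw [sum_mul]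
    exact sum_congr rfl fun T _ => by rw [sum_mul]
  rw [e4] at e2
  linarith

theorem gen_sub (Bl : Finset (Finset α)) (r : ℝ) (s : St α) (F G : St α → ℝ) :
    gen Bl r (fun s' => F s' - G s') s = gen Bl r F s - gen Bl r G s := by
  unfold gen
  have e1 : ∑ T ∈ s.W, (F (ring s T) - G (ring s T) - (F s - G s)) =
      ∑ T ∈ s.W, (F (ring s T) - F s) - ∑ T ∈ s.W, (G (ring s T) - G s) := by
    rw [← sum_sub_distrib]
    exact sum_congr rfl fun T _ => by ring
  have e2 : ∑ T ∈ s.W, ∑ f ∈ T \ s.B, (r * (1 + s.a f) - 1) *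
        (F (virt s T) - G (virt s T) - (F s - G s)) =
      ∑ T ∈ s.W, ∑ f ∈ T \ s.B, (r * (1 + s.a f) - 1) * (F (virt s T) - F s) -
        ∑ T ∈ s.W, ∑ f ∈ T \ s.B, (r * (1 + s.a f) - 1) * (G (virt s T) - G s) := by
    rw [← sum_sub_distrib]
    refine sum_congr rfl fun T _ => ?_
    rw [← sum_sub_distrib]
    exact sum_congr rfl fun f _ => by ring
  have e3 : ∑ T ∈ bl Bl s.A \ s.W, (F (nring s T) - G (nring s T) - (F s - G s)) =
      ∑ T ∈ bl Bl s.A \ s.W, (F (nring s T) - F s) -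
        ∑ T ∈ bl Bl s.A \ s.W, (G (nring s T) - G s) := by
    rw [← sum_sub_distrib]
    exact sum_congr rfl fun T _ => by ring
  rw [e1, e2, e3]
  ring

theorem genLin (Bl : Finset (Finset α)) (r : ℝ) (s : St α) (F G : St α → ℝ) (a b : ℝ) :
    gen Bl r (fun s' => a * F s' + b * G s') s = a * gen Bl r F s + b * gen Bl r G s := by
  unfold gen
  have e1 : ∑ T ∈ s.W, (a * F (ring s T) + b * G (ring s T) - (a * F s + b * G s)) =
      a * ∑ T ∈ s.W, (F (ring s T) - F s) + b * ∑ T ∈ s.W, (G (ring s T) - G s) := by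
    rw [mul_sum, mul_sum, ← sum_add_distrib]
    exact sum_congr rfl fun T _ => by ring
  have e2 : ∑ T ∈ s.W, ∑ f ∈ T \ s.B, (r * (1 + s.a f) - 1) *
        (a * F (virt s T) + b * G (virt s T) - (a * F s + b * G s)) =
      a * ∑ T ∈ s.W, ∑ f ∈ T \ s.B, (r * (1 + s.a f) - 1) * (F (virt s T) - F s) +
        b * ∑ T ∈ s.W, ∑ f ∈ T \ s.B, (r * (1 + s.a f) - 1) * (G (virt s T) - G s) := by
    rw [mul_sum, mul_sum, ← sum_add_distrib]
    refine sum_congr rfl fun T _ => ?_
    rw [mul_sum, mul_sum, ← sum_add_distrib]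
    exact sum_congr rfl fun f _ => by ring
  have e3 : ∑ T ∈ bl Bl s.A \ s.W, (a * F (nring s T) + b * G (nring s T) -
        (a * F s + b * G s)) =
      a * ∑ T ∈ bl Bl s.A \ s.W, (F (nring s T) - F s) +
        b * ∑ T ∈ bl Bl s.A \ s.W, (G (nring s T) - G s) := by
    rw [mul_sum, mul_sum, ← sum_add_distrib]
    exact sum_congr rfl fun T _ => by ring
  rw [e1, e2, e3]
  ring

end steps

theorem Prm.s1 {Bl : Finset (Finset α)} {th th' h u0 U : ℝ} (P : Prm Bl th th' h u0 U)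
    {u : ℝ} (h1 : u0 ≤ u) : 2 * h * (1 + th) ≤ (th' - th) * u :=
  P.c1.trans (mul_le_mul_of_nonneg_left h1 (by linarith [P.thle]))

theorem Prm.s2 {Bl : Finset (Finset α)} {th th' h u0 U : ℝ} (P : Prm Bl th th' h u0 U)
    {u : ℝ} (h2 : u + 2 * h ≤ U) : 3 * (u + 2 * h) ≤ th' - th := by
  linarith [P.c2]

theorem Prm.rpos {Bl : Finset (Finset α)} {th th' h u0 U : ℝ} (P : Prm Bl th th' h u0 U)
    {u : ℝ} (h1 : u0 ≤ u) (h2 : u + 2 * h ≤ U) {s : St α} (hs : GS Bl th th' u s) (f : α) :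
    0 ≤ 1 / (u + 2 * h) * (1 + s.a f) - 1 := by
  have h3 : 0 < u + 2 * h := by linarith [P.upos, P.h0]
  have h4 := (abs_le.mp (hs.aa f)).1
  have h5 : u + 2 * h ≤ 1 + s.a f := by linarith [P.c3]
  have h6 : 1 ≤ (1 + s.a f) / (u + 2 * h) := by
    rw [le_div_iff₀ h3]
    linarith
  have h7 : 1 / (u + 2 * h) * (1 + s.a f) = (1 + s.a f) / (u + 2 * h) := by ring
  rw [h7]
  linarith

theorem Prm.hrate {Bl : Finset (Finset α)} {th th' h u0 U : ℝ} (P : Prm Bl th th' h u0 U)
    {u : ℝ} (h1 : u0 ≤ u) {s : St α} (hs : GS Bl th th' u s) :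
    h * rate Bl (1 / (u + 2 * h)) s ≤ 1 := by
  have h3 : 0 < u + 2 * h := by linarith [P.upos, P.h0]
  have h4 : u0 ≤ u + 2 * h := by linarith [P.h0]
  have hth' : 0 ≤ th' := P.th0.trans P.thle
  have h5 : 1 / (u + 2 * h) ≤ 1 / u0 := one_div_le_one_div_of_le P.upos h4
  have h6 : (0 : ℝ) ≤ 1 / (u + 2 * h) := by positivity
  have h7 : ∀ f, 1 / (u + 2 * h) * (1 + s.a f) - 1 ≤ (1 + th') / u0 := by
    intro f
    have h8 := (abs_le.mp (hs.aa f)).2
    have h9 : 1 / (u + 2 * h) * (1 + s.a f) ≤ 1 / (u + 2 * h) * (1 + th') :=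
      mul_le_mul_of_nonneg_left (by linarith) h6
    have h10 : 1 / (u + 2 * h) * (1 + th') ≤ 1 / u0 * (1 + th') :=
      mul_le_mul_of_nonneg_right h5 (by linarith)
    have h11 : 1 / u0 * (1 + th') = (1 + th') / u0 := by ring
    linarith
  have h12 : (0 : ℝ) ≤ (1 + th') / u0 := div_nonneg (by linarith) P.upos.le
  have h13 : ∀ T ∈ s.W, ∑ f ∈ T \ s.B, (1 / (u + 2 * h) * (1 + s.a f) - 1) ≤
      3 * ((1 + th') / u0) := by
    intro T hT
    calc ∑ f ∈ T \ s.B, (1 / (u + 2 * h) * (1 + s.a f) - 1)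
        ≤ ∑ _f ∈ T \ s.B, (1 + th') / u0 := sum_le_sum fun f _ => h7 f
      _ = ((T \ s.B).card : ℝ) * ((1 + th') / u0) := by rw [sum_const, nsmul_eq_mul]
      _ ≤ 3 * ((1 + th') / u0) := by
          refine mul_le_mul_of_nonneg_right ?_ h12
          have h14 := card_le_card (sdiff_subset (s := T) (t := s.B))
          rw [P.lin.card3 T (hs.inv.sub hT)] at h14
          exact_mod_cast h14
  have h14 : ∑ T ∈ s.W, ∑ f ∈ T \ s.B, (1 / (u + 2 * h) * (1 + s.a f) - 1) ≤
      (Bl.card : ℝ) * (3 * ((1 + th') / u0)) := by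
    calc ∑ T ∈ s.W, ∑ f ∈ T \ s.B, (1 / (u + 2 * h) * (1 + s.a f) - 1)
        ≤ ∑ _T ∈ s.W, 3 * ((1 + th') / u0) := sum_le_sum h13
      _ = (s.W.card : ℝ) * (3 * ((1 + th') / u0)) := by rw [sum_const, nsmul_eq_mul]
      _ ≤ (Bl.card : ℝ) * (3 * ((1 + th') / u0)) := by
          refine mul_le_mul_of_nonneg_right ?_ (by positivity)
          exact_mod_cast card_le_card hs.inv.sub
  have h15 : (s.W.card : ℝ) + ((bl Bl s.A \ s.W).card : ℝ) ≤ (Bl.card : ℝ) := by
    have h16 : (s.W ∪ (bl Bl s.A \ s.W)).card = s.W.card + (bl Bl s.A \ s.W).card :=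
      card_union_of_disjoint disjoint_sdiff
    have h17 : s.W ∪ (bl Bl s.A \ s.W) ⊆ Bl :=
      union_subset hs.inv.sub (sdiff_subset.trans (filter_subset _ _))
    have h18 := card_le_card h17
    rw [h16] at h18
    exact_mod_cast h18
  have h19 : rate Bl (1 / (u + 2 * h)) s ≤ (Bl.card : ℝ) * (1 + 3 * (1 + th') / u0) := by
    unfold rate
    have h20 : (Bl.card : ℝ) * (1 + 3 * (1 + th') / u0) =
        (Bl.card : ℝ) + (Bl.card : ℝ) * (3 * ((1 + th') / u0)) := by ring
    rw [h20]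
    linarith
  calc h * rate Bl (1 / (u + 2 * h)) s
      ≤ h * ((Bl.card : ℝ) * (1 + 3 * (1 + th') / u0)) := mul_le_mul_of_nonneg_left h19 P.h0
    _ = h * (Bl.card : ℝ) * (1 + 3 * (1 + th') / u0) := by ring
    _ ≤ 1 := P.c4

/-- the one-step operator is monotone on good states -/
theorem st1_mono {Bl : Finset (Finset α)} {th th' h u0 U : ℝ} (P : Prm Bl th th' h u0 U)
    {u : ℝ} (h1 : u0 ≤ u) (h2 : u + 2 * h ≤ U) {s : St α} (hs : GS Bl th th' u s)
    {F G : ℝ → St α → ℝ}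
    (hFG : ∀ s', GS Bl th th' (u + 2 * h) s' → F (u + 2 * h) s' ≤ G (u + 2 * h) s') :
    st1 Bl th h F u s ≤ st1 Bl th h G u s := by
  have hu : 0 < u := lt_of_lt_of_le P.upos h1
  set D : St α → ℝ := fun s' =>
    G (u + 2 * h) (fixs th (u + 2 * h) s') - F (u + 2 * h) (fixs th (u + 2 * h) s') with hD
  have hDn : ∀ s', Inv Bl th' (u + 2 * h) s' → 0 ≤ D s' := by
    intro s' hs'
    have := hFG _ (gs_fixs hs' (th := th))
    simp only [hD]
    linarith
  have e1 := gen_ge (Bl := Bl) (r := 1 / (u + 2 * h)) (s := s) (D := D)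
    (fun T _ f _ => P.rpos h1 h2 hs f)
    (fun T hT => hDn _ (inv_ring P.lin hs P.h0 hu (P.s1 h1) (P.s2 h2) hT))
    (fun T _ hT' => hDn _ (inv_virt hs P.h0 hu (P.s1 h1) (P.s2 h2) hT'))
    (fun T _ => hDn _ (inv_nring hs P.h0 hu (P.s1 h1) (P.s2 h2) T))
  have e2 : gen Bl (1 / (u + 2 * h)) D s =
      gen Bl (1 / (u + 2 * h)) (fun s' => G (u + 2 * h) (fixs th (u + 2 * h) s')) s -
        gen Bl (1 / (u + 2 * h)) (fun s' => F (u + 2 * h) (fixs th (u + 2 * h) s')) s :=
    gen_sub _ _ _ _ _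
  have e3 : 0 ≤ D s := hDn s (inv_time hs P.h0 hu (P.s1 h1) (P.s2 h2))
  have e4 := P.hrate h1 hs
  have e5 : h * (-(rate Bl (1 / (u + 2 * h)) s) * D s) ≤ h * gen Bl (1 / (u + 2 * h)) D s :=
    mul_le_mul_of_nonneg_left e1 P.h0
  have e6 : h * rate Bl (1 / (u + 2 * h)) s * D s ≤ 1 * D s :=
    mul_le_mul_of_nonneg_right e4 e3
  unfold st1
  have e7 : D s = G (u + 2 * h) (fixs th (u + 2 * h) s) -
      F (u + 2 * h) (fixs th (u + 2 * h) s) := rfl
  rw [e2] at e5
  nlinarith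

/-- `EV` is monotone -/
theorem ev_mono {Bl : Finset (Finset α)} {th th' h u0 U : ℝ} (P : Prm Bl th th' h u0 U)
    {F G : ℝ → St α → ℝ}
    (hFG : ∀ u s, u0 ≤ u → u ≤ U → GS Bl th th' u s → F u s ≤ G u s) :
    ∀ (k : ℕ) (u : ℝ) (s : St α), u0 ≤ u → u + 2 * h * k ≤ U → GS Bl th th' u s →
      EV Bl th h F k u s ≤ EV Bl th h G k u s := by
  intro k
  induction k with
  | zero =>
    intro u s h1 h2 hs
    rw [EV_zero, EV_zero]
    refine hFG u s h1 ?_ hs
    simpa using h2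
  | succ k ih =>
    intro u s h1 h2 hs
    rw [EV_succ, EV_succ]
    have h3 : u + 2 * h + 2 * h * k ≤ U := by
      push_cast at h2
      linarith
    have h4 : 0 ≤ 2 * h * k := by
      have := P.h0
      positivity
    exact st1_mono P h1 (by linarith) hs fun s' hs' =>
      ih (u + 2 * h) s' (by linarith [P.h0]) h3 hs'

/-- Lyapunov principle: a functional that does not increase in one step -/
theorem ev_super {Bl : Finset (Finset α)} {th th' h u0 U : ℝ} (P : Prm Bl th th' h u0 U)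
    {G : ℝ → St α → ℝ}
    (hG : ∀ u s, u0 ≤ u → u + 2 * h ≤ U → GS Bl th th' u s → st1 Bl th h G u s ≤ G u s) :
    ∀ (k : ℕ) (u : ℝ) (s : St α), u0 ≤ u → u + 2 * h * k ≤ U → GS Bl th th' u s →
      EV Bl th h G k u s ≤ G u s := by
  intro k
  induction k with
  | zero =>
    intro u s _ _ _
    exact le_rfl
  | succ k ih =>
    intro u s h1 h2 hs
    rw [EV_succ]
    have h3 : u + 2 * h + 2 * h * k ≤ U := by
      push_cast at h2
      linarith
    have h4 : 0 ≤ 2 * h * k := by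
      have := P.h0
      positivity
    refine (st1_mono P h1 (by linarith) hs (G := G) fun s' hs' =>
      ih (u + 2 * h) s' (by linarith [P.h0]) h3 hs').trans ?_
    exact hG u s h1 (by linarith) hs

/-- the reverse Lyapunov principle -/
theorem ev_sub {Bl : Finset (Finset α)} {th th' h u0 U : ℝ} (P : Prm Bl th th' h u0 U)
    {G : ℝ → St α → ℝ}
    (hG : ∀ u s, u0 ≤ u → u + 2 * h ≤ U → GS Bl th th' u s → G u s ≤ st1 Bl th h G u s) :
    ∀ (k : ℕ) (u : ℝ) (s : St α), u0 ≤ u → u + 2 * h * k ≤ U → GS Bl th th' u s →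
      G u s ≤ EV Bl th h G k u s := by
  intro k
  induction k with
  | zero =>
    intro u s _ _ _
    exact le_rfl
  | succ k ih =>
    intro u s h1 h2 hs
    rw [EV_succ]
    have h3 : u + 2 * h + 2 * h * k ≤ U := by
      push_cast at h2
      linarith
    have h4 : 0 ≤ 2 * h * k := by
      have := P.h0
      positivity
    refine le_trans (hG u s h1 (by linarith) hs) ?_
    exact st1_mono P h1 (by linarith) hs (F := G) fun s' hs' =>
      ih (u + 2 * h) s' (by linarith [P.h0]) h3 hs'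

theorem st1_lin (Bl : Finset (Finset α)) (th h : ℝ) (F G : ℝ → St α → ℝ) (a b : ℝ) :
    st1 Bl th h (fun u s => a * F u s + b * G u s) =
      fun u s => a * st1 Bl th h F u s + b * st1 Bl th h G u s := by
  ext u s
  unfold st1
  rw [genLin]
  ring

/-- `EV` is linear -/
theorem ev_lin (Bl : Finset (Finset α)) (th h : ℝ) (F G : ℝ → St α → ℝ) (a b : ℝ) (k : ℕ) :
    EV Bl th h (fun u s => a * F u s + b * G u s) k =
      fun u s => a * EV Bl th h F k u s + b * EV Bl th h G k u s := by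
  induction k with
  | zero => rfl
  | succ k ih =>
    have e1 : EV Bl th h (fun u s => a * F u s + b * G u s) (k + 1) =
        st1 Bl th h (EV Bl th h (fun u s => a * F u s + b * G u s) k) := rfl
    rw [e1, ih, st1_lin]
    rfl

/-- the expectation of a function of the time only -/
theorem ev_const (Bl : Finset (Finset α)) (th h : ℝ) (E : ℝ → ℝ) (k : ℕ) (u : ℝ) (s : St α) :
    EV Bl th h (fun u _ => E u) k u s = E (u + 2 * h * k) := by
  induction k generalizing u s with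
  | zero => simp [EV_zero]
  | succ k ih =>
    have e1 : EV Bl th h (fun u _ => E u) (k + 1) u s =
        EV Bl th h (fun u _ => E u) k (u + 2 * h) (fixs th (u + 2 * h) s) +
        h * gen Bl (1 / (u + 2 * h))
          (fun s' => EV Bl th h (fun u _ => E u) k (u + 2 * h) (fixs th (u + 2 * h) s')) s := rfl
    rw [e1, ih]
    have e2 : (fun s' => EV Bl th h (fun u _ => E u) k (u + 2 * h) (fixs th (u + 2 * h) s')) =
        fun _ => E (u + 2 * h + 2 * h * k) := by
      ext s'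
      rw [ih]
    rw [e2]
    unfold gen
    simp only [sub_self, mul_zero, sum_const_zero, add_zero]
    congr 1
    push_cast
    ring

/-- discrete Gronwall inequality: growth by a factor `1 + 2 h c` and an inhomogeneity -/
theorem ev_gron {Bl : Finset (Finset α)} {th th' h u0 U : ℝ} (P : Prm Bl th th' h u0 U)
    {G : ℝ → St α → ℝ} {E : ℝ → ℝ}
    (hG : ∀ u s, u0 ≤ u → u + 2 * h ≤ U → GS Bl th th' u s →
      st1 Bl th h G u s + E (u + 2 * h) ≤ G u s + E u)
    (k : ℕ) (u : ℝ) (s : St α) (h1 : u0 ≤ u) (h2 : u + 2 * h * k ≤ U)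
    (hs : GS Bl th th' u s) :
    EV Bl th h G k u s + E (u + 2 * h * k) ≤ G u s + E u := by
  have e0 : ∀ u s, st1 Bl th h (fun u s => 1 * G u s + 1 * E u) u s =
      st1 Bl th h G u s + E (u + 2 * h) := by
    intro u s
    have e1 := congrFun (congrFun (st1_lin Bl th h G (fun u _ => E u) 1 1) u) s
    rw [e1]
    have e2 : st1 Bl th h (fun u _ => E u) u s = E (u + 2 * h) := by
      unfold st1 gen
      simp
    rw [e2]
    ring
  have e3 := ev_super P (G := fun u s => 1 * G u s + 1 * E u) (by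
    intro u s h1 h2 hs
    rw [e0]
    have := hG u s h1 h2 hs
    linarith) k u s h1 h2 hs
  have e4 := congrFun (congrFun (ev_lin Bl th h G (fun u _ => E u) 1 1 k) u) s
  rw [e4, ev_const] at e3
  linarith

/-! ### domination of the real process -/

/-- generator on functions of the real process -/
theorem gen_A {Bl : Finset (Finset α)} (r : ℝ) {s : St α} (hs : s.W ⊆ Bl) (f : Finset α → ℝ) :
    gen Bl r (fun s' => f s'.A) s = ∑ T ∈ bl Bl s.A, (f (s.A \ T) - f s.A) := by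
  unfold gen
  have e1 : ∑ T ∈ s.W, (f (ring s T).A - f s.A) =
      ∑ T ∈ bl Bl s.A ∩ s.W, (f (s.A \ T) - f s.A) := by
    have e2 : bl Bl s.A ∩ s.W = s.W.filter (fun T => T ⊆ s.A) := by
      ext T
      simp only [mem_inter, mem_bl, mem_filter]
      constructor
      · rintro ⟨⟨_, h2⟩, h3⟩
        exact ⟨h3, h2⟩
      · rintro ⟨h1, h2⟩
        exact ⟨⟨hs h1, h2⟩, h1⟩
    rw [e2, sum_filter]
    refine sum_congr rfl fun T _ => ?_
    unfold ring
    by_cases h : T ⊆ s.A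
    · simp [h]
    · simp [h]
  have e2 : ∑ T ∈ s.W, ∑ f' ∈ T \ s.B, (r * (1 + s.a f') - 1) *
      (f (virt s T).A - f s.A) = 0 := by
    refine sum_eq_zero fun T _ => sum_eq_zero fun f' _ => ?_
    unfold virt
    simp
  have e3 : ∑ T ∈ bl Bl s.A \ s.W, (f (nring s T).A - f s.A) =
      ∑ T ∈ bl Bl s.A \ s.W, (f (s.A \ T) - f s.A) := rfl
  rw [e1, e2, e3, add_zero]
  exact sum_inter_add_sum_sdiff _ _ _

theorem run_harm {Bl : Finset (Finset α)} (hB : Lin3 Bl) (Φ : Finset α → ℝ) (A : Finset α) :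
    ∑ T ∈ bl Bl A, (run Bl Φ (A \ T).card (A \ T) - run Bl Φ A.card A) = 0 := by
  have h1 := congrFun (lz_run Bl hB Φ) A
  unfold lz at h1
  by_cases h2 : (Bl.card : ℝ) = 0
  · have h3 : Bl = ∅ := by
      have : Bl.card = 0 := by exact_mod_cast h2
      exact card_eq_zero.mp this
    have h4 : bl Bl A = ∅ := by
      rw [h3]
      rfl
    rw [h4, sum_empty]
  · have h3 : (∑ T ∈ bl Bl A, (run Bl Φ (A \ T).card (A \ T) - run Bl Φ A.card A)) /
        (Bl.card : ℝ) = 0 := by linarith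
    rw [div_eq_zero_iff] at h3
    exact h3.resolve_right h2

/-- [DOM] the modified process carries the real one: the expected value of `Φ` in the final state
of the real process is at most the value at each time of the modified process -/
theorem dom {Bl : Finset (Finset α)} {th th' h u0 U : ℝ} (P : Prm Bl th th' h u0 U)
    (Φ : Finset α → ℝ) (hΦ : ∀ A, ∀ T ∈ bl Bl A, Φ (A \ T) ≤ Φ A)
    (k : ℕ) (u : ℝ) (s : St α) (h1 : u0 ≤ u) (h2 : u + 2 * h * k ≤ U)
    (hs : GS Bl th th' u s) :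
    run Bl Φ s.A.card s.A ≤ EV Bl th h (fun _ s' => Φ s'.A) k u s := by
  have e1 : run Bl Φ s.A.card s.A ≤
      EV Bl th h (fun _ s' => run Bl Φ s'.A.card s'.A) k u s := by
    refine ev_sub P (G := fun _ s' => run Bl Φ s'.A.card s'.A) ?_ k u s h1 h2 hs
    intro u s _ _ hs
    unfold st1
    have e2 : gen Bl (1 / (u + 2 * h))
        (fun s' => run Bl Φ (fixs th (u + 2 * h) s').A.card (fixs th (u + 2 * h) s').A) s = 0 := by
      have e3 := gen_A (1 / (u + 2 * h)) hs.inv.sub (fun A => run Bl Φ A.card A)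
      have e4 := run_harm P.lin Φ s.A
      rw [e4] at e3
      exact e3
    rw [e2, mul_zero, add_zero]
    exact le_rfl
  refine e1.trans (ev_mono P ?_ k u s h1 h2 hs)
  intro u s _ _ _
  exact run_le Bl P.lin Φ hΦ _ s.A le_rfl

/-- the initial state is good if all degrees are `1 / u0` up to the factor `1 ± th` -/
theorem gs_toSt {Bl : Finset (Finset α)} {th th' u : ℝ} (hth : 0 ≤ th) (hth' : th ≤ th')
    (A : Finset α) (hd : ∀ e ∈ A, |u * dW (bl Bl A) e - 1| ≤ th) :
    GS Bl th th' u (toSt Bl A) := by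
  have h0 : ∀ e, |xv u (toSt Bl A) e| ≤ th := by
    intro e
    unfold xv toSt
    by_cases he : e ∈ A
    · simp only [he, if_true]
      exact hd e he
    · simp only [he, if_false, abs_zero]
      exact hth
  refine ⟨⟨filter_subset _ _, ?_, ?_, ?_, ?_, ?_⟩, ?_⟩
  · intro T hT hTA
    exact mem_bl.mpr ⟨hT, hTA⟩
  · intro T hT
    have h1 : T ⊆ A := (mem_bl.mp hT).2
    exact h1.trans subset_union_left
  · exact disjoint_empty_right _
  · intro e
    exact (h0 e).trans hth'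
  · intro e
    show |(0 : ℝ)| ≤ th'
    rw [abs_zero]
    linarith
  · intro e _
    exact h0 e

end

end Vale.Agent.P046.NL
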