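import Vale.Agent.P046.NL.DSFIX

/-! P046: the functional `sqrt (1 + (u ^ (1/2) * Q - c) ^ 2)` alone: one core step, detachments -/

namespace Vale.Agent.P046.NL

open Finset Vale.Agent.P046

noncomputable section

variable {α : Type} [DecidableEq α]

/-- `u ^ (1/2) * Q` stays near `c` -/
def Dq (c u : ℝ) (s : St α) : ℝ := Real.sqrt (1 + (u ^ (1 / 2 : ℝ) * Q s - c) ^ 2)

namespace DQ

theorem one_le (c u : ℝ) (s : St α) : 1 ≤ Dq c u s := DCore.one_le_ph _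

theorem nonneg (c u : ℝ) (s : St α) : 0 ≤ Dq c u s := Real.sqrt_nonneg _

/-- `|u ^ (1/2) * Q - c| ≤ Dq` -/
theorem abs_le (c u : ℝ) (s : St α) : |u ^ (1 / 2 : ℝ) * Q s - c| ≤ Dq c u s := by
  unfold Dq
  refine Real.le_sqrt_of_sq_le ?_
  rw [sq_abs]
  linarith

/-- `Dq ≤ 1 + |u ^ (1/2) * Q - c|` -/
theorem le_abs (c u : ℝ) (s : St α) : Dq c u s ≤ 1 + |u ^ (1 / 2 : ℝ) * Q s - c| := by
  unfold Dq
  rw [Real.sqrt_le_left (by positivity)]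
  have h1 : 0 ≤ |u ^ (1 / 2 : ℝ) * Q s - c| := abs_nonneg _
  have h2 : |u ^ (1 / 2 : ℝ) * Q s - c| ^ 2 = (u ^ (1 / 2 : ℝ) * Q s - c) ^ 2 := sq_abs _
  nlinarith

end DQ

open DCore in
/-- [DQ] one core step of `Dq` -/
theorem dq_core {Bl : Finset (Finset α)} (hL : Lin3 Bl) {t umin : ℝ} (c : ℝ) (A₀ : Finset α)
    (ht : t ≤ 1 / 20) (hum : 0 < umin) :
    ∃ E : ℝ, 0 ≤ E ∧
    ∀ h u : ℝ, 0 < h → umin ≤ u → u + 2 * h ≤ 1 / 1300 → ∀ s : St α, s.B ⊆ A₀ →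
      Inv Bl (2 * t) (u + 2 * h) s →
      Dq c (u + 2 * h) s + h * gen Bl (1 / (u + 2 * h)) (fun s' => Dq c (u + 2 * h) s') s
        ≤ Dq c u s + h / (u + 2 * h) * ((u + 2 * h) ^ (3 / 4 : ℝ) * Q s
            + (u + 2 * h) ^ (1 / 4 : ℝ) * S 2 (u + 2 * h) s) + E * h ^ 2 := by
  have hm0 : 0 < umin ^ (1 / 2 : ℝ) := by positivity
  refine ⟨(A₀.card : ℝ) / (2 * (umin ^ (1 / 2 : ℝ)) ^ 3), by positivity, ?_⟩
  intro h u hh hu huv s hB hI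
  have hu0 : 0 < u := by linarith
  have hv0 : 0 < u + 2 * h := by linarith
  have sq1 : ∀ x : ℝ, 0 ≤ x → (x ^ (1 / 2 : ℝ)) ^ 2 = x := by
    intro x hx
    rw [← Real.sqrt_eq_rpow, Real.sq_sqrt hx]
  obtain ⟨v, hv⟩ : ∃ v : ℝ, v = u + 2 * h := ⟨_, rfl⟩
  have hvp : 0 < v := by rw [hv]; exact hv0
  have hv1 : v ≤ 1 / 1300 := by rw [hv]; exact huv
  set a := u ^ (1 / 2 : ℝ) with ha
  set b := (u + 2 * h) ^ (1 / 2 : ℝ) with hb
  have ha2 : a ^ 2 = u := sq1 u hu0.le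
  have hb2 : b ^ 2 = u + 2 * h := sq1 _ hv0.le
  have hb0 : 0 < b := by positivity
  have hma : umin ^ (1 / 2 : ℝ) ≤ a := Real.rpow_le_rpow hum.le hu (by norm_num)
  have k1 := ph_step (h := h) (c := c) hL (by linarith : 2 * t ≤ 1) hm0 hma
    (by rw [ha2, hb2]) hb0 hh (by rw [hb2]; exact hI) (MC.Q_le hB)
  rw [hb2] at k1
  -- the powers of `v`
  obtain ⟨w, hw⟩ : ∃ w : ℝ, w = v ^ (1 / 4 : ℝ) := ⟨_, rfl⟩
  have hw0 : 0 < w := by rw [hw]; positivity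
  have pw : ∀ k : ℕ, v ^ ((k : ℝ) / 4 : ℝ) = w ^ k := by
    intro k
    rw [hw, ← Real.rpow_natCast, ← Real.rpow_mul hvp.le]
    congr 1
    ring
  have e3 : v ^ (3 / 4 : ℝ) = w ^ 3 := by rw [← pw 3]; norm_num
  have e4 : v = w ^ 4 := by rw [← pw 4]; norm_num
  have eb : b = w ^ 2 := by
    rw [hb, ← hv, ← pw 2]; norm_num
  have hw6 : w ≤ 1 / 6 := by
    by_contra hcon
    push Not at hcon
    have h1 : (1 / 6 : ℝ) ^ 4 < w ^ 4 := pow_lt_pow_left₀ hcon (by norm_num) (by norm_num)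
    rw [← e4] at h1
    norm_num at h1
    linarith
  have hX := MC.X1_bound (u + 2 * h) s w hw0
  rw [← hv] at hX k1 ⊢
  have hq := MC.Q_nonneg s
  have hS := MC.S_nonneg (k := 2) (by decide) v s
  have h3 : |∑ e ∈ s.B, xv v s e| / b ≤ 1 / (2 * w) * Q s + 1 / (2 * w ^ 3) * S 2 v s := by
    rw [div_le_iff₀ hb0, eb]
    have e1 : (1 / (2 * w) * Q s + 1 / (2 * w ^ 3) * S 2 v s) * w ^ 2 =
        (w * Q s + S 2 v s / w) / 2 := by
      field_simp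
    rw [e1]
    linarith
  have h4 : 3 * Q s ≤ 1 / (2 * w) * Q s := by
    refine mul_le_mul_of_nonneg_right ?_ hq
    rw [le_div_iff₀ (by positivity)]
    linarith
  have h5 : h / v * (v ^ (3 / 4 : ℝ) * Q s + v ^ (1 / 4 : ℝ) * S 2 v s) =
      h * (1 / w * Q s + 1 / w ^ 3 * S 2 v s) := by
    rw [← hw, e3]
    nth_rewrite 1 [e4]
    field_simp
  rw [h5]
  have h6 : |∑ e ∈ s.B, xv v s e| / b + 3 * Q s ≤ 1 / w * Q s + 1 / w ^ 3 * S 2 v s := by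
    have h7 : 1 / w = 1 / (2 * w) + 1 / (2 * w) := by field_simp; norm_num
    have h8 : 1 / w ^ 3 = 1 / (2 * w ^ 3) + 1 / (2 * w ^ 3) := by field_simp; norm_num
    have h9 : 0 ≤ 1 / (2 * w ^ 3) * S 2 v s := by positivity
    rw [h7, h8]
    linarith
  have h7 := mul_le_mul_of_nonneg_left h6 hh.le
  have e6 : ∀ (x : ℝ) (s' : St α), Dq c x s' = ph (x ^ (1 / 2 : ℝ) * Q s' - c) :=
    fun _ _ => rfl
  have hbv : b = v ^ (1 / 2 : ℝ) := by rw [hb, hv]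
  simp only [e6]
  rw [← ha, ← hbv]
  linarith

/-- [D2FIX] the detachments in a combination of `Dq` and the functional of the second stage -/
theorem d2_fix (ep t dl : ℝ) (h0 : 0 < ep) (h1 : ep ≤ 1 / 100) (ht0 : 0 < t)
    (ht : t ≤ ep ^ 2 / 5000) (hd1 : ep / 8 ≤ dl) (hd2 : dl ≤ ep / 2) :
    ∃ u1 : ℝ, 0 < u1 ∧ u1 ≤ 1 / 100 ∧
    ∀ (α : Type) [DecidableEq α] (Bl : Finset (Finset α)) (C6 C8 : Finset (Finset (Finset α))),
    Sys Bl C6 C8 → ∀ uK u c lam kap, 0 < u → u ≤ uK → uK ≤ u1 → 0 ≤ lam → lam ≤ kap →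
      ∀ s, Inv Bl (2 * t) u s →
      lam * Dq c u (fixs t u s) + kap * PsiS ep t dl uK Bl C6 C8 u (fixs t u s)
        ≤ lam * Dq c u s + kap * PsiS ep t dl uK Bl C6 C8 u s := by
  obtain ⟨u1, hu1, hu1', H⟩ := DSF.fix_st2_strong ep t dl h0 h1 ht0 ht hd1 hd2
  have hk : 0 < 250 * t ^ 4 / ep := by positivity
  refine ⟨min u1 ((250 * t ^ 4 / ep) ^ (1 : ℝ)), lt_min hu1 (by positivity),
    (min_le_left _ _).trans hu1', ?_⟩
  intro α _ Bl C6 C8 hS uK u c lam kap hu huK huK1 hlam hlk s hI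
  have hu3 : u ≤ 250 * t ^ 4 / ep := by
    have := (huK.trans huK1).trans (min_le_right _ _)
    rwa [Real.rpow_one] at this
  obtain ⟨m, hm, hQ, hP⟩ := H α Bl C6 C8 hS uK u hu huK (huK1.trans (min_le_left _ _)) s hI
  have hu4 : u ≤ 1 := by
    have := (huK.trans huK1).trans (min_le_left _ _)
    linarith
  have hA3 : 0 < u ^ (-(1 / 2 + ep) : ℝ) := by positivity
  have e5 : u ^ (1 / 2 : ℝ) ≤ u ^ (-(1 / 2 + ep) : ℝ) * (250 * t ^ 4 / ep) := by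
    have h2 : u ^ (1 / 2 : ℝ) = u ^ (-(1 / 2 + ep) : ℝ) * u ^ (1 + ep : ℝ) := by
      rw [← Real.rpow_add hu]; congr 1; ring
    rw [h2]
    refine mul_le_mul_of_nonneg_left ?_ hA3.le
    calc u ^ (1 + ep : ℝ) ≤ u ^ (1 : ℝ) :=
          Real.rpow_le_rpow_of_exponent_ge hu hu4 (by linarith)
      _ = u := Real.rpow_one u
      _ ≤ _ := hu3
  have e6 := DFix.sqrt_lip (u ^ (1 / 2 : ℝ) * Q s - c) (u ^ (1 / 2 : ℝ) * (Q s - m) - c)
  have e7 : |u ^ (1 / 2 : ℝ) * (Q s - m) - c - (u ^ (1 / 2 : ℝ) * Q s - c)| =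
      u ^ (1 / 2 : ℝ) * m := by
    have h2 : u ^ (1 / 2 : ℝ) * (Q s - m) - c - (u ^ (1 / 2 : ℝ) * Q s - c) =
        -(u ^ (1 / 2 : ℝ) * m) := by ring
    rw [h2, abs_neg, abs_of_nonneg (by positivity)]
  rw [e7] at e6
  have e8 := mul_le_mul_of_nonneg_right e5 hm
  have hkap : 0 ≤ kap := hlam.trans hlk
  have e9 := mul_le_mul_of_nonneg_left hP hkap
  have e10 := mul_le_mul_of_nonneg_left (e6.trans (add_le_add le_rfl e8)) hlam
  have e11 : lam * (u ^ (-(1 / 2 + ep) : ℝ) * (250 * t ^ 4 / ep) * m) ≤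
      kap * (u ^ (-(1 / 2 + ep) : ℝ) * (250 * t ^ 4 / ep) * m) :=
    mul_le_mul_of_nonneg_right hlk (by positivity)
  unfold Dq
  rw [hQ]
  linarith

end

end Vale.Agent.P046.NL
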