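import Vale.Agent.P046.Defs

/-!
P046, removal of the logarithm: the modified process (coupled with the real one) and the
functionals. Frame: `Bl` = all blocks (a linear 3-uniform hypergraph, `Lin3 Bl`);
`r` = rho (expected degree), `u = 1 / r`.
-/

namespace Vale.Agent.P046.NL

open Finset Vale.Agent.P046

noncomputable section

variable {α : Type} [DecidableEq α]

/-- State: `W` alive blocks of the modified process, `B` its real points, `Z` the detached points,
`a` the frozen values (a value is only used at points outside `B`), `A` the alive points of the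
real process. -/
structure St (α : Type) where
  W : Finset (Finset α)
  B : Finset α
  Z : Finset α
  a : α → ℝ
  A : Finset α

/-- degree -/
def dW (W : Finset (Finset α)) (e : α) : ℝ := ((W.filter (fun T => e ∈ T)).card : ℝ)

/-- relative deviation of the degree (frozen value outside `B`) -/
def xv (u : ℝ) (s : St α) (e : α) : ℝ := if e ∈ s.B then u * dW s.W e - 1 else s.a e

/-- the clock of `T ∈ s.W` rings: the real points of `T` die, with all blocks that contain one of
them (and `T` itself); the real process loses `T` if `T` is alive there -/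
def ring (s : St α) (T : Finset α) : St α :=
  { s with
    W := s.W.filter (fun S => S ≠ T ∧ Disjoint S (T ∩ s.B))
    B := s.B \ T
    A := if T ⊆ s.A then s.A \ T else s.A }

/-- virtual death of the block `T` -/
def virt (s : St α) (T : Finset α) : St α := { s with W := s.W.erase T }

/-- the clock of a block `T ∉ s.W` rings that is alive in the real process -/
def nring (s : St α) (T : Finset α) : St α := { s with A := s.A \ T }

/-- the generator (rate 1 for every block; rate `r (1 + a f) - 1` for the virtual death of `T` at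
each `f ∈ T \ s.B`) -/
def gen (Bl : Finset (Finset α)) (r : ℝ) (G : St α → ℝ) (s : St α) : ℝ :=
  ∑ T ∈ s.W, (G (ring s T) - G s)
    + ∑ T ∈ s.W, ∑ f ∈ T \ s.B, (r * (1 + s.a f) - 1) * (G (virt s T) - G s)
    + ∑ T ∈ bl Bl s.A \ s.W, (G (nring s T) - G s)

/-- detachment: all points of `B` with `|x| > th` leave `B` and enter `Z`; the values are frozen -/
def fixs (th u : ℝ) (s : St α) : St α :=
  { s with
    B := s.B.filter (fun e => |xv u s e| ≤ th)
    Z := s.Z ∪ s.B.filter (fun e => ¬ |xv u s e| ≤ th)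
    a := xv u s }

/-- invariants -/
structure Inv (Bl : Finset (Finset α)) (th u : ℝ) (s : St α) : Prop where
  sub : s.W ⊆ Bl
  full : ∀ T ∈ Bl, T ⊆ s.B → T ∈ s.W
  cov : ∀ T ∈ s.W, T ⊆ s.B ∪ s.Z
  disj : Disjoint s.B s.Z
  bd : ∀ e, |xv u s e| ≤ th
  bda : ∀ e, |s.a e| ≤ th

/-- number of real points -/
def Q (s : St α) : ℝ := (s.B.card : ℝ)

/-- power sums of `x` over the real points -/
def S (k : ℕ) (u : ℝ) (s : St α) : ℝ := ∑ e ∈ s.B, (xv u s e) ^ k

/-- derivative of `S k` in `u` -/
def dS (k : ℕ) (u : ℝ) (s : St α) : ℝ := ∑ e ∈ s.B, (k : ℝ) * (xv u s e) ^ (k - 1) * dW s.W e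

/-- sum of `x` over the two other points of the block `T` at `e` -/
def sm (u : ℝ) (s : St α) (T : Finset α) (e : α) : ℝ := ∑ f ∈ T.erase e, xv u s f

/-- `beta` -/
def be (u : ℝ) (s : St α) (e : α) : ℝ := u * ∑ T ∈ s.W.filter (fun T => e ∈ T), sm u s T e

/-- derivative of `be` in `u` -/
def dbe (u : ℝ) (s : St α) (e : α) : ℝ :=
  ∑ T ∈ s.W.filter (fun T => e ∈ T), sm u s T e
    + u * ∑ T ∈ s.W.filter (fun T => e ∈ T), ∑ f ∈ (T.erase e).filter (fun f => f ∈ s.B), dW s.W f

/-- `sum beta ^ 2` -/
def Sb (u : ℝ) (s : St α) : ℝ := ∑ e ∈ s.B, (be u s e) ^ 2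

/-- derivative of `Sb` in `u` -/
def dSb (u : ℝ) (s : St α) : ℝ := ∑ e ∈ s.B, 2 * be u s e * dbe u s e

/-- the quadratic term in the drift of `beta` -/
def qq (u : ℝ) (s : St α) (e : α) : ℝ :=
  u * ∑ T ∈ s.W.filter (fun T => e ∈ T), (sm u s T e) ^ 2

/-- `P beta` -/
def Pb (u : ℝ) (s : St α) (e : α) : ℝ :=
  u * ∑ T ∈ s.W.filter (fun T => e ∈ T), ∑ f ∈ (T.erase e).filter (fun f => f ∈ s.B), be u s f

/-- number of virtual copies -/
def V (s : St α) : ℝ := ∑ T ∈ s.W, ((T \ s.B).card : ℝ)

/-- number of configurations (sets of blocks) of the family `C` which are alive -/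
def Nc (C : Finset (Finset (Finset α))) (s : St α) : ℝ := ((C.filter (fun c => c ⊆ s.W)).card : ℝ)

/-- number of paths `e - T - f - S - h` with `T ≠ S`, `f` real, `f ≠ e, h` -/
def pth (s : St α) (e h : α) : ℝ :=
  ∑ T ∈ s.W.filter (fun T => e ∈ T), ∑ f ∈ ((T.erase e).erase h).filter (fun f => f ∈ s.B),
    (((s.W.filter (fun S => f ∈ S ∧ h ∈ S)).erase T).card : ℝ)

def P2 (s : St α) : ℝ := ∑ e ∈ s.B, ∑ h ∈ s.B.erase e, (pth s e h) ^ 2

/-- weight of a discrepancy -/
def wt (dl y : ℝ) : ℝ := 1 + (1 / (2 * dl)) * (max (y - 1 - dl / 2) 0) ^ 2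

/-- derivative of `wt` -/
def dwt (dl y : ℝ) : ℝ := (1 / dl) * max (y - 1 - dl / 2) 0

/-- number of blocks at `e` whose other points are real points of the modified process -/
def gd (Bl : Finset (Finset α)) (s : St α) (e : α) : ℝ :=
  ((Bl.filter (fun T => e ∈ T ∧ T.erase e ⊆ s.B)).card : ℝ)

/-- weighted number of discrepancies between the real and the modified process, plus two tokens
for each detached point that is alive in the real process -/
def Ph (Bl : Finset (Finset α)) (dl u : ℝ) (s : St α) : ℝ :=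
  ∑ e ∈ (s.A \ s.B) \ s.Z, wt dl (u * gd Bl s e) + ((s.B \ s.A).card : ℝ)
    + 2 * ((s.Z ∩ s.A).card : ℝ)

/-- derivative of `Ph` in `u` -/
def dPh (Bl : Finset (Finset α)) (dl u : ℝ) (s : St α) : ℝ :=
  ∑ e ∈ (s.A \ s.B) \ s.Z, dwt dl (u * gd Bl s e) * gd Bl s e

/-- the real process seen as a state without detached points -/
def toSt (Bl : Finset (Finset α)) (A : Finset α) : St α :=
  { W := bl Bl A, B := A, Z := ∅, a := fun _ => 0, A := A }

/-- expectation of `F` after `k` steps of length `h` (time: `u` grows by `2 h` in each step;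
first the clock, then the event, then the detachments) -/
def EV (Bl : Finset (Finset α)) (th h : ℝ) (F : ℝ → St α → ℝ) : ℕ → ℝ → St α → ℝ
  | 0, u, s => F u s
  | k + 1, u, s =>
      EV Bl th h F k (u + 2 * h) (fixs th (u + 2 * h) s) +
        h * gen Bl (1 / (u + 2 * h))
          (fun s' => EV Bl th h F k (u + 2 * h) (fixs th (u + 2 * h) s')) s

end

end Vale.Agent.P046.NL
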