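import Vale.Agent.P046.NL.MIDTHMa
import Vale.Agent.P046.NL.MIDCORE

/-!
P046, removal of the logarithm: row MIDTHM.
-/

namespace Vale.Agent.P046.NL

open Finset Vale.Agent.P046

noncomputable section

/-- [MIDTHM] -/
theorem mid_thm (ep : ℝ) (h0 : 0 < ep) (h1 : ep ≤ 1 / 100) : ∃ u1 K : ℝ, 0 < u1 ∧ 0 < K ∧
    ∀ (α : Type) [DecidableEq α] (Bl : Finset (Finset α)) (C6 C8 : Finset (Finset (Finset α))),
    Sys Bl C6 C8 → ∀ u0, 0 < u0 → u0 ≤ u1 → ∀ A : Finset α,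
      (∀ e ∈ A, |xv u0 (toSt Bl A) e| ≤ t0 ep) →
      run Bl (fun A => (A.card : ℝ)) A.card A ≤ K * PsiM ep Bl C6 C8 u0 (toSt Bl A) :=
  mid_thm_of ep h0 h1 (mid_core ep h0 h1)

end

end Vale.Agent.P046.NL
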