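import Vale.Agent.P046.NL.EARLYTHM
import Vale.Agent.P046.NL.EARLYCORE
import Vale.Agent.P046.NL.MIDTHM
import Vale.Agent.P046.NL.SYSBK

/-! P046, removal of the logarithm: row EARLYTHM, final form. -/

namespace Vale.Agent.P046.NL

open Finset Vale.Agent.P046

noncomputable section

/-- [EARLYTHM] -/
theorem early_thm : ∃ (n0 : ℕ) (C : ℝ), ∀ n : ℕ, n0 ≤ n →
    run (BK n) (fun A => (A.card : ℝ)) (tr (univ : Finset (Fin n))).card
      (tr (univ : Finset (Fin n))) ≤ C * (n : ℝ) ^ (3 / 2 : ℝ) :=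
  early_thm_of (mid_thm e0 (by unfold e0; norm_num) (by unfold e0; norm_num)) early_core sys_BK

end

end Vale.Agent.P046.NL
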