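import Vale.Agent.P046.NL.LamMin

namespace Vale.Agent.P046

open Finset

noncomputable section

variable {n : ℕ}

/-- number of common neighbours in the alive graph -/
def cdg (A : Finset (Sym2 (Fin n))) (u v : Fin n) : ℕ :=
  ((univ : Finset (Fin n)).filter (fun w => s(u, w) ∈ A ∧ s(v, w) ∈ A)).card

/-- adjacency matrix -/
def adj (A : Finset (Sym2 (Fin n))) (u v : Fin n) : ℝ := if s(u, v) ∈ A then 1 else 0

/-- star vector of a function on the edges -/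
def stv (A : Finset (Sym2 (Fin n))) (b : Sym2 (Fin n) → ℝ) (u v : Fin n) : ℝ :=
  if s(u, v) ∈ A then b s(u, v) else 0

theorem adj_symm (A : Finset (Sym2 (Fin n))) (u v : Fin n) : adj A u v = adj A v u := by
  unfold adj
  rw [Sym2.eq_swap]

theorem mem_tr3 {a b c : Fin n} (hab : a ≠ b) (hac : a ≠ c) (hbc : b ≠ c)
    {e : Sym2 (Fin n)} : e ∈ tr {a, b, c} ↔ e = s(a, b) ∨ e = s(a, c) ∨ e = s(b, c) := by
  induction e with
  | h u v =>
    rw [mk_mem_tr]
    simp only [mem_insert, mem_singleton, Sym2.eq_iff]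
    constructor
    · rintro ⟨h1, h2, h3⟩
      rcases h1 with rfl | rfl | rfl <;> rcases h2 with rfl | rfl | rfl <;>
        simp_all
    · have hba := hab.symm
      have hca := hac.symm
      have hcb := hbc.symm
      rintro ((⟨rfl, rfl⟩ | ⟨rfl, rfl⟩) | (⟨rfl, rfl⟩ | ⟨rfl, rfl⟩) | (⟨rfl, rfl⟩ | ⟨rfl, rfl⟩)) <;>
        simp_all

theorem card3 {a b c : Fin n} (hab : a ≠ b) (hac : a ≠ c) (hbc : b ≠ c) :
    ({a, b, c} : Finset (Fin n)).card = 3 := by
  rw [card_insert_of_notMem (by simp [hab, hac]), card_insert_of_notMem (by simp [hbc]),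
    card_singleton]

theorem perm3 (a b c : Fin n) : ({b, a, c} : Finset (Fin n)) = {a, b, c} ∧
    ({b, c, a} : Finset (Fin n)) = {a, b, c} ∧ ({c, a, b} : Finset (Fin n)) = {a, b, c} ∧
    ({c, b, a} : Finset (Fin n)) = {a, b, c} ∧ ({a, c, b} : Finset (Fin n)) = {a, b, c} := by
  refine ⟨?_, ?_, ?_, ?_, ?_⟩ <;>
    · ext x
      simp only [mem_insert, mem_singleton]
      tauto

/-- the block form as a sum over cherries -/
theorem tri_sum (A : Finset (Sym2 (Fin n))) (hA : ∀ u, s(u, u) ∉ A)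
    (g : Sym2 (Fin n) → Sym2 (Fin n) → ℝ) :
    ∑ T ∈ bl (BK n) A, ∑ e ∈ T, ∑ f ∈ T.erase e, g e f =
      ∑ u, ∑ x, ∑ y, if (s(u, x) ∈ A ∧ s(u, y) ∈ A) ∧ s(x, y) ∈ A then g s(u, x) s(u, y)
        else 0 := by
  have hL : ∑ T ∈ bl (BK n) A, ∑ e ∈ T, ∑ f ∈ T.erase e, g e f =
      ∑ q ∈ ((bl (BK n) A) ×ˢ ((univ : Finset (Sym2 (Fin n))) ×ˢ
        (univ : Finset (Sym2 (Fin n))))).filter
        (fun q => q.2.1 ∈ q.1 ∧ q.2.2 ∈ q.1.erase q.2.1), g q.2.1 q.2.2 := by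
    rw [sum_filter, sum_product]
    refine sum_congr rfl fun T _ => ?_
    rw [sum_product]
    have h1 : ∑ e ∈ T, ∑ f ∈ T.erase e, g e f =
        ∑ e, if e ∈ T then ∑ f ∈ T.erase e, g e f else 0 := by
      rw [← sum_filter]
      exact sum_congr (by ext; simp) fun _ _ => rfl
    rw [h1]
    refine sum_congr rfl fun e _ => ?_
    split_ifs with h2
    · have h3 : ∑ f ∈ T.erase e, g e f = ∑ f, if f ∈ T.erase e then g e f else 0 := by
        rw [← sum_filter]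
        exact sum_congr (by ext; simp) fun _ _ => rfl
      rw [h3]
      exact sum_congr rfl fun f _ => by simp [h2]
    · symm
      exact sum_eq_zero fun f _ => by simp [h2]
  have hR : ∑ u, ∑ x, ∑ y, (if (s(u, x) ∈ A ∧ s(u, y) ∈ A) ∧ s(x, y) ∈ A then g s(u, x) s(u, y)
        else 0) =
      ∑ z ∈ (univ : Finset (Fin n × Fin n × Fin n)).filter
        (fun z => (s(z.1, z.2.1) ∈ A ∧ s(z.1, z.2.2) ∈ A) ∧ s(z.2.1, z.2.2) ∈ A),
        g s(z.1, z.2.1) s(z.1, z.2.2) := by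
    rw [sum_filter, Fintype.sum_prod_type]
    refine sum_congr rfl fun u _ => ?_
    rw [Fintype.sum_prod_type]
  rw [hL, hR]
  symm
  have hne : ∀ z : Fin n × Fin n × Fin n,
      (s(z.1, z.2.1) ∈ A ∧ s(z.1, z.2.2) ∈ A) ∧ s(z.2.1, z.2.2) ∈ A →
      z.1 ≠ z.2.1 ∧ z.1 ≠ z.2.2 ∧ z.2.1 ≠ z.2.2 := by
    rintro ⟨u, x, y⟩ ⟨⟨h1, h2⟩, h3⟩
    refine ⟨?_, ?_, ?_⟩
    · rintro h; simp only at h; subst h; exact hA _ h1
    · rintro h; simp only at h; subst h; exact hA _ h2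
    · rintro h; simp only at h; subst h; exact hA _ h3
  refine sum_bij (fun z _ => (tr {z.1, z.2.1, z.2.2}, s(z.1, z.2.1), s(z.1, z.2.2))) ?_ ?_ ?_ ?_
  · rintro ⟨u, x, y⟩ hz
    rw [mem_filter] at hz
    obtain ⟨h1, h2, h3⟩ := hne _ hz.2
    obtain ⟨-, ⟨hz1, hz2⟩, hz3⟩ := hz
    simp only at h1 h2 h3 hz1 hz2 hz3
    rw [mem_filter, mem_product, mem_erase]
    refine ⟨⟨?_, mem_product.2 ⟨mem_univ _, mem_univ _⟩⟩, ?_, ?_, ?_⟩
    · simp only
      rw [bl, mem_filter, mem_BK]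
      refine ⟨⟨{u, x, y}, card3 h1 h2 h3, rfl⟩, ?_⟩
      intro e he
      rw [mem_tr3 h1 h2 h3] at he
      rcases he with rfl | rfl | rfl
      · exact hz1
      · exact hz2
      · exact hz3
    · exact (mem_tr3 h1 h2 h3).2 (Or.inl rfl)
    · simp only
      intro h
      rw [Sym2.eq_iff] at h
      rcases h with ⟨-, h⟩ | ⟨h, -⟩
      · exact h3 h.symm
      · exact h1 h
    · exact (mem_tr3 h1 h2 h3).2 (Or.inr (Or.inl rfl))
  · rintro ⟨u, x, y⟩ hz ⟨u', x', y'⟩ hz' h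
    rw [mem_filter] at hz hz'
    obtain ⟨h1, h2, h3⟩ := hne _ hz.2
    obtain ⟨h1', h2', h3'⟩ := hne _ hz'.2
    simp only at h1 h2 h3 h1' h2' h3'
    simp only [Prod.mk.injEq] at h
    obtain ⟨-, h4, h5⟩ := h
    rw [Sym2.eq_iff] at h4 h5
    rcases h4 with ⟨h4, h6⟩ | ⟨h4, h6⟩
    · rcases h5 with ⟨-, h7⟩ | ⟨h5, h7⟩
      · rw [h4, h6, h7]
      · exact absurd (h4.trans h7.symm) h2
    · rcases h5 with ⟨h5, -⟩ | ⟨h5, h7⟩
      · exact absurd (h5.trans h6.symm) h1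
      · exact absurd (h4.symm.trans h5) h3'
  · rintro ⟨T, e, f⟩ hq
    rw [mem_filter, mem_product, mem_erase] at hq
    obtain ⟨⟨hT, -⟩, he, hfe, hf⟩ := hq
    simp only at hT he hfe hf
    rw [bl, mem_filter, mem_BK] at hT
    obtain ⟨⟨V, hV, rfl⟩, hsub⟩ := hT
    obtain ⟨a, b, c, hab, hac, hbc, rfl⟩ := card_eq_three.mp hV
    have hab' : s(a, b) ∈ A := hsub ((mem_tr3 hab hac hbc).2 (Or.inl rfl))
    have hac' : s(a, c) ∈ A := hsub ((mem_tr3 hab hac hbc).2 (Or.inr (Or.inl rfl)))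
    have hbc' : s(b, c) ∈ A := hsub ((mem_tr3 hab hac hbc).2 (Or.inr (Or.inr rfl)))
    have hba' : s(b, a) ∈ A := by rw [Sym2.eq_swap]; exact hab'
    have hca' : s(c, a) ∈ A := by rw [Sym2.eq_swap]; exact hac'
    have hcb' : s(c, b) ∈ A := by rw [Sym2.eq_swap]; exact hbc'
    rw [mem_tr3 hab hac hbc] at he hf
    obtain ⟨p1, p2, p3, p4, p5⟩ := perm3 a b c
    have q1 : s(b, a) = s(a, b) := Sym2.eq_swap
    have q2 : s(c, a) = s(a, c) := Sym2.eq_swap
    have q3 : s(c, b) = s(b, c) := Sym2.eq_swap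
    have key : ∀ (u x y : Fin n), s(u, x) ∈ A → s(u, y) ∈ A → s(x, y) ∈ A →
        tr {u, x, y} = tr {a, b, c} → s(u, x) = e → s(u, y) = f →
        ∃ z, ∃ (_ : z ∈ (univ : Finset (Fin n × Fin n × Fin n)).filter
        (fun z => (s(z.1, z.2.1) ∈ A ∧ s(z.1, z.2.2) ∈ A) ∧ s(z.2.1, z.2.2) ∈ A)),
          (tr {z.1, z.2.1, z.2.2}, s(z.1, z.2.1), s(z.1, z.2.2)) = (tr {a, b, c}, e, f) := by
      intro u x y h1 h2 h3 h4 h5 h6
      refine ⟨(u, x, y), mem_filter.2 ⟨mem_univ _, ⟨h1, h2⟩, h3⟩, ?_⟩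
      rw [Prod.mk.injEq, Prod.mk.injEq]
      exact ⟨h4, h5, h6⟩
    rcases he with he | he | he <;> rcases hf with hf | hf | hf
    · exact absurd (hf.trans he.symm) hfe
    · exact key a b c hab' hac' hbc' rfl he.symm hf.symm
    · exact key b a c hba' hbc' hac' (by rw [p1]) (by rw [q1, he]) hf.symm
    · exact key a c b hac' hab' hcb' (by rw [p5]) he.symm hf.symm
    · exact absurd (hf.trans he.symm) hfe
    · exact key c a b hca' hcb' hab' (by rw [p3]) (by rw [q2, he]) (by rw [q3, hf])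
    · exact key b c a hbc' hba' hca' (by rw [p2]) he.symm (by rw [q1, hf])
    · exact key c b a hcb' hca' hba' (by rw [p4]) (by rw [q3, he]) (by rw [q2, hf])
    · exact absurd (hf.trans he.symm) hfe
  · rintro ⟨u, x, y⟩ _
    rfl

/-- the sum over ordered pairs is twice the sum over edges -/
theorem sum_pairs (A : Finset (Sym2 (Fin n))) (hA : ∀ u, s(u, u) ∉ A) (h : Sym2 (Fin n) → ℝ) :
    ∑ u, ∑ v, (if s(u, v) ∈ A then h s(u, v) else 0) = 2 * ∑ e ∈ A, h e := by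
  have h1 : ∑ u, ∑ v, (if s(u, v) ∈ A then h s(u, v) else 0) =
      ∑ z ∈ (univ : Finset (Fin n × Fin n)).filter (fun z => s(z.1, z.2) ∈ A),
        h s(z.1, z.2) := by
    rw [sum_filter, Fintype.sum_prod_type]
  rw [h1, ← sum_fiberwise_of_maps_to (s := (univ : Finset (Fin n × Fin n)).filter
    (fun z => s(z.1, z.2) ∈ A)) (t := A) (g := fun z => s(z.1, z.2))
    (fun z hz => (mem_filter.1 hz).2), mul_sum]
  refine sum_congr rfl fun e he => ?_
  induction e with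
  | h a b =>
    have hab : a ≠ b := by
      rintro rfl
      exact hA a he
    have h2 : ((univ : Finset (Fin n × Fin n)).filter (fun z => s(z.1, z.2) ∈ A)).filter
        (fun z => s(z.1, z.2) = s(a, b)) = {(a, b), (b, a)} := by
      ext ⟨x, y⟩
      simp only [mem_filter, mem_univ, true_and, mem_insert, mem_singleton, Prod.mk.injEq,
        Sym2.eq_iff]
      constructor
      · rintro ⟨-, h⟩
        exact h
      · rintro (⟨rfl, rfl⟩ | ⟨rfl, rfl⟩)
        · exact ⟨he, Or.inl ⟨rfl, rfl⟩⟩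
        · exact ⟨by rw [Sym2.eq_swap]; exact he, Or.inr ⟨rfl, rfl⟩⟩
    rw [h2, sum_pair (by simp [hab])]
    simp only
    rw [Sym2.eq_swap (a := b) (b := a)]
    ring

theorem adj_total (A : Finset (Sym2 (Fin n))) (hA : ∀ u, s(u, u) ∉ A) :
    ∑ u, ∑ v, adj A u v = 2 * (A.card : ℝ) := by
  have := sum_pairs A hA (fun _ => 1)
  simpa [adj] using this

theorem adj_cdg (A : Finset (Sym2 (Fin n))) (x y : Fin n) :
    ∑ u, adj A u x * adj A u y = (cdg A x y : ℝ) := by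
  unfold adj cdg
  rw [card_filter, Nat.cast_sum]
  refine sum_congr rfl fun u _ => ?_
  rw [Sym2.eq_swap (a := u) (b := x), Sym2.eq_swap (a := u) (b := y)]
  by_cases h1 : s(x, u) ∈ A <;> by_cases h2 : s(y, u) ∈ A <;> simp [h1, h2]

theorem cdg_le (A : Finset (Sym2 (Fin n))) (x y : Fin n) : (cdg A x y : ℝ) ≤ n := by
  have : cdg A x y ≤ (univ : Finset (Fin n)).card := card_filter_le _ _
  rw [card_univ, Fintype.card_fin] at this
  exact_mod_cast this

theorem stv_sq (A : Finset (Sym2 (Fin n))) (hA : ∀ u, s(u, u) ∉ A) (b : Sym2 (Fin n) → ℝ) :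
    ∑ u, ∑ x, stv A b u x ^ 2 = 2 * ∑ e ∈ A, b e ^ 2 := by
  rw [← sum_pairs A hA (fun e => b e ^ 2)]
  refine sum_congr rfl fun u _ => sum_congr rfl fun x _ => ?_
  unfold stv
  split_ifs <;> ring

/-- the block form as a sum of adjacency forms of the star vectors -/
theorem block_form_eq (A : Finset (Sym2 (Fin n))) (hA : ∀ u, s(u, u) ∉ A)
    (b : Sym2 (Fin n) → ℝ) :
    ∑ T ∈ bl (BK n) A, ∑ e ∈ T, ∑ f ∈ T.erase e, b e * b f =
      ∑ u, ∑ x, ∑ y, adj A x y * (stv A b u x * stv A b u y) := by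
  rw [tri_sum A hA (fun e f => b e * b f)]
  refine sum_congr rfl fun u _ => sum_congr rfl fun x _ => sum_congr rfl fun y _ => ?_
  unfold adj stv
  by_cases h1 : s(u, x) ∈ A <;> by_cases h2 : s(u, y) ∈ A <;> by_cases h3 : s(x, y) ∈ A <;>
    simp [h1, h2, h3]

/-- [LAM] lower bound for the adjacency form of the alive graph from the codegrees -/
theorem adj_form_ge (A : Finset (Sym2 (Fin n))) (hA : ∀ u, s(u, u) ∉ A) (hne : A.Nonempty)
    (ρ D2 : ℝ) (hρ : 0 ≤ ρ)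
    (hD : ∑ x, ∑ y, (if x = y then 0 else ((cdg A x y : ℝ) - ρ) ^ 2) ≤ D2) (v : Fin n → ℝ) :
    -(Real.sqrt (n + Real.sqrt D2) + n * (n + Real.sqrt D2) / (2 * (A.card : ℝ))) *
      ∑ u, v u ^ 2 ≤ ∑ u, ∑ w, adj A u w * (v u * v w) := by
  have hM : 0 < ∑ u, ∑ w, adj A u w := by
    rw [adj_total A hA]
    have : (0 : ℝ) < A.card := by exact_mod_cast hne.card_pos
    linarith
  have h1 := quad_lower_aux (adj A) (adj_symm A) (n + Real.sqrt D2) (by positivity)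
    (codeg_aux (adj A) ρ n D2 hρ (fun x => by rw [adj_cdg]; exact cdg_le A x x)
      (by simp_rw [adj_cdg]; exact hD)) hM v
  rw [adj_total A hA, Fintype.card_fin] at h1
  exact h1

/-- [LAM] lower bound for the block form of the alive graph from the codegrees -/
theorem block_form_ge (A : Finset (Sym2 (Fin n))) (hA : ∀ u, s(u, u) ∉ A) (hne : A.Nonempty)
    (ρ D2 : ℝ) (hρ : 0 ≤ ρ)
    (hD : ∑ x, ∑ y, (if x = y then 0 else ((cdg A x y : ℝ) - ρ) ^ 2) ≤ D2)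
    (b : Sym2 (Fin n) → ℝ) :
    -(2 * (Real.sqrt (n + Real.sqrt D2) + n * (n + Real.sqrt D2) / (2 * (A.card : ℝ)))) *
      ∑ e ∈ A, b e ^ 2 ≤ ∑ T ∈ bl (BK n) A, ∑ e ∈ T, ∑ f ∈ T.erase e, b e * b f := by
  rw [block_form_eq A hA b]
  have h1 : ∀ u, -(Real.sqrt (n + Real.sqrt D2) + n * (n + Real.sqrt D2) / (2 * (A.card : ℝ))) *
      ∑ x, stv A b u x ^ 2 ≤ ∑ x, ∑ y, adj A x y * (stv A b u x * stv A b u y) :=
    fun u => adj_form_ge A hA hne ρ D2 hρ hD (stv A b u)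
  have h2 := sum_le_sum (s := (univ : Finset (Fin n))) fun u _ => h1 u
  rw [← mul_sum, stv_sq A hA b] at h2
  linarith

end

end Vale.Agent.P046
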