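import Vale.Agent.P046.NL.Defs2
import Vale.Agent.P046.NL.TriSum

/-! P046 no-log, row SPEC: spectral bound on real states -/

namespace Vale.Agent.P046.NL

open Finset Vale.Agent.P046

noncomputable section

theorem loopless {n : ℕ} {A : Finset (Sym2 (Fin n))} (hA : A ⊆ tr univ) (v : Fin n) :
    s(v, v) ∉ A := by
  intro h
  have := hA h
  rw [mk_mem_tr] at this
  exact this.2.2 rfl

theorem cd_eq_cdg {n : ℕ} (A : Finset (Sym2 (Fin n))) (a b : Fin n) :
    cd A a b = (cdg A a b : ℝ) := rfl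

/-- the quadratic form of `Pb` on a real state -/
theorem form_toSt {n : ℕ} (u : ℝ) (A : Finset (Sym2 (Fin n))) :
    ∑ e ∈ A, be u (toSt (BK n) A) e * Pb u (toSt (BK n) A) e =
      u * ∑ T ∈ bl (BK n) A, ∑ e ∈ T, ∑ f ∈ T.erase e,
        be u (toSt (BK n) A) e * be u (toSt (BK n) A) f := by
  have h1 : ∀ e ∈ A, be u (toSt (BK n) A) e * Pb u (toSt (BK n) A) e =
      ∑ T ∈ bl (BK n) A, if e ∈ T then u * ∑ f ∈ T.erase e,
        be u (toSt (BK n) A) e * be u (toSt (BK n) A) f else 0 := by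
    intro e _
    unfold Pb
    rw [← sum_filter]
    rw [mul_left_comm, mul_sum, mul_sum]
    refine sum_congr rfl fun T hT => ?_
    have hT' : T ⊆ A := by
      have h2 : T ∈ bl (BK n) A := (mem_filter.1 hT).1
      exact (mem_filter.1 h2).2
    have h3 : (T.erase e).filter (fun f => f ∈ (toSt (BK n) A).B) = T.erase e := by
      refine filter_true_of_mem fun f hf => ?_
      exact hT' (mem_of_mem_erase hf)
    rw [h3, mul_sum]
  rw [sum_congr rfl h1, sum_comm, mul_sum]
  refine sum_congr rfl fun T hT => ?_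
  have hT' : T ⊆ A := (mem_filter.1 hT).2
  rw [← sum_filter, mul_sum]
  refine sum_congr ?_ fun e _ => rfl
  ext e
  simp only [mem_filter]
  exact ⟨fun h => h.2, fun h => ⟨hT' h, h⟩⟩

/-- number of edges from the codegrees -/
theorem card_ge_of_cd {n : ℕ} (hn : 2 ≤ n) {A : Finset (Sym2 (Fin n))} {r D2 : ℝ}
    (hr : 0 < r) (hrn : r ≤ 2 * n)
    (hA : ∀ v, s(v, v) ∉ A)
    (hD : ∑ x : Fin n, ∑ y : Fin n, (if x = y then 0 else ((cdg A x y : ℝ) - r) ^ 2) ≤ D2)
    (hD2 : 10 ^ 12 * D2 ≤ r ^ 4) : r * n / 8 ≤ (A.card : ℝ) := by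
  have hn' : (2 : ℝ) ≤ n := by exact_mod_cast hn
  -- upper bound of the sum of the codegrees
  have h1 : ∑ x : Fin n, ∑ y : Fin n, (if x = y then 0 else (cdg A x y : ℝ)) ≤
      n * (2 * (A.card : ℝ)) := by
    have h2 : ∑ x : Fin n, ∑ y : Fin n, (if x = y then 0 else (cdg A x y : ℝ)) ≤
        ∑ x : Fin n, ∑ y : Fin n, (cdg A x y : ℝ) := by
      refine sum_le_sum fun x _ => sum_le_sum fun y _ => ?_
      split_ifs
      · positivity
      · exact le_rfl
    refine h2.trans ?_
    have h3 : ∑ x : Fin n, ∑ y : Fin n, (cdg A x y : ℝ) =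
        ∑ u : Fin n, (∑ x : Fin n, adj A u x) ^ 2 := by
      simp_rw [← adj_cdg, sq, sum_mul_sum]
      rw [sum_comm' (t' := univ) (s' := fun _ => univ) (by simp)]
      rw [show (∑ y : Fin n, ∑ x : Fin n, ∑ u : Fin n, adj A u x * adj A u y) =
        ∑ y : Fin n, ∑ u : Fin n, ∑ x : Fin n, adj A u x * adj A u y from
          sum_congr rfl fun y _ => sum_comm]
      rw [sum_comm]
      refine sum_congr rfl fun u _ => ?_
      rw [sum_comm]
    rw [h3]
    have h4 : ∀ u : Fin n, (∑ x : Fin n, adj A u x) ^ 2 ≤ n * ∑ x : Fin n, adj A u x := by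
      intro u
      have h5 : ∑ x : Fin n, adj A u x ≤ n := by
        calc ∑ x : Fin n, adj A u x ≤ ∑ x : Fin n, (1 : ℝ) := by
              refine sum_le_sum fun x _ => ?_
              unfold adj
              split_ifs <;> norm_num
          _ = n := by simp
      have h6 : 0 ≤ ∑ x : Fin n, adj A u x := by
        refine sum_nonneg fun x _ => ?_
        unfold adj
        split_ifs <;> norm_num
      nlinarith
    calc ∑ u : Fin n, (∑ x : Fin n, adj A u x) ^ 2 ≤ ∑ u : Fin n, n * ∑ x : Fin n, adj A u x :=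
          sum_le_sum fun u _ => h4 u
      _ = n * ∑ u : Fin n, ∑ x : Fin n, adj A u x := by rw [mul_sum]
      _ = n * (2 * (A.card : ℝ)) := by rw [adj_total A hA]
  -- lower bound
  set g : Fin n × Fin n → ℝ := fun z => if z.1 = z.2 then 0 else ((cdg A z.1 z.2 : ℝ) - r) with hg
  have h2 : (∑ z : Fin n × Fin n, g z) ^ 2 ≤ ((n : ℝ) ^ 2) * D2 := by
    have h3 := sq_sum_le_card_mul_sum_sq (s := (univ : Finset (Fin n × Fin n))) (f := g)
    have h4 : ((univ : Finset (Fin n × Fin n)).card : ℝ) = (n : ℝ) ^ 2 := by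
      rw [card_univ, Fintype.card_prod, Fintype.card_fin]
      push_cast
      ring
    rw [h4] at h3
    refine h3.trans (mul_le_mul_of_nonneg_left ?_ (by positivity))
    refine le_trans (le_of_eq ?_) hD
    rw [Fintype.sum_prod_type]
    refine sum_congr rfl fun x _ => sum_congr rfl fun y _ => ?_
    simp only [hg]
    split_ifs
    · ring
    · rfl
  have h5 : ∑ x : Fin n, ∑ y : Fin n, (if x = y then 0 else (cdg A x y : ℝ)) =
      (∑ z : Fin n × Fin n, g z) + r * (n * (n - 1)) := by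
    rw [Fintype.sum_prod_type]
    have h6 : ∑ x : Fin n, ∑ y : Fin n, (if x = y then (0 : ℝ) else r) = r * (n * (n - 1)) := by
      have h7 : ∀ x : Fin n, ∑ y : Fin n, (if x = y then (0 : ℝ) else r) = (n - 1) * r := by
        intro x
        have h8 : ∀ y : Fin n, (if x = y then (0 : ℝ) else r) = r - (if x = y then r else 0) := by
          intro y
          split_ifs <;> ring
        simp_rw [h8, sum_sub_distrib]
        simp
        ring
      simp_rw [h7]
      simp
      ring
    rw [← h6, ← sum_add_distrib]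
    refine sum_congr rfl fun x _ => ?_
    rw [← sum_add_distrib]
    refine sum_congr rfl fun y _ => ?_
    simp only [hg]
    split_ifs
    · ring
    · ring
  have h8 : (∑ z : Fin n × Fin n, g z) ^ 2 ≤ (n * r ^ 2 / 10 ^ 6) ^ 2 := by
    refine h2.trans ?_
    rw [div_pow, mul_pow]
    have : (n : ℝ) ^ 2 * (10 ^ 12 * D2) ≤ (n : ℝ) ^ 2 * r ^ 4 :=
      mul_le_mul_of_nonneg_left hD2 (by positivity)
    rw [le_div_iff₀ (by norm_num)]
    nlinarith
  have h9 := abs_le_of_sq_le_sq h8 (by positivity)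
  have h10 : -(n * r ^ 2 / 10 ^ 6) ≤ ∑ z : Fin n × Fin n, g z := neg_le_of_abs_le h9
  rw [h5] at h1
  have h11 : n * r ^ 2 / 10 ^ 6 ≤ r * n * n / 8 := by
    rw [div_le_div_iff₀ (by norm_num) (by norm_num)]
    have : n * r * r ≤ n * r * (2 * n) := mul_le_mul_of_nonneg_left hrn (by positivity)
    nlinarith
  have h12 : r * n * n / 2 ≤ r * (n * (n - 1)) := by
    have : (0 : ℝ) ≤ r * n * (n / 2 - 1) := by
      have : (0 : ℝ) ≤ n / 2 - 1 := by linarith
      positivity
    nlinarith
  have h13 : r * n * n / 4 ≤ n * (2 * (A.card : ℝ)) := by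
    have : (0 : ℝ) ≤ r * n * n := by positivity
    linarith
  have h14 : (0 : ℝ) < n := by linarith
  have h15 : n * (r * n / 8) ≤ n * (A.card : ℝ) := by nlinarith
  exact le_of_mul_le_mul_left h15 h14

/-- [SPEC] -/
theorem spec {n : ℕ} {th u r : ℝ} (hn : 2 ≤ n) {A : Finset (Sym2 (Fin n))} (hA : A ⊆ tr univ)
    (hur : u * r = 1) (hr : 100 ≤ r) (hth0 : 0 ≤ th) (hth : th ≤ 1 / 10)
    (hI : Inv (BK n) th u (toSt (BK n) A))
    (hX : 10 ^ 12 * XX u A ≤ r ^ 2) (hr3 : (10 : ℝ) ^ 12 * n ^ 3 ≤ r ^ 4) :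
    -2 * ∑ e ∈ A, be u (toSt (BK n) A) e * Pb u (toSt (BK n) A) e ≤
      (1 / 16) * Sb u (toSt (BK n) A) := by
  have _ := hth0
  have hrpos : 0 < r := by linarith
  have hu : 0 < u := by
    by_contra h
    push Not at h
    nlinarith
  have hSb : Sb u (toSt (BK n) A) = ∑ e ∈ A, be u (toSt (BK n) A) e ^ 2 := rfl
  rcases A.eq_empty_or_nonempty with hE | hne
  · rw [hSb, hE]
    simp
  have hn' : (2 : ℝ) ≤ n := by exact_mod_cast hn
  have hloop := loopless hA
  -- r ≤ 2 n
  have hrn : r ≤ 2 * n := by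
    obtain ⟨e, he⟩ := hne
    have h1 := hI.bd e
    have h2 : xv u (toSt (BK n) A) e = u * dW (bl (BK n) A) e - 1 := by
      unfold xv
      rw [if_pos (show e ∈ (toSt (BK n) A).B from he)]
      rfl
    rw [h2] at h1
    have h3 : dW (bl (BK n) A) e ≤ n := by
      unfold dW
      have h4 : ((bl (BK n) A).filter (fun T => e ∈ T)).card ≤ n := by
        induction e with
        | h a b =>
          have hab : a ≠ b := by
            rintro rfl
            exact hloop _ he
          have h5 : ((bl (BK n) A).filter (fun T => s(a, b) ∈ T)) ⊆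
              (univ : Finset (Fin n)).image (fun c => tr {a, b, c}) := by
            intro T hT
            rw [mem_filter] at hT
            have h6 : T ∈ BK n := (mem_filter.1 hT.1).1
            rw [mem_BK] at h6
            obtain ⟨T', hT', rfl⟩ := h6
            have h7 := hT.2
            rw [mk_mem_tr] at h7
            have h8 : ({a, b} : Finset (Fin n)) ⊆ T' := by
              intro x hx
              simp only [mem_insert, mem_singleton] at hx
              rcases hx with rfl | rfl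
              · exact h7.1
              · exact h7.2.1
            have h9 : (T' \ {a, b}).card = 1 := by
              rw [card_sdiff_of_subset h8, hT', card_pair hab]
            obtain ⟨c, hc⟩ := card_eq_one.1 h9
            rw [mem_image]
            refine ⟨c, mem_univ _, ?_⟩
            congr 1
            rw [← sdiff_union_of_subset h8, hc]
            ext x
            simp only [mem_insert, mem_singleton, mem_union]
            tauto
          refine (card_le_card h5).trans (card_image_le.trans ?_)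
          simp
      exact_mod_cast h4
    have h5 : 1 - th ≤ u * dW (bl (BK n) A) e := by
      have := neg_le_of_abs_le h1
      linarith
    have h6 : u * dW (bl (BK n) A) e ≤ u * n := mul_le_mul_of_nonneg_left h3 hu.le
    have h7 : 9 / 10 ≤ u * n := by linarith
    have h8 : r * (9 / 10) ≤ r * (u * n) := mul_le_mul_of_nonneg_left h7 hrpos.le
    have h9 : r * (u * n) = n := by
      rw [← mul_assoc, mul_comm r u, hur, one_mul]
    linarith
  set D2 : ℝ := ∑ x : Fin n, ∑ y : Fin n, (if x = y then 0 else ((cdg A x y : ℝ) - r) ^ 2)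
    with hD2def
  have hDX : D2 = r ^ 2 * XX u A := by
    unfold XX
    rw [hD2def, mul_sum]
    refine sum_congr rfl fun x _ => ?_
    have h1 : ∑ y : Fin n, (if x = y then (0 : ℝ) else ((cdg A x y : ℝ) - r) ^ 2) =
        ∑ y ∈ univ.erase x, ((cdg A x y : ℝ) - r) ^ 2 := by
      rw [← sum_filter_add_sum_filter_not univ (fun y => x = y)]
      have h2 : ∑ y ∈ univ.filter (fun y => x = y),
          (if x = y then (0 : ℝ) else ((cdg A x y : ℝ) - r) ^ 2) = 0 := by
        refine sum_eq_zero fun y hy => ?_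
        rw [if_pos (mem_filter.1 hy).2]
      rw [h2, zero_add]
      have h3 : univ.filter (fun y => ¬ x = y) = univ.erase x := by
        ext y
        simp only [mem_filter, mem_univ, true_and, mem_erase, and_true]
        exact ⟨fun h h' => h h'.symm, fun h h' => h h'.symm⟩
      rw [h3]
      refine sum_congr rfl fun y hy => ?_
      rw [if_neg]
      exact fun h => (mem_erase.1 hy).1 h.symm
    rw [h1, mul_sum]
    refine sum_congr rfl fun y _ => ?_
    rw [cd_eq_cdg]
    have h2 : (cdg A x y : ℝ) - r = r * (u * (cdg A x y : ℝ) - 1) := by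
      have : r * (u * (cdg A x y : ℝ)) = cdg A x y := by
        rw [← mul_assoc, mul_comm r u, hur, one_mul]
      linarith
    rw [h2]
    ring
  have hD0 : 0 ≤ D2 := by
    rw [hD2def]
    refine sum_nonneg fun x _ => sum_nonneg fun y _ => ?_
    split_ifs <;> positivity
  have hD12 : 10 ^ 12 * D2 ≤ r ^ 4 := by
    rw [hDX]
    have : r ^ 2 * (10 ^ 12 * XX u A) ≤ r ^ 2 * r ^ 2 :=
      mul_le_mul_of_nonneg_left hX (by positivity)
    nlinarith
  have hcard := card_ge_of_cd hn hrpos hrn hloop le_rfl hD12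
  -- sqrt D2
  have hs1 : Real.sqrt D2 ≤ r ^ 2 / 10 ^ 6 := by
    rw [Real.sqrt_le_left (by positivity), div_pow]
    rw [le_div_iff₀ (by norm_num)]
    nlinarith
  have hr1000 : 1000 ≤ r := by
    by_contra h
    push Not at h
    have h1 : r ^ 4 < 1000 ^ 4 := by
      have := pow_lt_pow_left₀ h hrpos.le (show (4 : ℕ) ≠ 0 by norm_num)
      exact this
    have h2 : (1 : ℝ) ≤ n ^ 3 := by
      have : (1 : ℝ) ≤ n := by linarith
      exact one_le_pow₀ this
    nlinarith
  have hn2 : (n : ℝ) ≤ r ^ 2 / 10 ^ 6 := by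
    by_contra h
    push Not at h
    have h1 : (r ^ 2 / 10 ^ 6) ^ 3 < (n : ℝ) ^ 3 :=
      pow_lt_pow_left₀ h (by positivity) (by norm_num)
    have h2 : (r ^ 2 / 10 ^ 6) ^ 3 = r ^ 4 * (r ^ 2 / 10 ^ 18) := by ring
    have h3 : r ^ 4 / 10 ^ 12 ≤ r ^ 4 * (r ^ 2 / 10 ^ 18) := by
      have h4 : (1 : ℝ) / 10 ^ 12 ≤ r ^ 2 / 10 ^ 18 := by
        rw [div_le_div_iff₀ (by norm_num) (by norm_num)]
        nlinarith
      have := mul_le_mul_of_nonneg_left h4 (show (0 : ℝ) ≤ r ^ 4 by positivity)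
      linarith
    have h5 : (n : ℝ) ^ 3 ≤ r ^ 4 / 10 ^ 12 := by
      rw [le_div_iff₀ (by norm_num)]
      linarith
    linarith
  have hK : (n : ℝ) + Real.sqrt D2 ≤ (2 * r / 1000) ^ 2 := by
    have : (2 * r / 1000) ^ 2 = 4 * (r ^ 2 / 10 ^ 6) := by ring
    rw [this]
    have h1 : (0 : ℝ) ≤ r ^ 2 / 10 ^ 6 := by positivity
    linarith
  have hK1 : Real.sqrt ((n : ℝ) + Real.sqrt D2) ≤ 2 * r / 1000 :=
    Real.sqrt_le_iff.2 ⟨by positivity, hK⟩
  have hAc : (0 : ℝ) < A.card := by exact_mod_cast hne.card_pos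
  have hK2 : (n : ℝ) * (n + Real.sqrt D2) / (2 * (A.card : ℝ)) ≤ r / 1000 := by
    rw [div_le_iff₀ (by positivity)]
    have h1 : (n : ℝ) * (n + Real.sqrt D2) ≤ n * (2 * r / 1000) ^ 2 :=
      mul_le_mul_of_nonneg_left hK (by positivity)
    have h2 : r / 1000 * (2 * (r * n / 8)) ≤ r / 1000 * (2 * (A.card : ℝ)) := by
      have : (0 : ℝ) ≤ r / 1000 := by positivity
      exact mul_le_mul_of_nonneg_left (by linarith) this
    have h3 : (n : ℝ) * (2 * r / 1000) ^ 2 = (4 / 10 ^ 6) * (n * r ^ 2) := by ring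
    have h4 : r / 1000 * (2 * (r * n / 8)) = (1 / 4000) * (n * r ^ 2) := by ring
    have h5 : (0 : ℝ) ≤ n * r ^ 2 := by positivity
    nlinarith
  have hform := block_form_ge A hloop hne r D2 hrpos.le le_rfl (be u (toSt (BK n) A))
  rw [form_toSt, hSb]
  set F : ℝ := ∑ T ∈ bl (BK n) A, ∑ e ∈ T, ∑ f ∈ T.erase e,
    be u (toSt (BK n) A) e * be u (toSt (BK n) A) f with hF
  set Q2 : ℝ := ∑ e ∈ A, be u (toSt (BK n) A) e ^ 2 with hQ2
  have hQ0 : 0 ≤ Q2 := sum_nonneg fun e _ => sq_nonneg _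
  set c1 : ℝ := Real.sqrt ((n : ℝ) + Real.sqrt D2) + n * (n + Real.sqrt D2) / (2 * (A.card : ℝ))
    with hc1
  have hc : c1 ≤ 3 * r / 1000 := by
    rw [hc1]
    linarith
  have h1 : -F ≤ 2 * c1 * Q2 := by
    have : -(2 * c1) * Q2 ≤ F := hform
    linarith
  have h2 : 2 * c1 * Q2 ≤ 2 * (3 * r / 1000) * Q2 := by
    have := mul_le_mul_of_nonneg_right hc hQ0
    linarith
  have h3 : u * (-F) ≤ u * (2 * (3 * r / 1000) * Q2) :=
    mul_le_mul_of_nonneg_left (h1.trans h2) hu.le
  have h4 : u * (2 * (3 * r / 1000) * Q2) = (6 / 1000) * Q2 := by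
    have : u * (2 * (3 * r / 1000) * Q2) = (u * r) * (6 / 1000 * Q2) := by ring
    rw [this, hur, one_mul]
  linarith

end

end Vale.Agent.P046.NL
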