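import Vale.Agent.P046.NL.MIDCORE
import Vale.Agent.P046.NL.SCR
import Vale.Agent.P046.NL.XG
import Vale.Agent.P046.NL.SPEC
import Vale.Agent.P046.NL.RED

/-! P046 no-log, row EARLYCORE: time step and generator of the functional of the early phase
(form with the scalar inequality and the facts about good states as hypotheses). -/

namespace Vale.Agent.P046.NL

open Finset Vale.Agent.P046

noncomputable section

namespace EC

/-- the scalar inequality with a general right side -/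
def ScalarE (n : ℕ) (R : ℝ → ℝ → ℝ → ℝ) : Prop :=
    ∀ u q S2 S4 S6 b X N6 N8 X1 : ℝ, 1 / ((n : ℝ) - 2) ≤ u → u ≤ u0 n → 0 ≤ q → 0 ≤ S2 →
    0 ≤ S4 → 0 ≤ S6 → 0 ≤ b → 0 ≤ X → 0 ≤ N6 → 0 ≤ N8 →
    (∀ mu : ℝ, 0 < mu → 2 * |X1| ≤ mu * q + S2 / mu) →
    u ^ (1 / 2 : ℝ) * (-(q + X1) + q) - u ^ (1 / 2 + e0 / 4 : ℝ) * (-(q + X1) + (1 + e0 / 2) * q)
    + u0 n ^ (5001 : ℝ) * u ^ (-5001 : ℝ) *
      ((n : ℝ) ^ (1 / 10 : ℝ) * (10000 * (S2 + u * q) - 10002 * S2)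
        + 1000 / e0 * u0 n ^ (-(1 / 2 + e0) : ℝ) * (10000 * (S4 + u ^ 2 * q) - 10002 * S4)
        + (n : ℝ) ^ 2 / t0 e0 ^ 6 * (10000 * (S6 + u ^ 3 * q) - 10002 * S6)
        + 2 * 10 ^ 12 * (n : ℝ) ^ 2 * u0 n ^ 2 *
          (10 * X + 100 * (n * u) ^ 2 * S2 + 100 * u * n ^ 2 - 10002 * X))
    + u0 n ^ (-(1 / 2 + e0) : ℝ) *
      (-(1 - 2 * t0 e0 - 1 / 16 - 1 / 16) * b + 320 * S4 + 1 / 16 * b + 25600 * u ^ 2 * q
        + 200 * u * S2 + (50 * u ^ 2 * q + 207360 * u ^ 4 * (N6 + N8)))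
    + u ^ (11 / 4 : ℝ) * (-(6 * (1 - 2 * t0 e0) - 100 * u) * N6 + 11 / 2 * N6)
    + 10 ^ 6 * u0 n ^ (-(1 / 4 + e0) : ℝ) * u ^ (15 / 4 : ℝ) *
      (-(8 * (1 - 2 * t0 e0) - 100 * u) * N8 + 15 / 2 * N8)
      ≤ R u q S2

/-- the facts about good states -/
def GoodStep (n : ℕ) : Prop :=
    ∃ h1 : ℝ, 0 < h1 ∧ ∀ h u : ℝ, 0 < h → h ≤ h1 → 1 / ((n : ℝ) - 2) ≤ u → u + 2 * h ≤ u0 n →
    ∀ A : Finset (Sym2 (Fin n)), A ⊆ tr univ → GoodE n u A →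
      Inv (BK n) (2 * t0 e0) (u + 2 * h) (toSt (BK n) A) ∧
      10 ^ 12 * XX (u + 2 * h) A ≤ (1 / (u + 2 * h)) ^ 2 ∧
      (10 : ℝ) ^ 12 * n ^ 3 ≤ (1 / (u + 2 * h)) ^ 4 ∧ 100 ≤ 1 / (u + 2 * h) ∧
      1 / (u + 2 * h) ≤ n

/-- conditions on a state and a time step -/
structure Cnd (n : ℕ) (umin u h : ℝ) (A : Finset (Sym2 (Fin n))) : Prop where
  hh : 0 < h
  hh1 : h ≤ umin / 8
  hu : umin ≤ u
  hA : A ⊆ tr univ
  inv : Inv (BK n) (2 * t0 e0) (u + 2 * h) (toSt (BK n) A)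
  xx : 10 ^ 12 * XX (u + 2 * h) A ≤ (1 / (u + 2 * h)) ^ 2
  n3 : (10 : ℝ) ^ 12 * n ^ 3 ≤ (1 / (u + 2 * h)) ^ 4
  r100 : 100 ≤ 1 / (u + 2 * h)
  rn : 1 / (u + 2 * h) ≤ n

theorem e0_pos : 0 < e0 := by unfold e0; norm_num
theorem e0_le : e0 ≤ 1 / 100 := by unfold e0; norm_num
theorem th_pos : 0 < t0 e0 := MC.t0_pos e0_pos
theorem th_le : 2 * t0 e0 ≤ 1 / 10 := MC.t0_le e0_pos e0_le

section

variable {n : ℕ} {umin u h : ℝ} {A : Finset (Sym2 (Fin n))}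

theorem Cnd.vpos (hu0 : 0 < umin) (c : Cnd n umin u h A) : 0 < u + 2 * h := by
  have := c.hh; have := c.hu; linarith

theorem Cnd.v100 (hu0 : 0 < umin) (c : Cnd n umin u h A) : u + 2 * h ≤ 1 / 100 := by
  have h1 := c.r100
  have hv := c.vpos hu0
  rw [le_div_iff₀ hv] at h1
  linarith

theorem Cnd.mc (hu0 : 0 < umin) (c : Cnd n umin u h A) :
    MC.Cnd e0 umin (BK n) (tr univ) u h (toSt (BK n) A) :=
  ⟨c.hh, c.hh1, c.hu, c.v100 hu0, c.hA, c.hA, c.inv⟩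

theorem Cnd.hur (hu0 : 0 < umin) (c : Cnd n umin u h A) :
    (u + 2 * h) * (1 / (u + 2 * h)) = 1 := mul_one_div_cancel (c.vpos hu0).ne'

theorem Q_toSt (A : Finset (Sym2 (Fin n))) : Q (toSt (BK n) A) = (A.card : ℝ) := rfl

theorem W_le (A : Finset (Sym2 (Fin n))) (e : Sym2 (Fin n)) :
    dW (toSt (BK n) A).W e ≤ ((BK n).card : ℝ) := by
  unfold dW
  exact_mod_cast card_le_card ((filter_subset _ _).trans (filter_subset _ _))

end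

/-- terms `S (2 k)` -/
theorem termS {n : ℕ} {umin : ℝ} (hu0 : 0 < umin) (k : ℕ) (hk : k = 1 ∨ k = 2 ∨ k = 3) (a : ℝ) :
    ∃ E : ℝ, 0 ≤ E ∧ ∀ u h : ℝ, ∀ A, Cnd n umin u h A →
      (u + 2 * h) ^ a * (S (2 * k) (u + 2 * h) (toSt (BK n) A)
        + h * gen (BK n) (1 / (u + 2 * h)) (S (2 * k) (u + 2 * h)) (toSt (BK n) A)) ≤
        u ^ a * S (2 * k) u (toSt (BK n) A) + h * (1 / (u + 2 * h)) * ((u + 2 * h) ^ a *
          (10000 * (S (2 * k) (u + 2 * h) (toSt (BK n) A) + (u + 2 * h) ^ k * (A.card : ℝ))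
          + 2 * a * S (2 * k) (u + 2 * h) (toSt (BK n) A))) + E * h ^ 2 := by
  obtain ⟨C, hC, hT⟩ := term_pow a
  have hqm : (0 : ℝ) ≤ ((tr (univ : Finset (Fin n))).card : ℝ) := by positivity
  obtain ⟨E, hE, H⟩ := MC.tp
    (dm := ((2 * k : ℕ) : ℝ) * ((BK n).card : ℝ) * ((tr (univ : Finset (Fin n))).card : ℝ))
    (em := 0) hC hT hu0 hqm (by positivity) le_rfl
  refine ⟨E, hE, fun u h A c => ?_⟩
  have ht := th_pos
  have hth := th_le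
  have hv := c.vpos hu0
  have hQm : Q (toSt (BK n) A) ≤ ((tr (univ : Finset (Fin n))).card : ℝ) := MC.Q_le c.hA
  have he : Even (2 * k) := even_two_mul k
  have hS : S (2 * k) (u + 2 * h) (toSt (BK n) A) ≤ Q (toSt (BK n) A) := by
    have h1 := BDS.sum_le_Q (toSt (BK n) A) (fun e => xv (u + 2 * h) (toSt (BK n) A) e ^ (2 * k)) 1
      (fun e _ => (le_abs_self _).trans (BDS.x_pow hth c.inv e (2 * k)))
    rw [one_mul] at h1
    exact h1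
  have hdS : |dS (2 * k) (u + 2 * h) (toSt (BK n) A)| ≤
      ((2 * k : ℕ) : ℝ) * ((BK n).card : ℝ) * Q (toSt (BK n) A) := by
    unfold dS
    refine BDS.abs_sum_le_Q _ _ _ fun e _ => ?_
    have h1 := BDS.x_pow hth c.inv e (2 * k - 1)
    have h2 := W_le A e
    have h3 := BDS.dWnn (toSt (BK n) A).W e
    rw [abs_mul, abs_mul, abs_of_nonneg h3, abs_of_nonneg (Nat.cast_nonneg (2 * k))]
    calc ((2 * k : ℕ) : ℝ) * |xv (u + 2 * h) (toSt (BK n) A) e ^ (2 * k - 1)| *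
        dW (toSt (BK n) A).W e ≤ ((2 * k : ℕ) : ℝ) * 1 * ((BK n).card : ℝ) := by
          apply mul_le_mul _ h2 h3 (by positivity)
          exact mul_le_mul_of_nonneg_left h1 (by positivity)
      _ = _ := by ring
  have hg := gen_Scr (lin3_BK n) (c.hur hu0) c.r100 (by linarith) hth c.inv
    (V_toSt (BK n) A) k hk
  have hts := time_S (2 * k) he u h (toSt (BK n) A)
  have hSn : ∀ w, 0 ≤ S (2 * k) w (toSt (BK n) A) := fun w => MC.S_nonneg he _ _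
  refine H u h (S (2 * k) u (toSt (BK n) A)) (S (2 * k) (u + 2 * h) (toSt (BK n) A))
    (dS (2 * k) (u + 2 * h) (toSt (BK n) A))
    (gen (BK n) (1 / (u + 2 * h)) (S (2 * k) (u + 2 * h)) (toSt (BK n) A)) _
    0 c.hu c.hh c.hh1 (c.v100 hu0) (hSn _) (hSn _) (hS.trans hQm) ?_ (by linarith) le_rfl
    (by simp) hg
  refine hdS.trans ?_
  exact mul_le_mul_of_nonneg_left hQm (by positivity)

/-- crude bound for the codegree -/
theorem cd_le {n : ℕ} (A : Finset (Sym2 (Fin n))) (a b : Fin n) : 0 ≤ cd A a b ∧ cd A a b ≤ n := by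
  unfold cd
  refine ⟨Nat.cast_nonneg _, ?_⟩
  have h1 : (univ.filter (fun w => s(a, w) ∈ A ∧ s(b, w) ∈ A)).card ≤ n := by
    refine (card_filter_le _ _).trans ?_
    rw [card_univ, Fintype.card_fin]
  exact_mod_cast h1

theorem XX_nonneg {n : ℕ} (u : ℝ) (A : Finset (Sym2 (Fin n))) : 0 ≤ XX u A :=
  sum_nonneg fun _ _ => sum_nonneg fun _ _ => sq_nonneg _

theorem dsum_le {n : ℕ} (f : Fin n → Fin n → ℝ) (c : ℝ) (hc : 0 ≤ c) (h : ∀ a b, |f a b| ≤ c) :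
    |∑ a : Fin n, ∑ b ∈ univ.erase a, f a b| ≤ (n : ℝ) ^ 2 * c := by
  refine (abs_sum_le_sum_abs _ _).trans ?_
  have h1 : ∀ a ∈ (univ : Finset (Fin n)), |∑ b ∈ univ.erase a, f a b| ≤ (n : ℝ) * c := by
    intro a _
    refine (abs_sum_le_sum_abs _ _).trans ?_
    refine (sum_le_sum fun b _ => h a b).trans ?_
    rw [sum_const, nsmul_eq_mul]
    apply mul_le_mul_of_nonneg_right _ hc
    have h2 : (univ.erase a).card ≤ n := by
      refine (card_le_card (erase_subset _ _)).trans ?_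
      rw [card_univ, Fintype.card_fin]
    exact_mod_cast h2
  refine (sum_le_sum h1).trans (le_of_eq ?_)
  rw [sum_const, nsmul_eq_mul, card_univ, Fintype.card_fin]
  ring

theorem time_XX {n : ℕ} (u h : ℝ) (A : Finset (Sym2 (Fin n))) :
    XX (u + 2 * h) A - 2 * h * dXX (u + 2 * h) A ≤ XX u A := by
  unfold XX dXX
  rw [mul_sum, ← sum_sub_distrib]
  refine sum_le_sum fun a _ => ?_
  rw [mul_sum, ← sum_sub_distrib]
  refine sum_le_sum fun b _ => ?_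
  nlinarith [sq_nonneg (2 * h * cd A a b)]

/-- term `XX` -/
theorem termX {n : ℕ} {umin : ℝ} (hu0 : 0 < umin) (a : ℝ) :
    ∃ E : ℝ, 0 ≤ E ∧ ∀ u h : ℝ, ∀ A, Cnd n umin u h A →
      (u + 2 * h) ^ a * (XX (u + 2 * h) A
        + h * ∑ T ∈ bl (BK n) A, (XX (u + 2 * h) (A \ T) - XX (u + 2 * h) A)) ≤
        u ^ a * XX u A + h * (1 / (u + 2 * h)) * ((u + 2 * h) ^ a *
          ((10 * XX (u + 2 * h) A + 100 * (n * (u + 2 * h)) ^ 2 *
            S 2 (u + 2 * h) (toSt (BK n) A) + 100 * (u + 2 * h) * n ^ 2)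
          + 2 * a * XX (u + 2 * h) A)) + E * h ^ 2 := by
  obtain ⟨C, hC, hT⟩ := term_pow a
  obtain ⟨E, hE, H⟩ := MC.tp (Fm := (n : ℝ) ^ 2 * ((n : ℝ) + 1) ^ 2)
    (dm := (n : ℝ) ^ 2 * (2 * ((n : ℝ) + 1) * n))
    (em := 0) hC hT hu0 (by positivity) (by positivity) le_rfl
  refine ⟨E, hE, fun u h A c => ?_⟩
  have ht := th_pos
  have hth := th_le
  have hv := c.vpos hu0
  have hv1 := c.v100 hu0
  have hn0 : (0 : ℝ) ≤ n := Nat.cast_nonneg n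
  have hb : ∀ a b : Fin n, |(u + 2 * h) * cd A a b - 1| ≤ (n : ℝ) + 1 := by
    intro a b
    obtain ⟨h1, h2⟩ := cd_le A a b
    have h3 : (u + 2 * h) * cd A a b ≤ 1 * n := mul_le_mul (by linarith) h2 h1 (by norm_num)
    have h4 : 0 ≤ (u + 2 * h) * cd A a b := mul_nonneg hv.le h1
    rw [abs_le]
    constructor <;> linarith
  have hX : XX (u + 2 * h) A ≤ (n : ℝ) ^ 2 * ((n : ℝ) + 1) ^ 2 := by
    refine (le_abs_self _).trans ?_
    unfold XX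
    refine dsum_le _ _ (by positivity) fun a b => ?_
    rw [abs_pow]
    exact pow_le_pow_left₀ (abs_nonneg _) (hb a b) 2
  have hdX : |dXX (u + 2 * h) A| ≤ (n : ℝ) ^ 2 * (2 * ((n : ℝ) + 1) * n) := by
    unfold dXX
    refine dsum_le _ _ (by positivity) fun a b => ?_
    obtain ⟨h1, h2⟩ := cd_le A a b
    rw [abs_mul, abs_mul, abs_of_nonneg h1, abs_of_nonneg (by norm_num : (0 : ℝ) ≤ 2)]
    apply mul_le_mul _ h2 h1 (by positivity)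
    exact mul_le_mul_of_nonneg_left (hb a b) (by norm_num)
  have hg := gen_XX c.hA (c.hur hu0) c.r100 c.rn (by linarith) hth c.inv
  have hts := time_XX u h A
  exact H u h (XX u A) (XX (u + 2 * h) A) (dXX (u + 2 * h) A)
    (∑ T ∈ bl (BK n) A, (XX (u + 2 * h) (A \ T) - XX (u + 2 * h) A)) _
    0 c.hu c.hh c.hh1 hv1 (XX_nonneg _ _) (XX_nonneg _ _) hX hdX (by linarith) le_rfl
    (by simp) hg

/-- term `Sb` -/
theorem termB {n : ℕ} (hn : 2 ≤ n) {umin : ℝ} (hu0 : 0 < umin)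
    {C6 C8 : Finset (Finset (Finset (Sym2 (Fin n))))} (hS : Sys (BK n) C6 C8) :
    ∃ E : ℝ, 0 ≤ E ∧ ∀ u h : ℝ, ∀ A, Cnd n umin u h A →
      Sb (u + 2 * h) (toSt (BK n) A)
        + h * gen (BK n) (1 / (u + 2 * h)) (Sb (u + 2 * h)) (toSt (BK n) A) ≤
        Sb u (toSt (BK n) A) + h * (1 / (u + 2 * h)) *
          (-(1 - 2 * t0 e0 - 1 / 16 - 1 / 16) * Sb (u + 2 * h) (toSt (BK n) A)
          + 320 * S 4 (u + 2 * h) (toSt (BK n) A) + 1 / 16 * Sb (u + 2 * h) (toSt (BK n) A)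
          + 25600 * (u + 2 * h) ^ 2 * (A.card : ℝ)
          + 200 * (u + 2 * h) * S 2 (u + 2 * h) (toSt (BK n) A)
          + (50 * (u + 2 * h) ^ 2 * (A.card : ℝ) + 207360 * (u + 2 * h) ^ 4 *
            (Nc C6 (toSt (BK n) A) + Nc C8 (toSt (BK n) A)))) + E * h ^ 2 := by
  obtain ⟨C, hC, hT⟩ := term_pow 0
  have hqm : (0 : ℝ) ≤ ((tr (univ : Finset (Fin n))).card : ℝ) := by positivity
  obtain ⟨E, hE, H⟩ := MC.tp
    (dm := 100 * (1 / umin) ^ 2 * ((tr (univ : Finset (Fin n))).card : ℝ))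
    (em := 1000 * (1 / umin) ^ 4 * ((tr (univ : Finset (Fin n))).card : ℝ))
    hC hT hu0 hqm (by positivity) (by positivity)
  refine ⟨E, hE, fun u h A c => ?_⟩
  have ht := th_pos
  have hth := th_le
  have hv := c.vpos hu0
  have hmc := c.mc hu0
  have hrle := hmc.rle hu0
  have hr0 : 0 ≤ 1 / (u + 2 * h) := by positivity
  set s := toSt (BK n) A with hs
  have hQ := MC.Q_nonneg s
  have hQm : Q s ≤ ((tr (univ : Finset (Fin n))).card : ℝ) := MC.Q_le c.hA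
  have hb := bounds hS.lin (c.hur hu0) c.r100 (by linarith) hth c.inv
    (dl := 1 / 4) (by norm_num) (by norm_num)
  obtain ⟨b1, b2, b3, b4, b5, b6, b7, b8⟩ := hb
  have hsp := spec hn c.hA (c.hur hu0) c.r100 (by linarith) hth c.inv c.xx c.n3
  have hmu : 0 < 1 / (16 * (u + 2 * h)) := by positivity
  have hg := gen_Sb_early hS.lin (c.hur hu0) c.r100 (by linarith) hth c.inv
    (V_toSt (BK n) A) (1 / 16) hsp (1 / 16) (1 / (16 * (u + 2 * h))) (by norm_num) hmu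
  have hP := hS.cyc (u + 2 * h) (1 / (u + 2 * h)) s (c.hur hu0) (by positivity)
    (MC.inv_mono c.inv hth)
  have hhr1 : h * (1 / (u + 2 * h)) ≤ 1 := by
    rw [mul_one_div, div_le_one hv]
    have := c.hh; have := c.hu; linarith
  have hts := time_Sb hS.lin (by linarith) hth c.hh (c.hur hu0) c.r100 hhr1 c.inv
  have key := H u h (Sb u s) (Sb (u + 2 * h) s) (dSb (u + 2 * h) s)
    (gen (BK n) (1 / (u + 2 * h)) (Sb (u + 2 * h)) s)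
    (-(1 - 2 * t0 e0 - 1 / 16 - 1 / 16) * Sb (u + 2 * h) s
          + 320 * S 4 (u + 2 * h) s + 1 / 16 * Sb (u + 2 * h) s
          + 25600 * (u + 2 * h) ^ 2 * Q s
          + 200 * (u + 2 * h) * S 2 (u + 2 * h) s
          + (50 * (u + 2 * h) ^ 2 * Q s + 207360 * (u + 2 * h) ^ 4 * (Nc C6 s + Nc C8 s)))
    (1000 * h ^ 2 * (1 / (u + 2 * h)) ^ 4 * Q s) c.hu c.hh c.hh1 (c.v100 hu0)
    (MC.Sb_nonneg _ _)
    (MC.Sb_nonneg _ _) (b3.trans hQm) ?_ (by linarith) (by positivity) ?_ ?_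
  · rw [Real.rpow_zero, Real.rpow_zero] at key
    have e1 : Q s = (A.card : ℝ) := rfl
    rw [e1] at key
    linarith
  · refine b6.trans ?_
    apply mul_le_mul _ hQm hQ (by positivity)
    apply mul_le_mul_of_nonneg_left _ (by norm_num)
    exact pow_le_pow_left₀ hr0 hrle 2
  · have q1 : (1 / (u + 2 * h)) ^ 4 ≤ (1 / umin) ^ 4 := pow_le_pow_left₀ hr0 hrle 4
    have q2 : (1 / (u + 2 * h)) ^ 4 * Q s ≤
        (1 / umin) ^ 4 * ((tr (univ : Finset (Fin n))).card : ℝ) :=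
      mul_le_mul q1 hQm hQ (by positivity)
    have q3 := mul_le_mul_of_nonneg_left q2 (show 0 ≤ 1000 * h ^ 2 by positivity)
    linarith
  · refine hg.trans ?_
    apply mul_le_mul_of_nonneg_left _ hr0
    have m1 : 1 / (16 * (u + 2 * h)) * (u + 2 * h) = 1 / 16 := by
      field_simp
    have m2 : 1600 / (1 / (16 * (u + 2 * h))) * (u + 2 * h) = 25600 * (u + 2 * h) ^ 2 := by
      field_simp
      ring
    have m3 : (20 : ℝ) / (1 / 16) = 320 := by norm_num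
    rw [m1, m2, m3]
    have m4 := mul_le_mul_of_nonneg_left hP (show 0 ≤ 10 * (u + 2 * h) ^ 4 by positivity)
    have m5 : 10 * (u + 2 * h) ^ 4 * (5 * (1 / (u + 2 * h)) ^ 2 * Q s
        + 20736 * (Nc C6 s + Nc C8 s)) =
        50 * (u + 2 * h) ^ 2 * Q s + 207360 * (u + 2 * h) ^ 4 * (Nc C6 s + Nc C8 s) := by
      field_simp
      ring
    rw [m5] at m4
    linarith

/-- the generator of the functional -/
theorem gen_PsiE {n : ℕ} (C6 C8 : Finset (Finset (Finset (Sym2 (Fin n)))))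
    (v r : ℝ) (A : Finset (Sym2 (Fin n))) :
    ∑ T ∈ bl (BK n) A, (PsiE n C6 C8 v (A \ T) - PsiE n C6 C8 v A) =
      v ^ (1 / 2 : ℝ) * gen (BK n) r Q (toSt (BK n) A)
      - v ^ (1 / 2 + e0 / 4 : ℝ) * gen (BK n) r Q (toSt (BK n) A)
      + u0 n ^ (5001 : ℝ) * v ^ (-5001 : ℝ) *
        ((n : ℝ) ^ (1 / 10 : ℝ) * gen (BK n) r (S 2 v) (toSt (BK n) A)
          + 1000 / e0 * u0 n ^ (-(1 / 2 + e0) : ℝ) * gen (BK n) r (S 4 v) (toSt (BK n) A)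
          + (n : ℝ) ^ 2 / t0 e0 ^ 6 * gen (BK n) r (S 6 v) (toSt (BK n) A)
          + 2 * 10 ^ 12 * (n : ℝ) ^ 2 * u0 n ^ 2 *
            ∑ T ∈ bl (BK n) A, (XX v (A \ T) - XX v A))
      + u0 n ^ (-(1 / 2 + e0) : ℝ) * gen (BK n) r (Sb v) (toSt (BK n) A)
      + v ^ (11 / 4 : ℝ) * gen (BK n) r (Nc C6) (toSt (BK n) A)
      + 10 ^ 6 * u0 n ^ (-(1 / 4 + e0) : ℝ) * v ^ (15 / 4 : ℝ) *
        gen (BK n) r (Nc C8) (toSt (BK n) A) := by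
  simp only [gen_toSt (lin3_BK n)]
  have e : ∀ T ∈ bl (BK n) A, PsiE n C6 C8 v (A \ T) - PsiE n C6 C8 v A =
      v ^ (1 / 2 : ℝ) * (Q (toSt (BK n) (A \ T)) - Q (toSt (BK n) A))
      + (-(v ^ (1 / 2 + e0 / 4 : ℝ))) * (Q (toSt (BK n) (A \ T)) - Q (toSt (BK n) A))
      + (u0 n ^ (5001 : ℝ) * v ^ (-5001 : ℝ) * (n : ℝ) ^ (1 / 10 : ℝ)) *
        (S 2 v (toSt (BK n) (A \ T)) - S 2 v (toSt (BK n) A))
      + (u0 n ^ (5001 : ℝ) * v ^ (-5001 : ℝ) * (1000 / e0 * u0 n ^ (-(1 / 2 + e0) : ℝ))) *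
        (S 4 v (toSt (BK n) (A \ T)) - S 4 v (toSt (BK n) A))
      + (u0 n ^ (5001 : ℝ) * v ^ (-5001 : ℝ) * ((n : ℝ) ^ 2 / t0 e0 ^ 6)) *
        (S 6 v (toSt (BK n) (A \ T)) - S 6 v (toSt (BK n) A))
      + (u0 n ^ (5001 : ℝ) * v ^ (-5001 : ℝ) * (2 * 10 ^ 12 * (n : ℝ) ^ 2 * u0 n ^ 2)) *
        (XX v (A \ T) - XX v A)
      + u0 n ^ (-(1 / 2 + e0) : ℝ) * (Sb v (toSt (BK n) (A \ T)) - Sb v (toSt (BK n) A))
      + v ^ (11 / 4 : ℝ) * (Nc C6 (toSt (BK n) (A \ T)) - Nc C6 (toSt (BK n) A))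
      + (10 ^ 6 * u0 n ^ (-(1 / 4 + e0) : ℝ) * v ^ (15 / 4 : ℝ)) *
        (Nc C8 (toSt (BK n) (A \ T)) - Nc C8 (toSt (BK n) A)) := by
    intro T _
    unfold PsiE
    ring
  rw [sum_congr rfl e]
  simp only [sum_add_distrib, ← mul_sum]
  ring

end EC

open EC

/-- [EARLYCORE], general right side -/
theorem early_of {n : ℕ} (hn : 3 ≤ n) (R : ℝ → ℝ → ℝ → ℝ) (hsc : ScalarE n R)
    (hgd : GoodStep n) (C6 C8 : Finset (Finset (Finset (Sym2 (Fin n)))))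
    (hS : Sys (BK n) C6 C8) :
    ∃ E h1 : ℝ, 0 ≤ E ∧ 0 < h1 ∧ ∀ h u : ℝ, 0 < h → h ≤ h1 → 1 / ((n : ℝ) - 2) ≤ u →
      u + 2 * h ≤ u0 n → ∀ A : Finset (Sym2 (Fin n)), A ⊆ tr univ → GoodE n u A →
      PsiE n C6 C8 (u + 2 * h) A
        + h * ∑ T ∈ bl (BK n) A, (PsiE n C6 C8 (u + 2 * h) (A \ T) - PsiE n C6 C8 (u + 2 * h) A)
        ≤ PsiE n C6 C8 u A + h * (1 / (u + 2 * h)) *
          R (u + 2 * h) (A.card : ℝ) (S 2 (u + 2 * h) (toSt (BK n) A)) + E * h ^ 2 := by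
  have hn' : (3 : ℝ) ≤ n := by exact_mod_cast hn
  set umin : ℝ := 1 / ((n : ℝ) - 2) with humin
  have hu0 : 0 < umin := by rw [humin]; apply one_div_pos.mpr; linarith
  obtain ⟨hg1, hg1p, hgood⟩ := hgd
  have hTQ : ∀ a : ℝ, ∃ C : ℝ, 0 ≤ C ∧ MC.TermQ a C := fun a => term_Q a
  obtain ⟨E1, hE1, H1⟩ := MC.term1 (ep := e0) hu0 (lin3_BK n) (tr univ) (1 / 2 : ℝ) (hTQ _)
  obtain ⟨E1', hE1', H1'⟩ := MC.term1 (ep := e0) hu0 (lin3_BK n) (tr univ)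
    (1 / 2 + e0 / 4 : ℝ) (hTQ _)
  obtain ⟨E2, hE2, H2⟩ := termS (n := n) hu0 1 (Or.inl rfl) (-5001 : ℝ)
  obtain ⟨E4, hE4, H4⟩ := termS (n := n) hu0 2 (Or.inr (Or.inl rfl)) (-5001 : ℝ)
  obtain ⟨E6, hE6, H6⟩ := termS (n := n) hu0 3 (Or.inr (Or.inr rfl)) (-5001 : ℝ)
  obtain ⟨EX, hEX, HX⟩ := termX (n := n) hu0 (-5001 : ℝ)
  obtain ⟨EB, hEB, HB⟩ := termB (by omega : 2 ≤ n) hu0 hS
  obtain ⟨E7, hE7, H7⟩ := MC.term7 e0_pos e0_le hu0 hS.lin (tr univ) C6 6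
    (fun c hc => ⟨(hS.h6 c hc).2.1, (hS.h6 c hc).2.2⟩) (11 / 4 : ℝ)
  obtain ⟨E8, hE8, H8⟩ := MC.term7 e0_pos e0_le hu0 hS.lin (tr univ) C8 8
    (fun c hc => ⟨(hS.h8 c hc).2.1, (hS.h8 c hc).2.2⟩) (15 / 4 : ℝ)
  have hup : 0 < u0 n := by unfold u0; apply Real.rpow_pos_of_pos; linarith
  have hP1 : 0 < u0 n ^ (5001 : ℝ) := Real.rpow_pos_of_pos hup _
  have hP2 : 0 < u0 n ^ (-(1 / 2 + e0) : ℝ) := Real.rpow_pos_of_pos hup _
  have hP3 : 0 < u0 n ^ (-(1 / 4 + e0) : ℝ) := Real.rpow_pos_of_pos hup _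
  have hP4 : 0 < (n : ℝ) ^ (1 / 10 : ℝ) := Real.rpow_pos_of_pos (by linarith) _
  have ht := th_pos
  have he := e0_pos
  set c2 : ℝ := u0 n ^ (5001 : ℝ) * (n : ℝ) ^ (1 / 10 : ℝ) with hc2
  set c4 : ℝ := u0 n ^ (5001 : ℝ) * (1000 / e0 * u0 n ^ (-(1 / 2 + e0) : ℝ)) with hc4
  set c6 : ℝ := u0 n ^ (5001 : ℝ) * ((n : ℝ) ^ 2 / t0 e0 ^ 6) with hc6
  set cX : ℝ := u0 n ^ (5001 : ℝ) * (2 * 10 ^ 12 * (n : ℝ) ^ 2 * u0 n ^ 2) with hcX
  set cB : ℝ := u0 n ^ (-(1 / 2 + e0) : ℝ) with hcB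
  set c8 : ℝ := 10 ^ 6 * u0 n ^ (-(1 / 4 + e0) : ℝ) with hc8
  have p2 : 0 ≤ c2 := by positivity
  have p4 : 0 ≤ c4 := by positivity
  have p6 : 0 ≤ c6 := by positivity
  have pX : 0 ≤ cX := by positivity
  have pB : 0 ≤ cB := by positivity
  have p8 : 0 ≤ c8 := by positivity
  refine ⟨E1 + E1' + c2 * E2 + c4 * E4 + c6 * E6 + cX * EX + cB * EB + E7 + c8 * E8,
    min hg1 (umin / 8), by positivity, by positivity, ?_⟩
  intro h u hh hhm hum hu2 A hA hG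
  obtain ⟨g1, g2, g3, g4, g5⟩ := hgood h u hh (hhm.trans (min_le_left _ _)) hum hu2 A hA hG
  have c : Cnd n umin u h A := ⟨hh, hhm.trans (min_le_right _ _), hum, hA, g1, g2, g3, g4, g5⟩
  have hmc := c.mc hu0
  have hv := c.vpos hu0
  have k1 := (abs_le.mp (H1 u h _ hmc)).2
  have k1' := (abs_le.mp (H1' u h _ hmc)).1
  have k2 := mul_le_mul_of_nonneg_left (H2 u h A c) p2
  have k4 := mul_le_mul_of_nonneg_left (H4 u h A c) p4
  have k6 := mul_le_mul_of_nonneg_left (H6 u h A c) p6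
  have kX := mul_le_mul_of_nonneg_left (HX u h A c) pX
  have kB := mul_le_mul_of_nonneg_left (HB u h A c) pB
  have k7 := H7 u h _ hmc
  have k8 := mul_le_mul_of_nonneg_left (H8 u h _ hmc) p8
  have ks := hsc (u + 2 * h) (A.card : ℝ) (S 2 (u + 2 * h) (toSt (BK n) A))
    (S 4 (u + 2 * h) (toSt (BK n) A)) (S 6 (u + 2 * h) (toSt (BK n) A))
    (Sb (u + 2 * h) (toSt (BK n) A)) (XX (u + 2 * h) A) (Nc C6 (toSt (BK n) A))
    (Nc C8 (toSt (BK n) A)) (∑ e ∈ (toSt (BK n) A).B, xv (u + 2 * h) (toSt (BK n) A) e)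
    (by linarith) hu2 (by positivity) (MC.S_nonneg (by decide) _ _)
    (MC.S_nonneg (by decide) _ _) (MC.S_nonneg (by decide) _ _) (MC.Sb_nonneg _ _)
    (XX_nonneg _ _) (MC.Nc_nonneg _ _) (MC.Nc_nonneg _ _)
    (fun mu hmu => MC.X1_bound (u + 2 * h) (toSt (BK n) A) mu hmu)
  have hr0 : 0 ≤ h * (1 / (u + 2 * h)) := by positivity
  have ks' := mul_le_mul_of_nonneg_left ks hr0
  rw [gen_PsiE C6 C8 (u + 2 * h) (1 / (u + 2 * h)) A]
  have eQ : Q (toSt (BK n) A) = (A.card : ℝ) := rfl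
  unfold PsiE
  simp only [eQ] at k1 k1' ⊢
  simp only [Nat.reduceMul, pow_one] at k2 k4 k6
  push_cast at k7 k8 ⊢
  rw [hc2] at k2
  rw [hc4] at k4
  rw [hc6] at k6
  rw [hcX] at kX
  linarith

end

end Vale.Agent.P046.NL
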