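import Vale.Agent.P046.NL.FIXM

/-!
P046: lemmas on the detachments (the rows FIXS, DFIX, CMP2 are in `NL/FIXS.lean`,
`NL/DFIX.lean`, `NL/CMP2.lean`).
-/

namespace Vale.Agent.P046.NL

open Finset Vale.Agent.P046

noncomputable section

namespace Fix4

/-- effect of the detachments on the bracket of `Sb`, `S 4`, `V` -/
theorem bracket {ep t dl : ℝ} (h0 : 0 < ep) (ht0 : 0 < t) (ht : t ≤ 1 / 20) (hdl : 0 < dl)
    {α : Type} [DecidableEq α] {Bl : Finset (Finset α)} (hL : Lin3 Bl)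
    (C6 C8 : Finset (Finset (Finset α))) {u : ℝ} (hu : 0 < u) (hu2 : u ≤ 1 / 100) {s : St α}
    (hI : Inv Bl (2 * t) u s) :
    ∃ m : ℝ, 0 ≤ m ∧ Q (fixs t u s) = Q s - m ∧ S 2 u (fixs t u s) ≤ S 2 u s ∧
      Sb u (fixs t u s) + 1000 / ep * S 4 u (fixs t u s)
        + 400 * t ^ 4 / ep * (u * V (fixs t u s)) ≤
      (Sb u s + 1000 / ep * S 4 u s + 400 * t ^ 4 / ep * (u * V s))
        - (500 * t ^ 4 / ep) * m ∧
      Ph Bl dl u (fixs t u s) ≤ Ph Bl dl u s + 2 * m ∧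
      Nc C6 (fixs t u s) = Nc C6 s ∧ Nc C8 (fixs t u s) = Nc C8 s := by
  have hur : u * (1 / u) = 1 := by field_simp
  have hr : 100 ≤ 1 / u := by
    rw [le_div_iff₀ hu]
    linarith
  obtain ⟨m, hm, hQ, hS2, hS4, hSb, hV, hN6, hPh, -⟩ := fix_all hL hur hr t ht0.le
    (by linarith) (by linarith) hI dl hdl C6
  obtain ⟨-, -, -, -, -, -, -, hN8, -, -⟩ := fix_all hL hur hr t ht0.le
    (by linarith) (by linarith) hI dl hdl C8
  refine ⟨m, hm, hQ, hS2, ?_, hPh, hN6, hN8⟩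
  have b1 : u * V (fixs t u s) ≤ u * V s + (1 + 2 * t) * m := by
    have := mul_le_mul_of_nonneg_left hV hu.le
    calc u * V (fixs t u s) ≤ u * (V s + (1 + 2 * t) * (1 / u) * m) := this
      _ = u * V s + (1 + 2 * t) * m := by field_simp
  have c1 : 1000 / ep * S 4 u (fixs t u s) ≤ 1000 / ep * (S 4 u s - t ^ 4 * m) :=
    mul_le_mul_of_nonneg_left hS4 (by positivity)
  have c2 : 400 * t ^ 4 / ep * (u * V (fixs t u s)) ≤
      400 * t ^ 4 / ep * (u * V s + (1 + 2 * t) * m) :=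
    mul_le_mul_of_nonneg_left b1 (by positivity)
  have c3 : 0 ≤ t ^ 4 / ep * m := by positivity
  have c4 : 400 * (1 + 2 * t) * (t ^ 4 / ep * m) ≤ 500 * (t ^ 4 / ep * m) :=
    mul_le_mul_of_nonneg_right (by linarith) c3
  have c5 : 1000 / ep * (S 4 u s - t ^ 4 * m) =
      1000 / ep * S 4 u s - 1000 * (t ^ 4 / ep * m) := by ring
  have c6 : 400 * t ^ 4 / ep * (u * V s + (1 + 2 * t) * m) =
      400 * t ^ 4 / ep * (u * V s) + 400 * (1 + 2 * t) * (t ^ 4 / ep * m) := by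
    ring
  have c7 : 500 * t ^ 4 / ep * m = 500 * (t ^ 4 / ep * m) := by ring
  rw [c5] at c1
  rw [c6] at c2
  rw [c7]
  linarith

/-- smallness of `u ^ (ep / 2)` -/
theorem pow_small {ep k u : ℝ} (h0 : 0 < ep) (hk : 0 < k) (hu : 0 < u) (hu3 : u ≤ k ^ (2 / ep)) :
    u ^ (ep / 2 : ℝ) ≤ k := by
  calc u ^ (ep / 2 : ℝ) ≤ (k ^ (2 / ep)) ^ (ep / 2 : ℝ) :=
        Real.rpow_le_rpow hu.le hu3 (by positivity)
    _ = k := by
        rw [← Real.rpow_mul hk.le]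
        have : 2 / ep * (ep / 2) = 1 := by field_simp
        rw [this, Real.rpow_one]

theorem sqrt_shift (y d : ℝ) (hd : 0 ≤ d) :
    Real.sqrt (1 + (y - d) ^ 2) ≤ Real.sqrt (1 + y ^ 2) + d := by
  have h1 : |y| ≤ Real.sqrt (1 + y ^ 2) := Real.abs_le_sqrt (by linarith)
  have h2 : -y ≤ Real.sqrt (1 + y ^ 2) := (neg_le_abs y).trans h1
  have h3 : 0 ≤ Real.sqrt (1 + y ^ 2) := Real.sqrt_nonneg _
  have h4 : Real.sqrt (1 + y ^ 2) ^ 2 = 1 + y ^ 2 := Real.sq_sqrt (by positivity)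
  refine Real.sqrt_le_iff.2 ⟨by positivity, ?_⟩
  nlinarith [mul_le_mul_of_nonneg_left h2 hd]

theorem split_pow {ep u : ℝ} (hu : 0 < u) :
    u ^ (-(1 / 2 + ep / 2) : ℝ) = u ^ (-(1 / 2 + ep) : ℝ) * u ^ (ep / 2 : ℝ) := by
  rw [← Real.rpow_add hu]
  congr 1
  ring

end Fix4

end

end Vale.Agent.P046.NL
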