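import Vale.Agent.P046.Kn

/-!
P046, no-log: from the bound for `run` (large `n`) to the bound for `expF` (all `n`).
-/

namespace Vale.Agent.P046.NL

open Finset Vale.Agent.P046

noncomputable section

/-- [FINAL] -/
theorem final_of (hearly : ∃ (n0 : ℕ) (C : ℝ), ∀ n : ℕ, n0 ≤ n →
    run (BK n) (fun A => (A.card : ℝ)) (tr (univ : Finset (Fin n))).card
      (tr (univ : Finset (Fin n))) ≤ C * (n : ℝ) ^ (3 / 2 : ℝ)) :
    ∃ C : ℝ, 0 < C ∧ ∀ n : ℕ, 1 ≤ n → expF n ≤ C * (n : ℝ) ^ (3 / 2 : ℝ) := by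
  obtain ⟨n0, C, h⟩ := hearly
  refine ⟨|C| + (n0 : ℝ) ^ 2 + 1, by positivity, fun n hn => ?_⟩
  have hn1 : (1 : ℝ) ≤ n := by exact_mod_cast hn
  have h32 : (1 : ℝ) ≤ (n : ℝ) ^ (3 / 2 : ℝ) := Real.one_le_rpow hn1 (by norm_num)
  have hC := abs_nonneg C
  have hn00 : (0 : ℝ) ≤ (n0 : ℝ) ^ 2 := by positivity
  rcases Nat.lt_or_ge n n0 with hlt | hge
  · have h1 : expF n ≤ (n : ℝ) ^ 2 := expF_le_sq n
    have h2 : (n : ℝ) ≤ n0 := by exact_mod_cast hlt.le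
    have h3 : (n : ℝ) ^ 2 ≤ (n0 : ℝ) ^ 2 := by gcongr
    have h4 : ((n0 : ℝ) ^ 2) * 1 ≤ ((n0 : ℝ) ^ 2) * (n : ℝ) ^ (3 / 2 : ℝ) :=
      mul_le_mul_of_nonneg_left h32 hn00
    have h5 : 0 ≤ (|C| + 1) * (n : ℝ) ^ (3 / 2 : ℝ) := by positivity
    have h6 : (|C| + (n0 : ℝ) ^ 2 + 1) * (n : ℝ) ^ (3 / 2 : ℝ) =
      (|C| + 1) * (n : ℝ) ^ (3 / 2 : ℝ) + ((n0 : ℝ) ^ 2) * (n : ℝ) ^ (3 / 2 : ℝ) := by ring
    rw [h6]
    linarith
  · have h1 := h n hge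
    have h2 : expF n = run (BK n) (fun A => (A.card : ℝ)) (tr (univ : Finset (Fin n))).card
        (tr (univ : Finset (Fin n))) := by
      rw [expF_eq_run, EE_top]
    rw [h2]
    refine h1.trans ?_
    apply mul_le_mul_of_nonneg_right _ (by positivity)
    have := le_abs_self C
    linarith

end

end Vale.Agent.P046.NL
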