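import Vale.Agent.P046.NL.DOM

/-!
P046, removal of the logarithm: the effect of the detachments (`fixs`) and of the time increment
on the functionals.
-/

namespace Vale.Agent.P046.NL.FixAux

open Finset Vale.Agent.P046 Vale.Agent.P046.NL

noncomputable section

variable {α : Type} [DecidableEq α]

/-! ### the one-step operator without detachment -/

theorem pos_step {Bl : Finset (Finset α)} {th th' h u0 U : ℝ} (P : Prm Bl th th' h u0 U)
    {u : ℝ} (h1 : u0 ≤ u) (h2 : u + 2 * h ≤ U) {s : St α} (hs : GS Bl th th' u s)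
    {D : St α → ℝ} (hD : ∀ s', Inv Bl th' (u + 2 * h) s' → 0 ≤ D s') :
    0 ≤ D s + h * gen Bl (1 / (u + 2 * h)) D s := by
  have hu : 0 < u := lt_of_lt_of_le P.upos h1
  have e1 := gen_ge (Bl := Bl) (r := 1 / (u + 2 * h)) (s := s) (D := D)
    (fun T _ f _ => P.rpos h1 h2 hs f)
    (fun T hT => hD _ (inv_ring P.lin hs P.h0 hu (P.s1 h1) (P.s2 h2) hT))
    (fun T _ hT' => hD _ (inv_virt hs P.h0 hu (P.s1 h1) (P.s2 h2) hT'))
    (fun T _ => hD _ (inv_nring hs P.h0 hu (P.s1 h1) (P.s2 h2) T))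
  have e3 : 0 ≤ D s := hD s (inv_time hs P.h0 hu (P.s1 h1) (P.s2 h2))
  have e4 := P.hrate h1 hs
  have e5 : h * (-(rate Bl (1 / (u + 2 * h)) s) * D s) ≤ h * gen Bl (1 / (u + 2 * h)) D s :=
    mul_le_mul_of_nonneg_left e1 P.h0
  have e6 : h * rate Bl (1 / (u + 2 * h)) s * D s ≤ 1 * D s :=
    mul_le_mul_of_nonneg_right e4 e3
  nlinarith

/-- if the detachment does not increase `G`, it can be left out in the one-step operator -/
theorem st1_le_of_fix {Bl : Finset (Finset α)} {th th' h u0 U : ℝ} (P : Prm Bl th th' h u0 U)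
    {u : ℝ} (h1 : u0 ≤ u) (h2 : u + 2 * h ≤ U) {s : St α} (hs : GS Bl th th' u s)
    {G : ℝ → St α → ℝ}
    (hG : ∀ s', Inv Bl th' (u + 2 * h) s' →
      G (u + 2 * h) (fixs th (u + 2 * h) s') ≤ G (u + 2 * h) s') :
    st1 Bl th h G u s ≤ G (u + 2 * h) s + h * gen Bl (1 / (u + 2 * h)) (G (u + 2 * h)) s := by
  have e1 := pos_step P h1 h2 hs (D := fun s' =>
    G (u + 2 * h) s' - G (u + 2 * h) (fixs th (u + 2 * h) s')) (fun s' hs' => by
      have := hG s' hs'
      linarith)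
  rw [gen_sub] at e1
  unfold st1
  nlinarith

/-! ### the effect of the detachments -/

/-- the points that are detached -/
def dets (th u : ℝ) (s : St α) : Finset α := s.B.filter (fun e => ¬ |xv u s e| ≤ th)

theorem fixs_B (th u : ℝ) (s : St α) :
    (fixs th u s).B = s.B.filter (fun e => |xv u s e| ≤ th) := rfl

theorem fixs_Z (th u : ℝ) (s : St α) : (fixs th u s).Z = s.Z ∪ dets th u s := rfl

theorem fixs_B_sub (th u : ℝ) (s : St α) : (fixs th u s).B ⊆ s.B := filter_subset _ _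

theorem dets_sub (th u : ℝ) (s : St α) : dets th u s ⊆ s.B := filter_subset _ _

theorem sum_fixs (th u : ℝ) (s : St α) (g : α → ℝ) :
    ∑ e ∈ (fixs th u s).B, g e + ∑ e ∈ dets th u s, g e = ∑ e ∈ s.B, g e :=
  sum_filter_add_sum_filter_not _ _ _

theorem Q_fixs (th u : ℝ) (s : St α) :
    Q (fixs th u s) = Q s - ((dets th u s).card : ℝ) := by
  have h := sum_fixs th u s (fun _ => (1 : ℝ))
  simp only [sum_const, nsmul_eq_mul, mul_one] at h
  unfold Q
  linarith

theorem S_fixs_le {th u : ℝ} (hth : 0 ≤ th) (s : St α) {k : ℕ} (hk : Even k) :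
    S k u (fixs th u s) ≤ S k u s - th ^ k * ((dets th u s).card : ℝ) := by
  have h := sum_fixs th u s (fun e => (xv u s e) ^ k)
  have h1 : S k u (fixs th u s) = ∑ e ∈ (fixs th u s).B, (xv u s e) ^ k := by
    unfold S
    exact sum_congr rfl fun e _ => by rw [xv_fixs]
  have h2 : th ^ k * ((dets th u s).card : ℝ) ≤ ∑ e ∈ dets th u s, (xv u s e) ^ k := by
    calc th ^ k * ((dets th u s).card : ℝ) = ∑ _e ∈ dets th u s, th ^ k := by
          rw [sum_const, nsmul_eq_mul, mul_comm]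
      _ ≤ ∑ e ∈ dets th u s, (xv u s e) ^ k := by
          refine sum_le_sum fun e he => ?_
          have h3 := (mem_filter.mp he).2
          rw [← hk.pow_abs (xv u s e)]
          exact pow_le_pow_left₀ hth (not_le.mp h3).le k
  have h3 : S k u s = ∑ e ∈ s.B, (xv u s e) ^ k := rfl
  rw [h1, h3]
  linarith

theorem sm_fixs (th u : ℝ) (s : St α) (T : Finset α) (e : α) :
    sm u (fixs th u s) T e = sm u s T e := by
  unfold sm
  exact sum_congr rfl fun f _ => xv_fixs th u s f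

theorem be_fixs (th u : ℝ) (s : St α) (e : α) : be u (fixs th u s) e = be u s e := by
  unfold be
  rw [fixs_W]
  congr 1
  exact sum_congr rfl fun T _ => sm_fixs th u s T e

theorem Sb_fixs_le (th u : ℝ) (s : St α) : Sb u (fixs th u s) ≤ Sb u s := by
  have h1 : Sb u (fixs th u s) = ∑ e ∈ (fixs th u s).B, (be u s e) ^ 2 := by
    unfold Sb
    exact sum_congr rfl fun e _ => by rw [be_fixs]
  rw [h1]
  exact sum_le_sum_of_subset_of_nonneg (fixs_B_sub th u s) fun e _ _ => sq_nonneg _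

theorem Nc_fixs (C : Finset (Finset (Finset α))) (th u : ℝ) (s : St α) :
    Nc C (fixs th u s) = Nc C s := rfl

theorem dW_le_of_inv {Bl : Finset (Finset α)} {th' u r : ℝ} {s : St α} (hI : Inv Bl th' u s)
    (hur : u * r = 1) (hr : 0 < r) {e : α} (he : e ∈ s.B) : dW s.W e ≤ (1 + th') * r := by
  have h1 := (abs_le.mp (hI.bd e)).2
  unfold xv at h1
  rw [if_pos he] at h1
  have h2 : r * (u * dW s.W e) ≤ r * (1 + th') := mul_le_mul_of_nonneg_left (by linarith) hr.le
  have h3 : r * (u * dW s.W e) = dW s.W e := by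
    rw [← mul_assoc, mul_comm r u, hur, one_mul]
  linarith

theorem V_fixs_le {Bl : Finset (Finset α)} {th th' u r : ℝ} {s : St α} (hI : Inv Bl th' u s)
    (hur : u * r = 1) (hr : 0 < r) :
    V (fixs th u s) ≤ V s + (1 + th') * r * ((dets th u s).card : ℝ) := by
  have h1 : V (fixs th u s) ≤ V s + ∑ T ∈ s.W, ((T ∩ dets th u s).card : ℝ) := by
    unfold V
    rw [fixs_W, ← sum_add_distrib]
    refine sum_le_sum fun T _ => ?_
    have h2 : T \ (fixs th u s).B ⊆ (T \ s.B) ∪ (T ∩ dets th u s) := by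
      intro e he
      rw [mem_sdiff] at he
      rw [mem_union, mem_sdiff, mem_inter]
      by_cases h3 : e ∈ s.B
      · right
        refine ⟨he.1, mem_filter.mpr ⟨h3, fun h4 => he.2 (mem_filter.mpr ⟨h3, h4⟩)⟩⟩
      · exact Or.inl ⟨he.1, h3⟩
    exact_mod_cast (card_le_card h2).trans (card_union_le _ _)
  have h2 : ∑ T ∈ s.W, ((T ∩ dets th u s).card : ℝ) = ∑ e ∈ dets th u s, dW s.W e := by
    have h3 : ∀ T ∈ s.W, ((T ∩ dets th u s).card : ℝ) =
        ∑ e ∈ dets th u s, if e ∈ T then (1 : ℝ) else 0 := by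
      intro T _
      rw [← sum_filter, sum_const, nsmul_eq_mul, mul_one]
      congr 2
      ext e
      simp only [mem_inter, mem_filter]
      tauto
    rw [sum_congr rfl h3, sum_comm]
    refine sum_congr rfl fun e _ => ?_
    rw [← sum_filter, sum_const, nsmul_eq_mul, mul_one]
    rfl
  have h3 : ∑ e ∈ dets th u s, dW s.W e ≤ (1 + th') * r * ((dets th u s).card : ℝ) := by
    calc ∑ e ∈ dets th u s, dW s.W e ≤ ∑ _e ∈ dets th u s, (1 + th') * r :=
          sum_le_sum fun e he => dW_le_of_inv hI hur hr (dets_sub th u s he)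
      _ = (1 + th') * r * ((dets th u s).card : ℝ) := by
          rw [sum_const, nsmul_eq_mul, mul_comm]
  linarith

theorem wt_mono {dl y z : ℝ} (hdl : 0 < dl) (h : y ≤ z) : wt dl y ≤ wt dl z := by
  unfold wt
  have h1 : max (y - 1 - dl / 2) 0 ≤ max (z - 1 - dl / 2) 0 := max_le_max (by linarith) le_rfl
  have h2 : 0 ≤ max (y - 1 - dl / 2) 0 := le_max_right _ _
  have h3 := pow_le_pow_left₀ h2 h1 2
  have h4 : 0 ≤ 1 / (2 * dl) := by positivity
  nlinarith [mul_le_mul_of_nonneg_left h3 h4]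

theorem Ph_fixs_le (Bl : Finset (Finset α)) {dl u : ℝ} (hdl : 0 < dl) (hu : 0 ≤ u) (th : ℝ)
    (s : St α) : Ph Bl dl u (fixs th u s) ≤ Ph Bl dl u s + 2 * ((dets th u s).card : ℝ) := by
  have h1 : (s.A \ (fixs th u s).B) \ (fixs th u s).Z = (s.A \ s.B) \ s.Z := by
    ext e
    simp only [fixs_B, fixs_Z, dets, mem_sdiff, mem_filter, mem_union]
    tauto
  have h2 : ∑ e ∈ (s.A \ s.B) \ s.Z, wt dl (u * gd Bl (fixs th u s) e) ≤
      ∑ e ∈ (s.A \ s.B) \ s.Z, wt dl (u * gd Bl s e) := by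
    refine sum_le_sum fun e _ => wt_mono hdl (mul_le_mul_of_nonneg_left ?_ hu)
    unfold gd
    have h3 : Bl.filter (fun T => e ∈ T ∧ T.erase e ⊆ (fixs th u s).B) ⊆
        Bl.filter (fun T => e ∈ T ∧ T.erase e ⊆ s.B) := by
      intro T hT
      rw [mem_filter] at hT ⊢
      exact ⟨hT.1, hT.2.1, hT.2.2.trans (fixs_B_sub th u s)⟩
    exact_mod_cast card_le_card h3
  have h3 : (((fixs th u s).B \ s.A).card : ℝ) ≤ ((s.B \ s.A).card : ℝ) := by
    exact_mod_cast card_le_card (sdiff_subset_sdiff (fixs_B_sub th u s) le_rfl)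
  have h4 : ((((fixs th u s).Z) ∩ s.A).card : ℝ) ≤
      ((s.Z ∩ s.A).card : ℝ) + ((dets th u s).card : ℝ) := by
    have h5 : (fixs th u s).Z ∩ s.A ⊆ (s.Z ∩ s.A) ∪ dets th u s := by
      intro e he
      rw [fixs_Z] at he
      simp only [mem_union, mem_inter] at he ⊢
      tauto
    exact_mod_cast (card_le_card h5).trans (card_union_le _ _)
  unfold Ph
  rw [fixs_A, h1]
  linarith

theorem pth_fixs_le (th u : ℝ) (s : St α) (e h : α) : pth (fixs th u s) e h ≤ pth s e h := by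
  unfold pth
  rw [fixs_W]
  refine sum_le_sum fun T _ => ?_
  refine sum_le_sum_of_subset_of_nonneg ?_ fun f _ _ => by positivity
  intro f hf
  rw [mem_filter] at hf ⊢
  exact ⟨hf.1, fixs_B_sub th u s hf.2⟩

theorem pth_nonneg (s : St α) (e h : α) : 0 ≤ pth s e h := by
  unfold pth
  exact sum_nonneg fun T _ => sum_nonneg fun f _ => by positivity

theorem P2_fixs_le (th u : ℝ) (s : St α) : P2 (fixs th u s) ≤ P2 s := by
  unfold P2
  calc ∑ e ∈ (fixs th u s).B, ∑ h ∈ (fixs th u s).B.erase e, (pth (fixs th u s) e h) ^ 2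
      ≤ ∑ e ∈ (fixs th u s).B, ∑ h ∈ s.B.erase e, (pth s e h) ^ 2 := by
        refine sum_le_sum fun e _ => ?_
        refine le_trans (sum_le_sum fun h _ =>
          pow_le_pow_left₀ (pth_nonneg _ e h) (pth_fixs_le th u s e h) 2) ?_
        exact sum_le_sum_of_subset_of_nonneg (erase_subset_erase _ (fixs_B_sub th u s))
          fun _ _ _ => sq_nonneg _
    _ ≤ ∑ e ∈ s.B, ∑ h ∈ s.B.erase e, (pth s e h) ^ 2 :=
        sum_le_sum_of_subset_of_nonneg (fixs_B_sub th u s)
          fun e _ _ => sum_nonneg fun _ _ => sq_nonneg _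

/-! ### the time increment -/

/-- tangent line inequality -/
theorem pow_tangent {k : ℕ} (hk : Even k) (x y : ℝ) :
    y ^ k + (k : ℝ) * y ^ (k - 1) * (x - y) ≤ x ^ k := by
  have hc : ConvexOn ℝ Set.univ (fun x : ℝ => x ^ k) := hk.convexOn_pow
  have hd : HasDerivAt (fun x : ℝ => x ^ k) ((k : ℝ) * y ^ (k - 1)) y := hasDerivAt_pow k y
  rcases lt_trichotomy x y with h | h | h
  · have h1 := hc.slope_le_of_hasDerivAt (Set.mem_univ x) (Set.mem_univ y) h hd
    rw [slope_def_field, div_le_iff₀ (by linarith)] at h1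
    nlinarith
  · subst h
    simp
  · have h1 := hc.le_slope_of_hasDerivAt (Set.mem_univ y) (Set.mem_univ x) h hd
    rw [slope_def_field, le_div_iff₀ (by linarith)] at h1
    nlinarith

theorem S_time {k : ℕ} (hk : Even k) (u u' : ℝ) (s : St α) :
    S k u' s ≤ S k u s + (u' - u) * dS k u' s := by
  unfold S dS
  rw [mul_sum, ← sum_add_distrib]
  refine sum_le_sum fun e he => ?_
  unfold xv
  rw [if_pos he, if_pos he]
  have h1 := pow_tangent hk (u * dW s.W e - 1) (u' * dW s.W e - 1)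
  nlinarith

theorem wt_tangent {dl : ℝ} (hdl : 0 < dl) (x y : ℝ) :
    wt dl y + dwt dl y * (x - y) ≤ wt dl x := by
  unfold wt dwt
  have h1 : 0 ≤ max (y - 1 - dl / 2) 0 := le_max_right _ _
  have h2 : x - 1 - dl / 2 ≤ max (x - 1 - dl / 2) 0 := le_max_left _ _
  have h3 : max (y - 1 - dl / 2) 0 * (y - 1 - dl / 2) = (max (y - 1 - dl / 2) 0) ^ 2 := by
    rcases le_total (y - 1 - dl / 2) 0 with h | h
    · rw [max_eq_right h]
      ring
    · rw [max_eq_left h]
      ring
  set m := max (y - 1 - dl / 2) 0 with hm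
  set m' := max (x - 1 - dl / 2) 0 with hm'
  have h4 : m ^ 2 + 2 * m * (x - y) ≤ m' ^ 2 := by
    nlinarith [sq_nonneg (m' - m), mul_le_mul_of_nonneg_left h2 h1]
  have h5 : (1 / (2 * dl)) * (m ^ 2 + 2 * m * (x - y)) ≤ (1 / (2 * dl)) * m' ^ 2 :=
    mul_le_mul_of_nonneg_left h4 (by positivity)
  have h6 : (1 / (2 * dl)) * (m ^ 2 + 2 * m * (x - y)) =
      (1 / (2 * dl)) * m ^ 2 + 1 / dl * m * (x - y) := by
    field_simp
  linarith

theorem Ph_time (Bl : Finset (Finset α)) {dl : ℝ} (hdl : 0 < dl) (u u' : ℝ) (s : St α) :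
    Ph Bl dl u' s ≤ Ph Bl dl u s + (u' - u) * dPh Bl dl u' s := by
  unfold Ph dPh
  have h1 : ∑ e ∈ (s.A \ s.B) \ s.Z, wt dl (u' * gd Bl s e) ≤
      ∑ e ∈ (s.A \ s.B) \ s.Z, wt dl (u * gd Bl s e) +
        (u' - u) * ∑ e ∈ (s.A \ s.B) \ s.Z, dwt dl (u' * gd Bl s e) * gd Bl s e := by
    rw [mul_sum, ← sum_add_distrib]
    refine sum_le_sum fun e _ => ?_
    have h2 := wt_tangent hdl (u * gd Bl s e) (u' * gd Bl s e)
    nlinarith
  linarith

/-- second derivative of `be`, divided by 2 -/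
def abe (s : St α) (e : α) : ℝ :=
  ∑ T ∈ s.W.filter (fun T => e ∈ T), ∑ f ∈ (T.erase e).filter (fun f => f ∈ s.B), dW s.W f

theorem sm_time (u u' : ℝ) (s : St α) (T : Finset α) (e : α) :
    sm u s T e = sm u' s T e -
      (u' - u) * ∑ f ∈ (T.erase e).filter (fun f => f ∈ s.B), dW s.W f := by
  unfold sm
  rw [sum_filter, mul_sum, ← sum_sub_distrib]
  refine sum_congr rfl fun f _ => ?_
  unfold xv
  by_cases h : f ∈ s.B
  · simp only [h, if_true]
    ring
  · simp only [h, if_false]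
    ring

theorem be_time (u u' : ℝ) (s : St α) (e : α) :
    be u s e = be u' s e - (u' - u) * dbe u' s e + (u' - u) ^ 2 * abe s e := by
  have h1 : ∑ T ∈ s.W.filter (fun T => e ∈ T), sm u s T e =
      ∑ T ∈ s.W.filter (fun T => e ∈ T), sm u' s T e - (u' - u) * abe s e := by
    unfold abe
    rw [mul_sum, ← sum_sub_distrib]
    exact sum_congr rfl fun T _ => sm_time u u' s T e
  have h2 : dbe u' s e = ∑ T ∈ s.W.filter (fun T => e ∈ T), sm u' s T e + u' * abe s e := rfl
  unfold be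
  rw [h1, h2]
  ring

section bounds

variable {Bl : Finset (Finset α)} {th' u r : ℝ} {s : St α}

theorem abs_sm_le (hlin : Lin3 Bl) (hI : Inv Bl th' u s) {T : Finset α} (hT : T ∈ s.W) {e : α}
    (he : e ∈ T) : |sm u s T e| ≤ 2 * th' := by
  unfold sm
  calc |∑ f ∈ T.erase e, xv u s f| ≤ ∑ f ∈ T.erase e, |xv u s f| := abs_sum_le_sum_abs _ _
    _ ≤ ∑ _f ∈ T.erase e, th' := sum_le_sum fun f _ => hI.bd f
    _ = 2 * th' := by
        rw [sum_const, nsmul_eq_mul, card_erase_of_mem he, hlin.card3 T (hI.sub hT)]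
        norm_num

theorem abs_be_le (hlin : Lin3 Bl) (hI : Inv Bl th' u s) (hu : 0 < u) {e : α} (he : e ∈ s.B) :
    |be u s e| ≤ 2 * th' * (1 + th') := by
  have hth' : 0 ≤ th' := (abs_nonneg _).trans (hI.bd e)
  have h1 := (abs_le.mp (hI.bd e)).2
  unfold xv at h1
  rw [if_pos he] at h1
  unfold be
  rw [abs_mul, abs_of_pos hu]
  have h2 : |∑ T ∈ s.W.filter (fun T => e ∈ T), sm u s T e| ≤ dW s.W e * (2 * th') := by
    calc |∑ T ∈ s.W.filter (fun T => e ∈ T), sm u s T e|
        ≤ ∑ T ∈ s.W.filter (fun T => e ∈ T), |sm u s T e| := abs_sum_le_sum_abs _ _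
      _ ≤ ∑ _T ∈ s.W.filter (fun T => e ∈ T), 2 * th' := by
          refine sum_le_sum fun T hT => ?_
          rw [mem_filter] at hT
          exact abs_sm_le hlin hI hT.1 hT.2
      _ = dW s.W e * (2 * th') := by rw [sum_const, nsmul_eq_mul]; rfl
  calc u * |∑ T ∈ s.W.filter (fun T => e ∈ T), sm u s T e|
      ≤ u * (dW s.W e * (2 * th')) := mul_le_mul_of_nonneg_left h2 hu.le
    _ = 2 * th' * (u * dW s.W e) := by ring
    _ ≤ 2 * th' * (1 + th') := mul_le_mul_of_nonneg_left (by linarith) (by positivity)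

theorem abe_nonneg (s : St α) (e : α) : 0 ≤ abe s e :=
  sum_nonneg fun _ _ => sum_nonneg fun _ _ => dW_nonneg _ _

theorem abe_le (hlin : Lin3 Bl) (hI : Inv Bl th' u s) (hur : u * r = 1) (hr : 0 < r) {e : α}
    (he : e ∈ s.B) : abe s e ≤ 2 * (1 + th') ^ 2 * r ^ 2 := by
  have hth' : 0 ≤ th' := (abs_nonneg _).trans (hI.bd e)
  unfold abe
  calc ∑ T ∈ s.W.filter (fun T => e ∈ T),
        ∑ f ∈ (T.erase e).filter (fun f => f ∈ s.B), dW s.W f
      ≤ ∑ _T ∈ s.W.filter (fun T => e ∈ T), 2 * ((1 + th') * r) := by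
        refine sum_le_sum fun T hT => ?_
        rw [mem_filter] at hT
        calc ∑ f ∈ (T.erase e).filter (fun f => f ∈ s.B), dW s.W f
            ≤ ∑ _f ∈ (T.erase e).filter (fun f => f ∈ s.B), (1 + th') * r :=
              sum_le_sum fun f hf => dW_le_of_inv hI hur hr (mem_filter.mp hf).2
          _ = (((T.erase e).filter (fun f => f ∈ s.B)).card : ℝ) * ((1 + th') * r) := by
              rw [sum_const, nsmul_eq_mul]
          _ ≤ 2 * ((1 + th') * r) := by
              refine mul_le_mul_of_nonneg_right ?_ (by positivity)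
              have h1 := card_filter_le (T.erase e) (fun f => f ∈ s.B)
              rw [card_erase_of_mem hT.2, hlin.card3 T (hI.sub hT.1)] at h1
              exact_mod_cast h1
    _ = dW s.W e * (2 * ((1 + th') * r)) := by rw [sum_const, nsmul_eq_mul]; rfl
    _ ≤ (1 + th') * r * (2 * ((1 + th') * r)) :=
        mul_le_mul_of_nonneg_right (dW_le_of_inv hI hur hr he) (by positivity)
    _ = 2 * (1 + th') ^ 2 * r ^ 2 := by ring

/-- time increment of `Sb`; `u` = new time -/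
theorem Sb_time (hlin : Lin3 Bl) (hI : Inv Bl th' u s) (hth : th' ≤ 1 / 10) (hur : u * r = 1)
    (hr : 0 < r) (dt : ℝ) :
    Sb u s ≤ Sb (u - dt) s + dt * dSb u s + 2 * dt ^ 2 * r ^ 2 * Q s := by
  have hu : 0 < u := by
    by_contra h
    nlinarith
  have h1 : 2 * dt ^ 2 * r ^ 2 * Q s = ∑ _e ∈ s.B, 2 * dt ^ 2 * r ^ 2 := by
    rw [sum_const, nsmul_eq_mul]
    unfold Q
    ring
  rw [h1]
  unfold Sb dSb
  rw [mul_sum, ← sum_add_distrib, ← sum_add_distrib]
  refine sum_le_sum fun e he => ?_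
  have h2 := be_time (u - dt) u s e
  have h3 := abs_be_le hlin hI hu he
  have h4 := abe_nonneg s e
  have h5 := abe_le hlin hI hur hr he
  have hth0 : 0 ≤ th' := (abs_nonneg _).trans (hI.bd e)
  have h6 : |be u s e| ≤ 11 / 50 := by
    refine h3.trans ?_
    nlinarith
  have h7 : abe s e ≤ 121 / 50 * r ^ 2 := by
    refine h5.trans ?_
    have : (1 + th') ^ 2 ≤ (11 / 10) ^ 2 := pow_le_pow_left₀ (by linarith) (by linarith) 2
    nlinarith [sq_nonneg r]
  rw [h2]
  have h8 : u - (u - dt) = dt := by ring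
  rw [h8]
  have h9 : be u s e * abe s e ≤ 11 / 50 * (121 / 50 * r ^ 2) := by
    calc be u s e * abe s e ≤ |be u s e| * abe s e :=
          mul_le_mul_of_nonneg_right (le_abs_self _) h4
      _ ≤ 11 / 50 * (121 / 50 * r ^ 2) := by
          refine mul_le_mul h6 h7 h4 (by norm_num)
  have h9' : -(be u s e * abe s e) ≤ 11 / 50 * (121 / 50 * r ^ 2) := by
    calc -(be u s e * abe s e) = (-be u s e) * abe s e := by ring
      _ ≤ |be u s e| * abe s e := mul_le_mul_of_nonneg_right (neg_le_abs _) h4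
      _ ≤ 11 / 50 * (121 / 50 * r ^ 2) := by
          refine mul_le_mul h6 h7 h4 (by norm_num)
  nlinarith [sq_nonneg (dt * dbe u s e - dt ^ 2 * abe s e), sq_nonneg dt,
    mul_le_mul_of_nonneg_left h9' (sq_nonneg dt), mul_le_mul_of_nonneg_left h9 (sq_nonneg dt),
    sq_nonneg (dt * r)]

end bounds

end

end Vale.Agent.P046.NL.FixAux
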