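import Vale.Agent.P046.NL.Defs

/-!
P046, no log: row ID1 (the drift of the degree of a real point) and basic facts on `ring`.
-/

namespace Vale.Agent.P046.NL

open Finset Vale.Agent.P046

noncomputable section

variable {α : Type} [DecidableEq α]

/-- two points lie in at most one block -/
theorem lin_eq {Bl : Finset (Finset α)} (hL : Lin3 Bl) {S T : Finset α} (hS : S ∈ Bl) (hT : T ∈ Bl)
    {e f : α} (hef : e ≠ f) (heS : e ∈ S) (hfS : f ∈ S) (heT : e ∈ T) (hfT : f ∈ T) : S = T := by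
  by_contra hne
  have h1 := hL.lin S hS T hT hne
  have h2 : ({e, f} : Finset α) ⊆ S ∩ T := by
    intro x hx
    rw [mem_insert, mem_singleton] at hx
    rcases hx with rfl | rfl
    · exact mem_inter.mpr ⟨heS, heT⟩
    · exact mem_inter.mpr ⟨hfS, hfT⟩
  have h3 := card_le_card h2
  rw [card_pair hef] at h3
  omega

/-- `S` is killed when the clock of `T` rings -/
def hit (s : St α) (T S : Finset α) : Prop := ¬ (S ≠ T ∧ Disjoint S (T ∩ s.B))

instance (s : St α) (T S : Finset α) : Decidable (hit s T S) := by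
  unfold hit; infer_instance

theorem ring_W (s : St α) (T : Finset α) : (ring s T).W = s.W.filter (fun S => ¬ hit s T S) := by
  unfold ring hit
  simp only [not_not]

/-- for `e ∉ T`, `e ∈ S`: the number of real common points of `S` and `T` is the indicator of
`hit` -/
theorem ind_hit {Bl : Finset (Finset α)} (hL : Lin3 Bl) {s : St α} (hsub : s.W ⊆ Bl)
    {S T : Finset α} (hS : S ∈ s.W) (hT : T ∈ s.W) (hST : S ≠ T) :
    ∑ f ∈ S.filter (fun f => f ∈ s.B), (if f ∈ T then (1 : ℝ) else 0)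
      = if hit s T S then 1 else 0 := by
  rw [← sum_filter, filter_filter, sum_const, nsmul_eq_mul, mul_one]
  by_cases h : hit s T S
  · rw [if_pos h]
    have h1 : ¬ Disjoint S (T ∩ s.B) := fun hd => h ⟨hST, hd⟩
    rw [not_disjoint_iff] at h1
    obtain ⟨f, hfS, hf⟩ := h1
    rw [mem_inter] at hf
    have h2 : S.filter (fun f => f ∈ s.B ∧ f ∈ T) = {f} := by
      ext g
      rw [mem_filter, mem_singleton]
      constructor
      · rintro ⟨hg, -, hgT⟩
        by_contra hne
        exact hST (lin_eq hL (hsub hS) (hsub hT) hne hg hfS hgT hf.1)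
      · rintro rfl
        exact ⟨hfS, hf.2, hf.1⟩
    rw [h2, card_singleton, Nat.cast_one]
  · rw [if_neg h]
    have h1 : Disjoint S (T ∩ s.B) := (not_not.mp h).2
    have h2 : S.filter (fun f => f ∈ s.B ∧ f ∈ T) = ∅ := by
      rw [filter_eq_empty_iff]
      intro f hfS hf
      exact (disjoint_left.mp h1) hfS (mem_inter.mpr ⟨hf.2, hf.1⟩)
    rw [h2, card_empty, Nat.cast_zero]

/-- the number of blocks whose ringing kills `S` -/
theorem card_hit {Bl : Finset (Finset α)} (hL : Lin3 Bl) {s : St α} (hsub : s.W ⊆ Bl)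
    {S : Finset α} (hS : S ∈ s.W) :
    ∑ T ∈ s.W, (if hit s T S then (1 : ℝ) else 0)
      = 1 + ∑ f ∈ S.filter (fun f => f ∈ s.B), (dW s.W f - 1) := by
  rw [← add_sum_erase _ _ hS]
  have h1 : hit s S S := fun h => h.1 rfl
  rw [if_pos h1]
  congr 1
  have h2 : ∀ T ∈ s.W.erase S, (if hit s T S then (1 : ℝ) else 0)
      = ∑ f ∈ S.filter (fun f => f ∈ s.B), (if f ∈ T then (1 : ℝ) else 0) := fun T hT =>
    (ind_hit hL hsub hS (mem_of_mem_erase hT) (ne_of_mem_erase hT).symm).symm
  rw [sum_congr rfl h2, sum_comm]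
  refine sum_congr rfl fun f hf => ?_
  rw [mem_filter] at hf
  have h3 : dW s.W f = ∑ T ∈ s.W, (if f ∈ T then (1 : ℝ) else 0) := by
    rw [← sum_filter, sum_const, nsmul_eq_mul, mul_one]
    rfl
  rw [h3, ← add_sum_erase _ _ hS, if_pos hf.1]
  ring

theorem dW_sub_ring (s : St α) (T : Finset α) (e : α) :
    dW s.W e - dW (ring s T).W e
      = ∑ S ∈ s.W.filter (fun S => e ∈ S), (if hit s T S then (1 : ℝ) else 0) := by
  have h1 : dW s.W e = ∑ S ∈ s.W.filter (fun S => e ∈ S), (1 : ℝ) := by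
    rw [sum_const, nsmul_eq_mul, mul_one]
    rfl
  have h2 : dW (ring s T).W e
      = ∑ S ∈ s.W.filter (fun S => e ∈ S), (if hit s T S then (0 : ℝ) else 1) := by
    unfold dW
    rw [ring_W, filter_filter]
    have h3 : ∀ S ∈ s.W.filter (fun S => e ∈ S), (if hit s T S then (0 : ℝ) else 1)
        = if ¬ hit s T S then (1 : ℝ) else 0 := by
      intro S _
      by_cases h : hit s T S
      · simp [h]
      · simp [h]
    rw [sum_congr rfl h3, ← sum_filter, filter_filter, sum_const, nsmul_eq_mul, mul_one]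
    congr 2
    ext S
    simp only [mem_filter]
    tauto
  rw [h1, h2, ← sum_sub_distrib]
  refine sum_congr rfl fun S _ => ?_
  split_ifs <;> ring

theorem dW_sub_erase (W : Finset (Finset α)) {T : Finset α} (hT : T ∈ W) (e : α) :
    dW W e - dW (W.erase T) e = if e ∈ T then 1 else 0 := by
  have h1 : dW W e = ∑ S ∈ W, (if e ∈ S then (1 : ℝ) else 0) := by
    rw [← sum_filter, sum_const, nsmul_eq_mul, mul_one]
    rfl
  have h2 : dW (W.erase T) e = ∑ S ∈ W.erase T, (if e ∈ S then (1 : ℝ) else 0) := by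
    rw [← sum_filter, sum_const, nsmul_eq_mul, mul_one]
    rfl
  rw [h1, h2, ← add_sum_erase _ _ hT]
  ring

/-- value of the sum over a block of the rates -/
theorem rate_real {u r : ℝ} (hur : u * r = 1) (s : St α) {f : α} (hf : f ∈ s.B) :
    r * (1 + xv u s f) - 1 = dW s.W f - 1 := by
  unfold xv
  rw [if_pos hf]
  have : r * (1 + (u * dW s.W f - 1)) = (u * r) * dW s.W f := by ring
  rw [this, hur, one_mul]

theorem rate_virt {u : ℝ} (r : ℝ) (s : St α) {f : α} (hf : f ∉ s.B) :
    r * (1 + xv u s f) - 1 = r * (1 + s.a f) - 1 := by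
  unfold xv
  rw [if_neg hf]

/-- row ID1, the identity -/
theorem id1 {Bl : Finset (Finset α)} {u r : ℝ} (hL : Lin3 Bl) (hur : u * r = 1) {s : St α}
    (hsub : s.W ⊆ Bl) {e : α} (he : e ∈ s.B) :
    ∑ T ∈ s.W.filter (fun T => e ∉ T), (dW s.W e - dW (ring s T).W e)
      + ∑ T ∈ s.W, ∑ f ∈ T \ s.B, (r * (1 + s.a f) - 1) * (dW s.W e - dW (s.W.erase T) e)
    = ∑ T ∈ s.W.filter (fun T => e ∈ T), ∑ f ∈ T.erase e, (r * (1 + xv u s f) - 1) := by
  have h1 : ∑ T ∈ s.W.filter (fun T => e ∉ T), (dW s.W e - dW (ring s T).W e)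
      = ∑ S ∈ s.W.filter (fun S => e ∈ S), ∑ f ∈ (S.erase e).filter (fun f => f ∈ s.B),
          (r * (1 + xv u s f) - 1) := by
    have h2 : ∀ T ∈ s.W.filter (fun T => e ∉ T), (dW s.W e - dW (ring s T).W e)
        = ∑ S ∈ s.W.filter (fun S => e ∈ S), ∑ f ∈ (S.erase e).filter (fun f => f ∈ s.B),
            (if f ∈ T then (1 : ℝ) else 0) := by
      intro T hT
      rw [mem_filter] at hT
      rw [dW_sub_ring]
      refine sum_congr rfl fun S hS => ?_
      rw [mem_filter] at hS
      have hne : S ≠ T := fun h => hT.2 (h ▸ hS.2)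
      rw [← ind_hit hL hsub hS.1 hT.1 hne]
      symm
      refine sum_subset ?_ ?_
      · intro f hf
        rw [mem_filter, mem_erase] at hf
        exact mem_filter.mpr ⟨hf.1.2, hf.2⟩
      · intro f hf hf'
        rw [mem_filter] at hf
        rw [mem_filter, mem_erase] at hf'
        by_cases hfe : f = e
        · subst hfe
          rw [if_neg hT.2]
        · exact absurd ⟨⟨hfe, hf.1⟩, hf.2⟩ hf'
    rw [sum_congr rfl h2, sum_comm]
    refine sum_congr rfl fun S hS => ?_
    rw [sum_comm]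
    refine sum_congr rfl fun f hf => ?_
    rw [mem_filter] at hS
    rw [mem_filter, mem_erase] at hf
    rw [rate_real hur s hf.2]
    have h3 : dW s.W f = ∑ T ∈ s.W, (if f ∈ T then (1 : ℝ) else 0) := by
      rw [← sum_filter, sum_const, nsmul_eq_mul, mul_one]
      rfl
    have h4 : ∑ T ∈ s.W, (if f ∈ T then (1 : ℝ) else 0)
        = ∑ T ∈ s.W.filter (fun T => e ∉ T), (if f ∈ T then (1 : ℝ) else 0)
          + ∑ T ∈ s.W.filter (fun T => ¬ e ∉ T), (if f ∈ T then (1 : ℝ) else 0) :=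
      (sum_filter_add_sum_filter_not s.W (fun T => e ∉ T) _).symm
    have h5 : ∑ T ∈ s.W.filter (fun T => ¬ e ∉ T), (if f ∈ T then (1 : ℝ) else 0) = 1 := by
      rw [← sum_filter, filter_filter, sum_const, nsmul_eq_mul, mul_one]
      have h6 : s.W.filter (fun T => ¬ e ∉ T ∧ f ∈ T) = {S} := by
        ext T
        rw [mem_filter, mem_singleton, not_not]
        constructor
        · rintro ⟨hT, heT, hfT⟩
          exact lin_eq hL (hsub hT) (hsub hS.1) (Ne.symm hf.1.1) heT hfT hS.2 hf.1.2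
        · rintro rfl
          exact ⟨hS.1, hS.2, hf.1.2⟩
      rw [h6, card_singleton, Nat.cast_one]
    rw [h3, h4, h5]
    ring
  have h7 : ∑ T ∈ s.W, ∑ f ∈ T \ s.B, (r * (1 + s.a f) - 1) * (dW s.W e - dW (s.W.erase T) e)
      = ∑ T ∈ s.W.filter (fun T => e ∈ T), ∑ f ∈ (T.erase e).filter (fun f => ¬ f ∈ s.B),
          (r * (1 + xv u s f) - 1) := by
    rw [sum_filter]
    refine sum_congr rfl fun T hT => ?_
    rw [dW_sub_erase s.W hT]
    by_cases heT : e ∈ T
    · rw [if_pos heT, if_pos heT]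
      have h8 : (T.erase e).filter (fun f => ¬ f ∈ s.B) = T \ s.B := by
        ext f
        rw [mem_filter, mem_erase, mem_sdiff]
        constructor
        · rintro ⟨⟨-, h⟩, h'⟩
          exact ⟨h, h'⟩
        · rintro ⟨h, h'⟩
          exact ⟨⟨fun hfe => h' (hfe ▸ he), h⟩, h'⟩
      rw [h8]
      refine sum_congr rfl fun f hf => ?_
      rw [mem_sdiff] at hf
      rw [mul_one, rate_virt r s hf.2]
    · rw [if_neg heT, if_neg heT]
      simp
  rw [h1, h7, ← sum_add_distrib]
  refine sum_congr rfl fun T _ => ?_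
  exact sum_filter_add_sum_filter_not (T.erase e) (fun f => f ∈ s.B) _

/-- row ID1, the bounds -/
theorem ring_diff_nonneg (s : St α) (T : Finset α) (e : α) :
    0 ≤ dW s.W e - dW (ring s T).W e := by
  rw [dW_sub_ring]
  exact sum_nonneg fun S _ => by split_ifs <;> norm_num

theorem ring_diff_le {Bl : Finset (Finset α)} (hL : Lin3 Bl) {s : St α} (hsub : s.W ⊆ Bl)
    {T : Finset α} (hT : T ∈ s.W) {e : α} (heT : e ∉ T) :
    dW s.W e - dW (ring s T).W e ≤ 3 := by
  rw [dW_sub_ring]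
  have h2 : ∀ S ∈ s.W.filter (fun S => e ∈ S), (if hit s T S then (1 : ℝ) else 0)
      ≤ ∑ f ∈ T, (if f ∈ S then (1 : ℝ) else 0) := by
    intro S hS
    rw [mem_filter] at hS
    have hne : S ≠ T := fun h => heT (h ▸ hS.2)
    split_ifs with h
    · have h1 : ¬ Disjoint S (T ∩ s.B) := fun hd => h ⟨hne, hd⟩
      rw [not_disjoint_iff] at h1
      obtain ⟨f, hfS, hf⟩ := h1
      rw [mem_inter] at hf
      calc (1 : ℝ) = if f ∈ S then (1 : ℝ) else 0 := by rw [if_pos hfS]
        _ ≤ _ := single_le_sum (f := fun f => if f ∈ S then (1 : ℝ) else 0)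
            (fun g _ => by split_ifs <;> norm_num) hf.1
    · exact sum_nonneg fun f _ => by split_ifs <;> norm_num
  refine (sum_le_sum h2).trans ?_
  rw [sum_comm]
  have h3 : ∀ f ∈ T, ∑ S ∈ s.W.filter (fun S => e ∈ S), (if f ∈ S then (1 : ℝ) else 0) ≤ 1 := by
    intro f hf
    rw [← sum_filter, filter_filter, sum_const, nsmul_eq_mul, mul_one]
    have h4 : (s.W.filter (fun S => e ∈ S ∧ f ∈ S)).card ≤ 1 := by
      rw [card_le_one]
      intro S hS S' hS'
      rw [mem_filter] at hS hS'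
      have hef : e ≠ f := fun h => heT (h ▸ hf)
      exact lin_eq hL (hsub hS.1) (hsub hS'.1) hef hS.2.1 hS.2.2 hS'.2.1 hS'.2.2
    exact_mod_cast h4
  refine (sum_le_sum h3).trans ?_
  rw [sum_const, nsmul_eq_mul, mul_one, hL.card3 T (hsub hT)]
  norm_num

theorem erase_diff_nonneg (W : Finset (Finset α)) {T : Finset α} (hT : T ∈ W) (e : α) :
    0 ≤ dW W e - dW (W.erase T) e := by
  rw [dW_sub_erase W hT]
  split_ifs <;> norm_num

theorem erase_diff_le (W : Finset (Finset α)) {T : Finset α} (hT : T ∈ W) (e : α) :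
    dW W e - dW (W.erase T) e ≤ 1 := by
  rw [dW_sub_erase W hT]
  split_ifs <;> norm_num

end

end Vale.Agent.P046.NL
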