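import Vale.Agent.P046.NL.LDefs2
import Vale.Agent.P046.NL.PHa
import Vale.Agent.P046.Low.CS

/-! P046, no-log lower bound, row LA: the number of points outside the isolated blocks. -/

namespace Vale.Agent.P046.NL

open Finset Vale.Agent.P046

noncomputable section

variable {α : Type} [DecidableEq α]

namespace LA

theorem dead_ge {Bl : Finset (Finset α)} {th u r : ℝ} {s : St α} (hur : u * r = 1)
    (hr : 0 ≤ r) (hI : Inv Bl th u s) {e : α} (he : e ∈ s.B) (hd : dg Bl s.A e = 1) :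
    r * (1 - th) - 1 ≤ ((s.W.filter (fun T => e ∈ T ∧ ¬ T ⊆ s.A)).card : ℝ) := by
  have h1 := PH.dW_real hur s he
  have h2 : -th ≤ xv u s e := (abs_le.1 (hI.bd e)).1
  have h3 : r * (1 - th) ≤ dW s.W e := by
    rw [h1]
    exact mul_le_mul_of_nonneg_left (by linarith) hr
  have h4 : s.W.filter (fun T => e ∈ T) ⊆ (bl Bl s.A).filter (fun T => e ∈ T) ∪
      s.W.filter (fun T => e ∈ T ∧ ¬ T ⊆ s.A) := by
    intro T hT
    rw [mem_filter] at hT
    rw [mem_union, mem_filter, mem_filter, bl, mem_filter]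
    by_cases h : T ⊆ s.A
    · exact Or.inl ⟨⟨hI.sub hT.1, h⟩, hT.2⟩
    · exact Or.inr ⟨hT.1, hT.2, h⟩
  have h5 := (card_le_card h4).trans (card_union_le _ _)
  have h6 : ((bl Bl s.A).filter (fun T => e ∈ T)).card = 1 := hd
  rw [h6] at h5
  have h7 : dW s.W e ≤ 1 + ((s.W.filter (fun T => e ∈ T ∧ ¬ T ⊆ s.A)).card : ℝ) := by
    unfold dW
    exact_mod_cast h5
  linarith

theorem block_le {Bl : Finset (Finset α)} {s : St α} (hL : Lin3 Bl) {T : Finset α} (hT : T ∈ Bl)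
    (hTA : ¬ T ⊆ s.A) {X : Finset α} (hX : X ⊆ s.A) :
    ((X.filter (fun e => e ∈ T)).card : ℝ) ≤
      2 * (∑ f ∈ s.B \ s.A, if f ∈ T then (1 : ℝ) else 0) + 2 * ((T \ s.B).card : ℝ) := by
  obtain ⟨f, hfT, hfA⟩ := not_subset.1 hTA
  have h1 : X.filter (fun e => e ∈ T) ⊆ T.erase f := by
    intro e he
    rw [mem_filter] at he
    rw [mem_erase]
    refine ⟨?_, he.2⟩
    rintro rfl
    exact hfA (hX he.1)
  have h2 : (X.filter (fun e => e ∈ T)).card ≤ 2 := by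
    refine (card_le_card h1).trans ?_
    rw [card_erase_of_mem hfT, hL.card3 T hT]
  have h3 : ((X.filter (fun e => e ∈ T)).card : ℝ) ≤ 2 := by exact_mod_cast h2
  have h4 : 0 ≤ ∑ f ∈ s.B \ s.A, (if f ∈ T then (1 : ℝ) else 0) :=
    sum_nonneg fun _ _ => by split_ifs <;> norm_num
  have h5 : (0 : ℝ) ≤ ((T \ s.B).card : ℝ) := Nat.cast_nonneg _
  by_cases hfB : f ∈ s.B
  · have h6 : (1 : ℝ) ≤ ∑ f ∈ s.B \ s.A, (if f ∈ T then (1 : ℝ) else 0) := by
      have h7 := single_le_sum (f := fun f => if f ∈ T then (1 : ℝ) else 0)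
        (s := s.B \ s.A) (fun _ _ => by split_ifs <;> norm_num)
        (mem_sdiff.2 ⟨hfB, hfA⟩)
      simp only [if_pos hfT] at h7
      exact h7
    linarith
  · have h6 : (1 : ℝ) ≤ ((T \ s.B).card : ℝ) := by
      have : 0 < (T \ s.B).card := card_pos.2 ⟨f, mem_sdiff.2 ⟨hfT, hfB⟩⟩
      exact_mod_cast this
    linarith

end LA

open LA CS

/-- [LA] -/
theorem W_ge {Bl : Finset (Finset α)} {th u r dl : ℝ} {s : St α} (hL : Lin3 Bl) (hur : u * r = 1)
    (hr : 100 ≤ r) (hth0 : 0 ≤ th) (hth : th ≤ 1 / 10) (hI : Inv Bl th u s) (hdl : 0 < dl) :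
    Q s - 4 * Ph Bl dl u s - 3 * (u * V s) ≤ Wf Bl s.A := by
  have _ := hth0
  have hr0 : 0 < r := by linarith
  have hu : 0 < u := by
    by_contra hcon
    push Not at hcon
    nlinarith [mul_nonneg hr0.le (neg_nonneg.mpr hcon)]
  have hu1 : u ≤ 1 / 100 := by nlinarith
  set X : Finset α := s.B.filter (fun e => e ∈ U Bl s.A) with hX
  have hXA : X ⊆ s.A := by
    intro e he
    rw [hX, mem_filter] at he
    exact U_sub Bl s.A he.2
  -- the discrepancies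
  have hPh : ((s.B \ s.A).card : ℝ) ≤ Ph Bl dl u s := by
    unfold Ph
    have h1 : 0 ≤ ∑ e ∈ (s.A \ s.B) \ s.Z, wt dl (u * gd Bl s e) :=
      sum_nonneg fun e _ => le_trans zero_le_one (PH.one_le_wt hdl _)
    have h2 : (0 : ℝ) ≤ ((s.Z ∩ s.A).card : ℝ) := Nat.cast_nonneg _
    linarith
  have hV : 0 ≤ V s := sum_nonneg fun _ _ => Nat.cast_nonneg _
  -- the double counting
  have hsum1 : ((X.card : ℝ)) * (r * (1 - th) - 1) ≤
      ∑ e ∈ X, ((s.W.filter (fun T => e ∈ T ∧ ¬ T ⊆ s.A)).card : ℝ) := by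
    rw [← nsmul_eq_mul, ← sum_const]
    refine sum_le_sum fun e he => ?_
    rw [hX, mem_filter] at he
    exact dead_ge hur hr0.le hI he.1 (dg_U he.2)
  have hsum2 : ∑ e ∈ X, ((s.W.filter (fun T => e ∈ T ∧ ¬ T ⊆ s.A)).card : ℝ) =
      ∑ T ∈ s.W.filter (fun T => ¬ T ⊆ s.A), ((X.filter (fun e => e ∈ T)).card : ℝ) := by
    have h1 : ∀ e ∈ X, ((s.W.filter (fun T => e ∈ T ∧ ¬ T ⊆ s.A)).card : ℝ) =
        ∑ T ∈ s.W.filter (fun T => ¬ T ⊆ s.A), if e ∈ T then (1 : ℝ) else 0 := by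
      intro e _
      rw [sum_boole, filter_filter]
      congr 2
      ext T
      simp only [mem_filter]
      tauto
    rw [sum_congr rfl h1, sum_comm]
    refine sum_congr rfl fun T _ => ?_
    rw [sum_boole]
  have hsum3 : ∑ T ∈ s.W.filter (fun T => ¬ T ⊆ s.A), ((X.filter (fun e => e ∈ T)).card : ℝ) ≤
      ∑ T ∈ s.W, (2 * (∑ f ∈ s.B \ s.A, if f ∈ T then (1 : ℝ) else 0) +
        2 * ((T \ s.B).card : ℝ)) := by
    refine le_trans (sum_le_sum (g := fun T => (2 * (∑ f ∈ s.B \ s.A, if f ∈ T then (1 : ℝ) else 0) +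
        2 * ((T \ s.B).card : ℝ))) fun T hT => ?_) (sum_le_sum_of_subset_of_nonneg
          (filter_subset _ _) fun T _ _ => ?_)
    · rw [mem_filter] at hT
      exact block_le hL (hI.sub hT.1) hT.2 hXA
    · have h4 : 0 ≤ ∑ f ∈ s.B \ s.A, (if f ∈ T then (1 : ℝ) else 0) :=
        sum_nonneg fun _ _ => by split_ifs <;> norm_num
      have h5 : (0 : ℝ) ≤ ((T \ s.B).card : ℝ) := Nat.cast_nonneg _
      linarith
  have hsum4 : ∑ T ∈ s.W, (2 * (∑ f ∈ s.B \ s.A, if f ∈ T then (1 : ℝ) else 0) +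
        2 * ((T \ s.B).card : ℝ)) = 2 * ∑ f ∈ s.B \ s.A, dW s.W f + 2 * V s := by
    rw [sum_add_distrib, ← mul_sum, ← mul_sum, sum_comm]
    congr 2
    refine sum_congr rfl fun f _ => ?_
    unfold dW
    rw [sum_boole]
  have hsum5 : ∑ f ∈ s.B \ s.A, dW s.W f ≤ ((s.B \ s.A).card : ℝ) * (r * (1 + th)) := by
    rw [← nsmul_eq_mul, ← sum_const]
    refine sum_le_sum fun f hf => ?_
    rw [PH.dW_real hur s (mem_sdiff.1 hf).1]
    exact mul_le_mul_of_nonneg_left (by linarith [(abs_le.1 (hI.bd f)).2]) hr0.le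
  have hmain : (X.card : ℝ) * (r * (1 - th) - 1) ≤
      2 * (((s.B \ s.A).card : ℝ) * (r * (1 + th))) + 2 * V s := by
    rw [hsum2] at hsum1
    rw [hsum4] at hsum3
    linarith
  have hmain2 : (X.card : ℝ) * (1 - th - u) ≤
      2 * ((s.B \ s.A).card : ℝ) * (1 + th) + 2 * (u * V s) := by
    have h1 := mul_le_mul_of_nonneg_left hmain hu.le
    have e1 : u * ((X.card : ℝ) * (r * (1 - th) - 1)) = (X.card : ℝ) * (u * r * (1 - th) - u) := by
      ring
    have e2 : u * (2 * (((s.B \ s.A).card : ℝ) * (r * (1 + th))) + 2 * V s) =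
        2 * ((s.B \ s.A).card : ℝ) * (u * r * (1 + th)) + 2 * (u * V s) := by ring
    rw [e1, e2, hur, one_mul, one_mul] at h1
    exact h1
  have hXn : (0 : ℝ) ≤ (X.card : ℝ) := Nat.cast_nonneg _
  have hDn : (0 : ℝ) ≤ ((s.B \ s.A).card : ℝ) := Nat.cast_nonneg _
  have huV : 0 ≤ u * V s := mul_nonneg hu.le hV
  have hmain3 : (X.card : ℝ) ≤ 3 * ((s.B \ s.A).card : ℝ) + 3 * (u * V s) := by
    have h1 : (X.card : ℝ) * (89 / 100) ≤ (X.card : ℝ) * (1 - th - u) :=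
      mul_le_mul_of_nonneg_left (by linarith) hXn
    have h2 : 2 * ((s.B \ s.A).card : ℝ) * (1 + th) ≤ 2 * ((s.B \ s.A).card : ℝ) * (11 / 10) :=
      mul_le_mul_of_nonneg_left (by linarith) (by linarith)
    nlinarith
  -- the count
  have hW : Wf Bl s.A = ((s.A \ U Bl s.A).card : ℝ) := CS.W_eq Bl hL s.A
  have hcov : s.B ⊆ (s.A \ U Bl s.A) ∪ X ∪ (s.B \ s.A) := by
    intro e he
    rw [mem_union, mem_union, mem_sdiff, mem_sdiff, hX, mem_filter]
    by_cases h1 : e ∈ s.A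
    · by_cases h2 : e ∈ U Bl s.A
      · exact Or.inl (Or.inr ⟨he, h2⟩)
      · exact Or.inl (Or.inl ⟨h1, h2⟩)
    · exact Or.inr ⟨he, h1⟩
  have hcard : (s.B.card : ℝ) ≤ ((s.A \ U Bl s.A).card : ℝ) + (X.card : ℝ) +
      ((s.B \ s.A).card : ℝ) := by
    have h1 := card_le_card hcov
    have h2 := card_union_le ((s.A \ U Bl s.A) ∪ X) (s.B \ s.A)
    have h3 := card_union_le (s.A \ U Bl s.A) X
    have h4 : s.B.card ≤ (s.A \ U Bl s.A).card + X.card + (s.B \ s.A).card := by omega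
    exact_mod_cast h4
  rw [hW]
  unfold Q
  linarith

end

end Vale.Agent.P046.NL
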