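import Vale.Agent.P046.NL.LDefs2
import Vale.Agent.P046.Low.Fo

/-!
P046, no-log lower bound, row LB: the formation rate of isolated blocks without a bound on the
degrees, by the third moment of the degrees.
-/

namespace Vale.Agent.P046.NL

open Finset Vale.Agent.P046 Drift ZM Fo

noncomputable section

variable {α : Type} [DecidableEq α]

namespace LB

/-- number of blocks whose removal isolates `T` -/
def cn (B : Finset (Finset α)) (A T : Finset α) : ℝ :=
  (((bl B A).filter (fun T0 => T ∈ isos B (A \ T0) ∧ T ∉ isos B A)).card : ℝ)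

/-- all the degrees of the points of `T` are at most 4 -/
def gd4 (B : Finset (Finset α)) (A T : Finset α) : Prop := ∀ f ∈ T, dg B A f ≤ 4

/-- the second neighbourhood of `T` with the squares of the degrees -/
def XT (B : Finset (Finset α)) (A T : Finset α) : ℝ :=
  open Classical in
  ∑ T' ∈ bl B A, ∑ y ∈ T', ∑ f ∈ T'.erase y,
    if f ∈ T ∧ T ≠ T' ∧ gd4 B A T then (dg B A y : ℝ) ^ 2 else 0

theorem Fo_eq_cn (B : Finset (Finset α)) (hNP : NP B) (A : Finset α) :
    Fo B A = ∑ T ∈ mix B A, cn B A T := by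
  unfold Vale.Agent.P046.Fo cn
  have h1 : ∀ T0 ∈ bl B A,
      (((isos B (A \ T0)).filter (fun T => T ∉ isos B A)).card : ℝ) =
        ∑ T ∈ mix B A, if T ∈ isos B (A \ T0) ∧ T ∉ isos B A then (1 : ℝ) else 0 := by
    intro T0 hT0
    rw [Finset.sum_boole]
    congr 2
    ext T
    rw [mem_filter, mem_filter]
    constructor
    · rintro ⟨h1, h2⟩
      exact ⟨mem_mix hNP hT0 h1 h2, h1, h2⟩
    · rintro ⟨_, h1, h2⟩
      exact ⟨h1, h2⟩
  rw [Finset.sum_congr rfl h1, Finset.sum_comm]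
  refine Finset.sum_congr rfl fun T _ => ?_
  rw [Finset.sum_boole]

theorem gd4_of {B : Finset (Finset α)} (hB : Lin3 B) {A T0 T : Finset α} (hT0 : T0 ∈ bl B A)
    (hT : T ∈ isos B (A \ T0)) : gd4 B A T := by
  intro f hf
  have hTb' : T ∈ bl B (A \ T0) := isos_sub hT
  have hdis : Disjoint T T0 := by
    rw [bl_sdiff, mem_filter] at hTb'
    exact hTb'.2
  have hone : dg B (A \ T0) f = 1 := (mem_filter.1 hT).2 f hf
  have h1 := kk_le B hB A T0 hT0 f (Finset.disjoint_left.1 hdis hf)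
  have h2 := dg_sdiff B A T0 f
  omega

theorem XT_term_nonneg (B : Finset (Finset α)) (A T T' : Finset α) (y f : α) :
    (0 : ℝ) ≤ open Classical in
      if f ∈ T ∧ T ≠ T' ∧ gd4 B A T then (dg B A y : ℝ) ^ 2 else 0 := by
  split_ifs
  · positivity
  · exact le_rfl

theorem XT_nonneg (B : Finset (Finset α)) (A T : Finset α) : 0 ≤ XT B A T := by
  unfold XT
  refine Finset.sum_nonneg fun T' _ => Finset.sum_nonneg fun y _ => Finset.sum_nonneg fun f _ => ?_
  exact XT_term_nonneg B A T T' y f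

theorem XT_ge {B : Finset (Finset α)} {A T T' : Finset α} {f g k : α} (hT' : T' ∈ bl B A)
    (hne : T' ≠ T) (hfT : f ∈ T) (hfT' : f ∈ T') (hgT' : g ∈ T') (hkT' : k ∈ T') (hgk : g ≠ k)
    (hgf : g ≠ f) (hkf : k ≠ f) (h4 : gd4 B A T) :
    (dg B A g : ℝ) ^ 2 + (dg B A k : ℝ) ^ 2 ≤ XT B A T := by
  unfold XT
  have h1 : ∀ y ∈ T', y ≠ f → (dg B A y : ℝ) ^ 2 ≤ open Classical in ∑ f ∈ T'.erase y,
      if f ∈ T ∧ T ≠ T' ∧ gd4 B A T then (dg B A y : ℝ) ^ 2 else 0 := by
    intro y _ hyf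
    classical
    have hm : f ∈ T'.erase y := mem_erase.2 ⟨fun h => hyf h.symm, hfT'⟩
    refine le_trans ?_ (Finset.single_le_sum
      (f := fun f => if f ∈ T ∧ T ≠ T' ∧ gd4 B A T then (dg B A y : ℝ) ^ 2 else 0)
      (fun f' _ => by
        have := XT_term_nonneg B A T T' y f'
        split_ifs at this ⊢ <;> assumption) hm)
    rw [if_pos ⟨hfT, fun h => hne h.symm, h4⟩]
  have h2 : (dg B A g : ℝ) ^ 2 + (dg B A k : ℝ) ^ 2 ≤ open Classical in ∑ y ∈ T',
      ∑ f ∈ T'.erase y, if f ∈ T ∧ T ≠ T' ∧ gd4 B A T then (dg B A y : ℝ) ^ 2 else 0 := by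
    have h3 := h1 g hgT' hgf
    have h4 := h1 k hkT' hkf
    have hsub : ({g, k} : Finset α) ⊆ T' := by
      intro y hy
      rw [mem_insert, mem_singleton] at hy
      rcases hy with rfl | rfl
      · exact hgT'
      · exact hkT'
    refine le_trans ?_ (Finset.sum_le_sum_of_subset_of_nonneg hsub fun y _ _ =>
      Finset.sum_nonneg fun f' _ => XT_term_nonneg B A T T' y f')
    rw [Finset.sum_pair hgk]
    linarith
  refine h2.trans ?_
  exact Finset.single_le_sum
    (f := fun T' => open Classical in ∑ y ∈ T',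
      ∑ f ∈ T'.erase y, if f ∈ T ∧ T ≠ T' ∧ gd4 B A T then (dg B A y : ℝ) ^ 2 else 0)
    (fun T'' _ => Finset.sum_nonneg fun y _ => Finset.sum_nonneg fun f' _ =>
      XT_term_nonneg B A T T'' y f') hT'

theorem le_R (R x : ℝ) (hR : 0 < R) (hx : 0 ≤ x) : x ≤ R + x ^ 2 / R := by
  by_cases h : x ≤ R
  · have : 0 ≤ x ^ 2 / R := by positivity
    linarith
  · push Not at h
    have : x ≤ x ^ 2 / R := by
      rw [le_div_iff₀ hR]
      nlinarith
    linarith

theorem cn_le {B : Finset (Finset α)} (hB : Lin3 B) {A T : Finset α} (R : ℝ) (hR : 0 < R)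
    (hT : T ∈ mix B A) : cn B A T ≤ 2 * R + XT B A T / R := by
  have hX := XT_nonneg B A T
  by_cases hz : ∃ T0 ∈ bl B A, T ∈ isos B (A \ T0) ∧ T ∉ isos B A
  swap
  · have h0 : cn B A T = 0 := by
      unfold cn
      rw [Nat.cast_eq_zero, Finset.card_eq_zero, Finset.filter_eq_empty_iff]
      intro T0 hT0 h
      exact hz ⟨T0, hT0, h⟩
    rw [h0]
    positivity
  obtain ⟨T00, hT00, hiso0, -⟩ := hz
  have h4 : gd4 B A T := gd4_of hB hT00 hiso0
  unfold mix at hT
  rw [mem_filter] at hT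
  obtain ⟨hTb, -, f, hfT, hf2⟩ := hT
  obtain ⟨T', hT'b, hfT', hne⟩ := exists_other (T := T) hf2
  have hcard : (T'.erase f).card = 2 := by
    rw [Finset.card_erase_of_mem hfT', hB.card3 T' (mem_bl.1 hT'b).1]
  obtain ⟨g, k, hgkne, hgk⟩ := Finset.card_eq_two.1 hcard
  have hgm : g ∈ T'.erase f := by rw [hgk]; simp
  have hkm : k ∈ T'.erase f := by rw [hgk]; simp
  have hgT' : g ∈ T' := (mem_erase.1 hgm).2
  have hkT' : k ∈ T' := (mem_erase.1 hkm).2
  have hsub : (bl B A).filter (fun T0 => T ∈ isos B (A \ T0) ∧ T ∉ isos B A) ⊆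
      (bl B A).filter (fun T0 => g ∈ T0) ∪ (bl B A).filter (fun T0 => k ∈ T0) := by
    intro T0 hT0
    rw [mem_filter] at hT0
    obtain ⟨hT0b, hiso, -⟩ := hT0
    have hTb' : T ∈ bl B (A \ T0) := isos_sub hiso
    rw [bl_sdiff, mem_filter] at hTb'
    have hdis : Disjoint T T0 := hTb'.2
    have hone : dg B (A \ T0) f = 1 := (mem_filter.1 hiso).2 f hfT
    have hmeet : ¬ Disjoint T' T0 := by
      intro hd
      have hT'b' : T' ∈ bl B (A \ T0) := by
        rw [bl_sdiff, mem_filter]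
        exact ⟨hT'b, hd⟩
      have hTb'' : T ∈ bl B (A \ T0) := isos_sub hiso
      exact hne (eq_of_dg_one hone hT'b' hTb'' hfT' hfT)
    obtain ⟨y, hyT', hyT0⟩ := Finset.not_disjoint_iff.1 hmeet
    have hyf : y ≠ f := by
      rintro rfl
      exact Finset.disjoint_left.1 hdis hfT hyT0
    have hy : y ∈ T'.erase f := mem_erase.2 ⟨hyf, hyT'⟩
    rw [hgk, mem_insert, mem_singleton] at hy
    rw [mem_union, mem_filter, mem_filter]
    rcases hy with rfl | rfl
    · exact Or.inl ⟨hT0b, hyT0⟩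
    · exact Or.inr ⟨hT0b, hyT0⟩
  have h1 : ((bl B A).filter (fun T0 => T ∈ isos B (A \ T0) ∧ T ∉ isos B A)).card ≤
      dg B A g + dg B A k :=
    (Finset.card_le_card hsub).trans (Finset.card_union_le _ _)
  have h2 : cn B A T ≤ (dg B A g : ℝ) + (dg B A k : ℝ) := by
    unfold cn
    exact_mod_cast h1
  have h3 := XT_ge hT'b hne hfT hfT' hgT' hkT' hgkne (mem_erase.1 hgm).1 (mem_erase.1 hkm).1 h4
  have h5 := le_R R (dg B A g : ℝ) hR (Nat.cast_nonneg _)
  have h6 := le_R R (dg B A k : ℝ) hR (Nat.cast_nonneg _)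
  have h7 : (dg B A g : ℝ) ^ 2 / R + (dg B A k : ℝ) ^ 2 / R ≤ XT B A T / R := by
    rw [← add_div]
    exact div_le_div_of_nonneg_right h3 hR.le
  linarith

theorem sum_XT_le {B : Finset (Finset α)} (hB : Lin3 B) (A : Finset α) :
    ∑ T ∈ bl B A, XT B A T ≤ 6 * mo B 3 A := by
  classical
  unfold XT
  rw [Finset.sum_comm]
  have h1 : ∀ T' ∈ bl B A, ∑ T ∈ bl B A, ∑ y ∈ T', ∑ f ∈ T'.erase y,
      (if f ∈ T ∧ T ≠ T' ∧ gd4 B A T then (dg B A y : ℝ) ^ 2 else 0) ≤
      ∑ y ∈ T', 6 * (dg B A y : ℝ) ^ 2 := by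
    intro T' hT'
    rw [Finset.sum_comm]
    refine Finset.sum_le_sum fun y hy => ?_
    rw [Finset.sum_comm]
    have h2 : ∀ f ∈ T'.erase y, ∑ T ∈ bl B A,
        (if f ∈ T ∧ T ≠ T' ∧ gd4 B A T then (dg B A y : ℝ) ^ 2 else 0) ≤
        3 * (dg B A y : ℝ) ^ 2 := by
      intro f hf
      have hfT' : f ∈ T' := (mem_erase.1 hf).2
      rw [← Finset.sum_filter, Finset.sum_const, nsmul_eq_mul]
      refine mul_le_mul_of_nonneg_right ?_ (sq_nonneg _)
      have h3 : ((bl B A).filter (fun T => f ∈ T ∧ T ≠ T' ∧ gd4 B A T)).card ≤ 3 := by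
        by_cases hg : dg B A f ≤ 4
        · have hsub : (bl B A).filter (fun T => f ∈ T ∧ T ≠ T' ∧ gd4 B A T) ⊆
              ((bl B A).filter (fun T => f ∈ T)).erase T' := by
            intro T hT
            rw [mem_filter] at hT
            rw [mem_erase, mem_filter]
            exact ⟨hT.2.2.1, hT.1, hT.2.1⟩
          have h5 := Finset.card_le_card hsub
          rw [Finset.card_erase_of_mem (mem_filter.2 ⟨hT', hfT'⟩)] at h5
          unfold dg at hg
          omega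
        · have : (bl B A).filter (fun T => f ∈ T ∧ T ≠ T' ∧ gd4 B A T) = ∅ := by
            rw [Finset.filter_eq_empty_iff]
            rintro T _ ⟨hfT, _, h4⟩
            exact hg (h4 f hfT)
          rw [this]
          simp
      exact_mod_cast h3
    refine (Finset.sum_le_sum h2).trans ?_
    rw [Finset.sum_const, nsmul_eq_mul, Finset.card_erase_of_mem hy,
      hB.card3 T' (mem_bl.1 hT').1]
    have : ((3 - 1 : ℕ) : ℝ) = 2 := by norm_num
    rw [this]
    linarith
  refine (Finset.sum_le_sum h1).trans ?_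
  rw [sum_blocks B A (fun y => 6 * (dg B A y : ℝ) ^ 2)]
  unfold mo
  rw [Finset.mul_sum]
  refine le_of_eq (Finset.sum_congr rfl fun e _ => ?_)
  ring

end LB

open LB

theorem Fo_le2 (B : Finset (Finset α)) (hB : Lin3 B) (hNP : NP B) (R : ℝ) (hR : 0 < R)
    (A : Finset α) : Fo B A ≤ 2 * R * Mf B A + 6 / R * mo B 3 A := by
  rw [Fo_eq_cn B hNP A]
  have h1 : ∑ T ∈ mix B A, cn B A T ≤ ∑ T ∈ mix B A, (2 * R + XT B A T / R) :=
    Finset.sum_le_sum fun T hT => cn_le hB R hR hT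
  have h2 : ∑ T ∈ mix B A, XT B A T ≤ ∑ T ∈ bl B A, XT B A T :=
    Finset.sum_le_sum_of_subset_of_nonneg (Finset.filter_subset _ _)
      fun T _ _ => XT_nonneg B A T
  have h3 := sum_XT_le hB A
  rw [Finset.sum_add_distrib, Finset.sum_const, nsmul_eq_mul, ← Finset.sum_div] at h1
  have h4 : (∑ T ∈ mix B A, XT B A T) / R ≤ 6 / R * mo B 3 A := by
    rw [div_mul_eq_mul_div]
    exact div_le_div_of_nonneg_right (h2.trans h3) hR.le
  unfold Mf
  linarith

end

end Vale.Agent.P046.NL
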