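import Vale.Agent.P046.NL.LDefs2

/-!
P046, no-log lower bound, row LD: moments of the degrees, the operator `RE`.
-/

namespace Vale.Agent.P046.NL

open Finset Vale.Agent.P046

noncomputable section

variable {α : Type} [DecidableEq α]

namespace LDx

theorem bl_sdiff_subset (B : Finset (Finset α)) (A T : Finset α) : bl B (A \ T) ⊆ bl B A := by
  intro S hS
  rw [bl, mem_filter] at hS ⊢
  exact ⟨hS.1, hS.2.trans sdiff_subset⟩

theorem dg_sdiff_le (B : Finset (Finset α)) (A T : Finset α) (e : α) :
    dg B (A \ T) e ≤ dg B A e := by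
  unfold dg
  exact card_le_card (filter_subset_filter _ (bl_sdiff_subset B A T))

/-- the degree power of the remaining points goes down -/
theorem pow_le (B : Finset (Finset α)) (k : ℕ) (A T : Finset α) (e : α) :
    (dg B (A \ T) e : ℝ) ^ k ≤ (dg B A e : ℝ) ^ k :=
  pow_le_pow_left₀ (Nat.cast_nonneg _) (by exact_mod_cast dg_sdiff_le B A T e) k

/-- double counting: the sum over alive blocks of the sum over their points -/
theorem dc (B : Finset (Finset α)) (A : Finset α) (w : α → ℝ) :
    ∑ T ∈ bl B A, ∑ e ∈ T, w e = ∑ e ∈ A, (dg B A e : ℝ) * w e := by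
  have h1 : ∀ T ∈ bl B A, ∑ e ∈ T, w e = ∑ e ∈ A, if e ∈ T then w e else 0 := by
    intro T hT
    rw [bl, mem_filter] at hT
    rw [← sum_filter, filter_mem_eq_inter, inter_eq_right.mpr hT.2]
  rw [sum_congr rfl h1, sum_comm]
  refine sum_congr rfl fun e _ => ?_
  rw [← sum_filter, sum_const, nsmul_eq_mul]
  rfl

theorem step (B : Finset (Finset α)) (k : ℕ) (A : Finset α) :
    gn B (mo B k) A ≤ - mo B (k + 1) A := by
  have h1 : ∀ T ∈ bl B A, mo B k (A \ T) - mo B k A ≤ - ∑ e ∈ T, (dg B A e : ℝ) ^ k := by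
    intro T hT
    rw [bl, mem_filter] at hT
    have h2 : mo B k (A \ T) ≤ ∑ e ∈ A \ T, (dg B A e : ℝ) ^ k :=
      sum_le_sum fun e _ => pow_le B k A T e
    have h3 : ∑ e ∈ A \ T, (dg B A e : ℝ) ^ k + ∑ e ∈ T, (dg B A e : ℝ) ^ k = mo B k A :=
      sum_sdiff hT.2
    linarith
  have h2 : gn B (mo B k) A ≤ ∑ T ∈ bl B A, - ∑ e ∈ T, (dg B A e : ℝ) ^ k := sum_le_sum h1
  rw [sum_neg_distrib, dc] at h2
  refine h2.trans (le_of_eq ?_)
  congr 1
  unfold mo
  exact sum_congr rfl fun e _ => by rw [pow_succ, mul_comm]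

theorem gn_lin (B : Finset (Finset α)) (f g : Finset α → ℝ) (a b : ℝ) (A : Finset α) :
    gn B (fun A => a * f A + b * g A) A = a * gn B f A + b * gn B g A := by
  unfold gn
  rw [mul_sum, mul_sum, ← sum_add_distrib]
  exact sum_congr rfl fun T _ => by ring

theorem run_harm (B : Finset (Finset α)) (hB : Lin3 B) (Φ : Finset α → ℝ) (A : Finset α) :
    gn B (fun A => run B Φ A.card A) A = 0 := by
  have h1 := congrFun (lz_run B hB Φ) A
  unfold lz at h1
  unfold gn
  by_cases h2 : (B.card : ℝ) = 0
  · have h3 : B = ∅ := by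
      have : B.card = 0 := by exact_mod_cast h2
      exact card_eq_zero.mp this
    have h4 : bl B A = ∅ := by
      rw [h3]
      rfl
    rw [h4, sum_empty]
  · have h3 : (∑ T ∈ bl B A, (run B Φ (A \ T).card (A \ T) - run B Φ A.card A)) /
        (B.card : ℝ) = 0 := by linarith
    rw [div_eq_zero_iff] at h3
    exact h3.resolve_right h2

end LDx

/-- [LD] moments of the degrees -/
theorem gn_mo0 (B : Finset (Finset α)) (hB : Lin3 B) (A : Finset α) :
    gn B (fun A => (A.card : ℝ)) A = - mo B 1 A := by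
  have h0 : mo B 1 A = ∑ T ∈ bl B A, (T.card : ℝ) := by
    have h1 := LDx.dc B A (fun _ => (1 : ℝ))
    simp only [sum_const, nsmul_eq_mul, mul_one] at h1
    rw [h1]
    unfold mo
    exact sum_congr rfl fun e _ => pow_one _
  rw [h0, ← sum_neg_distrib]
  unfold gn
  refine sum_congr rfl fun T hT => ?_
  rw [bl, mem_filter] at hT
  have h2 : (A \ T).card + T.card = A.card := card_sdiff_add_card_eq_card hT.2
  have h3 : ((A \ T).card : ℝ) + (T.card : ℝ) = (A.card : ℝ) := by exact_mod_cast h2
  linarith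

theorem gn_mo1 (B : Finset (Finset α)) (hB : Lin3 B) (A : Finset α) :
    gn B (mo B 1) A ≤ - mo B 2 A := LDx.step B 1 A

theorem gn_mo2 (B : Finset (Finset α)) (hB : Lin3 B) (A : Finset α) :
    gn B (mo B 2) A ≤ - mo B 3 A := LDx.step B 2 A

theorem mo_anti (B : Finset (Finset α)) (k : ℕ) (A T : Finset α) :
    mo B k (A \ T) ≤ mo B k A :=
  (sum_le_sum fun e _ => LDx.pow_le B k A T e).trans
    (sum_le_sum_of_subset_of_nonneg sdiff_subset fun e _ _ => by positivity)

/-- [LD] the operator `RE`: linear, monotone for `0 ≤ h`, `h |B| ≤ 1`, last step first -/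
theorem RE_succ' (B : Finset (Finset α)) (h : ℝ) (f : Finset α → ℝ) (j : ℕ) (A : Finset α) :
    RE B h f (j + 1) A = RE B h (fun A => f A + h * gn B f A) j A := by
  induction j generalizing A with
  | zero => rfl
  | succ j ih =>
    have e1 : RE B h f (j + 1) = RE B h (fun A => f A + h * gn B f A) j := funext ih
    show RE B h f (j + 1) A + h * gn B (RE B h f (j + 1)) A = _
    rw [e1]
    rfl

theorem RE_lin (B : Finset (Finset α)) (h : ℝ) (f g : Finset α → ℝ) (a b : ℝ) (j : ℕ)
    (A : Finset α) :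
    RE B h (fun A => a * f A + b * g A) j A = a * RE B h f j A + b * RE B h g j A := by
  induction j generalizing A with
  | zero => rfl
  | succ j ih =>
    have e1 : RE B h (fun A => a * f A + b * g A) j =
        fun A => a * RE B h f j A + b * RE B h g j A := funext ih
    show RE B h (fun A => a * f A + b * g A) j A +
      h * gn B (RE B h (fun A => a * f A + b * g A) j) A =
      a * (RE B h f j A + h * gn B (RE B h f j) A) + b * (RE B h g j A + h * gn B (RE B h g j) A)
    rw [e1, LDx.gn_lin]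
    ring

theorem RE_mono (B : Finset (Finset α)) (h : ℝ) (h0 : 0 ≤ h) (h1 : h * (B.card : ℝ) ≤ 1)
    (f g : Finset α → ℝ) (A : Finset α) (hfg : ∀ A', A' ⊆ A → f A' ≤ g A') (j : ℕ) :
    RE B h f j A ≤ RE B h g j A := by
  induction j generalizing A with
  | zero => exact hfg A (subset_refl A)
  | succ j ih =>
    have e : ∀ q : Finset α → ℝ, RE B h q (j + 1) A =
        (1 - h * ((bl B A).card : ℝ)) * RE B h q j A + h * ∑ T ∈ bl B A, RE B h q j (A \ T) := by
      intro q
      show RE B h q j A + h * gn B (RE B h q j) A = _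
      unfold gn
      rw [sum_sub_distrib, sum_const, nsmul_eq_mul]
      ring
    rw [e f, e g]
    have h2 : ((bl B A).card : ℝ) ≤ (B.card : ℝ) := by
      exact_mod_cast card_le_card (filter_subset _ _)
    have h3 : 0 ≤ 1 - h * ((bl B A).card : ℝ) := by
      have := mul_le_mul_of_nonneg_left h2 h0
      linarith
    have h4 := ih A hfg
    have h5 : ∑ T ∈ bl B A, RE B h f j (A \ T) ≤ ∑ T ∈ bl B A, RE B h g j (A \ T) :=
      sum_le_sum fun T _ => ih (A \ T) fun A' hA' => hfg A' (hA'.trans sdiff_subset)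
    exact add_le_add (mul_le_mul_of_nonneg_left h4 h3) (mul_le_mul_of_nonneg_left h5 h0)

/-- `run` is harmonic -/
theorem RE_run (B : Finset (Finset α)) (hB : Lin3 B) (h : ℝ) (j : ℕ) (A : Finset α) :
    RE B h (fun A => run B (fun A => (A.card : ℝ)) A.card A) j A =
      run B (fun A => (A.card : ℝ)) A.card A := by
  induction j generalizing A with
  | zero => rfl
  | succ j ih =>
    have e1 : RE B h (fun A => run B (fun A => (A.card : ℝ)) A.card A) j =
        fun A => run B (fun A => (A.card : ℝ)) A.card A := funext ih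
    show RE B h (fun A => run B (fun A => (A.card : ℝ)) A.card A) j A +
      h * gn B (RE B h (fun A => run B (fun A => (A.card : ℝ)) A.card A) j) A = _
    rw [e1, LDx.run_harm B hB]
    ring

end

end Vale.Agent.P046.NL
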