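import Vale.Agent.P046.NL.LCa
import Vale.Agent.P046.NL.LB
import Vale.Agent.P046.NL.LD

/-! P046, no-log lower bound, row LC. -/

namespace Vale.Agent.P046.NL

open Finset Vale.Agent.P046

noncomputable section

/-- [LC] the local lower bound, from an arbitrary state of the real process -/
theorem loc : ∃ c0 : ℝ, 0 < c0 ∧ ∀ (α : Type) [DecidableEq α] (B : Finset (Finset α))
    (A : Finset α) (D R : ℝ), 2 ≤ D → 1 ≤ R → 100 * D ^ 2 ≤ (B.card : ℝ) → Lin3 B → NP B →
    c0 * (Wf B A / Real.sqrt D) - 2 * c0 * (Sf B A / (D * Real.sqrt D)) ≤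
      (8 + 90 * R) * run B (fun A => (A.card : ℝ)) A.card A + 600 / R * mo B 3 A := by
  obtain ⟨c0, hc0, h⟩ := loc_of
  refine ⟨c0, hc0, ?_⟩
  intro α _ B A D R hD hR hBD hB hNP
  exact h α B A D R hD hR hBD hB (fun A => Fo_le2 B hB hNP R (by linarith) A)
    (fun A T => mo_anti B 3 A T)

end

end Vale.Agent.P046.NL
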