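import Vale.Agent.P046.NL.LDefs2
import Vale.Agent.P046.Low.TMart

/-! P046, no-log lower bound, row LC: the local lower bound from an arbitrary state (without LB, LD). -/

namespace Vale.Agent.P046.NL

open Finset Vale.Agent.P046

noncomputable section

namespace LC

variable {α : Type} [DecidableEq α]

theorem pp_le {D M : ℝ} (hD : 2 ≤ D) (hM : 0 < M) {i : ℕ} (hi : (i : ℝ) + 1 ≤ 2 * M) :
    pp D M i ≤ 3 := by
  unfold pp
  apply Real.sqrt_le_iff.2
  refine ⟨by norm_num, ?_⟩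
  have h4 : 2 * ((i : ℝ) + 1) / M ≤ 4 := by
    rw [div_le_iff₀ hM]; linarith
  have h5 : 1 / D ≤ 1 / 2 := one_div_le_one_div_of_le (by norm_num) hD
  norm_num
  norm_num at h5
  linarith

theorem mo_nonneg (B : Finset (Finset α)) (k : ℕ) (A : Finset α) : 0 ≤ mo B k A :=
  sum_nonneg fun _ _ => by positivity

theorem It_mo_le (B : Finset (Finset α)) (k : ℕ)
    (hmo : ∀ A T : Finset α, mo B k (A \ T) ≤ mo B k A) (i : ℕ) (A : Finset α) :
    It B i A (mo B k) ≤ mo B k A := by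
  have h1 := It_mono B i A (mo B k) (fun _ => mo B k A) (fun A' hA' => by
    have h2 := hmo A (A \ A')
    rwa [Finset.sdiff_sdiff_eq_self hA'] at h2)
  have h2 : It B i A (fun _ => mo B k A) = mo B k A := TMart.It_const B _ i A
  rwa [h2] at h1

/-- the step inequality for `Sf` -/
theorem S_step (B : Finset (Finset α)) (hB : Lin3 B) (hM0 : 0 < B.card) (A : Finset α) (i : ℕ)
    (l : ℝ) : It B (i + 1) A (Sf B) ≤ It B i A (Sf B) + (-3 * (2 * l * It B i A (Sf B) -
      l ^ 2 * It B i A (Wf B)) + 2 * It B i A (Sf B)) / B.card := by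
  have hMpos : (0 : ℝ) < (B.card : ℝ) := by exact_mod_cast hM0
  rw [It_succ B hM0 i A (Sf B)]
  have e1 : gn B (Sf B) = fun A => (-3) * Qf B A + 2 * Sf B A + (-3) * Fo B A := by
    funext A'
    rw [gn_S B hB A']; ring
  have e2 : 2 * l * It B i A (Sf B) - l ^ 2 * It B i A (Wf B) ≤ It B i A (Qf B) := by
    have h1 := It_mono B i A (fun A => (2 * l) * Sf B A + (-l ^ 2) * Wf B A) (Qf B)
      (fun A' _ => by have := cs_nonneg B hB A' l; linarith)
    rw [It_lin] at h1
    linarith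
  have e4 : 0 ≤ It B i A (Fo B) := LMain.It_nonneg B i A _ fun A' => LMain.Fo_nonneg B A'
  rw [e1, LMain.It_lin3]
  have e3 : (-3 * It B i A (Qf B) + 2 * It B i A (Sf B) + -3 * It B i A (Fo B)) / (B.card : ℝ) ≤
      (-3 * (2 * l * It B i A (Sf B) - l ^ 2 * It B i A (Wf B)) + 2 * It B i A (Sf B)) /
        B.card := by
    apply div_le_div_of_nonneg_right _ hMpos.le
    linarith
  linarith

/-- the step identity for `Wf` -/
theorem W_step (B : Finset (Finset α)) (hB : Lin3 B) (hM0 : 0 < B.card) (A : Finset α) (i : ℕ) :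
    It B (i + 1) A (Wf B) =
      It B i A (Wf B) - (It B i A (Sf B) + 3 * It B i A (Fo B)) / B.card := by
  rw [It_succ B hM0 i A (Wf B)]
  have e1 : gn B (Wf B) = fun A => (-1) * Sf B A + (-3) * Fo B A := by
    funext A'
    rw [gn_W B hB A']; ring
  rw [e1, It_lin]
  ring

/-- first step: the artificial value `D W` -/
theorem first_step {W S D M q1 : ℝ} (hD : 2 ≤ D) (hM : 100 * D ^ 2 ≤ M) (hW : 0 ≤ W)
    (hS : S ≤ D / 2 * W) (h1 : q1 ≤ S + 2 * S / M) (hS0 : 0 ≤ S) (l : ℝ) :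
    q1 ≤ D * W + (-3 * (2 * l * (D * W) - l ^ 2 * W) + 2 * (D * W)) / M + 0 := by
  have hMp : 0 < M := by nlinarith
  have h2 : -3 * (D ^ 2 * W) ≤ -3 * (2 * l * (D * W) - l ^ 2 * W) := by
    nlinarith [mul_nonneg hW (sq_nonneg (l - D))]
  have h3 : (-3 * (D ^ 2 * W) + 2 * (D * W)) / M ≤
      (-3 * (2 * l * (D * W) - l ^ 2 * W) + 2 * (D * W)) / M :=
    div_le_div_of_nonneg_right (by linarith) hMp.le
  have h4 : 2 * S / M ≤ D * W / M := div_le_div_of_nonneg_right (by linarith) hMp.le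
  have h5 : 3 * (D ^ 2 * W) / M ≤ D * W * (3 / 200) := by
    rw [div_le_iff₀ hMp]
    have h6 : 0 ≤ D * W := by positivity
    nlinarith [mul_le_mul_of_nonneg_left hM h6, mul_nonneg h6 (by linarith : (0 : ℝ) ≤ D - 2)]
  have h7 : (-3 * (D ^ 2 * W) + 2 * (D * W)) / M =
      -(3 * (D ^ 2 * W) / M) + 2 * (D * W / M) := by ring
  have h8 : 0 ≤ D * W := by positivity
  have h9 : D * W / M ≤ D * W * (1 / 400) := by
    rw [div_le_iff₀ hMp]
    have h11 : 400 ≤ M := by nlinarith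
    nlinarith [mul_nonneg h8 (by linarith : (0 : ℝ) ≤ M - 400)]
  have h10 : 0 ≤ D * W / M := by positivity
  rw [h7] at h3
  linarith

/-- the main case -/
theorem main_case {c0 : ℝ} (hreal : ∀ (M : ℕ) (N D G F1 F2 : ℝ), 2 ≤ D → 2 * D + 1 ≤ N →
    100 ≤ N → 3 * (M : ℝ) = N * D → 0 ≤ G → ∀ (a q φ z τ eW eS : ℕ → ℝ), a 0 = N * G →
    q 0 = N * D * G → (∀ i, 0 ≤ a i) → (∀ i, 0 ≤ q i) → (∀ i, 0 ≤ φ i) → (∀ i, 0 ≤ eW i) →
    (∀ i, 0 ≤ eS i) → (∀ i, z i ≤ F1) → (∀ i, 0 ≤ τ i) →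
    (∀ i, a i - (q i + φ i) / M - eW i ≤ a (i + 1)) →
    (∀ i, ∀ l : ℝ, q (i + 1) ≤
      q i + (-3 * (2 * l * q i - l ^ 2 * a i) + 2 * q i) / M + eS i) →
    (∀ i, 2 * a i - 2 * z i - 2 * τ i ≤ q i) →
    ∑ i ∈ Finset.Ico M (2 * M), τ i / M ≤ F2 →
    c0 * (N / Real.sqrt D) * G ≤
      5 * ∑ i ∈ range (2 * M),
        (φ i / M * pp D M i + eW i * pp D M i + eS i * pp D M i ^ 3) + 4 * F1 + 4 * F2)
    (B : Finset (Finset α)) (A : Finset α) (D : ℝ) (hD : 2 ≤ D)
    (hBD : 100 * D ^ 2 ≤ (B.card : ℝ)) (hB : Lin3 B) (hS : Sf B A ≤ D / 2 * Wf B A) :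
    c0 * (Wf B A / Real.sqrt D) ≤
      5 * ∑ i ∈ range (2 * B.card), 3 * It B i A (Fo B) / (B.card : ℝ) * pp D (B.card : ℝ) i +
      8 * run B (fun A => (A.card : ℝ)) A.card A := by
  have hMpos : (0 : ℝ) < (B.card : ℝ) := by nlinarith
  have hM0 : 0 < B.card := by exact_mod_cast hMpos
  have hDp : 0 < D := by linarith
  have hW0 := W_nonneg B hB A
  have hS0 := S_nonneg B hB A
  obtain ⟨N, hN⟩ : ∃ N : ℝ, N = 3 * (B.card : ℝ) / D := ⟨_, rfl⟩
  have hND : 3 * (B.card : ℝ) = N * D := by rw [hN, div_mul_cancel₀ _ hDp.ne']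
  have hNbig : 300 * D ≤ N := by
    rw [hN, le_div_iff₀ hDp]; nlinarith
  have hNp : 0 < N := by linarith
  have hNG : N * (Wf B A / N) = Wf B A := by
    rw [mul_div_assoc', mul_div_cancel_left₀ _ hNp.ne']
  have hDG : N * D * (Wf B A / N) = D * Wf B A := by
    rw [mul_comm N D, mul_assoc, hNG]
  have hFo : ∀ i, 0 ≤ 3 * It B i A (Fo B) := fun i =>
    mul_nonneg (by norm_num) (LMain.It_nonneg B i A _ fun A' => LMain.Fo_nonneg B A')
  have hMfn : ∀ i, 0 ≤ It B i A (Mf B) := fun i =>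
    LMain.It_nonneg B i A _ fun A' => LMain.Mf_nonneg B A'
  have hZ0 : 0 ≤ It B 0 A (Zf B) := LMain.It_nonneg B 0 A _ fun A' => Nat.cast_nonneg _
  have i0W : It B 0 A (Wf B) = Wf B A := rfl
  have i0S : It B 0 A (Sf B) = Sf B A := rfl
  have key := hreal B.card N D (Wf B A / N) (run B (fun A => (A.card : ℝ)) A.card A)
    (run B (fun A => (A.card : ℝ)) A.card A) hD (by linarith) (by linarith) hND
    (by positivity) (fun i => It B i A (Wf B))
    (fun i => if i = 0 then D * Wf B A else It B i A (Sf B))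
    (fun i => 3 * It B i A (Fo B)) (fun i => It B i A (Zf B)) (fun i => It B i A (Mf B))
    (fun _ => 0) (fun _ => 0) (by rw [hNG]; rfl) (by rw [hDG]; simp)
    (fun i => LMain.It_nonneg B i A _ fun A' => W_nonneg B hB A')
    (fun i => by
      split_ifs with h
      · positivity
      · exact LMain.It_nonneg B i A _ fun A' => S_nonneg B hB A')
    hFo (fun _ => le_rfl) (fun _ => le_rfl) (fun i => It_Z B hB i A) hMfn
    (fun i => by
      rcases Nat.eq_zero_or_pos i with h | h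
      · subst h
        rw [if_pos rfl, W_step B hB hM0 A 0, i0W, i0S, sub_zero]
        have h1 : (Sf B A + 3 * It B 0 A (Fo B)) / (B.card : ℝ) ≤
            (D * Wf B A + 3 * It B 0 A (Fo B)) / (B.card : ℝ) := by
          apply div_le_div_of_nonneg_right _ hMpos.le
          nlinarith
        linarith
      · rw [if_neg (by omega), W_step B hB hM0 A i, sub_zero])
    (fun i l => by
      rw [if_neg (by omega : ¬ (i + 1 = 0))]
      rcases Nat.eq_zero_or_pos i with h | h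
      · subst h
        rw [if_pos rfl, i0W]
        refine first_step hD hBD hW0 hS ?_ hS0 l
        have h1 := S_step B hB hM0 A 0 0
        rw [i0W, i0S] at h1
        have h2 : (-3 * (2 * 0 * Sf B A - 0 ^ 2 * Wf B A) + 2 * Sf B A) / (B.card : ℝ) =
            2 * Sf B A / (B.card : ℝ) := by ring
        rwa [h2] at h1
      · rw [if_neg (by omega : ¬ (i = 0)), add_zero]
        exact S_step B hB hM0 A i l)
    (fun i => by
      split_ifs with h
      · subst h
        rw [i0W]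
        have := hMfn 0
        nlinarith
      · have h1 := It_mono B i A (fun A => 2 * Wf B A + (-2) * Zf B A + (-2) * Mf B A) (Sf B)
          (fun A' _ => by have := S_lower B hB A'; linarith)
        rw [LMain.It_lin3] at h1
        linarith)
    (by
      refine le_trans ?_ (It_M B hB hM0 (2 * B.card) A)
      refine Finset.sum_le_sum_of_subset_of_nonneg ?_ ?_
      · intro i hi
        rw [Finset.mem_Ico] at hi
        exact Finset.mem_range.2 hi.2
      · intro i _ _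
        exact div_nonneg (hMfn i) hMpos.le)
  have e1 : c0 * (N / Real.sqrt D) * (Wf B A / N) = c0 * (Wf B A / Real.sqrt D) := by
    have e2 : c0 * (N / Real.sqrt D) * (Wf B A / N) =
        c0 * (N * (Wf B A / N) / Real.sqrt D) := by ring
    rw [e2, hNG]
  rw [e1] at key
  simp only [zero_mul, add_zero] at key
  linarith

theorem sum_phi (B : Finset (Finset α)) (A : Finset α) (D R : ℝ) (hD : 2 ≤ D) (hR : 1 ≤ R)
    (hM0 : 0 < B.card) (hB : Lin3 B)
    (hFo : ∀ A : Finset α, Fo B A ≤ 2 * R * Mf B A + 6 / R * mo B 3 A)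
    (hmo : ∀ A T : Finset α, mo B 3 (A \ T) ≤ mo B 3 A) :
    ∑ i ∈ range (2 * B.card), 3 * It B i A (Fo B) / (B.card : ℝ) * pp D (B.card : ℝ) i ≤
      9 * (2 * R * run B (fun A => (A.card : ℝ)) A.card A + 12 / R * mo B 3 A) := by
  have hMpos : (0 : ℝ) < (B.card : ℝ) := by exact_mod_cast hM0
  have hR0 : 0 < R := by linarith
  have hm3 := mo_nonneg B 3 A
  have h1 : ∀ i ∈ range (2 * B.card), 3 * It B i A (Fo B) / (B.card : ℝ) * pp D (B.card : ℝ) i ≤
      18 * R * (It B i A (Mf B) / (B.card : ℝ)) + 54 / R * mo B 3 A / (B.card : ℝ) := by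
    intro i hi
    rw [mem_range] at hi
    have h2 : pp D (B.card : ℝ) i ≤ 3 := pp_le hD hMpos (by exact_mod_cast hi)
    have h3 : 0 ≤ It B i A (Fo B) := LMain.It_nonneg B i A _ fun A' => LMain.Fo_nonneg B A'
    have h4 := It_mono B i A (Fo B) (fun A => (2 * R) * Mf B A + (6 / R) * mo B 3 A)
      (fun A' _ => hFo A')
    rw [It_lin] at h4
    have h5 := It_mo_le B 3 hmo i A
    have h6 : 6 / R * It B i A (mo B 3) ≤ 6 / R * mo B 3 A :=
      mul_le_mul_of_nonneg_left h5 (by positivity)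
    have h7 : 3 * It B i A (Fo B) / (B.card : ℝ) * pp D (B.card : ℝ) i ≤
        3 * It B i A (Fo B) / (B.card : ℝ) * 3 :=
      mul_le_mul_of_nonneg_left h2 (by positivity)
    have h8 : 3 * It B i A (Fo B) / (B.card : ℝ) * 3 ≤
        3 * (2 * R * It B i A (Mf B) + 6 / R * mo B 3 A) / (B.card : ℝ) * 3 := by
      have h9 : It B i A (Fo B) ≤ 2 * R * It B i A (Mf B) + 6 / R * mo B 3 A := by linarith
      gcongr
    refine (h7.trans h8).trans (le_of_eq ?_)
    ring
  refine (sum_le_sum h1).trans ?_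
  rw [sum_add_distrib, ← mul_sum, sum_const, card_range, nsmul_eq_mul]
  have h2 := It_M B hB hM0 (2 * B.card) A
  have h3 : 18 * R * ∑ i ∈ range (2 * B.card), It B i A (Mf B) / (B.card : ℝ) ≤
      18 * R * run B (fun A => (A.card : ℝ)) A.card A :=
    mul_le_mul_of_nonneg_left h2 (by positivity)
  have h4 : ((2 * B.card : ℕ) : ℝ) * (54 / R * mo B 3 A / (B.card : ℝ)) =
      9 * (12 / R * mo B 3 A) := by
    push_cast
    field_simp
    ring
  rw [h4]
  linarith

end LC

/-- [LC] from the formation bound and the monotonicity of the third moment -/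
theorem loc_of : ∃ c0 : ℝ, 0 < c0 ∧ ∀ (α : Type) [DecidableEq α] (B : Finset (Finset α))
    (A : Finset α) (D R : ℝ), 2 ≤ D → 1 ≤ R → 100 * D ^ 2 ≤ (B.card : ℝ) → Lin3 B →
    (∀ A : Finset α, Fo B A ≤ 2 * R * Mf B A + 6 / R * mo B 3 A) →
    (∀ A T : Finset α, mo B 3 (A \ T) ≤ mo B 3 A) →
    c0 * (Wf B A / Real.sqrt D) - 2 * c0 * (Sf B A / (D * Real.sqrt D)) ≤
      (8 + 90 * R) * run B (fun A => (A.card : ℝ)) A.card A + 600 / R * mo B 3 A := by
  obtain ⟨c0, hc0, hreal⟩ := low_real2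
  refine ⟨c0, hc0, ?_⟩
  intro α _ B A D R hD hR hBD hB hFo hmo
  have hMpos : (0 : ℝ) < (B.card : ℝ) := by nlinarith
  have hM0 : 0 < B.card := by exact_mod_cast hMpos
  have hDp : 0 < D := by linarith
  have hR0 : 0 < R := by linarith
  have hsD : 0 < Real.sqrt D := Real.sqrt_pos.2 hDp
  have hW0 := W_nonneg B hB A
  have hS0 := S_nonneg B hB A
  have hm3 := LC.mo_nonneg B 3 A
  have hF0 : 0 ≤ run B (fun A => (A.card : ℝ)) A.card A := by
    refine le_trans ?_ (It_Z B hB 0 A)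
    exact LMain.It_nonneg B 0 A _ fun A' => Nat.cast_nonneg _
  have hm : 0 ≤ 1 / R * mo B 3 A := by positivity
  have e600 : 600 / R * mo B 3 A = 600 * (1 / R * mo B 3 A) := by ring
  rcases le_or_gt (Sf B A) (D / 2 * Wf B A) with hS | hS
  · have h1 := LC.main_case hreal B A D hD hBD hB hS
    have h2 := LC.sum_phi B A D R hD hR hM0 hB hFo hmo
    have h3 : 0 ≤ 2 * c0 * (Sf B A / (D * Real.sqrt D)) := by positivity
    have e12 : 12 / R * mo B 3 A = 12 * (1 / R * mo B 3 A) := by ring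
    rw [e12] at h2
    rw [e600]
    nlinarith
  · have h1 : Wf B A / Real.sqrt D ≤ 2 * (Sf B A / (D * Real.sqrt D)) := by
      rw [mul_div_assoc', div_le_div_iff₀ hsD (by positivity)]
      have h2 : Wf B A * D ≤ 2 * Sf B A := by linarith
      calc Wf B A * (D * Real.sqrt D) = (Wf B A * D) * Real.sqrt D := by ring
        _ ≤ 2 * Sf B A * Real.sqrt D := mul_le_mul_of_nonneg_right h2 hsD.le
    have h2 : c0 * (Wf B A / Real.sqrt D) ≤ 2 * c0 * (Sf B A / (D * Real.sqrt D)) := by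
      have := mul_le_mul_of_nonneg_left h1 hc0.le
      linarith
    have h3 : 0 ≤ (8 + 90 * R) * run B (fun A => (A.card : ℝ)) A.card A := by positivity
    rw [e600]
    linarith

end

end Vale.Agent.P046.NL
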