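import Vale.Agent.P046.NL.LDefs2

/-!
P046, no-log lower bound, row LR: functionals of the real process under `EV`.
-/

namespace Vale.Agent.P046.NL

open Finset Vale.Agent.P046

noncomputable section

variable {α : Type} [DecidableEq α]

namespace LR

/-- the generator of a functional of the real part -/
theorem gen_real (Bl : Finset (Finset α)) (r : ℝ) (f : Finset α → ℝ) (s : St α)
    (hW : s.W ⊆ Bl) :
    gen Bl r (fun s => f s.A) s = gn Bl f s.A := by
  unfold gen gn
  have h1 : ∑ T ∈ s.W, (f (ring s T).A - f s.A) =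
      ∑ T ∈ bl Bl s.A ∩ s.W, (f (s.A \ T) - f s.A) := by
    rw [Finset.inter_comm, ← Finset.filter_mem_eq_inter, Finset.sum_filter]
    refine Finset.sum_congr rfl fun T hT => ?_
    by_cases hTA : T ⊆ s.A
    · have h2 : T ∈ bl Bl s.A := Finset.mem_filter.2 ⟨hW hT, hTA⟩
      simp [ring, hTA, h2]
    · have h2 : T ∉ bl Bl s.A := fun h => hTA (Finset.mem_filter.1 h).2
      simp [ring, hTA, h2]
  have h2 : ∑ T ∈ s.W, ∑ f' ∈ T \ s.B, (r * (1 + s.a f') - 1) *
      (f (virt s T).A - f s.A) = 0 := by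
    refine Finset.sum_eq_zero fun T _ => Finset.sum_eq_zero fun e _ => ?_
    simp [virt]
  have h3 : ∑ T ∈ bl Bl s.A \ s.W, (f (nring s T).A - f s.A) =
      ∑ T ∈ bl Bl s.A \ s.W, (f (s.A \ T) - f s.A) :=
    Finset.sum_congr rfl fun T _ => rfl
  rw [h1, h2, h3, add_zero, Finset.sum_inter_add_sum_sdiff]

end LR

/-- [LR] -/
theorem EV_real (Bl : Finset (Finset α)) (th h : ℝ) (f : Finset α → ℝ) (k : ℕ) (u : ℝ)
    (s : St α) (hW : s.W ⊆ Bl) :
    EV Bl th h (fun _ s => f s.A) k u s = RE Bl h f k s.A := by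
  induction k generalizing u s with
  | zero => rfl
  | succ k ih =>
    have h1 : ∀ s' : St α, s'.W ⊆ Bl → EV Bl th h (fun _ s => f s.A) k (u + 2 * h)
        (fixs th (u + 2 * h) s') = RE Bl h f k s'.A := fun s' hs' =>
      ih (u + 2 * h) (fixs th (u + 2 * h) s') hs'
    have h2 : gen Bl (1 / (u + 2 * h))
        (fun s' => EV Bl th h (fun _ s => f s.A) k (u + 2 * h) (fixs th (u + 2 * h) s')) s =
        gen Bl (1 / (u + 2 * h)) (fun s' => RE Bl h f k s'.A) s := by
      unfold gen
      have hs : s.W ⊆ Bl := hW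
      have e0 := h1 s hs
      have e1 : ∀ T ∈ s.W, EV Bl th h (fun _ s => f s.A) k (u + 2 * h)
          (fixs th (u + 2 * h) (ring s T)) = RE Bl h f k (ring s T).A := fun T _ =>
        h1 (ring s T) ((Finset.filter_subset _ _).trans hs)
      have e2 : ∀ T ∈ s.W, EV Bl th h (fun _ s => f s.A) k (u + 2 * h)
          (fixs th (u + 2 * h) (virt s T)) = RE Bl h f k (virt s T).A := fun T _ =>
        h1 (virt s T) ((Finset.erase_subset _ _).trans hs)
      have e3 : ∀ T, EV Bl th h (fun _ s => f s.A) k (u + 2 * h)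
          (fixs th (u + 2 * h) (nring s T)) = RE Bl h f k (nring s T).A := fun T =>
        h1 (nring s T) hs
      simp only []
      rw [e0]
      congr 1
      · congr 1
        · exact Finset.sum_congr rfl fun T hT => by rw [e1 T hT]
        · exact Finset.sum_congr rfl fun T hT => Finset.sum_congr rfl fun e _ => by
            rw [e2 T hT]
      · exact Finset.sum_congr rfl fun T _ => by rw [e3 T]
    show EV Bl th h (fun _ s => f s.A) k (u + 2 * h) (fixs th (u + 2 * h) s) +
      h * gen Bl (1 / (u + 2 * h)) (fun s' => EV Bl th h (fun _ s => f s.A) k (u + 2 * h)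
        (fixs th (u + 2 * h) s')) s = RE Bl h f k s.A + h * gn Bl (RE Bl h f k) s.A
    rw [h2, LR.gen_real Bl _ _ s hW, h1 s hW]

end

end Vale.Agent.P046.NL
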