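import Vale.Agent.P046.NL.LDefs2

/-!
P046, no-log lower bound, row LW: windows.
-/

namespace Vale.Agent.P046.NL

open Finset Vale.Agent.P046

noncomputable section

variable {α : Type} [DecidableEq α]

namespace LW

/-- the facts of row LD that are used -/
structure Cal (B : Finset (Finset α)) (h : ℝ) : Prop where
  succ' : ∀ (f : Finset α → ℝ) (j : ℕ) (A : Finset α),
    RE B h f (j + 1) A = RE B h (fun A => f A + h * gn B f A) j A
  lin : ∀ (f g : Finset α → ℝ) (a b : ℝ) (j : ℕ) (A : Finset α),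
    RE B h (fun A => a * f A + b * g A) j A = a * RE B h f j A + b * RE B h g j A
  mono : ∀ (f g : Finset α → ℝ) (A : Finset α), (∀ A', A' ⊆ A → f A' ≤ g A') → ∀ j : ℕ,
    RE B h f j A ≤ RE B h g j A
  m0 : ∀ A, gn B (fun A => (A.card : ℝ)) A = - mo B 1 A
  m1 : ∀ A, gn B (mo B 1) A ≤ - mo B 2 A
  m2 : ∀ A, gn B (mo B 2) A ≤ - mo B 3 A

theorem mo_nonneg (B : Finset (Finset α)) (k : ℕ) (A : Finset α) : 0 ≤ mo B k A := by
  unfold mo; positivity

/-- an abstract window -/
theorem window (x y : ℕ → ℝ) (h : ℝ) (h0 : 0 < h) (hx : ∀ j, 0 ≤ x j)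
    (hs : ∀ j, x (j + 1) ≤ x j - h * y j) (k m : ℕ) (hm : 1 ≤ m) (X : ℝ) (hX : x k ≤ X) :
    ∃ j, k ≤ j ∧ j < k + m ∧ y j ≤ X / (h * m) := by
  by_contra hcon
  push Not at hcon
  have hmp : (0 : ℝ) < m := by exact_mod_cast hm
  have h1 : ∀ i : ℕ, i ≤ m → x (k + i) ≤ X - i * (X / m) := by
    intro i
    induction i with
    | zero => intro _; simpa using hX
    | succ i ih =>
      intro hi
      have h2 := ih (by omega)
      have h3 := hs (k + i)
      have h4 := hcon (k + i) (by omega) (by omega)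
      have h5 : h * (X / (h * m)) ≤ h * y (k + i) := mul_le_mul_of_nonneg_left h4.le h0.le
      have h6 : h * (X / (h * m)) = X / m := by field_simp
      rw [h6] at h5
      have e1 : k + (i + 1) = k + i + 1 := by ring
      rw [e1]
      push_cast
      linarith
  -- strict at the last step
  have h7 := h1 (m - 1) (by omega)
  have h8 := hs (k + (m - 1))
  have h9 := hcon (k + (m - 1)) (by omega) (by omega)
  have h10 : h * (X / (h * m)) < h * y (k + (m - 1)) := mul_lt_mul_of_pos_left h9 h0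
  have h11 : h * (X / (h * m)) = X / m := by field_simp
  rw [h11] at h10
  have h12 := hx (k + (m - 1) + 1)
  have h13 : ((m - 1 : ℕ) : ℝ) = (m : ℝ) - 1 := by
    rw [Nat.cast_sub hm]; simp
  rw [h13] at h7
  have h14 : X - ((m : ℝ) - 1) * (X / m) = X / m := by field_simp; ring
  rw [h14] at h7
  linarith

theorem windows_of (B : Finset (Finset α)) (h : ℝ) (h0 : 0 < h) (hc : Cal B h)
    (A : Finset α) (k m : ℕ) (hm : 1 ≤ m) (X : ℝ)
    (hX : RE B h (fun A => (A.card : ℝ)) k A ≤ X) :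
    ∃ j : ℕ, k + 2 * m ≤ j ∧ j ≤ k + 3 * m ∧ RE B h (mo B 1) j A ≤ X / (h * m) ∧
      RE B h (mo B 3) j A ≤ X / (h * m) ^ 3 := by
  have hmp : (0 : ℝ) < m := by exact_mod_cast hm
  have hz : ∀ j, RE B h (fun _ => (0 : ℝ)) j A = 0 := by
    intro j
    have := hc.lin (fun _ => (0 : ℝ)) (fun _ => (0 : ℝ)) 0 0 j A
    simpa using this
  have hnn : ∀ f : Finset α → ℝ, (∀ A, 0 ≤ f A) → ∀ j, 0 ≤ RE B h f j A := by
    intro f hf j
    have h1 := hc.mono (fun _ => (0 : ℝ)) f A (fun A' _ => hf A') j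
    rw [hz] at h1
    exact h1
  have hstep : ∀ (f g : Finset α → ℝ), (∀ A, gn B f A ≤ - g A) → ∀ j,
      RE B h f (j + 1) A ≤ RE B h f j A - h * RE B h g j A := by
    intro f g hfg j
    rw [hc.succ']
    have h1 := hc.mono (fun A => f A + h * gn B f A) (fun A => 1 * f A + (-h) * g A) A
      (fun A' _ => by
        have h2 := mul_le_mul_of_nonneg_left (hfg A') h0.le
        linarith) j
    rw [hc.lin] at h1
    linarith
  have s0 := hstep (fun A => (A.card : ℝ)) (mo B 1) (fun A => (hc.m0 A).le)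
  have s1 := hstep (mo B 1) (mo B 2) hc.m1
  have s2 := hstep (mo B 2) (mo B 3) hc.m2
  have n0 := hnn (fun A => (A.card : ℝ)) (fun A => by positivity)
  have n1 := hnn (mo B 1) (mo_nonneg B 1)
  have n2 := hnn (mo B 2) (mo_nonneg B 2)
  have n3 := hnn (mo B 3) (mo_nonneg B 3)
  have anti1 : ∀ i j, i ≤ j → RE B h (mo B 1) j A ≤ RE B h (mo B 1) i A := by
    intro i j hij
    induction hij with
    | refl => exact le_rfl
    | @step j _ ih =>
      have h1 := s1 j
      have h2 := mul_nonneg h0.le (n2 j)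
      refine le_trans ?_ ih
      refine h1.trans ?_
      linarith
  have anti2 : ∀ i j, i ≤ j → RE B h (mo B 2) j A ≤ RE B h (mo B 2) i A := by
    intro i j hij
    induction hij with
    | refl => exact le_rfl
    | @step j _ ih =>
      have h1 := s2 j
      have h2 := mul_nonneg h0.le (n3 j)
      refine le_trans ?_ ih
      refine h1.trans ?_
      linarith
  obtain ⟨j1, a1, b1, c1⟩ := window (fun j => RE B h (fun A => (A.card : ℝ)) j A)
    (fun j => RE B h (mo B 1) j A) h h0 n0 s0 k m hm X hX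
  obtain ⟨j2, a2, b2, c2⟩ := window (fun j => RE B h (mo B 1) j A)
    (fun j => RE B h (mo B 2) j A) h h0 n1 s1 (k + m) m hm (X / (h * m))
    ((anti1 j1 (k + m) (by omega)).trans c1)
  obtain ⟨j3, a3, b3, c3⟩ := window (fun j => RE B h (mo B 2) j A)
    (fun j => RE B h (mo B 3) j A) h h0 n2 s2 (k + 2 * m) m hm (X / (h * m) / (h * m))
    ((anti2 j2 (k + 2 * m) (by omega)).trans c2)
  refine ⟨j3, a3, by omega, (anti1 j1 j3 (by omega)).trans c1, ?_⟩
  have e1 : X / (h * m) ^ 3 = X / (h * m) / (h * m) / (h * m) := by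
    have : 0 < h * (m : ℝ) := by positivity
    field_simp
  rw [e1]
  exact c3

end LW

end

end Vale.Agent.P046.NL
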