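import Vale.Agent.P046.NL.LEa
import Vale.Agent.P046.NL.LA
import Vale.Agent.P046.NL.LC
import Vale.Agent.P046.NL.LD
import Vale.Agent.P046.NL.LR
import Vale.Agent.P046.NL.LW
import Vale.Agent.P046.NL.MIDCORE
import Vale.Agent.P046.NL.DFIX
import Vale.Agent.P046.NL.DCoreOf

/-!
P046, no-log lower bound: the end of the middle phase.
-/

namespace Vale.Agent.P046.NL

open Finset Vale.Agent.P046

noncomputable section

variable {α : Type} [DecidableEq α]

namespace LE

open MidThm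

/-- the calculus of the real process -/
theorem cal {B : Finset (Finset α)} (hB : Lin3 B) {h : ℝ} (h0 : 0 ≤ h)
    (h1 : h * (B.card : ℝ) ≤ 1) : LW.Cal B h where
  succ' := RE_succ' B h
  lin := RE_lin B h
  mono := fun f g A hfg j => RE_mono B h h0 h1 f g A hfg j
  m0 := gn_mo0 B hB
  m1 := gn_mo1 B hB
  m2 := gn_mo2 B hB

/-- the local theorem under `RE` -/
theorem loc_RE {c0 : ℝ} {B : Finset (Finset α)} (hB : Lin3 B) {D R : ℝ} (hD : 2 ≤ D)
    (hR : 1 ≤ R) (hc0 : 0 < c0)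
    (hloc : ∀ A : Finset α, c0 * (Wf B A / Real.sqrt D) - 2 * c0 * (Sf B A / (D * Real.sqrt D)) ≤
      (8 + 90 * R) * run B (fun A => (A.card : ℝ)) A.card A + 600 / R * mo B 3 A)
    {h : ℝ} (h0 : 0 ≤ h) (h1 : h * (B.card : ℝ) ≤ 1) (j : ℕ) (A : Finset α) :
    c0 / Real.sqrt D * RE B h (Wf B) j A - 2 * c0 / (D * Real.sqrt D) * RE B h (mo B 1) j A ≤
      (8 + 90 * R) * run B (fun A => (A.card : ℝ)) A.card A + 600 / R * RE B h (mo B 3) j A := by
  have hD0 : 0 < D := by linarith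
  have hsD : 0 < Real.sqrt D := Real.sqrt_pos.2 hD0
  have e1 := RE_mono B h h0 h1
    (fun A => c0 / Real.sqrt D * Wf B A + (-(2 * c0 / (D * Real.sqrt D))) * mo B 1 A)
    (fun A => (8 + 90 * R) * run B (fun A => (A.card : ℝ)) A.card A + 600 / R * mo B 3 A) A
    (fun A' _ => by
      have h2 := hloc A'
      have h3 : Sf B A' ≤ mo B 1 A' := by
        unfold Sf mo Yf
        simp only [pow_one]
        have : (0 : ℝ) ≤ 3 * ((isos B A').card : ℝ) := by positivity
        linarith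
      have h4 : 2 * c0 / (D * Real.sqrt D) * Sf B A' ≤ 2 * c0 / (D * Real.sqrt D) * mo B 1 A' :=
        mul_le_mul_of_nonneg_left h3 (by positivity)
      have h5 : c0 * (Wf B A' / Real.sqrt D) = c0 / Real.sqrt D * Wf B A' := by ring
      have h6 : 2 * c0 * (Sf B A' / (D * Real.sqrt D)) =
        2 * c0 / (D * Real.sqrt D) * Sf B A' := by ring
      rw [h5, h6] at h2
      linarith) j
  rw [RE_lin, RE_lin, RE_run B hB] at e1
  linarith

/-- final arithmetic: `F` the final number, `W = RE Wf`, `M = PsiM`, `q = U^(1/2) Q` -/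
theorem arith {c0 U D R F W m1 m3 M q e η x u C2 a A : ℝ} (hc0 : 0 < c0) (hU : 0 < U)
    (hη : 0 < η) (hM : 0 ≤ M) (he : 0 ≤ e) (he1 : e ≤ 1) (hq : 0 ≤ q) (hR : 1 ≤ R)
    (hx : x ^ 2 = U) (hx0 : 0 < x)
    (hD : D = 192 / (η * U)) (hD2 : 2 ≤ D)
    (hR2 : 600 * 432 * (8 * Real.sqrt D) / (c0 * U ^ 3 * η) ≤ R)
    (hC2 : 0 ≤ C2) (hC : C2 * x ≤ η / 8) (ha : 0 ≤ a) (ha1 : a ≤ η / 8)
    (hu0 : U ≤ u) (hu1 : u ≤ 2 * U)
    (hloc : c0 / Real.sqrt D * W - 2 * c0 / (D * Real.sqrt D) * m1 ≤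
      (8 + 90 * R) * F + 600 / R * m3)
    (hm1 : m1 ≤ A / (U / 6)) (hm3 : m3 ≤ A / (U / 6) ^ 3)
    (hA : A ≤ 2 / x * M)
    (hW : 1 / Real.sqrt u * (q - (1 + a * M + e)) - C2 * (M + e) ≤ W)
    (hη1 : η ≤ 1) :
    7 / 10 * q - 2 - η * M - 2 * e ≤ (8 + 90 * R) * x * Real.sqrt D / c0 * F := by
  have hD0 : 0 < D := by linarith
  have hsD : 0 < Real.sqrt D := Real.sqrt_pos.2 hD0
  have hsDD : Real.sqrt D * Real.sqrt D = D := Real.mul_self_sqrt hD0.le
  have hR0 : 0 < R := by linarith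
  have hUx : Real.sqrt U = x := by rw [← hx, Real.sqrt_sq hx0.le]
  have hu : 0 < u := by linarith
  have hsu : 0 < Real.sqrt u := Real.sqrt_pos.2 hu
  have h1 : x ≤ Real.sqrt u := by rw [← hUx]; exact Real.sqrt_le_sqrt hu0
  have h2 : Real.sqrt u ≤ 10 / 7 * x := by
    have h3 : Real.sqrt u ≤ Real.sqrt ((10 / 7 * x) ^ 2) := by
      apply Real.sqrt_le_sqrt
      have : (10 / 7 * x) ^ 2 = 100 / 49 * U := by rw [← hx]; ring
      linarith
    rwa [Real.sqrt_sq (by positivity)] at h3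
  -- `x / sqrt u` lies in `[7/10, 1]`
  obtain ⟨y, hy⟩ : ∃ y : ℝ, y = x / Real.sqrt u := ⟨_, rfl⟩
  have hy1 : y ≤ 1 := by rw [hy, div_le_one hsu]; exact h1
  have hy2 : 7 / 10 ≤ y := by
    rw [hy, le_div_iff₀ hsu]
    linarith
  have hxW : y * (q - (1 + a * M + e)) - C2 * x * (M + e) ≤ x * W := by
    have h3 := mul_le_mul_of_nonneg_left hW hx0.le
    have h4 : x * (1 / Real.sqrt u * (q - (1 + a * M + e)) - C2 * (M + e)) =
        y * (q - (1 + a * M + e)) - C2 * x * (M + e) := by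
      rw [hy]; ring
    linarith
  have haM : 0 ≤ a * M := mul_nonneg ha hM
  have hg : 7 / 10 * q - (1 + a * M + e) ≤ y * (q - (1 + a * M + e)) := by
    have h3 : 7 / 10 * q ≤ y * q := mul_le_mul_of_nonneg_right hy2 hq
    have h4 : y * (1 + a * M + e) ≤ 1 * (1 + a * M + e) :=
      mul_le_mul_of_nonneg_right hy1 (by linarith)
    have h5 : y * (q - (1 + a * M + e)) = y * q - y * (1 + a * M + e) := by ring
    linarith
  have haM1 : a * M ≤ η / 8 * M := mul_le_mul_of_nonneg_right ha1 hM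
  have hC1 : C2 * x * (M + e) ≤ η / 8 * (M + e) :=
    mul_le_mul_of_nonneg_right hC (by linarith)
  have hxW2 : 7 / 10 * q - 1 - η / 4 * M - 2 * e ≤ x * W := by
    have : η / 8 * e ≤ e := by
      have := mul_le_mul_of_nonneg_right (show η / 8 ≤ 1 by linarith) he
      linarith
    have h5 : η / 8 * (M + e) = η / 8 * M + η / 8 * e := by ring
    linarith
  -- multiply the local inequality by `x sqrt D / c0`
  have hk : 0 < x * Real.sqrt D / c0 := by positivity
  have h6 := mul_le_mul_of_nonneg_left hloc hk.le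
  have h7 : x * Real.sqrt D / c0 * (c0 / Real.sqrt D * W - 2 * c0 / (D * Real.sqrt D) * m1) =
      x * W - 2 * x / D * m1 := by
    field_simp
  have h8 : x * Real.sqrt D / c0 * ((8 + 90 * R) * F + 600 / R * m3) =
      (8 + 90 * R) * x * Real.sqrt D / c0 * F + 600 * x * Real.sqrt D / (c0 * R) * m3 := by
    field_simp
  rw [h7, h8] at h6
  have h9 : 2 * x / D * m1 ≤ η / 8 * M := by
    have h10 : m1 ≤ 12 / (x * U) * M := by
      refine hm1.trans ?_
      calc A / (U / 6) ≤ (2 / x * M) / (U / 6) :=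
            div_le_div_of_nonneg_right hA (by positivity)
        _ = _ := by field_simp; ring
    calc 2 * x / D * m1 ≤ 2 * x / D * (12 / (x * U) * M) :=
          mul_le_mul_of_nonneg_left h10 (by positivity)
      _ = η / 8 * M := by rw [hD]; field_simp; ring
  have h11 : 600 * x * Real.sqrt D / (c0 * R) * m3 ≤ η / 8 * M := by
    have h12 : m3 ≤ 432 / (x * U ^ 3) * M := by
      refine hm3.trans ?_
      calc A / (U / 6) ^ 3 ≤ (2 / x * M) / (U / 6) ^ 3 :=
            div_le_div_of_nonneg_right hA (by positivity)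
        _ = _ := by field_simp; ring
    have h13 : 600 * x * Real.sqrt D / (c0 * R) * (432 / (x * U ^ 3) * M) ≤ η / 8 * M := by
      have h14 : 600 * x * Real.sqrt D / (c0 * R) * (432 / (x * U ^ 3)) ≤ η / 8 := by
        have e1 : 600 * x * Real.sqrt D / (c0 * R) * (432 / (x * U ^ 3)) =
            600 * 432 * Real.sqrt D / (c0 * U ^ 3) / R := by field_simp
        rw [e1, div_le_iff₀ hR0]
        have e2 : 600 * 432 * (8 * Real.sqrt D) / (c0 * U ^ 3 * η) =
            600 * 432 * Real.sqrt D / (c0 * U ^ 3) * (8 / η) := by field_simp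
        rw [e2] at hR2
        have e3 : 600 * 432 * Real.sqrt D / (c0 * U ^ 3) =
            η / 8 * (600 * 432 * Real.sqrt D / (c0 * U ^ 3) * (8 / η)) := by field_simp
        rw [e3]
        exact mul_le_mul_of_nonneg_left hR2 (by positivity)
      calc 600 * x * Real.sqrt D / (c0 * R) * (432 / (x * U ^ 3) * M) =
          600 * x * Real.sqrt D / (c0 * R) * (432 / (x * U ^ 3)) * M := by ring
        _ ≤ η / 8 * M := mul_le_mul_of_nonneg_right h14 hM
    exact (mul_le_mul_of_nonneg_left h12 (by positivity)).trans h13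
  have hηM : 0 ≤ η * M := mul_nonneg hη.le hM
  have e5 : η / 8 * M = 1 / 8 * (η * M) := by ring
  have e6 : η / 4 * M = 1 / 4 * (η * M) := by ring
  rw [e5] at h9 h11
  rw [e6] at hxW2
  linarith

/-- `EV` only looks at the functional at the final time -/
theorem ev_time (Bl : Finset (Finset α)) (th h : ℝ) (F G : ℝ → St α → ℝ) (k : ℕ) :
    ∀ (u : ℝ) (s : St α), (∀ s, F (u + 2 * h * k) s = G (u + 2 * h * k) s) →
      EV Bl th h F k u s = EV Bl th h G k u s := by
  induction k with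
  | zero =>
    intro u s hFG
    have := hFG s
    simpa [EV_zero] using this
  | succ k ih =>
    intro u s hFG
    have h1 : ∀ s', EV Bl th h F k (u + 2 * h) s' = EV Bl th h G k (u + 2 * h) s' := by
      intro s'
      apply ih
      intro s''
      have := hFG s''
      have e1 : u + 2 * h + 2 * h * (k : ℝ) = u + 2 * h * ((k + 1 : ℕ) : ℝ) := by
        push_cast; ring
      rw [e1]
      exact this
    rw [EV_succ, EV_succ]
    unfold st1
    simp only [h1]

/-- expectation of `Wf` after `j` steps -/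
theorem RE_Wf_ge {ep : ℝ} (h0 : 0 < ep) (hep : ep ≤ 1 / 100) {Bl : Finset (Finset α)}
    {C6 C8 : Finset (Finset (Finset α))} {h v U c : ℝ} (hL : Lin3 Bl) (hv : 0 < v)
    (hU : U ≤ 1 / 100) (hh : 0 < h)
    (PP : Prm Bl (t0 ep) (2 * t0 ep) h v U) {s : St α} (hs : GS Bl (t0 ep) (2 * t0 ep) v s)
    (j : ℕ) (hj : v + 2 * h * j ≤ U) (DD MM : ℝ)
    (hD : EV Bl (t0 ep) h (PsiD ep c U Bl C6 C8) j v s ≤ DD)
    (hM : EV Bl (t0 ep) h (PsiM ep Bl C6 C8) j v s ≤ MM) :
    1 / (v + 2 * h * j) ^ (1 / 2 : ℝ) * (c - DD)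
      - (4 + 3 * (ep / (400 * t0 ep ^ 4))) * MM ≤ RE Bl h (Wf Bl) j s.A := by
  have ht : 0 < t0 ep := by unfold t0; positivity
  have ht1 : t0 ep ≤ 1 / 10000 := FIXM.t0_le h0 hep
  have hj0 : 0 ≤ 2 * h * (j : ℝ) := by positivity
  have hUp : 0 < U := by linarith
  obtain ⟨y, hy⟩ : ∃ y : ℝ, y = 1 / (v + 2 * h * j) ^ (1 / 2 : ℝ) := ⟨_, rfl⟩
  obtain ⟨C2, hC2⟩ : ∃ C2 : ℝ, C2 = 4 + 3 * (ep / (400 * t0 ep ^ 4)) := ⟨_, rfl⟩
  have hC20 : 0 ≤ C2 := by rw [hC2]; positivity
  have hy0 : 0 ≤ y := by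
    rw [hy]
    have : 0 ≤ (v + 2 * h * j) ^ (1 / 2 : ℝ) := Real.rpow_nonneg (by linarith) _
    positivity
  rw [← hy, ← hC2]
  have e1 := ev_mono PP
    (F := fun u s => 1 / u ^ (1 / 2 : ℝ) * (c - PsiD ep c U Bl C6 C8 u s)
      - C2 * PsiM ep Bl C6 C8 u s)
    (G := fun _ s => Wf Bl s.A)
    (by
      intro u s' hu huU hs'
      have hu0 : 0 < u := by linarith
      rw [hC2]
      refine Wf_low h0 hu0 (by linarith) ?_ c U hUp.le
      have hr : 100 ≤ 1 / u := by
        rw [le_div_iff₀ hu0]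
        linarith
      exact W_ge hL (by field_simp) hr (by linarith) (by linarith) hs'.inv (by linarith))
    j v s le_rfl hj hs
  rw [EV_real Bl (t0 ep) h (Wf Bl) j v s hs.inv.sub] at e1
  refine le_trans ?_ e1
  have e2 := ev_time Bl (t0 ep) h
    (fun u s => 1 / u ^ (1 / 2 : ℝ) * (c - PsiD ep c U Bl C6 C8 u s)
      - C2 * PsiM ep Bl C6 C8 u s)
    (fun u s => 1 * ((-y) * PsiD ep c U Bl C6 C8 u s + (-C2) * PsiM ep Bl C6 C8 u s)
      + 1 * (fun (_ : ℝ) => y * c) u) j v s (by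
        intro s'
        simp only []
        rw [← hy]
        ring)
  rw [e2]
  have e3 := congrFun (congrFun (ev_lin Bl (t0 ep) h
    (fun u s => (-y) * PsiD ep c U Bl C6 C8 u s + (-C2) * PsiM ep Bl C6 C8 u s)
    (fun u _ => (fun (_ : ℝ) => y * c) u) 1 1 j) v) s
  have e4 := congrFun (congrFun (ev_lin Bl (t0 ep) h
    (fun u s => PsiD ep c U Bl C6 C8 u s) (fun u s => PsiM ep Bl C6 C8 u s) (-y) (-C2) j) v) s
  have e5 := ev_const Bl (t0 ep) h (fun (_ : ℝ) => y * c) j v s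
  rw [e3, e4, e5]
  have e6 : y * EV Bl (t0 ep) h (PsiD ep c U Bl C6 C8) j v s ≤ y * DD :=
    mul_le_mul_of_nonneg_left hD hy0
  have e7 : C2 * EV Bl (t0 ep) h (PsiM ep Bl C6 C8) j v s ≤ C2 * MM :=
    mul_le_mul_of_nonneg_left hM hC20
  have e8 : y * (c - DD) = y * c - y * DD := by ring
  rw [e8]
  linarith

end LE

end

end Vale.Agent.P046.NL
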