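import Vale.Agent.P046.NL.LE

/-!
P046, no-log lower bound: the end of the middle phase, final form.
-/

namespace Vale.Agent.P046.NL

open Finset Vale.Agent.P046

noncomputable section

namespace LF

open MidThm LE

/-- choice of the step length -/
theorem step_choice {t v x E e g1 g2 : ℝ} (hv : 0 < v) (ht : 0 < t) (hx : 0 ≤ x) (hE : 0 ≤ E)
    (he : 0 < e) (hg1 : 0 < g1) (hg2 : 0 < g2) :
    ∃ (m : ℕ) (h : ℝ), 1 ≤ m ∧ 0 < h ∧ h * m = v / 6 ∧ h ≤ g1 ∧ h ≤ g2 ∧ h ≤ v * t / 100 ∧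
      h * x ≤ 1 ∧ v / 2 * (E * h) ≤ e := by
  obtain ⟨δ, hδ0, hδ1, hδ2, hδ3, hδ4, hδ5⟩ : ∃ δ : ℝ, 0 < δ ∧ δ ≤ g1 ∧ δ ≤ g2 ∧
      δ ≤ v * t / 100 ∧ δ * x ≤ 1 ∧ v / 2 * (E * δ) ≤ e := by
    have p1 : 0 < v * t / 100 := by positivity
    obtain ⟨y, hy⟩ : ∃ y : ℝ, y = v / 2 * E := ⟨_, rfl⟩
    have p3 : 0 ≤ y := by rw [hy]; positivity
    refine ⟨min (min (min g1 g2) (v * t / 100)) (min (1 / (x + 1)) (e / (y + 1))),
      ?_, ?_, ?_, ?_, ?_, ?_⟩
    · exact lt_min (lt_min (lt_min hg1 hg2) p1) (lt_min (by positivity) (by positivity))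
    · exact (min_le_left _ _).trans ((min_le_left _ _).trans (min_le_left _ _))
    · exact (min_le_left _ _).trans ((min_le_left _ _).trans (min_le_right _ _))
    · exact (min_le_left _ _).trans (min_le_right _ _)
    · calc min (min (min g1 g2) (v * t / 100)) (min (1 / (x + 1)) (e / (y + 1))) * x
          ≤ 1 / (x + 1) * x :=
            mul_le_mul_of_nonneg_right ((min_le_right _ _).trans (min_le_left _ _)) hx
        _ = x / (x + 1) := by ring
        _ ≤ 1 := by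
            rw [div_le_one (by linarith)]
            linarith
    · calc v / 2 * (E * min (min (min g1 g2) (v * t / 100)) (min (1 / (x + 1)) (e / (y + 1))))
          = y * min (min (min g1 g2) (v * t / 100)) (min (1 / (x + 1)) (e / (y + 1))) := by
            rw [hy]; ring
        _ ≤ y * (e / (y + 1)) :=
            mul_le_mul_of_nonneg_left ((min_le_right _ _).trans (min_le_right _ _)) p3
        _ = e * (y / (y + 1)) := by ring
        _ ≤ e * 1 := by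
            refine mul_le_mul_of_nonneg_left ?_ he.le
            rw [div_le_one (by linarith)]
            linarith
        _ = e := mul_one e
  obtain ⟨k, hk⟩ := exists_nat_gt (v / (6 * δ))
  have hk0 : (0 : ℝ) < k := lt_of_le_of_lt (by positivity) hk
  have hh0 : 0 < v / (6 * k) := by positivity
  have hhδ : v / (6 * k) ≤ δ := by
    rw [div_le_iff₀ (by positivity)]
    rw [div_lt_iff₀ (by positivity)] at hk
    linarith
  refine ⟨k, v / (6 * k), by exact_mod_cast hk0, hh0, by field_simp, by linarith, by linarith,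
    by linarith, ?_, ?_⟩
  · exact (mul_le_mul_of_nonneg_right hhδ hx).trans hδ4
  · refine le_trans ?_ hδ5
    exact mul_le_mul_of_nonneg_left (mul_le_mul_of_nonneg_left hhδ hE) (by linarith)

/-- smallness conditions on `U` -/
theorem choose_U {t C2 η u1 : ℝ} (ht : 0 < t) (hC2 : 0 < C2) (hη : 0 < η) (hu1 : 0 < u1) :
    ∃ U : ℝ, 0 < U ∧ 2 * U ≤ u1 ∧ 20 * U ≤ t ∧ 2 * U ≤ 1 / 100 ∧
      (2 * U) ^ (1 / 20 : ℝ) ≤ η / 8 ∧ C2 * U ^ (1 / 2 : ℝ) ≤ η / 8 ∧ U ≤ η := by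
  refine ⟨min (min (min (u1 / 2) (t / 20)) (1 / 200)) (min (min ((η / 8) ^ 20 / 2)
    ((η / (8 * C2)) ^ 2)) η), by positivity, ?_, ?_, ?_, ?_, ?_, ?_⟩
  · have : min (min (min (u1 / 2) (t / 20)) (1 / 200)) (min (min ((η / 8) ^ 20 / 2)
      ((η / (8 * C2)) ^ 2)) η) ≤ u1 / 2 :=
      (min_le_left _ _).trans ((min_le_left _ _).trans (min_le_left _ _))
    linarith
  · have : min (min (min (u1 / 2) (t / 20)) (1 / 200)) (min (min ((η / 8) ^ 20 / 2)
      ((η / (8 * C2)) ^ 2)) η) ≤ t / 20 :=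
      (min_le_left _ _).trans ((min_le_left _ _).trans (min_le_right _ _))
    linarith
  · have : min (min (min (u1 / 2) (t / 20)) (1 / 200)) (min (min ((η / 8) ^ 20 / 2)
      ((η / (8 * C2)) ^ 2)) η) ≤ 1 / 200 :=
      (min_le_left _ _).trans (min_le_right _ _)
    linarith
  · have h1 : 2 * min (min (min (u1 / 2) (t / 20)) (1 / 200)) (min (min ((η / 8) ^ 20 / 2)
      ((η / (8 * C2)) ^ 2)) η) ≤ (η / 8) ^ 20 := by
      have : min (min (min (u1 / 2) (t / 20)) (1 / 200)) (min (min ((η / 8) ^ 20 / 2)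
        ((η / (8 * C2)) ^ 2)) η) ≤ (η / 8) ^ 20 / 2 :=
        (min_le_right _ _).trans ((min_le_left _ _).trans (min_le_left _ _))
      linarith
    calc (2 * min (min (min (u1 / 2) (t / 20)) (1 / 200)) (min (min ((η / 8) ^ 20 / 2)
      ((η / (8 * C2)) ^ 2)) η)) ^ (1 / 20 : ℝ) ≤ ((η / 8) ^ 20) ^ (1 / 20 : ℝ) :=
          Real.rpow_le_rpow (by positivity) h1 (by norm_num)
      _ = η / 8 := by
          rw [← Real.rpow_natCast, ← Real.rpow_mul (by positivity)]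
          norm_num
  · have h1 : min (min (min (u1 / 2) (t / 20)) (1 / 200)) (min (min ((η / 8) ^ 20 / 2)
      ((η / (8 * C2)) ^ 2)) η) ≤ (η / (8 * C2)) ^ 2 :=
      (min_le_right _ _).trans ((min_le_left _ _).trans (min_le_right _ _))
    have h2 : (min (min (min (u1 / 2) (t / 20)) (1 / 200)) (min (min ((η / 8) ^ 20 / 2)
      ((η / (8 * C2)) ^ 2)) η)) ^ (1 / 2 : ℝ) ≤ η / (8 * C2) := by
      calc _ ≤ ((η / (8 * C2)) ^ 2) ^ (1 / 2 : ℝ) :=
            Real.rpow_le_rpow (by positivity) h1 (by norm_num)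
        _ = η / (8 * C2) := by
            rw [← Real.rpow_natCast, ← Real.rpow_mul (by positivity)]
            norm_num
    calc C2 * _ ≤ C2 * (η / (8 * C2)) := mul_le_mul_of_nonneg_left h2 hC2.le
      _ = η / 8 := by field_simp
  · exact (min_le_right _ _).trans (min_le_right _ _)

end LF

open LF LE MidThm in
/-- [LOWEND] -/
theorem low_end (ep : ℝ) (h0 : 0 < ep) (hep : ep ≤ 1 / 100) (η Umax : ℝ) (hη : 0 < η)
    (hη1 : η ≤ 1) (hUm : 0 < Umax) :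
    ∃ U κ Mmin : ℝ, 0 < U ∧ U ≤ η ∧ U ≤ Umax ∧ 0 < κ ∧
    ∀ (α : Type) [DecidableEq α] (Bl : Finset (Finset α)) (C6 C8 : Finset (Finset (Finset α))),
    Sys Bl C6 C8 → NP Bl → Mmin ≤ (Bl.card : ℝ) → ∀ s, GS Bl (t0 ep) (2 * t0 ep) U s →
      κ * (7 / 10 * (U ^ (1 / 2 : ℝ) * Q s) - 2 - η * PsiM ep Bl C6 C8 U s) ≤
        run Bl (fun A => (A.card : ℝ)) s.A.card s.A := by
  obtain ⟨ua, ha0, ha1, hmc⟩ := mid_core ep h0 hep
  obtain ⟨ub, hb0, hb1, hmf⟩ := fix_mid ep h0 hep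
  obtain ⟨uc, hc0', hc1, hdc⟩ := d_core_of ep h0 hep (mid_core_strong ep h0 hep)
  obtain ⟨ud, hd0, hd1, hdf⟩ := d_fix ep h0 hep
  obtain ⟨c0, hc0, hloc⟩ := loc
  have ht : 0 < t0 ep := by unfold t0; positivity
  have ht1 : t0 ep ≤ 1 / 10000 := FIXM.t0_le h0 hep
  obtain ⟨C2, hC2⟩ : ∃ C2 : ℝ, C2 = 4 + 3 * (ep / (400 * t0 ep ^ 4)) := ⟨_, rfl⟩
  have hC20 : 0 < C2 := by rw [hC2]; positivity
  -- half of `psiM_lower`: `U ^ (ep / 4) ≤ 1 / 2`
  obtain ⟨ue, he0, he1⟩ : ∃ ue : ℝ, 0 < ue ∧ ∀ u, 0 < u → u ≤ ue → u ^ (ep / 4 : ℝ) ≤ 1 / 2 := by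
    refine ⟨(1 / 2) ^ (4 / ep : ℝ), by positivity, fun u hu hue => ?_⟩
    calc u ^ (ep / 4 : ℝ) ≤ ((1 / 2 : ℝ) ^ (4 / ep : ℝ)) ^ (ep / 4 : ℝ) :=
          Real.rpow_le_rpow hu.le hue (by positivity)
      _ = 1 / 2 := by
          rw [← Real.rpow_mul (by norm_num)]
          have : 4 / ep * (ep / 4) = 1 := by field_simp
          rw [this, Real.rpow_one]
  obtain ⟨U, hU0, hU1, hU2, hU3, hU4, hU5, hU6⟩ := choose_U (t := t0 ep) (C2 := C2) (η := η)
    (u1 := min (min (min ua ub) (min uc ud)) (min ue Umax)) ht hC20 hη (by positivity)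
  have hUa : 2 * U ≤ ua := hU1.trans ((min_le_left _ _).trans ((min_le_left _ _).trans
    (min_le_left _ _)))
  have hUb : 2 * U ≤ ub := hU1.trans ((min_le_left _ _).trans ((min_le_left _ _).trans
    (min_le_right _ _)))
  have hUc : 2 * U ≤ uc := hU1.trans ((min_le_left _ _).trans ((min_le_right _ _).trans
    (min_le_left _ _)))
  have hUd : 2 * U ≤ ud := hU1.trans ((min_le_left _ _).trans ((min_le_right _ _).trans
    (min_le_right _ _)))
  have hUe : U ≤ ue := by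
    have : 2 * U ≤ ue := hU1.trans ((min_le_right _ _).trans (min_le_left _ _))
    linarith
  have hUM : U ≤ Umax := by
    have : 2 * U ≤ Umax := hU1.trans ((min_le_right _ _).trans (min_le_right _ _))
    linarith
  obtain ⟨x, hx⟩ : ∃ x : ℝ, x = U ^ (1 / 2 : ℝ) := ⟨_, rfl⟩
  have hx0 : 0 < x := by rw [hx]; positivity
  have hx2 : x ^ 2 = U := by
    rw [hx, ← Real.rpow_natCast, ← Real.rpow_mul hU0.le]
    norm_num
  obtain ⟨D, hD⟩ : ∃ D : ℝ, D = 192 / (η * U) := ⟨_, rfl⟩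
  have hD2 : 2 ≤ D := by
    rw [hD, le_div_iff₀ (by positivity)]
    have : η * U ≤ 1 * 1 := mul_le_mul hη1 (by linarith) hU0.le (by norm_num)
    linarith
  have hD0 : 0 < D := by linarith
  have hsD : 0 < Real.sqrt D := Real.sqrt_pos.2 hD0
  obtain ⟨R, hR⟩ : ∃ R : ℝ, R = 1 + 600 * 432 * (8 * Real.sqrt D) / (c0 * U ^ 3 * η) := ⟨_, rfl⟩
  have hRq : 0 < 600 * 432 * (8 * Real.sqrt D) / (c0 * U ^ 3 * η) := by positivity
  have hR1 : 1 ≤ R := by linarith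
  have hR0 : 0 < R := by linarith
  obtain ⟨kk, hkk⟩ : ∃ kk : ℝ, kk = (8 + 90 * R) * x * Real.sqrt D / c0 := ⟨_, rfl⟩
  have hkk0 : 0 < kk := by rw [hkk]; positivity
  refine ⟨U, 1 / kk, 100 * D ^ 2, hU0, hU6, hUM, by positivity, ?_⟩
  intro α _ Bl C6 C8 hS hNP hMm s hs
  obtain ⟨F, hF⟩ : ∃ F : ℝ, F = run Bl (fun A => (A.card : ℝ)) s.A.card s.A := ⟨_, rfl⟩
  obtain ⟨M, hM⟩ : ∃ M : ℝ, M = PsiM ep Bl C6 C8 U s := ⟨_, rfl⟩
  rw [← hF, ← hM, ← hx]
  obtain ⟨q, hq⟩ : ∃ q : ℝ, q = x * Q s := ⟨_, rfl⟩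
  rw [← hq]
  have hQ0 : 0 ≤ Q s := Nat.cast_nonneg _
  have hq0 : 0 ≤ q := by rw [hq]; positivity
  have hM0 : 0 ≤ M := by rw [hM]; exact (psiM_parts h0 Bl C6 C8 hU0 (by linarith) s).2.2
  rw [one_div, inv_mul_le_iff₀ hkk0]
  apply le_of_forall_pos_le_add
  intro ε hε
  obtain ⟨e, he, hee, heε⟩ : ∃ e : ℝ, 0 < e ∧ e ≤ 1 ∧ 2 * e ≤ ε :=
    ⟨min (ε / 2) 1, by positivity, min_le_right _ _, by
      have := min_le_left (ε / 2) 1
      linarith⟩
  obtain ⟨E1, g1, hE1, hg1, core1⟩ := hmc α Bl C6 C8 hS U (s.A ∪ s.B) hU0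
  obtain ⟨E2, g2, hE2, hg2, core2⟩ := hdc α Bl C6 C8 hS U (2 * U) q (s.A ∪ s.B) hU0 hUc
  obtain ⟨m, h, hm1, hh0, hhm, hhg1, hhg2, hht, hhx, hhe⟩ := step_choice (t := t0 ep) (v := U)
    (x := (Bl.card : ℝ) * (1 + 3 * (1 + 2 * t0 ep) / U)) (E := E1 + E2) (e := e) hU0 ht
    (by positivity) (by positivity) he hg1 hg2
  have hhB : h * (Bl.card : ℝ) ≤ 1 := by
    refine le_trans ?_ hhx
    refine mul_le_mul_of_nonneg_left ?_ hh0.le
    have : 0 ≤ (Bl.card : ℝ) * (3 * (1 + 2 * t0 ep) / U) := by positivity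
    have e1 : (Bl.card : ℝ) * (1 + 3 * (1 + 2 * t0 ep) / U) =
      (Bl.card : ℝ) + (Bl.card : ℝ) * (3 * (1 + 2 * t0 ep) / U) := by ring
    linarith
  have PP : Prm Bl (t0 ep) (2 * t0 ep) h U (2 * U) := by
    refine ⟨hS.lin, ht.le, by linarith, hh0.le, hU0, ?_, by linarith, by linarith, ?_⟩
    · have q1 : 2 * h * (1 + t0 ep) ≤ 2 * h * 2 :=
        mul_le_mul_of_nonneg_left (by linarith) (by linarith)
      have q2 : (2 * t0 ep - t0 ep) * U = U * t0 ep := by ring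
      have q3 : 0 < U * t0 ep := by positivity
      rw [q2]
      linarith
    · calc h * (Bl.card : ℝ) * (1 + 3 * (1 + 2 * t0 ep) / U)
          = h * ((Bl.card : ℝ) * (1 + 3 * (1 + 2 * t0 ep) / U)) := by ring
        _ ≤ 1 := hhx
  obtain ⟨j, hj1, hj2, hw1, hw3⟩ := LW.windows_of Bl h hh0 (cal hS.lin hh0.le hhB) s.A 0 m hm1
    (s.A.card : ℝ) (le_of_eq rfl)
  have hj2' : (j : ℝ) ≤ 3 * m := by
    have : j ≤ 3 * m := by omega
    exact_mod_cast this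
  have hjh : 2 * h * j ≤ U := by
    calc 2 * h * j ≤ 2 * h * (3 * m) := by gcongr
      _ = 6 * (h * m) := by ring
      _ = U := by rw [hhm]; ring
  have hjh0 : 0 ≤ 2 * h * (j : ℝ) := by positivity
  have hA1 : s.A ⊆ s.A ∪ s.B := subset_union_left
  have hB1 : s.B ⊆ s.A ∪ s.B := subset_union_right
  have s1 := ev_sup hS.lin ht (by linarith) hh0 PP hht (by linarith) (s.A ∪ s.B)
    (PsiM ep Bl C6 C8) (E := E1 * h ^ 2)
    (fun u hu hu' s' hsB hsA hI => core1 h u hh0 hhg1 hu (by linarith) s' hsB hsA hI)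
    (fun u hu hu' s' hI => hmf α Bl C6 C8 hS u hu (by linarith) s' hI)
    j U s le_rfl (by linarith) hs hA1 hB1
  have s2 := ev_sup hS.lin ht (by linarith) hh0 PP hht (by linarith) (s.A ∪ s.B)
    (PsiD ep q (2 * U) Bl C6 C8) (E := E2 * h ^ 2)
    (fun u hu hu' s' hsB hsA hI => core2 h u hh0 hhg2 hu hu' s' hsB hsA hI)
    (fun u hu hu' s' hI => hdf α Bl C6 C8 hS (2 * U) u q hu hu' hUd s' hI)
    j U s le_rfl (by linarith) hs hA1 hB1
  have hjE : ∀ E, 0 ≤ E → E ≤ E1 + E2 → (j : ℝ) * (E * h ^ 2) ≤ e := by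
    intro E hE hEE
    calc (j : ℝ) * (E * h ^ 2) = (2 * h * j) / 2 * (E * h) := by ring
      _ ≤ U / 2 * (E * h) := mul_le_mul_of_nonneg_right (by linarith) (by positivity)
      _ ≤ U / 2 * ((E1 + E2) * h) := by
          refine mul_le_mul_of_nonneg_left ?_ (by linarith)
          exact mul_le_mul_of_nonneg_right hEE hh0.le
      _ ≤ e := hhe
  have s3 : EV Bl (t0 ep) h (PsiM ep Bl C6 C8) j U s ≤ M + e := by
    have := hjE E1 hE1 (by linarith)
    rw [hM]; linarith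
  obtain ⟨a, ha⟩ : ∃ a : ℝ, a = (2 * U) ^ (1 / 20 : ℝ) := ⟨_, rfl⟩
  have s4 : EV Bl (t0 ep) h (PsiD ep q (2 * U) Bl C6 C8) j U s ≤ 1 + a * M + e := by
    have h5 := hjE E2 hE2 (by linarith)
    have h6 : PsiD ep q (2 * U) Bl C6 C8 U s = 1 + a * M := by
      unfold PsiD
      rw [← hx, ← hq, ← hM, ← ha, sub_self]
      norm_num
    rw [h6] at s2
    linarith
  have s5 := RE_Wf_ge h0 hep hS.lin hU0 hU3 hh0 PP hs j (by linarith) _ _ s4 s3
  rw [← Real.sqrt_eq_rpow, ← hC2] at s5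
  have s6 := loc_RE hS.lin hD2 hR1 hc0 (fun A => hloc α Bl A D R hD2 hR1 hMm hS.lin hNP)
    hh0.le hhB j s.A
  rw [← hF] at s6
  have hAc : (s.A.card : ℝ) ≤ 2 / x * M := by
    have h7 := psiM_lower h0 Bl C6 C8 hU0 (by linarith) s
    rw [← hM] at h7
    have h8 : U ^ (1 / 2 + ep / 4 : ℝ) = x * U ^ (ep / 4 : ℝ) := by
      rw [Real.rpow_add hU0, hx]
    have h9 := he1 U hU0 hUe
    rw [h8, ← hx] at h7
    have h10 : x / 2 * (s.A.card : ℝ) ≤ M := by
      refine le_trans (mul_le_mul_of_nonneg_right ?_ (Nat.cast_nonneg _)) h7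
      have := mul_le_mul_of_nonneg_left h9 hx0.le
      linarith
    have h11 : 2 / x * M = M / (x / 2) := by field_simp
    rw [h11, le_div_iff₀ (by positivity)]
    linarith
  have hfin := arith (F := F) (a := a) (u := U + 2 * h * j) hc0 hU0 hη hM0 he.le hee hq0 hR1
    hx2 hx0 hD hD2 (by linarith) hC20.le (by rw [hx]; exact hU5) (by rw [ha]; positivity)
    (by rw [ha]; exact hU4) (by linarith) (by linarith) s6 (by rw [← hhm]; exact hw1)
    (by rw [← hhm]; exact hw3) hAc s5 hη1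
  rw [← hkk] at hfin
  linarith

end

end Vale.Agent.P046.NL
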