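import Vale.Agent.P046.Kn

/-!
P046 (no-log): lower bound for the adjacency form from the codegrees, and the corresponding
lower bound for the block form.
-/

namespace Vale.Agent.P046

open Finset

noncomputable section

section general

variable {ι : Type} [Fintype ι]

/-- A symmetric matrix which is small on the vectors with zero sum and has positive total sum is
bounded below. -/
theorem quad_lower_aux (a : ι → ι → ℝ) (hs : ∀ u w, a u w = a w u) (K : ℝ) (hK0 : 0 ≤ K)
    (hK : ∀ v : ι → ℝ, ∑ u, v u = 0 → ∑ u, (∑ w, a u w * v w) ^ 2 ≤ K * ∑ u, v u ^ 2)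
    (hM : 0 < ∑ u, ∑ w, a u w) (v : ι → ℝ) :
    -(Real.sqrt K + (Fintype.card ι : ℝ) * K / (∑ u, ∑ w, a u w)) * ∑ u, v u ^ 2 ≤
      ∑ u, ∑ w, a u w * (v u * v w) := by
  classical
  set M : ℝ := ∑ u, ∑ w, a u w with hMdef
  set N : ℝ := (Fintype.card ι : ℝ) with hN
  have hcard : 0 < Fintype.card ι := by
    rcases isEmpty_or_nonempty ι with h | h
    · simp [hMdef] at hM
    · exact Fintype.card_pos
  have hNpos : 0 < N := by rw [hN]; exact_mod_cast hcard
  set S : ℝ := ∑ u, v u with hS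
  set c : ℝ := S / N with hc
  set w : ι → ℝ := fun u => v u - c with hw
  set μ : ℝ := M / N with hμ
  set d : ι → ℝ := fun u => (∑ x, a u x) - μ with hd
  have hw0 : ∑ u, w u = 0 := by
    simp only [hw, sum_sub_distrib, sum_const, card_univ, nsmul_eq_mul]
    rw [← hS, hc, ← hN]
    field_simp
    ring
  have hd0 : ∑ u, d u = 0 := by
    simp only [hd, sum_sub_distrib, sum_const, card_univ, nsmul_eq_mul]
    rw [← hMdef, hμ, ← hN]
    field_simp
    ring
  -- the degree vector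
  have hdsq : ∑ u, d u ^ 2 = ∑ u, ∑ x, a u x * d x := by
    have h1 : ∑ u, d u ^ 2 = ∑ u, d u * (∑ x, a u x) := by
      have h2 : ∑ u, d u * (∑ x, a u x) = ∑ u, (d u ^ 2 + μ * d u) := by
        refine sum_congr rfl fun u _ => ?_
        have : (∑ x, a u x) = d u + μ := by simp only [hd]; ring
        rw [this]
        ring
      rw [h2, sum_add_distrib, ← mul_sum, hd0]
      ring
    rw [h1]
    simp_rw [mul_sum]
    rw [sum_comm]
    refine sum_congr rfl fun u _ => sum_congr rfl fun x _ => ?_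
    rw [hs x u]
    ring
  have hdK : ∑ u, d u ^ 2 ≤ N * K := by
    have h1 : (∑ u, ∑ x, a u x * d x) ^ 2 ≤ N * ∑ u, (∑ x, a u x * d x) ^ 2 := by
      have := sq_sum_le_card_mul_sum_sq (s := (univ : Finset ι))
        (f := fun u => ∑ x, a u x * d x)
      rw [card_univ] at this
      exact this
    have h2 := hK d hd0
    have h3 : (∑ u, d u ^ 2) ^ 2 ≤ (N * K) * ∑ u, d u ^ 2 := by
      calc (∑ u, d u ^ 2) ^ 2 = (∑ u, ∑ x, a u x * d x) ^ 2 := by rw [hdsq]
        _ ≤ N * ∑ u, (∑ x, a u x * d x) ^ 2 := h1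
        _ ≤ N * (K * ∑ u, d u ^ 2) := mul_le_mul_of_nonneg_left h2 hNpos.le
        _ = (N * K) * ∑ u, d u ^ 2 := by ring
    have h4 : 0 ≤ ∑ u, d u ^ 2 := sum_nonneg fun u _ => sq_nonneg _
    have h6 : 0 ≤ N * K := mul_nonneg hNpos.le hK0
    rcases h4.eq_or_lt with h5 | h5
    · rw [← h5]
      exact h6
    · nlinarith
  -- expansion
  have hexp : ∑ u, ∑ x, a u x * (v u * v x) =
      c ^ 2 * M + 2 * c * (∑ u, w u * d u) + ∑ u, ∑ x, a u x * (w u * w x) := by
    have h1 : ∀ u x, a u x * (v u * v x) = c ^ 2 * a u x + c * (w u * a u x) +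
        c * (w x * a x u) + a u x * (w u * w x) := by
      intro u x
      have h2 : v u = w u + c := by simp only [hw]; ring
      have h3 : v x = w x + c := by simp only [hw]; ring
      rw [h2, h3, hs x u]
      ring
    simp_rw [h1, sum_add_distrib]
    have h4 : ∑ u, ∑ x, c ^ 2 * a u x = c ^ 2 * M := by
      simp_rw [← mul_sum]
      rw [hMdef]
    have h5 : ∑ u, ∑ x, c * (w u * a u x) = c * ∑ u, w u * d u := by
      simp_rw [← mul_sum]
      congr 1
      have : ∑ u, w u * ∑ x, a u x = ∑ u, (w u * d u + μ * w u) := by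
        refine sum_congr rfl fun u _ => ?_
        have : (∑ x, a u x) = d u + μ := by simp only [hd]; ring
        rw [this]
        ring
      rw [this, sum_add_distrib, ← mul_sum, hw0]
      ring
    have h6 : ∑ u, ∑ x, c * (w x * a x u) = c * ∑ u, w u * d u := by
      rw [sum_comm]
      exact h5
    rw [h4, h5, h6]
    ring
  -- the two parts
  set W2 : ℝ := ∑ u, w u ^ 2 with hW2
  have hW2nn : 0 ≤ W2 := sum_nonneg fun u _ => sq_nonneg _
  have hvW : ∑ u, v u ^ 2 = W2 + N * c ^ 2 := by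
    have h1 : ∀ u, v u ^ 2 = w u ^ 2 + 2 * c * w u + c ^ 2 := by
      intro u
      simp only [hw]
      ring
    simp_rw [h1, sum_add_distrib, ← mul_sum, hw0, sum_const, card_univ, nsmul_eq_mul]
    rw [hW2, hN]
    ring
  have hpartA : -(N * K / M) * W2 ≤ c ^ 2 * M + 2 * c * (∑ u, w u * d u) := by
    have h1 : (∑ u, w u * d u) ^ 2 ≤ W2 * ∑ u, d u ^ 2 :=
      sum_mul_sq_le_sq_mul_sq univ w d
    have h2 : (∑ u, w u * d u) ^ 2 ≤ W2 * (N * K) :=
      h1.trans (mul_le_mul_of_nonneg_left hdK hW2nn)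
    have h3 : 0 ≤ (c * M + ∑ u, w u * d u) ^ 2 := sq_nonneg _
    have h4 : 0 ≤ M * (c ^ 2 * M + 2 * c * (∑ u, w u * d u) + (N * K / M) * W2) := by
      have h5 : M * (c ^ 2 * M + 2 * c * (∑ u, w u * d u) + (N * K / M) * W2) =
          (c * M + ∑ u, w u * d u) ^ 2 + (W2 * (N * K) - (∑ u, w u * d u) ^ 2) := by
        field_simp
        ring
      rw [h5]
      linarith
    have h6 := nonneg_of_mul_nonneg_right h4 hM
    linarith
  have hpartB : -(Real.sqrt K) * W2 ≤ ∑ u, ∑ x, a u x * (w u * w x) := by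
    have h1 : ∑ u, ∑ x, a u x * (w u * w x) = ∑ u, w u * ∑ x, a u x * w x := by
      refine sum_congr rfl fun u _ => ?_
      rw [mul_sum]
      exact sum_congr rfl fun x _ => by ring
    have h2 : (∑ u, w u * ∑ x, a u x * w x) ^ 2 ≤ W2 * ∑ u, (∑ x, a u x * w x) ^ 2 :=
      sum_mul_sq_le_sq_mul_sq univ w _
    have h3 : (∑ u, w u * ∑ x, a u x * w x) ^ 2 ≤ (Real.sqrt K * W2) ^ 2 := by
      calc _ ≤ W2 * ∑ u, (∑ x, a u x * w x) ^ 2 := h2
        _ ≤ W2 * (K * W2) := mul_le_mul_of_nonneg_left (hK w hw0) hW2nn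
        _ = (Real.sqrt K * W2) ^ 2 := by rw [mul_pow, Real.sq_sqrt hK0]; ring
    have h4 := abs_le_of_sq_le_sq h3 (mul_nonneg (Real.sqrt_nonneg _) hW2nn)
    rw [h1]
    linarith [neg_le_of_abs_le (abs_le_of_sq_le_sq h3 (mul_nonneg (Real.sqrt_nonneg _) hW2nn))]
  rw [hexp, hvW]
  have h7 : 0 ≤ (Real.sqrt K + N * K / M) * (N * c ^ 2) := by positivity
  nlinarith

/-- The square of the matrix from the codegrees. -/
theorem codeg_aux (a : ι → ι → ℝ) (ρ R D2 : ℝ) (hρ : 0 ≤ ρ) [DecidableEq ι]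
    (hdeg : ∀ x, ∑ u, a u x * a u x ≤ R)
    (hD : ∑ x, ∑ y, (if x = y then 0 else ((∑ u, a u x * a u y) - ρ) ^ 2) ≤ D2)
    (v : ι → ℝ) (hv : ∑ u, v u = 0) :
    ∑ u, (∑ w, a u w * v w) ^ 2 ≤ (R + Real.sqrt D2) * ∑ u, v u ^ 2 := by
  set cd : ι → ι → ℝ := fun x y => ∑ u, a u x * a u y with hcd
  set e : ι → ι → ℝ := fun x y => if x = y then 0 else (cd x y - ρ) with he
  set V2 : ℝ := ∑ u, v u ^ 2 with hV2
  have hV2nn : 0 ≤ V2 := sum_nonneg fun u _ => sq_nonneg _
  have h1 : ∑ u, (∑ w, a u w * v w) ^ 2 = ∑ x, ∑ y, cd x y * (v x * v y) := by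
    have h2 : ∀ u, (∑ w, a u w * v w) ^ 2 =
        ∑ x, ∑ y, (a u x * a u y) * (v x * v y) := by
      intro u
      rw [sq, sum_mul_sum]
      exact sum_congr rfl fun x _ => sum_congr rfl fun y _ => by ring
    simp_rw [h2]
    rw [sum_comm]
    refine sum_congr rfl fun x _ => ?_
    rw [sum_comm]
    refine sum_congr rfl fun y _ => ?_
    rw [hcd, sum_mul]
  have h3 : ∀ x y, cd x y * (v x * v y) = ρ * (v x * v y) +
      (if x = y then (cd x x - ρ) * v x ^ 2 else 0) + e x y * (v x * v y) := by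
    intro x y
    simp only [he]
    split_ifs with h
    · subst h
      ring
    · ring
  have h4 : ∑ x, ∑ y, ρ * (v x * v y) = 0 := by
    simp_rw [← mul_sum]
    simp [hv]
  have h5 : ∑ x, ∑ y, (if x = y then (cd x x - ρ) * v x ^ 2 else 0) ≤ R * V2 := by
    have : ∀ x, ∑ y, (if x = y then (cd x x - ρ) * v x ^ 2 else 0) = (cd x x - ρ) * v x ^ 2 := by
      intro x
      rw [sum_ite_eq]
      simp
    simp_rw [this]
    rw [hV2, mul_sum]
    refine sum_le_sum fun x _ => ?_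
    have := hdeg x
    have h6 : cd x x - ρ ≤ R := by
      simp only [hcd]
      linarith
    exact mul_le_mul_of_nonneg_right h6 (sq_nonneg _)
  have h6 : ∑ x, ∑ y, e x y * (v x * v y) ≤ Real.sqrt D2 * V2 := by
    have h7 : (∑ z : ι × ι, e z.1 z.2 * (v z.1 * v z.2)) ^ 2 ≤
        (∑ z : ι × ι, e z.1 z.2 ^ 2) * ∑ z : ι × ι, (v z.1 * v z.2) ^ 2 :=
      sum_mul_sq_le_sq_mul_sq univ _ _
    have h8 : ∑ z : ι × ι, e z.1 z.2 ^ 2 ≤ D2 := by
      rw [Fintype.sum_prod_type]
      refine le_trans (le_of_eq ?_) hD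
      refine sum_congr rfl fun x _ => sum_congr rfl fun y _ => ?_
      simp only [he]
      split_ifs with h
      · ring
      · rfl
    have h9 : ∑ z : ι × ι, (v z.1 * v z.2) ^ 2 = V2 ^ 2 := by
      rw [Fintype.sum_prod_type, hV2, sq, sum_mul_sum]
      exact sum_congr rfl fun x _ => sum_congr rfl fun y _ => by ring
    have hD0 : 0 ≤ D2 := (sum_nonneg fun z _ => sq_nonneg _).trans h8
    have h10 : (∑ z : ι × ι, e z.1 z.2 * (v z.1 * v z.2)) ^ 2 ≤ (Real.sqrt D2 * V2) ^ 2 := by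
      rw [mul_pow, Real.sq_sqrt hD0, ← h9]
      exact h7.trans (mul_le_mul_of_nonneg_right h8 (sum_nonneg fun z _ => sq_nonneg _))
    have h11 := abs_le_of_sq_le_sq h10 (mul_nonneg (Real.sqrt_nonneg _) hV2nn)
    rw [Fintype.sum_prod_type] at h11
    exact le_of_abs_le h11
  rw [h1]
  simp_rw [h3, sum_add_distrib]
  rw [h4]
  linarith

end general

end

end Vale.Agent.P046
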