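import Vale.Agent.P046.NL.MidAux
import Vale.Agent.P046.NL.NG
import Vale.Agent.P046.NL.VG
import Vale.Agent.P046.NL.CVX
import Vale.Agent.P046.NL.TSB
import Vale.Agent.P046.NL.PHG
import Vale.Agent.P046.NL.QG
import Vale.Agent.P046.NL.S24G
import Vale.Agent.P046.NL.BDS
import Vale.Agent.P046.NL.TERM

/-! P046 no-log, row MIDCORE: time step and generator of the functional of the middle phase
(form with the rows SBF, GLIN, SCALM as hypotheses; see MIDCORE.lean). -/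

namespace Vale.Agent.P046.NL

open Finset Vale.Agent.P046

noncomputable section

variable {α : Type} [DecidableEq α]

namespace MC

/-- the conditions on a state and a time step -/
structure Cnd (ep umin : ℝ) (Bl : Finset (Finset α)) (A₀ : Finset α) (u h : ℝ) (s : St α) :
    Prop where
  hh : 0 < h
  hh1 : h ≤ umin / 8
  hu : umin ≤ u
  hu1 : u + 2 * h ≤ 1 / 100
  hB : s.B ⊆ A₀
  hA : s.A ⊆ A₀
  inv : Inv Bl (2 * t0 ep) (u + 2 * h) s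

theorem t0_pos {ep : ℝ} (h0 : 0 < ep) : 0 < t0 ep := by unfold t0; positivity

theorem t0_le {ep : ℝ} (h0 : 0 < ep) (h1 : ep ≤ 1 / 100) : 2 * t0 ep ≤ 1 / 10 := by
  unfold t0
  have : ep ^ 2 ≤ 1 := by nlinarith
  linarith

section facts

variable {ep umin u h : ℝ} {Bl : Finset (Finset α)} {A₀ : Finset α} {s : St α}

theorem Cnd.vpos (hu0 : 0 < umin) (c : Cnd ep umin Bl A₀ u h s) : 0 < u + 2 * h := by
  have := c.hh; have := c.hu; linarith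

theorem Cnd.r100 (hu0 : 0 < umin) (c : Cnd ep umin Bl A₀ u h s) : 100 ≤ 1 / (u + 2 * h) := by
  rw [le_div_iff₀ (c.vpos hu0)]
  have := c.hu1
  linarith

theorem Cnd.hur (hu0 : 0 < umin) (c : Cnd ep umin Bl A₀ u h s) :
    (u + 2 * h) * (1 / (u + 2 * h)) = 1 := mul_one_div_cancel (c.vpos hu0).ne'

theorem Cnd.rle (hu0 : 0 < umin) (c : Cnd ep umin Bl A₀ u h s) :
    1 / (u + 2 * h) ≤ 1 / umin := by
  apply one_div_le_one_div_of_le hu0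
  have := c.hh; have := c.hu; linarith

end facts

/-- row SBF as a proposition -/
def GenSb : Prop := ∀ (α : Type) [DecidableEq α] (Bl : Finset (Finset α)) (th u r : ℝ) (s : St α),
  Lin3 Bl → u * r = 1 → 100 ≤ r → 0 ≤ th → th ≤ 1 / 10 → Inv Bl th u s →
  ∀ lam mu : ℝ, 0 < lam → 0 < mu →
    gen Bl r (Sb u) s + 2 * dSb u s ≤
      r * ((1 + th + lam) * Sb u s + (20 / lam) * (S 4 u s + th ^ 4 * (u * V s))
        + mu * u * Sb u s + (1600 / mu) * u * Q s + 200 * u * (S 2 u s + u * V s)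
        + 10 * u ^ 4 * P2 s)

/-- row SCALM as a proposition -/
def ScalarMid (ep : ℝ) : Prop := ∃ u1 : ℝ, 0 < u1 ∧ u1 ≤ 1 / 100 ∧
    ∀ u q S2 S4 b U N6 N8 P X1 : ℝ, 0 < u → u ≤ u1 → 0 ≤ q → 0 ≤ S2 → 0 ≤ S4 → 0 ≤ b → 0 ≤ U →
    0 ≤ N6 → 0 ≤ N8 → 0 ≤ P → (∀ mu : ℝ, 0 < mu → 2 * |X1| ≤ mu * q + S2 / mu) →
    u ^ (1 / 2 : ℝ) * (-(q + X1) + q) - u ^ (1 / 2 + ep / 4 : ℝ) * (-(q + X1) + (1 + ep / 2) * q)
    + (-(1 - 2 * t0 ep - 1 / 4) * S2 + 4 * b + 16 * u * (S2 + q))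
    + u ^ (-(1 / 2 + ep) : ℝ) *
      (((1 + 2 * t0 ep + ep / 2) * b + 40 / ep * (S4 + (2 * t0 ep) ^ 4 * U)
          + u ^ (1 / 2 : ℝ) * b + 1600 * u ^ (3 / 2 : ℝ) * q + 200 * u * (S2 + U)
          + (50 * u ^ 2 * q + 207360 * u ^ 4 * (N6 + N8)) - (1 + 2 * ep) * b)
        + 1000 / ep * (-(1 - 6 * t0 ep) * S4 + 4 * t0 ep * b + 80 * u * S2 + 216 * u ^ 3 * q
          - (1 + 2 * ep) * S4)
        + 400 * t0 ep ^ 4 / ep * ((2 - 3 * (1 - 2 * t0 ep) + 2 * u) * U - (1 + 2 * ep) * U))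
    + u ^ (-(1 / 2 + ep / 2) : ℝ) *
      ((1 + ep / 4 + 64 * t0 ep / ep + 28 * u / ep) * P + 2 * U - (1 + ep) * P)
    + u ^ (11 / 4 : ℝ) * (-(6 * (1 - 2 * t0 ep) - 100 * u) * N6 + 11 / 2 * N6)
    + 10 ^ 6 * u ^ (7 / 2 - ep : ℝ) * (-(8 * (1 - 2 * t0 ep) - 100 * u) * N8 + (7 - 2 * ep) * N8)
      ≤ 0

/-- term `Q` -/
theorem term1 {ep umin : ℝ} (hu0 : 0 < umin)
    {Bl : Finset (Finset α)} (hL : Lin3 Bl) (A₀ : Finset α) (a : ℝ)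
    (hTQ : ∃ C : ℝ, 0 ≤ C ∧ TermQ a C) : ∃ E : ℝ, 0 ≤ E ∧
    ∀ u h : ℝ, ∀ s : St α, Cnd ep umin Bl A₀ u h s →
      |(u + 2 * h) ^ a * (Q s + h * gen Bl (1 / (u + 2 * h)) Q s) - (u ^ a * Q s
        + h * (1 / (u + 2 * h)) * ((u + 2 * h) ^ a *
          (-(Q s + ∑ e ∈ s.B, xv (u + 2 * h) s e) + 2 * a * Q s)))| ≤ E * h ^ 2 := by
  obtain ⟨C, hC, hT⟩ := hTQ
  obtain ⟨E, hE, H⟩ := tq hC hT hu0 (show (0 : ℝ) ≤ (A₀.card : ℝ) by positivity)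
  refine ⟨E, hE, fun u h s c => ?_⟩
  have hv := c.vpos hu0
  have hg := gen_Q hL (c.hur hu0) (by positivity : 0 < 1 / (u + 2 * h)) c.inv
  have key := H u h (Q s) (-(Q s + ∑ e ∈ s.B, xv (u + 2 * h) s e)) c.hu c.hh c.hh1 c.hu1
    (Q_nonneg s) (Q_le c.hB)
  have e1 : gen Bl (1 / (u + 2 * h)) Q s =
      1 / (u + 2 * h) * -(Q s + ∑ e ∈ s.B, xv (u + 2 * h) s e) := by
    rw [hg]; ring
  rw [e1]
  exact key

/-- term `S 2` -/
theorem term2 {ep umin : ℝ} (h0 : 0 < ep) (h1 : ep ≤ 1 / 100) (hu0 : 0 < umin)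
    {Bl : Finset (Finset α)} (hL : Lin3 Bl) {A₀ : Finset α} {u h : ℝ} {s : St α}
    (c : Cnd ep umin Bl A₀ u h s) :
    S 2 (u + 2 * h) s + h * gen Bl (1 / (u + 2 * h)) (S 2 (u + 2 * h)) s ≤ S 2 u s
      + h * (1 / (u + 2 * h)) * (-(1 - 2 * t0 ep - 1 / 4) * S 2 (u + 2 * h) s
        + 4 * Sb (u + 2 * h) s + 16 * (u + 2 * h) * (S 2 (u + 2 * h) s + Q s)) := by
  have ht := t0_pos h0
  have hg := gen_S2 hL (c.hur hu0) (c.r100 hu0) (by linarith) (t0_le h0 h1) c.inv (1 / 4)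
    (by norm_num)
  have hts := time_S 2 (by decide) u h s
  have hm := mul_le_mul_of_nonneg_left hg c.hh.le
  have e : (1 : ℝ) / (1 / 4) = 4 := by norm_num
  rw [e] at hm
  have e2 : h * (1 / (u + 2 * h) * (-(1 - 2 * t0 ep - 1 / 4) * S 2 (u + 2 * h) s
      + 4 * Sb (u + 2 * h) s + 16 * (u + 2 * h) * (S 2 (u + 2 * h) s + Q s))) =
      h * (1 / (u + 2 * h)) * (-(1 - 2 * t0 ep - 1 / 4) * S 2 (u + 2 * h) s
        + 4 * Sb (u + 2 * h) s + 16 * (u + 2 * h) * (S 2 (u + 2 * h) s + Q s)) := by ring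
  rw [e2] at hm
  linarith

/-- term `Sb` -/
theorem term3 (hGS : GenSb) {ep umin : ℝ} (h0 : 0 < ep) (h1 : ep ≤ 1 / 100) (hu0 : 0 < umin)
    {Bl : Finset (Finset α)} {C6 C8 : Finset (Finset (Finset α))} (hS : Sys Bl C6 C8)
    (A₀ : Finset α) (a : ℝ) : ∃ E : ℝ, 0 ≤ E ∧
    ∀ u h : ℝ, ∀ s : St α, Cnd ep umin Bl A₀ u h s →
      (u + 2 * h) ^ a * (Sb (u + 2 * h) s + h * gen Bl (1 / (u + 2 * h)) (Sb (u + 2 * h)) s) ≤
        u ^ a * Sb u s + h * (1 / (u + 2 * h)) * ((u + 2 * h) ^ a *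
          (((1 + 2 * t0 ep + ep / 2) * Sb (u + 2 * h) s
          + 40 / ep * (S 4 (u + 2 * h) s + (2 * t0 ep) ^ 4 * ((u + 2 * h) * V s))
          + (u + 2 * h) ^ (1 / 2 : ℝ) * Sb (u + 2 * h) s
          + 1600 * (u + 2 * h) ^ (3 / 2 : ℝ) * Q s
          + 200 * (u + 2 * h) * (S 2 (u + 2 * h) s + (u + 2 * h) * V s)
          + (50 * (u + 2 * h) ^ 2 * Q s + 207360 * (u + 2 * h) ^ 4 * (Nc C6 s + Nc C8 s)))
          + 2 * a * Sb (u + 2 * h) s)) + E * h ^ 2 := by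
  obtain ⟨C, hC, hT⟩ := term_pow a
  have hqm : (0 : ℝ) ≤ (A₀.card : ℝ) := by positivity
  obtain ⟨E, hE, H⟩ := tp (dm := 100 * (1 / umin) ^ 2 * (A₀.card : ℝ))
    (em := 1000 * (1 / umin) ^ 4 * (A₀.card : ℝ)) hC hT hu0 hqm (by positivity) (by positivity)
  refine ⟨E, hE, fun u h s c => ?_⟩
  have ht := t0_pos h0
  have hth := t0_le h0 h1
  have hv := c.vpos hu0
  have hrle := c.rle hu0
  have hr0 : 0 ≤ 1 / (u + 2 * h) := by positivity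
  have hQ := Q_nonneg s
  have hQm := Q_le c.hB
  have hb := bounds hS.lin (c.hur hu0) (c.r100 hu0) (by linarith) hth c.inv
    (dl := 1 / 4) (by norm_num) (by norm_num)
  obtain ⟨b1, b2, b3, b4, b5, b6, b7, b8⟩ := hb
  have hmu : 0 < (u + 2 * h) ^ (-(1 / 2) : ℝ) := Real.rpow_pos_of_pos hv _
  have hg := hGS α Bl (2 * t0 ep) (u + 2 * h) (1 / (u + 2 * h)) s hS.lin (c.hur hu0)
    (c.r100 hu0) (by linarith) hth c.inv (ep / 2)
    ((u + 2 * h) ^ (-(1 / 2) : ℝ)) (by linarith) hmu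
  have hP := hS.cyc (u + 2 * h) (1 / (u + 2 * h)) s (c.hur hu0) (by positivity)
    (inv_mono c.inv hth)
  have hhr1 : h * (1 / (u + 2 * h)) ≤ 1 := by
    rw [mul_one_div, div_le_one hv]
    have := c.hh; have := c.hu; linarith
  have hts := time_Sb hS.lin (by linarith) hth c.hh (c.hur hu0) (c.r100 hu0) hhr1 c.inv
  refine H u h (Sb u s) (Sb (u + 2 * h) s) (dSb (u + 2 * h) s)
    (gen Bl (1 / (u + 2 * h)) (Sb (u + 2 * h)) s) _
    (1000 * h ^ 2 * (1 / (u + 2 * h)) ^ 4 * Q s) c.hu c.hh c.hh1 c.hu1 (Sb_nonneg _ _)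
    (Sb_nonneg _ _) (b3.trans hQm) ?_ (by linarith) (by positivity) ?_ ?_
  · refine b6.trans ?_
    apply mul_le_mul _ hQm hQ (by positivity)
    apply mul_le_mul_of_nonneg_left _ (by norm_num)
    exact pow_le_pow_left₀ hr0 hrle 2
  · have q1 : (1 / (u + 2 * h)) ^ 4 ≤ (1 / umin) ^ 4 := pow_le_pow_left₀ hr0 hrle 4
    have q2 : (1 / (u + 2 * h)) ^ 4 * Q s ≤ (1 / umin) ^ 4 * (A₀.card : ℝ) :=
      mul_le_mul q1 hQm hQ (by positivity)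
    have q3 := mul_le_mul_of_nonneg_left q2 (show 0 ≤ 1000 * h ^ 2 by positivity)
    linarith
  · refine hg.trans ?_
    apply mul_le_mul_of_nonneg_left _ hr0
    have m1 : (u + 2 * h) ^ (-(1 / 2) : ℝ) * (u + 2 * h) = (u + 2 * h) ^ (1 / 2 : ℝ) := by
      rw [← Real.rpow_add_one hv.ne']
      norm_num
    have m2 : 1600 / (u + 2 * h) ^ (-(1 / 2) : ℝ) * (u + 2 * h) =
        1600 * (u + 2 * h) ^ (3 / 2 : ℝ) := by
      rw [Real.rpow_neg hv.le, div_inv_eq_mul, mul_assoc, ← Real.rpow_add_one hv.ne']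
      norm_num
    have m3 : 20 / (ep / 2) = 40 / ep := by
      field_simp
      norm_num
    rw [m1, m2, m3]
    have m4 := mul_le_mul_of_nonneg_left hP (show 0 ≤ 10 * (u + 2 * h) ^ 4 by positivity)
    have m5 : 10 * (u + 2 * h) ^ 4 * (5 * (1 / (u + 2 * h)) ^ 2 * Q s
        + 20736 * (Nc C6 s + Nc C8 s)) =
        50 * (u + 2 * h) ^ 2 * Q s + 207360 * (u + 2 * h) ^ 4 * (Nc C6 s + Nc C8 s) := by
      field_simp
      ring
    rw [m5] at m4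
    linarith

/-- term `S 4` -/
theorem term4 {ep umin : ℝ} (h0 : 0 < ep) (h1 : ep ≤ 1 / 100) (hu0 : 0 < umin)
    {Bl : Finset (Finset α)} (hL : Lin3 Bl) (A₀ : Finset α) (a : ℝ) : ∃ E : ℝ, 0 ≤ E ∧
    ∀ u h : ℝ, ∀ s : St α, Cnd ep umin Bl A₀ u h s →
      (u + 2 * h) ^ a * (S 4 (u + 2 * h) s + h * gen Bl (1 / (u + 2 * h)) (S 4 (u + 2 * h)) s) ≤
        u ^ a * S 4 u s + h * (1 / (u + 2 * h)) * ((u + 2 * h) ^ a *
          ((-(1 - 6 * t0 ep) * S 4 (u + 2 * h) s + 4 * t0 ep * Sb (u + 2 * h) s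
            + 80 * (u + 2 * h) * S 2 (u + 2 * h) s + 216 * (u + 2 * h) ^ 3 * Q s)
          + 2 * a * S 4 (u + 2 * h) s)) + E * h ^ 2 := by
  obtain ⟨C, hC, hT⟩ := term_pow a
  have hqm : (0 : ℝ) ≤ (A₀.card : ℝ) := by positivity
  obtain ⟨E, hE, H⟩ := tp (dm := 10 * (1 / umin) * (A₀.card : ℝ))
    (em := 0) hC hT hu0 hqm (by positivity) le_rfl
  refine ⟨E, hE, fun u h s c => ?_⟩
  have ht := t0_pos h0
  have hth := t0_le h0 h1
  have hv := c.vpos hu0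
  have hrle := c.rle hu0
  have hr0 : 0 ≤ 1 / (u + 2 * h) := by positivity
  have hQ := Q_nonneg s
  have hQm := Q_le c.hB
  have hb := bounds hL (c.hur hu0) (c.r100 hu0) (by linarith) hth c.inv
    (dl := 1 / 4) (by norm_num) (by norm_num)
  obtain ⟨b1, b2, b3, b4, b5, b6, b7, b8⟩ := hb
  have hg := gen_S4 hL (c.hur hu0) (c.r100 hu0) (by linarith) hth c.inv
  have hts := time_S 4 (by decide) u h s
  refine H u h (S 4 u s) (S 4 (u + 2 * h) s) (dS 4 (u + 2 * h) s)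
    (gen Bl (1 / (u + 2 * h)) (S 4 (u + 2 * h)) s) _
    0 c.hu c.hh c.hh1 c.hu1 (S_nonneg (by decide) _ _)
    (S_nonneg (by decide) _ _) (b2.trans hQm) ?_ (by linarith) le_rfl (by simp) ?_
  · refine b5.trans ?_
    apply mul_le_mul _ hQm hQ (by positivity)
    exact mul_le_mul_of_nonneg_left hrle (by norm_num)
  · refine hg.trans ?_
    apply mul_le_mul_of_nonneg_left _ hr0
    linarith

/-- term `u V` -/
theorem term5 {ep umin : ℝ} (h0 : 0 < ep) (h1 : ep ≤ 1 / 100) (hu0 : 0 < umin)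
    {Bl : Finset (Finset α)} (hL : Lin3 Bl) (A₀ : Finset α) (a : ℝ) : ∃ E : ℝ, 0 ≤ E ∧
    ∀ u h : ℝ, ∀ s : St α, Cnd ep umin Bl A₀ u h s →
      (u + 2 * h) ^ a * ((u + 2 * h) * V s + h * ((u + 2 * h) * gen Bl (1 / (u + 2 * h)) V s)) ≤
        u ^ a * (u * V s) + h * (1 / (u + 2 * h)) * ((u + 2 * h) ^ a *
          ((2 - 3 * (1 - 2 * t0 ep) + 2 * (u + 2 * h)) * ((u + 2 * h) * V s)
          + 2 * a * ((u + 2 * h) * V s))) + E * h ^ 2 := by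
  obtain ⟨C, hC, hT⟩ := term_pow a
  have hqm : (0 : ℝ) ≤ 3 * (Bl.card : ℝ) := by positivity
  obtain ⟨E, hE, H⟩ := tp (dm := 3 * (Bl.card : ℝ))
    (em := 0) hC hT hu0 hqm (by positivity) le_rfl
  refine ⟨E, hE, fun u h s c => ?_⟩
  have ht := t0_pos h0
  have hth := t0_le h0 h1
  have hv := c.vpos hu0
  have hr0 : 0 ≤ 1 / (u + 2 * h) := by positivity
  have hV := V_nonneg s
  have hb := bounds hL (c.hur hu0) (c.r100 hu0) (by linarith) hth c.inv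
    (dl := 1 / 4) (by norm_num) (by norm_num)
  obtain ⟨b1, b2, b3, b4, b5, b6, b7, b8⟩ := hb
  have hg := gen_V hL (c.hur hu0) (by positivity : 0 < 1 / (u + 2 * h)) c.inv
  have hupos : 0 < u := by have := c.hu; linarith
  refine H u h (u * V s) ((u + 2 * h) * V s) (V s)
    ((u + 2 * h) * gen Bl (1 / (u + 2 * h)) V s) _
    0 c.hu c.hh c.hh1 c.hu1 (by positivity) (by positivity) ?_ ?_ (by linarith) le_rfl
    (by simp) ?_
  · calc (u + 2 * h) * V s ≤ 1 * V s := by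
          apply mul_le_mul_of_nonneg_right _ hV
          have := c.hu1; linarith
      _ ≤ _ := by rw [one_mul]; exact b7
  · rw [abs_of_nonneg hV]; exact b7
  · have m1 := mul_le_mul_of_nonneg_left hg hv.le
    have m2 : (u + 2 * h) * (-(3 * (1 - 2 * t0 ep) * (1 / (u + 2 * h)) - 2) * V s) =
        -(3 * (1 - 2 * t0 ep)) * V s + 2 * ((u + 2 * h) * V s) := by
      field_simp
      ring
    have m3 : 1 / (u + 2 * h) * ((2 - 3 * (1 - 2 * t0 ep) + 2 * (u + 2 * h))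
        * ((u + 2 * h) * V s)) = (2 - 3 * (1 - 2 * t0 ep) + 2 * (u + 2 * h)) * V s := by
      field_simp
    rw [m3]
    rw [m2] at m1
    linarith

/-- term `Ph` -/
theorem term6 {ep umin : ℝ} (h0 : 0 < ep) (h1 : ep ≤ 1 / 100) (hu0 : 0 < umin)
    {Bl : Finset (Finset α)} (hL : Lin3 Bl) (A₀ : Finset α) (a : ℝ) : ∃ E : ℝ, 0 ≤ E ∧
    ∀ u h : ℝ, ∀ s : St α, Cnd ep umin Bl A₀ u h s →
      (u + 2 * h) ^ a * (Ph Bl (ep / 4) (u + 2 * h) s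
        + h * gen Bl (1 / (u + 2 * h)) (Ph Bl (ep / 4) (u + 2 * h)) s) ≤
        u ^ a * Ph Bl (ep / 4) u s + h * (1 / (u + 2 * h)) * ((u + 2 * h) ^ a *
          (((1 + ep / 4 + 64 * t0 ep / ep + 28 * (u + 2 * h) / ep)
              * Ph Bl (ep / 4) (u + 2 * h) s + 2 * ((u + 2 * h) * V s))
          + 2 * a * Ph Bl (ep / 4) (u + 2 * h) s)) + E * h ^ 2 := by
  obtain ⟨C, hC, hT⟩ := term_pow a
  have hdl : 0 < ep / 4 := by linarith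
  obtain ⟨E, hE, H⟩ := tp
    (Fm := (A₀.card : ℝ) * (1 + (1 / (2 * (ep / 4))) * (Bl.card : ℝ) ^ 2) + 3 * (A₀.card : ℝ))
    (dm := (A₀.card : ℝ) * (Bl.card : ℝ) ^ 2 * 2 / (ep / 4))
    (em := 0) hC hT hu0 (by positivity) (by positivity) le_rfl
  refine ⟨E, hE, fun u h s c => ?_⟩
  have ht := t0_pos h0
  have hth := t0_le h0 h1
  have hv := c.vpos hu0
  have hr0 : 0 ≤ 1 / (u + 2 * h) := by positivity
  have hu1 := c.hu1
  have hb := bounds hL (c.hur hu0) (c.r100 hu0) (by linarith) hth c.inv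
    (dl := ep / 4) hdl (by linarith)
  obtain ⟨b1, b2, b3, b4, b5, b6, b7, b8⟩ := hb
  have ht4 : 4 * (2 * t0 ep) ≤ ep / 4 := by
    unfold t0
    nlinarith
  have hg := gen_Ph hL (c.hur hu0) (c.r100 hu0) (by linarith) c.inv hdl (by linarith) ht4
  have hts := time_Ph Bl hdl u h s
  refine H u h (Ph Bl (ep / 4) u s) (Ph Bl (ep / 4) (u + 2 * h) s)
    (dPh Bl (ep / 4) (u + 2 * h) s)
    (gen Bl (1 / (u + 2 * h)) (Ph Bl (ep / 4) (u + 2 * h)) s) _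
    0 c.hu c.hh c.hh1 c.hu1 (Ph_nonneg _ hdl _ _) (Ph_nonneg _ hdl _ _)
    (Ph_le hdl hv.le (by linarith) c.hA c.hB) ?_ (by linarith) le_rfl (by simp) ?_
  · refine b8.trans ?_
    apply div_le_div_of_nonneg_right _ hdl.le
    have hc1 : (s.A.card : ℝ) ≤ (A₀.card : ℝ) := by exact_mod_cast card_le_card c.hA
    have hc2 : 0 ≤ (Bl.card : ℝ) ^ 2 := by positivity
    apply mul_le_mul (mul_le_mul_of_nonneg_right hc1 hc2) (by linarith) (by linarith)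
      (by positivity)
  · refine hg.trans (le_of_eq ?_)
    field_simp
    ring

/-- term `Nc` -/
theorem term7 {ep umin : ℝ} (h0 : 0 < ep) (h1 : ep ≤ 1 / 100) (hu0 : 0 < umin)
    {Bl : Finset (Finset α)} (hL : Lin3 Bl) (A₀ : Finset α) (C6 : Finset (Finset (Finset α)))
    (m : ℕ) (hC6 : ∀ c ∈ C6, c.card ≤ 4 ∧ m ≤ (c.biUnion id).card) (a : ℝ) : ∃ E : ℝ, 0 ≤ E ∧
    ∀ u h : ℝ, ∀ s : St α, Cnd ep umin Bl A₀ u h s →
      (u + 2 * h) ^ a * (Nc C6 s + h * gen Bl (1 / (u + 2 * h)) (Nc C6) s) ≤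
        u ^ a * Nc C6 s + h * (1 / (u + 2 * h)) * ((u + 2 * h) ^ a *
          (-((m : ℝ) * (1 - 2 * t0 ep) - 100 * (u + 2 * h)) * Nc C6 s
          + 2 * a * Nc C6 s)) + E * h ^ 2 := by
  obtain ⟨C, hC, hT⟩ := term_pow a
  obtain ⟨E, hE, H⟩ := tp (Fm := (C6.card : ℝ)) (dm := 0) (em := 0) hC hT hu0 (by positivity)
    le_rfl le_rfl
  refine ⟨E, hE, fun u h s c => ?_⟩
  have ht := t0_pos h0
  have hth := t0_le h0 h1
  have hv := c.vpos hu0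
  have hr0 : 0 ≤ 1 / (u + 2 * h) := by positivity
  have hg := ng hL c.inv (c.hur hu0) (by positivity : 0 < 1 / (u + 2 * h)) (by linarith) C6 m hC6
  refine H u h (Nc C6 s) (Nc C6 s) 0
    (gen Bl (1 / (u + 2 * h)) (Nc C6) s) _
    0 c.hu c.hh c.hh1 c.hu1 (Nc_nonneg _ _) (Nc_nonneg _ _)
    (Nc_le _ _) (by simp) (by simp) le_rfl (by simp) ?_
  rw [mul_zero, add_zero]
  refine hg.trans (le_of_eq ?_)
  field_simp

/-- the generator of the functional -/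
theorem gen_PsiM (ep : ℝ) (Bl : Finset (Finset α)) (C6 C8 : Finset (Finset (Finset α)))
    (v r : ℝ) (s : St α) :
    gen Bl r (fun s' => PsiM ep Bl C6 C8 v s') s =
      v ^ (1 / 2 : ℝ) * gen Bl r Q s - v ^ (1 / 2 + ep / 4 : ℝ) * gen Bl r Q s
      + gen Bl r (S 2 v) s
      + v ^ (-(1 / 2 + ep) : ℝ) * (gen Bl r (Sb v) s + 1000 / ep * gen Bl r (S 4 v) s
        + 400 * t0 ep ^ 4 / ep * (v * gen Bl r V s))
      + v ^ (-(1 / 2 + ep / 2) : ℝ) * gen Bl r (Ph Bl (ep / 4) v) s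
      + v ^ (11 / 4 : ℝ) * gen Bl r (Nc C6) s
      + 10 ^ 6 * v ^ (7 / 2 - ep : ℝ) * gen Bl r (Nc C8) s := by
  have e : (fun s' => PsiM ep Bl C6 C8 v s') = fun s' : St α =>
      (((((((v ^ (1 / 2 : ℝ) * Q s' + (-(v ^ (1 / 2 + ep / 4 : ℝ))) * Q s') + S 2 v s')
      + v ^ (-(1 / 2 + ep) : ℝ) * Sb v s')
      + (v ^ (-(1 / 2 + ep) : ℝ) * (1000 / ep)) * S 4 v s')
      + (v ^ (-(1 / 2 + ep) : ℝ) * (400 * t0 ep ^ 4 / ep) * v) * V s')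
      + v ^ (-(1 / 2 + ep / 2) : ℝ) * Ph Bl (ep / 4) v s')
      + v ^ (11 / 4 : ℝ) * Nc C6 s')
      + (10 ^ 6 * v ^ (7 / 2 - ep : ℝ)) * Nc C8 s' := by
    funext s'
    unfold PsiM
    ring
  rw [e]
  simp only [g_add, g_smul]
  ring

end MC

open MC

/-- [MIDCORE] time step and generator, before the detachments -/
theorem mid_core_of (hGS : GenSb) (hTQ : ∀ a : ℝ, ∃ C : ℝ, 0 ≤ C ∧ TermQ a C)
    (ep : ℝ) (h0 : 0 < ep) (h1 : ep ≤ 1 / 100) (hSM : ScalarMid ep) : ∃ u1 : ℝ, 0 < u1 ∧ u1 ≤ 1 / 100 ∧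
    ∀ (α : Type) [DecidableEq α] (Bl : Finset (Finset α)) (C6 C8 : Finset (Finset (Finset α))),
    Sys Bl C6 C8 → ∀ (umin : ℝ) (A₀ : Finset α), 0 < umin → ∃ E h1 : ℝ, 0 ≤ E ∧ 0 < h1 ∧
    ∀ h u : ℝ, 0 < h → h ≤ h1 → umin ≤ u → u + 2 * h ≤ u1 → ∀ s : St α, s.B ⊆ A₀ → s.A ⊆ A₀ →
      Inv Bl (2 * t0 ep) (u + 2 * h) s →
      PsiM ep Bl C6 C8 (u + 2 * h) s
        + h * gen Bl (1 / (u + 2 * h)) (fun s' => PsiM ep Bl C6 C8 (u + 2 * h) s') s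
        ≤ PsiM ep Bl C6 C8 u s + E * h ^ 2 := by
  obtain ⟨u1, hu1p, hu1, hsc⟩ := hSM
  refine ⟨u1, hu1p, hu1, ?_⟩
  intro α _ Bl C6 C8 hS umin A₀ hu0
  obtain ⟨E1, hE1, H1⟩ := term1 (ep := ep) hu0 hS.lin A₀ (1 / 2 : ℝ) (hTQ _)
  obtain ⟨E1', hE1', H1'⟩ := term1 (ep := ep) hu0 hS.lin A₀ (1 / 2 + ep / 4 : ℝ) (hTQ _)
  obtain ⟨E3, hE3, H3⟩ := term3 hGS h0 h1 hu0 hS A₀ (-(1 / 2 + ep) : ℝ)
  obtain ⟨E4, hE4, H4⟩ := term4 h0 h1 hu0 hS.lin A₀ (-(1 / 2 + ep) : ℝ)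
  obtain ⟨E5, hE5, H5⟩ := term5 h0 h1 hu0 hS.lin A₀ (-(1 / 2 + ep) : ℝ)
  obtain ⟨E6, hE6, H6⟩ := term6 h0 h1 hu0 hS.lin A₀ (-(1 / 2 + ep / 2) : ℝ)
  obtain ⟨E7, hE7, H7⟩ := term7 h0 h1 hu0 hS.lin A₀ C6 6
    (fun c hc => ⟨(hS.h6 c hc).2.1, (hS.h6 c hc).2.2⟩) (11 / 4 : ℝ)
  obtain ⟨E8, hE8, H8⟩ := term7 h0 h1 hu0 hS.lin A₀ C8 8
    (fun c hc => ⟨(hS.h8 c hc).2.1, (hS.h8 c hc).2.2⟩) (7 / 2 - ep : ℝ)
  have ht := t0_pos h0
  refine ⟨E1 + E1' + E3 + 1000 / ep * E4 + 400 * t0 ep ^ 4 / ep * E5 + E6 + E7 + 10 ^ 6 * E8,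
    umin / 8, by positivity, by positivity, ?_⟩
  intro h u hh hhm hum hu2 s hB hA hI
  have c : Cnd ep umin Bl A₀ u h s := ⟨hh, hhm, hum, by linarith, hB, hA, hI⟩
  have hv := c.vpos hu0
  have k1 := (abs_le.mp (H1 u h s c)).2
  have k1' := (abs_le.mp (H1' u h s c)).1
  have k2 := term2 h0 h1 hu0 hS.lin c
  have k3 := H3 u h s c
  have k4 := H4 u h s c
  have k5 := H5 u h s c
  have k6 := H6 u h s c
  have k7 := H7 u h s c
  have k8 := H8 u h s c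
  have ks := hsc (u + 2 * h) (Q s) (S 2 (u + 2 * h) s) (S 4 (u + 2 * h) s) (Sb (u + 2 * h) s)
    ((u + 2 * h) * V s) (Nc C6 s) (Nc C8 s) (Ph Bl (ep / 4) (u + 2 * h) s)
    (∑ e ∈ s.B, xv (u + 2 * h) s e) hv hu2 (Q_nonneg s) (S_nonneg (by decide) _ _)
    (S_nonneg (by decide) _ _) (Sb_nonneg _ _) (mul_nonneg hv.le (V_nonneg s)) (Nc_nonneg _ _)
    (Nc_nonneg _ _) (Ph_nonneg _ (by linarith) _ _) (fun mu hmu => X1_bound _ s mu hmu)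
  rw [gen_PsiM]
  have hr0 : 0 ≤ h * (1 / (u + 2 * h)) := by positivity
  have ks' := mul_nonpos_of_nonneg_of_nonpos hr0 ks
  have k4' := mul_le_mul_of_nonneg_left k4 (show 0 ≤ 1000 / ep by positivity)
  have k5' := mul_le_mul_of_nonneg_left k5 (show 0 ≤ 400 * t0 ep ^ 4 / ep by positivity)
  have k8' := mul_le_mul_of_nonneg_left k8 (show (0 : ℝ) ≤ 10 ^ 6 by positivity)
  unfold PsiM
  push_cast at k7 k8' ⊢
  linarith

end

end Vale.Agent.P046.NL
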