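import Vale.Agent.P046.NL.Defs3

/-!
P046, no log, row SCALM: the scalar inequality of the middle phase.
-/

namespace Vale.Agent.P046.NL

noncomputable section

namespace ScalM

/-- relations between the powers of `u`: `A = u^(1/2)`, `G = u^(ep/4)`, `D = u^(-(1/2+ep))`,
`E = u^(11/4)`; `g` = bound for `G` -/
structure Rel (ep u A G D E g : ℝ) : Prop where
  u0 : 0 < u
  A0 : 0 < A
  G0 : 0 < G
  D0 : 0 < D
  E0 : 0 < E
  Gg : G ≤ g
  AA : A * A = u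
  DAG : D * A * G ^ 4 = 1
  AG : A ≤ G ^ 20
  DE : D * u ^ 4 ≤ G * E

theorem small (ep g : ℝ) (h0 : 0 < ep) (hg : 0 < g) :
    ∃ u1 : ℝ, 0 < u1 ∧ u1 ≤ 1 / 100 ∧ ∀ u : ℝ, 0 < u → u ≤ u1 → u ^ (ep / 4) ≤ g := by
  refine ⟨min (1 / 100) (g ^ (4 / ep)), ?_, min_le_left _ _, ?_⟩
  · apply lt_min (by norm_num)
    positivity
  · intro u hu hu1
    have h1 : u ≤ g ^ (4 / ep) := hu1.trans (min_le_right _ _)
    have h2 : u ^ (ep / 4) ≤ (g ^ (4 / ep)) ^ (ep / 4) :=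
      Real.rpow_le_rpow hu.le h1 (by positivity)
    rw [← Real.rpow_mul hg.le] at h2
    have h3 : 4 / ep * (ep / 4) = 1 := by field_simp
    rwa [h3, Real.rpow_one] at h2

theorem rel {ep u g : ℝ} (h0 : 0 < ep) (h1 : ep ≤ 1 / 100) (hu : 0 < u) (hu1 : u ≤ 1 / 100)
    (hg : u ^ (ep / 4) ≤ g) :
    Rel ep u (u ^ (1 / 2 : ℝ)) (u ^ (ep / 4)) (u ^ (-(1 / 2 + ep) : ℝ)) (u ^ (11 / 4 : ℝ)) g where
  u0 := hu
  A0 := Real.rpow_pos_of_pos hu _
  G0 := Real.rpow_pos_of_pos hu _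
  D0 := Real.rpow_pos_of_pos hu _
  E0 := Real.rpow_pos_of_pos hu _
  Gg := hg
  AA := by
    rw [← Real.rpow_add hu]; norm_num
  DAG := by
    rw [← Real.rpow_natCast, ← Real.rpow_mul hu.le, ← Real.rpow_add hu, ← Real.rpow_add hu]
    have : -(1 / 2 + ep) + 1 / 2 + ep / 4 * ((4 : ℕ) : ℝ) = 0 := by push_cast; ring
    rw [this, Real.rpow_zero]
  AG := by
    rw [← Real.rpow_natCast, ← Real.rpow_mul hu.le]
    apply Real.rpow_le_rpow_of_exponent_ge hu (by linarith)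
    push_cast
    linarith
  DE := by
    rw [← Real.rpow_natCast u 4, ← Real.rpow_add hu, ← Real.rpow_add hu]
    apply Real.rpow_le_rpow_of_exponent_ge hu (by linarith)
    push_cast
    linarith

variable {ep u A G D E g : ℝ}

/-- basic consequences -/
theorem DA (R : Rel ep u A G D E g) : D * A = 1 / G ^ 4 := by
  have := R.G0
  rw [eq_div_iff (by positivity)]
  exact R.DAG

theorem G1 (R : Rel ep u A G D E g) (hg : g ≤ 1) : G ≤ 1 := R.Gg.trans hg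

theorem AleG (R : Rel ep u A G D E g) (hg : g ≤ 1) : A ≤ G := by
  have h1 := R.G0
  have h2 := G1 R hg
  refine R.AG.trans ?_
  calc G ^ 20 ≤ G ^ 1 := pow_le_pow_of_le_one h1.le h2 (by norm_num)
    _ = G := pow_one G

/-- `D * u ≤ G` -/
theorem DuG (R : Rel ep u A G D E g) (hg : g ≤ 1) : D * u ≤ G := by
  have h1 := R.G0
  have h2 := G1 R hg
  have h3 : D * u = A / G ^ 4 := by
    rw [← R.AA, ← mul_assoc, DA R]; ring
  rw [h3, div_le_iff₀ (by positivity)]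
  refine R.AG.trans ?_
  calc G ^ 20 ≤ G ^ 5 := pow_le_pow_of_le_one h1.le h2 (by norm_num)
    _ = G * G ^ 4 := by ring

theorem uG (R : Rel ep u A G D E g) (hg : g ≤ 1) : u ≤ A * G := by
  rw [← R.AA]
  exact mul_le_mul_of_nonneg_left (AleG R hg) R.A0.le

/-- `D * A * u ≤ A * G ^ 2` -/
theorem DAuG (R : Rel ep u A G D E g) (hg : g ≤ 1) : D * A * u ≤ A * G ^ 2 := by
  have h1 := R.G0
  have hA := R.A0
  have h2 := G1 R hg
  have h3 : D * A * u = A * (A / G ^ 4) := by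
    rw [DA R, ← R.AA]; ring
  rw [h3]
  apply mul_le_mul_of_nonneg_left _ hA.le
  rw [div_le_iff₀ (by positivity)]
  refine R.AG.trans ?_
  calc G ^ 20 ≤ G ^ 6 := pow_le_pow_of_le_one h1.le h2 (by norm_num)
    _ = G ^ 2 * G ^ 4 := by ring

theorem u_le_one (R : Rel ep u A G D E g) (hg : g ≤ 1) : u ≤ G := by
  have h1 := uG R hg
  have h2 := AleG R hg
  have h3 := G1 R hg
  have h4 := R.G0
  have h5 := R.A0
  nlinarith

/-- coefficient of `q` -/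
theorem cq (R : Rel ep u A G D E g) (h0 : 0 < ep) (hg1 : g ≤ 1)
    (hg : g * (1 / 2 + 16 * 1 + 1600 + 50 + 216000 / ep) ≤ ep / 4) :
    -(ep / 2) * (A * G) + 1 / 2 * (A * G ^ 2) + 16 * u
      + D * (1600 * (u * A) + 50 * u ^ 2 + 1000 / ep * (216 * u ^ 3)) ≤ -(ep / 8 * (A * G)) := by
  have hu := R.u0
  have hA := R.A0
  have hG := R.G0
  have hD := R.D0
  have k1 := G1 R hg1
  have k2 := AleG R hg1
  have k3 := DAuG R hg1
  have k4 := u_le_one R hg1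
  have hAG2 : A * G ^ 2 = (A * G) * G := by ring
  have m1 : 16 * u ≤ 16 * (A * G) * 1 * 1 := by nlinarith [uG R hg1]
  have hu1 : u ≤ 1 := k4.trans k1
  -- `16 u = 16 A * A ≤ 16 A G^2`
  have m2 : u ≤ A * G ^ 2 := by
    rw [← R.AA]
    apply mul_le_mul_of_nonneg_left _ hA.le
    refine R.AG.trans ?_
    exact pow_le_pow_of_le_one hG.le k1 (by norm_num)
  have m3 : D * (1600 * (u * A)) ≤ 1600 * (A * G ^ 2) := by
    have : D * (1600 * (u * A)) = 1600 * (D * A * u) := by ring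
    rw [this]; linarith
  have m4 : D * (50 * u ^ 2) ≤ 50 * (A * G ^ 2) := by
    have h5 : D * (50 * u ^ 2) = 50 * ((D * A * u) * A) := by
      rw [← R.AA]; ring
    rw [h5]
    have h6 : (D * A * u) * A ≤ (A * G ^ 2) * 1 :=
      mul_le_mul k3 (k2.trans k1) hA.le (by positivity)
    linarith
  have m5 : D * (1000 / ep * (216 * u ^ 3)) ≤ 216000 / ep * (A * G ^ 2) := by
    have h5 : D * (1000 / ep * (216 * u ^ 3)) = 216000 / ep * ((D * A * u) * (A * u)) := by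
      have : u ^ 3 = u * (A * A) * u := by rw [R.AA]; ring
      rw [this]; ring
    rw [h5]
    apply mul_le_mul_of_nonneg_left _ (by positivity)
    have h6 : (D * A * u) * (A * u) ≤ (A * G ^ 2) * 1 := by
      apply mul_le_mul k3 _ (by positivity) (by positivity)
      have : A * u ≤ 1 * 1 := mul_le_mul (k2.trans k1) hu1 hu.le (by norm_num)
      linarith
    linarith
  have m6 : D * (1600 * (u * A) + 50 * u ^ 2 + 1000 / ep * (216 * u ^ 3))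
      = D * (1600 * (u * A)) + D * (50 * u ^ 2) + D * (1000 / ep * (216 * u ^ 3)) := by ring
  rw [m6]
  have m7 : (A * G ^ 2) * (1 / 2 + 16 * 1 + 1600 + 50 + 216000 / ep) ≤ (A * G) * (ep / 4) := by
    rw [hAG2, mul_assoc]
    apply mul_le_mul_of_nonneg_left _ (by positivity)
    refine le_trans ?_ hg
    apply mul_le_mul_of_nonneg_right R.Gg
    positivity
  have m8 : 0 ≤ (A * G) * (ep / 4) := by positivity
  nlinarith

/-- coefficient of `S2` -/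
theorem cS2 (R : Rel ep u A G D E g) (h0 : 0 < ep) (hg1 : g ≤ 1) {t : ℝ} (ht : t ≤ 1 / 100)
    (hg : g * (1 / 2 + 16 + 200 + 80000 / ep) ≤ 1 / 4) :
    -(1 - 2 * t - 1 / 4) + 1 / 2 * (A / G ^ 2) + 16 * u
      + D * (200 * u + 1000 / ep * (80 * u)) ≤ -(1 / 4) := by
  have hu := R.u0
  have hA := R.A0
  have hG := R.G0
  have hD := R.D0
  have k1 := G1 R hg1
  have k4 := u_le_one R hg1
  have k5 := DuG R hg1
  have m1 : A / G ^ 2 ≤ G := by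
    rw [div_le_iff₀ (by positivity)]
    refine R.AG.trans ?_
    calc G ^ 20 ≤ G ^ 3 := pow_le_pow_of_le_one hG.le k1 (by norm_num)
      _ = G * G ^ 2 := by ring
  have m2 : D * (200 * u + 1000 / ep * (80 * u)) = (200 + 80000 / ep) * (D * u) := by ring
  have m3 : (200 + 80000 / ep) * (D * u) ≤ (200 + 80000 / ep) * G :=
    mul_le_mul_of_nonneg_left k5 (by positivity)
  have m4 : G * (1 / 2 + 16 + 200 + 80000 / ep) ≤ 1 / 4 := by
    refine le_trans ?_ hg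
    exact mul_le_mul_of_nonneg_right R.Gg (by positivity)
  rw [m2]
  nlinarith

/-- coefficient of `b` -/
theorem cb (R : Rel ep u A G D E g) (h0 : 0 < ep) (hg1 : g ≤ ep / 10) (hg2 : g ≤ 1) {t : ℝ}
    (ht : t = ep ^ 2 / 10000) (h1 : ep ≤ 1 / 100) :
    4 + D * ((1 + 2 * t + ep / 2) + A - (1 + 2 * ep) + 1000 / ep * (4 * t)) ≤ 0 := by
  have hA := R.A0
  have hG := R.G0
  have hD := R.D0
  have k1 := G1 R hg2
  have k2 := AleG R hg2
  have m1 : 1000 / ep * (4 * t) = 2 / 5 * ep := by rw [ht]; field_simp; norm_num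
  have m2 : (1 + 2 * t + ep / 2) + A - (1 + 2 * ep) + 1000 / ep * (4 * t) ≤ -(ep / 2) := by
    rw [m1]
    have : A ≤ ep / 10 := k2.trans (R.Gg.trans hg1)
    have : t ≤ ep / 1000000 := by rw [ht]; nlinarith
    linarith
  have m3 : 8 ≤ D * ep := by
    -- `D = 1/(A G^4) ≥ 1/G ≥ 10/ep`
    have h2 : 1 ≤ D * G := by
      have h3 : D * A * G ^ 4 ≤ D * G := by
        have h4 : A * G ^ 4 ≤ G := by
          calc A * G ^ 4 ≤ G * 1 := by
                apply mul_le_mul k2 (pow_le_one₀ hG.le k1) (by positivity) hG.le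
            _ = G := mul_one G
        calc D * A * G ^ 4 = D * (A * G ^ 4) := by ring
          _ ≤ D * G := mul_le_mul_of_nonneg_left h4 hD.le
      rw [R.DAG] at h3
      exact h3
    have h5 : D * G ≤ D * (ep / 10) := mul_le_mul_of_nonneg_left (R.Gg.trans hg1) hD.le
    linarith
  have m4 := mul_le_mul_of_nonneg_left m2 hD.le
  linarith

/-- coefficient of `S4` -/
theorem cS4 (h0 : 0 < ep) (h1 : ep ≤ 1 / 100) {t : ℝ} (ht : t ≤ 1 / 100) :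
    40 / ep + 1000 / ep * (-(1 - 6 * t) - (1 + 2 * ep)) ≤ 0 := by
  have h2 : 40 / ep + 1000 / ep * (-(1 - 6 * t) - (1 + 2 * ep))
      = (40 + 1000 * (-(1 - 6 * t) - (1 + 2 * ep))) / ep := by ring
  rw [h2]
  apply div_nonpos_of_nonpos_of_nonneg _ h0.le
  linarith

/-- coefficient of `U` -/
theorem cU (R : Rel ep u A G D E g) (h0 : 0 < ep) (hg2 : g ≤ 1) {t : ℝ}
    (ht0 : 0 < t) (ht : t ≤ 1 / 1000) (hg : g * 202 ≤ 100 * t ^ 4 / ep) (hg3 : g ≤ 1 / 1000) :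
    40 / ep * (2 * t) ^ 4 + 200 * u
      + 400 * t ^ 4 / ep * ((2 - 3 * (1 - 2 * t) + 2 * u) - (1 + 2 * ep)) + 2 * G ^ 2 ≤ 0 := by
  have hu := R.u0
  have hG := R.G0
  have k1 := G1 R hg2
  have k4 := u_le_one R hg2
  have m1 : G ^ 2 ≤ G := by nlinarith
  have m2 : 200 * u + 2 * G ^ 2 ≤ 100 * (t ^ 4 / ep) := by
    have : 200 * u + 2 * G ^ 2 ≤ g * 202 := by nlinarith [R.Gg]
    have h5 : 100 * t ^ 4 / ep = 100 * (t ^ 4 / ep) := by ring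
    linarith
  have hx : 0 < t ^ 4 / ep := by positivity
  have m3 : 40 / ep * (2 * t) ^ 4 = 640 * (t ^ 4 / ep) := by ring
  have m4 : 400 * t ^ 4 / ep * ((2 - 3 * (1 - 2 * t) + 2 * u) - (1 + 2 * ep))
      ≤ (-790) * (t ^ 4 / ep) := by
    have h5 : 400 * t ^ 4 / ep * ((2 - 3 * (1 - 2 * t) + 2 * u) - (1 + 2 * ep))
        = (400 * ((2 - 3 * (1 - 2 * t) + 2 * u) - (1 + 2 * ep))) * (t ^ 4 / ep) := by ring
    rw [h5]
    apply mul_le_mul_of_nonneg_right _ hx.le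
    have : u ≤ 1 / 1000 := k4.trans (R.Gg.trans hg3)
    linarith
  linarith

/-- coefficient of `N6` -/
theorem cN6 (R : Rel ep u A G D E g) (hg2 : g ≤ 1) (hg : g ≤ 1 / 10 ^ 7) {t : ℝ}
    (ht : t ≤ 1 / 1000) :
    D * (207360 * u ^ 4) + E * (-(6 * (1 - 2 * t) - 100 * u) + 11 / 2) ≤ 0 := by
  have hE := R.E0
  have k4 := u_le_one R hg2
  have m1 : D * (207360 * u ^ 4) ≤ 207360 * (G * E) := by
    have : D * (207360 * u ^ 4) = 207360 * (D * u ^ 4) := by ring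
    rw [this]; linarith [R.DE]
  have m2 : G * E ≤ 1 / 10 ^ 7 * E := mul_le_mul_of_nonneg_right (R.Gg.trans hg) hE.le
  have m3 : E * (-(6 * (1 - 2 * t) - 100 * u) + 11 / 2) ≤ E * (-(4 / 10)) := by
    apply mul_le_mul_of_nonneg_left _ hE.le
    have : u ≤ 1 / 10 ^ 7 := k4.trans (R.Gg.trans hg)
    norm_num at this ⊢
    linarith
  norm_num at m2 ⊢
  linarith

/-- coefficient of `N8` -/
theorem cN8 (R : Rel ep u A G D E g) (h0 : 0 < ep) (hg2 : g ≤ 1) (hg : g ≤ 1 / 10 ^ 7) {t : ℝ}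
    (ht : t ≤ 1 / 1000) :
    D * (207360 * u ^ 4) + 10 ^ 6 * (D * u ^ 4) * (-(8 * (1 - 2 * t) - 100 * u) + (7 - 2 * ep))
      ≤ 0 := by
  have k4 := u_le_one R hg2
  have hD := R.D0
  have hu := R.u0
  have h2 : 0 ≤ D * u ^ 4 := by positivity
  have h3 : -(8 * (1 - 2 * t) - 100 * u) + (7 - 2 * ep) ≤ -(1 / 2) := by
    have : u ≤ 1 / 10 ^ 7 := k4.trans (R.Gg.trans hg)
    norm_num at this ⊢
    linarith
  have h4 := mul_le_mul_of_nonneg_left h3 (by positivity : (0 : ℝ) ≤ 10 ^ 6 * (D * u ^ 4))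
  have h5 : D * (207360 * u ^ 4) = 207360 * (D * u ^ 4) := by ring
  rw [h5]
  have h6 : 10 ^ 6 * (D * u ^ 4) * (-(1 / 2)) = -500000 * (D * u ^ 4) := by ring
  linarith

/-- coefficient of `P` -/
theorem cP (R : Rel ep u A G D E g) (h0 : 0 < ep) (hg2 : g ≤ 1)
    (hg : g ≤ ep ^ 2 / 1000) {t : ℝ} (ht : t = ep ^ 2 / 10000) :
    1 + ep / 4 + 64 * t / ep + 28 * u / ep - (1 + ep) ≤ 0 := by
  have k4 := u_le_one R hg2
  have h2 : 64 * t / ep ≤ ep / 100 := by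
    rw [div_le_iff₀ h0, ht]; nlinarith [sq_nonneg ep]
  have h3 : 28 * u / ep ≤ ep / 10 := by
    rw [div_le_iff₀ h0]
    have : u ≤ ep ^ 2 / 1000 := k4.trans (R.Gg.trans hg)
    nlinarith [sq_nonneg ep]
  linarith

/-- the term with `X1` -/
theorem tX (R : Rel ep u A G D E g) (hg2 : g ≤ 1) {q S2 X1 : ℝ}
    (hX : ∀ mu : ℝ, 0 < mu → 2 * |X1| ≤ mu * q + S2 / mu) :
    -(A * X1) + A * G * X1 ≤ 1 / 2 * (A * G ^ 2) * q + 1 / 2 * (A / G ^ 2) * S2 := by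
  have hA := R.A0
  have hG := R.G0
  have k1 := G1 R hg2
  have h2 := hX (G ^ 2) (by positivity)
  have h3 : -(A * X1) + A * G * X1 ≤ A * |X1| := by
    have h4 : -(A * X1) + A * G * X1 = A * ((1 - G) * (-X1)) := by ring
    rw [h4]
    apply mul_le_mul_of_nonneg_left _ hA.le
    calc (1 - G) * (-X1) ≤ (1 - G) * |X1| :=
          mul_le_mul_of_nonneg_left (neg_le_abs X1) (by linarith)
      _ ≤ 1 * |X1| := mul_le_mul_of_nonneg_right (by linarith) (abs_nonneg _)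
      _ = |X1| := one_mul _
  have h5 : A * |X1| ≤ A * ((G ^ 2 * q + S2 / G ^ 2) / 2) :=
    mul_le_mul_of_nonneg_left (by linarith) hA.le
  have h6 : A * ((G ^ 2 * q + S2 / G ^ 2) / 2)
      = 1 / 2 * (A * G ^ 2) * q + 1 / 2 * (A / G ^ 2) * S2 := by ring
  linarith

/-- the sum -/
theorem sumup {t q S2 S4 b U N6 N8 P X1 kq k2 kb k4 kU k6 k8 kP : ℝ}
    (x1 : -(A * X1) + A * G * X1 ≤ 1 / 2 * (A * G ^ 2) * q + 1 / 2 * (A / G ^ 2) * S2)
    (e1 : kq = -(ep / 2) * (A * G) + 1 / 2 * (A * G ^ 2) + 16 * u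
      + D * (1600 * (u * A) + 50 * u ^ 2 + 1000 / ep * (216 * u ^ 3)))
    (e2 : k2 = -(1 - 2 * t - 1 / 4) + 1 / 2 * (A / G ^ 2) + 16 * u
      + D * (200 * u + 1000 / ep * (80 * u)))
    (eb : kb = 4 + D * ((1 + 2 * t + ep / 2) + A - (1 + 2 * ep) + 1000 / ep * (4 * t)))
    (e4 : k4 = 40 / ep + 1000 / ep * (-(1 - 6 * t) - (1 + 2 * ep)))
    (eU : kU = 40 / ep * (2 * t) ^ 4 + 200 * u
      + 400 * t ^ 4 / ep * ((2 - 3 * (1 - 2 * t) + 2 * u) - (1 + 2 * ep)) + 2 * G ^ 2)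
    (e6 : k6 = D * (207360 * u ^ 4) + E * (-(6 * (1 - 2 * t) - 100 * u) + 11 / 2))
    (e8 : k8 = D * (207360 * u ^ 4)
      + 10 ^ 6 * (D * u ^ 4) * (-(8 * (1 - 2 * t) - 100 * u) + (7 - 2 * ep)))
    (eP : kP = 1 + ep / 4 + 64 * t / ep + 28 * u / ep - (1 + ep)) :
    A * (-(q + X1) + q) - A * G * (-(q + X1) + (1 + ep / 2) * q)
    + (-(1 - 2 * t - 1 / 4) * S2 + 4 * b + 16 * u * (S2 + q))
    + D *
      (((1 + 2 * t + ep / 2) * b + 40 / ep * (S4 + (2 * t) ^ 4 * U)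
          + A * b + 1600 * (u * A) * q + 200 * u * (S2 + U)
          + (50 * u ^ 2 * q + 207360 * u ^ 4 * (N6 + N8)) - (1 + 2 * ep) * b)
        + 1000 / ep * (-(1 - 6 * t) * S4 + 4 * t * b + 80 * u * S2 + 216 * u ^ 3 * q
          - (1 + 2 * ep) * S4)
        + 400 * t ^ 4 / ep * ((2 - 3 * (1 - 2 * t) + 2 * u) * U - (1 + 2 * ep) * U))
    + D * G ^ 2 *
      ((1 + ep / 4 + 64 * t / ep + 28 * u / ep) * P + 2 * U - (1 + ep) * P)
    + E * (-(6 * (1 - 2 * t) - 100 * u) * N6 + 11 / 2 * N6)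
    + 10 ^ 6 * (D * u ^ 4) * (-(8 * (1 - 2 * t) - 100 * u) * N8 + (7 - 2 * ep) * N8)
      ≤ kq * q + k2 * S2 + kb * b + D * k4 * S4 + D * kU * U + k6 * N6 + k8 * N8
        + D * G ^ 2 * kP * P := by
  subst e1 e2 eb e4 eU e6 e8 eP
  have h : (A * (-(q + X1) + q) - A * G * (-(q + X1) + (1 + ep / 2) * q)
    + (-(1 - 2 * t - 1 / 4) * S2 + 4 * b + 16 * u * (S2 + q))
    + D *
      (((1 + 2 * t + ep / 2) * b + 40 / ep * (S4 + (2 * t) ^ 4 * U)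
          + A * b + 1600 * (u * A) * q + 200 * u * (S2 + U)
          + (50 * u ^ 2 * q + 207360 * u ^ 4 * (N6 + N8)) - (1 + 2 * ep) * b)
        + 1000 / ep * (-(1 - 6 * t) * S4 + 4 * t * b + 80 * u * S2 + 216 * u ^ 3 * q
          - (1 + 2 * ep) * S4)
        + 400 * t ^ 4 / ep * ((2 - 3 * (1 - 2 * t) + 2 * u) * U - (1 + 2 * ep) * U))
    + D * G ^ 2 *
      ((1 + ep / 4 + 64 * t / ep + 28 * u / ep) * P + 2 * U - (1 + ep) * P)
    + E * (-(6 * (1 - 2 * t) - 100 * u) * N6 + 11 / 2 * N6)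
    + 10 ^ 6 * (D * u ^ 4) * (-(8 * (1 - 2 * t) - 100 * u) * N8 + (7 - 2 * ep) * N8))
    - (-(A * X1) + A * G * X1) + (1 / 2 * (A * G ^ 2) * q + 1 / 2 * (A / G ^ 2) * S2)
    = (-(ep / 2) * (A * G) + 1 / 2 * (A * G ^ 2) + 16 * u
      + D * (1600 * (u * A) + 50 * u ^ 2 + 1000 / ep * (216 * u ^ 3))) * q
    + (-(1 - 2 * t - 1 / 4) + 1 / 2 * (A / G ^ 2) + 16 * u
      + D * (200 * u + 1000 / ep * (80 * u))) * S2
    + (4 + D * ((1 + 2 * t + ep / 2) + A - (1 + 2 * ep) + 1000 / ep * (4 * t))) * b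
    + D * (40 / ep + 1000 / ep * (-(1 - 6 * t) - (1 + 2 * ep))) * S4
    + D * (40 / ep * (2 * t) ^ 4 + 200 * u
      + 400 * t ^ 4 / ep * ((2 - 3 * (1 - 2 * t) + 2 * u) - (1 + 2 * ep)) + 2 * G ^ 2) * U
    + (D * (207360 * u ^ 4) + E * (-(6 * (1 - 2 * t) - 100 * u) + 11 / 2)) * N6
    + (D * (207360 * u ^ 4)
      + 10 ^ 6 * (D * u ^ 4) * (-(8 * (1 - 2 * t) - 100 * u) + (7 - 2 * ep))) * N8
    + D * G ^ 2 * (1 + ep / 4 + 64 * t / ep + 28 * u / ep - (1 + ep)) * P := by ring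
  linarith

end ScalM

open ScalM

/-- [SCALM] strong form, with surplus -/
theorem scalar_mid_strong (ep : ℝ) (h0 : 0 < ep) (h1 : ep ≤ 1 / 100) : ∃ u1 : ℝ, 0 < u1 ∧ u1 ≤ 1 / 100 ∧
    ∀ u q S2 S4 b U N6 N8 P X1 : ℝ, 0 < u → u ≤ u1 → 0 ≤ q → 0 ≤ S2 → 0 ≤ S4 → 0 ≤ b → 0 ≤ U →
    0 ≤ N6 → 0 ≤ N8 → 0 ≤ P → (∀ mu : ℝ, 0 < mu → 2 * |X1| ≤ mu * q + S2 / mu) →
    u ^ (1 / 2 : ℝ) * (-(q + X1) + q) - u ^ (1 / 2 + ep / 4 : ℝ) * (-(q + X1) + (1 + ep / 2) * q)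
    + (-(1 - 2 * t0 ep - 1 / 4) * S2 + 4 * b + 16 * u * (S2 + q))
    + u ^ (-(1 / 2 + ep) : ℝ) *
      (((1 + 2 * t0 ep + ep / 2) * b + 40 / ep * (S4 + (2 * t0 ep) ^ 4 * U)
          + u ^ (1 / 2 : ℝ) * b + 1600 * u ^ (3 / 2 : ℝ) * q + 200 * u * (S2 + U)
          + (50 * u ^ 2 * q + 207360 * u ^ 4 * (N6 + N8)) - (1 + 2 * ep) * b)
        + 1000 / ep * (-(1 - 6 * t0 ep) * S4 + 4 * t0 ep * b + 80 * u * S2 + 216 * u ^ 3 * q
          - (1 + 2 * ep) * S4)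
        + 400 * t0 ep ^ 4 / ep * ((2 - 3 * (1 - 2 * t0 ep) + 2 * u) * U - (1 + 2 * ep) * U))
    + u ^ (-(1 / 2 + ep / 2) : ℝ) *
      ((1 + ep / 4 + 64 * t0 ep / ep + 28 * u / ep) * P + 2 * U - (1 + ep) * P)
    + u ^ (11 / 4 : ℝ) * (-(6 * (1 - 2 * t0 ep) - 100 * u) * N6 + 11 / 2 * N6)
    + 10 ^ 6 * u ^ (7 / 2 - ep : ℝ) * (-(8 * (1 - 2 * t0 ep) - 100 * u) * N8 + (7 - 2 * ep) * N8)
      ≤ -(ep / 8 * u ^ (1 / 2 + ep / 4 : ℝ) * q + S2 / 4) := by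
  have ht : t0 ep = ep ^ 2 / 10000 := rfl
  have ht0 : 0 < t0 ep := by rw [ht]; positivity
  have htsm : t0 ep ≤ ep / 10 ^ 6 := by rw [ht]; nlinarith
  have htsm2 : t0 ep ≤ 1 / 1000 := by linarith
  set g : ℝ := min (1 / 10 ^ 7) (min (ep / 10)
    (min (ep / 4 / (1 / 2 + 16 * 1 + 1600 + 50 + 216000 / ep))
      (min (1 / 4 / (1 / 2 + 16 + 200 + 80000 / ep))
        (min (100 * t0 ep ^ 4 / ep / 202) (ep ^ 2 / 1000))))) with hgdef
  have hg0 : 0 < g := by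
    rw [hgdef]
    apply lt_min (by norm_num)
    apply lt_min (by positivity)
    apply lt_min (by positivity)
    apply lt_min (by positivity)
    apply lt_min (by positivity) (by positivity)
  have b1 : g ≤ 1 / 10 ^ 7 := min_le_left _ _
  have b2 : g ≤ ep / 10 := (min_le_right _ _).trans (min_le_left _ _)
  have b3 : g ≤ ep / 4 / (1 / 2 + 16 * 1 + 1600 + 50 + 216000 / ep) :=
    (min_le_right _ _).trans ((min_le_right _ _).trans (min_le_left _ _))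
  have b4 : g ≤ 1 / 4 / (1 / 2 + 16 + 200 + 80000 / ep) :=
    (min_le_right _ _).trans ((min_le_right _ _).trans ((min_le_right _ _).trans
      (min_le_left _ _)))
  have b5 : g ≤ 100 * t0 ep ^ 4 / ep / 202 :=
    (min_le_right _ _).trans ((min_le_right _ _).trans ((min_le_right _ _).trans
      ((min_le_right _ _).trans (min_le_left _ _))))
  have b6 : g ≤ ep ^ 2 / 1000 :=
    (min_le_right _ _).trans ((min_le_right _ _).trans ((min_le_right _ _).trans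
      ((min_le_right _ _).trans (min_le_right _ _))))
  rw [le_div_iff₀ (by positivity)] at b3 b4 b5
  have hg1 : g ≤ 1 := b1.trans (by norm_num)
  obtain ⟨u1, hu1, hu1', hs⟩ := small ep g h0 hg0
  refine ⟨u1, hu1, hu1', ?_⟩
  intro u q S2 S4 b U N6 N8 P X1 hu huu hq hS2 hS4 hb hU hN6 hN8 hP hX
  have R := rel h0 h1 hu (huu.trans hu1') (hs u hu huu)
  have r1 : u ^ (1 / 2 + ep / 4 : ℝ) = u ^ (1 / 2 : ℝ) * u ^ (ep / 4) := Real.rpow_add hu _ _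
  have r2 : u ^ (3 / 2 : ℝ) = u * u ^ (1 / 2 : ℝ) := by
    nth_rewrite 2 [← Real.rpow_one u]
    rw [← Real.rpow_add hu]; norm_num
  have r3 : u ^ (-(1 / 2 + ep / 2) : ℝ) = u ^ (-(1 / 2 + ep) : ℝ) * (u ^ (ep / 4)) ^ 2 := by
    rw [← Real.rpow_natCast, ← Real.rpow_mul hu.le, ← Real.rpow_add hu]; congr 1; push_cast; ring
  have r4 : u ^ (7 / 2 - ep : ℝ) = u ^ (-(1 / 2 + ep) : ℝ) * u ^ 4 := by
    rw [← Real.rpow_natCast u 4, ← Real.rpow_add hu]; congr 1; push_cast; ring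
  rw [r1, r2, r3, r4]
  generalize u ^ (1 / 2 : ℝ) = A at *
  generalize u ^ (ep / 4) = G at *
  generalize u ^ (-(1 / 2 + ep) : ℝ) = D at *
  generalize u ^ (11 / 4 : ℝ) = E at *
  have hA := R.A0
  have hG := R.G0
  have hD := R.D0
  have hE := R.E0
  have x1 := tX R hg1 hX
  have c1 := mul_le_mul_of_nonneg_right (cq R h0 hg1 b3) hq
  have c2 := mul_le_mul_of_nonneg_right
    (cS2 R h0 hg1 (t := t0 ep) (by linarith) b4) hS2
  have c3 := mul_nonpos_of_nonpos_of_nonneg (cb R h0 b2 hg1 ht h1) hb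
  have c4 := mul_nonpos_of_nonpos_of_nonneg
    (mul_nonpos_of_nonneg_of_nonpos hD.le (cS4 h0 h1 (t := t0 ep) (by linarith))) hS4
  have c5 := mul_nonpos_of_nonpos_of_nonneg
    (mul_nonpos_of_nonneg_of_nonpos hD.le (cU R h0 hg1 ht0 htsm2 b5
      (b1.trans (by norm_num)))) hU
  have c6 := mul_nonpos_of_nonpos_of_nonneg (cN6 R hg1 b1 htsm2) hN6
  have c7 := mul_nonpos_of_nonpos_of_nonneg (cN8 R h0 hg1 b1 htsm2) hN8
  have c8 := mul_nonpos_of_nonpos_of_nonneg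
    (mul_nonpos_of_nonneg_of_nonpos (by positivity : (0 : ℝ) ≤ D * G ^ 2)
      (cP R h0 hg1 b6 ht)) hP
  refine (sumup (t := t0 ep) x1 rfl rfl rfl rfl rfl rfl rfl rfl).trans ?_
  linarith

/-- [SCALM] the scalar inequality of the middle phase (`X1` = sum of `x` over `B`) -/
theorem scalar_mid (ep : ℝ) (h0 : 0 < ep) (h1 : ep ≤ 1 / 100) : ∃ u1 : ℝ, 0 < u1 ∧ u1 ≤ 1 / 100 ∧
    ∀ u q S2 S4 b U N6 N8 P X1 : ℝ, 0 < u → u ≤ u1 → 0 ≤ q → 0 ≤ S2 → 0 ≤ S4 → 0 ≤ b → 0 ≤ U →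
    0 ≤ N6 → 0 ≤ N8 → 0 ≤ P → (∀ mu : ℝ, 0 < mu → 2 * |X1| ≤ mu * q + S2 / mu) →
    u ^ (1 / 2 : ℝ) * (-(q + X1) + q) - u ^ (1 / 2 + ep / 4 : ℝ) * (-(q + X1) + (1 + ep / 2) * q)
    + (-(1 - 2 * t0 ep - 1 / 4) * S2 + 4 * b + 16 * u * (S2 + q))
    + u ^ (-(1 / 2 + ep) : ℝ) *
      (((1 + 2 * t0 ep + ep / 2) * b + 40 / ep * (S4 + (2 * t0 ep) ^ 4 * U)
          + u ^ (1 / 2 : ℝ) * b + 1600 * u ^ (3 / 2 : ℝ) * q + 200 * u * (S2 + U)
          + (50 * u ^ 2 * q + 207360 * u ^ 4 * (N6 + N8)) - (1 + 2 * ep) * b)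
        + 1000 / ep * (-(1 - 6 * t0 ep) * S4 + 4 * t0 ep * b + 80 * u * S2 + 216 * u ^ 3 * q
          - (1 + 2 * ep) * S4)
        + 400 * t0 ep ^ 4 / ep * ((2 - 3 * (1 - 2 * t0 ep) + 2 * u) * U - (1 + 2 * ep) * U))
    + u ^ (-(1 / 2 + ep / 2) : ℝ) *
      ((1 + ep / 4 + 64 * t0 ep / ep + 28 * u / ep) * P + 2 * U - (1 + ep) * P)
    + u ^ (11 / 4 : ℝ) * (-(6 * (1 - 2 * t0 ep) - 100 * u) * N6 + 11 / 2 * N6)
    + 10 ^ 6 * u ^ (7 / 2 - ep : ℝ) * (-(8 * (1 - 2 * t0 ep) - 100 * u) * N8 + (7 - 2 * ep) * N8)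
      ≤ 0 := by
  obtain ⟨u1, hu1, hu1', H⟩ := scalar_mid_strong ep h0 h1
  refine ⟨u1, hu1, hu1', ?_⟩
  intro u q S2 S4 b U N6 N8 P X1 hu huu hq hS2 hS4 hb hU hN6 hN8 hP hX
  refine (H u q S2 S4 b U N6 N8 P X1 hu huu hq hS2 hS4 hb hU hN6 hN8 hP hX).trans ?_
  have h2 : 0 ≤ u ^ (1 / 2 + ep / 4 : ℝ) := Real.rpow_nonneg hu.le _
  have h3 : 0 ≤ ep / 8 * u ^ (1 / 2 + ep / 4 : ℝ) * q := by positivity
  linarith

end

end Vale.Agent.P046.NL
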