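import Vale.Agent.P046.NL.MidCoreOf
import Vale.Agent.P046.NL.SCALM
import Vale.Agent.P046.NL.GLIN

/-! P046 no-log, row MIDSTRONG: strong form of MIDCORE (form with the row SBF as a hypothesis). -/

namespace Vale.Agent.P046.NL

open Finset Vale.Agent.P046

noncomputable section

variable {α : Type} [DecidableEq α]

open MC

/-- [MIDSTRONG] strong form of `mid_core` -/
theorem mid_core_strong_of (hGS : GenSb) (ep : ℝ) (h0 : 0 < ep) (h1 : ep ≤ 1 / 100) :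
    ∃ u1 : ℝ, 0 < u1 ∧ u1 ≤ 1 / 100 ∧
    ∀ (α : Type) [DecidableEq α] (Bl : Finset (Finset α)) (C6 C8 : Finset (Finset (Finset α))),
    Sys Bl C6 C8 → ∀ (umin : ℝ) (A₀ : Finset α), 0 < umin → ∃ E h1 : ℝ, 0 ≤ E ∧ 0 < h1 ∧
    ∀ h u : ℝ, 0 < h → h ≤ h1 → umin ≤ u → u + 2 * h ≤ u1 → ∀ s : St α, s.B ⊆ A₀ → s.A ⊆ A₀ →
      Inv Bl (2 * t0 ep) (u + 2 * h) s →
      PsiM ep Bl C6 C8 (u + 2 * h) s
        + h * gen Bl (1 / (u + 2 * h)) (fun s' => PsiM ep Bl C6 C8 (u + 2 * h) s') s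
        ≤ PsiM ep Bl C6 C8 u s
          - h / (u + 2 * h) * (ep / 8 * (u + 2 * h) ^ (1 / 2 + ep / 4 : ℝ) * Q s
            + S 2 (u + 2 * h) s / 4) + E * h ^ 2 := by
  have hTQ : ∀ a : ℝ, ∃ C : ℝ, 0 ≤ C ∧ TermQ a C := fun a => term_Q a
  obtain ⟨u1, hu1p, hu1, hsc⟩ := scalar_mid_strong ep h0 h1
  refine ⟨u1, hu1p, hu1, ?_⟩
  intro α _ Bl C6 C8 hS umin A₀ hu0
  obtain ⟨E1, hE1, H1⟩ := term1 (ep := ep) hu0 hS.lin A₀ (1 / 2 : ℝ) (hTQ _)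
  obtain ⟨E1', hE1', H1'⟩ := term1 (ep := ep) hu0 hS.lin A₀ (1 / 2 + ep / 4 : ℝ) (hTQ _)
  obtain ⟨E3, hE3, H3⟩ := term3 hGS h0 h1 hu0 hS A₀ (-(1 / 2 + ep) : ℝ)
  obtain ⟨E4, hE4, H4⟩ := term4 h0 h1 hu0 hS.lin A₀ (-(1 / 2 + ep) : ℝ)
  obtain ⟨E5, hE5, H5⟩ := term5 h0 h1 hu0 hS.lin A₀ (-(1 / 2 + ep) : ℝ)
  obtain ⟨E6, hE6, H6⟩ := term6 h0 h1 hu0 hS.lin A₀ (-(1 / 2 + ep / 2) : ℝ)
  obtain ⟨E7, hE7, H7⟩ := term7 h0 h1 hu0 hS.lin A₀ C6 6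
    (fun c hc => ⟨(hS.h6 c hc).2.1, (hS.h6 c hc).2.2⟩) (11 / 4 : ℝ)
  obtain ⟨E8, hE8, H8⟩ := term7 h0 h1 hu0 hS.lin A₀ C8 8
    (fun c hc => ⟨(hS.h8 c hc).2.1, (hS.h8 c hc).2.2⟩) (7 / 2 - ep : ℝ)
  have ht := t0_pos h0
  refine ⟨E1 + E1' + E3 + 1000 / ep * E4 + 400 * t0 ep ^ 4 / ep * E5 + E6 + E7 + 10 ^ 6 * E8,
    umin / 8, by positivity, by positivity, ?_⟩
  intro h u hh hhm hum hu2 s hB hA hI
  have c : Cnd ep umin Bl A₀ u h s := ⟨hh, hhm, hum, by linarith, hB, hA, hI⟩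
  have hv := c.vpos hu0
  have k1 := (abs_le.mp (H1 u h s c)).2
  have k1' := (abs_le.mp (H1' u h s c)).1
  have k2 := term2 h0 h1 hu0 hS.lin c
  have k3 := H3 u h s c
  have k4 := H4 u h s c
  have k5 := H5 u h s c
  have k6 := H6 u h s c
  have k7 := H7 u h s c
  have k8 := H8 u h s c
  have ks := hsc (u + 2 * h) (Q s) (S 2 (u + 2 * h) s) (S 4 (u + 2 * h) s) (Sb (u + 2 * h) s)
    ((u + 2 * h) * V s) (Nc C6 s) (Nc C8 s) (Ph Bl (ep / 4) (u + 2 * h) s)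
    (∑ e ∈ s.B, xv (u + 2 * h) s e) hv hu2 (Q_nonneg s) (S_nonneg (by decide) _ _)
    (S_nonneg (by decide) _ _) (Sb_nonneg _ _) (mul_nonneg hv.le (V_nonneg s)) (Nc_nonneg _ _)
    (Nc_nonneg _ _) (Ph_nonneg _ (by linarith) _ _) (fun mu hmu => X1_bound _ s mu hmu)
  rw [gen_PsiM]
  have hr0 : 0 ≤ h * (1 / (u + 2 * h)) := by positivity
  have ks' := mul_le_mul_of_nonneg_left ks hr0
  have e9 : h / (u + 2 * h) = h * (1 / (u + 2 * h)) := by ring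
  rw [e9]
  have k4' := mul_le_mul_of_nonneg_left k4 (show 0 ≤ 1000 / ep by positivity)
  have k5' := mul_le_mul_of_nonneg_left k5 (show 0 ≤ 400 * t0 ep ^ 4 / ep by positivity)
  have k8' := mul_le_mul_of_nonneg_left k8 (show (0 : ℝ) ≤ 10 ^ 6 by positivity)
  unfold PsiM
  push_cast at k7 k8' ⊢
  linarith

end

end Vale.Agent.P046.NL
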