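import Vale.Agent.P046.NL.GLIN
import Vale.Agent.P046.NL.Defs5

/-! P046, row NCORE: supersolution for the bad configurations (of-form over the row NGM). -/

namespace Vale.Agent.P046.NL

open Finset Vale.Agent.P046

noncomputable section

namespace NCore

variable {α : Type} [DecidableEq α]

theorem gen_zero (Bl : Finset (Finset α)) (r : ℝ) (s : St α) :
    gen Bl r (fun _ => (0 : ℝ)) s = 0 := by
  unfold gen
  simp

theorem gen_sum_mul (Bl : Finset (Finset α)) (r : ℝ) (s : St α) {ι : Type} [DecidableEq ι]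
    (I : Finset ι) (w : ι → ℝ) (F : ι → St α → ℝ) :
    gen Bl r (fun s' => ∑ i ∈ I, w i * F i s') s = ∑ i ∈ I, w i * gen Bl r (F i) s := by
  induction I using Finset.induction_on with
  | empty =>
    simp only [sum_empty]
    exact gen_zero Bl r s
  | @insert i I hi ih =>
    rw [sum_insert hi, ← ih]
    have h1 : (fun s' => ∑ j ∈ insert i I, w j * F j s') =
        (fun s' => w i * F i s' + 1 * (fun s'' => ∑ j ∈ I, w j * F j s'') s') := by
      funext s'
      rw [sum_insert hi, one_mul]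
    rw [h1, gen_lin, one_mul]

theorem Nc_nonneg (C : Finset (Finset (Finset α))) (s : St α) : 0 ≤ Nc C s := by
  unfold Nc; positivity

theorem Nc_le (C : Finset (Finset (Finset α))) (s : St α) : Nc C s ≤ (C.card : ℝ) := by
  unfold Nc
  exact_mod_cast card_filter_le _ _

/-- one term -/
theorem one_term {t Cm umin u h a F G C1 K : ℝ} (l : ℕ) (ht0 : 0 < t) (ht : t ≤ 1 / 100)
    (hCm : 0 ≤ Cm) (ha : a = (l : ℝ) / 2 * (1 - 3 * t)) (humin : 0 < umin) (hh : 0 < h)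
    (hh1 : h ≤ umin / 8) (hu : umin ≤ u) (hu1 : u + 2 * h ≤ min (1 / 100) (t / (Cm + 1)))
    (hC1 : 0 ≤ C1) (hw : ∀ x : ℝ, 0 ≤ x → x ≤ 1 / 8 → |1 - (1 - 2 * x) ^ a - 2 * a * x| ≤ C1 * x ^ 2)
    (hF : 0 ≤ F) (hFK : F ≤ K) (hl : 0 < F → 1 ≤ l)
    (hG : G ≤ -((l : ℝ) * (1 - 2 * t) * (1 / (u + 2 * h)) - Cm) * F) :
    (u + 2 * h) ^ a * (F + h * G) ≤ u ^ a * F + C1 / umin ^ 2 * K * h ^ 2 := by
  set v := u + 2 * h with hv
  have hv0 : 0 < v := by linarith
  have hv1 : v ≤ 1 / 100 := hu1.trans (min_le_left _ _)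
  have hv2 : v ≤ t / (Cm + 1) := hu1.trans (min_le_right _ _)
  have hK : 0 ≤ K := hF.trans hFK
  have hva : 0 ≤ v ^ a := Real.rpow_nonneg hv0.le _
  have hua : 0 ≤ u ^ a := Real.rpow_nonneg (by linarith) _
  have hE : 0 ≤ C1 / umin ^ 2 * K * h ^ 2 := by positivity
  rcases eq_or_lt_of_le hF with h0 | h0
  · rw [← h0] at hG ⊢
    have hG0 : G ≤ 0 := by linarith
    have h1 : v ^ a * (0 + h * G) ≤ 0 := by
      rw [zero_add]
      exact mul_nonpos_of_nonneg_of_nonpos hva (mul_nonpos_of_nonneg_of_nonpos hh.le hG0)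
    linarith
  · have hl1 : (1 : ℝ) ≤ l := by exact_mod_cast hl h0
    have ha0 : 0 ≤ a := by
      rw [ha]
      have : 0 ≤ 1 - 3 * t := by linarith
      positivity
    have hva1 : v ^ a ≤ 1 := Real.rpow_le_one hv0.le (by linarith) ha0
    set x := h / v with hx
    have hx0 : 0 ≤ x := by positivity
    have hx8 : x ≤ 1 / 8 := by
      rw [hx, div_le_iff₀ hv0]
      linarith
    have hxm : x ≤ h / umin := by
      rw [hx]
      exact div_le_div_of_nonneg_left hh.le humin (by linarith)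
    have huv : u = v * (1 - 2 * x) := by
      rw [hx]
      field_simp
      rw [hv]; ring
    have hw1 := (abs_le.1 (hw x hx0 hx8)).2
    have hw1' := (abs_le.1 (hw x hx0 hx8)).1
    have hpow : u ^ a = v ^ a * (1 - 2 * x) ^ a := by
      conv_lhs => rw [huv]
      rw [Real.mul_rpow hv0.le (by linarith)]
    have hCv : Cm * v ≤ t := by
      rw [le_div_iff₀ (by linarith)] at hv2
      nlinarith
    have hCh : h * Cm ≤ t * x := by
      have h1 : h * Cm = x * (Cm * v) := by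
        rw [hx]; field_simp
      rw [h1, mul_comm t x]
      exact mul_le_mul_of_nonneg_left hCv hx0
    have hGh : h * G ≤ (-((l : ℝ) * (1 - 2 * t) * x) + h * Cm) * F := by
      have h1 := mul_le_mul_of_nonneg_left hG hh.le
      have h2 : h * (-((l : ℝ) * (1 - 2 * t) * (1 / v) - Cm) * F) =
          (-((l : ℝ) * (1 - 2 * t) * x) + h * Cm) * F := by
        rw [hx]; ring
      linarith
    have hwl : 1 - 2 * a * x - C1 * x ^ 2 ≤ (1 - 2 * x) ^ a := by linarith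
    have h2a : 2 * a = (l : ℝ) * (1 - 3 * t) := by rw [ha]; ring
    have hmain : F + h * G - (1 - 2 * x) ^ a * F ≤ C1 * x ^ 2 * F := by
      have h1 : (1 - 2 * a * x - C1 * x ^ 2) * F ≤ (1 - 2 * x) ^ a * F :=
        mul_le_mul_of_nonneg_right hwl h0.le
      rw [h2a] at h1
      have h2 : h * Cm * F ≤ t * x * F := mul_le_mul_of_nonneg_right hCh h0.le
      have h3 : t * x * F ≤ (l : ℝ) * (t * x * F) := by
        have : 0 ≤ t * x * F := by positivity
        nlinarith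
      nlinarith
    have hfin : v ^ a * (F + h * G) - u ^ a * F ≤ C1 / umin ^ 2 * K * h ^ 2 := by
      have h1 : v ^ a * (F + h * G) - u ^ a * F =
          v ^ a * (F + h * G - (1 - 2 * x) ^ a * F) := by rw [hpow]; ring
      rw [h1]
      have h2 : v ^ a * (F + h * G - (1 - 2 * x) ^ a * F) ≤ v ^ a * (C1 * x ^ 2 * F) :=
        mul_le_mul_of_nonneg_left hmain hva
      have h3 : v ^ a * (C1 * x ^ 2 * F) ≤ 1 * (C1 * x ^ 2 * F) :=
        mul_le_mul_of_nonneg_right hva1 (by positivity)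
      have h4 : x ^ 2 ≤ (h / umin) ^ 2 := pow_le_pow_left₀ hx0 hxm 2
      have h5 : C1 * x ^ 2 * F ≤ C1 * (h / umin) ^ 2 * K := by gcongr
      have h6 : C1 * (h / umin) ^ 2 * K = C1 / umin ^ 2 * K * h ^ 2 := by
        rw [div_pow]; ring
      linarith
    linarith

end NCore

/-- [NCORE] supersolution for the bad configurations (`th = 2 t`) -/
theorem n_core_of (t : ℝ) (ht0 : 0 < t) (ht : t ≤ 1 / 100) (m L : ℕ)
    (ng_gen : ∃ Cm : ℝ, 0 ≤ Cm ∧ ∀ (α : Type) [DecidableEq α]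
      (Bl : Finset (Finset α)), Lin3 Bl → ∀ (th u r : ℝ) (s : St α), Inv Bl th u s → u * r = 1 →
      0 < r → 0 ≤ th → th ≤ 1 → ∀ (C : Finset (Finset (Finset α))) (l : ℕ),
      (∀ c ∈ C, c.card ≤ m ∧ l ≤ (c.biUnion id).card) →
      gen Bl r (Nc C) s ≤ -((l : ℝ) * (1 - th) * r - Cm) * Nc C s) : ∃ u1 : ℝ, 0 < u1 ∧
    u1 ≤ 1 / 100 ∧ ∀ (α : Type) [DecidableEq α] (Bl : Finset (Finset α)), Lin3 Bl →
    ∀ CB : ℕ → Finset (Finset (Finset α)),
    (∀ l ∈ range (L + 1), ∀ c ∈ CB l, c.card ≤ m ∧ l ≤ (c.biUnion id).card ∧ 1 ≤ l) →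
    ∀ umin : ℝ, 0 < umin → ∃ E h1 : ℝ, 0 ≤ E ∧ 0 < h1 ∧
    ∀ h u : ℝ, 0 < h → h ≤ h1 → umin ≤ u → u + 2 * h ≤ u1 → ∀ s : St α,
      Inv Bl (2 * t) (u + 2 * h) s →
      PsiN t L CB (u + 2 * h) s
        + h * gen Bl (1 / (u + 2 * h)) (fun s' => PsiN t L CB (u + 2 * h) s') s
        ≤ PsiN t L CB u s + E * h ^ 2 := by
  obtain ⟨Cm, hCm, hng⟩ := ng_gen
  refine ⟨min (1 / 100) (t / (Cm + 1)), lt_min (by norm_num) (by positivity), min_le_left _ _, ?_⟩
  intro α _ Bl hL CB hCB umin humin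
  choose C1 C2 C3 hC1 hC2 hC3 hw using fun l : ℕ => TERM.weight ((l : ℝ) / 2 * (1 - 3 * t))
  refine ⟨∑ l ∈ range (L + 1), C1 l / umin ^ 2 * ((CB l).card : ℝ), umin / 8, ?_, by positivity, ?_⟩
  · exact sum_nonneg fun l _ => by have := hC1 l; positivity
  intro h u hh hh1 hu hu1 s hI
  have hv : 0 < u + 2 * h := by linarith
  have hgen := NCore.gen_sum_mul Bl (1 / (u + 2 * h)) s (range (L + 1))
    (fun l => (u + 2 * h) ^ ((l : ℝ) / 2 * (1 - 3 * t))) (fun l => Nc (CB l))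
  have hgen' : gen Bl (1 / (u + 2 * h)) (fun s' => PsiN t L CB (u + 2 * h) s') s =
      ∑ l ∈ range (L + 1), (u + 2 * h) ^ ((l : ℝ) / 2 * (1 - 3 * t)) *
        gen Bl (1 / (u + 2 * h)) (Nc (CB l)) s := hgen
  rw [hgen']
  unfold PsiN
  rw [mul_sum, ← sum_add_distrib, sum_mul, ← sum_add_distrib]
  refine sum_le_sum fun l hl => ?_
  have hG := hng α Bl hL (2 * t) (u + 2 * h) (1 / (u + 2 * h)) s hI
    (mul_one_div_cancel hv.ne') (by positivity) (by linarith) (by linarith) (CB l) l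
    (fun c hc => ⟨(hCB l hl c hc).1, (hCB l hl c hc).2.1⟩)
  have hterm := NCore.one_term (t := t) (Cm := Cm) (umin := umin) (u := u) (h := h)
    (a := (l : ℝ) / 2 * (1 - 3 * t)) (F := Nc (CB l) s)
    (G := gen Bl (1 / (u + 2 * h)) (Nc (CB l)) s) (C1 := C1 l) (K := ((CB l).card : ℝ)) l
    ht0 ht hCm rfl humin hh hh1 hu hu1 (hC1 l) (fun x hx0 hx8 => (hw l x hx0 hx8).1)
    (NCore.Nc_nonneg _ _) (NCore.Nc_le _ _) (fun hpos => by
      by_contra hcon
      push Not at hcon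
      have hemp : ∀ c ∈ CB l, False := fun c hc => by
        have := (hCB l hl c hc).2.2
        omega
      have h0 : CB l = ∅ := by
        rw [Finset.eq_empty_iff_forall_notMem]
        exact fun c hc => hemp c hc
      rw [h0] at hpos
      simp [Nc] at hpos) hG
  calc (u + 2 * h) ^ ((l : ℝ) / 2 * (1 - 3 * t)) * Nc (CB l) s +
        h * ((u + 2 * h) ^ ((l : ℝ) / 2 * (1 - 3 * t)) *
          gen Bl (1 / (u + 2 * h)) (Nc (CB l)) s)
      = (u + 2 * h) ^ ((l : ℝ) / 2 * (1 - 3 * t)) *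
        (Nc (CB l) s + h * gen Bl (1 / (u + 2 * h)) (Nc (CB l)) s) := by ring
    _ ≤ _ := hterm

end

end Vale.Agent.P046.NL
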