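import Vale.Agent.P046.NL.FixAux
import Vale.Agent.P046.NL.NCOREa

/-!
P046, row NMONO: the number of alive configurations of any family never increases: its generator
is nonpositive when the virtual rates are nonnegative, and the detachment does not change it.
-/

namespace Vale.Agent.P046.NL

open Finset Vale.Agent.P046

noncomputable section

variable {α : Type} [DecidableEq α]

theorem Nc_mono_W (C : Finset (Finset (Finset α))) {s s' : St α} (h : s'.W ⊆ s.W) :
    Nc C s' ≤ Nc C s := by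
  unfold Nc
  have : (C.filter (fun c => c ⊆ s'.W)) ⊆ (C.filter (fun c => c ⊆ s.W)) := by
    intro c hc
    rw [mem_filter] at hc ⊢
    exact ⟨hc.1, hc.2.trans h⟩
  exact_mod_cast card_le_card this

theorem Nc_congr_W (C : Finset (Finset (Finset α))) {s s' : St α} (h : s'.W = s.W) :
    Nc C s' = Nc C s := by
  unfold Nc
  rw [h]

/-- a functional which is monotone in `W` and depends only on `W` -/
theorem gen_monoW_nonpos (Bl : Finset (Finset α)) {r : ℝ} {s : St α} {G : St α → ℝ}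
    (hG : ∀ s' : St α, s'.W ⊆ s.W → G s' ≤ G s)
    (hr : ∀ T ∈ s.W, ∀ f ∈ T \ s.B, 0 ≤ r * (1 + s.a f) - 1) : gen Bl r G s ≤ 0 := by
  unfold gen
  have h1 : ∑ T ∈ s.W, (G (ring s T) - G s) ≤ 0 := by
    refine sum_nonpos fun T _ => ?_
    have := hG (ring s T) (filter_subset _ _)
    linarith
  have h2 : ∑ T ∈ s.W, ∑ f ∈ T \ s.B, (r * (1 + s.a f) - 1) * (G (virt s T) - G s) ≤ 0 := by
    refine sum_nonpos fun T hT => sum_nonpos fun f hf => ?_
    have := hG (virt s T) (erase_subset _ _)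
    exact mul_nonpos_of_nonneg_of_nonpos (hr T hT f hf) (by linarith)
  have h3 : ∑ T ∈ bl Bl s.A \ s.W, (G (nring s T) - G s) ≤ 0 := by
    refine sum_nonpos fun T _ => ?_
    have := hG (nring s T) (Subset.refl _)
    linarith
  linarith

theorem rate_nonneg {Bl : Finset (Finset α)} {th u r : ℝ} {s : St α} (hI : Inv Bl th u s)
    (hr0 : 0 ≤ r) (hr : 1 ≤ r * (1 - th)) (T : Finset α) :
    ∀ f ∈ T \ s.B, 0 ≤ r * (1 + s.a f) - 1 := by
  intro f _
  have h1 := (abs_le.1 (hI.bda f)).1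
  have : r * (1 - th) ≤ r * (1 + s.a f) := mul_le_mul_of_nonneg_left (by linarith) hr0
  linarith

/-- the generator of the number of alive configurations is nonpositive -/
theorem gen_Nc_nonpos {Bl : Finset (Finset α)} {th u r : ℝ} {s : St α} (hI : Inv Bl th u s)
    (hr0 : 0 ≤ r) (hr : 1 ≤ r * (1 - th)) (C : Finset (Finset (Finset α))) :
    gen Bl r (Nc C) s ≤ 0 :=
  gen_monoW_nonpos Bl (fun _ h => Nc_mono_W C h) (fun T _ => rate_nonneg hI hr0 hr T)

/-- nonnegative combinations -/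
theorem gen_Nc_sum_nonpos {Bl : Finset (Finset α)} {th u r : ℝ} {s : St α} (hI : Inv Bl th u s)
    (hr0 : 0 ≤ r) (hr : 1 ≤ r * (1 - th)) {ι : Type} (L : Finset ι) (w : ι → ℝ)
    (hw : ∀ l ∈ L, 0 ≤ w l) (CB : ι → Finset (Finset (Finset α))) :
    gen Bl r (fun s' => ∑ l ∈ L, w l * Nc (CB l) s') s ≤ 0 :=
  gen_monoW_nonpos Bl
    (fun _ h => sum_le_sum fun l hl => mul_le_mul_of_nonneg_left (Nc_mono_W (CB l) h) (hw l hl))
    (fun T _ => rate_nonneg hI hr0 hr T)

/-- one step, error `0` -/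
theorem nmono_step {Bl : Finset (Finset α)} {th u h : ℝ} {s : St α} (hu : 0 < u) (hh : 0 ≤ h)
    (hth : u + 2 * h ≤ 1 - th) (hI : Inv Bl th (u + 2 * h) s) {ι : Type} (L : Finset ι)
    (w : ι → ℝ) (hw : ∀ l ∈ L, 0 ≤ w l) (CB : ι → Finset (Finset (Finset α))) :
    ∑ l ∈ L, w l * Nc (CB l) s
      + h * gen Bl (1 / (u + 2 * h)) (fun s' => ∑ l ∈ L, w l * Nc (CB l) s') s
      ≤ ∑ l ∈ L, w l * Nc (CB l) s := by
  have hv : 0 < u + 2 * h := by linarith
  have h1 : 1 ≤ 1 / (u + 2 * h) * (1 - th) := by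
    rw [one_div, inv_mul_eq_div, le_div_iff₀ hv]
    linarith
  have := gen_Nc_sum_nonpos hI (r := 1 / (u + 2 * h)) (by positivity) h1 L w hw CB
  nlinarith

/-- detachment does not change the count -/
theorem Nc_sum_fixs (th u : ℝ) (s : St α) {ι : Type} (L : Finset ι) (w : ι → ℝ)
    (CB : ι → Finset (Finset (Finset α))) :
    ∑ l ∈ L, w l * Nc (CB l) (fixs th u s) = ∑ l ∈ L, w l * Nc (CB l) s :=
  sum_congr rfl fun _ _ => by rw [Nc_congr_W _ (s' := fixs th u s) (s := s) rfl]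

end

end Vale.Agent.P046.NL
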