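import Vale.Agent.P046.NL.Defs

/-!
P046, no-log: row [QQ], the quadratic term in the drift of `beta`.
-/

namespace Vale.Agent.P046.NL

open Finset Vale.Agent.P046

noncomputable section

variable {α : Type} [DecidableEq α]

namespace QQb

theorem pow4_add (a b : ℝ) : (a + b) ^ 4 ≤ 8 * (a ^ 4 + b ^ 4) := by
  have h1 : (a + b) ^ 2 ≤ 2 * (a ^ 2 + b ^ 2) := by nlinarith [sq_nonneg (a - b)]
  have h2 : ((a + b) ^ 2) ^ 2 ≤ (2 * (a ^ 2 + b ^ 2)) ^ 2 :=
    pow_le_pow_left₀ (sq_nonneg _) h1 2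
  nlinarith [sq_nonneg (a ^ 2 - b ^ 2)]

/-- the fourth power of the pair sum -/
theorem sm_pow4 (u : ℝ) (s : St α) (T : Finset α) (e : α) (hT : T.card = 3) (he : e ∈ T) :
    (sm u s T e) ^ 4 ≤ 8 * ∑ f ∈ T.erase e, (xv u s f) ^ 4 := by
  have h2 : (T.erase e).card = 2 := by rw [card_erase_of_mem he, hT]
  obtain ⟨f, g, hfg, hset⟩ := card_eq_two.1 h2
  unfold sm
  rw [hset, sum_pair hfg, sum_pair hfg]
  exact pow4_add _ _

/-- swapping the sums over real points and blocks -/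
theorem sum_swap (W : Finset (Finset α)) (B : Finset α) (g : α → Finset α → ℝ) :
    ∑ e ∈ B, ∑ T ∈ W.filter (fun T => e ∈ T), g e T =
      ∑ T ∈ W, ∑ e ∈ T.filter (fun e => e ∈ B), g e T := by
  refine sum_comm' ?_
  intro e T
  simp only [mem_filter]
  tauto

/-- sum over the points of the alive blocks, split into real and frozen points -/
theorem sum_pts_le (Bl : Finset (Finset α)) (th u : ℝ) (s : St α)
    (hI : Inv Bl th u s) :
    ∑ T ∈ s.W, ∑ f ∈ T, (xv u s f) ^ 4 ≤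
      ∑ f ∈ s.B, dW s.W f * (xv u s f) ^ 4 + th ^ 4 * V s := by
  have h1 : ∑ T ∈ s.W, ∑ f ∈ T, (xv u s f) ^ 4 =
      ∑ T ∈ s.W, ∑ f ∈ T.filter (fun f => f ∈ s.B), (xv u s f) ^ 4 +
        ∑ T ∈ s.W, ∑ f ∈ T \ s.B, (xv u s f) ^ 4 := by
    rw [← sum_add_distrib]
    refine sum_congr rfl fun T _ => ?_
    rw [← sum_filter_add_sum_filter_not T (fun f => f ∈ s.B)]
    congr 1
    refine sum_congr ?_ fun _ _ => rfl
    ext f
    simp only [mem_filter, mem_sdiff]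
  rw [h1]
  refine add_le_add (le_of_eq ?_) ?_
  · rw [← sum_swap s.W s.B (fun f _ => (xv u s f) ^ 4)]
    refine sum_congr rfl fun f _ => ?_
    rw [sum_const, nsmul_eq_mul]
    rfl
  · unfold V
    rw [mul_sum]
    refine sum_le_sum fun T _ => ?_
    calc ∑ f ∈ T \ s.B, (xv u s f) ^ 4 ≤ ∑ f ∈ T \ s.B, th ^ 4 := by
          refine sum_le_sum fun f _ => ?_
          have h2 := hI.bd f
          calc (xv u s f) ^ 4 = |xv u s f| ^ 4 := by
                rw [← abs_pow, abs_of_nonneg (by positivity)]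
            _ ≤ th ^ 4 := pow_le_pow_left₀ (abs_nonneg _) h2 4
      _ = th ^ 4 * ((T \ s.B).card : ℝ) := by
          rw [sum_const, nsmul_eq_mul, mul_comm]

end QQb

open QQb in
/-- [QQ] the quadratic term -/
theorem qq_le_b (Bl : Finset (Finset α)) (hB : Lin3 Bl) (th u : ℝ) (hth : th ≤ 1 / 10) (hu : 0 < u)
    (s : St α) (hI : Inv Bl th u s) :
    ∑ e ∈ s.B, (qq u s e) ^ 2 ≤ 20 * (S 4 u s + th ^ 4 * u * V s) := by
  have hdeg : ∀ e ∈ s.B, u * dW s.W e ≤ 11 / 10 := by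
    intro e he
    have h1 := (abs_le.1 (hI.bd e)).2
    have h2 : xv u s e = u * dW s.W e - 1 := by unfold xv; rw [if_pos he]
    rw [h2] at h1
    linarith
  have hpt : ∀ e ∈ s.B, (qq u s e) ^ 2 ≤
      44 / 5 * u * ∑ T ∈ s.W.filter (fun T => e ∈ T), ∑ f ∈ T.erase e, (xv u s f) ^ 4 := by
    intro e he
    have h1 : (∑ T ∈ s.W.filter (fun T => e ∈ T), (sm u s T e) ^ 2) ^ 2 ≤
        dW s.W e * ∑ T ∈ s.W.filter (fun T => e ∈ T), ((sm u s T e) ^ 2) ^ 2 := by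
      unfold dW
      exact sq_sum_le_card_mul_sum_sq
    have h2 : ∑ T ∈ s.W.filter (fun T => e ∈ T), ((sm u s T e) ^ 2) ^ 2 ≤
        8 * ∑ T ∈ s.W.filter (fun T => e ∈ T), ∑ f ∈ T.erase e, (xv u s f) ^ 4 := by
      rw [mul_sum]
      refine sum_le_sum fun T hT => ?_
      rw [mem_filter] at hT
      rw [← pow_mul]
      exact sm_pow4 u s T e (hB.card3 T (hI.sub hT.1)) hT.2
    have h3 : 0 ≤ ∑ T ∈ s.W.filter (fun T => e ∈ T), ∑ f ∈ T.erase e, (xv u s f) ^ 4 :=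
      sum_nonneg fun T _ => sum_nonneg fun f _ => by positivity
    have h4 : 0 ≤ dW s.W e := by unfold dW; positivity
    have h5 := hdeg e he
    unfold qq
    rw [mul_pow]
    calc u ^ 2 * (∑ T ∈ s.W.filter (fun T => e ∈ T), (sm u s T e) ^ 2) ^ 2
        ≤ u ^ 2 * (dW s.W e * (8 * ∑ T ∈ s.W.filter (fun T => e ∈ T),
            ∑ f ∈ T.erase e, (xv u s f) ^ 4)) := by
          refine mul_le_mul_of_nonneg_left (h1.trans ?_) (by positivity)
          exact mul_le_mul_of_nonneg_left h2 h4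
      _ = (u * dW s.W e) * (8 * u * ∑ T ∈ s.W.filter (fun T => e ∈ T),
            ∑ f ∈ T.erase e, (xv u s f) ^ 4) := by ring
      _ ≤ 11 / 10 * (8 * u * ∑ T ∈ s.W.filter (fun T => e ∈ T),
            ∑ f ∈ T.erase e, (xv u s f) ^ 4) :=
          mul_le_mul_of_nonneg_right h5 (by positivity)
      _ = _ := by ring
  have hsum : ∑ e ∈ s.B, ∑ T ∈ s.W.filter (fun T => e ∈ T), ∑ f ∈ T.erase e, (xv u s f) ^ 4 ≤
      2 * ∑ T ∈ s.W, ∑ f ∈ T, (xv u s f) ^ 4 := by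
    rw [sum_swap, mul_sum]
    refine sum_le_sum fun T hT => ?_
    have h3 := hB.card3 T (hI.sub hT)
    calc ∑ e ∈ T.filter (fun e => e ∈ s.B), ∑ f ∈ T.erase e, (xv u s f) ^ 4
        ≤ ∑ e ∈ T, ∑ f ∈ T.erase e, (xv u s f) ^ 4 :=
          sum_le_sum_of_subset_of_nonneg (filter_subset _ _)
            fun e _ _ => sum_nonneg fun f _ => by positivity
      _ = ∑ f ∈ T, ∑ e ∈ T.erase f, (xv u s f) ^ 4 := by
          refine sum_comm' ?_
          intro x y
          simp only [mem_erase]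
          constructor
          · rintro ⟨hx, hyx, hy⟩
            exact ⟨⟨fun h => hyx h.symm, hx⟩, hy⟩
          · rintro ⟨⟨hxy, hx⟩, hy⟩
            exact ⟨hx, fun h => hxy h.symm, hy⟩
      _ = 2 * ∑ f ∈ T, (xv u s f) ^ 4 := by
          rw [mul_sum]
          refine sum_congr rfl fun f hf => ?_
          rw [sum_const, card_erase_of_mem hf, h3, nsmul_eq_mul]
          norm_num
  have hV : 0 ≤ V s := by unfold V; exact sum_nonneg fun T _ => by positivity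
  have hS : u * ∑ f ∈ s.B, dW s.W f * (xv u s f) ^ 4 ≤ 11 / 10 * S 4 u s := by
    unfold S
    rw [mul_sum, mul_sum]
    refine sum_le_sum fun f hf => ?_
    have h5 := hdeg f hf
    calc u * (dW s.W f * (xv u s f) ^ 4) = (u * dW s.W f) * (xv u s f) ^ 4 := by ring
      _ ≤ 11 / 10 * (xv u s f) ^ 4 := mul_le_mul_of_nonneg_right h5 (by positivity)
  have hS0 : 0 ≤ S 4 u s := by unfold S; exact sum_nonneg fun f _ => by positivity
  have hp := sum_pts_le Bl th u s hI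
  have hT0 : 0 ≤ th ^ 4 * u * V s := by positivity
  calc ∑ e ∈ s.B, (qq u s e) ^ 2
      ≤ ∑ e ∈ s.B, 44 / 5 * u * ∑ T ∈ s.W.filter (fun T => e ∈ T),
          ∑ f ∈ T.erase e, (xv u s f) ^ 4 := sum_le_sum hpt
    _ = 44 / 5 * u * ∑ e ∈ s.B, ∑ T ∈ s.W.filter (fun T => e ∈ T),
          ∑ f ∈ T.erase e, (xv u s f) ^ 4 := by rw [mul_sum]
    _ ≤ 44 / 5 * u * (2 * (∑ f ∈ s.B, dW s.W f * (xv u s f) ^ 4 + th ^ 4 * V s)) := by
        refine mul_le_mul_of_nonneg_left (hsum.trans ?_) (by positivity)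
        linarith
    _ = 88 / 5 * (u * ∑ f ∈ s.B, dW s.W f * (xv u s f) ^ 4) + 88 / 5 * (th ^ 4 * u * V s) := by
        ring
    _ ≤ 20 * (S 4 u s + th ^ 4 * u * V s) := by linarith

end

end Vale.Agent.P046.NL
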