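import Vale.Agent.P046.NL.GenSum
import Vale.Agent.P046.NL.Defs2

/-! P046, no log: row SBG (generator of `Sb` from the drift and the noise of `be`). -/

namespace Vale.Agent.P046.NL

open Finset Vale.Agent.P046

noncomputable section

variable {α : Type} [DecidableEq α]

variable {Bl : Finset (Finset α)} {th u r : ℝ} {s : St α}

theorem be_nring_sbg (u : ℝ) (s : St α) (T : Finset α) (e : α) : be u (nring s T) e = be u s e := rfl

theorem qq_nonneg_sbg (hu : 0 ≤ u) (s : St α) (e : α) : 0 ≤ qq u s e :=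
  mul_nonneg hu (sum_nonneg fun _ _ => sq_nonneg _)

/-- the row, from the two hypotheses `drift_be` and `noise_be` -/
theorem gen_Sb_raw_of (hur : u * r = 1) (hr : 100 ≤ r)
    (hdrift : ∀ e ∈ s.B,
      |genE r s e (fun s' => be u s' e) + 2 * dbe u s e + r * (Pb u s e + qq u s e)| ≤ 40)
    (hnoise : ∑ e ∈ s.B, (∑ T ∈ s.W.filter (fun T => e ∉ T), (be u (ring s T) e - be u s e) ^ 2
      + ∑ T ∈ s.W, ∑ f ∈ T \ s.B, (r * (1 + s.a f) - 1) * (be u (virt s T) e - be u s e) ^ 2) ≤
      200 * (S 2 u s + u * V s) + 10 * u ^ 3 * P2 s) :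
    gen Bl r (Sb u) s + 2 * dSb u s ≤
      - r * ∑ e ∈ s.B, (1 + xv u s e) * be u s e ^ 2
      - 2 * r * ∑ e ∈ s.B, be u s e * Pb u s e + 2 * r * ∑ e ∈ s.B, |be u s e| * qq u s e
      + 80 * ∑ e ∈ s.B, |be u s e| + 200 * (S 2 u s + u * V s) + 10 * u ^ 3 * P2 s := by
  have hr0 : 0 < r := by linarith
  have hu0 : 0 ≤ u := by
    by_contra hc
    push Not at hc
    have := mul_neg_of_neg_of_pos hc hr0
    linarith
  have h1 : gen Bl r (Sb u) s = ∑ e ∈ s.B, (-(dW s.W e) * be u s e ^ 2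
      + genAt r (fun s e => be u s e ^ 2) s e) :=
    gen_sum Bl r (fun s e => be u s e ^ 2) (fun _ _ _ => rfl) s
  have h2 : ∀ e, genAt r (fun s e => be u s e ^ 2) s e =
      2 * be u s e * genE r s e (fun s' => be u s' e) +
      (∑ T ∈ s.W.filter (fun T => e ∉ T), (be u (ring s T) e - be u s e) ^ 2
      + ∑ T ∈ s.W, ∑ f ∈ T \ s.B, (r * (1 + s.a f) - 1) * (be u (virt s T) e - be u s e) ^ 2) := by
    intro e
    unfold genAt genE
    rw [mul_add, mul_sum, mul_sum]
    have e1 : ∀ T ∈ s.W.filter (fun T => e ∉ T), be u (ring s T) e ^ 2 - be u s e ^ 2 =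
        2 * be u s e * (be u (ring s T) e - be u s e) + (be u (ring s T) e - be u s e) ^ 2 := by
      intro T _; ring
    have e2 : ∀ T ∈ s.W, ∑ f ∈ T \ s.B, (r * (1 + s.a f) - 1) *
        (be u (virt s T) e ^ 2 - be u s e ^ 2) =
        2 * be u s e * ∑ f ∈ T \ s.B, (r * (1 + s.a f) - 1) * (be u (virt s T) e - be u s e) +
        ∑ f ∈ T \ s.B, (r * (1 + s.a f) - 1) * (be u (virt s T) e - be u s e) ^ 2 := by
      intro T _
      rw [mul_sum, ← sum_add_distrib]
      refine sum_congr rfl fun f _ => ?_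
      ring
    rw [sum_congr rfl e1, sum_congr rfl e2, sum_add_distrib, sum_add_distrib]
    ring
  have h3 : ∀ e ∈ s.B, -(dW s.W e) * be u s e ^ 2 + genAt r (fun s e => be u s e ^ 2) s e
      + 2 * (2 * be u s e * dbe u s e) ≤
      -r * ((1 + xv u s e) * be u s e ^ 2) - 2 * r * (be u s e * Pb u s e)
        + 2 * r * (|be u s e| * qq u s e) + 80 * |be u s e| +
      (∑ T ∈ s.W.filter (fun T => e ∉ T), (be u (ring s T) e - be u s e) ^ 2
      + ∑ T ∈ s.W, ∑ f ∈ T \ s.B, (r * (1 + s.a f) - 1) * (be u (virt s T) e - be u s e) ^ 2) := by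
    intro e he
    rw [h2 e, dW_eq_xv hur s he]
    have hd := hdrift e he
    set X := genE r s e (fun s' => be u s' e) + 2 * dbe u s e with hX
    have hq := qq_nonneg_sbg hu0 s e
    have k1 : 2 * be u s e * genE r s e (fun s' => be u s' e) + 2 * (2 * be u s e * dbe u s e) =
        2 * be u s e * X := by rw [hX]; ring
    have k2 : be u s e * (X + r * (Pb u s e + qq u s e)) ≤ 40 * |be u s e| := by
      calc be u s e * (X + r * (Pb u s e + qq u s e))
          ≤ |be u s e * (X + r * (Pb u s e + qq u s e))| := le_abs_self _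
        _ = |be u s e| * |X + r * (Pb u s e + qq u s e)| := abs_mul _ _
        _ ≤ |be u s e| * 40 := mul_le_mul_of_nonneg_left hd (abs_nonneg _)
        _ = _ := by ring
    have k3 : - (be u s e * qq u s e) ≤ |be u s e| * qq u s e := by
      have := mul_le_mul_of_nonneg_right (neg_abs_le (be u s e)) hq
      linarith
    have k4 := mul_le_mul_of_nonneg_left k3 (by linarith : (0 : ℝ) ≤ 2 * r)
    nlinarith
  have h4 := sum_le_sum h3
  have h5 : gen Bl r (Sb u) s + 2 * dSb u s = ∑ e ∈ s.B, (-(dW s.W e) * be u s e ^ 2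
      + genAt r (fun s e => be u s e ^ 2) s e + 2 * (2 * be u s e * dbe u s e)) := by
    rw [h1]
    unfold dSb
    rw [mul_sum, ← sum_add_distrib]
  rw [h5]
  refine h4.trans ?_
  rw [sum_add_distrib, sum_add_distrib, sum_add_distrib, sum_sub_distrib, ← mul_sum, ← mul_sum,
    ← mul_sum, ← mul_sum]
  linarith

end

end Vale.Agent.P046.NL
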