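import Vale.Agent.P046.NL.GS

/-!
P046, no log: the events at a real point and the change of `be`.
-/

namespace Vale.Agent.P046.NL

open Finset Vale.Agent.P046

noncomputable section

variable {α : Type} [DecidableEq α]

/-- weighted sum over the events that keep the real point `e` -/
def evs (r : ℝ) (s : St α) (e : α) (F : St α → ℝ) : ℝ :=
  ∑ T ∈ s.W.filter (fun T => e ∉ T), F (ring s T)
    + ∑ T ∈ s.W, ∑ f ∈ T \ s.B, (r * (1 + s.a f) - 1) * F (virt s T)

theorem genAt_eq_evs (r : ℝ) (g : St α → α → ℝ) (s : St α) (e : α) :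
    genAt r g s e = evs r s e (fun s' => g s' e - g s e) := rfl

/-- common properties of the states after an event -/
structure Evt (s s' : St α) : Prop where
  sub : s'.W ⊆ s.W
  mem : ∀ T ∈ s'.W, ∀ f ∈ T, (f ∈ s'.B ↔ f ∈ s.B)
  a : s'.a = s.a

theorem evt_ring (s : St α) (T : Finset α) : Evt s (ring s T) where
  sub := filter_subset _ _
  mem := by
    intro S hS f hf
    have h1 : S ∈ s.W.filter (fun S => S ≠ T ∧ Disjoint S (T ∩ s.B)) := hS
    rw [mem_filter] at h1
    have h2 : f ∈ (ring s T).B ↔ f ∈ s.B ∧ f ∉ T := mem_sdiff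
    rw [h2]
    constructor
    · exact fun h => h.1
    · intro h
      refine ⟨h, fun hT => ?_⟩
      exact (disjoint_left.mp h1.2.2) hf (mem_inter.mpr ⟨hT, h⟩)
  a := rfl

theorem evt_virt (s : St α) (T : Finset α) : Evt s (virt s T) where
  sub := erase_subset _ _
  mem := fun _ _ _ _ => Iff.rfl
  a := rfl

theorem evs_le {r : ℝ} {s : St α} {e : α} {F G : St α → ℝ}
    (hrate : ∀ T ∈ s.W, ∀ f ∈ T \ s.B, 0 ≤ r * (1 + s.a f) - 1)
    (h1 : ∀ T ∈ s.W, e ∉ T → F (ring s T) ≤ G (ring s T))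
    (h2 : ∀ T ∈ s.W, F (virt s T) ≤ G (virt s T)) : evs r s e F ≤ evs r s e G := by
  unfold evs
  refine add_le_add (sum_le_sum fun T hT => ?_) (sum_le_sum fun T hT => sum_le_sum fun f hf => ?_)
  · rw [mem_filter] at hT
    exact h1 T hT.1 hT.2
  · exact mul_le_mul_of_nonneg_left (h2 T hT) (hrate T hT f hf)

theorem evs_congr {r : ℝ} {s : St α} {e : α} {F G : St α → ℝ}
    (h1 : ∀ T ∈ s.W, e ∉ T → F (ring s T) = G (ring s T))
    (h2 : ∀ T ∈ s.W, F (virt s T) = G (virt s T)) : evs r s e F = evs r s e G := by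
  unfold evs
  congr 1
  · refine sum_congr rfl fun T hT => ?_
    rw [mem_filter] at hT
    exact h1 T hT.1 hT.2
  · refine sum_congr rfl fun T hT => sum_congr rfl fun f hf => ?_
    rw [h2 T hT]

theorem evs_congr' {r : ℝ} {s : St α} {e : α} {F G : St α → ℝ}
    (h : ∀ s', Evt s s' → F s' = G s') : evs r s e F = evs r s e G :=
  evs_congr (fun T _ _ => h _ (evt_ring s T)) (fun T _ => h _ (evt_virt s T))

theorem evs_add (r : ℝ) (s : St α) (e : α) (F G : St α → ℝ) :
    evs r s e (fun s' => F s' + G s') = evs r s e F + evs r s e G := by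
  unfold evs
  simp only [mul_add, sum_add_distrib]
  ring

theorem evs_mul (r : ℝ) (s : St α) (e : α) (c : ℝ) (F : St α → ℝ) :
    evs r s e (fun s' => c * F s') = c * evs r s e F := by
  unfold evs
  rw [mul_add, mul_sum, mul_sum]
  congr 1
  refine sum_congr rfl fun T _ => ?_
  rw [mul_sum]
  exact sum_congr rfl fun f _ => by ring

theorem evs_sum {ι : Type*} (r : ℝ) (s : St α) (e : α) (t : Finset ι) (F : ι → St α → ℝ) :
    evs r s e (fun s' => ∑ i ∈ t, F i s') = ∑ i ∈ t, evs r s e (F i) := by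
  unfold evs
  rw [sum_add_distrib]
  congr 1
  · exact sum_comm
  · rw [sum_comm (s := t)]
    refine sum_congr rfl fun T _ => ?_
    rw [sum_comm (s := t)]
    refine sum_congr rfl fun f _ => ?_
    rw [mul_sum]

theorem evs_nonneg {r : ℝ} {s : St α} {e : α} {F : St α → ℝ}
    (hrate : ∀ T ∈ s.W, ∀ f ∈ T \ s.B, 0 ≤ r * (1 + s.a f) - 1)
    (h1 : ∀ T ∈ s.W, e ∉ T → 0 ≤ F (ring s T))
    (h2 : ∀ T ∈ s.W, 0 ≤ F (virt s T)) : 0 ≤ evs r s e F := by
  unfold evs
  refine add_nonneg (sum_nonneg fun T hT => ?_) (sum_nonneg fun T hT => sum_nonneg fun f hf => ?_)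
  · rw [mem_filter] at hT
    exact h1 T hT.1 hT.2
  · exact mul_nonneg (hrate T hT f hf) (h2 T hT)

/-- indicator: the block `T` is not there any more -/
def kk (s' : St α) (T : Finset α) : ℝ := if T ∈ s'.W then 0 else 1

theorem kk_nonneg (s' : St α) (T : Finset α) : 0 ≤ kk s' T := by
  unfold kk; split_ifs <;> norm_num

theorem kk_le_one (s' : St α) (T : Finset α) : kk s' T ≤ 1 := by
  unfold kk; split_ifs <;> norm_num

theorem kk_ring (s : St α) (T : Finset α) {S : Finset α} (hS : S ∈ s.W) :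
    kk (ring s T) S = if hit s T S then 1 else 0 := by
  unfold kk
  rw [ring_W]
  by_cases h : hit s T S
  · rw [if_pos h, if_neg]
    rw [mem_filter]
    exact fun h' => h'.2 h
  · rw [if_neg h, if_pos]
    exact mem_filter.mpr ⟨hS, h⟩

theorem kk_virt (s : St α) (T : Finset α) {S : Finset α} (hS : S ∈ s.W) :
    kk (virt s T) S = if S = T then 1 else 0 := by
  unfold kk
  have h1 : (virt s T).W = s.W.erase T := rfl
  rw [h1]
  by_cases h : S = T
  · rw [if_pos h, if_neg]
    rw [mem_erase]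
    exact fun h' => h'.1 h
  · rw [if_neg h, if_pos]
    exact mem_erase.mpr ⟨h, hS⟩

theorem dW_diff {s s' : St α} (hsub : s'.W ⊆ s.W) (f : α) :
    dW s.W f - dW s'.W f = ∑ T ∈ s.W.filter (fun T => f ∈ T), kk s' T := by
  have h1 : dW s.W f = ∑ S ∈ s.W.filter (fun S => f ∈ S), (1 : ℝ) := by
    rw [sum_const, nsmul_eq_mul, mul_one]
    rfl
  have h2 : dW s'.W f = ∑ S ∈ s.W.filter (fun S => f ∈ S), (if S ∈ s'.W then (1 : ℝ) else 0) := by
    rw [← sum_filter, sum_const, nsmul_eq_mul, mul_one, filter_filter]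
    unfold dW
    congr 2
    ext S
    simp only [mem_filter]
    constructor
    · rintro ⟨h, h'⟩
      exact ⟨hsub h, h', h⟩
    · rintro ⟨-, h', h⟩
      exact ⟨h, h'⟩
  rw [h1, h2, ← sum_sub_distrib]
  refine sum_congr rfl fun S _ => ?_
  unfold kk
  split_ifs <;> ring

/-- killed part of the change of `be` (without the factor `u`) -/
def KK (u : ℝ) (s s' : St α) (e : α) : ℝ :=
  ∑ T ∈ s.W.filter (fun T => e ∈ T), kk s' T * sm u s T e

/-- surviving part of the change of `be` (without the factor `u ^ 2`) -/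
def LL (s s' : St α) (e : α) : ℝ :=
  ∑ T ∈ s.W.filter (fun T => e ∈ T), (1 - kk s' T) *
    ∑ f ∈ (T.erase e).filter (fun f => f ∈ s.B), (dW s.W f - dW s'.W f)

theorem sm_event {u : ℝ} {s s' : St α} (h : Evt s s') {T : Finset α} (hT : T ∈ s'.W) (e : α) :
    sm u s' T e = sm u s T e
      - u * ∑ f ∈ (T.erase e).filter (fun f => f ∈ s.B), (dW s.W f - dW s'.W f) := by
  unfold sm
  rw [mul_sum, sum_filter, ← sum_sub_distrib]
  refine sum_congr rfl fun f hf => ?_
  have h1 := h.mem T hT f (mem_of_mem_erase hf)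
  unfold xv
  rw [h.a]
  by_cases hB : f ∈ s.B
  · rw [if_pos (h1.mpr hB), if_pos hB, if_pos hB]
    ring
  · rw [if_neg (fun h' => hB (h1.mp h')), if_neg hB, if_neg hB]
    ring

theorem be_event {u : ℝ} {s s' : St α} (h : Evt s s') (e : α) :
    be u s' e = be u s e - (u * KK u s s' e + u ^ 2 * LL s s' e) := by
  have h1 : ∑ T ∈ s'.W.filter (fun T => e ∈ T), sm u s' T e
      = ∑ T ∈ s.W.filter (fun T => e ∈ T), (1 - kk s' T) * (sm u s T e
        - u * ∑ f ∈ (T.erase e).filter (fun f => f ∈ s.B), (dW s.W f - dW s'.W f)) := by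
    have h2 : s'.W.filter (fun T => e ∈ T)
        = (s.W.filter (fun T => e ∈ T)).filter (fun T => T ∈ s'.W) := by
      ext T
      simp only [mem_filter]
      constructor
      · rintro ⟨h3, h4⟩
        exact ⟨⟨h.sub h3, h4⟩, h3⟩
      · rintro ⟨⟨-, h4⟩, h3⟩
        exact ⟨h3, h4⟩
    rw [h2, sum_filter]
    refine sum_congr rfl fun T _ => ?_
    unfold kk
    by_cases hT : T ∈ s'.W
    · rw [if_pos hT, if_pos hT, sm_event h hT e]
      ring
    · rw [if_neg hT, if_neg hT]
      ring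
  unfold be KK LL
  rw [h1]
  have h3 : u * ∑ T ∈ s.W.filter (fun T => e ∈ T), (1 - kk s' T) * (sm u s T e
        - u * ∑ f ∈ (T.erase e).filter (fun f => f ∈ s.B), (dW s.W f - dW s'.W f))
      = u * ∑ T ∈ s.W.filter (fun T => e ∈ T), sm u s T e
        - (u * ∑ T ∈ s.W.filter (fun T => e ∈ T), kk s' T * sm u s T e
          + u ^ 2 * ∑ T ∈ s.W.filter (fun T => e ∈ T), (1 - kk s' T) *
            ∑ f ∈ (T.erase e).filter (fun f => f ∈ s.B), (dW s.W f - dW s'.W f)) := by
    rw [mul_sum, mul_sum, mul_sum, mul_sum, ← sum_add_distrib, ← sum_sub_distrib]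
    refine sum_congr rfl fun T _ => ?_
    ring
  rw [h3]

/-- sum of the rates over a block -/
theorem sum_rate {Bl : Finset (Finset α)} (u r : ℝ) (hL : Lin3 Bl) {s : St α}
    (hsub : s.W ⊆ Bl) {T : Finset α} (hT : T ∈ s.W) {e : α} (he : e ∈ T) :
    ∑ f ∈ T.erase e, (r * (1 + xv u s f) - 1) = (2 * r - 2) + r * sm u s T e := by
  unfold sm
  have h2 : (T.erase e).card = 2 := by
    rw [card_erase_of_mem he, hL.card3 T (hsub hT)]
  have h3 : ∑ f ∈ T.erase e, (r * (1 + xv u s f) - 1)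
      = ∑ f ∈ T.erase e, (r - 1) + r * ∑ f ∈ T.erase e, xv u s f := by
    rw [mul_sum, ← sum_add_distrib]
    exact sum_congr rfl fun f _ => by ring
  rw [h3, sum_const, nsmul_eq_mul, h2]
  push_cast
  ring

/-- the rate at which the block `T` is killed by events that keep `e ∈ T` -/
theorem kill_rate {Bl : Finset (Finset α)} {u r : ℝ} (hL : Lin3 Bl) (hur : u * r = 1) {s : St α}
    (hsub : s.W ⊆ Bl) {e : α} (he : e ∈ s.B) {T : Finset α} (hT : T ∈ s.W) (heT : e ∈ T) :
    evs r s e (fun s' => kk s' T) = (2 * r - 2) + r * sm u s T e := by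
  rw [← sum_rate u r hL hsub hT heT,
    ← sum_filter_add_sum_filter_not (T.erase e) (fun f => f ∈ s.B)]
  unfold evs
  congr 1
  · have h1 := card_hit hL hsub hT
    have h2 : ∑ T0 ∈ s.W, (if hit s T0 T then (1 : ℝ) else 0)
        = ∑ T0 ∈ s.W.filter (fun T0 => e ∉ T0), (if hit s T0 T then (1 : ℝ) else 0)
          + ∑ T0 ∈ s.W.filter (fun T0 => ¬ e ∉ T0), (if hit s T0 T then (1 : ℝ) else 0) :=
      (sum_filter_add_sum_filter_not s.W (fun T0 => e ∉ T0) _).symm
    have h3 : ∑ T0 ∈ s.W.filter (fun T0 => ¬ e ∉ T0), (if hit s T0 T then (1 : ℝ) else 0)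
        = dW s.W e := by
      have h4 : ∀ T0 ∈ s.W.filter (fun T0 => ¬ e ∉ T0),
          (if hit s T0 T then (1 : ℝ) else 0) = 1 := by
        intro T0 hT0
        rw [mem_filter, not_not] at hT0
        rw [if_pos]
        intro h
        exact (disjoint_left.mp h.2) heT (mem_inter.mpr ⟨hT0.2, he⟩)
      rw [sum_congr rfl h4, sum_const, nsmul_eq_mul, mul_one]
      unfold dW
      simp only [not_not]
    have h5 : ∑ f ∈ T.filter (fun f => f ∈ s.B), (dW s.W f - 1)
        = (dW s.W e - 1) + ∑ f ∈ (T.erase e).filter (fun f => f ∈ s.B), (dW s.W f - 1) := by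
      have h6 : (T.erase e).filter (fun f => f ∈ s.B) = (T.filter (fun f => f ∈ s.B)).erase e := by
        ext f
        simp only [mem_filter, mem_erase]
        tauto
      rw [h6]
      exact (add_sum_erase (T.filter (fun f => f ∈ s.B)) (fun f => dW s.W f - 1)
        (mem_filter.mpr ⟨heT, he⟩)).symm
    have h7 : ∑ f ∈ (T.erase e).filter (fun f => f ∈ s.B), (r * (1 + xv u s f) - 1)
        = ∑ f ∈ (T.erase e).filter (fun f => f ∈ s.B), (dW s.W f - 1) := by
      refine sum_congr rfl fun f hf => ?_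
      rw [mem_filter] at hf
      exact rate_real hur s hf.2
    have h8 : ∑ T0 ∈ s.W.filter (fun T0 => e ∉ T0), kk (ring s T0) T
        = ∑ T0 ∈ s.W.filter (fun T0 => e ∉ T0), (if hit s T0 T then (1 : ℝ) else 0) :=
      sum_congr rfl fun T0 _ => kk_ring s T0 hT
    rw [h7, h8]
    linarith
  · have h1 : ∀ T0 ∈ s.W, ∑ f ∈ T0 \ s.B, (r * (1 + s.a f) - 1) * kk (virt s T0) T
        = if T0 = T then ∑ f ∈ T0 \ s.B, (r * (1 + s.a f) - 1) else 0 := by
      intro T0 _
      rw [kk_virt s T0 hT]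
      by_cases h : T0 = T
      · rw [if_pos h, if_pos h.symm]
        simp only [mul_one]
      · rw [if_neg h, if_neg (Ne.symm h)]
        simp only [mul_zero, sum_const_zero]
    rw [sum_congr rfl h1, sum_ite_eq' s.W T, if_pos hT]
    have h8 : (T.erase e).filter (fun f => ¬ f ∈ s.B) = T \ s.B := by
      ext f
      rw [mem_filter, mem_erase, mem_sdiff]
      constructor
      · rintro ⟨⟨-, h⟩, h'⟩
        exact ⟨h, h'⟩
      · rintro ⟨h, h'⟩
        exact ⟨⟨fun hfe => h' (hfe ▸ he), h⟩, h'⟩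
    rw [h8]
    refine sum_congr rfl fun f hf => ?_
    rw [mem_sdiff] at hf
    rw [rate_virt r s hf.2]

/-- the events that keep `T` see both points of `T` -/
theorem evs_survive {r : ℝ} {s : St α} {e f : α} (he : e ∈ s.B) (hf : f ∈ s.B) {T : Finset α}
    (hT : T ∈ s.W) (heT : e ∈ T) (hfT : f ∈ T) (G : St α → ℝ) :
    evs r s e (fun s' => (1 - kk s' T) * G s') = evs r s f (fun s' => (1 - kk s' T) * G s') := by
  unfold evs
  congr 1
  rw [sum_filter, sum_filter]
  refine sum_congr rfl fun T0 _ => ?_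
  have h1 : ∀ g ∈ s.B, g ∈ T → g ∈ T0 → (1 - kk (ring s T0) T) * G (ring s T0) = 0 := by
    intro g hg hgT hgT0
    rw [kk_ring s T0 hT, if_pos, sub_self, zero_mul]
    intro h
    exact (disjoint_left.mp h.2) hgT (mem_inter.mpr ⟨hgT0, hg⟩)
  by_cases h2 : e ∈ T0
  · rw [if_neg (not_not.mpr h2)]
    by_cases h3 : f ∈ T0
    · rw [if_neg (not_not.mpr h3)]
    · rw [if_pos h3]
      exact (h1 e he heT h2).symm
  · rw [if_pos h2]
    by_cases h3 : f ∈ T0
    · rw [if_neg (not_not.mpr h3)]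
      exact h1 f hf hfT h3
    · rw [if_pos h3]

end

end Vale.Agent.P046.NL
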