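import Vale.Agent.P046.NL.COREST2b
import Vale.Agent.P046.NL.SCALT

/-! P046: strong form (with dissipation) of one core step of the second stage -/

namespace Vale.Agent.P046.NL

open Finset Vale.Agent.P046

noncomputable section

variable {α : Type} [DecidableEq α]

open CS MC

/-- [ST2S] one core step of the second stage, strong form -/
theorem st2_core_strong (ep t dl : ℝ) (h0 : 0 < ep) (h1 : ep ≤ 1 / 100)
    (ht0 : 0 < t) (ht : t ≤ ep ^ 2 / 5000) (hd1 : ep / 8 ≤ dl) (hd2 : dl ≤ ep / 2) :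
    ∃ u1 : ℝ, 0 < u1 ∧ u1 ≤ 1 / 100 ∧
    ∀ (α : Type) [DecidableEq α] (Bl : Finset (Finset α)) (C6 C8 : Finset (Finset (Finset α))),
    Sys Bl C6 C8 → ∀ (umin uK : ℝ) (A₀ : Finset α), 0 < umin → uK ≤ u1 →
    ∃ E h1 : ℝ, 0 ≤ E ∧ 0 < h1 ∧
    ∀ h u : ℝ, 0 < h → h ≤ h1 → umin ≤ u → u + 2 * h ≤ uK → ∀ s : St α, s.B ⊆ A₀ → s.A ⊆ A₀ →
      Inv Bl (2 * t) (u + 2 * h) s →
      PsiS ep t dl uK Bl C6 C8 (u + 2 * h) s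
        + h * gen Bl (1 / (u + 2 * h)) (fun s' => PsiS ep t dl uK Bl C6 C8 (u + 2 * h) s') s
        ≤ PsiS ep t dl uK Bl C6 C8 u s
          - h / (u + 2 * h) * (4 * 10 ^ 8 / ep * (uK ^ (1 - ep : ℝ) * (u + 2 * h) ^ (7 / 10 : ℝ)
              / 20 * Q s
            + uK ^ (1 - ep : ℝ) * (u + 2 * h) ^ (1 / 10 : ℝ) / 4 * S 2 (u + 2 * h) s))
          + E * h ^ 2 := by
  obtain ⟨u1, hu1p, hu1, hsc⟩ := scalar_st2_strong ep t dl h0 h1 ht0 ht hd1 hd2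
  refine ⟨u1, hu1p, hu1, ?_⟩
  intro α _ Bl C6 C8 hS umin uK A₀ hu0 huK
  rcases le_or_gt uK 0 with hK0 | hK0
  · refine ⟨0, 1, le_rfl, one_pos, ?_⟩
    intro h u hh _ hum huk
    linarith
  have hep2 : ep ^ 2 ≤ ep * (1 / 100) := by
    rw [sq]; exact mul_le_mul_of_nonneg_left h1 h0.le
  have ht1 : 2 * t ≤ 1 / 10 := by linarith
  have hdl : 0 < dl := by linarith
  have hdl2 : dl ≤ 1 / 2 := by linarith
  have ht4 : 4 * (2 * t) ≤ dl := by linarith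
  obtain ⟨E1, hE1, H1⟩ := term1 (t := t) hu0 hS.lin A₀ (1 / 2 : ℝ)
  obtain ⟨E1', hE1', H1'⟩ := term1 (t := t) hu0 hS.lin A₀ (7 / 10 : ℝ)
  obtain ⟨E1'', hE1'', H1''⟩ := term1 (t := t) hu0 hS.lin A₀ (7 / 5 : ℝ)
  obtain ⟨E2, hE2, H2⟩ := term2 ht0 ht1 hu0 hS.lin A₀ (2 / 5 : ℝ)
  obtain ⟨E2', hE2', H2'⟩ := term2 ht0 ht1 hu0 hS.lin A₀ (1 / 10 : ℝ)
  obtain ⟨E3, hE3, H3⟩ := term3 h0 ht0 ht1 hu0 hS A₀ (-(1 / 2 + ep) : ℝ)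
  obtain ⟨E4, hE4, H4⟩ := term4 ht0 ht1 hu0 hS.lin A₀ (-(1 / 2 + ep) : ℝ)
  obtain ⟨E5, hE5, H5⟩ := term5 ht0 ht1 hu0 hS.lin A₀ (-(1 / 2 + ep) : ℝ)
  obtain ⟨E6, hE6, H6⟩ := term6 ht0 ht1 hdl hdl2 ht4 hu0 hS.lin A₀ (-(1 / 2 + ep / 2) : ℝ)
  obtain ⟨E7, hE7, H7⟩ := term7 ht1 hu0 hS.lin A₀ C6 6
    (fun c hc => ⟨(hS.h6 c hc).2.1, (hS.h6 c hc).2.2⟩) (57 / 20 : ℝ)
  obtain ⟨E8, hE8, H8⟩ := term7 ht1 hu0 hS.lin A₀ C8 8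
    (fun c hc => ⟨(hS.h8 c hc).2.1, (hS.h8 c hc).2.2⟩) (7 / 2 - ep : ℝ)
  obtain ⟨K1, hK1⟩ : ∃ x : ℝ, x = uK ^ (1 - ep : ℝ) := ⟨_, rfl⟩
  obtain ⟨K2, hK2⟩ : ∃ x : ℝ, x = uK ^ (1 / 10 - ep : ℝ) := ⟨_, rfl⟩
  have hK1p : 0 ≤ K1 := by rw [hK1]; exact Real.rpow_nonneg hK0.le _
  have hK2p : 0 ≤ K2 := by rw [hK2]; exact Real.rpow_nonneg hK0.le _
  refine ⟨4 * 10 ^ 8 / ep * K1 * E1 + 4 * 10 ^ 8 / ep * K1 * E1'
    + 4 * 10 ^ 8 / ep * (1 / 2 * K2) * E1'' + 4 * 10 ^ 6 / ep * K2 * E2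
    + 4 * 10 ^ 8 / ep * K1 * E2' + E3 + 1000 / ep * E4 + 400 * t ^ 4 / ep * E5 + E6 + E7
    + 10 ^ 6 * E8, umin / 8, by positivity, by positivity, ?_⟩
  intro h u hh hhm hum hu2 s hB hA hI
  have c : CS.Cnd t umin Bl A₀ u h s := ⟨hh, hhm, hum, by linarith, hB, hA, hI⟩
  have hv := c.vpos hu0
  have k1 := (abs_le.mp (H1 u h s c)).2
  have k1' := (abs_le.mp (H1' u h s c)).1
  have k1'' := (abs_le.mp (H1'' u h s c)).1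
  have k2 := H2 u h s c
  have k2' := H2' u h s c
  have k3 := H3 u h s c
  have k4 := H4 u h s c
  have k5 := H5 u h s c
  have k6 := H6 u h s c
  have k7 := H7 u h s c
  have k8 := H8 u h s c
  have ks := hsc uK (u + 2 * h) (Q s) (S 2 (u + 2 * h) s) (S 4 (u + 2 * h) s)
    (Sb (u + 2 * h) s)
    ((u + 2 * h) * V s) (Nc C6 s) (Nc C8 s) (Ph Bl dl (u + 2 * h) s)
    (∑ e ∈ s.B, xv (u + 2 * h) s e) hv hu2 huK (Q_nonneg s) (S_nonneg (by decide) _ _)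
    (S_nonneg (by decide) _ _) (Sb_nonneg _ _) (mul_nonneg hv.le (V_nonneg s)) (Nc_nonneg _ _)
    (Nc_nonneg _ _) (Ph_nonneg _ hdl _ _) (fun mu hmu => X1_bound _ s mu hmu)
  rw [gen_PsiS]
  have hr0 : 0 ≤ h * (1 / (u + 2 * h)) := by positivity
  have ks' := mul_le_mul_of_nonneg_left ks hr0
  have hdiv : h / (u + 2 * h) = h * (1 / (u + 2 * h)) := by ring
  rw [hdiv]
  have c1 : 0 ≤ 4 * 10 ^ 8 / ep * K1 := by positivity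
  have c2 : 0 ≤ 4 * 10 ^ 8 / ep * (1 / 2 * K2) := by positivity
  have c3 : 0 ≤ 4 * 10 ^ 6 / ep * K2 := by positivity
  have m1 := mul_le_mul_of_nonneg_left k1 c1
  have m1' := mul_le_mul_of_nonneg_left k1' c1
  have m1'' := mul_le_mul_of_nonneg_left k1'' c2
  have m2 := mul_le_mul_of_nonneg_left k2 c3
  have m2' := mul_le_mul_of_nonneg_left k2' c1
  have k4' := mul_le_mul_of_nonneg_left k4 (show 0 ≤ 1000 / ep by positivity)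
  have k5' := mul_le_mul_of_nonneg_left k5 (show 0 ≤ 400 * t ^ 4 / ep by positivity)
  have k8' := mul_le_mul_of_nonneg_left k8 (show (0 : ℝ) ≤ 10 ^ 6 by positivity)
  unfold PsiS
  push_cast at k7 k8' ⊢
  rw [← hK1, ← hK2] at ks' ⊢
  clear hsc H1 H1' H1'' H2 H2' H3 H4 H5 H6 H7 H8 k1 k1' k1'' k2 k2' k4 k5 k8
  linarith

end

end Vale.Agent.P046.NL
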