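import Vale.Agent.P046.NL.ThetaOf
import Vale.Agent.P046.NL.Final
import Vale.Agent.P046.NL.EARLYTHM
import Vale.Agent.P046.NL.EARLYCORE
import Vale.Agent.P046.NL.MIDTHM
import Vale.Agent.P046.NL.SYSBK
import Vale.Agent.P046.NL.DECORE
import Vale.Agent.P046.NL.BADCORE

/-!
P046: the order of `E F_n`: final assembly of the no-log upper bound and the no-log lower bound.
-/

namespace Vale.Agent.P046.NL

open Finset Vale.Agent.P046

noncomputable section

/-- the early phase, unconditional -/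
theorem early_run : ∃ (n0 : ℕ) (C : ℝ), ∀ n : ℕ, n0 ≤ n →
      run (BK n) (fun A => (A.card : ℝ)) (tr (univ : Finset (Fin n))).card
        (tr (univ : Finset (Fin n))) ≤ C * (n : ℝ) ^ (3 / 2 : ℝ) :=
  early_thm_of (mid_thm e0 ET.e0_pos (by unfold e0; norm_num)) early_core sys_BK

/-- upper bound without logarithms -/
theorem expF_upper : ∃ C : ℝ, 0 < C ∧ ∀ n : ℕ, 1 ≤ n → expF n ≤ C * (n : ℝ) ^ (3 / 2 : ℝ) :=
  final_of early_run

/-- lower bound without logarithms -/
theorem expF_lower : ∃ c : ℝ, 0 < c ∧ ∃ n0 : ℕ, ∀ n : ℕ, n0 ≤ n →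
    c * (n : ℝ) ^ (3 / 2 : ℝ) ≤ expF n := by
  obtain ⟨c, hc, n0, h⟩ := TH.theta_of early_core
    (fun kap hk hk1 => de_core_of early_core_strong bad_core kap hk hk1)
  refine ⟨c, hc, n0, fun n hn => ?_⟩
  rw [expF_eq_run, EE_top]
  exact h n hn

end

end Vale.Agent.P046.NL
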